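import Vale.Agent.P267I.Forms

/-! Complex intersection numbers. -/

open scoped Manifold ContDiff Topology
open Filter Matrix

noncomputable section

namespace Vale.Agent.P267I

open Vale.Agent.P267F

variable {X : Type} [TopologicalSpace X] [ChartedSpace C2 X]

/-- `Inter` with a complex value. -/
def InterC (u v : X → X → ℂ) (d : ℂ) : Prop :=
  ∀ (θ θ' : X → X → C2 →L[ℝ] ℂ) (l : ℕ) (P : Fin l → OpenPartialHomeomorph X C2)
    (ψ : Fin l → X → ℝ), IsConnection u θ → IsConnection v θ' → (∀ a, HolChart (P a)) →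
    (∀ a, Continuous (ψ a)) → (∀ a, tsupport (ψ a) ⊆ (P a).source) → (∀ x, ∑ a, ψ a x = 1) →
    -(4 * Real.pi ^ 2 : ℂ)⁻¹ * ∑ a, ∫ z in (P a).target,
      (ψ a ((P a).symm z) : ℂ) * wedge (curv (P a) θ z) (curv (P a) θ' z) = d

theorem interC_int {u v : X → X → ℂ} {d : ℤ} : InterC u v d ↔ Inter u v d := Iff.rfl

variable (X) in
/-- Target of block I, with complex intersection numbers. -/
def IndexThmC : Prop :=
  ∃ bp bm : ℕ, IsSig X bp bm ∧ ∀ (u : X → X → ℂ) (a b k : ℂ), IsBundle HolAt u → InterC u u a →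
    InterC u (canon X) b → InterC (canon X) (canon X) k →
    ∃ d : ℤ, Euler u d ∧ 8 * (d : ℂ) = 4 * (a - b) + k - (bp - bm)

variable (X) in
/-- The Chern-Weil layer. -/
def CWForm : Prop :=
  ∃ I : (X → X → ℂ) → (X → X → ℂ) → ℂ,
    (∀ u v, IsBundle SmAt u → IsBundle SmAt v → InterC u v (I u v)) ∧
    (∀ u v, IsBundle SmAt u → IsBundle SmAt v → I u v = I v u) ∧
    (∀ u v w, IsBundle SmAt u → IsBundle SmAt v → IsBundle SmAt w →
      I (u * v) w = I u w + I v w) ∧
    ∀ u v w, IsBundle SmAt u → IsBundle SmAt v → IsBundle SmAt w → (∀ p, SmAt (v p / u p) p) →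
      I u w = I v w

variable (X) in
/-- Intersection numbers of smooth bundles are integers. -/
def InterInt : Prop := ∀ u v : X → X → ℂ, IsBundle SmAt u → IsBundle SmAt v → ∃ d : ℤ, Inter u v d

theorem IndexThmC.int (h : IndexThmC X) : IndexThm X := by
  obtain ⟨bp, bm, h1, h2⟩ := h
  refine ⟨bp, bm, h1, fun u a b k hu ha hb hk => ?_⟩
  obtain ⟨d, e1, e2⟩ := h2 u a b k hu ha hb hk
  exact ⟨d, e1, by exact_mod_cast e2⟩

end Vale.Agent.P267I
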