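import Mathlib

/-! Abstract graded symmetric operator with compact resolvent and a regularity property. -/

namespace Vale.Agent.P267I

open scoped InnerProductSpace

variable {M H : Type*} [AddCommGroup M] [Module ℂ M]
  [NormedAddCommGroup H] [InnerProductSpace ℂ H]

/-- `M` = smooth sections, `j` = inclusion in `L²`, `D` = operator, `g` = grading. -/
structure AbsD (j : M →ₗ[ℂ] H) (D g : M →ₗ[ℂ] M) : Prop where
  inj : Function.Injective j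
  symm : ∀ u v, ⟪j (D u), j v⟫_ℂ = ⟪j u, j (D v)⟫_ℂ
  gsymm : ∀ u v, ⟪j (g u), j v⟫_ℂ = ⟪j u, j (g v)⟫_ℂ
  gg : ∀ u, g (g u) = u
  anti : ∀ u, D (g u) = - g (D u)
  rel : ∀ (u : ℕ → M) (A : ℝ), (∀ n, ‖j (u n)‖ ≤ A) → (∀ n, ‖j (D (u n))‖ ≤ A) →
    ∃ κ : ℕ → ℕ, StrictMono κ ∧ CauchySeq (fun n => j (u (κ n)))
  reg : ∀ (u : H) (lam : ℝ) (f : M),
    (∀ s, ⟪u, j (D (D s) - (lam : ℂ) • s)⟫_ℂ = ⟪j f, j s⟫_ℂ) → u ∈ LinearMap.range j

/-- joint eigenspace of `D²` and the grading -/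
def Eig (D g : M →ₗ[ℂ] M) (lam eps : ℝ) : Submodule ℂ M :=
  LinearMap.ker (D ∘ₗ D - (lam : ℂ) • LinearMap.id) ⊓
    LinearMap.ker (g - (eps : ℂ) • LinearMap.id)

theorem mem_Eig {D g : M →ₗ[ℂ] M} {lam eps : ℝ} {u : M} :
    u ∈ Eig D g lam eps ↔ D (D u) = (lam : ℂ) • u ∧ g u = (eps : ℂ) • u := by
  simp [Eig, sub_eq_zero]

/-- graded piece of the kernel -/
def KerG (D g : M →ₗ[ℂ] M) (eps : ℝ) : Submodule ℂ M :=
  LinearMap.ker D ⊓ LinearMap.ker (g - (eps : ℂ) • LinearMap.id)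

theorem mem_KerG {D g : M →ₗ[ℂ] M} {eps : ℝ} {u : M} :
    u ∈ KerG D g eps ↔ D u = 0 ∧ g u = (eps : ℂ) • u := by
  simp [KerG, sub_eq_zero]

/-- the graded index -/
noncomputable def absInd (D g : M →ₗ[ℂ] M) : ℤ :=
  (Module.finrank ℂ (KerG D g 1) : ℤ) - (Module.finrank ℂ (KerG D g (-1)) : ℤ)

/-- a complete orthonormal family of joint eigenvectors -/
structure EB (j : M →ₗ[ℂ] H) (D g : M →ₗ[ℂ] M) {ι : Type} (φ : ι → M) (lam eps : ι → ℝ) :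
    Prop where
  on : Orthonormal ℂ (fun i => j (φ i))
  tot : (Submodule.span ℂ (Set.range fun i => j (φ i)))ᗮ = ⊥
  eig : ∀ i, D (D (φ i)) = (lam i : ℂ) • φ i
  geig : ∀ i, g (φ i) = (eps i : ℂ) • φ i
  sgn : ∀ i, eps i = 1 ∨ eps i = -1

/-- the span of the graded eigenvectors below `Λ` -/
def Low (D g : M →ₗ[ℂ] M) (Λ eps : ℝ) : Submodule ℂ M :=
  ⨆ (lam : ℝ) (_ : lam < Λ), Eig D g lam eps

end Vale.Agent.P267I
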