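import Vale.Agent.P267I.Abs

namespace Vale.Agent.P267I

open scoped InnerProductSpace

variable {M H : Type*} [AddCommGroup M] [Module ℂ M]
  [NormedAddCommGroup H] [InnerProductSpace ℂ H] [CompleteSpace H]

theorem eig_normsq {j : M →ₗ[ℂ] H} {D g : M →ₗ[ℂ] M} (h : AbsD j D g) {u : M} {lam : ℝ}
    (hu : D (D u) = (lam : ℂ) • u) : ‖j (D u)‖ ^ 2 = lam * ‖j u‖ ^ 2 := by
  have h1 := h.symm u (D u)
  rw [hu, map_smul, inner_smul_right, inner_self_eq_norm_sq_to_K, inner_self_eq_norm_sq_to_K] at h1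
  have h2 : ((‖j (D u)‖ ^ 2 : ℝ) : ℂ) = ((lam * ‖j u‖ ^ 2 : ℝ) : ℂ) := by
    push_cast
    exact h1
  exact Complex.ofReal_injective h2

theorem eig_zero {j : M →ₗ[ℂ] H} {D g : M →ₗ[ℂ] M} (h : AbsD j D g) (eps : ℝ) :
    Eig D g 0 eps = KerG D g eps := by
  ext u
  rw [mem_Eig, mem_KerG]
  refine and_congr_left fun _ => ⟨fun hu => ?_, fun hu => by simp [hu]⟩
  have h1 := eig_normsq h hu
  rw [zero_mul, sq_eq_zero_iff, norm_eq_zero] at h1
  exact h.inj (h1.trans (map_zero j).symm)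

theorem absfin_sep {j : M →ₗ[ℂ] H} {D g : M →ₗ[ℂ] M} (h : AbsD j D g) (u : ℕ → M) (A B : ℝ)
    (h1 : ∀ n, ‖j (u n)‖ ≤ A) (h2 : ∀ n, ‖j (D (u n))‖ ≤ B)
    (h3 : Pairwise fun m n => 1 ≤ ‖j (u m) - j (u n)‖) : False := by
  obtain ⟨κ, hκ, hc⟩ := h.rel u (max A B) (fun n => le_max_of_le_left (h1 n))
    fun n => le_max_of_le_right (h2 n)
  obtain ⟨N, hN⟩ := Metric.cauchySeq_iff'.1 hc 1 one_pos
  have h4 := hN (N + 1) (Nat.le_succ N)
  rw [dist_eq_norm] at h4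
  exact (h3 (hκ (Nat.lt_succ_self N)).ne').not_gt h4

/-- a subspace on which `D` is bounded is finite-dimensional -/
theorem fin_of_bdd {j : M →ₗ[ℂ] H} {D g : M →ₗ[ℂ] M} (h : AbsD j D g) (V : Submodule ℂ M)
    (C : ℝ) (hC : ∀ u ∈ V, ‖j (D u)‖ ≤ C * ‖j u‖) : FiniteDimensional ℂ V := by
  by_contra hV
  have h1 : ¬ FiniteDimensional ℂ (V.map j) := fun _ =>
    hV (Submodule.equivMapOfInjective j h.inj V).symm.finiteDimensional
  obtain ⟨R, f, -, hf, hp⟩ := exists_seq_norm_le_one_le_norm_sub h1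
  choose u hu hj using fun n => Submodule.mem_map.1 (f n).2
  refine absfin_sep h u R (|C| * R) (fun n => ?_) (fun n => ?_) fun m n hmn => ?_
  · rw [hj]
    exact hf n
  · refine (hC _ (hu n)).trans ?_
    rw [hj]
    exact mul_le_mul (le_abs_self C) (hf n) (norm_nonneg _) (abs_nonneg C)
  · beta_reduce
    rw [hj, hj]
    exact hp hmn

theorem eig_fin {j : M →ₗ[ℂ] H} {D g : M →ₗ[ℂ] M} (h : AbsD j D g) (lam eps : ℝ) :
    FiniteDimensional ℂ (Eig D g lam eps) := by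
  refine fin_of_bdd h _ (|lam| + 1) fun u hu => ?_
  refine le_of_sq_le_sq ?_ (by positivity)
  rw [eig_normsq h (mem_Eig.1 hu).1, mul_pow]
  refine mul_le_mul_of_nonneg_right ?_ (sq_nonneg _)
  nlinarith [le_abs_self lam, abs_nonneg lam]

theorem ker_fin {j : M →ₗ[ℂ] H} {D g : M →ₗ[ℂ] M} (h : AbsD j D g) :
    FiniteDimensional ℂ (LinearMap.ker D) :=
  fin_of_bdd h _ 0 fun u hu => by simp [LinearMap.mem_ker.1 hu]

theorem eb_nonneg {j : M →ₗ[ℂ] H} {D g : M →ₗ[ℂ] M} (h : AbsD j D g) {ι : Type} {φ : ι → M}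
    {lam eps : ι → ℝ} (b : EB j D g φ lam eps) (i : ι) : 0 ≤ lam i := by
  have h1 := eig_normsq h (b.eig i)
  have h2 : ‖j (φ i)‖ = 1 := b.on.1 i
  rw [h2, one_pow, mul_one] at h1
  exact h1 ▸ sq_nonneg _

theorem eb_finite {j : M →ₗ[ℂ] H} {D g : M →ₗ[ℂ] M} (h : AbsD j D g) {ι : Type} {φ : ι → M}
    {lam eps : ι → ℝ} (b : EB j D g φ lam eps) (Λ : ℝ) : {i | lam i ≤ Λ}.Finite := by
  by_contra hi
  let e := Set.Infinite.natEmbedding _ hi
  have hn : ∀ i, ‖j (φ i)‖ = 1 := b.on.1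
  refine absfin_sep h (fun n => φ (e n)) 1 (|Λ| + 1) (fun n => (hn _).le) (fun n => ?_)
    fun m n hmn => ?_
  · refine le_of_sq_le_sq ?_ (by positivity)
    have h1 : lam (e n) ≤ Λ := (e n).2
    rw [eig_normsq h (b.eig _), hn, one_pow, mul_one]
    nlinarith [le_abs_self Λ, abs_nonneg Λ]
  · have h1 : ⟪j (φ (e m)), j (φ (e n))⟫_ℂ = 0 :=
      b.on.2 fun h => hmn (e.injective (Subtype.ext h))
    have h2 := norm_sub_sq (𝕜 := ℂ) (j (φ (e m))) (j (φ (e n)))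
    rw [h1, hn, hn, map_zero] at h2
    refine le_of_sq_le_sq ?_ (norm_nonneg _)
    rw [h2]
    norm_num

end Vale.Agent.P267I
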