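import Vale.Agent.P267I.AbsK
import Vale.Agent.P267I.AbsFin

namespace Vale.Agent.P267I

open scoped InnerProductSpace

variable {M H : Type*} [AddCommGroup M] [Module ℂ M]
  [NormedAddCommGroup H] [InnerProductSpace ℂ H] [CompleteSpace H]

omit [CompleteSpace H] in
theorem absbasis_eig {j : M →ₗ[ℂ] H} {D g : M →ₗ[ℂ] M} (h : AbsD j D g) {v : H}
    (hv : ∀ (lam eps : ℝ), (eps = 1 ∨ eps = -1) → ∀ u ∈ Eig D g lam eps, ⟪j u, v⟫_ℂ = 0)
    {m : M} {lam : ℝ} (hm : D (D m) = (lam : ℂ) • m) : ⟪j m, v⟫_ℂ = 0 := by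
  have h1 : D (D (g m)) = (lam : ℂ) • g m := by
    rw [h.anti, map_neg, h.anti, neg_neg, hm, map_smul]
  have h2 := hv lam 1 (Or.inl rfl) (m + g m) (mem_Eig.2 ⟨by
    rw [map_add, map_add, hm, h1, smul_add], by
    rw [map_add, h.gg, Complex.ofReal_one, one_smul, add_comm]⟩)
  have h3 := hv lam (-1) (Or.inr rfl) (m - g m) (mem_Eig.2 ⟨by
    rw [map_sub, map_sub, hm, h1, smul_sub], by
    rw [map_sub, h.gg, Complex.ofReal_neg, Complex.ofReal_one, neg_smul, one_smul, neg_sub]⟩)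
  rw [map_add, inner_add_left] at h2
  rw [map_sub, inner_sub_left] at h3
  linear_combination (h2 + h3) / 2

omit [CompleteSpace H] in
theorem absbasis_weak {j : M →ₗ[ℂ] H} {D g : M →ₗ[ℂ] M} (h : AbsD j D g) {v : H}
    (hv : ∀ (lam eps : ℝ), (eps = 1 ∨ eps = -1) → ∀ u ∈ Eig D g lam eps, ⟪j u, v⟫_ℂ = 0)
    {u : H} {lam : ℝ} (hu : ∀ s, ⟪u, j (D (D s) - (lam : ℂ) • s)⟫_ℂ = 0) : ⟪u, v⟫_ℂ = 0 := by
  obtain ⟨m, rfl⟩ := h.reg u lam 0 fun s => by rw [hu, map_zero, inner_zero_left]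
  have h1 : ∀ s, ⟪j (D (D m) - (lam : ℂ) • m), j s⟫_ℂ = 0 := fun s => by
    have := hu s
    rw [map_sub, map_smul, inner_sub_right, inner_smul_right] at this
    rw [map_sub, map_smul, inner_sub_left, inner_smul_left, h.symm, h.symm, Complex.conj_ofReal]
    exact this
  have h2 : D (D m) - (lam : ℂ) • m = 0 :=
    h.inj (by rw [map_zero]; exact inner_self_eq_zero.1 (h1 _))
  exact absbasis_eig h hv (sub_eq_zero.1 h2)

/-- a vector orthogonal to every graded eigenvector vanishes -/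
theorem abs_total {j : M →ₗ[ℂ] H} {D g : M →ₗ[ℂ] M} (h : AbsD j D g) (v : H)
    (hv : ∀ (lam eps : ℝ), (eps = 1 ∨ eps = -1) → ∀ u ∈ Eig D g lam eps, ⟪j u, v⟫_ℂ = 0) :
    v = 0 := by
  obtain ⟨K, hc, hs, hK⟩ := abs_K h
  have hb := ContinuousLinearMap.orthogonalComplement_iSup_eigenspaces_eq_bot hc hs
  rw [← Submodule.mem_bot ℂ, ← hb, ← Submodule.iInf_orthogonal, Submodule.mem_iInf]
  intro μ
  rw [Submodule.mem_orthogonal]
  intro u hu
  by_cases h0 : u = 0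
  · rw [h0, inner_zero_left]
  have hr : (starRingEnd ℂ) μ = μ :=
    hs.conj_eigenvalue_eq_self (Module.End.hasEigenvalue_of_hasEigenvector ⟨hu, h0⟩)
  have he : K u = μ • u := Module.End.mem_eigenspace_iff.1 hu
  have hK' : ∀ s, μ * (⟪u, j s⟫_ℂ + ⟪u, j (D (D s))⟫_ℂ) = ⟪u, j s⟫_ℂ := fun s => by
    have := hK u s
    rwa [he, inner_smul_left, hr, map_add, inner_add_right] at this
  by_cases hμ : μ = 0
  · refine absbasis_weak h hv (lam := 0) fun s => ?_
    rw [← hK', hμ, zero_mul]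
  · obtain ⟨t, rfl⟩ := Complex.conj_eq_iff_real.1 hr
    refine absbasis_weak h hv (lam := (1 - t) / t) fun s => ?_
    rw [map_sub, map_smul, inner_sub_right, inner_smul_right]
    push_cast
    field_simp
    linear_combination hK' s

end Vale.Agent.P267I
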