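import Vale.Agent.P267I.AbsBasis

namespace Vale.Agent.P267I

open scoped InnerProductSpace

variable {M H : Type*} [AddCommGroup M] [Module ℂ M]
  [NormedAddCommGroup H] [InnerProductSpace ℂ H] [CompleteSpace H]

theorem eig_orth {j : M →ₗ[ℂ] H} {D g : M →ₗ[ℂ] M} (h : AbsD j D g) {l1 l2 e1 e2 : ℝ}
    (hne : (l1, e1) ≠ (l2, e2)) {u v : M} (hu : u ∈ Eig D g l1 e1) (hv : v ∈ Eig D g l2 e2) :
    ⟪j u, j v⟫_ℂ = 0 := by
  obtain ⟨a1, a2⟩ := mem_Eig.1 hu
  obtain ⟨b1, b2⟩ := mem_Eig.1 hv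
  have k1 : (l1 : ℂ) * ⟪j u, j v⟫_ℂ = (l2 : ℂ) * ⟪j u, j v⟫_ℂ := by
    have := (h.symm (D u) v).trans (h.symm u (D v))
    rwa [a1, b1, map_smul, map_smul, inner_smul_left, inner_smul_right, Complex.conj_ofReal] at this
  have k2 : (e1 : ℂ) * ⟪j u, j v⟫_ℂ = (e2 : ℂ) * ⟪j u, j v⟫_ℂ := by
    have := h.gsymm u v
    rwa [a2, b2, map_smul, map_smul, inner_smul_left, inner_smul_right, Complex.conj_ofReal] at this
  by_contra h0
  exact hne (Prod.ext (Complex.ofReal_injective (mul_right_cancel₀ h0 k1))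
    (Complex.ofReal_injective (mul_right_cancel₀ h0 k2)))

theorem abs_EB {j : M →ₗ[ℂ] H} {D g : M →ₗ[ℂ] M} (h : AbsD j D g) :
    ∃ (ι : Type) (φ : ι → M) (lam eps : ι → ℝ), EB j D g φ lam eps := by
  classical
  let P : Type := {p : ℝ × ℝ // p.2 = 1 ∨ p.2 = -1}
  let V : P → Submodule ℂ H := fun p => (Eig D g p.1.1 p.1.2).map j
  haveI hf : ∀ p : P, FiniteDimensional ℂ (V p) := fun p => by
    haveI := eig_fin h p.1.1 p.1.2
    exact Module.Finite.map _ _
  let b := fun p : P => stdOrthonormalBasis ℂ (V p)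
  have ex : ∀ (p : P) (k : Fin (Module.finrank ℂ (V p))),
      ∃ u ∈ Eig D g p.1.1 p.1.2, j u = (b p k : H) := fun p k => (b p k).2
  choose φ h1 h2 using ex
  refine ⟨Σ p : P, Fin (Module.finrank ℂ (V p)), fun i => φ i.1 i.2, fun i => i.1.1.1,
    fun i => i.1.1.2, ?_, ?_, fun i => (mem_Eig.1 (h1 i.1 i.2)).1,
    fun i => (mem_Eig.1 (h1 i.1 i.2)).2, fun i => i.1.2⟩
  · have fam : OrthogonalFamily ℂ (fun p => V p) fun p => (V p).subtypeₗᵢ := by
      rintro p q hpq ⟨_, u, hu, rfl⟩ ⟨_, v, hv, rfl⟩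
      exact eig_orth h (fun e => hpq (Subtype.ext e)) hu hv
    have := fam.orthonormal_sigma_orthonormal fun p => (b p).orthonormal
    simp only [h2]
    exact this
  · refine (Submodule.eq_bot_iff _).2 fun v hv => abs_total h v fun lam eps he u hu => ?_
    let p : P := ⟨(lam, eps), he⟩
    have e : j u = ∑ k, (b p).repr ⟨j u, u, hu, rfl⟩ k • (b p k : H) := by
      have := congrArg Subtype.val ((b p).sum_repr ⟨j u, u, hu, rfl⟩)
      rw [Submodule.coe_sum] at this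
      exact this.symm
    refine (Submodule.mem_orthogonal _ _).1 hv _ ?_
    rw [e]
    refine Submodule.sum_mem _ fun k _ => Submodule.smul_mem _ _ (Submodule.subset_span ?_)
    exact ⟨⟨p, k⟩, h2 p k⟩

end Vale.Agent.P267I
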