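import Vale.Agent.P267I.AbsPar

namespace Vale.Agent.P267I

open scoped InnerProductSpace

variable {M H : Type*} [AddCommGroup M] [Module ℂ M]
  [NormedAddCommGroup H] [InnerProductSpace ℂ H] [CompleteSpace H]

theorem low_upper {j : M →ₗ[ℂ] H} {D g : M →ₗ[ℂ] M} (h : AbsD j D g) {ι : Type} {φ : ι → M}
    {lam eps : ι → ℝ} (b : EB j D g φ lam eps) {Λ e : ℝ} {u : M} (hu : u ∈ Low D g Λ e) :
    ‖j (D u)‖ ^ 2 ≤ Λ * ‖j u‖ ^ 2 := by
  refine hasSum_le (fun i => ?_) (eb_energy h b u) ((eb_normsq b (j u)).mul_left Λ)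
  by_cases hi : lam i < Λ
  · exact mul_le_mul_of_nonneg_right hi.le (sq_nonneg _)
  have h0 : ⟪j (φ i), j u⟫_ℂ = 0 := by
    rw [eb_low h b] at hu
    induction hu using Submodule.span_induction with
    | mem x hx =>
      obtain ⟨k, hk, rfl⟩ := hx
      exact b.on.2 fun e => hi (e ▸ hk.1)
    | zero => simp
    | add x y _ _ h1 h2 => rw [map_add, inner_add_right, h1, h2, add_zero]
    | smul a x _ h1 => rw [map_smul, inner_smul_right, h1, mul_zero]
  simp [h0]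

theorem low_lower {j : M →ₗ[ℂ] H} {D g : M →ₗ[ℂ] M} (h : AbsD j D g) {ι : Type} {φ : ι → M}
    {lam eps : ι → ℝ} (b : EB j D g φ lam eps) {Λ e : ℝ} {u : M} (hg : g u = (e : ℂ) • u)
    (hu : ∀ v ∈ Low D g Λ e, ⟪j v, j u⟫_ℂ = 0) :
    Λ * ‖j u‖ ^ 2 ≤ ‖j (D u)‖ ^ 2 := by
  refine hasSum_le (fun i => ?_) ((eb_normsq b (j u)).mul_left Λ) (eb_energy h b u)
  by_cases hi : Λ ≤ lam i
  · exact mul_le_mul_of_nonneg_right hi (sq_nonneg _)
  have h0 : ⟪j (φ i), j u⟫_ℂ = 0 := by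
    by_cases he : eps i = e
    · refine hu _ ?_
      rw [eb_low h b]
      exact Submodule.subset_span ⟨i, ⟨not_le.1 hi, he⟩, rfl⟩
    · have h1 := h.gsymm (φ i) u
      rw [b.geig, hg, map_smul, map_smul, inner_smul_left, inner_smul_right,
        Complex.conj_ofReal] at h1
      exact (mul_eq_mul_right_iff.1 h1).resolve_left fun e => he (Complex.ofReal_injective e)
  simp [h0]

theorem low_fin {j : M →ₗ[ℂ] H} {D g : M →ₗ[ℂ] M} (h : AbsD j D g) {ι : Type} {φ : ι → M}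
    {lam eps : ι → ℝ} (b : EB j D g φ lam eps) (Λ e : ℝ) :
    FiniteDimensional ℂ (Low D g Λ e) := by
  rw [eb_low h b]
  exact FiniteDimensional.span_of_finite ℂ
    (((eb_finite h b Λ).subset fun i hi => hi.1.le).image φ)

/-- spectral gap above zero -/
theorem eb_gap {j : M →ₗ[ℂ] H} {D g : M →ₗ[ℂ] M} (h : AbsD j D g) {ι : Type} {φ : ι → M}
    {lam eps : ι → ℝ} (b : EB j D g φ lam eps) :
    ∃ δ : ℝ, 0 < δ ∧ ∀ i, lam i ≠ 0 → δ ≤ lam i := by
  have h1 : ({1} ∪ lam '' {i | lam i ≤ 1 ∧ lam i ≠ 0}).Finite :=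
    (Set.finite_singleton 1).union (((eb_finite h b 1).subset fun i hi => hi.1).image lam)
  obtain ⟨δ, h2, h3⟩ := Set.exists_min_image _ id h1 ⟨1, Or.inl rfl⟩
  refine ⟨δ, ?_, fun i hi => ?_⟩
  · rcases h2 with rfl | ⟨i, hi, rfl⟩
    · exact one_pos
    · exact (eb_nonneg h b i).lt_of_ne' hi.2
  · by_cases h4 : lam i ≤ 1
    · exact h3 _ (Or.inr ⟨i, ⟨h4, hi⟩, rfl⟩)
    · exact (h3 1 (Or.inl rfl)).trans (not_le.1 h4).le

theorem ker_gap {j : M →ₗ[ℂ] H} {D g : M →ₗ[ℂ] M} (h : AbsD j D g) {ι : Type} {φ : ι → M}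
    {lam eps : ι → ℝ} (b : EB j D g φ lam eps) :
    ∃ δ : ℝ, 0 < δ ∧ ∀ e, Low D g δ e = KerG D g e := by
  obtain ⟨δ, h1, h2⟩ := eb_gap h b
  refine ⟨δ, h1, fun e => ?_⟩
  rw [← eig_zero h, eb_low h b, eb_eig h b]
  congr 2
  ext i
  exact and_congr_left fun _ => ⟨fun h3 => by_contra fun h4 => (h2 i h4).not_gt h3,
    fun h3 => h3.trans_lt h1⟩

/-- dimension comparison through an injective orthogonal projection -/
theorem finrank_le_of_orth {j : M →ₗ[ℂ] H} (hj : Function.Injective j) (V W : Submodule ℂ M)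
    [FiniteDimensional ℂ W]
    (hVW : ∀ u ∈ V, (∀ w ∈ W, ⟪j w, j u⟫_ℂ = 0) → u = 0) :
    Module.finrank ℂ V ≤ Module.finrank ℂ W := by
  let w := Module.finBasis ℂ W
  let f : V →ₗ[ℂ] Fin (Module.finrank ℂ W) → ℂ :=
    LinearMap.pi fun k => (innerₛₗ ℂ (j (w k))) ∘ₗ j ∘ₗ V.subtype
  have h1 : Function.Injective f := by
    refine (injective_iff_map_eq_zero f).2 fun u hu => Subtype.ext (hVW u u.2 fun x hx => ?_)
    have h2 : ∀ k, ⟪j (w k), j u⟫_ℂ = 0 := fun k => congrFun hu k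
    have h3 : x = ∑ k, w.repr ⟨x, hx⟩ k • (w k : M) := by
      have h4 := congrArg W.subtype (w.sum_repr ⟨x, hx⟩).symm
      simpa only [map_sum, map_smul, Submodule.subtype_apply] using h4
    rw [h3, map_sum, sum_inner]
    exact Finset.sum_eq_zero fun k _ => by rw [map_smul, inner_smul_left, h2, mul_zero]
  simpa using LinearMap.finrank_le_finrank_of_injective h1

end Vale.Agent.P267I
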