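import Vale.Agent.P267I.AbsPar

namespace Vale.Agent.P267I

open scoped InnerProductSpace

variable {M H : Type*} [AddCommGroup M] [Module ℂ M]
  [NormedAddCommGroup H] [InnerProductSpace ℂ H] [CompleteSpace H]

theorem absms_le {j : M →ₗ[ℂ] H} {D g : M →ₗ[ℂ] M} (h : AbsD j D g) {l : ℝ} (hl : l ≠ 0)
    {e e' : ℝ} (he : e' = -e) :
    Module.finrank ℂ (Eig D g l e) ≤ Module.finrank ℂ (Eig D g l e') := by
  have := eig_fin h l e'
  have hm : ∀ u ∈ Eig D g l e, D u ∈ Eig D g l e' := fun u hu => by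
    obtain ⟨h1, h2⟩ := mem_Eig.1 hu
    refine mem_Eig.2 ⟨by rw [h1, map_smul], ?_⟩
    have h3 := h.anti u
    rw [h2, map_smul] at h3
    rw [he, Complex.ofReal_neg, neg_smul, h3, neg_neg]
  refine LinearMap.finrank_le_finrank_of_injective (f := D.restrict hm)
    ((injective_iff_map_eq_zero _).2 fun u hu => ?_)
  have h1 : D u.1 = 0 := congrArg Subtype.val hu
  have h2 := (mem_Eig.1 u.2).1
  rw [h1, map_zero] at h2
  exact Subtype.ext ((smul_eq_zero.1 h2.symm).resolve_left (Complex.ofReal_ne_zero.2 hl))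

theorem eig_pair {j : M →ₗ[ℂ] H} {D g : M →ₗ[ℂ] M} (h : AbsD j D g) {l : ℝ} (hl : l ≠ 0) :
    Module.finrank ℂ (Eig D g l 1) = Module.finrank ℂ (Eig D g l (-1)) := by
  exact le_antisymm (absms_le h hl rfl) (absms_le h hl (neg_neg 1).symm)

open Classical in
theorem absms_count {ι : Type} {eps : ι → ℝ} (hs : ∀ i, eps i = 1 ∨ eps i = -1) {P : ι → Prop}
    (hP : {i | P i}.Finite) : HasSum (fun i => if P i then eps i else 0)
      (({i | P i ∧ eps i = 1}.ncard : ℝ) - ({i | P i ∧ eps i = -1}.ncard : ℝ)) := by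
  have e : ∀ c : ℝ, ({i | P i ∧ eps i = c}.ncard : ℝ) =
      ∑ i ∈ hP.toFinset, if eps i = c then (1 : ℝ) else 0 := fun c => by
    rw [Finset.sum_boole, ← Set.ncard_coe_finset]
    congr 2
    ext i
    simp
  rw [e, e, ← Finset.sum_sub_distrib]
  have e2 : ∑ i ∈ hP.toFinset, ((if eps i = 1 then (1 : ℝ) else 0) - if eps i = -1 then 1 else 0) =
      ∑ i ∈ hP.toFinset, if P i then eps i else 0 := Finset.sum_congr rfl fun i hi => by
    rw [if_pos (show P i from hP.mem_toFinset.1 hi)]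
    rcases hs i with h | h <;> rw [h] <;> norm_num
  rw [e2]
  exact hasSum_sum_of_ne_finset_zero fun i hi => if_neg fun h => hi (hP.mem_toFinset.2 h)

/-- McKean–Singer for an arbitrary weight -/
theorem eb_ms {j : M →ₗ[ℂ] H} {D g : M →ₗ[ℂ] M} (h : AbsD j D g) {ι : Type} {φ : ι → M}
    {lam eps : ι → ℝ} (b : EB j D g φ lam eps) (w : ℝ → ℝ)
    (hw : Summable fun i => w (lam i)) :
    HasSum (fun i => eps i * w (lam i)) (w 0 * (absInd D g : ℝ)) := by
  classical
  have hs : Summable fun i => eps i * w (lam i) := by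
    refine Summable.of_norm (hw.norm.congr fun i => ?_)
    rcases b.sgn i with e | e <;> simp [e]
  have hF : ∀ l : ℝ, ∑' i : lam ⁻¹' {l}, eps i * w (lam i) =
      w l * ((Module.finrank ℂ (Eig D g l 1) : ℝ) - Module.finrank ℂ (Eig D g l (-1))) := by
    intro l
    have hf : {i | lam i = l}.Finite := (eb_finite h b l).subset fun i hi => le_of_eq hi
    rw [eb_eig h b, eb_eig h b, eb_finrank b (hf.subset fun _ hi => hi.1),
      eb_finrank b (hf.subset fun _ hi => hi.1),
      tsum_subtype (lam ⁻¹' {l}) fun i => eps i * w (lam i),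
      ← ((absms_count b.sgn hf).mul_left (w l)).tsum_eq]
    refine tsum_congr fun i => ?_
    by_cases hi : lam i = l
    · rw [Set.indicator_of_mem (show i ∈ lam ⁻¹' {l} from hi), if_pos hi, hi, mul_comm]
    · rw [Set.indicator_of_notMem (show i ∉ lam ⁻¹' {l} from hi), if_neg hi, mul_zero]
  have h1 := hs.hasSum.tsum_fiberwise lam
  simp only [hF] at h1
  have h2 := h1.unique (hasSum_single 0 fun l hl => by rw [eig_pair h hl, sub_self, mul_zero])
  rw [eig_zero h, eig_zero h] at h2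
  have h3 := hs.hasSum
  rw [h2] at h3
  simpa only [absInd, Int.cast_sub, Int.cast_natCast] using h3

theorem low_ind {j : M →ₗ[ℂ] H} {D g : M →ₗ[ℂ] M} (h : AbsD j D g) {ι : Type} {φ : ι → M}
    {lam eps : ι → ℝ} (b : EB j D g φ lam eps) {Λ : ℝ} (hΛ : 0 < Λ) :
    (Module.finrank ℂ (Low D g Λ 1) : ℤ) - (Module.finrank ℂ (Low D g Λ (-1)) : ℤ)
      = absInd D g := by
  classical
  have hf : {i | lam i < Λ}.Finite := (eb_finite h b Λ).subset fun i (hi : lam i < Λ) => hi.le
  have h1 := eb_ms h b (fun l => if l < Λ then 1 else 0)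
    (summable_of_hasFiniteSupport (hf.subset fun i hi => by
      by_contra hc
      exact hi (if_neg hc)))
  simp only [mul_ite, mul_one, mul_zero, if_pos hΛ, one_mul] at h1
  have h2 := (absms_count b.sgn hf).unique (by simpa only using h1)
  rw [eb_low h b, eb_low h b, eb_finrank b (hf.subset fun _ hi => hi.1),
    eb_finrank b (hf.subset fun _ hi => hi.1)]
  exact_mod_cast h2

end Vale.Agent.P267I
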