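import Vale.Agent.P267I.AbsGap
import Vale.Agent.P267I.AbsMS
import Vale.Agent.P267I.AbsEB

namespace Vale.Agent.P267I

open scoped InnerProductSpace

variable {M H : Type*} [AddCommGroup M] [Module ℂ M]
  [NormedAddCommGroup H] [InnerProductSpace ℂ H] [CompleteSpace H]

theorem absinv_g {D g : M →ₗ[ℂ] M} {Λ e : ℝ} {u : M} (hu : u ∈ Low D g Λ e) :
    g u = (e : ℂ) • u := by
  have h : Low D g Λ e ≤ LinearMap.ker (g - (e : ℂ) • LinearMap.id) :=
    iSup₂_le fun _ _ => inf_le_right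
  simpa [sub_eq_zero] using h hu

/-- small perturbations keep the index -/
theorem ind_near {j : M →ₗ[ℂ] H} {A g : M →ₗ[ℂ] M} (h : AbsD j A g) :
    ∃ η : ℝ, 0 < η ∧ ∀ B : M →ₗ[ℂ] M, AbsD j B g →
      (∀ u, ‖j (B u) - j (A u)‖ ≤ η * ‖j u‖) → absInd B g = absInd A g := by
  obtain ⟨ι, φ, lam, eps, b⟩ := abs_EB h
  obtain ⟨δ, hδ, hk⟩ := ker_gap h b
  obtain ⟨r, hr, rfl⟩ : ∃ r : ℝ, 0 < r ∧ r ^ 2 = δ := ⟨√δ, Real.sqrt_pos.2 hδ, Real.sq_sqrt hδ.le⟩
  refine ⟨r / 4, by positivity, fun B hB hn => ?_⟩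
  obtain ⟨ι', φ', lam', eps', b'⟩ := abs_EB hB
  have z : ∀ u, r * ‖j u‖ ≤ 0 → u = 0 := fun u hu => h.inj (by
    rw [map_zero, ← norm_le_zero_iff]
    exact le_of_mul_le_mul_left (by rwa [mul_zero]) hr)
  have k : ∀ e : ℝ, Module.finrank ℂ (Low B g ((r / 2) ^ 2) e) = Module.finrank ℂ (KerG A g e) := by
    intro e
    have f1 := low_fin hB b' ((r / 2) ^ 2) e
    have f2 := low_fin h b (r ^ 2) e
    rw [hk] at f2
    refine le_antisymm (finrank_le_of_orth h.inj _ _ fun u hu ho => z u ?_)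
      (finrank_le_of_orth h.inj _ _ fun u hu ho => z u ?_)
    · have h1 := low_lower h b (Λ := r ^ 2) (absinv_g hu) (by rw [hk]; exact ho)
      have h2 := low_upper hB b' hu
      rw [← mul_pow] at h1 h2
      have h3 := le_of_sq_le_sq h1 (by positivity)
      have h4 := le_of_sq_le_sq h2 (by positivity)
      have h5 := norm_sub_norm_le (j (A u)) (j (B u))
      rw [norm_sub_rev] at h5
      linarith [hn u]
    · have h1 := low_lower hB b' (mem_KerG.1 hu).2 ho
      rw [← mul_pow] at h1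
      have h3 := le_of_sq_le_sq h1 (by positivity)
      have h4 := hn u
      rw [(mem_KerG.1 hu).1, map_zero, sub_zero] at h4
      linarith
  have e1 := k 1
  have e2 := k (-1)
  rw [← low_ind hB b' (Λ := (r / 2) ^ 2) (by positivity), e1, e2]
  rfl

theorem ind_inv {j : M →ₗ[ℂ] H} {D T g : M →ₗ[ℂ] M}
    (h : ∀ s : ℝ, AbsD j (D + (s : ℂ) • T) g) {C : ℝ} (hT : ∀ u, ‖j (T u)‖ ≤ C * ‖j u‖) :
    absInd (D + T) g = absInd D g := by
  have lc : IsLocallyConstant fun s : ℝ => absInd (D + (s : ℂ) • T) g := by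
    rw [IsLocallyConstant.iff_eventually_eq]
    intro s0
    obtain ⟨η, hη, hn⟩ := ind_near (h s0)
    filter_upwards [Metric.ball_mem_nhds s0 (show 0 < η / (|C| + 1) by positivity)] with s hs
    refine hn _ (h s) fun u => ?_
    have e : j ((D + (s : ℂ) • T) u) - j ((D + (s0 : ℂ) • T) u) = ((s - s0 : ℝ) : ℂ) • j (T u) := by
      simp [sub_smul]
    have h1 : |s - s0| * (|C| + 1) < η := (lt_div_iff₀ (by positivity)).1 hs
    have h2 := (hT u).trans (mul_le_mul_of_nonneg_right (le_abs_self C) (norm_nonneg _))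
    rw [e, norm_smul, Complex.norm_real, Real.norm_eq_abs]
    refine (mul_le_mul_of_nonneg_left h2 (abs_nonneg _)).trans ?_
    rw [← mul_assoc]
    exact mul_le_mul_of_nonneg_right (by nlinarith [abs_nonneg (s - s0)]) (norm_nonneg _)
  simpa using lc.apply_eq_of_preconnectedSpace 1 0

end Vale.Agent.P267I
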