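import Vale.Agent.P267I.Abs

namespace Vale.Agent.P267I

open scoped InnerProductSpace

variable {M H : Type*} [AddCommGroup M] [Module ℂ M]
  [NormedAddCommGroup H] [InnerProductSpace ℂ H] [CompleteSpace H]

/-- The graph map. -/
noncomputable def absk_G (j : M →ₗ[ℂ] H) (D : M →ₗ[ℂ] M) : M →ₗ[ℂ] WithLp 2 (H × H) :=
  (WithLp.linearEquiv 2 ℂ (H × H)).symm.toLinearMap ∘ₗ j.prod (j ∘ₗ D)

theorem absk_cpt {j : M →ₗ[ℂ] H} {D g : M →ₗ[ℂ] M} (h : AbsD j D g) :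
    IsCompact (closure (WithLp.fstL 2 ℂ H H ''
      (Metric.ball 0 1 ∩ (LinearMap.range (absk_G j D) : Set (WithLp 2 (H × H)))))) := by
  refine IsSeqCompact.isCompact fun x hx => ?_
  have h1 : ∀ n : ℕ, ∃ s : M, ‖absk_G j D s‖ < 1 ∧ dist (x n) (j s) < 1 / (n + 1) := fun n => by
    obtain ⟨_, ⟨_, ⟨k1, s, rfl⟩, rfl⟩, k2⟩ :=
      Metric.mem_closure_iff.1 (hx n) _ (Nat.one_div_pos_of_nat (α := ℝ) (n := n))
    exact ⟨s, mem_ball_zero_iff.1 k1, k2⟩
  choose s k1 k2 using h1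
  obtain ⟨κ, hκ, hc⟩ := h.rel s 1
    (fun n => (WithLp.norm_fst_le H (absk_G j D (s n))).trans (k1 n).le)
    fun n => (WithLp.norm_snd_le H (absk_G j D (s n))).trans (k1 n).le
  obtain ⟨a, ha⟩ := cauchySeq_tendsto_of_complete hc
  refine ⟨a, mem_closure_of_tendsto ha (.of_forall fun n =>
    ⟨absk_G j D (s (κ n)), ⟨mem_ball_zero_iff.2 (k1 _), _, rfl⟩, rfl⟩), κ, hκ, ?_⟩
  refine ha.congr_dist (squeeze_zero (fun _ => dist_nonneg) (fun n => ?_)
    ((tendsto_one_div_add_atTop_nhds_zero_nat (𝕜 := ℝ)).comp hκ.tendsto_atTop))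
  rw [dist_comm]
  exact (k2 (κ n)).le

/-- the compact symmetric weak inverse of `1 + D²` -/
theorem abs_K {j : M →ₗ[ℂ] H} {D g : M →ₗ[ℂ] M} (h : AbsD j D g) :
    ∃ K : H →L[ℂ] H, IsCompactOperator K ∧ (K : H →ₗ[ℂ] H).IsSymmetric ∧
      ∀ (u : H) (s : M), ⟪K u, j (s + D (D s))⟫_ℂ = ⟪u, j s⟫_ℂ := by
  let W := (LinearMap.range (absk_G j D)).topologicalClosure
  have : CompleteSpace W := (Submodule.isClosed_topologicalClosure _).completeSpace_coe
  let i : W →L[ℂ] H := (WithLp.fstL 2 ℂ H H).comp W.subtypeL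
  have hi : IsCompactOperator i := ⟨_, absk_cpt h,
    Filter.mem_of_superset (Metric.ball_mem_nhds 0 one_pos) fun w hw =>
      image_closure_subset_closure_image (WithLp.fstL 2 ℂ H H).continuous
        ⟨w, Metric.isOpen_ball.inter_closure ⟨by simpa using hw, w.2⟩, rfl⟩⟩
  have h1 : ∀ (t : M), ∀ w ∈ W, ⟪w.snd, j t⟫_ℂ = ⟪w.fst, j (D t)⟫_ℂ := fun t w hw =>
    closure_minimal (t := {w : WithLp 2 (H × H) | ⟪w.snd, j t⟫_ℂ = ⟪w.fst, j (D t)⟫_ℂ})
      (by rintro _ ⟨s, rfl⟩; exact h.symm s t)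
      (isClosed_eq ((WithLp.sndL 2 ℂ H H).continuous.inner continuous_const)
        ((WithLp.fstL 2 ℂ H H).continuous.inner continuous_const)) hw
  refine ⟨i.comp (ContinuousLinearMap.adjoint i), hi.comp_clm (ContinuousLinearMap.adjoint i),
    fun u v => ?_, fun u s => ?_⟩
  · change ⟪i (ContinuousLinearMap.adjoint i u), v⟫_ℂ = ⟪u, i (ContinuousLinearMap.adjoint i v)⟫_ℂ
    exact (ContinuousLinearMap.adjoint_inner_right i _ v).symm.trans
      (ContinuousLinearMap.adjoint_inner_left i _ u)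
  · have h2 := ContinuousLinearMap.adjoint_inner_left i
      ⟨absk_G j D s, Submodule.le_topologicalClosure _ ⟨s, rfl⟩⟩ u
    refine Eq.trans ?_ h2
    change ⟪(ContinuousLinearMap.adjoint i u : W).1.fst, _⟫_ℂ = _
    rw [map_add, inner_add_right, ← h1 _ _ (ContinuousLinearMap.adjoint i u).2]
    rfl

end Vale.Agent.P267I
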