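import Vale.Agent.P267I.AbsFin

namespace Vale.Agent.P267I

open scoped InnerProductSpace

variable {M H : Type*} [AddCommGroup M] [Module ℂ M]
  [NormedAddCommGroup H] [InnerProductSpace ℂ H] [CompleteSpace H]

omit [CompleteSpace H] in
theorem abspar_sq (x u : H) : ⟪u, x⟫_ℂ * ⟪x, u⟫_ℂ = ((‖⟪x, u⟫_ℂ‖ ^ 2 : ℝ) : ℂ) := by
  rw [← inner_conj_symm u x, Complex.conj_mul', Complex.ofReal_pow]

omit [CompleteSpace H] in
theorem abspar_self (u : H) : ⟪u, u⟫_ℂ = ((‖u‖ ^ 2 : ℝ) : ℂ) := by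
  rw [inner_self_eq_norm_sq_to_K, Complex.ofReal_pow]
  rfl

omit [CompleteSpace H] in
theorem abspar_DD {j : M →ₗ[ℂ] H} {D g : M →ₗ[ℂ] M} (h : AbsD j D g) {ι : Type} {φ : ι → M}
    {lam eps : ι → ℝ} (b : EB j D g φ lam eps) (i : ι) (u : M) :
    ⟪j (φ i), j (D (D u))⟫_ℂ = lam i * ⟪j (φ i), j u⟫_ℂ := by
  rw [← h.symm, ← h.symm, b.eig, map_smul, inner_smul_left, Complex.conj_ofReal]

omit [CompleteSpace H] in
theorem abspar_g {j : M →ₗ[ℂ] H} {D g : M →ₗ[ℂ] M} (h : AbsD j D g) {ι : Type} {φ : ι → M}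
    {lam eps : ι → ℝ} (b : EB j D g φ lam eps) (i : ι) (u : M) :
    ⟪j (φ i), j (g u)⟫_ℂ = eps i * ⟪j (φ i), j u⟫_ℂ := by
  rw [← h.gsymm, b.geig, map_smul, inner_smul_left, Complex.conj_ofReal]

theorem eb_parseval {j : M →ₗ[ℂ] H} {D g : M →ₗ[ℂ] M} {ι : Type} {φ : ι → M}
    {lam eps : ι → ℝ} (b : EB j D g φ lam eps) (u v : H) :
    HasSum (fun i => ⟪u, j (φ i)⟫_ℂ * ⟪j (φ i), v⟫_ℂ) ⟪u, v⟫_ℂ := by
  simpa only [HilbertBasis.coe_mkOfOrthogonalEqBot] using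
    (HilbertBasis.mkOfOrthogonalEqBot b.on b.tot).hasSum_inner_mul_inner u v

theorem eb_normsq {j : M →ₗ[ℂ] H} {D g : M →ₗ[ℂ] M} {ι : Type} {φ : ι → M}
    {lam eps : ι → ℝ} (b : EB j D g φ lam eps) (u : H) :
    HasSum (fun i => ‖⟪j (φ i), u⟫_ℂ‖ ^ 2) (‖u‖ ^ 2) := by
  have h1 := eb_parseval b u u
  simp only [abspar_sq, abspar_self] at h1
  exact Complex.hasSum_ofReal.1 h1

theorem eb_energy {j : M →ₗ[ℂ] H} {D g : M →ₗ[ℂ] M} (h : AbsD j D g) {ι : Type} {φ : ι → M}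
    {lam eps : ι → ℝ} (b : EB j D g φ lam eps) (u : M) :
    HasSum (fun i => lam i * ‖⟪j (φ i), j u⟫_ℂ‖ ^ 2) (‖j (D u)‖ ^ 2) := by
  have h1 := eb_parseval b (j u) (j (D (D u)))
  simp only [abspar_DD h b, mul_left_comm _ (lam _ : ℂ), abspar_sq, ← Complex.ofReal_mul] at h1
  rw [← h.symm, abspar_self] at h1
  exact Complex.hasSum_ofReal.1 h1

/-- a vector whose coefficients vanish off a finite set lies in the span -/
theorem eb_mem_span {j : M →ₗ[ℂ] H} {D g : M →ₗ[ℂ] M} (h : AbsD j D g) {ι : Type} {φ : ι → M}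
    {lam eps : ι → ℝ} (b : EB j D g φ lam eps) {T : Set ι} (hT : T.Finite) (u : M)
    (hu : ∀ i, i ∉ T → ⟪j (φ i), j u⟫_ℂ = 0) : u ∈ Submodule.span ℂ (φ '' T) := by
  have h1 := (HilbertBasis.mkOfOrthogonalEqBot b.on b.tot).hasSum_repr (j u)
  simp only [HilbertBasis.repr_apply_apply, HilbertBasis.coe_mkOfOrthogonalEqBot] at h1
  have h2 := h1.unique (hasSum_sum_of_ne_finset_zero (s := hT.toFinset) fun i hi => by
    rw [hu i fun k => hi (hT.mem_toFinset.2 k), zero_smul])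
  have h3 : u = ∑ i ∈ hT.toFinset, ⟪j (φ i), j u⟫_ℂ • φ i := h.inj (by
    rw [map_sum]
    simpa only [map_smul] using h2)
  rw [h3]
  exact Submodule.sum_mem _ fun i hi => Submodule.smul_mem _ _
    (Submodule.subset_span ⟨i, hT.mem_toFinset.1 hi, rfl⟩)

theorem abspar_eig {j : M →ₗ[ℂ] H} {D g : M →ₗ[ℂ] M} (h : AbsD j D g) {ι : Type} {φ : ι → M}
    {lam eps : ι → ℝ} (b : EB j D g φ lam eps) (l e : ℝ) :
    Eig D g l e = Submodule.span ℂ (φ '' {i | lam i = l ∧ eps i = e}) := by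
  refine le_antisymm (fun u hu => eb_mem_span h b
    ((eb_finite h b l).subset fun i hi => hi.1.le) u fun i hi => by_contra fun hc => hi ?_)
    (Submodule.span_le.2 ?_)
  · have h1 := abspar_DD h b i u
    have h2 := abspar_g h b i u
    rw [(mem_Eig.1 hu).1, map_smul, inner_smul_right] at h1
    rw [(mem_Eig.1 hu).2, map_smul, inner_smul_right] at h2
    exact ⟨(Complex.ofReal_inj.1 (mul_right_cancel₀ hc h1)).symm,
      (Complex.ofReal_inj.1 (mul_right_cancel₀ hc h2)).symm⟩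
  · rintro _ ⟨i, ⟨rfl, rfl⟩, rfl⟩
    exact mem_Eig.2 ⟨b.eig i, b.geig i⟩

/-- counting basis vectors computes the dimension of the low-lying space -/
theorem eb_low {j : M →ₗ[ℂ] H} {D g : M →ₗ[ℂ] M} (h : AbsD j D g) {ι : Type} {φ : ι → M}
    {lam eps : ι → ℝ} (b : EB j D g φ lam eps) (Λ e : ℝ) :
    Low D g Λ e = Submodule.span ℂ (φ '' {i | lam i < Λ ∧ eps i = e}) := by
  refine le_antisymm (iSup₂_le fun l hl => (abspar_eig h b l e).le.trans
    (Submodule.span_mono (Set.image_mono fun i hi => ⟨hi.1.trans_lt hl, hi.2⟩)))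
    (Submodule.span_le.2 ?_)
  rintro _ ⟨i, ⟨h1, rfl⟩, rfl⟩
  exact le_iSup₂ (f := fun (l : ℝ) (_ : l < Λ) => Eig D g l (eps i)) (lam i) h1
    (mem_Eig.2 ⟨b.eig i, b.geig i⟩)

theorem eb_eig {j : M →ₗ[ℂ] H} {D g : M →ₗ[ℂ] M} (h : AbsD j D g) {ι : Type} {φ : ι → M}
    {lam eps : ι → ℝ} (b : EB j D g φ lam eps) (l e : ℝ) :
    Eig D g l e = Submodule.span ℂ (φ '' {i | lam i = l ∧ eps i = e}) := by
  exact abspar_eig h b l e

theorem eb_finrank {j : M →ₗ[ℂ] H} {D g : M →ₗ[ℂ] M} {ι : Type} {φ : ι → M}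
    {lam eps : ι → ℝ} (b : EB j D g φ lam eps) {T : Set ι} (hT : T.Finite) :
    Module.finrank ℂ (Submodule.span ℂ (φ '' T)) = T.ncard := by
  have li : LinearIndependent ℂ φ := LinearIndependent.of_comp j b.on.linearIndependent
  have := hT.fintype
  rw [Set.image_eq_range, ← Nat.card_coe_set_eq, Nat.card_eq_fintype_card]
  exact finrank_span_eq_card (li.comp _ Subtype.val_injective)

end Vale.Agent.P267I
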