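import Vale.Agent.P267I.AbsGap
import Vale.Agent.P267I.AbsEB

namespace Vale.Agent.P267I

open scoped InnerProductSpace

variable {M H : Type*} [AddCommGroup M] [Module ℂ M]
  [NormedAddCommGroup H] [InnerProductSpace ℂ H] [CompleteSpace H]

/-- a smooth datum orthogonal to the kernel has a smooth preimage -/
theorem abs_solve {j : M →ₗ[ℂ] H} {D g : M →ₗ[ℂ] M} (h : AbsD j D g) (ψ : M)
    (hψ : ∀ k, D k = 0 → ⟪j k, j ψ⟫_ℂ = 0) : ∃ u, D (D u) = ψ := by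
  obtain ⟨ι, φ, lam, eps, b⟩ := abs_EB h
  obtain ⟨δ, hδ, hgap⟩ := eb_gap h b
  let B : HilbertBasis ι ℂ H := HilbertBasis.mkOfOrthogonalEqBot b.on b.tot
  have hB : ∀ i, B i = j (φ i) := fun i =>
    congrFun (HilbertBasis.coe_mkOfOrthogonalEqBot b.on b.tot) i
  have hdd : ∀ u s, ⟪j (D (D u)), j s⟫_ℂ = ⟪j u, j (D (D s))⟫_ℂ := fun u s => by
    rw [h.symm, h.symm]
  have h0 : ∀ i, lam i = 0 → ⟪j (φ i), j ψ⟫_ℂ = 0 := fun i hi => by
    refine hψ _ (h.inj ?_)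
    rw [map_zero, ← inner_self_eq_zero (𝕜 := ℂ), h.symm, b.eig, hi]
    simp
  have hc : Memℓp (fun i => ⟪j (φ i), j ψ⟫_ℂ / (lam i : ℂ)) 2 := by
    refine ((lp.memℓp (B.repr (j ψ))).const_mul ((δ⁻¹ : ℝ) : ℂ)).mono' fun i => ?_
    rw [B.repr_apply_apply, hB, norm_div, norm_mul, Complex.norm_real, Complex.norm_real,
      Real.norm_of_nonneg (inv_nonneg.2 hδ.le), mul_comm, ← div_eq_mul_inv]
    by_cases hi : lam i = 0
    · rw [h0 i hi]
      simp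
    · exact div_le_div_of_nonneg_left (norm_nonneg _) hδ ((hgap i hi).trans (le_abs_self _))
  let v : H := B.repr.symm ⟨_, hc⟩
  have hv : ∀ i, ⟪j (φ i), v⟫_ℂ = ⟪j (φ i), j ψ⟫_ℂ / (lam i : ℂ) := fun i => by
    rw [← hB, ← B.repr_apply_apply, LinearIsometryEquiv.apply_symm_apply, hB]
  have key : ∀ s, ⟪v, j (D (D s))⟫_ℂ = ⟪j ψ, j s⟫_ℂ := fun s => by
    refine (eb_parseval b v (j (D (D s)))).unique ?_
    have e : (fun i => ⟪v, j (φ i)⟫_ℂ * ⟪j (φ i), j (D (D s))⟫_ℂ) =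
        fun i => ⟪j ψ, j (φ i)⟫_ℂ * ⟪j (φ i), j s⟫_ℂ := by
      funext i
      rw [← hdd, b.eig, map_smul, inner_smul_left, Complex.conj_ofReal, ← inner_conj_symm v, hv,
        ← inner_conj_symm (j ψ), map_div₀, Complex.conj_ofReal]
      by_cases hi : lam i = 0
      · rw [h0 i hi]
        simp
      · have h1 : (lam i : ℂ) ≠ 0 := by exact_mod_cast hi
        field_simp
    rw [e]
    exact eb_parseval b _ _
  obtain ⟨u, hu⟩ := h.reg v 0 ψ fun s => by simpa using key s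
  refine ⟨u, h.inj ?_⟩
  have h2 : ∀ s, ⟪j (D (D u)) - j ψ, j s⟫_ℂ = 0 := fun s => by
    rw [inner_sub_left, hdd, hu, key, sub_self]
  have h3 := h2 (D (D u) - ψ)
  rwa [map_sub, inner_self_eq_zero, sub_eq_zero] at h3

end Vale.Agent.P267I
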