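import Vale.Agent.P267I.Lich

/-! The curvature of the Levi-Civita connection, Bianchi identity, curvature of induced connections. -/

open Matrix Finset Filter Topology VectorField

noncomputable section

namespace Vale.Agent.P267I

variable {E : Type*} [NormedAddCommGroup E] [NormedSpace ℝ E] {n : Type} [Fintype n]
  [DecidableEq n] {ι : Type} [Fintype ι]

/-- The curvature tensor: the coefficient of `e b` in `R (e j, e k) e a`. -/
def Rm (e : ι → E → E) (om : ι → ι → ι → E → ℝ) (j k a b : ι) (x : E) : ℝ :=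
  fderiv ℝ (om k a b) x (e j x) - fderiv ℝ (om j a b) x (e k x) +
    ∑ l, (om k a l x * om j l b x - om j a l x * om k l b x) -
    ∑ l, (om j k l x - om k j l x) * om l a b x

variable {e : ι → E → E} {om : ι → ι → ι → E → ℝ} {x : E}

theorem Rm_anti (j k a b : ι) : Rm e om j k a b x = -Rm e om k j a b x := by
  simp only [Rm, sub_mul, sum_sub_distrib]
  ring

theorem Rm_skew (hS : ∀ k a b, ∀ᶠ y in 𝓝 x, om k a b y = -om k b a y) (j k a b : ι) :
    Rm e om j k a b x = -Rm e om j k b a x := by
  have h1 : ∀ k a b, fderiv ℝ (om k a b) x = -fderiv ℝ (om k b a) x := by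
    intro k a b
    rw [EventuallyEq.fderiv_eq (f := fun y => -om k b a y) (hS k a b), fderiv_fun_neg]
  have h2 : ∀ k a b, om k a b x = -om k b a x := fun k a b => (hS k a b).self_of_nhds
  have h3 : ∑ l, (om k a l x * om j l b x - om j a l x * om k l b x) =
      -∑ l, (om k b l x * om j l a x - om j b l x * om k l a x) := by
    rw [← sum_neg_distrib]
    refine sum_congr rfl fun l _ => ?_
    rw [h2 k a l, h2 j l b, h2 j a l, h2 k l b]
    ring
  have h4 : ∑ l, (om j k l x - om k j l x) * om l a b x =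
      -∑ l, (om j k l x - om k j l x) * om l b a x := by
    rw [← sum_neg_distrib]
    refine sum_congr rfl fun l _ => ?_
    rw [h2 l a b]
    ring
  rw [Rm, Rm, h1 k a b, h1 j a b, h3, h4]
  simp only [ContinuousLinearMap.neg_apply]
  ring

theorem br_sum {U V : E → E} {T : ι → E → ℝ} (hV : V =ᶠ[𝓝 x] fun y => ∑ b, T b y • e b y)
    (hT : ∀ b, DifferentiableAt ℝ (T b) x) (he : ∀ b, DifferentiableAt ℝ (e b) x) :
    lieBracket ℝ U V x =
      ∑ b, (fderiv ℝ (T b) x (U x) • e b x + T b x • lieBracket ℝ U (e b) x) := by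
  simp only [lieBracket]
  rw [hV.fderiv_eq, hV.self_of_nhds, fderiv_fun_sum fun b _ => (hT b).fun_smul (he b),
    ContinuousLinearMap.sum_apply, map_sum, ← sum_sub_distrib]
  refine sum_congr rfl fun b _ => ?_
  rw [fderiv_fun_smul (hT b) (he b)]
  simp only [ContinuousLinearMap.add_apply, ContinuousLinearMap.smul_apply,
    ContinuousLinearMap.smulRight_apply, map_smul, smul_sub]
  abel

/-- The first Bianchi identity. -/
theorem bianchi (he : ∀ a, ContDiffAt ℝ 2 (e a) x)
    (ho : ∀ k a b, DifferentiableAt ℝ (om k a b) x)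
    (hT : ∀ a b, ∀ᶠ y in 𝓝 x,
      lieBracket ℝ (e a) (e b) y = ∑ k, (om a b k y - om b a k y) • e k y)
    (hi : LinearIndependent ℝ fun a => e a x) (j k l b : ι) :
    Rm e om j k l b x + Rm e om k l j b x + Rm e om l j k b x = 0 := by
  have he1 : ∀ a, DifferentiableAt ℝ (e a) x := fun a => (he a).differentiableAt (by norm_num)
  have h1 : ∀ j k l, lieBracket ℝ (e j) (lieBracket ℝ (e k) (e l)) x =
      ∑ b, (fderiv ℝ (om k l b) x (e j x) - fderiv ℝ (om l k b) x (e j x) +
        ∑ m, (om k l m x - om l k m x) * (om j m b x - om m j b x)) • e b x := by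
    intro j k l
    rw [br_sum (T := fun b y => om k l b y - om l k b y) (hT k l)
      (fun b => (ho k l b).fun_sub (ho l k b)) he1]
    simp only [add_smul, sum_add_distrib, sum_smul]
    congr 1
    · refine sum_congr rfl fun b _ => ?_
      rw [fderiv_fun_sub (ho k l b) (ho l k b)]
      rfl
    · rw [sum_comm]
      refine sum_congr rfl fun m _ => ?_
      rw [(hT j m).self_of_nhds, smul_sum]
      exact sum_congr rfl fun b _ => by rw [smul_smul]
  have h2 : lieBracket ℝ (e j) (lieBracket ℝ (e k) (e l)) x +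
      lieBracket ℝ (e k) (lieBracket ℝ (e l) (e j)) x +
      lieBracket ℝ (e l) (lieBracket ℝ (e j) (e k)) x = 0 := by
    have h3 : lieBracket ℝ (e l) (e j) = fun y => -lieBracket ℝ (e j) (e l) y :=
      funext fun y => lieBracket_swap
    have h4 : ∀ W : E → E,
        lieBracket ℝ (e k) (fun y => -W y) x = -lieBracket ℝ (e k) W x := by
      intro W
      simp only [lieBracket, fderiv_fun_neg, ContinuousLinearMap.neg_apply, map_neg]
      abel
    rw [leibniz_identity_lieBracket (by simp) (he j) (he k) (he l), h3, h4,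
      lieBracket_swap (V := e l)]
    abel
  rw [h1, h1, h1, ← sum_add_distrib, ← sum_add_distrib] at h2
  simp only [← add_smul] at h2
  have h5 := Fintype.linearIndependent_iff.1 hi _ h2 b
  simp only [Rm, sub_mul, mul_sub, sum_sub_distrib] at h5 ⊢
  linarith

/-- The curvature of a connection induced by a representation `σ`, twisted by a commuting `T`. -/
theorem Om_rep (σ : (ι → ι → ℂ) →ₗ[ℂ] Matrix n n ℂ) {A T : ι → E → Matrix n n ℂ}
    (hA : ∀ k, ∀ᶠ y in 𝓝 x, A k y = σ (fun a b => om k a b y) + T k y)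
    (ho : ∀ k a b, DifferentiableAt ℝ (om k a b) x) (hT : ∀ k, DfM (T k) x) (j k : ι)
    (hσ : σ (fun a b => om j a b x) * σ (fun a b => om k a b x) -
      σ (fun a b => om k a b x) * σ (fun a b => om j a b x) =
      σ fun a b => ∑ l, ((om k a l x : ℂ) * om j l b x - om j a l x * om k l b x))
    (h1 : σ (fun a b => om j a b x) * T k x = T k x * σ (fun a b => om j a b x))
    (h2 : σ (fun a b => om k a b x) * T j x = T j x * σ (fun a b => om k a b x)) :
    Om e A om j k x = σ (fun a b => Rm e om j k a b x) + Om e T om j k x := by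
  classical
  have d0 : ∀ w : ι → ι → ℂ, σ w = ∑ a, ∑ b, w a b • σ (Pi.single a (Pi.single b 1)) := by
    intro w
    simp only [← map_smul, ← map_sum]
    congr 1
    ext a b
    simp [Finset.sum_apply, Pi.single_apply, ite_apply]
  have d1 : ∀ j k, dM (e j) (A k) x =
      σ (fun a b => (fderiv ℝ (om k a b) x (e j x) : ℝ)) + dM (e j) (T k) x := by
    intro j k
    ext p q
    have e1 : (fun y => A k y p q) =ᶠ[𝓝 x] fun y =>
        (∑ a, ∑ b, (om k a b y : ℂ) * σ (Pi.single a (Pi.single b 1)) p q) + T k y p q := by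
      filter_upwards [hA k] with y hy
      rw [hy, d0]
      simp [Matrix.sum_apply]
    have e2 : HasFDerivAt (fun y =>
        (∑ a, ∑ b, (om k a b y : ℂ) * σ (Pi.single a (Pi.single b 1)) p q) + T k y p q) _ x :=
      (HasFDerivAt.fun_sum fun a _ => HasFDerivAt.fun_sum fun b _ =>
        (Complex.ofRealCLM.hasFDerivAt.comp x (ho k a b).hasFDerivAt).mul_const _).fun_add
        (hT k p q).hasFDerivAt
    rw [d0]
    simp only [dM, of_apply, Matrix.add_apply, Matrix.sum_apply, Matrix.smul_apply]
    rw [e1.fderiv_eq, e2.fderiv]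
    simp [mul_comm]
  have d2 : ∀ k, A k x = σ (fun a b => om k a b x) + T k x := fun k => (hA k).self_of_nhds
  have d3 : (fun a b => (Rm e om j k a b x : ℂ)) =
      (fun a b => ((fderiv ℝ (om k a b) x (e j x) : ℝ) : ℂ)) -
        (fun a b => ((fderiv ℝ (om j a b) x (e k x) : ℝ) : ℂ)) +
        (fun a b => ∑ l, ((om k a l x : ℂ) * om j l b x - om j a l x * om k l b x)) -
        ∑ l, ((om j k l x - om k j l x : ℝ) : ℂ) • fun a b => (om l a b x : ℂ) := by
    ext a b
    simp [Rm, Finset.sum_apply]
  rw [d3, map_sub, map_add, map_sub, map_sum, ← hσ]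
  simp only [Om, d1, d2, map_smul, smul_add, sum_add_distrib, add_mul, mul_add, h1, h2]
  abel

end Vale.Agent.P267I
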