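import Vale.Agent.P267I.Cl

/-! The index density of a twisted Clifford connection. -/

open Finset Matrix

noncomputable section

namespace Vale.Agent.P267I

variable {n : Type} [Fintype n] [DecidableEq n] {c g : Fin 4 → Matrix n n ℂ}

/-- The Pfaffian. -/
def pf (w : Fin 4 → Fin 4 → ℂ) : ℂ := w 0 1 * w 2 3 - w 0 2 * w 1 3 + w 0 3 * w 1 2

/-- Algebraic curvature tensors: `R j k a b` is the `e_b` component of `R(e_j, e_k) e_a`. -/
structure Riem (R : Fin 4 → Fin 4 → Fin 4 → Fin 4 → ℝ) : Prop where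
  a1 : ∀ j k a b, R j k a b = -R k j a b
  a2 : ∀ j k a b, R j k a b = -R j k b a
  bi : ∀ j k a b, R j k a b + R k a j b + R a j k b = 0

/-- The Pontryagin density. -/
def pont (R : Fin 4 → Fin 4 → Fin 4 → Fin 4 → ℝ) : ℂ := ∑ j, ∑ k, pf fun a b => (R j k a b : ℂ)

/-- The algebraic index density of a curvature `Om`. -/
def densA (c : Fin 4 → Matrix n n ℂ) (Om : Fin 4 → Fin 4 → Matrix n n ℂ) : ℂ :=
  trace (gam c * ((1 / 2 : ℂ) • (((1 / 2 : ℂ) • ∑ j, ∑ k, c j * c k * Om j k) *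
    ((1 / 2 : ℂ) • ∑ j, ∑ k, c j * c k * Om j k)) + (1 / 12 : ℂ) • ∑ j, ∑ k, Om j k * Om j k))

variable {R : Fin 4 → Fin 4 → Fin 4 → Fin 4 → ℝ}

theorem Riem.pair (h : Riem R) (j k a b : Fin 4) : R j k a b = R a b j k := by
  linarith [h.bi j k a b, h.bi k a b j, h.bi a b j k, h.bi b j k a, h.a2 j k a b, h.a2 k a j b,
    h.a2 a j k b, h.a2 a b k j, h.a2 b k a j, h.a2 b j a k, h.a1 j a b k, h.a1 b k a j,
    h.a1 k b j a, h.a1 a j k b, h.a2 j a b k, h.a2 k b j a, h.a1 j b k a, h.a2 b j k a]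

theorem Riem.c2 (h : Riem R) (j k a b : Fin 4) : (R j k a b : ℂ) = -R j k b a := by
  rw [h.a2]; push_cast; rfl

theorem IsCl.sum_cc (h : IsCl c) {Y : Fin 4 → Fin 4 → Matrix n n ℂ} (hY : ∀ j k, Y j k = -Y k j) :
    (1 / 2 : ℂ) • ∑ j, ∑ k, c j * c k * Y j k = c 0 * c 1 * Y 0 1 + c 0 * c 2 * Y 0 2 +
      c 0 * c 3 * Y 0 3 + c 1 * c 2 * Y 1 2 + c 1 * c 3 * Y 1 3 + c 2 * c 3 * Y 2 3 := by
  obtain ⟨-, -, -, -, -, -, b1, b2, b3, b4, b5, b6⟩ := h.ord
  have h0 : ∀ a, Y a a = 0 := fun a => by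
    have : (2 : ℂ) • Y a a = (2 : ℂ) • (0 : Matrix n n ℂ) := by
      rw [two_smul, smul_zero]; exact add_eq_zero_iff_eq_neg.2 (hY a a)
    exact smul_right_injective _ two_ne_zero this
  simp only [Fin.sum_univ_four, h0, hY 1 0, hY 2 0, hY 3 0, hY 2 1, hY 3 1, hY 3 2, b1, b2, b3,
    b4, b5, b6, mul_zero, neg_mul, mul_neg, neg_neg]
  module

theorem sp_neg (c : Fin 4 → Matrix n n ℂ) (w : Fin 4 → Fin 4 → ℂ) :
    (sp c fun a b => -w a b) = -sp c w := by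
  simp only [sp, neg_smul, sum_neg_distrib, smul_neg]

theorem Riem.sp_anti (h : Riem R) (c : Fin 4 → Matrix n n ℂ) (j k : Fin 4) :
    (sp c fun a b => (R j k a b : ℂ)) = -sp c fun a b => (R k j a b : ℂ) := by
  rw [← sp_neg]
  congr 1
  funext a b
  rw [h.a1]; push_cast; rfl

/-- The Lichnerowicz term of the spin curvature is a scalar. -/
theorem IsCl.scal (h : IsCl c) (hR : Riem R) : ∃ s : ℂ,
    (1 / 2 : ℂ) • ∑ j, ∑ k, c j * c k * (sp c fun a b => (R j k a b : ℂ)) = s • 1 := by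
  obtain ⟨a1, a2, a3, a4, a5, a6, b1, b2, b3, b4, b5, b6⟩ := h.ord
  have p : ∀ j k a b, (R j k a b : ℂ) = R a b j k := fun j k a b => by rw [hR.pair]
  have bi : (R 0 3 1 2 : ℂ) = R 0 2 1 3 - R 0 1 2 3 := by
    have : R 0 3 1 2 = R 0 2 1 3 - R 0 1 2 3 := by
      linarith [hR.bi 0 1 2 3, hR.pair 1 2 0 3, hR.a1 2 0 1 3]
    exact_mod_cast this
  refine ⟨-(1 / 2) * (R 0 1 0 1 + R 0 2 0 2 + R 0 3 0 3 + R 1 2 1 2 + R 1 3 1 3 + R 2 3 2 3), ?_⟩
  rw [h.sum_cc (hR.sp_anti c)]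
  simp only [h.sp_eq (hR.c2 _ _), p 0 2 0 1, p 0 3 0 1, p 1 2 0 1, p 1 3 0 1, p 2 3 0 1, p 0 3 0 2,
    p 1 2 0 2, p 1 3 0 2, p 2 3 0 2, p 1 2 0 3, p 1 3 0 3, p 2 3 0 3, p 1 3 1 2, p 2 3 1 2,
    p 2 3 1 3, bi, mul_smul_comm, mul_add, mul_assoc, a1, a2, a3, a4, a5, a6, b1, b2, b3, b4, b5,
    b6, h.sq, h.sq', mul_neg, neg_neg, mul_one]
  module

theorem IsCl.tr_four (h : IsCl c) {w : Matrix n n ℂ} (hw : ∀ a, c a * w = w * c a)
    (a b d e f : Fin 4) (hf : f ≠ a ∧ f ≠ b ∧ f ≠ d ∧ f ≠ e) :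
    trace (gam c * (c a * (c b * (c d * (c e * w))))) = 0 := by
  refine h.tr_zero f ?_
  rw [h.anti' hf.1, h.anti' hf.2.1, h.anti' hf.2.2.1, h.anti' hf.2.2.2, hw]
  simp only [mul_neg, neg_neg, mul_assoc]

theorem IsCl.tr_top (h : IsCl c) (w : Matrix n n ℂ) :
    trace (gam c * (c 0 * (c 1 * (c 2 * (c 3 * w))))) = trace w := by
  have : c 0 * (c 1 * (c 2 * (c 3 * w))) = gam c * w := by simp only [gam, mul_assoc]
  rw [this, ← mul_assoc, h.gam_sq, one_mul]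

theorem IsCl.tr_two (h : IsCl c) {w : Matrix n n ℂ} (hw : ∀ a, c a * w = w * c a) (a b : Fin 4) :
    trace (gam c * (c a * (c b * w))) = 0 := by
  rw [← mul_assoc (c a)]; exact h.tr_gam2 hw a b

/-- Supertrace of a product of two quadratic elements with coefficients in the commutant. -/
theorem IsCl.tr_quad (h : IsCl c) {Y Z : Fin 4 → Fin 4 → Matrix n n ℂ}
    (hY : ∀ j k a, c a * Y j k = Y j k * c a) (hZ : ∀ j k a, c a * Z j k = Z j k * c a) :
    trace (gam c * ((c 0 * c 1 * Y 0 1 + c 0 * c 2 * Y 0 2 +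
      c 0 * c 3 * Y 0 3 + c 1 * c 2 * Y 1 2 + c 1 * c 3 * Y 1 3 + c 2 * c 3 * Y 2 3) *
      (c 0 * c 1 * Z 0 1 + c 0 * c 2 * Z 0 2 +
      c 0 * c 3 * Z 0 3 + c 1 * c 2 * Z 1 2 + c 1 * c 3 * Z 1 3 + c 2 * c 3 * Z 2 3))) =
      trace (Y 0 1 * Z 2 3) - trace (Y 0 2 * Z 1 3) + trace (Y 0 3 * Z 1 2) +
        trace (Y 1 2 * Z 0 3) - trace (Y 1 3 * Z 0 2) + trace (Y 2 3 * Z 0 1) := by
  obtain ⟨a1, a2, a3, a4, a5, a6, -⟩ := h.ord
  have y : ∀ j k a x, Y j k * (c a * x) = c a * (Y j k * x) := fun j k a x => by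
    rw [← mul_assoc, ← hY, mul_assoc]
  have w : ∀ j k l m a, c a * (Y j k * Z l m) = Y j k * Z l m * c a := fun j k l m a => by
    rw [← y, hZ, mul_assoc]
  have t0 := fun j k l m => h.tr_gam0 (w j k l m)
  have t2 := fun j k l m => h.tr_two (w j k l m)
  simp only [mul_add, add_mul, mul_assoc, y, a1, a2, a3, a4, a5, a6, h.sq', mul_neg, neg_neg,
    trace_add, trace_neg, t0, t2, h.tr_top]
  ring

theorem IsCl.sp_six (h : IsCl c) {w : Fin 4 → Fin 4 → ℂ} (hw : ∀ a b, w a b = -w b a) :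
    sp c w = c 0 * c 1 * ((w 0 1 / 2) • 1) + c 0 * c 2 * ((w 0 2 / 2) • 1) +
      c 0 * c 3 * ((w 0 3 / 2) • 1) + c 1 * c 2 * ((w 1 2 / 2) • 1) +
      c 1 * c 3 * ((w 1 3 / 2) • 1) + c 2 * c 3 * ((w 2 3 / 2) • 1) := by
  rw [h.sp_eq hw]
  simp only [mul_smul_comm, mul_one]
  module

theorem IsCl.tr_sp (h : IsCl c) {y : Matrix n n ℂ} (hy : ∀ a, c a * y = y * c a)
    (w : Fin 4 → Fin 4 → ℂ) : trace (gam c * (sp c w * y)) = 0 := by
  simp only [sp, smul_mul_assoc, sum_mul, mul_smul_comm, mul_sum, trace_smul, trace_sum,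
    h.tr_gam2 hy, smul_zero, sum_const_zero]

theorem IsCl.comm_sp (h : IsCl c) {y : Matrix n n ℂ} (hy : ∀ a, c a * y = y * c a)
    (w : Fin 4 → Fin 4 → ℂ) : y * sp c w = sp c w * y := by
  simp only [sp, smul_mul_assoc, sum_mul, mul_smul_comm, mul_sum]
  refine congrArg _ (sum_congr rfl fun a _ => sum_congr rfl fun b _ => ?_)
  rw [mul_assoc, hy, ← mul_assoc, ← mul_assoc, hy]

theorem IsCl.tr_sp_sq (h : IsCl c) {w : Fin 4 → Fin 4 → ℂ} (hw : ∀ a b, w a b = -w b a) :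
    trace (gam c * (sp c w * sp c w)) = Fintype.card n / 2 * pf w := by
  have k : ∀ j k a, c a * ((w j k / 2) • (1 : Matrix n n ℂ)) = ((w j k / 2) • 1) * c a :=
    fun j k a => by rw [mul_smul_comm, smul_mul_assoc, mul_one, one_mul]
  rw [h.sp_six hw, h.tr_quad (Y := fun j k => (w j k / 2) • 1) (Z := fun j k => (w j k / 2) • 1) k k]
  simp only [smul_mul_assoc, one_mul, trace_smul, trace_one, smul_eq_mul, pf]
  ring

/-- The density of a twisted spin curvature. -/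
theorem dens_gen (h : IsCl c) (hR : Riem R) {W Om : Fin 4 → Fin 4 → Matrix n n ℂ}
    (hW : ∀ j k a, c a * W j k = W j k * c a) (hW' : ∀ j k, W j k = -W k j)
    (hO : ∀ j k, Om j k = (sp c fun a b => (R j k a b : ℂ)) + W j k) :
    densA c Om = trace (W 0 1 * W 2 3) - trace (W 0 2 * W 1 3) + trace (W 0 3 * W 1 2) +
      Fintype.card n / 24 * pont R := by
  obtain ⟨s, hs⟩ := h.scal hR
  have e1 : (1 / 2 : ℂ) • ∑ j, ∑ k, c j * c k * Om j k =
      s • 1 + (1 / 2 : ℂ) • ∑ j, ∑ k, c j * c k * W j k := by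
    simp only [hO, mul_add, sum_add_distrib, smul_add, hs]
  have t1 : trace (gam c * ((1 / 2 : ℂ) • ∑ j, ∑ k, c j * c k * W j k)) = 0 := by
    simp only [mul_smul_comm, mul_sum, trace_smul, trace_sum, h.tr_gam2 (hW _ _), smul_zero,
      sum_const_zero]
  have t2 := h.tr_quad hW hW
  rw [← h.sum_cc hW', trace_mul_comm (W 1 2), trace_mul_comm (W 1 3), trace_mul_comm (W 2 3)] at t2
  have t0 : trace (gam c) = 0 := by
    have := h.tr_gam0 (w := 1) fun a => by rw [mul_one, one_mul]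
    rwa [mul_one] at this
  have t3 : ∀ j k, trace (gam c * (Om j k * Om j k)) =
      Fintype.card n / 2 * pf fun a b => (R j k a b : ℂ) := fun j k => by
    have w : ∀ a, c a * (W j k * W j k) = W j k * W j k * c a := fun a => by
      rw [← mul_assoc, hW, mul_assoc, hW, mul_assoc]
    simp only [hO, add_mul, h.comm_sp (hW j k), mul_add, trace_add, h.tr_sp (hW j k),
      h.tr_gam0 w, h.tr_sp_sq (hR.c2 j k), add_zero]
  have t4 : trace (gam c * ∑ j, ∑ k, Om j k * Om j k) = Fintype.card n / 2 * pont R := by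
    simp only [pont, mul_sum, trace_sum, t3]
  unfold densA
  rw [e1]
  set Y := (1 / 2 : ℂ) • ∑ j, ∑ k, c j * c k * W j k
  simp only [mul_add, add_mul, smul_mul_assoc, mul_smul_comm, one_mul, mul_one, trace_add,
    trace_smul, t0, t1, t2, t4, smul_eq_mul]
  ring

/-- The density of the Dolbeault system. -/
theorem dens_L (h : IsCl c) (hn : Fintype.card n = 4) (hR : Riem R) {F : Fin 4 → Fin 4 → ℂ}
    (hF : ∀ j k, F j k = -F k j) {Om : Fin 4 → Fin 4 → Matrix n n ℂ}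
    (hO : ∀ j k, Om j k = (sp c fun a b => (R j k a b : ℂ)) + F j k • 1) :
    densA c Om = 4 * pf F + pont R / 6 := by
  rw [dens_gen h hR (W := fun j k => F j k • 1)
    (fun j k a => by rw [mul_smul_comm, smul_mul_assoc, mul_one, one_mul])
    (fun j k => by rw [hF, neg_smul]) hO]
  simp only [smul_mul_assoc, one_mul, trace_smul, trace_one, smul_eq_mul, pf, hn]
  push_cast
  ring

theorem IsCl.tr_sp_sp (h : IsCl g) {u w : Fin 4 → Fin 4 → ℂ} (hu : ∀ a b, u a b = -u b a)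
    (hw : ∀ a b, w a b = -w b a) : trace (sp g u * sp g w) = -(Fintype.card n / 4) *
      (u 0 1 * w 0 1 + u 0 2 * w 0 2 + u 0 3 * w 0 3 + u 1 2 * w 1 2 + u 1 3 * w 1 3 +
        u 2 3 * w 2 3) := by
  obtain ⟨a1, a2, a3, a4, a5, a6, b1, b2, b3, b4, b5, b6⟩ := h.ord
  have t0 : trace (g 0 * (g 1 * (g 2 * g 3))) = 0 := by
    have := h.tr_gam0 (w := 1) fun a => by rw [mul_one, one_mul]
    simpa only [gam, mul_one, mul_assoc] using this
  have t2 : ∀ a b, a ≠ b → trace (g a * g b) = 0 := fun a b hab => by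
    have := trace_mul_comm (g a) (g b)
    rw [h.anti hab.symm, trace_neg] at this
    linear_combination (1 / 2 : ℂ) * this
  rw [h.sp_eq hu, h.sp_eq hw]
  simp only [smul_mul_assoc, mul_smul_comm, add_mul, mul_add, mul_assoc, a1, a2, a3, a4, a5, a6,
    b1, b2, b3, b4, b5, b6, h.sq, h.sq', mul_neg, neg_neg, mul_one, trace_add, trace_smul,
    trace_neg, trace_one, t0, t2 0 1 (by decide), t2 0 2 (by decide), t2 0 3 (by decide),
    t2 1 2 (by decide), t2 1 3 (by decide), t2 2 3 (by decide), smul_eq_mul]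
  ring

theorem sp_comm_of_anti (hcg : ∀ a b, c a * g b = -(g b * c a)) (w : Fin 4 → Fin 4 → ℂ)
    (a : Fin 4) : c a * sp g w = sp g w * c a := by
  simp only [sp, smul_mul_assoc, sum_mul, mul_smul_comm, mul_sum]
  refine congrArg _ (sum_congr rfl fun b _ => sum_congr rfl fun d _ => ?_)
  rw [← mul_assoc, hcg, neg_mul, mul_assoc, hcg, mul_neg, neg_neg, mul_assoc]

/-- The density of the signature system; `g` is the second Clifford family. -/
theorem dens_sign (h : IsCl c) (hg : IsCl g) (hcg : ∀ a b, c a * g b = -(g b * c a))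
    (hn : Fintype.card n = 16) (hR : Riem R) {Om : Fin 4 → Fin 4 → Matrix n n ℂ}
    (hO : ∀ j k, Om j k = (sp c fun a b => (R j k a b : ℂ)) + sp g fun a b => (R j k a b : ℂ)) :
    densA c Om = -(4 / 3) * pont R := by
  have p : ∀ j k a b, (R j k a b : ℂ) = R a b j k := fun j k a b => by rw [hR.pair]
  have q : ∀ j k a b, (R j k a b : ℂ) = -R k j a b := fun j k a b => by
    rw [hR.a1]; push_cast; rfl
  have q0 : ∀ j a b, (R j j a b : ℂ) = 0 := fun j a b => by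
    linear_combination (1 / 2 : ℂ) * q j j a b
  rw [dens_gen h hR (W := fun j k => sp g fun a b => (R j k a b : ℂ))
    (fun j k a => sp_comm_of_anti hcg _ a) (hR.sp_anti g) hO]
  simp only [hg.tr_sp_sp (hR.c2 _ _) (hR.c2 _ _), hn, pont, pf, Fin.sum_univ_four, q0, q 1 0, q 2 0,
    q 3 0, q 2 1, q 3 1, q 3 2, p 0 2 0 1, p 0 3 0 1, p 1 2 0 1, p 1 3 0 1, p 2 3 0 1, p 0 3 0 2,
    p 1 2 0 2, p 1 3 0 2, p 2 3 0 2, p 1 2 0 3, p 1 3 0 3, p 2 3 0 3, p 1 3 1 2, p 2 3 1 2,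
    p 2 3 1 3]
  push_cast
  ring

/-- The Pontryagin terms cancel. -/
theorem dens_sum {m : Type} [Fintype m] [DecidableEq m] {c₁ : Fin 4 → Matrix m m ℂ} (h₁ : IsCl c₁)
    (hm : Fintype.card m = 4) (h : IsCl c) (hg : IsCl g)
    (hcg : ∀ a b, c a * g b = -(g b * c a)) (hn : Fintype.card n = 16) (hR : Riem R)
    {F : Fin 4 → Fin 4 → ℂ} (hF : ∀ j k, F j k = -F k j) {Om₁ : Fin 4 → Fin 4 → Matrix m m ℂ}
    (hO₁ : ∀ j k, Om₁ j k = (sp c₁ fun a b => (R j k a b : ℂ)) + F j k • 1)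
    {Om : Fin 4 → Fin 4 → Matrix n n ℂ}
    (hO : ∀ j k, Om j k = (sp c fun a b => (R j k a b : ℂ)) + sp g fun a b => (R j k a b : ℂ)) :
    8 * densA c₁ Om₁ + densA c Om = 32 * pf F := by
  rw [dens_L h₁ hm hR hF hO₁, dens_sign h hg hcg hn hR hO]
  ring

section car

variable {x : Fin 4 → Matrix n n ℂ}

/-- Canonical anticommutation relations. -/
structure IsCAR (x : Fin 4 → Matrix n n ℂ) : Prop where
  nil : ∀ a b, x a * x b + x b * x a = 0
  rel : ∀ a b, x a * (x b)ᴴ + (x b)ᴴ * x a = if a = b then 1 else 0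

theorem IsCAR.nil' (h : IsCAR x) (a b : Fin 4) : (x a)ᴴ * (x b)ᴴ + (x b)ᴴ * (x a)ᴴ = 0 := by
  rw [← conjTranspose_mul, ← conjTranspose_mul, ← conjTranspose_add, h.nil, conjTranspose_zero]

theorem IsCAR.cl (h : IsCAR x) : IsCl fun a => x a - (x a)ᴴ := fun a b => by
  have e : (x a - (x a)ᴴ) * (x b - (x b)ᴴ) + (x b - (x b)ᴴ) * (x a - (x a)ᴴ) =
      (x a * x b + x b * x a) + ((x a)ᴴ * (x b)ᴴ + (x b)ᴴ * (x a)ᴴ) -
        (x a * (x b)ᴴ + (x b)ᴴ * x a) - (x b * (x a)ᴴ + (x a)ᴴ * x b) := by noncomm_ring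
  rw [e, h.nil, h.nil', h.rel, h.rel]
  by_cases hab : a = b
  · subst hab; simp only [if_true]; module
  · simp [hab, Ne.symm hab]

theorem IsCAR.cl' (h : IsCAR x) : IsCl fun a => Complex.I • (x a + (x a)ᴴ) := fun a b => by
  have e : (x a + (x a)ᴴ) * (x b + (x b)ᴴ) + (x b + (x b)ᴴ) * (x a + (x a)ᴴ) =
      (x a * x b + x b * x a) + ((x a)ᴴ * (x b)ᴴ + (x b)ᴴ * (x a)ᴴ) +
        (x a * (x b)ᴴ + (x b)ᴴ * x a) + (x b * (x a)ᴴ + (x a)ᴴ * x b) := by noncomm_ring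
  simp only [smul_mul_assoc, mul_smul_comm, smul_smul, Complex.I_mul_I]
  rw [← smul_add, e, h.nil, h.nil', h.rel, h.rel]
  by_cases hab : a = b
  · subst hab; simp only [if_true]; module
  · simp [hab, Ne.symm hab]

theorem IsCAR.anti (h : IsCAR x) (a b : Fin 4) :
    (x a - (x a)ᴴ) * (Complex.I • (x b + (x b)ᴴ)) =
      -((Complex.I • (x b + (x b)ᴴ)) * (x a - (x a)ᴴ)) := by
  have e : (x a - (x a)ᴴ) * (x b + (x b)ᴴ) + (x b + (x b)ᴴ) * (x a - (x a)ᴴ) =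
      (x a * x b + x b * x a) - ((x a)ᴴ * (x b)ᴴ + (x b)ᴴ * (x a)ᴴ) +
        (x a * (x b)ᴴ + (x b)ᴴ * x a) - (x b * (x a)ᴴ + (x a)ᴴ * x b) := by noncomm_ring
  refine eq_neg_of_add_eq_zero_left ?_
  rw [mul_smul_comm, smul_mul_assoc, ← smul_add, e, h.nil, h.nil', h.rel, h.rel]
  by_cases hab : a = b
  · subst hab; simp
  · simp [hab, Ne.symm hab]

end car

end Vale.Agent.P267I
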