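import Mathlib

/-! The local heat parametrix in dimension four: definitions. -/

open Finset MeasureTheory

noncomputable section

namespace Vale.Agent.P267I.K

/-- The chart. -/
abbrev E4 := Fin 4 → ℝ

variable {M : Type} [NormedRing M] [NormedAlgebra ℝ M] [StarRing M] {Y : Type}

/-- Derivative along a coordinate. -/
def pd {F : Type} [NormedAddCommGroup F] [NormedSpace ℝ F] (i : Fin 4) (f : E4 → F) (x : E4) : F :=
  fderiv ℝ f x (Pi.single i 1)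

/-- The squared length. -/
def r2 (x : E4) : ℝ := ∑ i, x i ^ 2

/-- The heat kernel of flat space. -/
def gs (t : ℝ) (z : E4) : ℝ := ((4 * Real.pi * t) ^ 2)⁻¹ * Real.exp (-(r2 z / (4 * t)))

/-- The algebraic input: `W` is killed by `τ`, `g` is a Lie algebra acting on `W`. -/
structure Alg (τ : M →L[ℝ] ℝ) (W g : Submodule ℝ M) : Prop where
  one : (1 : M) ∈ W
  ker : ∀ w ∈ W, τ w = 0
  st : ∀ w ∈ W, star w ∈ W
  tst : ∀ a, τ (star a) = τ a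
  clW : IsClosed (W : Set M)
  clg : IsClosed (g : Set M)
  le : g ≤ W
  skew : ∀ X ∈ g, star X = -X
  adW : ∀ X ∈ g, ∀ w ∈ W, X * w - w * X ∈ W
  adg : ∀ X ∈ g, ∀ w ∈ g, X * w - w * X ∈ g

/-- The coefficients of an operator of Laplace type: frame, coframe, first order term,
connection, potential, density. -/
structure Op (M : Type) where
  e : E4 → Fin 4 → Fin 4 → ℝ
  th : E4 → Fin 4 → Fin 4 → ℝ
  β : E4 → Fin 4 → ℝ
  A : Fin 4 → E4 → M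
  En : E4 → M
  ρ : E4 → ℝ

/-- The covariant derivative. -/
def nab (A : Fin 4 → E4 → M) (i : Fin 4) (v : E4 → M) (x : E4) : M := pd i v x + A i x * v x

/-- The general operator with leading coefficients `a`. -/
def Hgen (a : E4 → Fin 4 → Fin 4 → ℝ) (β : E4 → Fin 4 → ℝ) (A : Fin 4 → E4 → M) (En : E4 → M)
    (v : E4 → M) (x : E4) : M :=
  -(∑ i, ∑ j, a x i j • nab A i (nab A j v) x) + ∑ j, β x j • nab A j v x + En x * v x

/-- The curvature in coordinates. -/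
def curv (A : Fin 4 → E4 → M) (i j : Fin 4) (x : E4) : M :=
  pd i (A j) x - pd j (A i) x + A i x * A j x - A j x * A i x

/-- The index density of a potential and a curvature. -/
def dens0 (τ : M →L[ℝ] ℝ) (E : M) (Ω : Fin 4 → Fin 4 → M) : ℝ :=
  ((4 * Real.pi) ^ 2)⁻¹ * τ ((1 / 2 : ℝ) • (E * E) + (1 / 12 : ℝ) • ∑ a, ∑ b, Ω a b * Ω a b)

namespace Op

variable (O : Op M)

/-- The inverse metric. -/
def a (x : E4) (i j : Fin 4) : ℝ := ∑ c, O.e x c i * O.e x c j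

/-- The operator. -/
def H (v : E4 → M) (x : E4) : M := Hgen O.a O.β O.A O.En v x

/-- The curvature in the frame. -/
def Om (x : E4) (a b : Fin 4) : M := ∑ i, ∑ j, (O.e x a i * O.e x b j) • curv O.A i j x

/-- The index density. -/
def dens (τ : M →L[ℝ] ℝ) (x : E4) : ℝ := dens0 τ (O.En x) (O.Om x)

/-- Orthonormal coordinates at `y`. -/
def co (y x : E4) : E4 := fun a => ∑ i, O.th y a i * (x i - y i)

/-- Smooth coefficients with values in the right spaces. -/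
structure Good (W g : Submodule ℝ M) : Prop where
  se : ∀ a i, ContDiff ℝ (⊤ : ℕ∞) fun x => O.e x a i
  sth : ∀ a i, ContDiff ℝ (⊤ : ℕ∞) fun x => O.th x a i
  sβ : ∀ i, ContDiff ℝ (⊤ : ℕ∞) fun x => O.β x i
  sA : ∀ i, ContDiff ℝ (⊤ : ℕ∞) (O.A i)
  sE : ContDiff ℝ (⊤ : ℕ∞) O.En
  sρ : ContDiff ℝ (⊤ : ℕ∞) O.ρ
  inv1 : ∀ x a b, ∑ i, O.th x a i * O.e x b i = if a = b then 1 else 0
  inv2 : ∀ x i j, ∑ a, O.e x a i * O.th x a j = if i = j then 1 else 0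
  vol : ∀ x, O.ρ x * |(Matrix.of (O.e x)).det| = 1
  Ag : ∀ i x, O.A i x ∈ g
  EW : ∀ x, O.En x ∈ W
  Est : ∀ x, star (O.En x) = O.En x

end Op

/-- The Gaussian bound. -/
def gb (C t : ℝ) (z : E4) : ℝ := C * Real.exp (-(‖z‖ ^ 2 / (C * t)))

/-- The properties of a parametrix `Φ t x` centred at `y` for the operator `H`, on the ball of
radius `r`; `c` are the orthonormal coordinates, `ρ` the density, `d` the limit. -/
structure Par (τ : M →L[ℝ] ℝ) (H : (E4 → M) → E4 → M) (c : E4 → E4) (ρ : E4 → ℝ) (d r C : ℝ)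
    (y : E4) (Φ : ℝ → E4 → M) : Prop where
  sm : ContDiffOn ℝ (⊤ : ℕ∞) (fun p : ℝ × E4 => Φ p.1 p.2) (Set.Ioi 0 ×ˢ Set.univ)
  rem : ∀ t ∈ Set.Ioc (0 : ℝ) 1, ∀ x, ‖x - y‖ ≤ r →
    ‖deriv (fun s => Φ s x) t + H (Φ t) x‖ ≤ (√t)⁻¹ * gb C t (x - y)
  bd : ∀ t ∈ Set.Ioc (0 : ℝ) 1, ∀ x, ‖x - y‖ ≤ r → ‖Φ t x‖ ≤ (t ^ 2)⁻¹ * gb C t (x - y)
  bd1 : ∀ t ∈ Set.Ioc (0 : ℝ) 1, ∀ x, ‖x - y‖ ≤ r → ∀ i,
    ‖pd i (Φ t) x‖ ≤ (t ^ 2 * √t)⁻¹ * gb C t (x - y)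
  ini : ∀ t ∈ Set.Ioc (0 : ℝ) 1, ∀ x, ‖x - y‖ ≤ r →
    ‖Φ t x - gs t (c x) • (1 : M)‖ ≤ (t * √t)⁻¹ * gb C t (x - y)
  lim : ∀ χ : E4 → ℝ, Measurable χ → (∀ x, |χ x| ≤ 1) → (∀ x, ‖x - y‖ ≤ r / 2 → χ x = 1) →
    (∀ x, r < ‖x - y‖ → χ x = 0) → ∀ t ∈ Set.Ioc (0 : ℝ) 1,
      |∫ x, χ x * τ (star (Φ t x) * Φ t x) * ρ x - d| ≤ C * √t

/-! ### Polynomials with bounded coefficients -/

/-- Homogeneous polynomials with bounded coefficients in `W`. -/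
inductive Hom (W : Submodule ℝ M) : ℕ → (Y → E4 → M) → Prop
  | const (w : Y → M) (C : ℝ) (hb : ∀ y, ‖w y‖ ≤ C) (hw : ∀ y, w y ∈ W) : Hom W 0 fun y _ => w y
  | mulx (i : Fin 4) {k : ℕ} {f : Y → E4 → M} (h : Hom W k f) :
      Hom W (k + 1) fun y x => x i • f y x
  | add {k : ℕ} {f f' : Y → E4 → M} (h : Hom W k f) (h' : Hom W k f') :
      Hom W k fun y x => f y x + f' y x

/-- Polynomials with bounded coefficients in `W`. -/
inductive Pol (W : Submodule ℝ M) : (Y → E4 → M) → Prop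
  | hom {k : ℕ} {f : Y → E4 → M} (h : Hom W k f) : Pol W f
  | add {f f' : Y → E4 → M} (h : Pol W f) (h' : Pol W f') : Pol W fun y x => f y x + f' y x

/-- The scalars. -/
def W0 (M : Type) [NormedRing M] [NormedAlgebra ℝ M] : Submodule ℝ M := Submodule.span ℝ {1}

/-- Taylor expansion of order `n` on the unit ball. -/
structure Tay (W : Submodule ℝ M) (n : ℕ) (f : Y → E4 → M) (q : ℕ → Y → E4 → M) : Prop where
  hom : ∀ k, Hom W k (q k)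
  rem : ∃ C, ∀ y z, ‖z‖ ≤ 1 → ‖f y z - ∑ k ∈ range n, q k y z‖ ≤ C * ‖z‖ ^ n

/-- The derivative conjugated by the Gaussian. -/
def Dg (i : Fin 4) (p : E4 → M) (x : E4) : M := pd i p x - (x i / 2) • p x

/-- The model operator of weight `k`. -/
def Lk (k : ℕ) (p : E4 → M) (x : E4) : M :=
  ((k : ℝ) / 2) • p x + (1 / 2 : ℝ) • ∑ i, x i • pd i p x - ∑ i, pd i (pd i p) x

/-- An operator in coordinates with coefficients in the algebra. -/
def Hc (a : Fin 4 → Fin 4 → E4 → M) (b : Fin 4 → E4 → M) (c : E4 → M) (v : E4 → M) (x : E4) : M :=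
  -(∑ i, ∑ j, a i j x * pd i (pd j v) x) + ∑ i, b i x * pd i v x + c x * v x

/-- The same after conjugation by the Gaussian. -/
def Tg (a : Fin 4 → Fin 4 → E4 → M) (b : Fin 4 → E4 → M) (c : E4 → M) (p : E4 → M) (x : E4) : M :=
  -(∑ i, ∑ j, a i j x * Dg i (Dg j p) x) + ∑ i, b i x * Dg i p x + c x * p x

/-- The normal form: Taylor expansions of the coefficients `a b c ρ` with the special low
order terms. -/
structure NF (W : Submodule ℝ M) (a : Fin 4 → Fin 4 → Y → E4 → M) (b : Fin 4 → Y → E4 → M)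
    (c : Y → E4 → M) (E : Y → M) (Ω : Fin 4 → Fin 4 → Y → M)
    (qa : Fin 4 → Fin 4 → ℕ → Y → E4 → M) (qb : Fin 4 → ℕ → Y → E4 → M)
    (qc : ℕ → Y → E4 → M) : Prop where
  ta : ∀ i j, Tay (W0 M) 5 (a i j) (qa i j)
  tb : ∀ i, Tay W 4 (b i) (qb i)
  tc : Tay ⊤ 3 c qc
  a0 : ∀ i j y x, qa i j 0 y x = if i = j then 1 else 0
  b0 : ∀ i, Hom (W0 M) 0 (qb i 0)
  b1 : ∀ i, Hom (W0 M) 1 fun y x => qb i 1 y x + ∑ j, x j • Ω j i y
  c0 : ∀ y x, qc 0 y x = E y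
  c1 : Hom W 1 (qc 1)
  c2 : Hom W 2 fun y x => qc 2 y x + (1 / 4 : ℝ) • ∑ i, ∑ j, ∑ k, (x j * x k) • (Ω j i y * Ω k i y)
  hE : Hom W 0 fun y _ => E y
  hΩ : ∀ i j, Hom W 0 fun y _ => Ω i j y
  anti : ∀ i j y, Ω i j y = -Ω j i y

/-- The perturbation of weight `k + 1`. -/
def Tk (qa : Fin 4 → Fin 4 → ℕ → Y → E4 → M) (qb : Fin 4 → ℕ → Y → E4 → M)
    (qc : ℕ → Y → E4 → M) (k : ℕ) (y : Y) (p : E4 → M) : E4 → M :=
  Tg (fun i j => qa i j (k + 1) y) (fun i => qb i k y)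
    (fun x => if k = 0 then 0 else qc (k - 1) y x) p

/-- The solution of the recursion. -/
structure Rec (W : Submodule ℝ M) (E : Y → M) (Ω : Fin 4 → Fin 4 → Y → M)
    (qa : Fin 4 → Fin 4 → ℕ → Y → E4 → M) (qb : Fin 4 → ℕ → Y → E4 → M)
    (qc : ℕ → Y → E4 → M) (p : ℕ → Y → E4 → M) : Prop where
  pol : ∀ k, Pol ⊤ (p k)
  p0 : ∀ y x, p 0 y x = 1
  p1 : Pol (W0 M) (p 1)
  p2 : Pol (W0 M) fun y x => p 2 y x + E y
  p3 : Pol W (p 3)
  p4 : Pol W fun y x => p 4 y x - ((1 / 2 : ℝ) • (E y * E y) +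
    (1 / 12 : ℝ) • (∑ i, ∑ j, Ω j i y * Ω j i y) +
    (1 / 12 : ℝ) • ∑ i, ∑ j, ∑ k, (x j * x k) • (Ω j i y * Ω k i y))
  eq : ∀ k, 1 ≤ k → k ≤ 4 → ∀ y x,
    Lk k (p k y) x + ∑ j ∈ range k, Tk qa qb qc j y (p (k - 1 - j) y) x = 0

/-- The parametrix in normal form. -/
def par0 (p : ℕ → Y → E4 → M) (y : Y) (t : ℝ) (z : E4) : M :=
  gs t z • ∑ k ∈ range 5, √t ^ k • p k y ((√t)⁻¹ • z)

end Vale.Agent.P267I.K
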