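import Vale.Agent.P267I.Defs
import Vale.Agent.P267I.Cl2
import Vale.Agent.P267I.Bian
import Vale.Agent.P267I.K0

/-! The algebraic input of the parametrix for a Clifford system. -/

open Finset Matrix Filter Topology
open scoped Matrix.Norms.L2Operator

noncomputable section

namespace Vale.Agent.P267I

open Vale.Agent.P267F

variable {N : ℕ}

namespace Cl

variable (C : Cl N)

theorem isCl : IsCl C.c := C.rel

/-- The real part of the supertrace. -/
def tau : Mat N →L[ℝ] ℝ :=
  LinearMap.toContinuousLinearMap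
    { toFun := fun X => (C.gam * X).trace.re
      map_add' := fun X Y => by rw [mul_add, trace_add, Complex.add_re]
      map_smul' := fun r X => by
        rw [mul_smul_comm, trace_smul, Complex.smul_re, RingHom.id_apply] }

theorem tau_apply (X : Mat N) : C.tau X = (C.gam * X).trace.re := rfl

/-- Elements of Clifford degree zero or two. -/
def V2 : Submodule ℝ (Mat N) :=
  Submodule.span ℝ {X | ∃ a b w, (∀ k, C.c k * w = w * C.c k) ∧ X = C.c a * C.c b * w}

/-- `X` acts on the generators by the matrix `u`. -/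
def Act (X : Mat N) (u : Fin 4 → Fin 4 → ℝ) : Prop :=
  ∀ a, X * C.c a - C.c a * X = ∑ b, (u a b : ℂ) • C.c b

/-- The Lie algebra. -/
def G2 : Submodule ℝ (Mat N) where
  carrier := {X | Xᴴ = -X ∧ ∃ u : Fin 4 → Fin 4 → ℝ, (∀ a b, u a b = -u b a) ∧ C.Act X u}
  zero_mem' := ⟨by simp, 0, by simp, fun a => by simp⟩
  add_mem' := by
    rintro X Y ⟨h1, u, hu, h2⟩ ⟨h3, v, hv, h4⟩
    refine ⟨by rw [conjTranspose_add, h1, h3, neg_add], fun a b => u a b + v a b,
      fun a b => by linarith [hu a b, hv a b], fun a => ?_⟩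
    simp only [Complex.ofReal_add, add_smul, sum_add_distrib, ← h2 a, ← h4 a, add_mul, mul_add]
    abel
  smul_mem' := by
    rintro r X ⟨h1, u, hu, h2⟩
    refine ⟨by rw [conjTranspose_smul, h1, star_trivial, smul_neg], fun a b => r * u a b,
      fun a b => by beta_reduce; rw [hu a b]; ring, fun a => ?_⟩
    rw [smul_mul_assoc, mul_smul_comm, ← smul_sub, h2 a, smul_sum]
    refine sum_congr rfl fun b _ => ?_
    beta_reduce
    rw [Complex.ofReal_mul, mul_smul, Complex.coe_smul r]

variable {C}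

theorem gen_mem (a b : Fin 4) {w : Mat N} (hw : ∀ k, C.c k * w = w * C.c k) :
    C.c a * C.c b * w ∈ C.V2 := Submodule.subset_span ⟨a, b, w, hw, rfl⟩

theorem comm_mem {w : Mat N} (hw : ∀ k, C.c k * w = w * C.c k) : w ∈ C.V2 := by
  have := gen_mem (C := C) 0 0 (w := -w) fun k => by rw [mul_neg, neg_mul, hw]
  rwa [C.isCl.sq, neg_mul_neg, one_mul] at this

theorem smul_gen_mem (s : ℂ) (a b : Fin 4) {w : Mat N} (hw : ∀ k, C.c k * w = w * C.c k) :
    s • (C.c a * C.c b * w) ∈ C.V2 := by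
  rw [← mul_smul_comm]
  exact gen_mem a b fun k => by rw [mul_smul_comm, smul_mul_assoc, hw]

theorem sp_mem (w : Fin 4 → Fin 4 → ℂ) : sp C.c w ∈ C.V2 := by
  rw [sp, smul_sum]
  refine Submodule.sum_mem _ fun a _ => ?_
  rw [smul_sum]
  refine Submodule.sum_mem _ fun b _ => ?_
  rw [smul_smul, ← mul_one (C.c a * C.c b)]
  exact smul_gen_mem _ a b fun k => by rw [mul_one, one_mul]

theorem Act.sub_sp {X : Mat N} {u : Fin 4 → Fin 4 → ℝ} (hu : ∀ a b, u a b = -u b a)
    (h : C.Act X u) (k : Fin 4) :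
    C.c k * (X - sp C.c fun a b => (u a b : ℂ)) = (X - sp C.c fun a b => (u a b : ℂ)) * C.c k := by
  have h1 := C.isCl.sp_comm_c (w := fun a b => (u a b : ℂ))
    (fun a b => by rw [hu a b]; push_cast; rfl) k
  have h2 := h k
  rw [← h1] at h2
  rw [mul_sub, sub_mul]
  linear_combination (norm := abel) -h2

theorem Act.mem {X : Mat N} {u : Fin 4 → Fin 4 → ℝ} (hu : ∀ a b, u a b = -u b a)
    (h : C.Act X u) : X ∈ C.V2 := by
  rw [← sub_add_cancel X (sp C.c fun a b => (u a b : ℂ))]
  exact add_mem (comm_mem (h.sub_sp hu)) (sp_mem _)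

theorem Act.lie {X Y : Mat N} {u v : Fin 4 → Fin 4 → ℝ} (h : C.Act X u) (h' : C.Act Y v) :
    C.Act (X * Y - Y * X) fun a b => ∑ l, (v a l * u l b - u a l * v l b) := by
  intro a
  have e1 : (X * Y - Y * X) * C.c a - C.c a * (X * Y - Y * X) =
      (X * (Y * C.c a - C.c a * Y) - (Y * C.c a - C.c a * Y) * X) -
        (Y * (X * C.c a - C.c a * X) - (X * C.c a - C.c a * X) * Y) := by
    noncomm_ring
  have e2 : ∀ {X : Mat N} {u : Fin 4 → Fin 4 → ℝ}, C.Act X u → ∀ v : Fin 4 → ℝ,
      X * (∑ l, (v l : ℂ) • C.c l) - (∑ l, (v l : ℂ) • C.c l) * X =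
        ∑ b, ((∑ l, v l * u l b : ℝ) : ℂ) • C.c b := by
    intro X u h v
    simp only [Finset.mul_sum, Finset.sum_mul, mul_smul_comm, smul_mul_assoc, ← sum_sub_distrib,
      ← smul_sub, h _, smul_sum, smul_smul, Complex.ofReal_sum, sum_smul, Complex.ofReal_mul]
    exact sum_comm
  rw [e1, h a, h' a, e2 h, e2 h', ← sum_sub_distrib]
  refine sum_congr rfl fun b _ => ?_
  beta_reduce
  rw [← sub_smul, sum_sub_distrib, Complex.ofReal_sub]

theorem gam_star : C.gamᴴ = C.gam := by
  obtain ⟨a1, a2, a3, a4, a5, a6, b1, b2, b3, b4, b5, b6⟩ := C.isCl.ord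
  simp only [Cl.gam, conjTranspose_mul, C.skew, mul_neg, neg_mul, neg_neg, mul_assoc, a1, a2, a3,
    a4, a5, a6, b1, b2, b3, b4, b5, b6]

variable (C) in
theorem alg : K.Alg C.tau C.V2 C.G2 where
  one := comm_mem fun k => by rw [mul_one, one_mul]
  ker := by
    intro w hw
    induction hw using Submodule.span_induction with
    | mem x hx =>
      obtain ⟨a, b, w, hw, rfl⟩ := hx
      rw [tau_apply, show C.gam = P267I.gam C.c from rfl, C.isCl.tr_gam2 hw, Complex.zero_re]
    | zero => exact map_zero _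
    | add x y _ _ hx hy => rw [map_add, hx, hy, add_zero]
    | smul r x _ hx => rw [map_smul, hx, smul_zero]
  st := by
    intro w hw
    induction hw using Submodule.span_induction with
    | mem x hx =>
      obtain ⟨a, b, w, hw, rfl⟩ := hx
      have h1 : ∀ k, C.c k * wᴴ = wᴴ * C.c k := fun k => by
        have := congrArg conjTranspose (hw k)
        rw [conjTranspose_mul, conjTranspose_mul, C.skew, mul_neg, neg_mul, neg_inj] at this
        exact this.symm
      have h2 : star (C.c a * C.c b * w) = C.c b * C.c a * wᴴ := by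
        rw [star_eq_conjTranspose, conjTranspose_mul, conjTranspose_mul, C.skew, C.skew,
          neg_mul_neg, ← mul_assoc, ← h1, mul_assoc, ← h1, mul_assoc]
      rw [h2]
      exact gen_mem b a h1
    | zero => rw [star_zero]; exact zero_mem _
    | add x y _ _ hx hy => rw [star_add]; exact add_mem hx hy
    | smul r x _ hx => rw [star_smul, star_trivial]; exact Submodule.smul_mem _ _ hx
  tst := by
    intro a
    rw [tau_apply, tau_apply, star_eq_conjTranspose, ← gam_star (C := C), ← conjTranspose_mul,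
      trace_conjTranspose, gam_star, trace_mul_comm]
    rfl
  clW := Submodule.closed_of_finiteDimensional _
  clg := Submodule.closed_of_finiteDimensional _
  le := fun _ ⟨_, _, hu, h⟩ => h.mem hu
  skew := fun _ h => h.1
  adW := by
    rintro X ⟨-, u, -, h⟩ w hw
    induction hw using Submodule.span_induction with
    | mem x hx =>
      obtain ⟨a, b, w, hw, rfl⟩ := hx
      have h0 : C.Act w 0 := fun k => by simp [hw k]
      have h1 : ∀ k, C.c k * (X * w - w * X) = (X * w - w * X) * C.c k := fun k => by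
        have := h.lie h0 k
        simp only [Pi.zero_apply, zero_mul, mul_zero, sub_self, sum_const_zero,
          Complex.ofReal_zero, zero_smul] at this
        exact (sub_eq_zero.1 this).symm
      have e1 : X * (C.c a * C.c b * w) - C.c a * C.c b * w * X =
          (X * C.c a - C.c a * X) * C.c b * w + C.c a * (X * C.c b - C.c b * X) * w +
            C.c a * C.c b * (X * w - w * X) := by noncomm_ring
      rw [e1, h a, h b]
      simp only [Finset.sum_mul, Finset.mul_sum, smul_mul_assoc, mul_smul_comm]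
      exact add_mem (add_mem (Submodule.sum_mem _ fun k _ => smul_gen_mem _ _ _ hw)
        (Submodule.sum_mem _ fun k _ => smul_gen_mem _ _ _ hw)) (gen_mem a b h1)
    | zero => simp
    | add x y _ _ hx hy =>
      rw [mul_add, add_mul, add_sub_add_comm]
      exact add_mem hx hy
    | smul r x _ hx =>
      rw [mul_smul_comm, smul_mul_assoc, ← smul_sub]
      exact Submodule.smul_mem _ _ hx
  adg := by
    rintro X ⟨h1, u, hu, h2⟩ Y ⟨h3, v, hv, h4⟩
    refine ⟨?_, _, fun a b => ?_, h2.lie h4⟩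
    · rw [conjTranspose_sub, conjTranspose_mul, conjTranspose_mul, h1, h3, neg_mul_neg,
        neg_mul_neg, neg_sub]
    · rw [← sum_neg_distrib]
      exact sum_congr rfl fun l _ => by rw [hv a l, hu l b, hu a l, hv l b]; ring

/-- The potential of a curvature that acts by an algebraic curvature tensor. -/
theorem pot_mem {R : Fin 4 → Fin 4 → Fin 4 → Fin 4 → ℝ} (hR : Riem R) {Ω : Fin 4 → Fin 4 → Mat N}
    (h : ∀ j k, C.Act (Ω j k) (R j k)) :
    (1 / 2 : ℂ) • ∑ j, ∑ k, C.c j * C.c k * Ω j k ∈ C.V2 := by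
  obtain ⟨s, hs⟩ := C.isCl.scal hR
  have e : (1 / 2 : ℂ) • ∑ j, ∑ k, C.c j * C.c k * Ω j k = s • (1 : Mat N) + ∑ j, ∑ k,
      (1 / 2 : ℂ) • (C.c j * C.c k * (Ω j k - sp C.c fun a b => (R j k a b : ℂ))) := by
    rw [← hs]
    simp only [smul_sum, ← sum_add_distrib, ← smul_add, ← mul_add, add_sub_cancel]
  rw [e]
  exact add_mem (comm_mem fun k => by rw [mul_smul_comm, smul_mul_assoc, mul_one, one_mul])
    (Submodule.sum_mem _ fun j _ => Submodule.sum_mem _ fun k _ =>
      smul_gen_mem _ _ _ ((h j k).sub_sp (hR.a2 j k)))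

theorem pot_star {R : Fin 4 → Fin 4 → Fin 4 → Fin 4 → ℝ} (hR : Riem R) {Ω : Fin 4 → Fin 4 → Mat N}
    (h : ∀ j k, C.Act (Ω j k) (R j k)) (hs : ∀ j k, (Ω j k)ᴴ = -Ω j k)
    (ha : ∀ j k, Ω j k = -Ω k j) :
    ((1 / 2 : ℂ) • ∑ j, ∑ k, C.c j * C.c k * Ω j k)ᴴ =
      (1 / 2 : ℂ) • ∑ j, ∑ k, C.c j * C.c k * Ω j k := by
  have e1 : (∑ j, ∑ k, C.c j * C.c k * Ω j k)ᴴ = ∑ j, ∑ k, Ω j k * (C.c j * C.c k) := by
    rw [sum_comm]
    simp only [conjTranspose_sum, conjTranspose_mul, C.skew, hs, neg_mul_neg]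
    exact sum_congr rfl fun j _ => sum_congr rfl fun k _ => by rw [← ha]
  have e2 : ∀ j k, Ω j k * (C.c j * C.c k) = C.c j * C.c k * Ω j k +
      (∑ b, (R j k j b : ℂ) • (C.c b * C.c k) + ∑ b, (R j k k b : ℂ) • (C.c j * C.c b)) := by
    intro j k
    have : Ω j k * (C.c j * C.c k) = C.c j * C.c k * Ω j k +
      ((Ω j k * C.c j - C.c j * Ω j k) * C.c k + C.c j * (Ω j k * C.c k - C.c k * Ω j k)) := by
      noncomm_ring
    rw [this, h j k j, h j k k]
    simp only [Finset.sum_mul, Finset.mul_sum, smul_mul_assoc, mul_smul_comm]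
  have e3 : ∑ j, ∑ k, ∑ b, (R j k k b : ℂ) • (C.c j * C.c b) =
      -∑ j, ∑ k, ∑ b, (R j k j b : ℂ) • (C.c b * C.c k) := by
    rw [sum_comm, ← sum_neg_distrib]
    refine sum_congr rfl fun k _ => ?_
    rw [sum_comm, ← sum_neg_distrib]
    refine sum_congr rfl fun b _ => ?_
    rw [← sum_neg_distrib]
    refine sum_congr rfl fun j _ => ?_
    rw [hR.a1 j k k b, hR.pair k j k b, Complex.ofReal_neg, neg_smul]
  rw [conjTranspose_smul, e1]
  simp only [e2, sum_add_distrib, e3, add_neg_cancel, add_zero]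
  norm_num

end Cl

end Vale.Agent.P267I
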