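import Mathlib

/-! Clifford and trace algebra in dimension four. -/

open Finset Matrix

noncomputable section

namespace Vale.Agent.P267I

variable {n : Type} [Fintype n] [DecidableEq n]

/-- Clifford relations. -/
def IsCl (c : Fin 4 → Matrix n n ℂ) : Prop :=
  ∀ a b, c a * c b + c b * c a = if a = b then (-2 : ℂ) • (1 : Matrix n n ℂ) else 0

/-- The chirality element. -/
def gam (c : Fin 4 → Matrix n n ℂ) : Matrix n n ℂ := c 0 * c 1 * c 2 * c 3

/-- The spin representation. -/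
def sp (c : Fin 4 → Matrix n n ℂ) (w : Fin 4 → Fin 4 → ℂ) : Matrix n n ℂ :=
  (1 / 4 : ℂ) • ∑ a, ∑ b, w a b • (c a * c b)

variable {c : Fin 4 → Matrix n n ℂ}

theorem IsCl.sq (h : IsCl c) (a : Fin 4) : c a * c a = -1 := by
  have h1 := h a a
  rw [if_pos rfl, ← two_smul ℂ] at h1
  have h2 : (2 : ℂ) • (c a * c a) = (2 : ℂ) • (-1 : Matrix n n ℂ) := by
    rw [h1, neg_smul, smul_neg]
  exact smul_right_injective _ two_ne_zero h2

theorem IsCl.anti (h : IsCl c) {a b : Fin 4} (hab : a ≠ b) : c a * c b = -(c b * c a) := by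
  have h1 := h a b
  rw [if_neg hab] at h1
  exact eq_neg_of_add_eq_zero_left h1

theorem IsCl.sq' (h : IsCl c) (a : Fin 4) (x : Matrix n n ℂ) : c a * (c a * x) = -x := by
  rw [← mul_assoc, h.sq, neg_one_mul]

theorem IsCl.anti' (h : IsCl c) {a b : Fin 4} (hab : a ≠ b) (x : Matrix n n ℂ) :
    c a * (c b * x) = -(c b * (c a * x)) := by
  rw [← mul_assoc, h.anti hab, neg_mul, mul_assoc]

theorem IsCl.ord (h : IsCl c) :
    (∀ x, c 1 * (c 0 * x) = -(c 0 * (c 1 * x))) ∧ (∀ x, c 2 * (c 0 * x) = -(c 0 * (c 2 * x))) ∧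
    (∀ x, c 3 * (c 0 * x) = -(c 0 * (c 3 * x))) ∧ (∀ x, c 2 * (c 1 * x) = -(c 1 * (c 2 * x))) ∧
    (∀ x, c 3 * (c 1 * x) = -(c 1 * (c 3 * x))) ∧ (∀ x, c 3 * (c 2 * x) = -(c 2 * (c 3 * x))) ∧
    c 1 * c 0 = -(c 0 * c 1) ∧ c 2 * c 0 = -(c 0 * c 2) ∧ c 3 * c 0 = -(c 0 * c 3) ∧
    c 2 * c 1 = -(c 1 * c 2) ∧ c 3 * c 1 = -(c 1 * c 3) ∧ c 3 * c 2 = -(c 2 * c 3) :=
  ⟨h.anti' (by decide), h.anti' (by decide), h.anti' (by decide), h.anti' (by decide),
    h.anti' (by decide), h.anti' (by decide), h.anti (by decide), h.anti (by decide),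
    h.anti (by decide), h.anti (by decide), h.anti (by decide), h.anti (by decide)⟩

theorem IsCl.c_gam (h : IsCl c) (e : Fin 4) : c e * gam c = -(gam c * c e) := by
  obtain ⟨a1, a2, a3, a4, a5, a6, b1, b2, b3, b4, b5, b6⟩ := h.ord
  fin_cases e <;>
    simp only [gam, Fin.zero_eta, Fin.mk_one, Fin.reduceFinMk, mul_assoc, a1, a2, a3, a4, a5, a6,
      b1, b2, b3, b4, b5, b6, h.sq, h.sq', mul_neg, neg_neg, mul_one]

theorem IsCl.gam_sq (h : IsCl c) : gam c * gam c = 1 := by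
  obtain ⟨a1, a2, a3, a4, a5, a6, b1, b2, b3, b4, b5, b6⟩ := h.ord
  simp only [gam, mul_assoc, a1, a2, a3, a4, a5, a6,
    b1, b2, b3, b4, b5, b6, h.sq, h.sq', mul_neg, neg_neg, mul_one]

/-- An element that commutes with one generator has vanishing supertrace. -/
theorem IsCl.tr_zero (h : IsCl c) (e : Fin 4) {x : Matrix n n ℂ} (hx : c e * x = x * c e) :
    trace (gam c * x) = 0 := by
  have h1 : trace (c e * (gam c * x) * c e) = trace (gam c * x) := by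
    rw [← mul_assoc, h.c_gam, neg_mul, neg_mul, mul_assoc (gam c), hx, mul_assoc, mul_assoc, h.sq,
      mul_neg, mul_one, mul_neg, neg_neg]
  rw [trace_mul_comm, ← mul_assoc, h.sq, neg_one_mul, trace_neg] at h1
  linear_combination (-1 / 2 : ℂ) * h1

theorem IsCl.tr_gam0 (h : IsCl c) {w : Matrix n n ℂ} (hw : ∀ a, c a * w = w * c a) :
    trace (gam c * w) = 0 := h.tr_zero 0 (hw 0)

theorem IsCl.tr_gam2 (h : IsCl c) {w : Matrix n n ℂ} (hw : ∀ a, c a * w = w * c a) (a b : Fin 4) :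
    trace (gam c * (c a * c b * w)) = 0 := by
  obtain ⟨e, ha, hb⟩ : ∃ e, e ≠ a ∧ e ≠ b := by revert a b; decide
  refine h.tr_zero e ?_
  rw [mul_assoc, h.anti' ha, h.anti' hb, mul_neg, neg_neg, hw, mul_assoc, mul_assoc]

/-- The six term form of the spin representation. -/
theorem IsCl.sp_eq (h : IsCl c) {w : Fin 4 → Fin 4 → ℂ} (hw : ∀ a b, w a b = -w b a) :
    sp c w = (1 / 2 : ℂ) • (w 0 1 • (c 0 * c 1) + w 0 2 • (c 0 * c 2) + w 0 3 • (c 0 * c 3) +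
      w 1 2 • (c 1 * c 2) + w 1 3 • (c 1 * c 3) + w 2 3 • (c 2 * c 3)) := by
  obtain ⟨-, -, -, -, -, -, b1, b2, b3, b4, b5, b6⟩ := h.ord
  have h0 : ∀ a, w a a = 0 := fun a => by linear_combination (1 / 2 : ℂ) * hw a a
  simp only [sp, Fin.sum_univ_four, h0, hw 1 0, hw 2 0, hw 3 0, hw 2 1, hw 3 1, hw 3 2, b1, b2, b3,
    b4, b5, b6]
  module

theorem IsCl.sp_comm_c (h : IsCl c) {w : Fin 4 → Fin 4 → ℂ} (hw : ∀ a b, w a b = -w b a)
    (e : Fin 4) : sp c w * c e - c e * sp c w = ∑ b, w e b • c b := by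
  obtain ⟨a1, a2, a3, a4, a5, a6, b1, b2, b3, b4, b5, b6⟩ := h.ord
  have h0 : ∀ a, w a a = 0 := fun a => by linear_combination (1 / 2 : ℂ) * hw a a
  rw [h.sp_eq hw]
  fin_cases e <;>
    simp only [Fin.zero_eta, Fin.mk_one, Fin.reduceFinMk, Fin.sum_univ_four, h0, hw 1 0, hw 2 0,
      hw 3 0, hw 2 1, hw 3 1, hw 3 2, smul_mul_assoc, mul_smul_comm, add_mul, mul_add, mul_assoc,
      a1, a2, a3, a4, a5, a6, b1, b2, b3, b4, b5, b6, h.sq, h.sq', mul_neg, neg_neg, mul_one] <;>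
    module

theorem IsCl.sp_comm_sp (h : IsCl c) {u w : Fin 4 → Fin 4 → ℂ} (hu : ∀ a b, u a b = -u b a)
    (hw : ∀ a b, w a b = -w b a) :
    sp c u * sp c w - sp c w * sp c u = sp c fun a b => ∑ e, (w a e * u e b - u a e * w e b) := by
  obtain ⟨a1, a2, a3, a4, a5, a6, b1, b2, b3, b4, b5, b6⟩ := h.ord
  have h0 : ∀ a, w a a = 0 := fun a => by linear_combination (1 / 2 : ℂ) * hw a a
  have h1 : ∀ a, u a a = 0 := fun a => by linear_combination (1 / 2 : ℂ) * hu a a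
  rw [h.sp_eq hw, h.sp_eq hu, h.sp_eq fun a b => by
    rw [← sum_neg_distrib]
    exact sum_congr rfl fun e _ => by rw [hw a e, hu e b, hu a e, hw e b]; ring]
  simp only [Fin.sum_univ_four, h0, h1, hw 1 0, hw 2 0, hw 3 0, hw 2 1, hw 3 1, hw 3 2, hu 1 0,
    hu 2 0, hu 3 0, hu 2 1, hu 3 1, hu 3 2, smul_mul_assoc, mul_smul_comm, add_mul, mul_add,
    mul_assoc, a1, a2, a3, a4, a5, a6, b1, b2, b3, b4, b5, b6, h.sq, h.sq', mul_neg, neg_neg,
    mul_one]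
  module

end Vale.Agent.P267I
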