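import Vale.Agent.P267I.Forms

/-! Abstract Dirac systems on a complex surface. -/

open scoped Manifold ContDiff Topology
open Filter Matrix MeasureTheory

noncomputable section

namespace Vale.Agent.P267I

open Vale.Agent.P267F

abbrev Mat (N : ℕ) := Matrix (Fin N) (Fin N) ℂ

abbrev Vec (N : ℕ) := Fin N → ℂ

/-- The real coordinates of a vector in the basis `bs`. -/
def co (v : C2) : Fin 4 → ℝ := ![(v 0).re, (v 0).im, (v 1).re, (v 1).im]

/-- Determinant of a frame. -/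
def fdet (e : Fin 4 → C2) : ℝ := (Matrix.of fun a b => co (e a) b).det

/-- Clifford matrices. -/
structure Cl (N : ℕ) where
  c : Fin 4 → Mat N
  skew : ∀ a, (c a)ᴴ = -c a
  rel : ∀ a b, c a * c b + c b * c a = if a = b then (-2 : ℂ) • (1 : Mat N) else 0

/-- The grading. -/
def Cl.gam {N : ℕ} (C : Cl N) : Mat N := C.c 0 * C.c 1 * C.c 2 * C.c 3

variable (X : Type) [TopologicalSpace X] [ChartedSpace C2 X] [MeasurableSpace X]

/-- Clifford bundle data. A section is a function `s : X → Vec N`; in the frame chosen on `W p`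
and the chart at `p` it is `z ↦ U p x *ᵥ s x`, `x = (chartAt C2 p).symm z`. -/
structure Pre (N : ℕ) extends Cl N where
  W : X → Set X
  W_open : ∀ p, IsOpen (W p)
  W_mem : ∀ p, p ∈ W p
  W_sub : ∀ p, W p ⊆ (chartAt C2 p).source
  U : X → X → Mat N
  U_unit : ∀ p x, (U p x)ᴴ * U p x = 1
  U_gam : ∀ p x, U p x * toCl.gam = toCl.gam * U p x
  U_sm : ∀ p q i j, ContDiffOn ℝ ∞
    (fun z => (U p ((chartAt C2 p).symm z) * (U q ((chartAt C2 p).symm z))ᴴ) i j)
    (chartAt C2 p '' (W p ∩ W q))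
  e : X → Fin 4 → C2 → C2
  e_sm : ∀ p a, ContDiffOn ℝ ∞ (e p a) (chartAt C2 p '' W p)
  e_pos : ∀ p, ∀ z ∈ chartAt C2 p '' W p, 0 < fdet fun a => e p a z
  μ : Measure X
  μ_eq : ∀ p, μ.restrict (W p) = Measure.map (chartAt C2 p).symm
    ((volume.restrict (chartAt C2 p '' W p)).withDensity
      fun z => ENNReal.ofReal (fdet fun a => e p a z)⁻¹)

variable {X} {N : ℕ} (S : Pre X N)

namespace Pre

/-- The domain in the chart at `p`. -/
def V (p : X) : Set C2 := chartAt C2 p '' S.W p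

/-- The volume density in the chart at `p`. -/
def rho (p : X) (z : C2) : ℝ := (fdet fun a => S.e p a z)⁻¹

/-- The local expression of a section. -/
def loc (p : X) (s : X → Vec N) (z : C2) : Vec N :=
  S.U p ((chartAt C2 p).symm z) *ᵥ s ((chartAt C2 p).symm z)

/-- Smooth sections. -/
def Sm (s : X → Vec N) : Prop := ∀ p, ContDiffOn ℝ ∞ (S.loc p s) (S.V p)

/-- The `L²` product, antilinear in the first section. -/
def ip (s t : X → Vec N) : ℂ := ∫ x, star (s x) ⬝ᵥ t x ∂S.μ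

/-- The local operator `∑ c_a e_a + B`. -/
def Dloc (B : X → C2 → Mat N) (p : X) (f : C2 → Vec N) (z : C2) : Vec N :=
  ∑ a, S.c a *ᵥ fderiv ℝ f z (S.e p a z) + B p z *ᵥ f z

/-- The global operator, computed at `x` in the frame at `x`. -/
def D (B : X → C2 → Mat N) (s : X → Vec N) (x : X) : Vec N :=
  (S.U x x)ᴴ *ᵥ S.Dloc B x (S.loc x s) (chartAt C2 x x)

/-- `B` makes `D` a well defined odd symmetric operator. -/
structure IsOp (B : X → C2 → Mat N) : Prop where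
  sm : ∀ p i j, ContDiffOn ℝ ∞ (fun z => B p z i j) (S.V p)
  odd : ∀ p, ∀ z ∈ S.V p, B p z * S.gam = -(S.gam * B p z)
  compat : ∀ p, ∀ x ∈ S.W p, ∀ s, DifferentiableAt ℝ (S.loc p s) (chartAt C2 p x) →
    S.U p x *ᵥ S.D B s x = S.Dloc B p (S.loc p s) (chartAt C2 p x)
  symm : ∀ s t, S.Sm s → S.Sm t → S.ip (S.D B s) t = S.ip s (S.D B t)

/-- The kernel in parity `ε = ±1`. -/
def Ker (B : X → C2 → Mat N) (ε : ℂ) : Submodule ℂ (X → Vec N) :=
  Submodule.span ℂ {s | S.Sm s ∧ S.D B s = 0 ∧ ∀ x, S.gam *ᵥ s x = ε • s x}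

/-- The index. -/
def ind (B : X → C2 → Mat N) : ℤ :=
  (Module.finrank ℂ (S.Ker B 1) : ℤ) - Module.finrank ℂ (S.Ker B (-1))

/-- A Clifford connection `A p k = A(e_k)` over the Levi-Civita connection
`∇_{e_k} e_a = ∑ b, om p k a b • e_b`. -/
structure IsLC (A : X → Fin 4 → C2 → Mat N) (om : X → Fin 4 → Fin 4 → Fin 4 → C2 → ℝ) :
    Prop where
  A_sm : ∀ p k i j, ContDiffOn ℝ ∞ (fun z => A p k z i j) (S.V p)
  A_skew : ∀ p k, ∀ z ∈ S.V p, (A p k z)ᴴ = -A p k z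
  om_sm : ∀ p k a b, ContDiffOn ℝ ∞ (om p k a b) (S.V p)
  om_skew : ∀ p k a b, ∀ z ∈ S.V p, om p k a b z = -om p k b a z
  comm : ∀ p k a, ∀ z ∈ S.V p,
    A p k z * S.c a - S.c a * A p k z = ∑ b, (om p k a b z : ℂ) • S.c b
  tf : ∀ p j k, ∀ z ∈ S.V p,
    fderiv ℝ (S.e p k) z (S.e p j z) - fderiv ℝ (S.e p j) z (S.e p k z) =
      ∑ b, (om p j k b z - om p k j b z) • S.e p b z

/-- The order zero part of the Dirac operator of `A`. -/
def BofA (A : X → Fin 4 → C2 → Mat N) (p : X) (z : C2) : Mat N := ∑ a, S.c a * A p a z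

/-- The derivative of a matrix function. -/
def dM (F : C2 → Mat N) (z v : C2) : Mat N := Matrix.of fun i j => fderiv ℝ (fun y => F y i j) z v

/-- The curvature `Ω(e_j, e_k)`. -/
def Om (A : X → Fin 4 → C2 → Mat N) (om : X → Fin 4 → Fin 4 → Fin 4 → C2 → ℝ) (p : X)
    (j k : Fin 4) (z : C2) : Mat N :=
  dM (A p k) z (S.e p j z) - dM (A p j) z (S.e p k z) + (A p j z * A p k z - A p k z * A p j z) -
    ∑ b, ((om p j k b z - om p k j b z : ℝ) : ℂ) • A p b z

/-- `D² = ∇*∇ + E`. -/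
def E (A : X → Fin 4 → C2 → Mat N) (om : X → Fin 4 → Fin 4 → Fin 4 → C2 → ℝ) (p : X)
    (z : C2) : Mat N :=
  (1 / 2 : ℂ) • ∑ j, ∑ k, S.c j * S.c k * S.Om A om p j k z

/-- The index density with respect to `μ`. -/
def dens (A : X → Fin 4 → C2 → Mat N) (om : X → Fin 4 → Fin 4 → Fin 4 → C2 → ℝ) (p : X)
    (z : C2) : ℂ :=
  (16 * Real.pi ^ 2 : ℂ)⁻¹ * (S.gam * ((1 / 2 : ℂ) • (S.E A om p z * S.E A om p z) +
    (1 / 12 : ℂ) • ∑ j, ∑ k, S.Om A om p j k z * S.Om A om p j k z)).trace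

/-- Target of I1 + I2 + I3: the local index theorem. -/
def LocalIndex : Prop :=
  ∀ A om, S.IsLC A om → S.IsOp (S.BofA A) →
    ∀ (l : ℕ) (p : Fin l → X) (ψ : Fin l → X → ℝ), (∀ a, Continuous (ψ a)) →
      (∀ a, tsupport (ψ a) ⊆ S.W (p a)) → (∀ x, ∑ a, ψ a x = 1) →
      (S.ind (S.BofA A) : ℂ) = ∑ a, ∫ z in S.V (p a),
        (ψ a ((chartAt C2 (p a)).symm z) : ℂ) * S.dens A om (p a) z * S.rho (p a) z

/-- Target of I1: the index depends only on the principal part. -/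
def IndInv : Prop := ∀ B B', S.IsOp B → S.IsOp B' → S.ind B = S.ind B'

end Pre

end Vale.Agent.P267I
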