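import Mathlib

/-! The exterior algebra of a four dimensional space: integer matrices. -/

open Finset Matrix

noncomputable section

namespace Vale.Agent.P267I.X16

abbrev M16 := Matrix (Fin 16) (Fin 16) ℂ

def xi (a : Fin 4) : Matrix (Fin 16) (Fin 16) ℤ := fun i j =>
  if j.val / 2 ^ a.val % 2 = 0 ∧ i.val = j.val + 2 ^ a.val then
    (-1) ^ (j.val % 2 ^ a.val % 2 + j.val % 2 ^ a.val / 2 % 2 + j.val % 2 ^ a.val / 4 % 2) else 0

/-- sign and target -/
def sgn16 (a : Fin 4) (j : Fin 16) : ℤ := if j.val / 2 ^ a.val % 2 = 0 then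
    (-1) ^ (j.val % 2 ^ a.val % 2 + j.val % 2 ^ a.val / 2 % 2 + j.val % 2 ^ a.val / 4 % 2) else 0
def tg (a : Fin 4) (j : Fin 16) : Fin 16 := ⟨(j.val ^^^ 2 ^ a.val) % 16, Nat.mod_lt _ (by norm_num)⟩

theorem xi_eq0 : ∀ a, xi a = Matrix.of fun i j => if i = tg a j then sgn16 a j else 0 := by
  decide +kernel
theorem xi_eq (a : Fin 4) (i j : Fin 16) : xi a i j = if i = tg a j then sgn16 a j else 0 := by
  rw [xi_eq0]; rfl
theorem xi_eq1 : ∀ a, xi a = Matrix.of fun i j => if j = tg a i then sgn16 a (tg a i) else 0 := by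
  decide +kernel
theorem xi_eq' (a : Fin 4) (i j : Fin 16) :
    xi a i j = if j = tg a i then sgn16 a (tg a i) else 0 := by
  rw [xi_eq1]; rfl

theorem mul_xi (M : Matrix (Fin 16) (Fin 16) ℤ) (a : Fin 4) :
    M * xi a = Matrix.of fun i j => M i (tg a j) * sgn16 a j := by
  ext i j; simp [mul_apply, xi_eq]
theorem xi_mul (M : Matrix (Fin 16) (Fin 16) ℤ) (a : Fin 4) :
    xi a * M = Matrix.of fun i j => sgn16 a (tg a i) * M (tg a i) j := by
  ext i j; simp [mul_apply, xi_eq']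
theorem mul_xiT (M : Matrix (Fin 16) (Fin 16) ℤ) (a : Fin 4) :
    M * (xi a)ᵀ = Matrix.of fun i j => M i (tg a j) * sgn16 a (tg a j) := by
  ext i j; simp [mul_apply, xi_eq']
theorem xiT_mul (M : Matrix (Fin 16) (Fin 16) ℤ) (a : Fin 4) :
    (xi a)ᵀ * M = Matrix.of fun i j => sgn16 a i * M (tg a i) j := by
  ext i j; simp [mul_apply, xi_eq]

theorem xi_nil : ∀ a b, xi a * xi b + xi b * xi a = 0 := by
  simp only [mul_xi]; decide +kernel
theorem xi_rel : ∀ a b, xi a * (xi b)ᵀ + (xi b)ᵀ * xi a = if a = b then 1 else 0 := by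
  simp only [mul_xi, mul_xiT]; decide +kernel
def pvi : Matrix (Fin 16) (Fin 16) ℤ := fun i j => if i = 0 ∧ j = 0 then 1 else 0
theorem pvi_x : ∀ a, pvi * xi a = 0 := by simp only [mul_xi]; decide +kernel
def pri (k : Fin 5) : Matrix (Fin 16) (Fin 16) ℤ := fun i j =>
  if i = j ∧ i.val % 2 + i.val / 2 % 2 + i.val / 4 % 2 + i.val / 8 % 2 = k.val then 1 else 0
theorem pri_sum : ∑ k, pri k = 1 := by decide +kernel
theorem pri_left (k : Fin 5) (M : Matrix (Fin 16) (Fin 16) ℤ) :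
    pri k * M = Matrix.of fun i j => pri k i i * M i j := by
  ext i j
  rw [of_apply, mul_apply, sum_eq_single i (fun l _ hl => by simp [pri, hl.symm]) (by simp)]
theorem pri_mul : ∀ k l, pri k * pri l = if k = l then pri l else 0 := by
  simp only [pri_left]; decide +kernel
theorem pri_T : ∀ k, (pri k)ᵀ = pri k := by decide +kernel
theorem pri_x : ∀ (k : Fin 4) a, pri k.succ * xi a = xi a * pri k.castSucc := by
  simp only [mul_xi, xi_mul]; decide +kernel
theorem pri_zero : pri 0 = pvi := by decide +kernel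
theorem pri_step : ∀ k : Fin 4,
    ((k.val : ℤ) + 1) • pri k.succ = ∑ a, xi a * pri k.castSucc * (xi a)ᵀ := by
  simp only [mul_xiT]; simp only [xi_mul]; decide +kernel
theorem pri_four : pri 4 = xi 0 * (xi 1 * (xi 2 * (xi 3 * (pri 0 * ((xi 3)ᵀ * ((xi 2)ᵀ *
    ((xi 1)ᵀ * (xi 0)ᵀ))))))) := by
  simp only [pri_left]; simp only [xi_mul, xiT_mul]; decide +kernel
def stp {R : Type} [Ring R] (y x' G : R) : R := G + y * G * x'
theorem stp_one : stp (xi 0) (xi 0)ᵀ (stp (xi 1) (xi 1)ᵀ (stp (xi 2) (xi 2)ᵀ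
    (stp (xi 3) (xi 3)ᵀ pvi))) = 1 := by
  simp only [stp, mul_xiT]; simp only [xi_mul]; decide +kernel

end Vale.Agent.P267I.X16
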