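import Mathlib

/-! Abstract Hodge theory for the signature operator in degree four. -/

open Module

noncomputable section

namespace Vale.Agent.P267I

variable {K V : Type} [RCLike K] [AddCommGroup V] [Module K V]

/-- A graded complex with an adjoint, an involution and a Green decomposition. -/
structure Hodge (B : V → V → K) (pr : Fin 5 → V →ₗ[K] V) (d de τ : V →ₗ[K] V) : Prop where
  addl : ∀ a b c, B (a + b) c = B a c + B b c
  addr : ∀ a b c, B a (b + c) = B a b + B a c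
  nonneg : ∀ a, 0 ≤ RCLike.re (B a a)
  defin : ∀ a, RCLike.re (B a a) ≤ 0 → a = 0
  sum : ∀ a, ∑ p, pr p a = a
  idem : ∀ p q a, pr p (pr q a) = if p = q then pr q a else 0
  dd : ∀ a, d (d a) = 0
  adj : ∀ a b, B (d a) b = B a (de b)
  adj' : ∀ a b, B (de a) b = B a (d b)
  d0 : ∀ a, pr 0 (d a) = 0
  dS : ∀ (p : Fin 4) a, pr p.succ (d a) = d (pr p.castSucc a)
  e4 : ∀ a, pr 4 (de a) = 0
  eS : ∀ (p : Fin 4) a, pr p.castSucc (de a) = de (pr p.succ a)
  tt : ∀ a, τ (τ a) = a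
  tD : ∀ a, τ ((d + de) a) = -(d + de) (τ a)
  tp : ∀ p a, pr p (τ a) = τ (pr p.rev a)
  green : ∀ s, ∃ h ψ, (d + de) h = 0 ∧ s = h + (d + de) ψ

namespace Hodge

variable {B : V → V → K} {pr : Fin 5 → V →ₗ[K] V} {d de τ : V →ₗ[K] V} (h : Hodge B pr d de τ)
include h

theorem zl (a : V) : B 0 a = 0 := by
  have := h.addl 0 0 a
  rw [add_zero] at this
  exact left_eq_add.1 this

theorem zr (a : V) : B a 0 = 0 := by
  have := h.addr a 0 0
  rw [add_zero] at this
  exact left_eq_add.1 this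

theorem harm {a : V} (ha : (d + de) a = 0) : d a = 0 ∧ de a = 0 := by
  rw [LinearMap.add_apply] at ha
  have h1 : B (de a) (d a) = 0 := by rw [h.adj', h.dd, h.zr]
  have h2 : B (de a) (de a) = 0 := by
    have := h.addr (de a) (d a) (de a)
    rw [ha, h.zr, h1, zero_add] at this
    exact this.symm
  have h3 := h.defin _ (by rw [h2]; simp)
  rw [h3, add_zero] at ha
  exact ⟨ha, h3⟩

theorem d4 (a : V) : d (pr 4 a) = 0 := by
  rw [← h.sum (d (pr 4 a)), Fin.sum_univ_succ, h.d0, zero_add]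
  refine Finset.sum_eq_zero fun p _ => ?_
  rw [h.dS, h.idem, if_neg (show p.castSucc ≠ 4 from (Fin.castSucc_lt_last p).ne), map_zero]

theorem e0 (a : V) : de (pr 0 a) = 0 := by
  rw [← h.sum (de (pr 0 a)), Fin.sum_univ_castSucc, show Fin.last 4 = 4 from rfl, h.e4, add_zero]
  refine Finset.sum_eq_zero fun p _ => ?_
  rw [h.eS, h.idem, if_neg (Fin.succ_ne_zero p), map_zero]

theorem harm_pr {a : V} (ha : (d + de) a = 0) (p : Fin 5) : (d + de) (pr p a) = 0 := by
  obtain ⟨h1, h2⟩ := h.harm ha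
  have h3 : d (pr p a) = 0 := by
    induction p using Fin.lastCases with
    | last => exact h.d4 a
    | cast p => rw [← h.dS, h1, map_zero]
  have h4 : de (pr p a) = 0 := by
    induction p using Fin.cases with
    | zero => exact h.e0 a
    | succ p => rw [← h.eS, h2, map_zero]
  rw [LinearMap.add_apply, h3, h4, add_zero]

theorem harm_t {a : V} (ha : (d + de) a = 0) : (d + de) (τ a) = 0 := by
  have := h.tD a
  rw [ha, map_zero] at this
  exact neg_eq_zero.1 this.symm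

end Hodge

/-- Harmonic elements on which the involution acts by `c`. -/
def hEig (D τ : V →ₗ[K] V) (c : K) : Submodule K V :=
  LinearMap.ker D ⊓ LinearMap.ker (τ - c • LinearMap.id)

/-- Closed elements of degree two. -/
def hZ (pr : Fin 5 → V →ₗ[K] V) (d : V →ₗ[K] V) : Submodule K V :=
  LinearMap.ker d ⊓ LinearMap.range (pr 2)

/-- Exact elements of degree two. -/
def hB (pr : Fin 5 → V →ₗ[K] V) (d : V →ₗ[K] V) : Submodule K V := LinearMap.range (d ∘ₗ pr 1)

/-- Harmonic elements of degree two. -/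
def hH (pr : Fin 5 → V →ₗ[K] V) (D : V →ₗ[K] V) : Submodule K V :=
  LinearMap.ker D ⊓ LinearMap.range (pr 2)

theorem mem_hEig {D τ : V →ₗ[K] V} {c : K} {a : V} : a ∈ hEig D τ c ↔ D a = 0 ∧ τ a = c • a := by
  simp [hEig, sub_eq_zero]

namespace Hodge

variable {B : V → V → K} {pr : Fin 5 → V →ₗ[K] V} {d de τ : V →ₗ[K] V} (h : Hodge B pr d de τ)
include h

theorem mem2 {a : V} : a ∈ LinearMap.range (pr 2) ↔ pr 2 a = a :=
  ⟨fun ⟨b, hb⟩ => by rw [← hb, h.idem, if_pos rfl], fun ha => ⟨a, ha⟩⟩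

theorem rank_H : finrank K (hH pr (d + de)) =
    finrank K (hZ pr d ⧸ (hB pr d).submoduleOf (hZ pr d)) := by
  have hle : hH pr (d + de) ≤ hZ pr d := fun a ha => ⟨(h.harm ha.1).1, ha.2⟩
  refine (LinearEquiv.ofBijective (((hB pr d).submoduleOf (hZ pr d)).mkQ ∘ₗ
    Submodule.inclusion hle) ⟨?_, ?_⟩).finrank_eq
  · refine (injective_iff_map_eq_zero _).2 fun a ha => Subtype.ext ?_
    obtain ⟨b, hb⟩ := (Submodule.Quotient.mk_eq_zero _).1 ha
    have hb' : d (pr 1 b) = a.1 := hb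
    refine h.defin _ ?_
    nth_rewrite 1 [← hb']
    rw [h.adj, (h.harm a.2.1).2, h.zr]
    simp
  · intro q
    obtain ⟨a, rfl⟩ := Submodule.Quotient.mk_surjective _ q
    obtain ⟨k, ψ, hk, e⟩ := h.green a.1
    have e2 : a.1 = pr 2 k + d (pr 1 ψ) + de (pr 3 ψ) := by
      have h1 := h.dS 1 ψ
      have h2 := h.eS 2 ψ
      rw [← h.mem2.1 a.2.2, e, map_add, LinearMap.add_apply, map_add, ← add_assoc]
      exact congrArg₂ _ (congrArg _ h1) h2
    have hk2 := h.harm_pr hk 2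
    have h3 : d (de (pr 3 ψ)) = 0 := by
      have h4 : d a.1 = 0 := a.2.1
      rwa [e2, map_add, map_add, (h.harm hk2).1, h.dd, zero_add, zero_add] at h4
    have h4 : de (pr 3 ψ) = 0 := h.defin _ (by rw [h.adj', h3, h.zr]; simp)
    refine ⟨⟨pr 2 k, hk2, k, rfl⟩, ((Submodule.Quotient.eq _).2 ?_).symm⟩
    change a.1 - pr 2 k ∈ hB pr d
    refine ⟨ψ, ?_⟩
    change d (pr 1 ψ) = a.1 - pr 2 k
    rw [e2, h4]
    abel

theorem t2 (a : V) : τ (pr 2 a) = pr 2 (τ a) := (h.tp 2 a).symm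

theorem rank_split [FiniteDimensional K (LinearMap.ker (d + de))] (c : K) :
    finrank K (hEig (d + de) τ c) =
      finrank K (hEig (d + de) τ c ⊓ LinearMap.range (pr 2) : Submodule K V) +
      finrank K (hEig (d + de) τ c ⊓ LinearMap.ker (pr 2) : Submodule K V) := by
  have f1 : FiniteDimensional K (hEig (d + de) τ c) :=
    Submodule.finiteDimensional_of_le (inf_le_left : hEig (d + de) τ c ≤ _)
  have f2 : FiniteDimensional K (hEig (d + de) τ c ⊓ LinearMap.range (pr 2) : Submodule K V) :=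
    Submodule.finiteDimensional_of_le inf_le_left
  have f3 : FiniteDimensional K (hEig (d + de) τ c ⊓ LinearMap.ker (pr 2) : Submodule K V) :=
    Submodule.finiteDimensional_of_le inf_le_left
  rw [← Submodule.finrank_sup_add_finrank_inf_eq]
  have e1 : (hEig (d + de) τ c ⊓ LinearMap.range (pr 2)) ⊔
      (hEig (d + de) τ c ⊓ LinearMap.ker (pr 2)) = hEig (d + de) τ c := by
    refine le_antisymm (sup_le inf_le_left inf_le_left) fun a ha => ?_
    have h1 : pr 2 a ∈ hEig (d + de) τ c := mem_hEig.2 ⟨h.harm_pr (mem_hEig.1 ha).1 2, by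
      rw [h.t2, (mem_hEig.1 ha).2, map_smul]⟩
    refine Submodule.mem_sup.2 ⟨pr 2 a, ⟨h1, a, rfl⟩, a - pr 2 a, ⟨sub_mem ha h1, ?_⟩, by abel⟩
    change pr 2 (a - pr 2 a) = 0
    rw [map_sub, h.idem, if_pos rfl, sub_self]
  have e2 : (hEig (d + de) τ c ⊓ LinearMap.range (pr 2)) ⊓
      (hEig (d + de) τ c ⊓ LinearMap.ker (pr 2)) = ⊥ :=
    eq_bot_iff.2 fun a ha => (h.mem2.1 ha.1.2).symm.trans ha.2.2
  rw [e1, e2, finrank_bot, add_zero]

theorem rank_odd [FiniteDimensional K (LinearMap.ker (d + de))] (c : K) :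
    finrank K (hEig (d + de) τ c ⊓ LinearMap.ker (pr 2) : Submodule K V) ≤
      finrank K (hEig (d + de) τ (-c) ⊓ LinearMap.ker (pr 2) : Submodule K V) := by
  let σ : V →ₗ[K] V := pr 0 + pr 1 - pr 3 - pr 4
  have hs : ∀ a, pr 0 a + pr 1 a + pr 2 a + pr 3 a + pr 4 a = a := fun a => by
    rw [← Fin.sum_univ_five fun p => pr p a, h.sum]
  have hσ : ∀ a, σ a = pr 0 a + pr 1 a - pr 3 a - pr 4 a := fun a => rfl
  have hst : ∀ a, τ (σ a) = -σ (τ a) := fun a => by
    simp only [hσ, h.tp, map_add, map_sub]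
    change _ = -(τ (pr 4 a) + τ (pr 3 a) - τ (pr 1 a) - τ (pr 0 a))
    abel
  have hsD : ∀ a, (d + de) a = 0 → (d + de) (σ a) = 0 := fun a ha => by
    simp only [hσ, map_add, map_sub, h.harm_pr ha, add_zero, sub_zero]
  have hss : ∀ a, σ (σ a) = a - pr 2 a := fun a => by
    nth_rewrite 2 [← hs a]
    simp only [hσ, map_add, map_sub, h.idem]
    simp
    abel
  have h2s : ∀ a, pr 2 (σ a) = 0 := fun a => by
    simp only [hσ, map_add, map_sub, h.idem]
    simp
  have f3 : FiniteDimensional K (hEig (d + de) τ (-c) ⊓ LinearMap.ker (pr 2) : Submodule K V) :=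
    Submodule.finiteDimensional_of_le (inf_le_left.trans (inf_le_left : hEig (d + de) τ (-c) ≤ _))
  refine LinearMap.finrank_le_finrank_of_injective (f := σ.restrict
    (p := hEig (d + de) τ c ⊓ LinearMap.ker (pr 2)) (q := hEig (d + de) τ (-c) ⊓ LinearMap.ker (pr 2))
    fun a ha => ⟨mem_hEig.2 ⟨hsD a (mem_hEig.1 ha.1).1, by
      rw [hst, (mem_hEig.1 ha.1).2, map_smul, neg_smul]⟩, h2s a⟩) ?_
  refine (injective_iff_map_eq_zero _).2 fun a ha => Subtype.ext ?_
  have h1 : σ a.1 = 0 := congrArg Subtype.val ha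
  have h2 : pr 2 a.1 = 0 := a.2.2
  have h3 := hss a.1
  rw [h1, h2, map_zero, sub_zero] at h3
  exact h3.symm

theorem rank_pm [FiniteDimensional K (LinearMap.ker (d + de))] :
    finrank K (hEig (d + de) τ 1 ⊓ LinearMap.range (pr 2) : Submodule K V) +
      finrank K (hEig (d + de) τ (-1) ⊓ LinearMap.range (pr 2) : Submodule K V) =
      finrank K (hZ pr d ⧸ (hB pr d).submoduleOf (hZ pr d)) := by
  have f : ∀ c, FiniteDimensional K
      (hEig (d + de) τ c ⊓ LinearMap.range (pr 2) : Submodule K V) := fun c =>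
    Submodule.finiteDimensional_of_le (inf_le_left.trans (inf_le_left : hEig (d + de) τ c ≤ _))
  have f1 := f 1
  have f2 := f (-1)
  rw [← h.rank_H, ← Submodule.finrank_sup_add_finrank_inf_eq]
  have e1 : (hEig (d + de) τ 1 ⊓ LinearMap.range (pr 2)) ⊔
      (hEig (d + de) τ (-1) ⊓ LinearMap.range (pr 2)) = hH pr (d + de) := by
    refine le_antisymm (sup_le (inf_le_inf_right _ inf_le_left) (inf_le_inf_right _ inf_le_left))
      fun a ha => ?_
    have h1 : (d + de) a = 0 := ha.1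
    have h2 : τ a ∈ LinearMap.range (pr 2) := ⟨τ a, by rw [← h.t2, h.mem2.1 ha.2]⟩
    refine Submodule.mem_sup.2 ⟨(2 : K)⁻¹ • (a + τ a), Submodule.smul_mem _ _ ⟨mem_hEig.2 ⟨?_, ?_⟩,
      add_mem ha.2 h2⟩, (2 : K)⁻¹ • (a - τ a), Submodule.smul_mem _ _ ⟨mem_hEig.2 ⟨?_, ?_⟩,
      sub_mem ha.2 h2⟩, ?_⟩
    · rw [map_add, h1, h.harm_t h1, add_zero]
    · rw [map_add, h.tt, one_smul, add_comm]
    · rw [map_sub, h1, h.harm_t h1, sub_zero]
    · rw [map_sub, h.tt, neg_one_smul, neg_sub]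
    · rw [← smul_add, add_add_sub_cancel, ← two_smul K, inv_smul_smul₀ two_ne_zero]
  have e2 : (hEig (d + de) τ 1 ⊓ LinearMap.range (pr 2)) ⊓
      (hEig (d + de) τ (-1) ⊓ LinearMap.range (pr 2)) = ⊥ := eq_bot_iff.2 fun a ha => by
    have h1 := (mem_hEig.1 ha.1.1).2
    rw [(mem_hEig.1 ha.2.1).2, neg_one_smul, one_smul] at h1
    have h5 : (2 : K) • a = 0 := by rw [two_smul]; exact add_eq_zero_iff_eq_neg.2 h1.symm
    exact (smul_eq_zero.1 h5).resolve_left two_ne_zero
  rw [e1, e2, finrank_bot, add_zero]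

/-- The index is `bp - bm`, `bp + bm` is the second Betti number, and `0 < bp` gives a nonzero closed
self-dual element of degree two. -/
theorem index [FiniteDimensional K (LinearMap.ker (d + de))] : ∃ bp bm : ℕ,
    (finrank K (hEig (d + de) τ 1) : ℤ) - finrank K (hEig (d + de) τ (-1)) = bp - bm ∧
    bp + bm = finrank K (hZ pr d ⧸ (hB pr d).submoduleOf (hZ pr d)) ∧
    (0 < bp → ∃ a, a ≠ 0 ∧ d a = 0 ∧ pr 2 a = a ∧ τ a = a) := by
  refine ⟨_, _, ?_, h.rank_pm, fun hp => ?_⟩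
  · have h1 := h.rank_odd 1
    have h2 := h.rank_odd (-1)
    rw [neg_neg] at h2
    rw [h.rank_split 1, h.rank_split (-1), le_antisymm h1 h2]
    push_cast
    ring
  · obtain ⟨a, ha, h0⟩ := Submodule.exists_mem_ne_zero_of_ne_bot
      (p := hEig (d + de) τ 1 ⊓ LinearMap.range (pr 2)) fun e => by
        rw [e, finrank_bot] at hp
        exact lt_irrefl _ hp
    exact ⟨a, h0, (h.harm (mem_hEig.1 ha.1).1).1, h.mem2.1 ha.2,
      (mem_hEig.1 ha.1).2.trans (one_smul _ _)⟩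

end Hodge

end Vale.Agent.P267I
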