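import Vale.Agent.P267I.Defs
import Vale.Agent.P267I.I6A

/-! The de Rham complex as a Dirac system: definitions (FROZEN). -/

open scoped Manifold ContDiff Topology ComplexConjugate
open Filter Matrix MeasureTheory

noncomputable section

namespace Vale.Agent.P267I.G

open Vale.Agent.P267F

abbrev M4 := Matrix (Fin 4) (Fin 4) ℂ

/-- The exterior algebra of four space as matrices. `Lam O` is the map induced by `O`. -/
structure Ext where
  x : Fin 4 → Mat 16
  vac : Vec 16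
  pr : Fin 5 → Mat 16
  Lam : M4 → Mat 16
  xx : ∀ a b, x a * x b + x b * x a = 0
  car : ∀ a b, x a * (x b)ᴴ + (x b)ᴴ * x a = if a = b then 1 else 0
  x_real : ∀ a i j, conj (x a i j) = x a i j
  vac_real : ∀ i, conj (vac i) = vac i
  vac_kill : ∀ a, (x a)ᴴ *ᵥ vac = 0
  vac_one : star vac ⬝ᵥ vac = 1
  pr_sum : ∑ k, pr k = 1
  pr_mul : ∀ k l, pr k * pr l = if k = l then pr l else 0
  pr_star : ∀ k, (pr k)ᴴ = pr k
  pr_real : ∀ k i j, conj (pr k i j) = pr k i j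
  pr_x0 : ∀ a, pr 0 * x a = 0
  pr_x : ∀ (k : Fin 4) a, pr k.succ * x a = x a * pr k.castSucc
  pr0 : pr 0 = vecMulVec vac (star vac)
  pr1 : pr 1 = ∑ a, x a * pr 0 * (x a)ᴴ
  pr2 : pr 2 = (1 / 2 : ℂ) • ∑ a, ∑ b, x a * x b * pr 0 * (x a * x b)ᴴ
  pr3 : pr 3 = (1 / 6 : ℂ) • ∑ a, ∑ b, ∑ c, x a * x b * x c * pr 0 * (x a * x b * x c)ᴴ
  pr4 : pr 4 = x 0 * x 1 * x 2 * x 3 * pr 0 * (x 0 * x 1 * x 2 * x 3)ᴴ
  Lam_x : ∀ O b, Lam O * x b = (∑ a, O a b • x a) * Lam O
  Lam_vac : ∀ O, Lam O *ᵥ vac = vac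
  Lam_mul : ∀ O O', Lam (O * O') = Lam O * Lam O'
  Lam_one : Lam 1 = 1
  Lam_sm : ∀ i j, ContDiff ℂ ∞ fun O : Fin 4 → Fin 4 → ℂ => Lam (Matrix.of O) i j

variable (E : Ext)

/-- The Clifford matrices. -/
def cc (a : Fin 4) : Mat 16 := E.x a - (E.x a)ᴴ

/-- The grading. -/
def gm : Mat 16 := cc E 0 * cc E 1 * cc E 2 * cc E 3

/-- The part of degree `+1`. -/
def up (B : Mat 16) : Mat 16 := ∑ k : Fin 4, E.pr k.succ * B * E.pr k.castSucc

/-- The part of degree `-1`. -/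
def dn (B : Mat 16) : Mat 16 := ∑ k : Fin 4, E.pr k.castSucc * B * E.pr k.succ

/-- The pull back of forms: `lam J * x j = (∑ a, J j a • x a) * lam J`. -/
def lam (J : M4) : Mat 16 := E.Lam Jᵀ

/-- The matrix of a real linear map. -/
def jm (L : C2 →L[ℝ] C2) : M4 := Matrix.of fun j a => ((co (L (bs a)) j : ℝ) : ℂ)

/-- The flat exterior derivative. -/
def dF (ψ : C2 → Vec 16) (z : C2) : Vec 16 := ∑ k, E.x k *ᵥ fderiv ℝ ψ z (bs k)

/-- The vector of a one-form. -/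
def v1 (A : Fin 4 → ℂ) : Vec 16 := ∑ a, A a • E.x a *ᵥ E.vac

/-- The vector of a two-form. -/
def v2 (A : Fin 4 → Fin 4 → ℂ) : Vec 16 :=
  (1 / 2 : ℂ) • ∑ a, ∑ b, A a b • (E.x a * E.x b) *ᵥ E.vac

/-- The coefficients in degree one. -/
def c1 (v : Vec 16) (a : Fin 4) : ℂ := star E.vac ⬝ᵥ (E.x a)ᴴ *ᵥ v

/-- The coefficients in degree two. -/
def c2 (v : Vec 16) (a b : Fin 4) : ℂ := star E.vac ⬝ᵥ (E.x a * E.x b)ᴴ *ᵥ v

variable {X : Type} [TopologicalSpace X] [ChartedSpace C2 X]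

/-- The change of coordinates from the chart at `p` to the chart at `q`. -/
def jac (p q : X) : M4 := jm (fderiv ℝ (chartAt C2 q ∘ (chartAt C2 p).symm) (chartAt C2 p q))

/-- The components in the chart at `p` of a form given at each `x` in the chart at `x`. -/
def locF (F : X → Vec 16) (p : X) (z : C2) : Vec 16 :=
  lam E (jac p ((chartAt C2 p).symm z)) *ᵥ F ((chartAt C2 p).symm z)

/-- Smooth forms. -/
def SmF (F : X → Vec 16) : Prop :=
  ∀ p, ∀ᶠ z in 𝓝 (chartAt C2 p p), ContDiffAt ℝ ∞ (locF E F p) z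

/-- The exterior derivative. -/
def dN (F : X → Vec 16) (q : X) : Vec 16 := dF E (locF E F q) (chartAt C2 q q)

/-- The space of smooth forms. -/
def Om (X : Type) [TopologicalSpace X] [ChartedSpace C2 X] : Submodule ℂ (X → Vec 16) :=
  Submodule.span ℂ {F | SmF E F}

/-- The two-form of a form. -/
def to2 (F : X → Vec 16) : Form2 X := fun x v w =>
  ∑ a, ∑ b, ((co v a * co w b : ℝ) : ℂ) * c2 E (F x) a b

/-- Closed forms of degree two. -/
def ZO (X : Type) [TopologicalSpace X] [ChartedSpace C2 X] : Submodule ℂ (X → Vec 16) :=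
  Submodule.span ℂ {F | SmF E F ∧ dN E F = 0 ∧ ∀ x, E.pr 2 *ᵥ F x = F x}

/-- Exact forms of degree two. -/
def BO (X : Type) [TopologicalSpace X] [ChartedSpace C2 X] : Submodule ℂ (X → Vec 16) :=
  Submodule.span ℂ {F | ∃ G, SmF E G ∧ F = dN E fun x => E.pr 1 *ᵥ G x}

variable [MeasurableSpace X]

/-- The frame as a matrix. -/
def Em (S : Pre X 16) (p : X) (z : C2) : M4 := Matrix.of fun j a => ((co (S.e p a z) j : ℝ) : ℂ)

/-- From components in the chart at `p` to components in the frame. -/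
def Gm (S : Pre X 16) (p : X) (z : C2) : Mat 16 := lam E (Em S p z)

/-- The system `S` is the bundle of forms and `B` changes the degree by one. -/
structure Sig (S : Pre X 16) (B : X → C2 → Mat 16) : Prop where
  c : S.c = cc E
  U_self : ∀ x, S.U x x = 1
  U_eq : ∀ p, ∀ x ∈ S.W p, S.U p x * Gm E S x (chartAt C2 x x) =
    Gm E S p (chartAt C2 p x) * lam E (jac p x)
  op : S.IsOp B
  deg : ∀ p, ∀ z ∈ S.V p, B p z = up E (B p z) + dn E (B p z)

/-- The section of the system given by a form. -/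
def fr (S : Pre X 16) (F : X → Vec 16) (x : X) : Vec 16 := Gm E S x (chartAt C2 x x) *ᵥ F x

/-- The form given by a section. -/
def un (S : Pre X 16) (s : X → Vec 16) (x : X) : Vec 16 := (Gm E S x (chartAt C2 x x))⁻¹ *ᵥ s x

/-- The order zero part of `d` in the frame. -/
def Rm (S : Pre X 16) (p : X) (z : C2) : Mat 16 :=
  Gm E S p z * ∑ k, E.x k * Pre.dM (fun y => (Gm E S p y)⁻¹) z (bs k)

/-- The order zero part of `d + d*`. -/
def Bd (S : Pre X 16) (B : X → C2 → Mat 16) (p : X) (z : C2) : Mat 16 :=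
  B p z + ((Rm E S p z - up E (B p z)) + (Rm E S p z - up E (B p z))ᴴ)

/-- The operator of `B` is `d + d*`. -/
structure Good (S : Pre X 16) (B : X → C2 → Mat 16) : Prop where
  sig : Sig E S B
  d : ∀ F, SmF E F → ∀ (k : Fin 4) x,
    E.pr k.succ *ᵥ S.D B (fr E S fun y => E.pr k.castSucc *ᵥ F y) x =
      fr E S (dN E fun y => E.pr k.castSucc *ᵥ F y) x

/-- A nonzero closed self-dual form. -/
def SD (S : Pre X 16) (F : X → Vec 16) : Prop :=
  SmF E F ∧ F ≠ 0 ∧ dN E F = 0 ∧ (∀ x, E.pr 2 *ᵥ F x = F x) ∧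
    ∀ x, gm E *ᵥ fr E S F x = -fr E S F x

/-- Finite kernels and the Green decomposition (the statement of `P267J.Hodge`). -/
def Hdg {N : ℕ} (S : Pre X N) : Prop :=
  ∀ B, S.IsOp B → (∀ ε, FiniteDimensional ℂ (S.Ker B ε)) ∧
    ∀ t, S.Sm t → ∃ h s, S.Sm h ∧ S.Sm s ∧ S.D B h = 0 ∧ t = h + S.D B s

end Vale.Agent.P267I.G
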