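import Vale.Agent.P267I.Cl2
import Vale.Agent.P267I.G0
import Vale.Agent.P267I.Ext16A

/-! The exterior algebra of a four dimensional space as matrices of size sixteen. -/

open Finset Matrix
open scoped ContDiff

noncomputable section

namespace Vale.Agent.P267I.X16

/-- The inclusion of integer matrices. -/
def zc : Matrix (Fin 16) (Fin 16) ℤ →+* M16 := (Int.castRingHom ℂ).mapMatrix

theorem zc_apply (A : Matrix (Fin 16) (Fin 16) ℤ) (i j : Fin 16) : zc A i j = (A i j : ℂ) := rfl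

theorem zc_H (A : Matrix (Fin 16) (Fin 16) ℤ) : (zc A)ᴴ = zc Aᵀ := by
  ext i j
  simp [zc_apply, conjTranspose_apply]

/-- Exterior multiplication. -/
def xx (a : Fin 4) : M16 := zc (xi a)

/-- The projection on the vacuum. -/
def pv : M16 := zc pvi

/-- The vacuum. -/
def vac : Fin 16 → ℂ := Pi.single 0 1

theorem xx_car : IsCAR xx where
  nil a b := by simp only [xx, ← map_mul, ← map_add, xi_nil, map_zero]
  rel a b := by
    simp only [xx, zc_H, ← map_mul, ← map_add, xi_rel]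
    split_ifs <;> simp

theorem pv_x (a : Fin 4) : pv * xx a = 0 := by simp only [pv, xx, ← map_mul, pvi_x, map_zero]

theorem pv_H : pvᴴ = pv := by
  rw [pv, zc_H]
  congr 1
  ext i j
  simp only [pvi, transpose_apply, and_comm]

theorem xH_pv (a : Fin 4) : (xx a)ᴴ * pv = 0 := by
  rw [← pv_H, ← conjTranspose_mul, pv_x, conjTranspose_zero]

theorem pv_vac : pv *ᵥ vac = vac := by
  ext i
  simp [vac, pv, zc_apply, pvi, Pi.single_apply]

theorem xH_vac (a : Fin 4) : (xx a)ᴴ *ᵥ vac = 0 := by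
  rw [← pv_vac, mulVec_mulVec, xH_pv, zero_mulVec]

theorem mul_pv {M : M16} (h : M *ᵥ vac = 0) : M * pv = 0 := by
  ext i j
  have := congrFun h i
  simp only [vac, mulVec_single_one, col_apply, Pi.zero_apply] at this
  simp [mul_apply, pv, zc_apply, pvi, ite_and, this]

theorem xx_one : stp (xx 0) (xx 0)ᴴ (stp (xx 1) (xx 1)ᴴ (stp (xx 2) (xx 2)ᴴ
    (stp (xx 3) (xx 3)ᴴ pv))) = 1 := by
  have := congrArg zc stp_one
  simpa only [stp, map_add, map_mul, map_one, xx, pv, zc_H] using this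

/-- The vacuum is cyclic. -/
theorem eq_zero_of_vac {M : M16} {z : Fin 4 → M16} (h : ∀ k, M * xx k = z k * M)
    (hv : M *ᵥ vac = 0) : M = 0 := by
  have s : ∀ k G, M * G = 0 → M * stp (xx k) (xx k)ᴴ G = 0 := fun k G hG => by
    rw [stp, mul_add, hG, ← mul_assoc, ← mul_assoc, h, mul_assoc (z k), hG]
    simp
  rw [← mul_one M, ← xx_one]
  exact s _ _ (s _ _ (s _ _ (s _ _ (mul_pv hv))))

/-- Exterior multiplication by a column of `O`. -/
def yy (O : Matrix (Fin 4) (Fin 4) ℂ) (b : Fin 4) : M16 := ∑ a, O a b • xx a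

/-- The action of a matrix on the exterior algebra. -/
def Lam (O : Matrix (Fin 4) (Fin 4) ℂ) : M16 :=
  stp (yy O 0) (xx 0)ᴴ (stp (yy O 1) (xx 1)ᴴ (stp (yy O 2) (xx 2)ᴴ (stp (yy O 3) (xx 3)ᴴ pv)))

variable (O : Matrix (Fin 4) (Fin 4) ℂ)

theorem yy_nil (a b : Fin 4) : yy O a * yy O b + yy O b * yy O a = 0 := by
  simp only [yy, sum_mul_sum, smul_mul_smul_comm]
  rw [sum_comm (f := fun d e => (O d b * O e a) • (xx d * xx e)), ← sum_add_distrib]
  refine sum_eq_zero fun d _ => ?_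
  rw [← sum_add_distrib]
  exact sum_eq_zero fun e _ => by rw [mul_comm (O e b), ← smul_add, xx_car.nil, smul_zero]

theorem yy_sq (a : Fin 4) : yy O a * yy O a = 0 := by
  have : (2 : ℂ) • (yy O a * yy O a) = (2 : ℂ) • (0 : M16) := by
    rw [two_smul, yy_nil, smul_zero]
  exact smul_right_injective _ two_ne_zero this

theorem xH_x {j k : Fin 4} (h : j ≠ k) : (xx k)ᴴ * xx j = -(xx j * (xx k)ᴴ) := by
  have := xx_car.rel j k
  rw [if_neg h] at this
  exact eq_neg_of_add_eq_zero_right this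

theorem stp_lo {G : M16} {j k : Fin 4} (h : j ≠ k) (hG : G * xx j = 0) (y : M16) :
    stp y (xx k)ᴴ G * xx j = 0 := by
  rw [stp, add_mul, hG, mul_assoc, xH_x h, mul_neg, ← mul_assoc, mul_assoc y, hG]
  simp

theorem stp_eq {G : M16} {k : Fin 4} (hG : G * xx k = 0) :
    stp (yy O k) (xx k)ᴴ G * xx k = yy O k * stp (yy O k) (xx k)ᴴ G := by
  have := xx_car.rel k k
  rw [if_pos rfl] at this
  rw [stp, add_mul, hG, mul_assoc, eq_sub_of_add_eq' this, mul_sub, mul_one, ← mul_assoc,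
    mul_assoc _ G, hG, mul_add, ← mul_assoc, ← mul_assoc, yy_sq]
  simp

theorem stp_hi {G : M16} {j k : Fin 4} (h : j ≠ k) (hG : G * xx j = yy O j * G) :
    stp (yy O k) (xx k)ᴴ G * xx j = yy O j * stp (yy O k) (xx k)ᴴ G := by
  rw [stp, add_mul, hG, mul_assoc, xH_x h, mul_neg, ← mul_assoc, mul_assoc _ G, hG, mul_add,
    ← mul_assoc, ← mul_assoc, ← mul_assoc, eq_neg_of_add_eq_zero_left (yy_nil O j k)]
  simp

theorem Lam_x (b : Fin 4) : Lam O * xx b = yy O b * Lam O := by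
  fin_cases b
  · exact stp_eq O (stp_lo (by decide) (stp_lo (by decide) (stp_lo (by decide) (pv_x _) _) _) _)
  · exact stp_hi O (by decide) (stp_eq O (stp_lo (by decide) (stp_lo (by decide) (pv_x _) _) _))
  · exact stp_hi O (by decide) (stp_hi O (by decide) (stp_eq O (stp_lo (by decide) (pv_x _) _)))
  · exact stp_hi O (by decide) (stp_hi O (by decide) (stp_hi O (by decide) (stp_eq O (pv_x _))))

theorem Lam_vac : Lam O *ᵥ vac = vac := by
  have s : ∀ y k (G : M16), stp y (xx k)ᴴ G *ᵥ vac = G *ᵥ vac := fun y k G => by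
    rw [stp, add_mulVec, ← mulVec_mulVec, xH_vac, mulVec_zero, add_zero]
  rw [Lam, s, s, s, s, pv_vac]

theorem Lam_unique {M : M16} (h : ∀ b, M * xx b = yy O b * M) (hv : M *ᵥ vac = vac) :
    M = Lam O :=
  sub_eq_zero.1 (eq_zero_of_vac (z := yy O) (fun k => by rw [sub_mul, mul_sub, h, Lam_x])
    (by rw [sub_mulVec, hv, Lam_vac, sub_self]))

theorem yy_one (b : Fin 4) : yy 1 b = xx b := by
  simp [yy, one_apply]

theorem Lam_one : Lam 1 = 1 :=
  (Lam_unique 1 (fun b => by rw [yy_one, mul_one, one_mul]) (one_mulVec _)).symm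

theorem Lam_y (P : Matrix (Fin 4) (Fin 4) ℂ) (b : Fin 4) :
    Lam O * yy P b = yy (O * P) b * Lam O := by
  simp only [yy, mul_sum, mul_smul_comm, Lam_x, mul_apply, sum_smul, sum_mul, smul_mul_assoc,
    smul_sum, smul_smul]
  rw [sum_comm]
  exact sum_congr rfl fun a _ => sum_congr rfl fun d _ => by rw [mul_comm]

theorem Lam_mul (P : Matrix (Fin 4) (Fin 4) ℂ) : Lam (O * P) = Lam O * Lam P :=
  (Lam_unique _ (fun b => by rw [mul_assoc, Lam_x, ← mul_assoc, Lam_y, mul_assoc])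
    (by rw [← mulVec_mulVec, Lam_vac, Lam_vac])).symm

/-- Entrywise smooth matrix functions. -/
def SmE (F : (Fin 4 → Fin 4 → ℂ) → M16) : Prop := ∀ i j, ContDiff ℂ ∞ fun O => F O i j

theorem SmE.const (M : M16) : SmE fun _ => M := fun _ _ => contDiff_const

theorem SmE.add {F G : (Fin 4 → Fin 4 → ℂ) → M16} (hF : SmE F) (hG : SmE G) :
    SmE fun O => F O + G O := fun i j => (hF i j).add (hG i j)

theorem SmE.mul {F G : (Fin 4 → Fin 4 → ℂ) → M16} (hF : SmE F) (hG : SmE G) :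
    SmE fun O => F O * G O := fun i j => by
  simp only [mul_apply]
  exact ContDiff.sum fun l _ => (hF i l).mul (hG l j)

theorem yy_sm (b : Fin 4) : SmE fun O => yy (Matrix.of O) b := fun i j => by
  simp only [yy, Matrix.sum_apply, Matrix.smul_apply, of_apply, smul_eq_mul]
  exact ContDiff.sum fun a _ => (contDiff_apply_apply ℂ ℂ a b).mul contDiff_const

theorem Lam_sm : SmE fun O => Lam (Matrix.of O) := by
  have s : ∀ b (x : M16) {G : (Fin 4 → Fin 4 → ℂ) → M16}, SmE G →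
      SmE fun O => stp (yy (Matrix.of O) b) x (G O) := fun b x _ hG =>
    hG.add (((yy_sm b).mul hG).mul (SmE.const x))
  exact s _ _ (s _ _ (s _ _ (s _ _ (SmE.const pv))))

/-- The projections on the degrees. -/
def pr (k : Fin 5) : M16 := zc (pri k)

theorem pr_step (k : Fin 4) :
    pr k.succ = ((k.val : ℂ) + 1)⁻¹ • ∑ a, xx a * pr k.castSucc * (xx a)ᴴ := by
  have h := congrArg zc (pri_step k)
  simp only [map_zsmul, map_sum, map_mul, ← zc_H] at h
  have h0 : (k.val : ℂ) + 1 ≠ 0 := Nat.cast_add_one_ne_zero _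
  rw [eq_inv_smul_iff₀ h0, pr]
  refine Eq.trans ?_ h
  rw [← Int.cast_smul_eq_zsmul ℂ]
  push_cast
  rfl

theorem pr_one : pr 1 = ∑ a, xx a * pr 0 * (xx a)ᴴ := by simpa using pr_step 0

theorem pr_two : pr 2 = (1 / 2 : ℂ) • ∑ a, ∑ b, xx a * xx b * pr 0 * (xx a * xx b)ᴴ := by
  have h : pr 2 = (1 / 2 : ℂ) • ∑ a, xx a * pr 1 * (xx a)ᴴ := by
    refine (pr_step 1).trans ?_
    norm_num
  simp only [h, pr_one, mul_sum, sum_mul, conjTranspose_mul, mul_assoc]

theorem pr_three : pr 3 =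
    (1 / 6 : ℂ) • ∑ a, ∑ b, ∑ c, xx a * xx b * xx c * pr 0 * (xx a * xx b * xx c)ᴴ := by
  have h : pr 3 = (1 / 3 : ℂ) • ∑ a, xx a * pr 2 * (xx a)ᴴ := by
    refine (pr_step 2).trans ?_
    norm_num
    rfl
  simp only [h, pr_two, mul_sum, sum_mul, conjTranspose_mul, mul_assoc, mul_smul_comm,
    smul_mul_assoc, ← smul_sum, smul_smul]
  norm_num

/-- The model of the exterior algebra. -/
def ext16 : G.Ext where
  x := xx
  vac := vac
  pr := pr
  Lam := Lam
  xx := xx_car.nil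
  car := xx_car.rel
  x_real a i j := by simp [xx, zc_apply]
  vac_real i := by simp [vac, Pi.single_apply, apply_ite]
  vac_kill := xH_vac
  vac_one := by simp [vac]
  pr_sum := by simp only [pr, ← map_sum, pri_sum, map_one]
  pr_mul k l := by
    simp only [pr, ← map_mul, pri_mul]
    split_ifs <;> simp
  pr_star k := by rw [pr, zc_H, pri_T]
  pr_real k i j := by simp [pr, zc_apply]
  pr_x0 a := by rw [pr, pri_zero]; exact pv_x a
  pr_x k a := by simp only [pr, xx, ← map_mul, pri_x]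
  pr0 := by
    ext i j
    by_cases hi : i = 0 <;> by_cases hj : j = 0 <;>
      simp [pr, pri_zero, zc_apply, pvi, vac, vecMulVec_apply, hi, hj]
  pr1 := pr_one
  pr2 := pr_two
  pr3 := pr_three
  pr4 := by
    have h := congrArg zc pri_four
    simp only [map_mul, ← zc_H] at h
    simp only [conjTranspose_mul, mul_assoc]
    exact h
  Lam_x := Lam_x
  Lam_vac := Lam_vac
  Lam_mul := Lam_mul
  Lam_one := Lam_one
  Lam_sm := Lam_sm

end Vale.Agent.P267I.X16
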