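import Vale.Agent.P267F.Stmt

/-! De Rham cohomology in degree two of a complex surface. -/

open scoped Manifold ContDiff Topology
open Filter Matrix

noncomputable section

namespace Vale.Agent.P267I

open Vale.Agent.P267F

variable {X : Type} [TopologicalSpace X] [ChartedSpace C2 X]

/-- One-forms and two-forms, given at each `x` in the chart at `x`. -/
abbrev Form1 (X : Type) := X → C2 →L[ℝ] ℂ

abbrev Form2 (X : Type) := X → C2 → C2 → ℂ

/-- The expression of a two-form in the chart `P`. -/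
def inChart2 (P : OpenPartialHomeomorph X C2) (α : Form2 X) (z v w : C2) : ℂ :=
  α (P.symm z) (fderiv ℝ (chartAt C2 (P.symm z) ∘ P.symm) z v)
    (fderiv ℝ (chartAt C2 (P.symm z) ∘ P.symm) z w)

/-- Smooth one-forms. -/
def Sm1 (θ : Form1 X) : Prop :=
  ∀ p v, ∀ᶠ z in 𝓝 (chartAt C2 p p), ContDiffAt ℝ ∞ (fun y => inChart (chartAt C2 p) θ y v) z

/-- Smooth two-forms: bilinear, alternating, with smooth coefficients. -/
def Sm2 (α : Form2 X) : Prop :=
  (∀ x, ∃ B : C2 →L[ℝ] C2 →L[ℝ] ℂ, (∀ v, B v v = 0) ∧ ∀ v w, α x v w = B v w) ∧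
  ∀ p v w, ∀ᶠ z in 𝓝 (chartAt C2 p p),
    ContDiffAt ℝ ∞ (fun y => inChart2 (chartAt C2 p) α y v w) z

/-- The exterior derivative of a two-form on affine space. -/
def extD2 (A : C2 → C2 → C2 → ℂ) (z u v w : C2) : ℂ :=
  fderiv ℝ (fun y => A y v w) z u + fderiv ℝ (fun y => A y w u) z v +
    fderiv ℝ (fun y => A y u v) z w

/-- Closed smooth two-forms. -/
def Closed2 (α : Form2 X) : Prop :=
  Sm2 α ∧ ∀ p u v w, extD2 (inChart2 (chartAt C2 p) α) (chartAt C2 p p) u v w = 0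

/-- `α = dθ`. -/
def IsD (θ : Form1 X) (α : Form2 X) : Prop :=
  ∀ p v w, α p v w = extD (inChart (chartAt C2 p) θ) (chartAt C2 p p) v w

variable (X) in
/-- Closed two-forms. -/
def Z2 : Submodule ℂ (Form2 X) := Submodule.span ℂ {α | Closed2 α}

variable (X) in
/-- Exact two-forms. -/
def B2 : Submodule ℂ (Form2 X) := Submodule.span ℂ {α | ∃ θ, Sm1 θ ∧ IsD θ α}

variable (X) in
/-- The second Betti number: the dimension of the second de Rham cohomology group. -/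
def b2dR : ℕ := Module.finrank ℂ (Z2 X ⧸ (B2 X).submoduleOf (Z2 X))

variable (X) in
/-- `X` contains `b₂` rational curves. -/
def HasCurvesDR : Prop :=
  ∃ C : Fin (b2dR X) → Set X, Function.Injective C ∧ ∀ i, IsRationalCurve (C i)

/-! Not part of the statement. -/

/-- Real forms. -/
def Real2 (α : Form2 X) : Prop := ∀ x v w, (α x v w).im = 0

/-- The coefficients of a two-form in the chart `P`. -/
def coef2 (P : OpenPartialHomeomorph X C2) (α : Form2 X) (z : C2) (a b : Fin 4) : ℂ :=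
  inChart2 P α z (bs a) (bs b)

/-- The integral of `α ∧ β` is `d`. -/
def Int2 (α β : Form2 X) (d : ℂ) : Prop :=
  ∀ (l : ℕ) (P : Fin l → OpenPartialHomeomorph X C2) (ψ : Fin l → X → ℝ),
    (∀ a, HolChart (P a)) → (∀ a, Continuous (ψ a)) → (∀ a, tsupport (ψ a) ⊆ (P a).source) →
    (∀ x, ∑ a, ψ a x = 1) →
    ∑ a, ∫ z in (P a).target,
      (ψ a ((P a).symm z) : ℂ) * wedge (coef2 (P a) α z) (coef2 (P a) β z) = d

variable (X) in
/-- Target of block P. -/
def PDdR : Prop :=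
  ∃ (Q : Matrix (Fin (b2dR X)) (Fin (b2dR X)) ℤ) (c : (X → X → ℂ) → Fin (b2dR X) → ℤ),
    Q.IsSymm ∧ IsUnit Q.det ∧ (∀ x, ∃ u, IsBundle SmAt u ∧ c u = x) ∧
    (∀ u v, IsBundle SmAt u → IsBundle SmAt v → Inter u v (c u ⬝ᵥ Q *ᵥ c v)) ∧
    ∀ α : Form2 X, Closed2 α → Real2 α → ∃ x : Fin (b2dR X) → ℝ,
      Int2 α α ((x ⬝ᵥ (Q.map (Int.cast : ℤ → ℝ)) *ᵥ x : ℝ) : ℂ)

variable (X) in
/-- `bp`, `bm` are the positive and the negative index of the wedge form (what the glue needs). -/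
def IsSig (bp bm : ℕ) : Prop :=
  bp + bm = b2dR X ∧ (0 < bp → ∃ (α : Form2 X) (d : ℝ), Closed2 α ∧ Real2 α ∧ 0 < d ∧ Int2 α α d)

variable (X) in
/-- Target of block I. -/
def IndexThm : Prop :=
  ∃ bp bm : ℕ, IsSig X bp bm ∧ ∀ (u : X → X → ℂ) (a b k : ℤ), IsBundle HolAt u → Inter u u a →
    Inter u (canon X) b → Inter (canon X) (canon X) k →
    ∃ d : ℤ, Euler u d ∧ 8 * d = 4 * (a - b) + k - (bp - bm)

end Vale.Agent.P267I
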