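import Vale.Agent.P267I.G0

/-! Algebra of lam. uniq: 1 = sum of pr k and pr0..pr4 write every vector through words x..x vac; N kills words by induction on the length. pr_lam: lam maps words of length k to sums of words of length k (pr_x, Lam_x), or apply pr formulas; lam_real: apply uniq0 to the difference of lam J and its entrywise conjugate. -/

open scoped Manifold ContDiff Topology ComplexConjugate
open Filter Matrix MeasureTheory

noncomputable section

namespace Vale.Agent.P267I.G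

open Vale.Agent.P267F

variable (E : Ext)

theorem GA_x4 (a : Fin 4) : E.x a * E.pr 4 = 0 := by
  have h1 : (∑ k, E.pr k) * E.x a = E.x a * ∑ k, E.pr k := by rw [E.pr_sum, one_mul, mul_one]
  rw [Finset.sum_mul, Finset.mul_sum, Fin.sum_univ_succ, Fin.sum_univ_castSucc (n := 4)
    fun k => E.x a * E.pr k, E.pr_x0, zero_add] at h1
  simp only [E.pr_x] at h1
  exact left_eq_add.1 h1

theorem lam_x (J : M4) (j : Fin 4) : lam E J * E.x j = (∑ a, J j a • E.x a) * lam E J := by
  exact E.Lam_x Jᵀ j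

theorem lam_vac (J : M4) : lam E J *ᵥ E.vac = E.vac := by
  exact E.Lam_vac _

theorem lam_mul (J K : M4) : lam E (J * K) = lam E K * lam E J := by
  rw [lam, transpose_mul, E.Lam_mul]
  rfl

theorem lam_one : lam E 1 = 1 := by
  rw [lam, transpose_one, E.Lam_one]

theorem lam_inv {J : M4} (h : IsUnit J.det) : (lam E J)⁻¹ = lam E J⁻¹ ∧ IsUnit (lam E J).det := by
  have e : lam E J * lam E J⁻¹ = 1 := by rw [← lam_mul, nonsing_inv_mul _ h, lam_one]
  exact ⟨inv_eq_right_inv e, isUnit_det_of_right_inverse e⟩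

theorem uniq0 {N : Mat 16} (Y : Fin 4 → Mat 16) (h : ∀ j, N * E.x j = Y j * N) (h0 : N *ᵥ E.vac = 0) :
    N = 0 := by
  have h1 : ∀ j M, N * (E.x j * M) = Y j * (N * M) := fun j M => by
    rw [← mul_assoc, h, mul_assoc]
  have h2 : N * E.pr 0 = 0 := by rw [E.pr0, mul_vecMulVec, h0, zero_vecMulVec]
  have h3 : ∀ M, N * (E.pr 0 * M) = 0 := fun M => by rw [← mul_assoc, h2, zero_mul]
  rw [← mul_one N, ← E.pr_sum, Fin.sum_univ_five, E.pr1, E.pr2, E.pr3, E.pr4]
  simp only [mul_add, Finset.mul_sum, mul_smul_comm, mul_assoc, h1, h2, h3, mul_zero,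
    Finset.sum_const_zero, smul_zero, add_zero]

theorem pr_xs (k : Fin 4) (a : Fin 4) : E.pr k.castSucc * (E.x a)ᴴ = (E.x a)ᴴ * E.pr k.succ := by
  have h := congrArg conjTranspose (E.pr_x k a)
  rw [conjTranspose_mul, conjTranspose_mul, E.pr_star, E.pr_star] at h
  exact h.symm

theorem pr4_xs (a : Fin 4) : E.pr 4 * (E.x a)ᴴ = 0 := by
  have h := congrArg conjTranspose (GA_x4 E a)
  rwa [conjTranspose_mul, E.pr_star, conjTranspose_zero] at h

theorem x_pr4 (a : Fin 4) : E.x a * E.pr 4 = 0 := by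
  exact GA_x4 E a

theorem pr_vac : E.pr 0 *ᵥ E.vac = E.vac := by
  rw [E.pr0, vecMulVec_mulVec, E.vac_one, MulOpposite.op_one, one_smul]

theorem pr_lam (k : Fin 5) (J : M4) : E.pr k * lam E J = lam E J * E.pr k := by
  obtain ⟨y, h1, h2⟩ : ∃ y : Fin 4 → Mat 16,
      (∀ (k : Fin 4) a M, E.pr k.succ * (y a * M) = y a * (E.pr k.castSucc * M)) ∧
      ∀ a M, lam E J * (E.x a * M) = y a * (lam E J * M) := by
    refine ⟨fun j => ∑ a, J j a • E.x a, fun k a M => ?_, fun a M => ?_⟩
    · simp only [← mul_assoc, Finset.mul_sum, Finset.sum_mul, mul_smul_comm, smul_mul_assoc, E.pr_x]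
    · rw [← mul_assoc, lam_x, mul_assoc]
  have p1 : ∀ a M, E.pr 1 * (y a * M) = y a * (E.pr 0 * M) := h1 0
  have p2 : ∀ a M, E.pr 2 * (y a * M) = y a * (E.pr 1 * M) := h1 1
  have p3 : ∀ a M, E.pr 3 * (y a * M) = y a * (E.pr 2 * M) := h1 2
  have p4 : ∀ a M, E.pr 4 * (y a * M) = y a * (E.pr 3 * M) := h1 3
  have q0 : lam E J * E.pr 0 = E.pr 0 := by rw [E.pr0, mul_vecMulVec, lam_vac]
  have q1 : ∀ M, lam E J * (E.pr 0 * M) = E.pr 0 * M := fun M => by rw [← mul_assoc, q0]
  have q2 : ∀ M, E.pr 0 * (E.pr 0 * M) = E.pr 0 * M := fun M => by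
    rw [← mul_assoc, E.pr_mul, if_pos rfl]
  have key : ∀ l, E.pr l * (lam E J * E.pr l) = lam E J * E.pr l := by
    intro l
    fin_cases l
    · change E.pr 0 * (lam E J * E.pr 0) = lam E J * E.pr 0
      rw [q0, E.pr_mul, if_pos rfl]
    · change E.pr 1 * (lam E J * E.pr 1) = lam E J * E.pr 1
      rw [congrArg (lam E J * ·) E.pr1]
      simp only [Finset.mul_sum, mul_assoc, h2, p1, q1, q2]
    · change E.pr 2 * (lam E J * E.pr 2) = lam E J * E.pr 2
      rw [congrArg (lam E J * ·) E.pr2]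
      simp only [Finset.mul_sum, mul_smul_comm, mul_assoc, h2, p1, p2, q1, q2]
    · change E.pr 3 * (lam E J * E.pr 3) = lam E J * E.pr 3
      rw [congrArg (lam E J * ·) E.pr3]
      simp only [Finset.mul_sum, mul_smul_comm, mul_assoc, h2, p1, p2, p3, q1, q2]
    · change E.pr 4 * (lam E J * E.pr 4) = lam E J * E.pr 4
      rw [congrArg (lam E J * ·) E.pr4]
      simp only [mul_assoc, h2, p1, p2, p3, p4, q1, q2]
  calc E.pr k * lam E J = ∑ l, E.pr k * (lam E J * E.pr l) := by
        rw [← Finset.mul_sum, ← Finset.mul_sum, E.pr_sum, mul_one]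
    _ = ∑ l, if k = l then lam E J * E.pr l else 0 := by
        refine Finset.sum_congr rfl fun l _ => ?_
        rw [← key l, ← mul_assoc, E.pr_mul]
        split_ifs
        · rfl
        · rw [zero_mul]
    _ = lam E J * E.pr k := by rw [Finset.sum_ite_eq, if_pos (Finset.mem_univ _)]

theorem lam_real {J : M4} (h : ∀ j a, conj (J j a) = J j a) (i j : Fin 16) :
    conj (lam E J i j) = lam E J i j := by
  have hx : ∀ a, (E.x a).map (starRingEnd ℂ) = E.x a := fun a => by
    ext i j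
    exact E.x_real a i j
  have hy : ∀ b, (∑ a, J b a • E.x a).map (starRingEnd ℂ) = ∑ a, J b a • E.x a := fun b => by
    ext i j
    simp only [map_apply, Matrix.sum_apply, Matrix.smul_apply, smul_eq_mul, map_sum, _root_.map_mul, h,
      E.x_real]
  have e := uniq0 E (N := (lam E J).map (starRingEnd ℂ) - lam E J) (fun b => ∑ a, J b a • E.x a)
    (fun b => by
      have h1 := congrArg (fun M : Mat 16 => M.map (starRingEnd ℂ)) (lam_x E J b)
      simp only [Matrix.map_mul, hx, hy] at h1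
      rw [sub_mul, mul_sub, h1, lam_x])
    (by
      funext i
      have h1 := (starRingEnd ℂ).map_mulVec (lam E J) E.vac i
      rw [show (starRingEnd ℂ) ∘ E.vac = E.vac from funext E.vac_real, lam_vac, E.vac_real] at h1
      rw [sub_mulVec, lam_vac, Pi.sub_apply, ← h1, sub_self, Pi.zero_apply])
  exact congrFun (congrFun (sub_eq_zero.1 e) i) j

theorem lam_sm {J : C2 → M4} {z : C2} (h : ∀ j a, ContDiffAt ℝ ∞ (fun y => J y j a) z) (i j : Fin 16) :
    ContDiffAt ℝ ∞ (fun y => lam E (J y) i j) z := by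
  exact ((E.Lam_sm i j).restrict_scalars ℝ).contDiffAt.comp z
    (contDiffAt_pi.2 fun a => contDiffAt_pi.2 fun b => h b a)

end Vale.Agent.P267I.G
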