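import Vale.Agent.P267I.GA

/-! The grading. cc is a Clifford family (car, xx). pr_gm: compute gm on words x..x vac with the relations (gm x_a = - or + (x_a)^H gm: c_a and x_a + x_a^H anticommute or commute with gm), gm vac = top word. gm_two: write v, w by pr2 through the six words; gm (x0 x1 vac) = - x2 x3 vac, gm (x0 x2 vac) = x1 x3 vac, gm (x0 x3 vac) = - x1 x2 vac. -/

open scoped Manifold ContDiff Topology ComplexConjugate
open Filter Matrix MeasureTheory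

noncomputable section

namespace Vale.Agent.P267I.G

open Vale.Agent.P267F

variable (E : Ext)

theorem gb_yy (a b : Fin 4) : (E.x a)ᴴ * (E.x b)ᴴ + (E.x b)ᴴ * (E.x a)ᴴ = 0 := by
  have := congrArg conjTranspose (E.xx b a)
  simpa [conjTranspose_add, conjTranspose_mul] using this

theorem gb_cc (a b : Fin 4) : cc E a * cc E b + cc E b * cc E a = if a = b then -1 - 1 else 0 := by
  have h1 := E.xx a b
  have h2 := gb_yy E a b
  have h3 := E.car a b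
  have h4 := E.car b a
  have e : cc E a * cc E b + cc E b * cc E a = (E.x a * E.x b + E.x b * E.x a) +
      ((E.x a)ᴴ * (E.x b)ᴴ + (E.x b)ᴴ * (E.x a)ᴴ) - (E.x a * (E.x b)ᴴ + (E.x b)ᴴ * E.x a) -
      (E.x b * (E.x a)ᴴ + (E.x a)ᴴ * E.x b) := by
    unfold cc; noncomm_ring
  rw [e, h1, h2, h3, h4]
  by_cases h : a = b
  · simp [h]
  · simp [h, Ne.symm h]

theorem gb_cg (a b : Fin 4) : cc E a * (E.x b + (E.x b)ᴴ) = -((E.x b + (E.x b)ᴴ) * cc E a) := by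
  have e : cc E a * (E.x b + (E.x b)ᴴ) + (E.x b + (E.x b)ᴴ) * cc E a = (E.x a * E.x b + E.x b * E.x a) -
      ((E.x a)ᴴ * (E.x b)ᴴ + (E.x b)ᴴ * (E.x a)ᴴ) + (E.x a * (E.x b)ᴴ + (E.x b)ᴴ * E.x a) -
      (E.x b * (E.x a)ᴴ + (E.x a)ᴴ * E.x b) := by
    unfold cc; noncomm_ring
  rw [E.xx, gb_yy, E.car, E.car] at e
  refine eq_neg_of_add_eq_zero_left (e.trans ?_)
  by_cases h : a = b
  · simp [h]
  · simp [h, Ne.symm h]

theorem gb_sw {a b : Fin 4} (h : a ≠ b) : cc E a * cc E b = -(cc E b * cc E a) :=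
  eq_neg_of_add_eq_zero_left (by rw [gb_cc, if_neg h])

theorem gb_sw' {a b : Fin 4} (h : a ≠ b) (Z : Mat 16) : cc E a * (cc E b * Z) = -(cc E b * (cc E a * Z)) := by
  rw [← Matrix.mul_assoc, gb_sw E h, Matrix.neg_mul, Matrix.mul_assoc]

theorem gb_ss (a : Fin 4) : cc E a * cc E a = -1 := by
  have h := gb_cc E a a
  rw [if_pos rfl] at h
  have h2 : (2 : ℂ) • (cc E a * cc E a) = (2 : ℂ) • (-1 : Mat 16) := by
    rw [two_smul, two_smul, h]; abel
  exact smul_right_injective _ two_ne_zero h2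

theorem gb_ss' (a : Fin 4) (Z : Mat 16) : cc E a * (cc E a * Z) = -Z := by
  rw [← Matrix.mul_assoc, gb_ss]; simp

theorem gm_sq : gm E * gm E = 1 := by
  simp only [gm, Matrix.mul_assoc, gb_sw' E (show (1 : Fin 4) ≠ 0 by decide),
    gb_sw' E (show (2 : Fin 4) ≠ 0 by decide), gb_sw' E (show (3 : Fin 4) ≠ 0 by decide),
    gb_sw' E (show (2 : Fin 4) ≠ 1 by decide), gb_sw' E (show (3 : Fin 4) ≠ 1 by decide),
    gb_sw' E (show (3 : Fin 4) ≠ 2 by decide), gb_ss', gb_ss, Matrix.mul_neg, neg_neg, Matrix.mul_one]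

theorem gb_gc (b : Fin 4) : gm E * cc E b = -(cc E b * gm E) := by
  have hb : b = 0 ∨ b = 1 ∨ b = 2 ∨ b = 3 := by omega
  rcases hb with rfl | rfl | rfl | rfl <;>
  simp only [gm, Matrix.mul_assoc, gb_sw' E (show (1 : Fin 4) ≠ 0 by decide),
    gb_sw' E (show (2 : Fin 4) ≠ 0 by decide), gb_sw' E (show (3 : Fin 4) ≠ 0 by decide),
    gb_sw' E (show (2 : Fin 4) ≠ 1 by decide), gb_sw' E (show (3 : Fin 4) ≠ 1 by decide),
    gb_sw' E (show (3 : Fin 4) ≠ 2 by decide), gb_sw E (show (3 : Fin 4) ≠ 0 by decide),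
    gb_sw E (show (3 : Fin 4) ≠ 1 by decide), gb_sw E (show (3 : Fin 4) ≠ 2 by decide),
    gb_ss', gb_ss, Matrix.mul_neg, neg_neg, Matrix.mul_one]

theorem gb_gg (b : Fin 4) : gm E * (E.x b + (E.x b)ᴴ) = (E.x b + (E.x b)ᴴ) * gm E := by
  have h : ∀ a Z, cc E a * ((E.x b + (E.x b)ᴴ) * Z) = -((E.x b + (E.x b)ᴴ) * (cc E a * Z)) := fun a Z => by
    rw [← Matrix.mul_assoc, gb_cg, Matrix.neg_mul, Matrix.mul_assoc]
  simp only [gm, Matrix.mul_assoc, gb_cg, h, Matrix.mul_neg, neg_neg]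

theorem gb_gx (b : Fin 4) : gm E * E.x b = (E.x b)ᴴ * gm E := by
  have h1 := gb_gc E b
  have h2 := gb_gg E b
  unfold cc at h1
  have h3 : (2 : ℂ) • (gm E * E.x b) = (2 : ℂ) • ((E.x b)ᴴ * gm E) := by
    rw [two_smul, two_smul]
    calc _ = gm E * (E.x b - (E.x b)ᴴ) + gm E * (E.x b + (E.x b)ᴴ) := by noncomm_ring
      _ = _ := by rw [h1, h2]; noncomm_ring
  exact smul_right_injective _ two_ne_zero h3

theorem gb_yx (a b : Fin 4) (v : Vec 16) :
    (E.x a)ᴴ *ᵥ E.x b *ᵥ v = (if b = a then v else 0) - E.x b *ᵥ (E.x a)ᴴ *ᵥ v := by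
  have h := congrArg (· *ᵥ v) (E.car b a)
  simp only [add_mulVec, ← mulVec_mulVec] at h
  rw [eq_sub_iff_add_eq', h]
  split_ifs <;> simp

theorem gb_vac : gm E *ᵥ E.vac = E.x 0 *ᵥ E.x 1 *ᵥ E.x 2 *ᵥ E.x 3 *ᵥ E.vac := by
  simp [gm, cc, ← mulVec_mulVec, sub_mulVec, mulVec_sub, mulVec_neg, gb_yx, E.vac_kill]

theorem gm_real (i j : Fin 16) : conj (gm E i j) = gm E i j := by
  have h : ∀ a, (starRingEnd ℂ).mapMatrix (cc E a) = cc E a := fun a => by
    ext i j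
    simp [cc, E.x_real]
  have h2 : (starRingEnd ℂ).mapMatrix (gm E) = gm E := by simp only [gm, map_mul, h]
  exact congrFun (congrFun h2 i) j

theorem gb_prv (k : Fin 5) : E.pr k *ᵥ E.vac = if k = 0 then E.vac else 0 := by
  rw [← pr_vac, mulVec_mulVec, E.pr_mul]
  split_ifs <;> simp

theorem pr_gm (k : Fin 5) : E.pr k * gm E = gm E * E.pr k.rev := by
  have p0 := E.pr_x0
  have p1 : ∀ a, E.pr 1 * E.x a = E.x a * E.pr 0 := E.pr_x 0
  have p2 : ∀ a, E.pr 2 * E.x a = E.x a * E.pr 1 := E.pr_x 1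
  have p3 : ∀ a, E.pr 3 * E.x a = E.x a * E.pr 2 := E.pr_x 2
  have p4 : ∀ a, E.pr 4 * E.x a = E.x a * E.pr 3 := E.pr_x 3
  have p5 := x_pr4 E
  obtain ⟨A, hA⟩ : ∃ A, A = ∑ l : Fin 5, (2 : ℂ) ^ (l : ℕ) • E.pr l := ⟨_, rfl⟩
  obtain ⟨B, hB⟩ : ∃ B, B = ∑ l : Fin 5, (2 : ℂ) ^ (l.rev : ℕ) • E.pr l := ⟨_, rfl⟩
  have a1 : ∀ a, A * E.x a = (2 : ℂ) • (E.x a * A) := fun a => by
    simp only [hA, Fin.sum_univ_five, Matrix.add_mul, Matrix.mul_add, Matrix.smul_mul, Matrix.mul_smul,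
      p0, p1, p2, p3, p4, p5]
    simp
    module
  have b1 : ∀ a, B * E.x a = (1 / 2 : ℂ) • (E.x a * B) := fun a => by
    simp only [hB, Fin.sum_univ_five, Matrix.add_mul, Matrix.mul_add, Matrix.smul_mul, Matrix.mul_smul,
      p0, p1, p2, p3, p4, p5]
    simp [Fin.rev]
    module
  have a2 : Aᴴ = A := by simp [hA, conjTranspose_sum, E.pr_star]
  have a3 : ∀ a, A * (E.x a)ᴴ = (1 / 2 : ℂ) • ((E.x a)ᴴ * A) := fun a => by
    have := congrArg conjTranspose (a1 a)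
    rw [conjTranspose_mul, conjTranspose_smul, conjTranspose_mul, a2] at this
    rw [this, smul_smul]
    simp
  have a4 : A *ᵥ E.vac = E.vac := by simp [hA, sum_mulVec, smul_mulVec, gb_prv]
  have b4 : B *ᵥ E.vac = (16 : ℂ) • E.vac := by
    simp [hB, sum_mulVec, smul_mulVec, gb_prv]
    norm_num
  have a5 : ∀ a v, A *ᵥ E.x a *ᵥ v = (2 : ℂ) • E.x a *ᵥ A *ᵥ v := fun a v => by
    rw [mulVec_mulVec, a1, smul_mulVec, mulVec_mulVec]
  have h : A * gm E - gm E * B = 0 := uniq0 E (fun j => (1 / 2 : ℂ) • (E.x j)ᴴ) (fun j => by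
    rw [Matrix.sub_mul, Matrix.mul_assoc, gb_gx, ← Matrix.mul_assoc, a3, Matrix.mul_assoc (gm E), b1,
      Matrix.mul_smul, ← Matrix.mul_assoc (gm E), gb_gx]
    simp only [Matrix.smul_mul, Matrix.mul_sub, Matrix.mul_assoc, smul_sub]) (by
    rw [sub_mulVec, ← mulVec_mulVec, ← mulVec_mulVec, b4, mulVec_smul, gb_vac]
    simp only [a5, a4, mulVec_smul, smul_smul]
    norm_num)
  have z : ∀ k l : Fin 5, k ≠ l.rev → E.pr k * gm E * E.pr l = 0 := fun k l hkl => by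
    have h1 : E.pr k * A = (2 : ℂ) ^ (k : ℕ) • E.pr k := by
      simp [hA, Finset.mul_sum, E.pr_mul]
    have h2 : B * E.pr l = (2 : ℂ) ^ (l.rev : ℕ) • E.pr l := by
      simp only [hB, Finset.sum_mul, Matrix.smul_mul, E.pr_mul, smul_ite, smul_zero,
        Finset.sum_ite_eq', Finset.mem_univ, if_true]
    have h3 : E.pr k * (A * gm E) * E.pr l = E.pr k * (gm E * B) * E.pr l := by rw [sub_eq_zero.1 h]
    rw [← Matrix.mul_assoc, h1, Matrix.mul_assoc _ (gm E * B), Matrix.mul_assoc (gm E), h2,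
      Matrix.smul_mul, Matrix.smul_mul, Matrix.mul_smul, Matrix.mul_smul, ← Matrix.mul_assoc,
      ← sub_eq_zero, ← sub_smul, smul_eq_zero] at h3
    refine h3.resolve_left (sub_ne_zero.2 fun e => hkl (Fin.ext ?_))
    exact Nat.pow_right_injective le_rfl (by exact_mod_cast e)
  calc E.pr k * gm E = ∑ l, E.pr k * gm E * E.pr l := by rw [← Finset.mul_sum, E.pr_sum, Matrix.mul_one]
    _ = E.pr k * gm E * E.pr k.rev := Finset.sum_eq_single _ (fun l _ hl => z k l fun e =>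
        hl (by rw [e, Fin.rev_rev])) (by simp)
    _ = ∑ l, E.pr l * gm E * E.pr k.rev := (Finset.sum_eq_single (f := fun l => E.pr l * gm E * E.pr k.rev)
        k (fun l _ hl => z l _ (by rwa [Fin.rev_rev])) (fun h => absurd (Finset.mem_univ _) h)).symm
    _ = _ := by rw [← Finset.sum_mul, ← Finset.sum_mul, E.pr_sum, Matrix.one_mul]

theorem gb_c2 (v : Vec 16) (a b : Fin 4) : star v ⬝ᵥ E.x a *ᵥ E.x b *ᵥ E.vac = c2 E (star v) a b := by
  have h : (E.x a * E.x b)ᴴ = (E.x a * E.x b)ᵀ := by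
    ext i j
    simp [Matrix.mul_apply, E.x_real]
  have h2 : star E.vac = E.vac := funext E.vac_real
  rw [c2, h, h2, mulVec_transpose, dotProduct_comm E.vac, mulVec_mulVec, dotProduct_mulVec]

theorem gb_anti (v : Vec 16) (a b : Fin 4) : c2 E v a b = -c2 E v b a := by
  rw [c2, c2, eq_neg_of_add_eq_zero_left (E.xx a b), conjTranspose_neg, neg_mulVec, dotProduct_neg]

theorem gm_two {v w : Vec 16} (hv : E.pr 2 *ᵥ v = v) (hw : E.pr 2 *ᵥ w = w) :
    star v ⬝ᵥ gm E *ᵥ w = -wedge (c2 E (star v)) (c2 E w) := by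
  have e : w = (1 / 2 : ℂ) • ∑ a, ∑ b, c2 E w a b • E.x a *ᵥ E.x b *ᵥ E.vac := by
    conv_lhs => rw [← hw, E.pr2, E.pr0]
    simp only [smul_mulVec, sum_mulVec, ← mulVec_mulVec, vecMulVec_mulVec, c2, op_smul_eq_smul,
      mulVec_smul]
  have g : ∀ a b, gm E *ᵥ E.x a *ᵥ E.x b *ᵥ E.vac =
      (E.x a)ᴴ *ᵥ (E.x b)ᴴ *ᵥ E.x 0 *ᵥ E.x 1 *ᵥ E.x 2 *ᵥ E.x 3 *ᵥ E.vac := fun a b => by
    rw [← gb_vac, mulVec_mulVec, gb_gx, ← mulVec_mulVec, mulVec_mulVec _ (gm E), gb_gx, ← mulVec_mulVec]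
  conv_lhs => rw [e]
  simp only [Fin.sum_univ_four, mulVec_smul, mulVec_add, g, dotProduct_smul, dotProduct_add, smul_eq_mul]
  simp [-mulVec_mulVec, gb_yx, E.vac_kill, mulVec_sub, mulVec_neg, gb_c2, wedge, gb_anti E w 1 0, gb_anti E w 2 0,
    gb_anti E w 3 0, gb_anti E w 2 1, gb_anti E w 3 1, gb_anti E w 3 2]
  ring

end Vale.Agent.P267I.G
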