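import Vale.Agent.P267I.GDefs
import Vale.Agent.P267I.Cl

open scoped Manifold ContDiff Topology InnerProductSpace
open Filter Matrix MeasureTheory Set

noncomputable section

namespace Vale.Agent.P267I

open Vale.Agent.P267F

set_option linter.unusedSectionVars false

variable {X : Type} [TopologicalSpace X] [ChartedSpace C2 X] [MeasurableSpace X] [BorelSpace X]
  {N : ℕ} {S : Pre X N} {B : X → C2 → Mat N}

theorem gbas_co (b : Fin 4) : ContDiff ℝ ∞ fun v : C2 => co v b := by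
  have h : ∀ i : Fin 2, ContDiff ℝ ∞ fun v : C2 => v i := fun i => by fun_prop
  fin_cases b
  · exact Complex.reCLM.contDiff.comp (h 0)
  · exact Complex.imCLM.contDiff.comp (h 0)
  · exact Complex.reCLM.contDiff.comp (h 1)
  · exact Complex.imCLM.contDiff.comp (h 1)

/-- A matrix as a real continuous linear map. -/
def gbas_L (A : Mat N) : Vec N →L[ℝ] Vec N :=
  (LinearMap.toContinuousLinearMap (Matrix.mulVecLin A)).restrictScalars ℝ

theorem gbas_sm {U : Set C2} {f : C2 → Vec N} (A : Mat N) (hf : ContDiffOn ℝ ∞ f U) :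
    ContDiffOn ℝ ∞ (fun z => A *ᵥ f z) U :=
  (gbas_L A).contDiff.comp_contDiffOn hf

theorem gbas_fd {f : C2 → Vec N} (A : Mat N) {z : C2} (hf : DifferentiableAt ℝ f z) (v : C2) :
    fderiv ℝ (fun z => A *ᵥ f z) z v = A *ᵥ fderiv ℝ f z v :=
  congrArg (fun L : C2 →L[ℝ] Vec N => L v)
    ((gbas_L A).hasFDerivAt.comp z hf.hasFDerivAt).fderiv

theorem gbas_nsq (v : Vec N) : (nsq v : ℂ) = star v ⬝ᵥ v := by
  simp only [nsq, dotProduct, Pi.star_apply, Complex.star_def, Complex.conj_mul', Complex.ofReal_sum,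
    Complex.ofReal_pow]

theorem gbas_dot (A : Mat N) (v w : Vec N) : star (A *ᵥ v) ⬝ᵥ w = star v ⬝ᵥ Aᴴ *ᵥ w := by
  rw [star_mulVec, dotProduct_mulVec]

theorem V_open (S : Pre X N) (p : X) : IsOpen (S.V p) := by
  exact (chartAt C2 p).isOpen_image_of_subset_source (S.W_open p) (S.W_sub p)

theorem locOp (hB : S.IsOp B) (p : X) : LocOp (S.V p) (S.e p) (B p) := by
  exact ⟨V_open S p, S.e_sm p, fun z hz => (S.e_pos p z hz).ne', hB.sm p⟩

theorem rho_pos (S : Pre X N) (p : X) : ∀ z ∈ S.V p, 0 < S.rho p z := by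
  exact fun z hz => inv_pos.2 (S.e_pos p z hz)

theorem rho_sm (S : Pre X N) (p : X) : ContDiffOn ℝ ∞ (S.rho p) (S.V p) := by
  refine ContDiffOn.inv ?_ fun z hz => (S.e_pos p z hz).ne'
  simp only [fdet, det_apply', of_apply]
  exact ContDiffOn.sum fun σ _ => contDiffOn_const.mul (contDiffOn_prod fun i _ =>
    (gbas_co i).comp_contDiffOn (S.e_sm p _))

theorem nsq_U (S : Pre X N) (p x : X) (v : Vec N) : nsq (S.U p x *ᵥ v) = nsq v := by
  apply Complex.ofReal_injective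
  rw [gbas_nsq, gbas_nsq, gbas_dot, mulVec_mulVec, S.U_unit, one_mulVec]

theorem dot_U (S : Pre X N) (p x : X) (v w : Vec N) :
    star (S.U p x *ᵥ v) ⬝ᵥ (S.U p x *ᵥ w) = star v ⬝ᵥ w := by
  rw [gbas_dot, mulVec_mulVec, S.U_unit, one_mulVec]

theorem loc_chart (S : Pre X N) {p x : X} (hx : x ∈ S.W p) (s : X → Vec N) :
    S.loc p s (chartAt C2 p x) = S.U p x *ᵥ s x := by
  rw [Pre.loc, (chartAt C2 p).left_inv (S.W_sub p hx)]

theorem gbas_diff {s : X → Vec N} (hs : S.Sm s) {p : X} {z : C2} (hz : z ∈ S.V p) :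
    DifferentiableAt ℝ (S.loc p s) z :=
  ((hs p).contDiffAt ((V_open S p).mem_nhds hz)).differentiableAt (by simp)

theorem gbas_self (S : Pre X N) (x : X) : chartAt C2 x x ∈ S.V x := ⟨x, S.W_mem x, rfl⟩

theorem loc_D (hB : S.IsOp B) {s : X → Vec N} (hs : S.Sm s) (p : X) :
    ∀ z ∈ S.V p, S.loc p (S.D B s) z = S.Dloc B p (S.loc p s) z := by
  rintro _ ⟨x, hx, rfl⟩
  rw [loc_chart S hx]
  exact hB.compat p x hx s (gbas_diff hs ⟨x, hx, rfl⟩)

theorem sm_D (hB : S.IsOp B) {s : X → Vec N} (hs : S.Sm s) : S.Sm (S.D B s) := by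
  intro p
  refine ContDiffOn.congr ?_ (loc_D hB hs p)
  refine (ContDiffOn.sum fun a _ => gbas_sm _ ?_).add (contDiffOn_pi.2 fun i => ?_)
  · exact ((hs p).fderiv_of_isOpen (m := ∞) (V_open S p) (by simp)).clm_apply (S.e_sm p a)
  · simp only [mulVec, dotProduct]
    exact ContDiffOn.sum fun j _ => (hB.sm p i j).mul (contDiffOn_pi.1 (hs p) j)

theorem D_add {s t : X → Vec N} (hs : S.Sm s) (ht : S.Sm t) :
    S.D B (s + t) = S.D B s + S.D B t := by
  funext x
  have h : S.loc x (s + t) = fun z => S.loc x s z + S.loc x t z := by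
    funext z; simp [Pre.loc, Matrix.mulVec_add]
  simp only [Pre.D, Pre.Dloc, h, Pi.add_apply,
    fderiv_fun_add (gbas_diff hs (gbas_self S x)) (gbas_diff ht (gbas_self S x)),
    _root_.add_apply, mulVec_add, Finset.sum_add_distrib]
  abel

theorem D_smul (a : ℂ) {s : X → Vec N} (hs : S.Sm s) : S.D B (a • s) = a • S.D B s := by
  funext x
  have h : S.loc x (a • s) = fun z => a • S.loc x s z := by
    funext z; simp [Pre.loc, Matrix.mulVec_smul]
  simp only [Pre.D, Pre.Dloc, h, Pi.smul_apply,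
    fderiv_fun_const_smul (gbas_diff hs (gbas_self S x)), _root_.smul_apply,
    mulVec_smul, ← Finset.smul_sum, ← smul_add]

theorem gam_herm (C : Cl N) : C.gamᴴ = C.gam := by
  have h : IsCl C.c := C.rel
  obtain ⟨a1, a2, -, a4, -, -, -, -, b3, -, b5, b6⟩ := h.ord
  simp only [Cl.gam, conjTranspose_mul, C.skew, mul_neg, neg_mul, neg_neg, mul_assoc, a1, a2,
    a4, b3, b5, b6]

theorem gam_sq (C : Cl N) : C.gam * C.gam = 1 := by
  exact IsCl.gam_sq (c := C.c) C.rel

theorem gbas_loc (S : Pre X N) (p : X) (s : X → Vec N) :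
    S.loc p (fun x => S.gam *ᵥ s x) = fun z => S.gam *ᵥ S.loc p s z := by
  funext z
  simp only [Pre.loc, mulVec_mulVec, S.U_gam]

theorem sm_gam {s : X → Vec N} (hs : S.Sm s) : S.Sm fun x => S.gam *ᵥ s x := by
  intro p
  rw [gbas_loc]
  exact gbas_sm _ (hs p)

theorem D_gam (hB : S.IsOp B) {s : X → Vec N} (hs : S.Sm s) :
    S.D B (fun x => S.gam *ᵥ s x) = fun x => -(S.gam *ᵥ S.D B s x) := by
  funext x
  have h1 : (S.U x x)ᴴ * S.gam = S.gam * (S.U x x)ᴴ := by
    have h := congrArg conjTranspose (S.U_gam x x)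
    rw [conjTranspose_mul, conjTranspose_mul, gam_herm] at h
    exact h.symm
  have h2 : ∀ a, S.c a * S.gam = -(S.gam * S.c a) := fun a => IsCl.c_gam (c := S.c) S.rel a
  have h3 : S.Dloc B x (S.loc x fun x => S.gam *ᵥ s x) (chartAt C2 x x) =
      -(S.gam *ᵥ S.Dloc B x (S.loc x s) (chartAt C2 x x)) := by
    simp only [Pre.Dloc, gbas_loc, gbas_fd _ (gbas_diff hs (gbas_self S x)), mulVec_mulVec, h2,
      hB.odd x _ (gbas_self S x), neg_mulVec, mulVec_add, mulVec_sum, neg_add,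
      Finset.sum_neg_distrib]
  rw [Pre.D, h3, Pre.D, mulVec_neg, mulVec_mulVec, mulVec_mulVec, h1]

theorem ip_gam (S : Pre X N) (s t : X → Vec N) :
    S.ip (fun x => S.gam *ᵥ s x) t = S.ip s fun x => S.gam *ᵥ t x := by
  simp only [Pre.ip, gbas_dot, gam_herm]

end Vale.Agent.P267I
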