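import Vale.Agent.P267I.GA

/-! Coefficients in degrees one and two (car, vac_kill, vac_one, pr0, pr1, pr2, pr3). -/

open scoped Manifold ContDiff Topology ComplexConjugate
open Filter Matrix MeasureTheory

noncomputable section

namespace Vale.Agent.P267I.G

open Vale.Agent.P267F

variable (E : Ext)

/-- The vacuum coefficient. -/
def GC_ph : Vec 16 →ₗ[ℂ] ℂ where
  toFun v := star E.vac ⬝ᵥ v
  map_add' _ _ := dotProduct_add _ _ _
  map_smul' _ _ := dotProduct_smul _ _ _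

theorem GC_car (a b : Fin 4) (v : Vec 16) :
    (E.x b)ᴴ *ᵥ (E.x a *ᵥ v) = (if a = b then v else 0) - E.x a *ᵥ ((E.x b)ᴴ *ᵥ v) := by
  have h := congrArg (· *ᵥ v) (E.car a b)
  simp only [add_mulVec, ← mulVec_mulVec] at h
  rw [eq_sub_iff_add_eq, add_comm, h]
  split_ifs <;> simp

theorem GC_x (a : Fin 4) (v : Vec 16) : GC_ph E (E.x a *ᵥ v) = 0 := by
  have h := congrArg star (E.vac_kill a)
  rw [star_mulVec, conjTranspose_conjTranspose, star_zero] at h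
  show star E.vac ⬝ᵥ (E.x a *ᵥ v) = 0
  rw [dotProduct_mulVec, h, zero_dotProduct]

theorem GC_vac : GC_ph E E.vac = 1 := E.vac_one

theorem GC_yy (a b : Fin 4) (v : Vec 16) :
    (E.x a)ᴴ *ᵥ ((E.x b)ᴴ *ᵥ v) = -((E.x b)ᴴ *ᵥ ((E.x a)ᴴ *ᵥ v)) := by
  have h := congrArg (fun M => Mᴴ *ᵥ v) (E.xx a b)
  simp only [conjTranspose_add, conjTranspose_mul, add_mulVec, ← mulVec_mulVec,
    conjTranspose_zero, zero_mulVec] at h
  exact eq_neg_of_add_eq_zero_right h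

theorem GC_pr0 (v : Vec 16) : E.pr 0 *ᵥ v = GC_ph E v • E.vac := by
  rw [E.pr0]
  funext i
  simp only [mulVec, dotProduct, vecMulVec_apply, GC_ph, LinearMap.coe_mk, AddHom.coe_mk,
    Pi.smul_apply, smul_eq_mul, Finset.sum_mul]
  exact Finset.sum_congr rfl fun j _ => by ring

theorem GC_c1 (v : Vec 16) (a : Fin 4) : c1 E v a = GC_ph E ((E.x a)ᴴ *ᵥ v) := rfl

theorem GC_c2 (v : Vec 16) (a b : Fin 4) :
    c2 E v a b = GC_ph E ((E.x b)ᴴ *ᵥ ((E.x a)ᴴ *ᵥ v)) := by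
  rw [mulVec_mulVec, ← conjTranspose_mul]
  rfl

theorem GC_c1x (a b : Fin 4) : c1 E (E.x a *ᵥ E.vac) b = if a = b then 1 else 0 := by
  rw [GC_c1, GC_car, map_sub, GC_x, sub_zero]
  split_ifs
  · exact GC_vac E
  · exact map_zero _

theorem GC_c2x (k a b : Fin 4) (w : Vec 16) : c2 E (E.x k *ᵥ w) a b =
    (if k = a then c1 E w b else 0) - if k = b then c1 E w a else 0 := by
  rw [GC_c2, GC_car, mulVec_sub, GC_car, map_sub, map_sub, GC_x, sub_zero, GC_c1, GC_c1]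
  congr 1 <;> split_ifs <;> simp

theorem c1_v1 (A : Fin 4 → ℂ) : c1 E (v1 E A) = A := by
  funext b
  rw [GC_c1, v1, mulVec_sum, map_sum]
  simp only [mulVec_smul, map_smul, ← GC_c1, GC_c1x, smul_eq_mul, mul_ite, mul_one, mul_zero,
    Finset.sum_ite_eq', Finset.mem_univ, if_true]

theorem v1_c1 (v : Vec 16) : v1 E (c1 E v) = E.pr 1 *ᵥ v := by
  rw [E.pr1, sum_mulVec, v1]
  refine Finset.sum_congr rfl fun a _ => ?_
  rw [← mulVec_mulVec, ← mulVec_mulVec, GC_pr0, mulVec_smul, GC_c1]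

theorem c2_anti (v : Vec 16) (a b : Fin 4) : c2 E v a b = -c2 E v b a := by
  rw [GC_c2, GC_c2, GC_yy, map_neg]

theorem c2_v2 {A : Fin 4 → Fin 4 → ℂ} (h : ∀ a b, A a b = -A b a) : c2 E (v2 E A) = A := by
  funext c d
  rw [GC_c2, v2]
  simp only [mulVec_smul, mulVec_sum, map_smul, map_sum, ← mulVec_mulVec, ← GC_c2, GC_c2x,
    GC_c1x, smul_eq_mul, mul_sub, Finset.sum_sub_distrib, mul_ite, mul_one, mul_zero]
  simp only [Finset.sum_ite_irrel, Finset.sum_const_zero, Finset.sum_ite_eq', Finset.mem_univ,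
    if_true]
  rw [h d c]
  ring

theorem v2_c2 (v : Vec 16) : v2 E (c2 E v) = E.pr 2 *ᵥ v := by
  rw [E.pr2, smul_mulVec, sum_mulVec, v2]
  congr 1
  refine Finset.sum_congr rfl fun a _ => ?_
  rw [sum_mulVec]
  refine Finset.sum_congr rfl fun b _ => ?_
  rw [← mulVec_mulVec v, ← mulVec_mulVec _ (E.x a * E.x b) (E.pr 0), GC_pr0, mulVec_smul]
  rfl

theorem GC_ystar (a : Fin 4) (v : Vec 16) : (E.x a)ᴴ *ᵥ star v = star ((E.x a)ᴴ *ᵥ v) := by
  funext i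
  simp only [mulVec, dotProduct, conjTranspose_apply, Pi.star_apply, star_sum, star_mul',
    star_star]
  refine Finset.sum_congr rfl fun j _ => ?_
  rw [show star (E.x a j i) = E.x a j i from E.x_real a j i]

theorem GC_pstar (v : Vec 16) : GC_ph E (star v) = conj (GC_ph E v) := by
  show star E.vac ⬝ᵥ star v = star (star E.vac ⬝ᵥ v)
  simp only [dotProduct, Pi.star_apply, star_sum, star_mul', star_star]
  refine Finset.sum_congr rfl fun j _ => ?_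
  rw [show star (E.vac j) = E.vac j from E.vac_real j]

theorem c2_star (v : Vec 16) (a b : Fin 4) : c2 E (star v) a b = conj (c2 E v a b) := by
  rw [GC_c2, GC_c2, GC_ystar, GC_ystar, GC_pstar]

theorem c2_x (w : Fin 4 → Vec 16) (a b : Fin 4) :
    c2 E (∑ k, E.x k *ᵥ w k) a b = c1 E (w a) b - c1 E (w b) a := by
  rw [GC_c2]
  simp only [mulVec_sum, map_sum, ← GC_c2, GC_c2x, Finset.sum_sub_distrib, Finset.sum_ite_eq',
    Finset.mem_univ, if_true]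

/-- The coefficients in degree three. -/
def GC_c3 (v : Vec 16) (a b c : Fin 4) : ℂ :=
  GC_ph E ((E.x c)ᴴ *ᵥ ((E.x b)ᴴ *ᵥ ((E.x a)ᴴ *ᵥ v)))

theorem GC_c3x (k a b c : Fin 4) (w : Vec 16) : GC_c3 E (E.x k *ᵥ w) a b c =
    (if k = a then c2 E w b c else 0) - ((if k = b then c2 E w a c else 0) -
      if k = c then c2 E w a b else 0) := by
  rw [GC_c3, GC_car, mulVec_sub, GC_car, mulVec_sub, mulVec_sub, GC_car, map_sub, map_sub,
    map_sub, GC_x, sub_zero, GC_c2, GC_c2, GC_c2]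
  congr 1
  · split_ifs <;> simp
  · congr 1 <;> split_ifs <;> simp

theorem GC_pr3 (v : Vec 16) : E.pr 3 *ᵥ v = 0 ↔ ∀ a b c, GC_c3 E v a b c = 0 := by
  constructor
  · intro h a b c
    have e : ∀ (k : Fin 4) a (u : Vec 16), (E.x a)ᴴ *ᵥ (E.pr k.succ *ᵥ u) =
        E.pr k.castSucc *ᵥ ((E.x a)ᴴ *ᵥ u) := fun k a u => by
      rw [mulVec_mulVec, mulVec_mulVec, pr_xs]
    have h1 : GC_c3 E (E.pr 3 *ᵥ v) a b c = GC_c3 E v a b c := by
      have e2 : ∀ a u, (E.x a)ᴴ *ᵥ (E.pr 3 *ᵥ u) = E.pr 2 *ᵥ ((E.x a)ᴴ *ᵥ u) := e 2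
      have e1 : ∀ a u, (E.x a)ᴴ *ᵥ (E.pr 2 *ᵥ u) = E.pr 1 *ᵥ ((E.x a)ᴴ *ᵥ u) := e 1
      have e0 : ∀ a u, (E.x a)ᴴ *ᵥ (E.pr 1 *ᵥ u) = E.pr 0 *ᵥ ((E.x a)ᴴ *ᵥ u) := e 0
      rw [GC_c3, e2, e1, e0, GC_pr0, map_smul, GC_vac, smul_eq_mul, mul_one, GC_c3]
    rw [← h1, h, GC_c3]
    simp
  · intro h
    rw [E.pr3, smul_mulVec]
    simp only [sum_mulVec, conjTranspose_mul, ← mulVec_mulVec, GC_pr0]
    simp only [GC_c3] at h
    simp only [h, zero_smul, mulVec_zero, Finset.sum_const_zero, smul_zero]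

theorem pr3_x (w : Fin 4 → Vec 16) : E.pr 3 *ᵥ (∑ k, E.x k *ᵥ w k) = 0 ↔
    ∀ a b c, c2 E (w a) b c + c2 E (w b) c a + c2 E (w c) a b = 0 := by
  rw [GC_pr3]
  refine forall₃_congr fun a b c => ?_
  have e : GC_c3 E (∑ k, E.x k *ᵥ w k) a b c = ∑ k, GC_c3 E (E.x k *ᵥ w k) a b c := by
    simp only [GC_c3, mulVec_sum, map_sum]
  rw [e]
  simp only [GC_c3x, Finset.sum_sub_distrib, Finset.sum_ite_eq', Finset.mem_univ, if_true]
  rw [c2_anti E (w b) a c]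
  constructor <;> intro h <;> linear_combination h

end Vale.Agent.P267I.G
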