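import Vale.Agent.P267I.GC

/-! Coefficients of a pull back. Reduce to v = v1 A, v2 A by pr_lam, v1_c1, v2_c2, then lam_x, lam_vac. wedge_lam: expand (Matrix.det_succ_row_zero, Fin.sum_univ_four) with antisymmetry, ring. -/

open scoped Manifold ContDiff Topology ComplexConjugate
open Filter Matrix MeasureTheory

noncomputable section

namespace Vale.Agent.P267I.G

open Vale.Agent.P267F

variable (E : Ext)

theorem GC2_v1 (J : M4) (A : Fin 4 → ℂ) :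
    lam E J *ᵥ v1 E A = v1 E fun a => ∑ j, J j a * A j := by
  simp only [v1, mulVec_sum, mulVec_smul, mulVec_mulVec, lam_x, Finset.sum_smul]
  rw [Finset.sum_comm]
  refine Finset.sum_congr rfl fun j _ => ?_
  rw [← mulVec_mulVec, lam_vac, sum_mulVec, Finset.smul_sum]
  exact Finset.sum_congr rfl fun a _ => by rw [smul_mulVec, smul_smul, mul_comm]

theorem GC2_v2 (J : M4) (A : Fin 4 → Fin 4 → ℂ) :
    lam E J *ᵥ v2 E A = v2 E fun a b => ∑ j, ∑ k, J j a * J k b * A j k := by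
  have e : ∀ j k, lam E J *ᵥ (E.x j * E.x k) *ᵥ E.vac =
      ∑ a, ∑ b, (J j a * J k b) • (E.x a * E.x b) *ᵥ E.vac := fun j k => by
    rw [mulVec_mulVec, ← Matrix.mul_assoc, lam_x, Matrix.mul_assoc, lam_x, ← Matrix.mul_assoc,
      ← mulVec_mulVec, lam_vac, Finset.sum_mul_sum, sum_mulVec]
    refine Finset.sum_congr rfl fun a _ => ?_
    rw [sum_mulVec]
    exact Finset.sum_congr rfl fun b _ => by rw [smul_mul_smul_comm, smul_mulVec]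
  simp only [v2, mulVec_sum, mulVec_smul, e, Finset.sum_smul, Finset.smul_sum, smul_smul]
  refine (Finset.sum_congr rfl fun j _ => Finset.sum_comm).trans (Finset.sum_comm.trans
    (Finset.sum_congr rfl fun a _ => ?_))
  refine (Finset.sum_congr rfl fun j _ => Finset.sum_comm).trans (Finset.sum_comm.trans ?_)
  refine Finset.sum_congr rfl fun b _ => Finset.sum_congr rfl fun j _ =>
    Finset.sum_congr rfl fun k _ => ?_
  rw [mul_assoc, mul_comm (A j k)]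

theorem GC2_det (J : M4) : J.det =
    J 0 0 * (J 1 1 * J 2 2 * J 3 3 - J 1 1 * J 2 3 * J 3 2 - J 1 2 * J 2 1 * J 3 3 +
      J 1 2 * J 2 3 * J 3 1 + J 1 3 * J 2 1 * J 3 2 - J 1 3 * J 2 2 * J 3 1) -
    J 0 1 * (J 1 0 * J 2 2 * J 3 3 - J 1 0 * J 2 3 * J 3 2 - J 1 2 * J 2 0 * J 3 3 +
      J 1 2 * J 2 3 * J 3 0 + J 1 3 * J 2 0 * J 3 2 - J 1 3 * J 2 2 * J 3 0) +
    J 0 2 * (J 1 0 * J 2 1 * J 3 3 - J 1 0 * J 2 3 * J 3 1 - J 1 1 * J 2 0 * J 3 3 +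
      J 1 1 * J 2 3 * J 3 0 + J 1 3 * J 2 0 * J 3 1 - J 1 3 * J 2 1 * J 3 0) -
    J 0 3 * (J 1 0 * J 2 1 * J 3 2 - J 1 0 * J 2 2 * J 3 1 - J 1 1 * J 2 0 * J 3 2 +
      J 1 1 * J 2 2 * J 3 0 + J 1 2 * J 2 0 * J 3 1 - J 1 2 * J 2 1 * J 3 0) := by
  have e : ∀ j : Fin 4, (J.submatrix Fin.succ j.succAbove).det =
      J 1 (j.succAbove 0) * J 2 (j.succAbove 1) * J 3 (j.succAbove 2) -
      J 1 (j.succAbove 0) * J 2 (j.succAbove 2) * J 3 (j.succAbove 1) -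
      J 1 (j.succAbove 1) * J 2 (j.succAbove 0) * J 3 (j.succAbove 2) +
      J 1 (j.succAbove 1) * J 2 (j.succAbove 2) * J 3 (j.succAbove 0) +
      J 1 (j.succAbove 2) * J 2 (j.succAbove 0) * J 3 (j.succAbove 1) -
      J 1 (j.succAbove 2) * J 2 (j.succAbove 1) * J 3 (j.succAbove 0) := fun j => det_fin_three _
  rw [det_succ_row_zero, Fin.sum_univ_four, e, e, e, e]
  change (-1) ^ 0 * J 0 0 * (J 1 1 * J 2 2 * J 3 3 - J 1 1 * J 2 3 * J 3 2 - J 1 2 * J 2 1 * J 3 3 +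
      J 1 2 * J 2 3 * J 3 1 + J 1 3 * J 2 1 * J 3 2 - J 1 3 * J 2 2 * J 3 1) +
    (-1) ^ 1 * J 0 1 * (J 1 0 * J 2 2 * J 3 3 - J 1 0 * J 2 3 * J 3 2 - J 1 2 * J 2 0 * J 3 3 +
      J 1 2 * J 2 3 * J 3 0 + J 1 3 * J 2 0 * J 3 2 - J 1 3 * J 2 2 * J 3 0) +
    (-1) ^ 2 * J 0 2 * (J 1 0 * J 2 1 * J 3 3 - J 1 0 * J 2 3 * J 3 1 - J 1 1 * J 2 0 * J 3 3 +
      J 1 1 * J 2 3 * J 3 0 + J 1 3 * J 2 0 * J 3 1 - J 1 3 * J 2 1 * J 3 0) +
    (-1) ^ 3 * J 0 3 * (J 1 0 * J 2 1 * J 3 2 - J 1 0 * J 2 2 * J 3 1 - J 1 1 * J 2 0 * J 3 2 +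
      J 1 1 * J 2 2 * J 3 0 + J 1 2 * J 2 0 * J 3 1 - J 1 2 * J 2 1 * J 3 0) = _
  ring

theorem GC2_wedge (J : M4) {A B : Fin 4 → Fin 4 → ℂ} (hA : ∀ a b, A a b = -A b a)
    (hB : ∀ a b, B a b = -B b a) : wedge (fun a b => ∑ j, ∑ k, J j a * J k b * A j k)
      (fun a b => ∑ j, ∑ k, J j a * J k b * B j k) = J.det * wedge A B := by
  have dA : ∀ a, A a a = 0 := fun a => CharZero.eq_neg_self_iff.1 (hA a a)
  have dB : ∀ a, B a a = 0 := fun a => CharZero.eq_neg_self_iff.1 (hB a a)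
  simp only [wedge, Fin.sum_univ_four, dA, dB, hA 1 0, hA 2 0, hA 3 0, hA 2 1, hA 3 1, hA 3 2,
    hB 1 0, hB 2 0, hB 3 0, hB 2 1, hB 3 1, hB 3 2, GC2_det, mul_zero, zero_add, add_zero]
  ring

theorem c1_lam (J : M4) (v : Vec 16) (a : Fin 4) : c1 E (lam E J *ᵥ v) a = ∑ j, J j a * c1 E v j := by
  have e : c1 E (lam E J *ᵥ v) = c1 E (lam E J *ᵥ v1 E (c1 E v)) := by
    rw [← c1_v1 E (c1 E (lam E J *ᵥ v)), v1_c1, v1_c1, mulVec_mulVec, mulVec_mulVec, pr_lam]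
  rw [e, GC2_v1, c1_v1]

theorem c2_lam (J : M4) (v : Vec 16) (a b : Fin 4) :
    c2 E (lam E J *ᵥ v) a b = ∑ j, ∑ k, J j a * J k b * c2 E v j k := by
  have e : c2 E (lam E J *ᵥ v) = c2 E (lam E J *ᵥ v2 E (c2 E v)) := by
    rw [← c2_v2 E (c2_anti E (lam E J *ᵥ v)), v2_c2, v2_c2, mulVec_mulVec, mulVec_mulVec, pr_lam]
  rw [e, GC2_v2, c2_v2]
  intro a b
  rw [Finset.sum_comm, ← Finset.sum_neg_distrib]
  refine Finset.sum_congr rfl fun j _ => ?_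
  rw [← Finset.sum_neg_distrib]
  refine Finset.sum_congr rfl fun k _ => ?_
  rw [c2_anti E v k j]
  ring

theorem wedge_lam (J : M4) (v w : Vec 16) :
    wedge (c2 E (lam E J *ᵥ v)) (c2 E (lam E J *ᵥ w)) = J.det * wedge (c2 E v) (c2 E w) := by
  rw [funext₂ (c2_lam E J v), funext₂ (c2_lam E J w)]
  exact GC2_wedge J (c2_anti E v) (c2_anti E w)

end Vale.Agent.P267I.G
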