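import Vale.Agent.P267I.GA

/-! Flat calculus. dF_dF: symmetry of second derivatives (ContDiffAt.isSymmSndFDerivAt) and xx. dF_nat: with J y = jm (fderiv φ y), M k = Pre.dM (lam J) z (bs k), N = sum x k * M k: differentiate lam_x and lam_vac; d_k J j a is symmetric in k, a, so N x j = - X j N and N vac = 0, uniq0 gives N = 0; the other term is lam_x and the chain rule (v = sum co v j • bs j). -/

open scoped Manifold ContDiff Topology ComplexConjugate
open Filter Matrix MeasureTheory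

noncomputable section

namespace Vale.Agent.P267I.G

open Vale.Agent.P267F

variable (E : Ext)

/-- Multiplication by a matrix as a real linear map. -/
def GD_T (M : Mat 16) : Vec 16 →L[ℝ] Vec 16 :=
  LinearMap.toContinuousLinearMap ((Matrix.mulVecLin M).restrictScalars ℝ)

theorem GD_co (j : Fin 4) : ∃ c : C2 →L[ℝ] ℝ, ∀ v, co v j = c v := by
  fin_cases j
  · exact ⟨Complex.reCLM.comp (ContinuousLinearMap.proj 0), fun _ => rfl⟩
  · exact ⟨Complex.imCLM.comp (ContinuousLinearMap.proj 0), fun _ => rfl⟩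
  · exact ⟨Complex.reCLM.comp (ContinuousLinearMap.proj 1), fun _ => rfl⟩
  · exact ⟨Complex.imCLM.comp (ContinuousLinearMap.proj 1), fun _ => rfl⟩

theorem GD_const (M : Mat 16) {ψ : C2 → Vec 16} {z : C2} (h : DifferentiableAt ℝ ψ z) :
    HasFDerivAt (fun y => M *ᵥ ψ y) ((GD_T M).comp (fderiv ℝ ψ z)) z :=
  (GD_T M).hasFDerivAt.comp z h.hasFDerivAt

theorem GD_mv {M : C2 → Mat 16} {ψ : C2 → Vec 16} {z : C2}
    (hM : ∀ i j, DifferentiableAt ℝ (fun y => M y i j) z) (hψ : DifferentiableAt ℝ ψ z) :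
    DifferentiableAt ℝ (fun y => M y *ᵥ ψ y) z ∧ ∀ v, fderiv ℝ (fun y => M y *ᵥ ψ y) z v =
      Pre.dM M z v *ᵥ ψ z + M z *ᵥ fderiv ℝ ψ z v := by
  have hc : ∀ j, HasFDerivAt (fun y => ψ y j)
      ((ContinuousLinearMap.proj j).comp (fderiv ℝ ψ z)) z :=
    hasFDerivAt_pi'.1 hψ.hasFDerivAt
  have h1 : HasFDerivAt (fun y => M y *ᵥ ψ y) (ContinuousLinearMap.pi fun i => ∑ j,
      (M z i j • (ContinuousLinearMap.proj j).comp (fderiv ℝ ψ z) +
        ψ z j • fderiv ℝ (fun y => M y i j) z)) z :=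
    hasFDerivAt_pi.2 fun i => by
      simp only [Matrix.mulVec, dotProduct]
      exact HasFDerivAt.fun_sum fun j _ => (hM i j).hasFDerivAt.fun_mul (hc j)
  refine ⟨h1.differentiableAt, fun v => ?_⟩
  rw [h1.fderiv]
  funext i
  simp only [ContinuousLinearMap.pi_apply, ContinuousLinearMap.sum_apply,
    ContinuousLinearMap.add_apply, ContinuousLinearMap.smul_apply, ContinuousLinearMap.comp_apply,
    ContinuousLinearMap.proj_apply, smul_eq_mul, Pi.add_apply, Matrix.mulVec, dotProduct, Pre.dM,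
    Matrix.of_apply, ← Finset.sum_add_distrib]
  exact Finset.sum_congr rfl fun j _ => by ring

theorem GD_xx (k l : Fin 4) (v : Vec 16) : E.x k *ᵥ E.x l *ᵥ v = -(E.x l *ᵥ E.x k *ᵥ v) := by
  rw [eq_neg_iff_add_eq_zero, mulVec_mulVec, mulVec_mulVec, ← add_mulVec, E.xx, zero_mulVec]

theorem GD_anti (w : Fin 4 → Fin 4 → Vec 16) (hw : ∀ k l, w k l = w l k) :
    ∑ k, ∑ l, E.x k *ᵥ E.x l *ᵥ w k l = 0 := by
  have h1 : ∑ k, ∑ l, E.x k *ᵥ E.x l *ᵥ w k l = -∑ k, ∑ l, E.x k *ᵥ E.x l *ᵥ w k l := by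
    conv_lhs => rw [Finset.sum_comm]
    rw [← Finset.sum_neg_distrib]
    refine Finset.sum_congr rfl fun k _ => ?_
    rw [← Finset.sum_neg_distrib]
    exact Finset.sum_congr rfl fun l _ => by rw [GD_xx, hw]
  have h2 : (2 : ℂ) • ∑ k, ∑ l, E.x k *ᵥ E.x l *ᵥ w k l = 0 := by
    rw [two_smul]
    exact eq_neg_iff_add_eq_zero.1 h1
  exact (smul_eq_zero.1 h2).resolve_left two_ne_zero

theorem GD_symm {F : Type} [NormedAddCommGroup F] [NormedSpace ℝ F] {φ : C2 → F} {z : C2}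
    (h : ContDiffAt ℝ ∞ φ z) :
    HasFDerivAt (fderiv ℝ φ) (fderiv ℝ (fderiv ℝ φ) z) z ∧
      ∀ v w, fderiv ℝ (fderiv ℝ φ) z v w = fderiv ℝ (fderiv ℝ φ) z w v :=
  ⟨((h.fderiv_right (m := ∞) (by simp)).differentiableAt (by simp)).hasFDerivAt,
    h.isSymmSndFDerivAt (by
      rw [minSmoothness_of_isRCLikeNormedField]
      exact WithTop.coe_le_coe.2 (le_top : (2 : ℕ∞) ≤ ⊤))⟩

theorem GD_lamx (J : M4) (j : Fin 4) (w : Vec 16) :
    lam E J *ᵥ E.x j *ᵥ w = ∑ a, J j a • E.x a *ᵥ lam E J *ᵥ w := by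
  rw [mulVec_mulVec, lam_x, ← mulVec_mulVec, Matrix.sum_mulVec]
  exact Finset.sum_congr rfl fun a _ => smul_mulVec _ _ _

/-- The order zero term vanishes. -/
theorem GD_N {J : C2 → M4} {z : C2} (h : ∀ j a, ContDiffAt ℝ ∞ (fun y => J y j a) z)
    (hs : ∀ j a k, fderiv ℝ (fun y => J y j a) z (bs k) = fderiv ℝ (fun y => J y j k) z (bs a)) :
    ∑ k, E.x k * Pre.dM (fun y => lam E (J y)) z (bs k) = 0 := by
  have hL : ∀ i j, DifferentiableAt ℝ (fun y => lam E (J y) i j) z := fun i j =>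
    (lam_sm E h i j).differentiableAt (by simp)
  have hw : ∀ w : Vec 16, DifferentiableAt ℝ (fun y => lam E (J y) *ᵥ w) z ∧
      ∀ v, fderiv ℝ (fun y => lam E (J y) *ᵥ w) z v =
        Pre.dM (fun y => lam E (J y)) z v *ᵥ w := fun w => by
    obtain ⟨h1, h2⟩ := GD_mv (ψ := fun _ => w) hL (differentiableAt_const w)
    refine ⟨h1, fun v => ?_⟩
    rw [h2 v, fderiv_fun_const, Pi.zero_apply, ContinuousLinearMap.zero_apply, mulVec_zero,
      add_zero]
  have hx : ∀ j (w : Vec 16) v, Pre.dM (fun y => lam E (J y)) z v *ᵥ E.x j *ᵥ w =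
      ∑ a, (J z j a • E.x a *ᵥ Pre.dM (fun y => lam E (J y)) z v *ᵥ w +
        fderiv ℝ (fun y => J y j a) z v • E.x a *ᵥ lam E (J z) *ᵥ w) := fun j w v => by
    rw [← (hw _).2 v]
    simp only [GD_lamx]
    have h1 := HasFDerivAt.fun_sum (u := Finset.univ) fun a _ =>
      ((h j a).differentiableAt (by simp)).hasFDerivAt.fun_smul (GD_const (E.x a) (hw w).1)
    rw [h1.fderiv, ContinuousLinearMap.sum_apply]
    refine Finset.sum_congr rfl fun a _ => ?_
    rw [← (hw w).2 v]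
    rfl
  refine uniq0 E (fun j => -∑ a, J z j a • E.x a) (fun j => ?_) ?_
  · refine Matrix.ext_iff_mulVec.2 fun w => ?_
    have h1 := GD_anti E (fun k a => fderiv ℝ (fun y => J y j a) z (bs k) • lam E (J z) *ᵥ w)
      fun k a => by rw [hs]
    simp only [← mulVec_mulVec, Matrix.sum_mulVec, neg_mulVec, hx, Matrix.mulVec_sum, mulVec_add,
      Finset.sum_add_distrib, mulVec_smul, smul_mulVec, Finset.smul_sum] at h1 ⊢
    rw [h1, add_zero]
    refine Finset.sum_congr rfl fun k _ => ?_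
    rw [← Finset.sum_neg_distrib]
    exact Finset.sum_congr rfl fun a _ => by rw [GD_xx, smul_neg]
  · rw [Matrix.sum_mulVec]
    refine Finset.sum_eq_zero fun k _ => ?_
    rw [← mulVec_mulVec, ← (hw _).2]
    simp only [lam_vac]
    rw [fderiv_fun_const, Pi.zero_apply, ContinuousLinearMap.zero_apply, mulVec_zero]

theorem sum_co (v : C2) : ∑ j, co v j • bs j = v := by
  funext i
  fin_cases i <;> apply Complex.ext <;> simp [co, bs, Fin.sum_univ_four]

theorem jm_comp (L M : C2 →L[ℝ] C2) : jm (L.comp M) = jm L * jm M := by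
  ext j a
  obtain ⟨c, hc⟩ := GD_co j
  simp only [jm, Matrix.of_apply, Matrix.mul_apply, ContinuousLinearMap.comp_apply, hc]
  conv_lhs => rw [← sum_co (M (bs a))]
  simp only [map_sum, map_smul, smul_eq_mul, Complex.ofReal_sum, Complex.ofReal_mul]
  exact Finset.sum_congr rfl fun k _ => mul_comm _ _

theorem jm_id : jm (ContinuousLinearMap.id ℝ C2) = 1 := by
  ext j a
  fin_cases j <;> fin_cases a <;> simp [jm, co, bs]

theorem pr_dF (k : Fin 4) {ψ : C2 → Vec 16} {z : C2} (h : DifferentiableAt ℝ ψ z) :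
    E.pr k.succ *ᵥ dF E ψ z = dF E (fun y => E.pr k.castSucc *ᵥ ψ y) z := by
  unfold dF
  rw [Matrix.mulVec_sum, (GD_const _ h).fderiv]
  refine Finset.sum_congr rfl fun a _ => ?_
  rw [mulVec_mulVec, E.pr_x, ← mulVec_mulVec]
  rfl

theorem dF_sm {ψ : C2 → Vec 16} {z : C2} (h : ContDiffAt ℝ ∞ ψ z) : ContDiffAt ℝ ∞ (dF E ψ) z := by
  exact ContDiffAt.sum fun k _ => (GD_T (E.x k)).contDiff.contDiffAt.comp z
    ((h.fderiv_right (m := ∞) (by simp)).clm_apply contDiffAt_const)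

theorem dF_dF {ψ : C2 → Vec 16} {z : C2} (h : ContDiffAt ℝ ∞ ψ z) : dF E (dF E ψ) z = 0 := by
  obtain ⟨h1, h2⟩ := GD_symm h
  have h3 : HasFDerivAt (dF E ψ) (∑ l, ((GD_T (E.x l)).comp
      (ContinuousLinearMap.apply ℝ (Vec 16) (bs l))).comp (fderiv ℝ (fderiv ℝ ψ) z)) z :=
    HasFDerivAt.fun_sum fun l _ => ((GD_T (E.x l)).comp
      (ContinuousLinearMap.apply ℝ (Vec 16) (bs l))).hasFDerivAt.comp z h1
  refine Eq.trans ?_ (GD_anti E (fun k l => fderiv ℝ (fderiv ℝ ψ) z (bs k) (bs l))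
    fun k l => h2 _ _)
  unfold dF
  refine Finset.sum_congr rfl fun k _ => ?_
  rw [← Matrix.mulVec_sum]
  refine congrArg _ ?_
  rw [show (fderiv ℝ (fun y => ∑ k, E.x k *ᵥ fderiv ℝ ψ y (bs k)) z) = _ from h3.fderiv,
    ContinuousLinearMap.sum_apply]
  rfl

theorem dF_nat {φ : C2 → C2} {ψ : C2 → Vec 16} {z : C2} (hφ : ContDiffAt ℝ ∞ φ z)
    (hψ : DifferentiableAt ℝ ψ (φ z)) :
    dF E (fun y => lam E (jm (fderiv ℝ φ y)) *ᵥ ψ (φ y)) z =
      lam E (jm (fderiv ℝ φ z)) *ᵥ dF E ψ (φ z) := by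
  obtain ⟨h1, h2⟩ := GD_symm hφ
  have hd : DifferentiableAt ℝ φ z := hφ.differentiableAt (by simp)
  have hJ : ∀ j a, ContDiffAt ℝ ∞ (fun y => jm (fderiv ℝ φ y) j a) z := fun j a => by
    obtain ⟨c, hc⟩ := GD_co j
    simp only [jm, Matrix.of_apply, hc]
    exact (Complex.ofRealCLM.comp c).contDiff.contDiffAt.comp z
      ((hφ.fderiv_right (m := ∞) (by simp)).clm_apply contDiffAt_const)
  have hs : ∀ j a k, fderiv ℝ (fun y => jm (fderiv ℝ φ y) j a) z (bs k) =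
      fderiv ℝ (fun y => jm (fderiv ℝ φ y) j k) z (bs a) := fun j => by
    obtain ⟨c, hc⟩ := GD_co j
    have h3 : ∀ a k, fderiv ℝ (fun y => jm (fderiv ℝ φ y) j a) z (bs k) =
        (c (fderiv ℝ (fderiv ℝ φ) z (bs k) (bs a)) : ℂ) := fun a k => by
      simp only [jm, Matrix.of_apply, hc]
      have h4 : HasFDerivAt (fun y => ((c (fderiv ℝ φ y (bs a)) : ℝ) : ℂ)) _ z :=
        ((Complex.ofRealCLM.comp c).comp
          (ContinuousLinearMap.apply ℝ C2 (bs a))).hasFDerivAt.comp z h1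
      rw [h4.fderiv]
      rfl
    intro a k
    rw [h3, h3, h2]
  have hN := GD_N E hJ hs
  have h5 := (GD_mv (M := fun y => lam E (jm (fderiv ℝ φ y))) (ψ := fun y => ψ (φ y))
    (fun i j => (lam_sm E hJ i j).differentiableAt (by simp)) (hψ.comp z hd)).2
  have h6 : ∀ k, fderiv ℝ (fun y => ψ (φ y)) z (bs k) =
      ∑ j, jm (fderiv ℝ φ z) j k • fderiv ℝ ψ (φ z) (bs j) := fun k => by
    rw [fderiv_fun_comp z hψ hd, ContinuousLinearMap.comp_apply]
    conv_lhs => rw [← sum_co (fderiv ℝ φ z (bs k))]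
    rw [map_sum]
    refine Finset.sum_congr rfl fun j _ => ?_
    rw [map_smul]
    exact (Complex.coe_smul _ _).symm
  have h7 := congrArg (· *ᵥ ψ (φ z)) hN
  simp only [Matrix.sum_mulVec, ← mulVec_mulVec, zero_mulVec] at h7
  unfold dF
  simp only [h5, h6, mulVec_add, Finset.sum_add_distrib, h7, zero_add, Matrix.mulVec_sum,
    mulVec_smul, GD_lamx]
  exact Finset.sum_comm

end Vale.Agent.P267I.G
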