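import Vale.Agent.P267I.Defs
import Vale.Agent.P267I.Abs

open scoped Manifold ContDiff Topology InnerProductSpace
open Filter Matrix MeasureTheory Set

noncomputable section

namespace Vale.Agent.P267I

open Vale.Agent.P267F

variable {N : ℕ}
/-- The squared Hermitian norm. -/
def nsq (v : Vec N) : ℝ := ∑ i, ‖v i‖ ^ 2

/-- The local operator. -/
def Pop (c : Fin 4 → Mat N) (e : Fin 4 → C2 → C2) (B : C2 → Mat N) (f : C2 → Vec N) (z : C2) :
    Vec N :=
  ∑ a, c a *ᵥ fderiv ℝ f z (e a z) + B z *ᵥ f z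

/-- Test functions supported in `U`. -/
def TstV (U : Set C2) (φ : C2 → Vec N) : Prop :=
  ContDiff ℝ ∞ φ ∧ HasCompactSupport φ ∧ tsupport φ ⊆ U

/-- Coordinate derivatives. -/
def dk (k : Fin 4) (f : C2 → Vec N) (z : C2) : Vec N := fderiv ℝ f z (bs k)

/-- The inverse metric in coordinates. -/
def gm (e : Fin 4 → C2 → C2) (k l : Fin 4) (z : C2) : ℝ := ∑ a, co (e a z) k * co (e a z) l

/-- Smooth local data. -/
structure LocOp (U : Set C2) (e : Fin 4 → C2 → C2) (B : C2 → Mat N) : Prop where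
  op : IsOpen U
  e_sm : ∀ a, ContDiffOn ℝ ∞ (e a) U
  e_ne : ∀ z ∈ U, (fdet fun a => e a z) ≠ 0
  B_sm : ∀ i j, ContDiffOn ℝ ∞ (fun z => B z i j) U

variable {X : Type} [TopologicalSpace X] [ChartedSpace C2 X] [MeasurableSpace X] (S : Pre X N)

theorem Pre.Dloc_eq (B : X → C2 → Mat N) (p : X) : S.Dloc B p = Pop S.c (S.e p) (B p) := rfl

/-- The space of smooth sections. -/
def Pre.SmS : Submodule ℂ (X → Vec N) where
  carrier := {s | S.Sm s}
  add_mem' := fun {s t} hs ht p => by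
    have h : S.loc p (s + t) = fun z => S.loc p s z + S.loc p t z := by
      funext z; simp [Pre.loc, Matrix.mulVec_add]
    rw [h]; exact (hs p).add (ht p)
  zero_mem' := fun p => by
    have h : S.loc p 0 = fun _ => 0 := by funext z; simp [Pre.loc]
    rw [h]; exact contDiffOn_const
  smul_mem' := fun a s hs p => by
    have h : S.loc p (a • s) = fun z => a • S.loc p s z := by
      funext z; simp [Pre.loc, Matrix.mulVec_smul]
    rw [h]; exact (hs p).const_smul a

open Classical in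
/-- The section given by a function in the chart at `p`. -/
def Pre.ext (p : X) (φ : C2 → Vec N) (x : X) : Vec N :=
  if x ∈ S.W p then (S.U p x)ᴴ *ᵥ φ (chartAt C2 p x) else 0

/-- The squared `L²` norm. -/
def Pre.n2 (s : X → Vec N) : ℝ := ∫ x, nsq (s x) ∂S.μ

/-- Sections which are locally integrable in the charts. -/
def Pre.LI (r : X → Vec N) : Prop := ∀ p, LocallyIntegrableOn (S.loc p r) (S.V p)

/-- The Hilbert space. -/
abbrev Pre.L2 := Lp (EuclideanSpace ℂ (Fin N)) 2 S.μ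

/-- `j` realises smooth sections in `L²`. -/
structure Pre.Mod (j : S.SmS →ₗ[ℂ] S.L2) : Prop where
  inj : Function.Injective j
  ip : ∀ s t, ⟪j s, j t⟫_ℂ = S.ip s t
  n2 : ∀ s, ‖j s‖ ^ 2 = S.n2 s
  rep : ∀ u : S.L2, ∃ r, S.LI r ∧ (∀ s, ⟪u, j s⟫_ℂ = S.ip r s) ∧
    ∀ s : S.SmS, (∀ᵐ x ∂S.μ, r x = s.1 x) → u = j s

end Vale.Agent.P267I
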