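import Vale.Agent.P267I.GD

/-! Charts. tr_sm: contDiffOn of chart changes of the analytic manifold hX.1 (contMDiffOn_chart, contDiffWithinAt_ext_coord_change), restrict scalars to the reals. loc_chg: chain rule near z and jm_comp, lam_mul. loc_dN: loc_chg with q = the point itself and dF_nat. -/

open scoped Manifold ContDiff Topology ComplexConjugate
open Filter Matrix MeasureTheory

noncomputable section

namespace Vale.Agent.P267I.G

open Vale.Agent.P267F

variable (E : Ext)
variable {X : Type} [TopologicalSpace X] [ChartedSpace C2 X]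

theorem tr_sm (hX : IsSurface X) {p q x : X} (hp : x ∈ (chartAt C2 p).source)
    (hq : x ∈ (chartAt C2 q).source) :
    ContDiffAt ℝ ∞ (chartAt C2 q ∘ (chartAt C2 p).symm) (chartAt C2 p x) := by
  have := hX.1
  have h1 : ContMDiffAt 𝓘(ℂ, C2) 𝓘(ℂ, C2) ω (chartAt C2 p).symm (chartAt C2 p x) :=
    contMDiffOn_chart_symm.contMDiffAt
      ((chartAt C2 p).open_target.mem_nhds ((chartAt C2 p).map_source hp))
  have h2 : ContMDiffAt 𝓘(ℂ, C2) 𝓘(ℂ, C2) ω (chartAt C2 q)
      ((chartAt C2 p).symm (chartAt C2 p x)) := by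
    rw [(chartAt C2 p).left_inv hp]
    exact contMDiffOn_chart.contMDiffAt ((chartAt C2 q).open_source.mem_nhds hq)
  exact ((h2.comp _ h1).contDiffAt.restrict_scalars ℝ).of_le le_top

theorem GE_id {p x : X} (hp : x ∈ (chartAt C2 p).source) :
    jm (fderiv ℝ (chartAt C2 p ∘ (chartAt C2 p).symm) (chartAt C2 p x)) = 1 := by
  have h : chartAt C2 p ∘ (chartAt C2 p).symm =ᶠ[𝓝 (chartAt C2 p x)] id :=
    (chartAt C2 p).eventually_right_inverse' hp
  rw [h.fderiv_eq, fderiv_id, jm_id]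

theorem GE_chain (hX : IsSurface X) {p q r x : X} (hp : x ∈ (chartAt C2 p).source)
    (hq : x ∈ (chartAt C2 q).source) (hr : x ∈ (chartAt C2 r).source) :
    jm (fderiv ℝ (chartAt C2 r ∘ (chartAt C2 p).symm) (chartAt C2 p x)) =
      jm (fderiv ℝ (chartAt C2 r ∘ (chartAt C2 q).symm) (chartAt C2 q x)) *
        jm (fderiv ℝ (chartAt C2 q ∘ (chartAt C2 p).symm) (chartAt C2 p x)) := by
  have e : (chartAt C2 q ∘ (chartAt C2 p).symm) (chartAt C2 p x) = chartAt C2 q x :=
    congrArg (chartAt C2 q) ((chartAt C2 p).left_inv hp)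
  have h : chartAt C2 r ∘ (chartAt C2 p).symm =ᶠ[𝓝 (chartAt C2 p x)]
      (chartAt C2 r ∘ (chartAt C2 q).symm) ∘ (chartAt C2 q ∘ (chartAt C2 p).symm) := by
    filter_upwards [(chartAt C2 p).image_mem_nhds hp (((chartAt C2 p).open_source.inter
      (chartAt C2 q).open_source).mem_nhds ⟨hp, hq⟩)]
    rintro _ ⟨y, hy, rfl⟩
    simp only [Function.comp_apply, (chartAt C2 p).left_inv hy.1, (chartAt C2 q).left_inv hy.2]
  rw [h.fderiv_eq, fderiv_comp _ (e ▸ (tr_sm hX hq hr).differentiableAt (by simp))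
    ((tr_sm hX hp hq).differentiableAt (by simp)), jm_comp, e]

theorem GE_lam {φ : C2 → C2} {z : C2} (hφ : ContDiffAt ℝ ∞ φ z) (i j : Fin 16) :
    ContDiffAt ℝ ∞ (fun y => lam E (jm (fderiv ℝ φ y)) i j) z := by
  refine lam_sm E (fun k a => ?_) i j
  have h : ContDiffAt ℝ ∞ (fun y => fderiv ℝ φ y (bs a)) z :=
    (hφ.fderiv_right (m := ∞) (by simp)).clm_apply contDiffAt_const
  have h0 := contDiffAt_pi.1 h 0
  have h1 := contDiffAt_pi.1 h 1
  refine Complex.ofRealCLM.contDiff.contDiffAt.comp z (f := fun y => co (fderiv ℝ φ y (bs a)) k) ?_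
  fin_cases k
  exacts [Complex.reCLM.contDiff.contDiffAt.comp z h0, Complex.imCLM.contDiff.contDiffAt.comp z h0,
    Complex.reCLM.contDiff.contDiffAt.comp z h1, Complex.imCLM.contDiff.contDiffAt.comp z h1]

theorem jac_self (x : X) : jac x x = 1 := by
  exact GE_id (mem_chart_source C2 x)

theorem jac_unit (hX : IsSurface X) {p x : X} (hp : x ∈ (chartAt C2 p).source) : IsUnit (jac p x).det := by
  exact isUnit_det_of_left_inverse
    ((GE_chain hX hp (mem_chart_source C2 x) hp).symm.trans (GE_id hp))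

theorem loc_self (F : X → Vec 16) (x : X) : locF E F x (chartAt C2 x x) = F x := by
  rw [locF, (chartAt C2 x).left_inv (mem_chart_source C2 x), jac_self, lam_one, one_mulVec]

theorem loc_chg (hX : IsSurface X) (F : X → Vec 16) {p q x : X} (hp : x ∈ (chartAt C2 p).source)
    (hq : x ∈ (chartAt C2 q).source) : locF E F p =ᶠ[𝓝 (chartAt C2 p x)] fun y =>
      lam E (jm (fderiv ℝ (chartAt C2 q ∘ (chartAt C2 p).symm) y)) *ᵥ
        locF E F q ((chartAt C2 q ∘ (chartAt C2 p).symm) y) := by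
  filter_upwards [(chartAt C2 p).image_mem_nhds hp (((chartAt C2 p).open_source.inter
    (chartAt C2 q).open_source).mem_nhds ⟨hp, hq⟩)]
  rintro _ ⟨y, hy, rfl⟩
  simp only [locF, Function.comp_apply, (chartAt C2 p).left_inv hy.1, (chartAt C2 q).left_inv hy.2,
    mulVec_mulVec, ← lam_mul, jac]
  rw [← GE_chain hX hy.1 hy.2 (mem_chart_source C2 y)]

theorem SmF.at {E : Ext} (hX : IsSurface X) {F : X → Vec 16} (h : SmF E F) {p x : X}
    (hp : x ∈ (chartAt C2 p).source) : ContDiffAt ℝ ∞ (locF E F p) (chartAt C2 p x) := by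
  have hq := mem_chart_source C2 x
  have e : (chartAt C2 x ∘ (chartAt C2 p).symm) (chartAt C2 p x) = chartAt C2 x x :=
    congrArg (chartAt C2 x) ((chartAt C2 p).left_inv hp)
  have h1 := (e ▸ (h x).self_of_nhds).comp _ (tr_sm hX hp hq)
  refine ContDiffAt.congr_of_eventuallyEq ?_ (loc_chg E hX F hp hq)
  exact contDiffAt_pi.2 fun i => ContDiffAt.sum (s := Finset.univ) fun j _ =>
    (GE_lam E (tr_sm hX hp hq) i j).mul (contDiffAt_pi.1 h1 j)

theorem loc_dN (hX : IsSurface X) {F : X → Vec 16} {p x : X} (hp : x ∈ (chartAt C2 p).source)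
    (h : DifferentiableAt ℝ (locF E F p) (chartAt C2 p x)) :
    lam E (jac p x) *ᵥ dN E F x = dF E (locF E F p) (chartAt C2 p x) := by
  have hq := mem_chart_source C2 x
  have e : (chartAt C2 x ∘ (chartAt C2 p).symm) (chartAt C2 p x) = chartAt C2 x x :=
    congrArg (chartAt C2 x) ((chartAt C2 p).left_inv hp)
  have e' : (chartAt C2 p ∘ (chartAt C2 x).symm) (chartAt C2 x x) = chartAt C2 p x :=
    congrArg (chartAt C2 p) ((chartAt C2 x).left_inv hq)
  have h1 := (e' ▸ h).comp _ ((tr_sm hX hq hp).differentiableAt (by simp))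
  have h2 : DifferentiableAt ℝ (locF E F x) (chartAt C2 x x) := by
    refine DifferentiableAt.congr_of_eventuallyEq ?_ (loc_chg E hX F hq hp)
    exact differentiableAt_pi.2 fun i => DifferentiableAt.fun_sum (u := Finset.univ) fun j _ =>
      ((GE_lam E (tr_sm hX hq hp) i j).differentiableAt (by simp)).mul (differentiableAt_pi.1 h1 j)
  have h3 := dF_nat E (tr_sm hX hp hq) (e ▸ h2)
  rw [e] at h3
  rw [dN, jac, ← h3, dF, dF, (loc_chg E hX F hp hq).fderiv_eq]

end Vale.Agent.P267I.G
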