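import Vale.Agent.P267I.GE

/-! Smooth forms are a complex. smF_dN, dN_dN: by loc_dN, locF (dN F) p = dF (locF F p) near the chart point. -/

open scoped Manifold ContDiff Topology ComplexConjugate
open Filter Matrix MeasureTheory

noncomputable section

namespace Vale.Agent.P267I.G

open Vale.Agent.P267F

variable (E : Ext)
variable {X : Type} [TopologicalSpace X] [ChartedSpace C2 X]

theorem ge2_add (F G : X → Vec 16) (p : X) :
    locF E (F + G) p = fun z => locF E F p z + locF E G p z := by
  funext z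
  simp only [locF, Pi.add_apply, mulVec_add]

theorem ge2_smul (c : ℂ) (F : X → Vec 16) (p : X) :
    locF E (c • F) p = fun z => c • locF E F p z := by
  funext z
  simp only [locF, Pi.smul_apply, mulVec_smul]

theorem ge2_pr (k : Fin 5) (F : X → Vec 16) (p : X) :
    locF E (fun x => E.pr k *ᵥ F x) p = fun z => E.pr k *ᵥ locF E F p z := by
  funext z
  simp only [locF, mulVec_mulVec, pr_lam]

theorem ge2_mvs {M : Mat 16} (h : ∀ i j, conj (M i j) = M i j) (v : Vec 16) :
    M *ᵥ star v = star (M *ᵥ v) := by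
  funext i
  simp only [mulVec, dotProduct, Pi.star_apply, star_sum, star_mul', RCLike.star_def, h]

theorem ge2_star (F : X → Vec 16) (p : X) :
    locF E (star F) p = fun z => star (locF E F p z) := by
  funext z
  refine ge2_mvs (lam_real E fun j a => ?_) _
  simp only [jac, jm, Matrix.of_apply, Complex.conj_ofReal]

theorem ge2_zero (p : X) : locF E (0 : X → Vec 16) p = fun _ => 0 := by
  funext z
  simp only [locF, Pi.zero_apply, mulVec_zero]

theorem ge2_sm0 : SmF E (0 : X → Vec 16) := fun p => by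
  rw [ge2_zero]
  exact Eventually.of_forall fun _ => contDiffAt_const

theorem ge2_d0 : dN E (0 : X → Vec 16) = 0 := by
  funext q
  simp [dN, dF, ge2_zero]

theorem ge2_diff {F : X → Vec 16} (h : SmF E F) (p : X) :
    DifferentiableAt ℝ (locF E F p) (chartAt C2 p p) :=
  (h p).self_of_nhds.differentiableAt (by simp)

theorem ge2_near (hX : IsSurface X) {F : X → Vec 16} (h : SmF E F) {p : X} {z : C2}
    (hz : z ∈ (chartAt C2 p).target) :
    ContDiffAt ℝ ∞ (locF E F p) z ∧ locF E (dN E F) p =ᶠ[𝓝 z] dF E (locF E F p) := by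
  have k : ∀ y ∈ (chartAt C2 p).target, ContDiffAt ℝ ∞ (locF E F p) y := fun y hy => by
    have := h.at hX ((chartAt C2 p).map_target hy)
    rwa [(chartAt C2 p).right_inv hy] at this
  refine ⟨k z hz, ?_⟩
  filter_upwards [(chartAt C2 p).open_target.mem_nhds hz] with y hy
  have := loc_dN E hX (F := F) ((chartAt C2 p).map_target hy)
    (by rw [(chartAt C2 p).right_inv hy]; exact (k y hy).differentiableAt (by simp))
  rw [(chartAt C2 p).right_inv hy] at this
  exact this

theorem smF_add {F G : X → Vec 16} (h : SmF E F) (h' : SmF E G) : SmF E (F + G) := by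
  intro p
  rw [ge2_add]
  filter_upwards [h p, h' p] with z h1 h2 using h1.add h2

theorem smF_smul (c : ℂ) {F : X → Vec 16} (h : SmF E F) : SmF E (c • F) := by
  intro p
  rw [ge2_smul]
  filter_upwards [h p] with z h1 using h1.const_smul c

theorem smF_pr (k : Fin 5) {F : X → Vec 16} (h : SmF E F) : SmF E fun x => E.pr k *ᵥ F x := by
  intro p
  rw [ge2_pr]
  filter_upwards [h p] with z h1
  exact (LinearMap.toContinuousLinearMap
    ((mulVecLin (E.pr k)).restrictScalars ℝ)).contDiff.contDiffAt.comp z h1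

theorem smF_star {F : X → Vec 16} (h : SmF E F) : SmF E (star F) := by
  intro p
  rw [ge2_star]
  filter_upwards [h p] with z h1
  exact (starL' ℝ : Vec 16 ≃L[ℝ] Vec 16).contDiff.contDiffAt.comp z h1

theorem dN_add {F G : X → Vec 16} (h : SmF E F) (h' : SmF E G) : dN E (F + G) = dN E F + dN E G := by
  funext q
  simp only [dN, dF, ge2_add, Pi.add_apply, fderiv_fun_add (ge2_diff E h q) (ge2_diff E h' q),
    _root_.add_apply, mulVec_add, Finset.sum_add_distrib]

theorem dN_smul (c : ℂ) {F : X → Vec 16} (h : SmF E F) : dN E (c • F) = c • dN E F := by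
  funext q
  simp only [dN, dF, ge2_smul, Pi.smul_apply, fderiv_fun_const_smul (ge2_diff E h q) c,
    _root_.smul_apply, mulVec_smul, Finset.smul_sum]

theorem dN_star {F : X → Vec 16} (h : SmF E F) : dN E (star F) = star (dN E F) := by
  have _ := h
  funext q
  show dF E (locF E (star F) q) _ = star (dF E (locF E F q) _)
  rw [ge2_star, dF, dF, star_sum, fderiv_star]
  refine Finset.sum_congr rfl fun k _ => ?_
  exact ge2_mvs (E.x_real k) _

theorem pr_dN (k : Fin 4) {F : X → Vec 16} (h : SmF E F) (x : X) :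
    E.pr k.succ *ᵥ dN E F x = dN E (fun y => E.pr k.castSucc *ᵥ F y) x := by
  rw [dN, dN, ge2_pr, pr_dF E k (ge2_diff E h x)]

theorem pr0_dN (F : X → Vec 16) (x : X) : E.pr 0 *ᵥ dN E F x = 0 := by
  simp only [dN, dF, mulVec_sum, mulVec_mulVec, E.pr_x0, zero_mulVec, Finset.sum_const_zero]

theorem smF_dN (hX : IsSurface X) {F : X → Vec 16} (h : SmF E F) : SmF E (dN E F) := by
  intro p
  filter_upwards [(chartAt C2 p).open_target.mem_nhds (mem_chart_target C2 p)] with z hz
  obtain ⟨h1, h2⟩ := ge2_near E hX h hz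
  exact (dF_sm E h1).congr_of_eventuallyEq h2

theorem dN_dN (hX : IsSurface X) {F : X → Vec 16} (h : SmF E F) : dN E (dN E F) = 0 := by
  funext q
  obtain ⟨h1, h2⟩ := ge2_near E hX h (mem_chart_target C2 q)
  have h3 := dF_dF E h1
  rw [dF, ← h2.fderiv_eq] at h3
  exact h3

theorem mem_ZO {F : X → Vec 16} :
    F ∈ ZO E X ↔ SmF E F ∧ dN E F = 0 ∧ ∀ x, E.pr 2 *ᵥ F x = F x := by
  refine ⟨fun hF => ?_, fun hF => Submodule.subset_span hF⟩
  induction hF using Submodule.span_induction with
  | mem _ h => exact h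
  | zero => exact ⟨ge2_sm0 E, ge2_d0 E, fun _ => mulVec_zero _⟩
  | add F G _ _ h h' =>
    refine ⟨smF_add E h.1 h'.1, ?_, fun x => ?_⟩
    · rw [dN_add E h.1 h'.1, h.2.1, h'.2.1, add_zero]
    · rw [Pi.add_apply, mulVec_add, h.2.2, h'.2.2]
  | smul c F _ h =>
    refine ⟨smF_smul E c h.1, ?_, fun x => ?_⟩
    · rw [dN_smul E c h.1, h.2.1, smul_zero]
    · rw [Pi.smul_apply, mulVec_smul, h.2.2]

theorem mem_BO {F : X → Vec 16} : F ∈ BO E X ↔ ∃ G, SmF E G ∧ F = dN E fun x => E.pr 1 *ᵥ G x := by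
  refine ⟨fun hF => ?_, fun hF => Submodule.subset_span hF⟩
  induction hF using Submodule.span_induction with
  | mem _ h => exact h
  | zero =>
    refine ⟨0, ge2_sm0 E, ?_⟩
    simp only [Pi.zero_apply, mulVec_zero]
    exact (ge2_d0 E).symm
  | add F F' _ _ h h' =>
    obtain ⟨G, h1, rfl⟩ := h
    obtain ⟨G', h2, rfl⟩ := h'
    refine ⟨G + G', smF_add E h1 h2, ?_⟩
    rw [← dN_add E (smF_pr E 1 h1) (smF_pr E 1 h2)]
    congr 1
    funext x
    simp only [Pi.add_apply, mulVec_add]
  | smul c F _ h =>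
    obtain ⟨G, h1, rfl⟩ := h
    refine ⟨c • G, smF_smul E c h1, ?_⟩
    rw [← dN_smul E c (smF_pr E 1 h1)]
    congr 1
    funext x
    simp only [Pi.smul_apply, mulVec_smul]

end Vale.Agent.P267I.G
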