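import Vale.Agent.P267I.GInt

open scoped Manifold ContDiff Topology InnerProductSpace
open Filter Matrix MeasureTheory Set

noncomputable section

namespace Vale.Agent.P267I

open Vale.Agent.P267F

variable {X : Type} [TopologicalSpace X] [ChartedSpace C2 X] [MeasurableSpace X] [BorelSpace X]
  {N : ℕ} {S : Pre X N} {B : X → C2 → Mat N}

theorem gext_mv {M : C2 → Mat N} {v : C2 → Vec N} {z : C2}
    (hM : ∀ i j, ContDiffAt ℝ ∞ (fun z => M z i j) z) (hv : ContDiffAt ℝ ∞ v z) :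
    ContDiffAt ℝ ∞ (fun z => M z *ᵥ v z) z :=
  contDiffAt_pi.2 fun i =>
    ContDiffAt.sum (s := Finset.univ) fun j _ => (hM i j).mul (contDiffAt_pi.1 hv j)

omit [MeasurableSpace X] [BorelSpace X] in
theorem gext_chg (hX : IsSurface X) {p q x : X} (hp : x ∈ (chartAt C2 p).source)
    (hq : x ∈ (chartAt C2 q).source) :
    ContDiffAt ℝ ∞ (fun z => chartAt C2 p ((chartAt C2 q).symm z)) (chartAt C2 q x) := by
  have := hX.1
  have h1 : ContMDiffAt 𝓘(ℂ, C2) 𝓘(ℂ, C2) ω (chartAt C2 q).symm (chartAt C2 q x) :=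
    contMDiffOn_chart_symm.contMDiffAt
      ((chartAt C2 q).open_target.mem_nhds ((chartAt C2 q).map_source hq))
  have h2 : ContMDiffAt 𝓘(ℂ, C2) 𝓘(ℂ, C2) ω (chartAt C2 p)
      ((chartAt C2 q).symm (chartAt C2 q x)) := by
    rw [(chartAt C2 q).left_inv hq]
    exact contMDiffOn_chart.contMDiffAt ((chartAt C2 p).open_source.mem_nhds hp)
  exact ((contMDiffAt_iff_contDiffAt.1 (h2.comp _ h1)).restrict_scalars ℝ).of_le le_top

omit [BorelSpace X] in
theorem gext_congr {p : X} {f g : C2 → Vec N} {z : C2} (h : f =ᶠ[𝓝 z] g) :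
    S.Dloc B p f z = S.Dloc B p g z := by
  simp only [Pre.Dloc, h.fderiv_eq, h.eq_of_nhds]

omit [BorelSpace X] in
theorem gext_zero (hX : IsSurface X) {p q x : X} {φ : C2 → Vec N} (hφ : TstV (S.V p) φ)
    (hp : x ∉ S.W p) (hq : x ∈ (chartAt C2 q).source) :
    S.loc q (S.ext p φ) =ᶠ[𝓝 (chartAt C2 q x)] fun _ => 0 := by
  have := hX.2.1
  have h1 : IsClosed ((chartAt C2 p).symm '' tsupport φ) :=
    (hφ.2.1.isCompact.image_of_continuousOn ((chartAt C2 p).continuousOn_symm.mono fun z hz => by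
      obtain ⟨y, hy, rfl⟩ := hφ.2.2 hz
      exact (chartAt C2 p).map_source (S.W_sub p hy))).isClosed
  have h2 : x ∉ (chartAt C2 p).symm '' tsupport φ := by
    rintro ⟨z, hz, rfl⟩
    obtain ⟨y, hy, rfl⟩ := hφ.2.2 hz
    exact hp (by rwa [(chartAt C2 p).left_inv (S.W_sub p hy)])
  filter_upwards [((chartAt C2 q).tendsto_symm hq).eventually (h1.isOpen_compl.mem_nhds h2)]
    with z hz
  have h3 : S.ext p φ ((chartAt C2 q).symm z) = 0 := by
    unfold Pre.ext
    split_ifs with k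
    · rw [image_eq_zero_of_notMem_tsupport fun a =>
        hz ⟨_, a, (chartAt C2 p).left_inv (S.W_sub p k)⟩, Matrix.mulVec_zero]
    · rfl
  rw [Pre.loc, h3, Matrix.mulVec_zero]

theorem pop_tst {c : Fin 4 → Mat N} {U : Set C2} {e : Fin 4 → C2 → C2} {B : C2 → Mat N}
    (h : LocOp U e B) {φ : C2 → Vec N} (hφ : TstV U φ) :
    TstV U (Pop c e B φ) ∧ tsupport (Pop c e B φ) ⊆ tsupport φ := by
  have h1 : tsupport (Pop c e B φ) ⊆ tsupport φ := by
    refine closure_minimal (fun z hz => ?_) (isClosed_tsupport φ)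
    by_contra k
    have k1 : fderiv ℝ φ z = 0 := by
      by_contra k1
      exact k (support_fderiv_subset ℝ k1)
    exact hz (by simp [Pop, k1, image_eq_zero_of_notMem_tsupport k])
  refine ⟨⟨contDiff_iff_contDiffAt.2 fun z => ?_,
    hφ.2.1.isCompact.of_isClosed_subset (isClosed_tsupport _) h1, h1.trans hφ.2.2⟩, h1⟩
  by_cases hz : z ∈ U
  · have k := h.op.mem_nhds hz
    have k1 : ∀ a, ContDiffAt ℝ ∞ (fun z => c a *ᵥ fderiv ℝ φ z (e a z)) z := fun a =>
      gext_mv (M := fun _ => c a) (v := fun z => fderiv ℝ φ z (e a z)) (fun _ _ => contDiffAt_const)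
        ((hφ.1.fderiv_right (m := ∞) le_rfl).contDiffAt.clm_apply ((h.e_sm a).contDiffAt k))
    exact (ContDiffAt.sum (s := Finset.univ) fun a _ => k1 a).add
      (gext_mv (fun i j => (h.B_sm i j).contDiffAt k) hφ.1.contDiffAt)
  · exact contDiffAt_const.congr_of_eventuallyEq
      (notMem_tsupport_iff_eventuallyEq.1 fun k => hz (hφ.2.2 (h1 k)))

theorem loc_ext (S : Pre X N) (p : X) (φ : C2 → Vec N) :
    ∀ z ∈ S.V p, S.loc p (S.ext p φ) z = φ z := by
  rintro _ ⟨x, hx, rfl⟩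
  rw [loc_chart S hx, Pre.ext, if_pos hx, Matrix.mulVec_mulVec,
    mul_eq_one_comm.1 (S.U_unit p x), Matrix.one_mulVec]

theorem ext_sm (hX : IsSurface X) {p : X} {φ : C2 → Vec N} (hφ : TstV (S.V p) φ) :
    S.Sm (S.ext p φ) := by
  rintro q _ ⟨x, hx, rfl⟩
  refine ContDiffAt.contDiffWithinAt ?_
  have hq := S.W_sub q hx
  by_cases hp : x ∈ S.W p
  · have h1 := gext_mv (fun i j => (S.U_sm q p i j).contDiffAt ((chartAt C2 q).image_mem_nhds hq
      (((S.W_open q).inter (S.W_open p)).mem_nhds ⟨hx, hp⟩)))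
      (hφ.1.contDiffAt.comp _ (gext_chg hX (S.W_sub p hp) hq))
    refine h1.congr_of_eventuallyEq ?_
    filter_upwards [((chartAt C2 q).tendsto_symm hq).eventually ((S.W_open p).mem_nhds hp)]
      with z hz
    rw [Pre.loc, Pre.ext, if_pos (show _ ∈ S.W p from hz), Matrix.mulVec_mulVec]
    rfl
  · exact contDiffAt_const.congr_of_eventuallyEq (gext_zero hX hφ hp hq)

theorem D_ext (hX : IsSurface X) (hB : S.IsOp B) {p : X} {φ : C2 → Vec N}
    (hφ : TstV (S.V p) φ) : S.D B (S.ext p φ) = S.ext p (S.Dloc B p φ) := by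
  funext x
  by_cases hp : x ∈ S.W p
  · have h1 := loc_D hB (ext_sm hX hφ) p _ ⟨x, hp, rfl⟩
    have h2 : S.loc p (S.ext p φ) =ᶠ[𝓝 (chartAt C2 p x)] φ :=
      Filter.eventually_of_mem ((V_open S p).mem_nhds ⟨x, hp, rfl⟩) (loc_ext S p φ)
    rw [loc_chart S hp, gext_congr h2] at h1
    rw [Pre.ext, if_pos hp, ← h1, Matrix.mulVec_mulVec, S.U_unit, Matrix.one_mulVec]
  · rw [Pre.ext, if_neg hp, Pre.D, gext_congr (gext_zero hX hφ hp (mem_chart_source C2 x))]
    simp [Pre.Dloc]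

theorem ip_ext (r : X → Vec N) {p : X} {φ : C2 → Vec N} (hφ : tsupport φ ⊆ S.V p) :
    S.ip r (S.ext p φ) = ∫ z, ((S.rho p z : ℂ) • star (S.loc p r z)) ⬝ᵥ φ z := by
  rw [Pre.ip, ← setIntegral_eq_integral_of_forall_compl_eq_zero (s := S.W p)
    (fun x hx => by rw [Pre.ext, if_neg hx, dotProduct_zero]), chart_int,
    ← setIntegral_eq_integral_of_forall_compl_eq_zero (s := S.V p) (μ := volume) (fun z hz => by
      rw [image_eq_zero_of_notMem_tsupport fun k => hz (hφ k), dotProduct_zero])]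
  refine setIntegral_congr_fun (V_open S p).measurableSet fun z hz => ?_
  beta_reduce
  rw [← dot_U S p ((chartAt C2 p).symm z), smul_dotProduct, ← loc_ext S p φ z hz,
    Complex.real_smul, smul_eq_mul]
  rfl

theorem n2_ext {p : X} {φ : C2 → Vec N} (hφ : tsupport φ ⊆ S.V p) :
    S.n2 (S.ext p φ) = ∫ z, S.rho p z * nsq (φ z) := by
  rw [Pre.n2, ← setIntegral_eq_integral_of_forall_compl_eq_zero (s := S.W p)
    (fun x hx => by simp [Pre.ext, hx, nsq]), chart_int,
    ← setIntegral_eq_integral_of_forall_compl_eq_zero (s := S.V p) (μ := volume) (fun z hz => by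
      simp [image_eq_zero_of_notMem_tsupport fun k => hz (hφ k), nsq])]
  refine setIntegral_congr_fun (V_open S p).measurableSet fun z hz => ?_
  beta_reduce
  rw [← nsq_U S p ((chartAt C2 p).symm z), ← loc_ext S p φ z hz, smul_eq_mul]
  rfl

end Vale.Agent.P267I
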