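import Vale.Agent.P267I.GE

/-! Frames. det (Em) is the cast of fdet (transpose), positive by e_pos. loc_fr is U_eq. Entries of the inverse of Em are smooth (adjugate over det), lam_inv, lam_sm. -/

open scoped Manifold ContDiff Topology ComplexConjugate
open Filter Matrix MeasureTheory

noncomputable section

namespace Vale.Agent.P267I.G

open Vale.Agent.P267F

variable (E : Ext)
variable {X : Type} [TopologicalSpace X] [ChartedSpace C2 X] [MeasurableSpace X] [BorelSpace X]
  {S : Pre X 16} {B : X → C2 → Mat 16}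

theorem GF_co (j : Fin 4) : ContDiff ℝ ∞ fun v : C2 => ((co v j : ℝ) : ℂ) := by
  have h : ∀ i : Fin 2, ContDiff ℝ ∞ fun v : C2 => v i := fun i =>
    contDiff_apply ℝ ℂ i
  refine Complex.ofRealCLM.contDiff.comp (f := fun v : C2 => co v j) ?_
  fin_cases j
  · exact Complex.reCLM.contDiff.comp (h 0)
  · exact Complex.imCLM.contDiff.comp (h 0)
  · exact Complex.reCLM.contDiff.comp (h 1)
  · exact Complex.imCLM.contDiff.comp (h 1)

theorem GF_det {J : C2 → M4} {z : C2} (h : ∀ j a, ContDiffAt ℝ ∞ (fun y => J y j a) z) :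
    ContDiffAt ℝ ∞ (fun y => (J y).det) z := by
  simp only [det_apply']
  exact ContDiffAt.sum fun σ _ => contDiffAt_const.mul (contDiffAt_prod fun i _ => h _ _)

theorem GF_inv {J : C2 → M4} {z : C2} (h : ∀ j a, ContDiffAt ℝ ∞ (fun y => J y j a) z)
    (h0 : (J z).det ≠ 0) (j a : Fin 4) : ContDiffAt ℝ ∞ (fun y => (J y)⁻¹ j a) z := by
  simp only [inv_def, Ring.inverse_eq_inv', Matrix.smul_apply, smul_eq_mul, adjugate_apply]
  refine ((GF_det h).inv h0).mul (GF_det fun k l => ?_)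
  simp only [updateRow_apply]
  split_ifs
  · exact contDiffAt_const
  · exact h k l

theorem GF_mv {A : C2 → Mat 16} {f : C2 → Vec 16} {z : C2}
    (hA : ∀ i j, ContDiffAt ℝ ∞ (fun y => A y i j) z) (hf : ContDiffAt ℝ ∞ f z) :
    ContDiffAt ℝ ∞ (fun y => A y *ᵥ f y) z := by
  refine contDiffAt_pi.2 fun i => ?_
  simp only [mulVec, dotProduct]
  exact ContDiffAt.sum fun j _ => (hA i j).mul (contDiffAt_pi.1 hf j)

theorem Em_det (p : X) (z : C2) : (Em S p z).det = ((fdet fun a => S.e p a z : ℝ) : ℂ) := by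
  have h := Complex.ofRealHom.map_det (Matrix.of fun a b => co (S.e p a z) b)ᵀ
  rw [det_transpose] at h
  exact h.symm

theorem GF_ne {p : X} {z : C2} (hz : z ∈ S.V p) : (Em S p z).det ≠ 0 := by
  rw [Em_det]
  exact Complex.ofReal_ne_zero.2 (S.e_pos p z hz).ne'

theorem GF_self (x : X) : chartAt C2 x x ∈ S.V x := ⟨x, S.W_mem x, rfl⟩

theorem Gm_unit {p : X} {z : C2} (hz : z ∈ S.V p) : IsUnit (Gm E S p z).det :=
  (lam_inv E (GF_ne hz).isUnit).2

theorem V_nhds {p : X} {z : C2} (hz : z ∈ S.V p) : S.V p ∈ 𝓝 z :=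
  ((chartAt C2 p).isOpen_image_of_subset_source (S.W_open p) (S.W_sub p)).mem_nhds hz

theorem Gm_sm {p : X} {z : C2} (hz : z ∈ S.V p) (i j : Fin 16) :
    ContDiffAt ℝ ∞ (fun y => Gm E S p y i j) z ∧ ContDiffAt ℝ ∞ (fun y => (Gm E S p y)⁻¹ i j) z := by
  have h : ∀ j a, ContDiffAt ℝ ∞ (fun y => Em S p y j a) z := fun j a =>
    (GF_co j).contDiffAt.comp z ((S.e_sm p a).contDiffAt (V_nhds hz))
  refine ⟨lam_sm E h i j, (lam_sm E (GF_inv h (GF_ne hz)) i j).congr_of_eventuallyEq ?_⟩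
  filter_upwards [V_nhds hz] with y hy
  rw [Gm, (lam_inv E (GF_ne hy).isUnit).1]

theorem fr_un (s : X → Vec 16) : fr E S (un E S s) = s := by
  funext x
  rw [fr, un, mulVec_mulVec, mul_nonsing_inv _ (Gm_unit E (GF_self x)), one_mulVec]

theorem un_fr (F : X → Vec 16) : un E S (fr E S F) = F := by
  funext x
  rw [un, fr, mulVec_mulVec, nonsing_inv_mul _ (Gm_unit E (GF_self x)), one_mulVec]

theorem pr_fr (k : Fin 5) (F : X → Vec 16) (x : X) :
    E.pr k *ᵥ fr E S F x = fr E S (fun y => E.pr k *ᵥ F y) x := by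
  rw [fr, fr, mulVec_mulVec, mulVec_mulVec, Gm, pr_lam]

theorem fr_star (F : X → Vec 16) : fr E S (star F) = star (fr E S F) := by
  funext x i
  have h : ∀ j, conj (Gm E S x (chartAt C2 x x) i j) = Gm E S x (chartAt C2 x x) i j := fun j =>
    lam_real E (fun _ _ => Complex.conj_ofReal _) i j
  simp only [fr, mulVec, dotProduct, Pi.star_apply, Complex.star_def, map_sum, map_mul, h]

theorem loc_fr (h : Sig E S B) (F : X → Vec 16) {p : X} {z : C2} (hz : z ∈ S.V p) :
    S.loc p (fr E S F) z = Gm E S p z *ᵥ locF E F p z := by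
  obtain ⟨x, hx, rfl⟩ := hz
  rw [Pre.loc, locF, (chartAt C2 p).left_inv (S.W_sub p hx), fr, mulVec_mulVec, mulVec_mulVec,
    h.U_eq p x hx]

theorem pr_U (h : Sig E S B) (k : Fin 5) {p x : X} (hx : x ∈ S.W p) : E.pr k * S.U p x = S.U p x * E.pr k := by
  have h1 : ∀ (q : X) (z : C2), E.pr k * Gm E S q z = Gm E S q z * E.pr k := fun q z => pr_lam E k _
  refine ((isUnit_iff_isUnit_det _).2 (Gm_unit E (GF_self (S := S) x))).mul_right_cancel ?_
  rw [mul_assoc, mul_assoc, h1, ← mul_assoc (S.U p x), h.U_eq p x hx, ← mul_assoc, h1, mul_assoc,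
    pr_lam, mul_assoc]

theorem sm_fr (hX : IsSurface X) (h : Sig E S B) {F : X → Vec 16} : S.Sm (fr E S F) ↔ SmF E F := by
  constructor
  · intro hs p
    filter_upwards [V_nhds (GF_self (S := S) p)] with z hz
    refine (GF_mv (fun i j => (Gm_sm E hz i j).2)
      ((hs p).contDiffAt (V_nhds hz))).congr_of_eventuallyEq ?_
    filter_upwards [V_nhds hz] with y hy
    rw [loc_fr E h F hy, mulVec_mulVec, nonsing_inv_mul _ (Gm_unit E hy), one_mulVec]
  · intro hs p z hz
    have h1 : ContDiffAt ℝ ∞ (locF E F p) z := by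
      obtain ⟨x, hx, rfl⟩ := hz
      exact SmF.at hX hs (S.W_sub p hx)
    refine ((GF_mv (fun i j => (Gm_sm E hz i j).1) h1).congr_of_eventuallyEq ?_).contDiffWithinAt
    filter_upwards [V_nhds hz] with y hy
    exact loc_fr E h F hy

end Vale.Agent.P267I.G
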