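import Vale.Agent.P267I.GF
import Vale.Agent.P267I.GB

/-! Local form of d. Pp f z = sum x a *v fderiv f z (e p a z). d_loc: product rule for f = Gm * (Gm^-1 f) and lam_x with sum_co. D_deg: c = x - x^H, pr_x, pr_xs, deg, pr_mul; S.D at x is Dloc since U x x = 1, and S.loc x (pr l s) = pr l (S.loc x s) on V x (pr_U). D_up: the same computation for k = l + 1. -/

open scoped Manifold ContDiff Topology ComplexConjugate
open Filter Matrix MeasureTheory

noncomputable section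

namespace Vale.Agent.P267I.G

open Vale.Agent.P267F

variable (E : Ext)
variable {X : Type} [TopologicalSpace X] [ChartedSpace C2 X] [MeasurableSpace X] [BorelSpace X]
  {S : Pre X 16} {B : X → C2 → Mat 16}

theorem GG_prod {M : C2 → Mat 16} {f : C2 → Vec 16} {z : C2}
    (hM : ∀ i j, DifferentiableAt ℝ (fun y => M y i j) z) (hf : DifferentiableAt ℝ f z) (v : C2) :
    fderiv ℝ (fun y => M y *ᵥ f y) z v = M z *ᵥ fderiv ℝ f z v + Pre.dM M z v *ᵥ f z := by
  have hi : ∀ i, HasFDerivAt (fun y => (M y *ᵥ f y) i) (∑ j, (M z i j • fderiv ℝ (fun y => f y j) z +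
      f z j • fderiv ℝ (fun y => M y i j) z)) z := fun i =>
    HasFDerivAt.fun_sum (u := Finset.univ) (A := fun j y => M y i j * f y j) fun j _ =>
      (hM i j).hasFDerivAt.mul (differentiableAt_pi.1 hf j).hasFDerivAt
  rw [(hasFDerivAt_pi.2 hi).fderiv]
  funext i
  simp only [ContinuousLinearMap.pi_apply, _root_.sum_apply, _root_.add_apply, _root_.smul_apply,
    smul_eq_mul, fderiv_apply hf, ContinuousLinearMap.comp_apply, ContinuousLinearMap.proj_apply,
    Pi.add_apply, mulVec, dotProduct, Pre.dM, of_apply, ← Finset.sum_add_distrib]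
  exact Finset.sum_congr rfl fun j _ => by ring

theorem GG_const (M : Mat 16) {f : C2 → Vec 16} {z : C2} (hf : DifferentiableAt ℝ f z) (v : C2) :
    fderiv ℝ (fun y => M *ᵥ f y) z v = M *ᵥ fderiv ℝ f z v := by
  have e : Pre.dM (fun _ => M) z v = 0 := by
    ext i j
    simp [Pre.dM]
  rw [GG_prod (M := fun _ => M) (fun _ _ => differentiableAt_const _) hf, e, zero_mulVec, add_zero]

theorem GG_vec {M : C2 → Mat 16} {z : C2} (hM : ∀ i j, DifferentiableAt ℝ (fun y => M y i j) z)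
    (w : Vec 16) (v : C2) : fderiv ℝ (fun y => M y *ᵥ w) z v = Pre.dM M z v *ᵥ w := by
  rw [GG_prod (f := fun _ => w) hM (differentiableAt_const _)]
  simp

theorem GG_comm {M : C2 → Mat 16} {z : C2} (hM : ∀ i j, DifferentiableAt ℝ (fun y => M y i j) z)
    {P : Mat 16} (h : ∀ y, P * M y = M y * P) (v : C2) :
    P * Pre.dM M z v = Pre.dM M z v * P := by
  refine Matrix.mulVec_injective (funext fun w => ?_)
  have hd : DifferentiableAt ℝ (fun y => M y *ᵥ w) z := differentiableAt_pi.2 fun i =>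
    DifferentiableAt.fun_sum (u := Finset.univ) (A := fun j y => M y i j * w j) fun j _ =>
      (hM i j).mul_const _
  show (P * Pre.dM M z v) *ᵥ w = (Pre.dM M z v * P) *ᵥ w
  rw [← mulVec_mulVec, ← mulVec_mulVec, ← GG_vec hM, ← GG_vec hM, ← GG_const P hd]
  simp only [mulVec_mulVec, h]

theorem GG_inv {P A : Mat 16} (h : P * A = A * P) : P * A⁻¹ = A⁻¹ * P := by
  by_cases hA : IsUnit A.det
  · calc P * A⁻¹ = A⁻¹ * (A * P) * A⁻¹ := by
          rw [← Matrix.mul_assoc, nonsing_inv_mul _ hA, Matrix.one_mul]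
      _ = A⁻¹ * P := by
          rw [← h, Matrix.mul_assoc, Matrix.mul_assoc, mul_nonsing_inv _ hA, Matrix.mul_one]
  · rw [nonsing_inv_apply_not_isUnit _ hA, Matrix.mul_zero, Matrix.zero_mul]

theorem GG_sum {M : Mat 16} (h : M * E.pr 4 = 0) : ∑ k : Fin 4, M * E.pr k.castSucc = M := by
  have e := E.pr_sum
  rw [Fin.sum_univ_castSucc] at e
  calc ∑ k : Fin 4, M * E.pr k.castSucc = M * (∑ k : Fin 4, E.pr k.castSucc + E.pr 4) := by
        rw [Matrix.mul_add, h, add_zero, Finset.mul_sum]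
    _ = M := by rw [show E.pr 4 = E.pr (Fin.last 4) from rfl, e, Matrix.mul_one]

theorem GG_x {k l : Fin 5} (h : (k : ℕ) ≠ l + 1) (a : Fin 4) : E.pr k * E.x a * E.pr l = 0 := by
  induction k using Fin.cases with
  | zero => rw [E.pr_x0, Matrix.zero_mul]
  | succ k =>
    rw [E.pr_x, Matrix.mul_assoc, E.pr_mul, if_neg, Matrix.mul_zero]
    rintro rfl
    exact h (by simp)

theorem GG_xs {k l : Fin 5} (h : (l : ℕ) ≠ k + 1) (a : Fin 4) :
    E.pr k * (E.x a)ᴴ * E.pr l = 0 := by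
  have e := congrArg conjTranspose (GG_x E h a)
  rw [conjTranspose_mul, conjTranspose_mul, E.pr_star, E.pr_star, conjTranspose_zero,
    ← Matrix.mul_assoc] at e
  exact e

theorem GG_mid {k l k' l' : Fin 5} (h : ¬(k = k' ∧ l' = l)) (M : Mat 16) :
    E.pr k * (E.pr k' * M * E.pr l') * E.pr l = 0 := by
  have e : E.pr k * (E.pr k' * M * E.pr l') * E.pr l =
      (E.pr k * E.pr k') * M * (E.pr l' * E.pr l) := by simp only [Matrix.mul_assoc]
  rw [e, E.pr_mul, E.pr_mul]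
  by_cases h1 : k = k'
  · rw [if_neg fun h2 => h ⟨h1, h2⟩, Matrix.mul_zero]
  · rw [if_neg h1, Matrix.zero_mul, Matrix.zero_mul]

theorem d_loc {p : X} {z : C2} (hz : z ∈ S.V p) {f : C2 → Vec 16} (hf : DifferentiableAt ℝ f z) :
    Gm E S p z *ᵥ dF E (fun y => (Gm E S p y)⁻¹ *ᵥ f y) z =
      ∑ a, E.x a *ᵥ fderiv ℝ f z (S.e p a z) + Rm E S p z *ᵥ f z := by
  have hM := fun i j => ((Gm_sm E hz i j).2).differentiableAt (by simp)
  have hu := Gm_unit E hz
  have e : ∀ k, Gm E S p z * (E.x k * (Gm E S p z)⁻¹) = ∑ a, Em S p z k a • E.x a := by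
    intro k
    rw [← Matrix.mul_assoc]
    nth_rw 1 [Gm]
    rw [lam_x, Matrix.mul_assoc]
    exact (congrArg _ (mul_nonsing_inv _ hu)).trans (Matrix.mul_one _)
  simp only [dF, GG_prod hM hf, mulVec_add, Finset.sum_add_distrib, Rm, mulVec_sum, mulVec_mulVec,
    e, sum_mulVec, Finset.mul_sum]
  congr 1
  rw [Finset.sum_comm]
  refine Finset.sum_congr rfl fun a _ => ?_
  conv_rhs => rw [← sum_co (S.e p a z), map_sum, mulVec_sum]
  refine Finset.sum_congr rfl fun k _ => ?_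
  rw [map_smul, smul_mulVec, mulVec_smul]
  rfl

theorem Rm_up {p : X} {z : C2} (hz : z ∈ S.V p) : up E (Rm E S p z) = Rm E S p z := by
  have hM := fun i j => ((Gm_sm E hz i j).2).differentiableAt (by simp)
  have h1 : ∀ k y, E.pr k * Gm E S p y = Gm E S p y * E.pr k := fun k y => pr_lam E k _
  have h2 : ∀ k v, E.pr k * Pre.dM (fun y => (Gm E S p y)⁻¹) z v =
      Pre.dM (fun y => (Gm E S p y)⁻¹) z v * E.pr k := fun k v =>
    GG_comm hM (fun y => GG_inv (h1 k y)) v
  have h3 : ∀ k : Fin 4, E.pr k.succ * Rm E S p z = Rm E S p z * E.pr k.castSucc := by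
    intro k
    rw [Rm, ← Matrix.mul_assoc, h1, Matrix.mul_assoc, Matrix.mul_assoc, Finset.mul_sum,
      Finset.sum_mul]
    congr 1
    refine Finset.sum_congr rfl fun a _ => ?_
    rw [← Matrix.mul_assoc, E.pr_x, Matrix.mul_assoc, h2, Matrix.mul_assoc]
  have h4 : Rm E S p z * E.pr 4 = 0 := by
    rw [Rm, Matrix.mul_assoc, Finset.sum_mul, Finset.sum_eq_zero, Matrix.mul_zero]
    intro a _
    rw [Matrix.mul_assoc, ← h2, ← Matrix.mul_assoc, x_pr4, Matrix.zero_mul]
  rw [up]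
  refine Eq.trans (Finset.sum_congr rfl fun k _ => ?_) (GG_sum E h4)
  rw [h3, Matrix.mul_assoc, E.pr_mul, if_pos rfl]

theorem Dloc_up (h : Sig E S B) {p : X} {z : C2} {f : C2 → Vec 16} (hf : DifferentiableAt ℝ f z) :
    ∑ k : Fin 4, E.pr k.succ *ᵥ S.Dloc B p (fun y => E.pr k.castSucc *ᵥ f y) z =
      ∑ a, E.x a *ᵥ fderiv ℝ f z (S.e p a z) + up E (B p z) *ᵥ f z := by
  have e : ∀ (k : Fin 4) a, E.pr k.succ * (cc E a * E.pr k.castSucc) = E.x a * E.pr k.castSucc := by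
    intro k a
    rw [← Matrix.mul_assoc, cc, Matrix.mul_sub, Matrix.sub_mul, GG_xs E (by simp; omega), sub_zero,
      E.pr_x, Matrix.mul_assoc, E.pr_mul, if_pos rfl]
  simp only [Pre.Dloc, GG_const _ hf, h.c, mulVec_add, mulVec_sum, mulVec_mulVec, e,
    Finset.sum_add_distrib, up, sum_mulVec, Matrix.mul_assoc]
  congr 1
  rw [Finset.sum_comm]
  refine Finset.sum_congr rfl fun a _ => ?_
  rw [← sum_mulVec, GG_sum E (x_pr4 E a)]

theorem D_deg (h : Sig E S B) {s : X → Vec 16} (hs : S.Sm s) {k l : Fin 5}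
    (h1 : (k : ℕ) ≠ l + 1) (h2 : (l : ℕ) ≠ k + 1) (x : X) :
    E.pr k *ᵥ S.D B (fun y => E.pr l *ᵥ s y) x = 0 := by
  have hz : chartAt C2 x x ∈ S.V x := ⟨x, S.W_mem x, rfl⟩
  have hf : DifferentiableAt ℝ (S.loc x s) (chartAt C2 x x) :=
    ((hs x).contDiffAt (V_nhds hz)).differentiableAt (by simp)
  have e : S.loc x (fun y => E.pr l *ᵥ s y) =ᶠ[𝓝 (chartAt C2 x x)]
      fun y => E.pr l *ᵥ S.loc x s y := by
    filter_upwards [V_nhds hz]
    rintro _ ⟨y, hy, rfl⟩
    simp only [Pre.loc, (chartAt C2 x).left_inv (S.W_sub x hy), mulVec_mulVec, pr_U E h l hy]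
  have e1 : ∀ a, E.pr k * (cc E a * E.pr l) = 0 := fun a => by
    rw [← Matrix.mul_assoc, cc, Matrix.mul_sub, Matrix.sub_mul, GG_x E h1, GG_xs E h2, sub_zero]
  have e2 : E.pr k * (B x (chartAt C2 x x) * E.pr l) = 0 := by
    rw [← Matrix.mul_assoc, h.deg x _ hz, Matrix.mul_add, Matrix.add_mul, up, dn, Finset.mul_sum,
      Finset.mul_sum, Finset.sum_mul, Finset.sum_mul, Finset.sum_eq_zero, Finset.sum_eq_zero,
      add_zero]
    · intro j _
      refine GG_mid E ?_ _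
      rintro ⟨rfl, rfl⟩
      exact h2 (by simp)
    · intro j _
      refine GG_mid E ?_ _
      rintro ⟨rfl, rfl⟩
      exact h1 (by simp)
  rw [Pre.D, h.U_self, conjTranspose_one, one_mulVec, Pre.Dloc, e.fderiv_eq, e.eq_of_nhds]
  simp only [GG_const _ hf, h.c, mulVec_add, mulVec_sum, mulVec_mulVec, e1, e2, zero_mulVec,
    Finset.sum_const_zero, add_zero]

end Vale.Agent.P267I.G
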