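import Vale.Agent.P267I.GG

/-! Torsion freeness gives up B = Rm. A_x: raising part of IsLC.comm (multiply by pr k.succ, pr k.castSucc and sum). up (BofA A) = sum x k * A k. N = sum x k * A k - Rm kills vac (lam_vac, so the derivative of Gm^-1 kills vac). Anticommutator with x j: the first gives sum k b, om k j b • x k * x b. For Rm use Gm^-1 = lam Em^-1, differentiate lam Em * x i = (sum a, Em i a • x a) * lam Em or lam_x for the inverse matrix F = Em^-1 (the coframe): Rm x j + x j Rm = Gm (sum k i, d_k F j i • x k * x i) Gm^-1 = sum a b, (e_a F j)(e_b) • x a * x b; differentiate F * Em = 1 and use tf and om_skew. Then uniq0 with Y j = - x j. -/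

open scoped Manifold ContDiff Topology ComplexConjugate
open Filter Matrix MeasureTheory

noncomputable section

namespace Vale.Agent.P267I.G

open Vale.Agent.P267F

variable (E : Ext)

/-- `up` as a linear map. -/
def gg2L : Mat 16 →ₗ[ℂ] Mat 16 where
  toFun := up E
  map_add' M N := by simp only [up, mul_add, add_mul, Finset.sum_add_distrib]
  map_smul' c M := by
    simp only [up, Finset.smul_sum, mul_smul_comm, smul_mul_assoc, RingHom.id_apply]

theorem gg2_l {M : Mat 16} (h : ∀ l, E.pr l * M = M * E.pr l) (N : Mat 16) :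
    gg2L E (M * N) = M * gg2L E N := by
  show up E _ = M * up E N
  simp only [up, Finset.mul_sum, ← mul_assoc, h]

theorem gg2_r {M : Mat 16} (h : ∀ l, E.pr l * M = M * E.pr l) (N : Mat 16) :
    gg2L E (N * M) = gg2L E N * M := by
  show up E _ = up E N * M
  simp only [up, Finset.sum_mul, mul_assoc, h]

theorem gg2_c (a : Fin 4) : gg2L E (cc E a) = E.x a := by
  have h1 : up E (E.x a) = E.x a := by
    have h := E.pr_sum
    rw [Fin.sum_univ_castSucc] at h
    have h2 : ∀ k : Fin 4, E.pr k.succ * E.x a * E.pr k.castSucc = E.x a * E.pr k.castSucc := by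
      intro k
      rw [E.pr_x, mul_assoc, E.pr_mul, if_pos rfl]
    have h3 := congrArg (fun M => E.x a * M) h
    simp only [mul_add, mul_one, Finset.mul_sum] at h3
    rw [show Fin.last 4 = 4 from rfl, x_pr4, add_zero] at h3
    simp only [up, h2, h3]
  have h2 : up E (E.x a)ᴴ = 0 := by
    refine Finset.sum_eq_zero fun k _ => ?_
    have h : ∀ k : Fin 4, k.succ = 4 ∨ ∃ l : Fin 4, k.succ = l.castSucc ∧ l.succ ≠ k.castSucc := by
      decide
    rcases h k with h | ⟨l, h, h'⟩
    · rw [h, pr4_xs, zero_mul]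
    · rw [h, pr_xs, mul_assoc, E.pr_mul, if_neg h', mul_zero]
  rw [cc, map_sub]
  show up E _ - up E _ = _
  rw [h1, h2, sub_zero]

theorem gg2_mul {N : ℕ} {F G : C2 → Mat N} {z : C2}
    (hF : ∀ i j, DifferentiableAt ℝ (fun y => F y i j) z)
    (hG : ∀ i j, DifferentiableAt ℝ (fun y => G y i j) z) (v : C2) :
    Pre.dM (fun y => F y * G y) z v = Pre.dM F z v * G z + F z * Pre.dM G z v := by
  ext i j
  have h := (HasFDerivAt.fun_sum (u := Finset.univ) fun k _ =>
    (hF i k).hasFDerivAt.fun_mul (hG k j).hasFDerivAt).fderiv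
  simp only [Pre.dM, Matrix.of_apply, Matrix.add_apply, Matrix.mul_apply]
  rw [h]
  simp only [_root_.sum_apply, _root_.add_apply,
    _root_.smul_apply, smul_eq_mul, ← Finset.sum_add_distrib]
  exact Finset.sum_congr rfl fun k _ => by ring

theorem gg2_congr {N : ℕ} {F G : C2 → Mat N} {z : C2} (h : F =ᶠ[𝓝 z] G) (v : C2) :
    Pre.dM F z v = Pre.dM G z v := by
  ext i j
  have h1 : (fun y => F y i j) =ᶠ[𝓝 z] fun y => G y i j := h.mono fun y hy => by simp only [hy]
  simp only [Pre.dM, Matrix.of_apply, h1.fderiv_eq]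

theorem gg2_const {N : ℕ} (M : Mat N) (z v : C2) : Pre.dM (fun _ => M) z v = 0 := by
  ext i j
  simp [Pre.dM]

theorem gg2_dir {N : ℕ} (F : C2 → Mat N) (z v : C2) :
    Pre.dM F z v = ∑ k, ((co v k : ℝ) : ℂ) • Pre.dM F z (bs k) := by
  ext i j
  conv_lhs => rw [← sum_co v]
  simp only [Pre.dM, Matrix.of_apply, map_sum, map_smul, Matrix.sum_apply, Matrix.smul_apply,
    Complex.real_smul, smul_eq_mul]

theorem gg2_comb {f : Fin 4 → C2 → ℂ} {z : C2} (hf : ∀ a, DifferentiableAt ℝ (f a) z) (v : C2) :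
    (∀ i j, DifferentiableAt ℝ (fun y => (∑ a, f a y • E.x a) i j) z) ∧
      Pre.dM (fun y => ∑ a, f a y • E.x a) z v = ∑ a, fderiv ℝ (f a) z v • E.x a := by
  have h : ∀ i j, HasFDerivAt (fun y => (∑ a, f a y • E.x a) i j)
      (∑ a, E.x a i j • fderiv ℝ (f a) z) z := by
    intro i j
    simp only [Matrix.sum_apply, Matrix.smul_apply, smul_eq_mul]
    exact HasFDerivAt.fun_sum fun a _ => (hf a).hasFDerivAt.mul_const _
  refine ⟨fun i j => (h i j).differentiableAt, ?_⟩
  ext i j
  simp only [Pre.dM, Matrix.of_apply]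
  rw [(h i j).fderiv]
  simp only [_root_.sum_apply, _root_.smul_apply, Matrix.sum_apply,
    Matrix.smul_apply, smul_eq_mul, mul_comm]

theorem gg2_anti (a b : Fin 4) : E.x a * E.x b = -(E.x b * E.x a) :=
  eq_neg_of_add_eq_zero_left (E.xx a b)

theorem gg2_sym {C : Fin 4 → Fin 4 → ℂ} (h : ∀ a b, C a b = C b a) :
    ∑ a, E.x a * ∑ b, C a b • E.x b = 0 := by
  have h1 : ∑ a, ∑ b, C a b • (E.x a * E.x b) = -∑ a, ∑ b, C a b • (E.x a * E.x b) := by
    conv_lhs => rw [Finset.sum_comm]
    simp only [← Finset.sum_neg_distrib]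
    refine Finset.sum_congr rfl fun a _ => Finset.sum_congr rfl fun b _ => ?_
    rw [h b a, gg2_anti E b a, smul_neg]
  simp only [Finset.mul_sum, mul_smul_comm]
  have h2 : (2 : ℂ) • ∑ a, ∑ b, C a b • (E.x a * E.x b) = 0 := by
    rw [two_smul]
    exact add_eq_zero_iff_eq_neg.2 h1
  exact (smul_eq_zero.1 h2).resolve_left two_ne_zero

/-- A real coordinate as a linear map. -/
def gg2co (i : Fin 4) : C2 →L[ℝ] ℂ :=
  LinearMap.toContinuousLinearMap
    { toFun := fun v => ((co v i : ℝ) : ℂ)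
      map_add' := fun v w => by fin_cases i <;> simp [co]
      map_smul' := fun c v => by fin_cases i <;> simp [co] }

theorem gg2co_apply (i : Fin 4) (v : C2) : gg2co i v = ((co v i : ℝ) : ℂ) := rfl

variable {X : Type} [TopologicalSpace X] [ChartedSpace C2 X] [MeasurableSpace X] [BorelSpace X]
  {S : Pre X 16} {B : X → C2 → Mat 16}
  {A : X → Fin 4 → C2 → Mat 16} {om : X → Fin 4 → Fin 4 → Fin 4 → C2 → ℝ}

theorem A_x (hc : S.c = cc E) (hL : S.IsLC A om)
    (hp : ∀ p k l, ∀ z ∈ S.V p, E.pr l * A p k z = A p k z * E.pr l) {p : X} {z : C2}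
    (hz : z ∈ S.V p) (k a : Fin 4) :
    A p k z * E.x a - E.x a * A p k z = ∑ b, (om p k a b z : ℂ) • E.x b := by
  have h := congrArg (gg2L E) (hL.comm p k a z hz)
  rw [hc, map_sub, gg2_l E fun l => hp p k l z hz, gg2_r E fun l => hp p k l z hz, map_sum] at h
  simpa only [map_smul, gg2_c] using h

theorem up_BofA (hc : S.c = cc E)
    (hp : ∀ p k l, ∀ z ∈ S.V p, E.pr l * A p k z = A p k z * E.pr l) {p : X} {z : C2}
    (hz : z ∈ S.V p) : up E (S.BofA A p z) = ∑ k, E.x k * A p k z := by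
  show gg2L E _ = _
  rw [Pre.BofA, map_sum, hc]
  exact Finset.sum_congr rfl fun k _ => by rw [gg2_r E fun l => hp p k l z hz, gg2_c]

theorem gg2_Rm {p : X} {z : C2} (hz : z ∈ S.V p) :
    Rm E S p z * Gm E S p z = -∑ a, E.x a * Pre.dM (Gm E S p) z (S.e p a z) := by
  have hG := fun i j => (Gm_sm E hz i j).1.differentiableAt (by simp)
  have hH := fun i j => (Gm_sm E hz i j).2.differentiableAt (by simp)
  have h1 : ∀ v, Gm E S p z * Pre.dM (fun y => (Gm E S p y)⁻¹) z v * Gm E S p z =
      -Pre.dM (Gm E S p) z v := by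
    intro v
    have h2 : (fun y => (Gm E S p y)⁻¹ * Gm E S p y) =ᶠ[𝓝 z] fun _ => 1 :=
      Filter.mem_of_superset (V_nhds hz) fun y hy => Matrix.nonsing_inv_mul _ (Gm_unit E hy)
    have h3 := gg2_congr h2 v
    rw [gg2_mul hH hG, gg2_const] at h3
    rw [mul_assoc, eq_neg_of_add_eq_zero_left h3, mul_neg, ← mul_assoc,
      Matrix.mul_nonsing_inv _ (Gm_unit E hz), one_mul]
  have h4 : ∀ k, Gm E S p z * E.x k = (∑ a, Em S p z k a • E.x a) * Gm E S p z :=
    fun k => lam_x E _ k
  simp only [Rm, Finset.mul_sum, Finset.sum_mul, ← mul_assoc, h4]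
  simp only [mul_assoc] at h1 ⊢
  simp only [h1, fun a => gg2_dir (Gm E S p) z (S.e p a z), Finset.mul_sum, smul_mul_assoc,
    mul_smul_comm, mul_neg, Finset.sum_neg_distrib, Em, Matrix.of_apply]
  rw [Finset.sum_comm]

theorem up_eq_Rm (hc : S.c = cc E) (hL : S.IsLC A om)
    (hp : ∀ p k l, ∀ z ∈ S.V p, E.pr l * A p k z = A p k z * E.pr l)
    (hv : ∀ p k, ∀ z ∈ S.V p, A p k z *ᵥ E.vac = 0) {p : X} {z : C2} (hz : z ∈ S.V p) :
    up E (S.BofA A p z) = Rm E S p z := by
  have hG := fun i j => (Gm_sm E hz i j).1.differentiableAt (by simp)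
  have he : ∀ a, DifferentiableAt ℝ (S.e p a) z := fun a =>
    ((S.e_sm p a).contDiffAt (V_nhds hz)).differentiableAt (by simp)
  have hE : ∀ i a, HasFDerivAt (fun y => Em S p y i a) ((gg2co i).comp (fderiv ℝ (S.e p a) z)) z :=
    fun i a => (gg2co i).hasFDerivAt.comp z (he a).hasFDerivAt
  have hvac : ∀ v, Pre.dM (Gm E S p) z v *ᵥ E.vac = 0 := by
    intro v
    have h1 : (fun y => Gm E S p y * vecMulVec E.vac (1 : Vec 16)) =
        fun _ => vecMulVec E.vac (1 : Vec 16) := by
      funext y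
      rw [Matrix.mul_vecMulVec, Gm, lam_vac]
    have h2 := gg2_mul (G := fun _ => vecMulVec E.vac (1 : Vec 16)) hG
      (fun _ _ => differentiableAt_const _) v
    rw [h1, gg2_const, mul_zero, add_zero, Matrix.mul_vecMulVec] at h2
    funext i
    have h3 := congrFun (congrFun h2 i) 0
    simpa [vecMulVec_apply] using h3.symm
  have hx : ∀ i v, Pre.dM (Gm E S p) z v * E.x i =
      (∑ b, gg2co i (fderiv ℝ (S.e p b) z v) • E.x b) * Gm E S p z +
        (∑ b, Em S p z i b • E.x b) * Pre.dM (Gm E S p) z v := by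
    intro i v
    have h1 : (fun y => Gm E S p y * E.x i) =
        fun y => (∑ b, Em S p y i b • E.x b) * Gm E S p y := funext fun y => lam_x E _ i
    have h2 := gg2_mul (G := fun _ => E.x i) hG (fun _ _ => differentiableAt_const _) v
    have h3 := gg2_comb E (fun a => (hE i a).differentiableAt) v
    rw [h1, gg2_const, mul_zero, add_zero, gg2_mul h3.1 hG, h3.2] at h2
    rw [← h2]
    simp only [(hE i _).fderiv, ContinuousLinearMap.comp_apply]
  have hA : ∀ i a, A p a z * (∑ j, Em S p z i j • E.x j) =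
      (∑ j, Em S p z i j • E.x j) * A p a z +
        ∑ b, (∑ j, Em S p z i j * (om p a j b z : ℂ)) • E.x b := by
    intro i a
    have h1 := fun j => eq_add_of_sub_eq' (A_x E hc hL hp hz a j)
    simp only [Finset.mul_sum, Finset.sum_mul, mul_smul_comm, smul_mul_assoc, h1, smul_add,
      Finset.sum_add_distrib, Finset.smul_sum, smul_smul, Finset.sum_smul]
    rw [Finset.sum_comm]
  have hs : ∀ i a b, (∑ j, Em S p z i j * (om p a j b z : ℂ)) +
      gg2co i (fderiv ℝ (S.e p b) z (S.e p a z)) = (∑ j, Em S p z i j * (om p b j a z : ℂ)) +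
      gg2co i (fderiv ℝ (S.e p a) z (S.e p b z)) := by
    intro i a b
    have h1 := congrArg (gg2co i) (hL.tf p a b z hz)
    rw [map_sub, map_sum] at h1
    rw [eq_add_of_sub_eq h1, ← add_assoc, ← Finset.sum_add_distrib]
    congr 1
    refine Finset.sum_congr rfl fun j _ => ?_
    rw [map_smul, gg2co_apply, hL.om_skew p a j b z hz, hL.om_skew p b j a z hz, Complex.real_smul]
    simp only [Em, Matrix.of_apply]
    push_cast
    ring
  have hN : ∑ a, E.x a * (A p a z * Gm E S p z + Pre.dM (Gm E S p) z (S.e p a z)) = 0 := by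
    refine uniq0 E (fun i => -∑ j, Em S p z i j • E.x j) (fun i => ?_) ?_
    · have h4 : Gm E S p z * E.x i = (∑ a, Em S p z i a • E.x a) * Gm E S p z := lam_x E _ i
      have h5 := congrArg (· * Gm E S p z) (gg2_sym E (hs i))
      have h6 : ∀ a, E.x a * ∑ j, Em S p z i j • E.x j = -((∑ j, Em S p z i j • E.x j) * E.x a) := by
        intro a
        simp only [Finset.mul_sum, Finset.sum_mul, mul_smul_comm, smul_mul_assoc,
          ← Finset.sum_neg_distrib, gg2_anti E a, smul_neg]
      simp only [add_smul, Finset.sum_add_distrib, zero_mul] at h5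
      rw [Finset.sum_mul] at h5
      rw [Finset.sum_mul, Finset.mul_sum, ← add_zero (∑ _, _ * (_ * _)), ← h5,
        ← Finset.sum_add_distrib]
      refine Finset.sum_congr rfl fun a _ => ?_
      have h7 := hA i a
      have h8 := h6 a
      rw [mul_assoc, add_mul, mul_assoc, h4, hx, ← mul_assoc (A p a z), h7]
      generalize (∑ j, Em S p z i j • E.x j) = ψ at h8 ⊢
      rw [neg_mul, ← mul_assoc ψ, ← neg_mul, ← h8]
      noncomm_ring
    · simp only [Matrix.sum_mulVec, ← Matrix.mulVec_mulVec, Matrix.add_mulVec, hvac, Gm, lam_vac,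
        hv p _ z hz, add_zero, Matrix.mulVec_zero, Finset.sum_const_zero]
  have h9 : (∑ k, E.x k * A p k z) * Gm E S p z = Rm E S p z * Gm E S p z := by
    rw [gg2_Rm E hz, Finset.sum_mul, eq_neg_iff_add_eq_zero, ← Finset.sum_add_distrib, ← hN]
    simp only [mul_add, mul_assoc]
  rw [up_BofA E hc hp hz]
  have h10 := congrArg (· * (Gm E S p z)⁻¹) h9
  simpa only [mul_assoc, Matrix.mul_nonsing_inv _ (Gm_unit E hz), mul_one] using h10

end Vale.Agent.P267I.G
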