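import Vale.Agent.P267I.GG
import Vale.Agent.P267I.GE2

/-! At x the operator is Dloc in the frame at x (U x x = 1). With f = S.loc x (fr (pr k F)) = Gm * locF (loc_fr) near the chart point: Dloc_up (all terms but one vanish since pr l f = 0 for l different from k), hR, d_loc. -/

open scoped Manifold ContDiff Topology ComplexConjugate
open Filter Matrix MeasureTheory

noncomputable section

namespace Vale.Agent.P267I.G

open Vale.Agent.P267F

variable (E : Ext)
variable {X : Type} [TopologicalSpace X] [ChartedSpace C2 X] [MeasurableSpace X] [BorelSpace X]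
  {S : Pre X 16} {B : X → C2 → Mat 16}

omit [BorelSpace X] in
theorem gg3_congr {p : X} {z : C2} {f g : C2 → Vec 16} (e : f =ᶠ[𝓝 z] g) :
    S.Dloc B p f z = S.Dloc B p g z := by
  unfold Pre.Dloc
  rw [e.fderiv_eq, e.eq_of_nhds]

theorem gg3_pr (h : Sig E S B) (F : X → Vec 16) (k l : Fin 5) {p : X} {z : C2} (hz : z ∈ S.V p) :
    E.pr l *ᵥ S.loc p (fr E S fun y => E.pr k *ᵥ F y) z =
      if l = k then S.loc p (fr E S fun y => E.pr k *ᵥ F y) z else 0 := by
  rw [loc_fr E h _ hz]
  unfold locF Gm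
  rw [mulVec_mulVec, pr_lam, ← mulVec_mulVec, mulVec_mulVec _ (E.pr l), pr_lam, ← mulVec_mulVec,
    mulVec_mulVec _ (E.pr l), E.pr_mul]
  split_ifs
  · rfl
  · rw [zero_mulVec, mulVec_zero, mulVec_zero]

theorem good_of (hX : IsSurface X) (h : Sig E S B)
    (hR : ∀ p, ∀ z ∈ S.V p, up E (B p z) = Rm E S p z) : Good E S B := by
  refine ⟨h, fun F hF k x => ?_⟩
  have hz : chartAt C2 x x ∈ S.V x := ⟨x, S.W_mem x, rfl⟩
  have hV := V_nhds hz
  have hs := (sm_fr E hX h).2 (smF_pr E k.castSucc hF)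
  have hf : DifferentiableAt ℝ (S.loc x (fr E S fun y => E.pr k.castSucc *ᵥ F y)) (chartAt C2 x x) :=
    ((hs x).contDiffAt hV).differentiableAt (by simp)
  have h1 := Dloc_up E h (p := x) hf
  rw [hR x _ hz, ← d_loc E hz hf, Finset.sum_eq_single k] at h1
  · rw [gg3_congr (g := S.loc x (fr E S fun y => E.pr k.castSucc *ᵥ F y))] at h1
    · unfold Pre.D
      rw [h.U_self, conjTranspose_one, one_mulVec, h1]
      have e : (fun y => (Gm E S x y)⁻¹ *ᵥ S.loc x (fr E S fun y => E.pr k.castSucc *ᵥ F y) y) =ᶠ[𝓝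
          (chartAt C2 x x)] locF E (fun y => E.pr k.castSucc *ᵥ F y) x := by
        filter_upwards [hV] with y hy
        rw [loc_fr E h _ hy, mulVec_mulVec, nonsing_inv_mul _ (Gm_unit E hy), one_mulVec]
      unfold fr dN dF
      unfold fr at e
      rw [e.fderiv_eq]
    · filter_upwards [hV] with y hy
      rw [gg3_pr E h F _ _ hy, if_pos rfl]
  · intro l _ hl
    rw [gg3_congr (g := fun _ => 0)]
    · simp [Pre.Dloc]
    · filter_upwards [hV] with y hy
      rw [gg3_pr E h F _ _ hy, if_neg fun q => hl (Fin.castSucc_injective _ q)]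
  · exact fun q => absurd (Finset.mem_univ k) q

end Vale.Agent.P267I.G
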