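import Vale.Agent.P267I.GLin

open scoped Manifold ContDiff Topology InnerProductSpace
open Filter Matrix MeasureTheory Set

noncomputable section

namespace Vale.Agent.P267I

open Vale.Agent.P267F

variable {N : ℕ} {C : Cl N} {U : Set C2} {e : Fin 4 → C2 → C2} {B : C2 → Mat N}

theorem gga2_int {E : Type} [NormedAddCommGroup E] {K : Set C2} (hK : IsCompact K) {G : C2 → E}
    (hG : ContinuousOn G K) (hs : ∀ z, z ∉ K → G z = 0) : Integrable G :=
  (integrableOn_iff_integrable_of_support_subset fun z hz => by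
    by_contra h
    exact hz (hs z h)).1 (hG.integrableOn_compact hK)

/-- A scalar coordinate derivative. -/
def gga2D (k : Fin 4) (f : C2 → ℂ) (z : C2) : ℂ := fderiv ℝ f z (bs k)

theorem gga2_sm (k : Fin 4) {f : C2 → ℂ} (hf : ContDiff ℝ ∞ f) : ContDiff ℝ ∞ (gga2D k f) :=
  (hf.fderiv_right (m := ∞) le_rfl).clm_apply contDiff_const

theorem gga2_smOn (hU : IsOpen U) (k : Fin 4) {w : C2 → ℂ} (hw : ContDiffOn ℝ ∞ w U) :
    ContDiffOn ℝ ∞ (gga2D k w) U :=
  (hw.fderiv_of_isOpen hU (m := ∞) le_rfl).clm_apply contDiffOn_const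

theorem gga2_symm (k l : Fin 4) {f : C2 → ℂ} (hf : ContDiff ℝ ∞ f) (z : C2) :
    gga2D k (gga2D l f) z = gga2D l (gga2D k f) z := by
  have h1 : DifferentiableAt ℝ (fderiv ℝ f) z :=
    ((hf.fderiv_right (m := ∞) le_rfl).differentiable (by simp)) z
  have h2 : ∀ a b, gga2D a (gga2D b f) z = fderiv ℝ (fderiv ℝ f) z (bs a) (bs b) := fun a b => by
    unfold gga2D
    rw [fderiv_clm_apply h1 (differentiableAt_const _)]
    simp
  rw [h2, h2]
  exact (hf.contDiffAt.isSymmSndFDerivAt (by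
    rw [minSmoothness_of_isRCLikeNormedField]; exact WithTop.coe_le_coe.2 le_top)).eq _ _

theorem gga2_ibp (hU : IsOpen U) {K : Set C2} (hK : IsCompact K) (hKU : K ⊆ U) {f h w : C2 → ℂ}
    (hf : ContDiff ℝ ∞ f) (hh : ContDiff ℝ ∞ h) (hw : ContDiffOn ℝ ∞ w U) (hs : tsupport f ⊆ K)
    (k : Fin 4) : Integrable (fun z => gga2D k f z * (w z * h z)) ∧
      Integrable (fun z => f z * (gga2D k w z * h z)) ∧ Integrable (fun z => f z * (w z * gga2D k h z)) ∧
      ∫ z, gga2D k f z * (w z * h z) =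
        -(∫ z, f z * (gga2D k w z * h z)) - ∫ z, f z * (w z * gga2D k h z) := by
  have f0 : ∀ z, z ∉ K → f z = 0 := fun z hz => image_eq_zero_of_notMem_tsupport fun h => hz (hs h)
  have f1 : ∀ z, z ∉ K → gga2D k f z = 0 := fun z hz => by
    have : fderiv ℝ f z = 0 := image_eq_zero_of_notMem_tsupport fun h =>
      hz (hs (tsupport_fderiv_subset ℝ h))
    rw [gga2D, this]; rfl
  have wc := hw.continuousOn.mono hKU
  have i1 : Integrable fun z => gga2D k f z * (w z * h z) :=
    gga2_int hK ((gga2_sm k hf).continuous.continuousOn.mul (wc.mul hh.continuous.continuousOn))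
      fun z hz => by rw [f1 z hz, zero_mul]
  have i2 : Integrable fun z => f z * (gga2D k w z * h z) :=
    gga2_int hK (hf.continuous.continuousOn.mul (((gga2_smOn hU k hw).continuousOn.mono hKU).mul
      hh.continuous.continuousOn)) fun z hz => by rw [f0 z hz, zero_mul]
  have i3 : Integrable fun z => f z * (w z * gga2D k h z) :=
    gga2_int hK (hf.continuous.continuousOn.mul (wc.mul (gga2_sm k hh).continuous.continuousOn))
      fun z hz => by rw [f0 z hz, zero_mul]
  have i4 : Integrable fun z => f z * (w z * h z) :=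
    gga2_int hK (hf.continuous.continuousOn.mul (wc.mul hh.continuous.continuousOn))
      fun z hz => by rw [f0 z hz, zero_mul]
  have wd : ∀ z ∈ K, DifferentiableAt ℝ w z := fun z hz =>
    (hw.contDiffAt (hU.mem_nhds (hKU hz))).differentiableAt (by simp)
  have hd : ∀ z, DifferentiableAt ℝ h z := fun z => hh.differentiable (by simp) z
  have e : (fun z => f z * fderiv ℝ (fun z => w z * h z) z (bs k)) =
      fun z => f z * (gga2D k w z * h z) + f z * (w z * gga2D k h z) := by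
    funext z
    by_cases hz : z ∈ K
    · rw [fderiv_fun_mul (wd z hz) (hd z)]
      simp only [gga2D, _root_.add_apply, _root_.smul_apply, smul_eq_mul]
      ring
    · simp [f0 z hz]
  have H := integral_mul_fderiv_eq_neg_fderiv_mul_of_integrable (μ := (volume : Measure C2)) (f := f)
    (g := fun z => w z * h z) (v := bs k) i1 (by rw [e]; exact i2.add i3) i4
    (fun z _ => hf.differentiable (by simp) z) fun z hz => (wd z (hs hz)).mul (hd z)
  rw [e, integral_add i2 i3] at H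
  refine ⟨i1, i2, i3, ?_⟩
  have H2 : ∫ z, gga2D k f z * (w z * h z) = ∫ z, fderiv ℝ f z (bs k) * (w z * h z) := rfl
  rw [H2]
  linear_combination H

/-- Integration by parts kills the antisymmetric second order term. -/
theorem anti_ibp (hU : IsOpen U) {σ : Fin 4 → Fin 4 → C2 → Mat N}
    (h1 : ∀ k l i j, ContDiffOn ℝ ∞ (fun z => σ k l z i j) U) (h2 : ∀ k l z, σ k l z = -σ l k z)
    {K : Set C2} (hK : IsCompact K) (hKU : K ⊆ U) {δ : ℝ} (hδ : 0 < δ) :
    ∃ A : ℝ, ∀ φ : C2 → Vec N, TstV K φ →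
      ‖∫ z, ∑ k, ∑ l, star (dk k φ z) ⬝ᵥ (σ k l z *ᵥ dk l φ z)‖ ≤
        δ * (∫ z, ∑ k, nsq (dk k φ z)) + A * ∫ z, nsq (φ z) := by
  obtain ⟨M, hM⟩ := hK.exists_bound_of_continuousOn
    (f := fun z (t : Fin 4 × Fin 4 × Fin N × Fin N) => gga2D t.1 (fun y => σ t.1 t.2.1 y t.2.2.1 t.2.2.2) z)
    (continuousOn_pi.2 fun t => (gga2_smOn hU _ (h1 _ _ _ _)).continuousOn.mono hKU)
  obtain ⟨η, hη, hηδ⟩ : ∃ η : ℝ, 0 < η ∧ 4 * N * η ≤ δ := ⟨δ / (4 * N + 1), by positivity, by
    rw [← mul_div_assoc, div_le_iff₀ (by positivity)]; nlinarith⟩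
  refine ⟨16 * N * (M ^ 2 / η), fun φ ⟨hφ, _, hs⟩ => ?_⟩
  have sa : ∀ i, ContDiff ℝ ∞ fun z => φ z i := fun i => contDiff_pi.1 hφ i
  have sc : ∀ i, ContDiff ℝ ∞ fun z => star (φ z i) := fun i => Complex.conjCLE.contDiff.comp (sa i)
  have φ0 : ∀ z, z ∉ K → φ z = 0 := fun z hz => image_eq_zero_of_notMem_tsupport fun h => hz (hs h)
  have ss : ∀ i, tsupport (fun z => star (φ z i)) ⊆ K := fun i =>
    (closure_mono (Function.support_subset_iff'.2 fun z hz => by
      rw [Function.notMem_support.1 hz]; simp)).trans hs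
  have d1 : ∀ k z i, dk k φ z i = gga2D k (fun z => φ z i) z := fun k z i => by
    rw [dk, gga2D, fderiv_apply (hφ.differentiable (by simp) z)]; rfl
  have d2 : ∀ k z i, star (dk k φ z i) = gga2D k (fun z => star (φ z i)) z := fun k z i => by
    rw [d1, gga2D, gga2D]
    exact (congrArg (fun L : C2 →L[ℝ] ℂ => L (bs k))
      (Complex.conjCLE.comp_fderiv (f := fun z => φ z i) (x := z))).symm
  have H := fun t : Fin 4 × Fin 4 × Fin N × Fin N => gga2_ibp hU hK hKU (sc t.2.2.1)
    (gga2_sm t.2.1 (sa t.2.2.2)) (h1 t.1 t.2.1 t.2.2.1 t.2.2.2) (ss t.2.2.1) t.1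
  have e1 : ∀ z, ∑ k, ∑ l, star (dk k φ z) ⬝ᵥ (σ k l z *ᵥ dk l φ z) =
      ∑ t : Fin 4 × Fin 4 × Fin N × Fin N, gga2D t.1 (fun z => star (φ z t.2.2.1)) z *
        (σ t.1 t.2.1 z t.2.2.1 t.2.2.2 * gga2D t.2.1 (fun z => φ z t.2.2.2) z) := fun z => by
    simp only [Fintype.sum_prod_type, dotProduct, mulVec, Finset.mul_sum, Pi.star_apply, d2, ← d1]
  have e2 : ∀ z, ∑ t : Fin 4 × Fin 4 × Fin N × Fin N, star (φ z t.2.2.1) *
      (σ t.1 t.2.1 z t.2.2.1 t.2.2.2 * gga2D t.1 (gga2D t.2.1 fun z => φ z t.2.2.2) z) = 0 := fun z => by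
    have k : ∀ S : ℂ, S = -S → S = 0 := fun S h => by linear_combination h / 2
    refine k _ ?_
    simp only [Fintype.sum_prod_type]
    conv_lhs => rw [Finset.sum_comm]
    simp only [← Finset.sum_neg_distrib]
    refine Finset.sum_congr rfl fun k _ => Finset.sum_congr rfl fun l _ => Finset.sum_congr rfl fun i _ =>
      Finset.sum_congr rfl fun j _ => ?_
    rw [h2 l k z, gga2_symm l k (sa j), Matrix.neg_apply]
    ring
  have e3 : ∫ z, ∑ k, ∑ l, star (dk k φ z) ⬝ᵥ (σ k l z *ᵥ dk l φ z) =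
      -∫ z, ∑ t : Fin 4 × Fin 4 × Fin N × Fin N, star (φ z t.2.2.1) *
        (gga2D t.1 (fun y => σ t.1 t.2.1 y t.2.2.1 t.2.2.2) z * gga2D t.2.1 (fun z => φ z t.2.2.2) z) := by
    simp only [e1]
    rw [integral_finsetSum _ fun t _ => (H t).1, integral_finsetSum _ fun t _ => (H t).2.1,
      Finset.sum_congr rfl fun t _ => (H t).2.2.2, Finset.sum_sub_distrib,
      ← integral_finsetSum _ fun t _ => (H t).2.2.1]
    simp only [e2, integral_zero, sub_zero, Finset.sum_neg_distrib]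
  have cn : Continuous (nsq : Vec N → ℝ) := by unfold nsq; fun_prop
  have cd : ∀ k, Continuous (dk k φ) := fun k =>
    ((hφ.fderiv_right (m := ∞) le_rfl).clm_apply contDiff_const).continuous
  have j1 : Integrable fun z => ∑ k, nsq (dk k φ z) :=
    gga2_int hK (continuous_finsetSum _ fun k _ => cn.comp (cd k)).continuousOn fun z hz => by
      have : fderiv ℝ φ z = 0 := image_eq_zero_of_notMem_tsupport fun h =>
        hz (hs (tsupport_fderiv_subset ℝ h))
      simp [dk, this, nsq]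
  have j2 : Integrable fun z => nsq (φ z) :=
    gga2_int hK (cn.comp hφ.continuous).continuousOn fun z hz => by simp [φ0 z hz, nsq]
  rw [e3, norm_neg, ← integral_const_mul, ← integral_const_mul,
    ← integral_add (j1.const_mul _) (j2.const_mul _)]
  refine norm_integral_le_of_norm_le ((j1.const_mul _).add (j2.const_mul _)) (Eventually.of_forall fun z => ?_)
  have p1 : 0 ≤ ∑ k, nsq (dk k φ z) :=
    Finset.sum_nonneg fun k _ => Finset.sum_nonneg fun i _ => sq_nonneg _
  have p2 : 0 ≤ nsq (φ z) := Finset.sum_nonneg fun i _ => sq_nonneg _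
  by_cases hz : z ∈ K
  · refine (norm_sum_le _ _).trans ((Finset.sum_le_sum (g := fun t : Fin 4 × Fin 4 × Fin N × Fin N =>
      η * ‖dk t.2.1 φ z t.2.2.2‖ ^ 2 + M ^ 2 / η * ‖φ z t.2.2.1‖ ^ 2) fun t _ => ?_).trans ?_)
    · have b1 := (norm_le_pi_norm _ t).trans (hM z hz)
      rw [norm_mul, norm_mul, norm_star, ← d1]
      have b2 := mul_le_mul_of_nonneg_left (mul_le_mul_of_nonneg_right b1 (norm_nonneg (dk t.2.1 φ z t.2.2.2)))
        (norm_nonneg (φ z t.2.2.1))
      refine b2.trans ?_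
      generalize ‖φ z t.2.2.1‖ = a
      generalize ‖dk t.2.1 φ z t.2.2.2‖ = b
      have b3 : M ^ 2 / η * a ^ 2 = η * (M * a / η) ^ 2 := by field_simp
      have b4 : a * (M * b) = η * (b * (M * a / η)) := by field_simp
      rw [b3, b4, ← mul_add]
      exact mul_le_mul_of_nonneg_left (by nlinarith [sq_nonneg (b - M * a / η), sq_nonneg b, sq_nonneg (M * a / η)]) hη.le
    · have b5 : ∑ t : Fin 4 × Fin 4 × Fin N × Fin N,
          (η * ‖dk t.2.1 φ z t.2.2.2‖ ^ 2 + M ^ 2 / η * ‖φ z t.2.2.1‖ ^ 2) =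
          4 * N * η * ∑ k, nsq (dk k φ z) + 16 * N * (M ^ 2 / η) * nsq (φ z) := by
        simp only [Fintype.sum_prod_type, Finset.sum_add_distrib, Finset.sum_const, Finset.card_univ,
          Fintype.card_fin, nsmul_eq_mul, nsq, ← Finset.mul_sum]
        push_cast
        ring
      rw [b5]
      linarith [mul_le_mul_of_nonneg_right hηδ p1]
  · simp only [φ0 z hz, Pi.zero_apply, star_zero, zero_mul, Finset.sum_const_zero, norm_zero]
    rw [← φ0 z hz]
    positivity

end Vale.Agent.P267I
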