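import Vale.Agent.P267I.GGa1
import Vale.Agent.P267I.GGa2

open scoped Manifold ContDiff Topology InnerProductSpace
open Filter Matrix MeasureTheory Set

noncomputable section

namespace Vale.Agent.P267I

open Vale.Agent.P267F

variable {N : ℕ} {C : Cl N} {U : Set C2} {e : Fin 4 → C2 → C2} {B : C2 → Mat N}

theorem gga_int {E : Type} [NormedAddCommGroup E] {F : C2 → E} {K : Set C2} (hK : IsCompact K)
    (hKU : K ⊆ U) (hF : ContinuousOn F U) (h0 : ∀ z, z ∉ K → F z = 0) : Integrable F :=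
  ((hF.mono hKU).integrableOn_compact hK).integrable_of_forall_notMem_eq_zero h0

theorem gga_mv {A : C2 → Mat N} {v : C2 → Vec N} (hA : ∀ i j, ContinuousOn (fun z => A z i j) U)
    (hv : ContinuousOn v U) : ContinuousOn (fun z => A z *ᵥ v z) U :=
  continuousOn_pi.2 fun i => by
    change ContinuousOn (fun z => ∑ j, A z i j * v z j) U
    exact continuousOn_finsetSum _ fun j _ => (hA i j).mul (continuousOn_pi.1 hv j)

theorem gga_nsq : Continuous (nsq : Vec N → ℝ) := by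
  unfold nsq
  fun_prop

theorem gga_nn (v : Vec N) : 0 ≤ nsq v := Finset.sum_nonneg fun _ _ => sq_nonneg _

theorem gga_zero : nsq (0 : Vec N) = 0 := by simp [nsq]

theorem gga_sub (x y : Vec N) : nsq (x - y) ≤ 2 * nsq x + 2 * nsq y := by
  simp only [nsq, Finset.mul_sum, ← Finset.sum_add_distrib]
  refine Finset.sum_le_sum fun i _ => ?_
  have h1 := norm_sub_le (x i) (y i)
  have h2 := pow_le_pow_left₀ (norm_nonneg _) h1 2
  rw [Pi.sub_apply]
  nlinarith [sq_nonneg (‖x i‖ - ‖y i‖)]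

theorem gga_mul (A : Mat N) (v : Vec N) : nsq (A *ᵥ v) ≤ (∑ i, ∑ j, ‖A i j‖ ^ 2) * nsq v := by
  rw [Finset.sum_mul]
  refine Finset.sum_le_sum fun i _ => ?_
  have h1 : ‖(A *ᵥ v) i‖ ≤ ∑ j, ‖A i j‖ * ‖v j‖ := by
    change ‖∑ j, A i j * v j‖ ≤ _
    exact (norm_sum_le _ _).trans (Finset.sum_le_sum fun j _ => (norm_mul _ _).le)
  exact (pow_le_pow_left₀ (norm_nonneg _) h1 2).trans (Finset.sum_mul_sq_le_sq_mul_sq _ _ _)

theorem gga_dir (φ : C2 → Vec N) (z v : C2) :
    fderiv ℝ φ z v = ∑ k, (co v k : ℂ) • dk k φ z := by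
  conv_lhs => rw [← co_bsG v]
  rw [map_sum]
  refine Finset.sum_congr rfl fun k _ => ?_
  rw [map_smul, Complex.coe_smul]
  rfl

/-- The Gårding inequality. -/
theorem garding (C : Cl N) (h : LocOp U e B) {K : Set C2} (hK : IsCompact K) (hKU : K ⊆ U) :
    ∃ A : ℝ, 0 ≤ A ∧ ∀ φ : C2 → Vec N, TstV K φ →
      ∫ z, ∑ k, nsq (dk k φ z) ≤ A * ((∫ z, nsq (Pop C.c e B φ z)) + ∫ z, nsq (φ z)) := by
  obtain ⟨σ, hσ1, hσ2, hσ3⟩ := cl_nsq C h
  obtain ⟨κ, hκ, hκ'⟩ := gm_pos h hK hKU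
  obtain ⟨A, hA⟩ := anti_ibp h.op hσ1 hσ2 hK hKU (half_pos hκ)
  have hβ : ContinuousOn (fun z => ∑ i, ∑ j, ‖B z i j‖ ^ 2) K :=
    continuousOn_finsetSum _ fun i _ => continuousOn_finsetSum _ fun j _ =>
      (((h.B_sm i j).continuousOn.mono hKU).norm).pow 2
  obtain ⟨M, hM⟩ := hK.exists_bound_of_continuousOn hβ
  refine ⟨2 / κ * (2 + 2 * |M| + |A|), by positivity, fun φ hφ => ?_⟩
  have cφ : Continuous φ := hφ.1.continuous
  have cD : Continuous (fderiv ℝ φ) := hφ.1.continuous_fderiv (by simp)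
  have cd : ∀ k, Continuous (dk k φ) := fun k => cD.clm_apply continuous_const
  have z0 : ∀ z, z ∉ K → φ z = 0 := fun z hz =>
    image_eq_zero_of_notMem_tsupport fun h1 => hz (hφ.2.2 h1)
  have z1 : ∀ z, z ∉ K → fderiv ℝ φ z = 0 := fun z hz =>
    fderiv_of_notMem_tsupport ℝ fun h1 => hz (hφ.2.2 h1)
  have z2 : ∀ z, z ∉ K → ∀ k, dk k φ z = 0 := fun z hz k => by simp [dk, z1 z hz]
  have i1 : Integrable fun z => ∑ k, nsq (dk k φ z) :=
    gga_int hK hKU (continuous_finsetSum _ fun k _ => gga_nsq.comp (cd k)).continuousOn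
      fun z hz => by simp [z2 z hz, gga_zero]
  have i2 : Integrable fun z => nsq (Pop C.c e B φ z) := by
    refine gga_int hK hKU (gga_nsq.comp_continuousOn ?_) fun z hz => by
      simp [Pop, z0 z hz, z1 z hz, gga_zero]
    exact (continuousOn_finsetSum _ fun a _ => gga_mv (A := fun _ => C.c a)
      (fun _ _ => continuousOn_const) (cD.continuousOn.clm_apply (h.e_sm a).continuousOn)).add
      (gga_mv (fun i j => (h.B_sm i j).continuousOn) cφ.continuousOn)
  have i3 : Integrable fun z => nsq (φ z) :=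
    gga_int hK hKU (gga_nsq.comp cφ).continuousOn fun z hz => by simp [z0 z hz, gga_zero]
  have i4 : Integrable fun z => ∑ k, ∑ l, star (dk k φ z) ⬝ᵥ (σ k l z *ᵥ dk l φ z) := by
    refine gga_int hK hKU (continuousOn_finsetSum _ fun k _ => continuousOn_finsetSum _ fun l _ =>
      continuousOn_finsetSum _ fun i _ => ?_) fun z hz => by simp [z2 z hz]
    exact (continuousOn_pi.1 (cd k).star.continuousOn i).mul (continuousOn_pi.1
      (gga_mv (fun i j => (hσ1 k l i j).continuousOn) (cd l).continuousOn) i)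
  have pw : ∀ z, κ * ∑ k, nsq (dk k φ z) ≤ 2 * nsq (Pop C.c e B φ z) + 2 * |M| * nsq (φ z) -
      RCLike.re (∑ k, ∑ l, star (dk k φ z) ⬝ᵥ (σ k l z *ᵥ dk l φ z)) := by
    intro z
    by_cases hz : z ∈ K
    · have h1 := gm_vec (hκ' z hz) fun k => dk k φ z
      have h2 := congrArg Complex.re (hσ3 z fun k => dk k φ z)
      rw [Complex.ofReal_re, Complex.add_re] at h2
      have h3 : ∑ a, C.c a *ᵥ ∑ k, (co (e a z) k : ℂ) • dk k φ z =
          Pop C.c e B φ z - B z *ᵥ φ z := by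
        simp only [Pop, add_sub_cancel_right, gga_dir]
      rw [h3] at h2
      have h4 := gga_sub (Pop C.c e B φ z) (B z *ᵥ φ z)
      have h5 := (gga_mul (B z) (φ z)).trans (mul_le_mul_of_nonneg_right
        (((le_abs_self _).trans (hM z hz)).trans (le_abs_self M)) (gga_nn (φ z)))
      rw [RCLike.re_to_complex]
      linarith
    · simp [Pop, z0 z hz, z1 z hz, z2 z hz, gga_zero]
  have i5 : Integrable fun z => 2 * nsq (Pop C.c e B φ z) + 2 * |M| * nsq (φ z) :=
    (i2.const_mul 2).add (i3.const_mul (2 * |M|))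
  have h1 := integral_mono (i1.const_mul κ) (i5.sub i4.re) pw
  simp only [Pi.sub_apply] at h1
  rw [integral_sub i5 i4.re,
    integral_add (i2.const_mul 2) (i3.const_mul (2 * |M|)), integral_const_mul, integral_const_mul,
    integral_const_mul, integral_re i4] at h1
  have h2 := hA φ hφ
  have h3 := (abs_le.1 (RCLike.abs_re_le_norm
    (∫ z, ∑ k, ∑ l, star (dk k φ z) ⬝ᵥ (σ k l z *ᵥ dk l φ z)))).1
  have h4 : 0 ≤ ∫ z, nsq (Pop C.c e B φ z) := integral_nonneg fun z => gga_nn _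
  have h5 : 0 ≤ ∫ z, nsq (φ z) := integral_nonneg fun z => gga_nn _
  have h6 := mul_le_mul_of_nonneg_right (le_abs_self A) h5
  have h7 := mul_nonneg (add_nonneg (mul_nonneg zero_le_two (abs_nonneg M)) (abs_nonneg A)) h4
  rw [div_mul_eq_mul_div, div_mul_eq_mul_div, le_div_iff₀ hκ]
  nlinarith

end Vale.Agent.P267I
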