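import Vale.Agent.P267I.GLin

open scoped Manifold ContDiff Topology InnerProductSpace
open Filter Matrix MeasureTheory Set

noncomputable section

namespace Vale.Agent.P267I

open Vale.Agent.P267F

variable {N : ℕ} {C : Cl N} {U : Set C2} {e : Fin 4 → C2 → C2} {B : C2 → Mat N}

/-- Clifford multiplication by a coordinate covector. -/
def gga1_A (C : Cl N) (e : Fin 4 → C2 → C2) (k : Fin 4) (z : C2) : Mat N :=
  ∑ a, (co (e a z) k : ℂ) • C.c a

theorem gga1_H (k : Fin 4) (z : C2) : (gga1_A C e k z)ᴴ = -gga1_A C e k z := by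
  unfold gga1_A
  rw [conjTranspose_sum, ← Finset.sum_neg_distrib]
  refine Finset.sum_congr rfl fun a _ => ?_
  rw [conjTranspose_smul, C.skew, smul_neg, Complex.star_def, Complex.conj_ofReal]

theorem gga1_rel (k l : Fin 4) (z : C2) :
    gga1_A C e k z * gga1_A C e l z + gga1_A C e l z * gga1_A C e k z =
      (-2 * (gm e k l z : ℂ)) • (1 : Mat N) := by
  have e1 : gga1_A C e k z * gga1_A C e l z =
      ∑ a, ∑ b, ((co (e a z) k : ℂ) * (co (e b z) l : ℂ)) • (C.c a * C.c b) := by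
    unfold gga1_A
    rw [Finset.sum_mul_sum]
    simp only [smul_mul_smul_comm]
  have e2 : gga1_A C e l z * gga1_A C e k z =
      ∑ a, ∑ b, ((co (e a z) k : ℂ) * (co (e b z) l : ℂ)) • (C.c b * C.c a) := by
    unfold gga1_A
    rw [Finset.sum_mul_sum, Finset.sum_comm]
    simp only [smul_mul_smul_comm, mul_comm (co (e _ z) l : ℂ)]
  rw [e1, e2, ← Finset.sum_add_distrib]
  simp only [← Finset.sum_add_distrib, ← smul_add, C.rel, smul_ite, smul_zero,
    Finset.sum_ite_eq, Finset.mem_univ, if_true, smul_smul]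
  rw [← Finset.sum_smul]
  congr 1
  unfold gm
  push_cast
  rw [Finset.mul_sum]
  exact Finset.sum_congr rfl fun a _ => mul_comm _ _

theorem gga1_sm (h : LocOp U e B) (k : Fin 4) (i j : Fin N) :
    ContDiffOn ℝ ∞ (fun z => gga1_A C e k z i j) U := by
  have : (fun z => gga1_A C e k z i j) = fun z => ∑ a, (co (e a z) k : ℂ) * C.c a i j := by
    funext z
    simp [gga1_A, Matrix.sum_apply]
  rw [this]
  exact ContDiffOn.sum fun a _ => (Complex.ofRealCLM.contDiff.comp_contDiffOn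
    ((co_sm k).comp_contDiffOn (h.e_sm a))).mul contDiffOn_const

theorem gga1_nsq (v : Vec N) : ((nsq v : ℝ) : ℂ) = star v ⬝ᵥ v := by
  unfold nsq dotProduct
  push_cast
  refine Finset.sum_congr rfl fun i _ => ?_
  rw [Pi.star_apply, Complex.star_def, Complex.conj_mul']

/-- The pointwise Clifford identity. -/
theorem cl_nsq (C : Cl N) (h : LocOp U e B) : ∃ σ : Fin 4 → Fin 4 → C2 → Mat N,
    (∀ k l i j, ContDiffOn ℝ ∞ (fun z => σ k l z i j) U) ∧ (∀ k l z, σ k l z = -σ l k z) ∧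
    ∀ (z : C2) (y : Fin 4 → Vec N),
      ((nsq (∑ a, C.c a *ᵥ ∑ k, (co (e a z) k : ℂ) • y k) : ℝ) : ℂ) =
        ∑ k, ∑ l, (gm e k l z : ℂ) * (star (y k) ⬝ᵥ y l) +
          ∑ k, ∑ l, star (y k) ⬝ᵥ (σ k l z *ᵥ y l) := by
  refine ⟨fun k l z => (-(1 / 2) : ℂ) •
    (gga1_A C e k z * gga1_A C e l z - gga1_A C e l z * gga1_A C e k z),
    fun k l i j => ?_, fun k l z => ?_, fun z y => ?_⟩
  · simp only [Matrix.smul_apply, Matrix.sub_apply, Matrix.mul_apply, smul_eq_mul]
    exact contDiffOn_const.mul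
      ((ContDiffOn.sum fun m _ => (gga1_sm h k i m).mul (gga1_sm h l m j)).sub
        (ContDiffOn.sum fun m _ => (gga1_sm h l i m).mul (gga1_sm h k m j)))
  · rw [← smul_neg, neg_sub]
  · have e1 : ∑ a, C.c a *ᵥ ∑ k, (co (e a z) k : ℂ) • y k = ∑ k, gga1_A C e k z *ᵥ y k := by
      unfold gga1_A
      simp only [Matrix.mulVec_sum, Matrix.sum_mulVec, Matrix.mulVec_smul, Matrix.smul_mulVec]
      exact Finset.sum_comm
    rw [e1, gga1_nsq, star_sum, sum_dotProduct, ← Finset.sum_add_distrib]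
    refine Finset.sum_congr rfl fun k _ => ?_
    rw [dotProduct_sum, ← Finset.sum_add_distrib]
    refine Finset.sum_congr rfl fun l _ => ?_
    have e2 : -gga1_A C e k z * gga1_A C e l z = (gm e k l z : ℂ) • (1 : Mat N) + (-(1 / 2) : ℂ) •
        (gga1_A C e k z * gga1_A C e l z - gga1_A C e l z * gga1_A C e k z) := by
      rw [neg_mul, eq_sub_of_add_eq' (gga1_rel (C := C) (e := e) k l z)]
      module
    rw [star_mulVec, ← dotProduct_mulVec, mulVec_mulVec, gga1_H, e2, add_mulVec, dotProduct_add,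
      smul_mulVec, one_mulVec, dotProduct_smul, smul_eq_mul]

/-- Positivity for vector valued covectors. -/
theorem gm_vec {κ : ℝ} {z : C2}
    (hκ : ∀ ξ : Fin 4 → ℝ, κ * ∑ k, ξ k ^ 2 ≤ ∑ k, ∑ l, gm e k l z * ξ k * ξ l)
    (y : Fin 4 → Vec N) :
    κ * ∑ k, nsq (y k) ≤ (∑ k, ∑ l, (gm e k l z : ℂ) * (star (y k) ⬝ᵥ y l)).re := by
  have e1 : κ * ∑ k, nsq (y k) =
      ∑ i, (κ * ∑ k, (y k i).re ^ 2 + κ * ∑ k, (y k i).im ^ 2) := by
    unfold nsq
    rw [Finset.sum_comm, Finset.mul_sum]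
    refine Finset.sum_congr rfl fun i _ => ?_
    rw [← mul_add, ← Finset.sum_add_distrib]
    congr 1
    refine Finset.sum_congr rfl fun k _ => ?_
    rw [Complex.sq_norm, Complex.normSq_apply]
    ring
  have e2 : (∑ k, ∑ l, (gm e k l z : ℂ) * (star (y k) ⬝ᵥ y l)).re =
      ∑ i, (∑ k, ∑ l, gm e k l z * (y k i).re * (y l i).re +
        ∑ k, ∑ l, gm e k l z * (y k i).im * (y l i).im) := by
    have e3 : ∀ k l, ((gm e k l z : ℂ) * (star (y k) ⬝ᵥ y l)).re =
        ∑ i, (gm e k l z * (y k i).re * (y l i).re + gm e k l z * (y k i).im * (y l i).im) := by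
      intro k l
      rw [Complex.re_ofReal_mul, dotProduct, Complex.re_sum, Finset.mul_sum]
      refine Finset.sum_congr rfl fun i _ => ?_
      rw [Pi.star_apply, Complex.star_def, Complex.mul_re, Complex.conj_re, Complex.conj_im]
      ring
    simp only [Complex.re_sum, e3, ← Finset.sum_add_distrib]
    rw [Finset.sum_congr rfl fun k _ => Finset.sum_comm]
    exact Finset.sum_comm
  rw [e1, e2]
  exact Finset.sum_le_sum fun i _ => add_le_add (hκ _) (hκ _)

end Vale.Agent.P267I
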