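import Vale.Agent.P267I.GExt

open scoped Manifold ContDiff Topology InnerProductSpace
open Filter Matrix MeasureTheory Set

noncomputable section

namespace Vale.Agent.P267I

open Vale.Agent.P267F

variable {X : Type} [TopologicalSpace X] [ChartedSpace C2 X] [MeasurableSpace X] [BorelSpace X]
  {N : ℕ} {S : Pre X N} {B : X → C2 → Mat N}

omit [BorelSpace X] in
theorem gglue_inv (S : Pre X N) (p x : X) (v : Vec N) : (S.U p x)ᴴ *ᵥ (S.U p x *ᵥ v) = v := by
  rw [mulVec_mulVec, S.U_unit, one_mulVec]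

omit [BorelSpace X] in
theorem gglue_U (S : Pre X N) (p q : X) (i j : Fin N) :
    ContinuousOn (fun y => (S.U p y * (S.U q y)ᴴ) i j) (S.W p ∩ S.W q) := by
  refine ((S.U_sm p q i j).continuousOn.comp
    ((chartAt C2 p).continuousOn.mono (inter_subset_left.trans (S.W_sub p)))
    (mapsTo_image _ _)).congr fun y hy => ?_
  simp only [Function.comp_apply, (chartAt C2 p).left_inv (S.W_sub p hy.1)]

/-- A section which is smooth almost everywhere in each chart is smooth almost everywhere. -/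
theorem glue_ae (hX : IsSurface X) {r : X → Vec N}
    (h : ∀ p, ∃ w : C2 → Vec N, ContDiffOn ℝ ∞ w (S.V p) ∧ ∀ᵐ z, z ∈ S.V p → S.loc p r z = w z) :
    ∃ w, S.Sm w ∧ ∀ᵐ x ∂S.μ, r x = w x := by
  choose w hw hae using h
  have := mu_pos S
  have ae1 : ∀ p, ∀ᵐ x ∂S.μ, x ∈ S.W p → S.U p x *ᵥ r x = w p (chartAt C2 p x) := fun p => by
    refine (chart_ae S p fun x => S.U p x *ᵥ r x = w p (chartAt C2 p x)).2 ?_
    filter_upwards [hae p] with z hz hm
    have e := hz hm
    obtain ⟨x, hx, rfl⟩ := hm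
    rw [(chartAt C2 p).left_inv (S.W_sub p hx), ← e, loc_chart S hx]
  have c1 : ∀ p, ContinuousOn (fun y => w p (chartAt C2 p y)) (S.W p) := fun p =>
    (hw p).continuousOn.comp ((chartAt C2 p).continuousOn.mono (S.W_sub p)) (mapsTo_image _ _)
  have key : ∀ p q, EqOn (fun y => w p (chartAt C2 p y))
      (fun y => (S.U p y * (S.U q y)ᴴ) *ᵥ w q (chartAt C2 q y)) (S.W p ∩ S.W q) := fun p q => by
    have ho := (S.W_open p).inter (S.W_open q)
    refine Measure.eqOn_open_of_ae_eq (μ := S.μ) ?_ ho ((c1 p).mono inter_subset_left) ?_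
    · refine (ae_restrict_iff' ho.measurableSet).2 ?_
      filter_upwards [ae1 p, ae1 q] with y h1 h2 hy
      rw [← h1 hy.1, ← h2 hy.2, ← mulVec_mulVec, gglue_inv]
    · refine continuousOn_pi.2 fun i => ?_
      exact continuousOn_finsetSum Finset.univ fun j _ => (gglue_U S p q i j).mul
        (continuousOn_pi.1 ((c1 q).mono inter_subset_right) j)
  have k2 : ∀ p, ∀ x ∈ S.W p,
      S.U p x *ᵥ ((S.U x x)ᴴ *ᵥ w x (chartAt C2 x x)) = w p (chartAt C2 p x) := fun p x hx => by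
    rw [mulVec_mulVec]
    exact (key p x ⟨hx, S.W_mem x⟩).symm
  refine ⟨fun x => (S.U x x)ᴴ *ᵥ w x (chartAt C2 x x), fun p => (hw p).congr ?_, ?_⟩
  · rintro _ ⟨x, hx, rfl⟩
    rw [loc_chart S hx]
    exact k2 p x hx
  · obtain ⟨l, p, χ, -, -, -, -, hc⟩ := cut_cover hX S
    filter_upwards [ae_all_iff.2 fun a => ae1 (p a)] with x hx
    obtain ⟨a, ha, -⟩ := hc x
    rw [← gglue_inv S (p a) x (r x), hx a ha, ← k2 _ x ha, gglue_inv]

end Vale.Agent.P267I
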