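import Vale.Agent.P267I.GBas

open scoped Manifold ContDiff Topology InnerProductSpace
open Filter Matrix MeasureTheory Set

noncomputable section

namespace Vale.Agent.P267I

open Vale.Agent.P267F

variable {X : Type} [TopologicalSpace X] [ChartedSpace C2 X] [MeasurableSpace X] [BorelSpace X]
  {N : ℕ} {S : Pre X N} {B : X → C2 → Mat N}

theorem gint_sub (S : Pre X N) (p : X) : S.V p ⊆ (chartAt C2 p).target := by
  rintro _ ⟨x, hx, rfl⟩
  exact (chartAt C2 p).map_source (S.W_sub p hx)

theorem gint_emb (S : Pre X N) (p : X) :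
    MeasurableEmbedding fun z : S.V p => (chartAt C2 p).symm z :=
  ((chartAt C2 p).symm.isOpenEmbedding_restrict.comp (Topology.IsOpenEmbedding.inclusion
    (gint_sub S p) ((V_open S p).preimage continuous_subtype_val))).measurableEmbedding

theorem gint_eq (S : Pre X N) (p : X) : S.μ.restrict (S.W p) =
    Measure.map (fun z : S.V p => (chartAt C2 p).symm z)
      (Measure.comap Subtype.val (volume.withDensity fun z => ENNReal.ofReal (S.rho p z))) := by
  have hV := (V_open S p).measurableSet
  have h1 : S.μ.restrict (S.W p) = Measure.map (chartAt C2 p).symm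
      ((volume.withDensity fun z => ENNReal.ofReal (S.rho p z)).restrict (S.V p)) := by
    rw [restrict_withDensity hV]
    exact S.μ_eq p
  have h2 := ((chartAt C2 p).continuousOn_symm.mono (gint_sub S p)).aemeasurable
    (μ := volume.withDensity fun z => ENNReal.ofReal (S.rho p z)) hV
  rw [h1]
  rw [← map_comap_subtype_coe hV] at h2 ⊢
  exact h2.map_map_of_aemeasurable measurable_subtype_coe.aemeasurable

theorem gint_rho (S : Pre X N) (p : X) :
    AEMeasurable (fun z => ENNReal.ofReal (S.rho p z)) (volume.restrict (S.V p)) :=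
  ((rho_sm S p).continuousOn.aemeasurable (V_open S p).measurableSet).ennreal_ofReal

/-- The integral of a function supported in `W p`, computed in the chart. -/
theorem chart_int {E : Type} [NormedAddCommGroup E] [NormedSpace ℝ E] (S : Pre X N) (p : X)
    (F : X → E) : ∫ x in S.W p, F x ∂S.μ =
      ∫ z in S.V p, S.rho p z • F ((chartAt C2 p).symm z) := by
  have hV := (V_open S p).measurableSet
  rw [gint_eq, (gint_emb S p).integral_map,
    integral_subtype_comap hV fun z => F ((chartAt C2 p).symm z), restrict_withDensity hV,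
    integral_withDensity_eq_integral_toReal_smul₀ (gint_rho S p)
      (ae_of_all _ fun _ => ENNReal.ofReal_lt_top)]
  exact setIntegral_congr_fun hV fun z hz => by
    simp only [ENNReal.toReal_ofReal (rho_pos S p z hz).le]

theorem chart_integrable {E : Type} [NormedAddCommGroup E] [NormedSpace ℝ E] (S : Pre X N)
    (p : X) (F : X → E) : IntegrableOn F (S.W p) S.μ ↔
      IntegrableOn (fun z => S.rho p z • F ((chartAt C2 p).symm z)) (S.V p) := by
  have hV := (V_open S p).measurableSet
  rw [IntegrableOn, gint_eq, (gint_emb S p).integrable_map_iff]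
  refine (integrableOn_iff_comap_subtypeVal (f := fun z => F ((chartAt C2 p).symm z))
    hV).symm.trans ?_
  rw [IntegrableOn, restrict_withDensity hV, integrable_withDensity_iff_integrable_smul₀'
    (gint_rho S p) (ae_of_all _ fun _ => ENNReal.ofReal_lt_top)]
  exact integrableOn_congr_fun (fun z hz => by
    simp only [ENNReal.toReal_ofReal (rho_pos S p z hz).le]) hV

theorem chart_ae (S : Pre X N) (p : X) (Q : X → Prop) :
    (∀ᵐ x ∂S.μ, x ∈ S.W p → Q x) ↔ ∀ᵐ z, z ∈ S.V p → Q ((chartAt C2 p).symm z) := by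
  have hV := (V_open S p).measurableSet
  rw [← ae_restrict_iff' (S.W_open p).measurableSet, gint_eq, (gint_emb S p).ae_map_iff]
  refine (ae_restrict_iff_subtype (p := fun z => Q ((chartAt C2 p).symm z)) hV).symm.trans ?_
  rw [restrict_withDensity hV, ae_withDensity_iff' (gint_rho S p), ae_restrict_iff' hV]
  exact eventually_congr (Eventually.of_forall fun z => imp_congr_right fun hz =>
    imp_iff_right (ENNReal.ofReal_pos.2 (rho_pos S p z hz)).ne')

theorem mu_finite (hX : IsSurface X) (S : Pre X N) : IsFiniteMeasure S.μ := by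
  have := hX.2.2.1
  have : IsLocallyFiniteMeasure S.μ := ⟨fun p => by
    obtain ⟨K, hK, hp, hKV⟩ := exists_compact_subset (V_open S p) ⟨p, S.W_mem p, rfl⟩
    refine ⟨S.W p ∩ chartAt C2 p ⁻¹' K, inter_mem ((S.W_open p).mem_nhds (S.W_mem p))
      ((chartAt C2 p).continuousAt (mem_chart_source C2 p) (mem_interior_iff_mem_nhds.1 hp)), ?_⟩
    rw [← Measure.restrict_eq_self S.μ inter_subset_left, gint_eq, (gint_emb S p).map_apply,
      (MeasurableEmbedding.subtype_coe (V_open S p).measurableSet).comap_apply]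
    refine (measure_mono (t := K) ?_).trans_lt ?_
    · rintro _ ⟨z, hz, rfl⟩
      have h := hz.2
      rwa [mem_preimage, (chartAt C2 p).right_inv (gint_sub S p z.2)] at h
    · rw [withDensity_apply _ hK.measurableSet]
      exact (((rho_sm S p).continuousOn.mono hKV).integrableOn_compact hK).setLIntegral_lt_top⟩
  infer_instance

theorem mu_pos (S : Pre X N) : S.μ.IsOpenPosMeasure := by
  refine ⟨fun U hU ⟨p, hp⟩ h0 => ?_⟩
  have h1 := (chart_ae S p fun x => x ∉ U).1
    ((measure_eq_zero_iff_ae_notMem.1 h0).mono fun x hx _ => hx)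
  have hO : IsOpen (S.V p ∩ (chartAt C2 p).symm ⁻¹' U) :=
    ((chartAt C2 p).continuousOn_symm.mono (gint_sub S p)).isOpen_inter_preimage (V_open S p) hU
  refine hO.measure_ne_zero volume ⟨chartAt C2 p p, ⟨p, S.W_mem p, rfl⟩, ?_⟩
    (measure_eq_zero_iff_ae_notMem.2 (h1.mono fun z hz h => hz h.1 h.2))
  rwa [mem_preimage, (chartAt C2 p).left_inv (mem_chart_source C2 p)]

/-- Finitely many cut-offs in charts whose plateaus cover `X`. -/
theorem cut_cover (hX : IsSurface X) (S : Pre X N) :
    ∃ (l : ℕ) (p : Fin l → X) (χ : Fin l → C2 → ℝ), (∀ a, ContDiff ℝ ∞ (χ a)) ∧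
      (∀ a, HasCompactSupport (χ a)) ∧ (∀ a, tsupport (χ a) ⊆ S.V (p a)) ∧
      (∀ a z, 0 ≤ χ a z ∧ χ a z ≤ 1) ∧
      ∀ x, ∃ a, x ∈ S.W (p a) ∧ χ a (chartAt C2 (p a) x) = 1 := by
  have := hX.2.2.1
  have h : ∀ p : X, ∃ χ : C2 → ℝ, ContDiff ℝ ∞ χ ∧ HasCompactSupport χ ∧ tsupport χ ⊆ S.V p ∧
      (∀ z, 0 ≤ χ z ∧ χ z ≤ 1) ∧ {x | x ∈ S.W p ∧ χ (chartAt C2 p x) = 1} ∈ 𝓝 p := by
    intro p
    obtain ⟨ε, hε, hb⟩ := Metric.nhds_basis_closedBall.mem_iff.1
      ((V_open S p).mem_nhds ⟨p, S.W_mem p, rfl⟩)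
    let f : ContDiffBump (chartAt C2 p p) := ⟨ε / 2, ε, half_pos hε, half_lt_self hε⟩
    refine ⟨f, f.contDiff, f.hasCompactSupport, f.tsupport_eq.trans_subset hb,
      fun z => ⟨f.nonneg, f.le_one⟩, inter_mem ((S.W_open p).mem_nhds (S.W_mem p)) ?_⟩
    exact ((chartAt C2 p).continuousAt (mem_chart_source C2 p)).eventually f.eventuallyEq_one
  choose χ h1 h2 h3 h4 h5 using h
  obtain ⟨t, ht⟩ := CompactSpace.elim_nhds_subcover _ h5
  refine ⟨t.card, fun a => (t.equivFin.symm a).1, fun a => χ (t.equivFin.symm a).1,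
    fun a => h1 _, fun a => h2 _, fun a => h3 _, fun a => h4 _, fun x => ?_⟩
  obtain ⟨q, hq, hx⟩ := mem_iUnion₂.1 (ht.ge (mem_univ x))
  refine ⟨t.equivFin ⟨q, hq⟩, ?_⟩
  simp only [Equiv.symm_apply_apply]
  exact hx

theorem gint_loc {s : X → Vec N} (hs : S.Sm s) (p : X) :
    ContinuousAt (fun x => S.loc p s (chartAt C2 p x)) p :=
  ((hs p).continuousOn.continuousAt ((V_open S p).mem_nhds ⟨p, S.W_mem p, rfl⟩)).comp
    ((chartAt C2 p).continuousAt (mem_chart_source C2 p))

theorem dot_cont {s t : X → Vec N} (hs : S.Sm s) (ht : S.Sm t) :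
    Continuous fun x => star (s x) ⬝ᵥ t x := by
  have hc : Continuous fun q : Vec N × Vec N => star q.1 ⬝ᵥ q.2 :=
    continuous_fst.star.dotProduct continuous_snd
  refine continuous_iff_continuousAt.2 fun p => ?_
  refine (hc.continuousAt.comp ((gint_loc hs p).prodMk (gint_loc ht p))).congr ?_
  filter_upwards [(S.W_open p).mem_nhds (S.W_mem p)] with x hx
  simp only [Function.comp_apply, loc_chart S hx, dot_U]

theorem nsq_cont {s : X → Vec N} (hs : S.Sm s) : Continuous fun x => nsq (s x) := by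
  have hc : Continuous fun v : Vec N => nsq v := by
    unfold nsq
    fun_prop
  refine continuous_iff_continuousAt.2 fun p => ?_
  refine (hc.continuousAt.comp (gint_loc hs p)).congr ?_
  filter_upwards [(S.W_open p).mem_nhds (S.W_mem p)] with x hx
  simp only [Function.comp_apply, loc_chart S hx, nsq_U]

end Vale.Agent.P267I
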