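import Vale.Agent.P267I.G0
import Vale.Agent.P267I.GInt

/-! L2 basics for any system: mu is finite and positive on open sets (mu_eq, compactness), smooth sections have continuous pointwise products (U unitary: star (s x) . t x = star (loc s) . loc t). -/

open scoped Manifold ContDiff Topology ComplexConjugate
open Filter Matrix MeasureTheory

noncomputable section

namespace Vale.Agent.P267I.G

open Vale.Agent.P267F

variable (E : Ext)
variable {X : Type} [TopologicalSpace X] [ChartedSpace C2 X] [MeasurableSpace X] [BorelSpace X]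
  {N : ℕ} {S : Pre X N} {B : X → C2 → Mat N}

theorem cont_dot {s t : X → Vec N} (hs : S.Sm s) (ht : S.Sm t) : Continuous fun x => star (s x) ⬝ᵥ t x := by
  exact dot_cont hs ht

theorem mu_fin (hX : IsSurface X) : IsFiniteMeasure S.μ := by
  exact mu_finite hX S

theorem mu_pos : S.μ.IsOpenPosMeasure := by
  exact Vale.Agent.P267I.mu_pos S

theorem int_dot (hX : IsSurface X) {s t : X → Vec N} (hs : S.Sm s) (ht : S.Sm t) :
    Integrable (fun x => star (s x) ⬝ᵥ t x) S.μ := by
  have := mu_fin (S := S) hX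
  have := hX.2.2.1
  exact (cont_dot hs ht).integrable_of_hasCompactSupport (HasCompactSupport.of_compactSpace _)

theorem ip_nonneg (s : X → Vec N) : 0 ≤ (S.ip s s).re ∧ (S.ip s s).im = 0 := by
  have h : S.ip s s = ((∫ x, nsq (s x) ∂S.μ : ℝ) : ℂ) := by
    rw [Pre.ip, ← integral_complex_ofReal]
    simp only [gbas_nsq]
  rw [h, Complex.ofReal_re, Complex.ofReal_im]
  exact ⟨integral_nonneg fun x => Finset.sum_nonneg fun i _ => by positivity, rfl⟩

theorem ip_def (hX : IsSurface X) {s : X → Vec N} (hs : S.Sm s) (h : (S.ip s s).re ≤ 0) : s = 0 := by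
  have := mu_fin (S := S) hX
  have := mu_pos (S := S)
  have := hX.2.2.1
  have h1 : S.ip s s = ((∫ x, nsq (s x) ∂S.μ : ℝ) : ℂ) := by
    rw [Pre.ip, ← integral_complex_ofReal]
    simp only [gbas_nsq]
  have h0 : ∀ x, 0 ≤ nsq (s x) := fun x => Finset.sum_nonneg fun i _ => by positivity
  rw [h1, Complex.ofReal_re] at h
  have h2 := (integral_eq_zero_iff_of_nonneg h0 ((nsq_cont hs).integrable_of_hasCompactSupport
    (HasCompactSupport.of_compactSpace _))).1 (le_antisymm h (integral_nonneg h0))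
  have h3 := (Continuous.ae_eq_iff_eq S.μ (nsq_cont hs) continuous_zero).1 h2
  funext x i
  have h4 : nsq (s x) = 0 := congrFun h3 x
  have h5 := (Finset.sum_eq_zero_iff_of_nonneg fun i _ => by positivity).1 h4 i (Finset.mem_univ i)
  simpa using h5

theorem sm_add {s t : X → Vec N} (hs : S.Sm s) (ht : S.Sm t) : S.Sm (s + t) := by
  exact S.SmS.add_mem hs ht

theorem sm_smul (c : ℂ) {s : X → Vec N} (hs : S.Sm s) : S.Sm (c • s) := by
  exact S.SmS.smul_mem c hs

theorem sm_D (h : S.IsOp B) {s : X → Vec N} (hs : S.Sm s) : S.Sm (S.D B s) := by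
  exact Vale.Agent.P267I.sm_D h hs

theorem D_add {s t : X → Vec N} (hs : S.Sm s) (ht : S.Sm t) : S.D B (s + t) = S.D B s + S.D B t := by
  exact Vale.Agent.P267I.D_add hs ht

theorem D_smul (c : ℂ) {s : X → Vec N} (hs : S.Sm s) : S.D B (c • s) = c • S.D B s := by
  exact Vale.Agent.P267I.D_smul c hs

theorem sm_gam {s : X → Vec N} (hs : S.Sm s) : S.Sm fun x => S.gam *ᵥ s x := by
  exact Vale.Agent.P267I.sm_gam hs

theorem D_gam (h : S.IsOp B) {s : X → Vec N} (hs : S.Sm s) (x : X) :
    S.D B (fun y => S.gam *ᵥ s y) x = -(S.gam *ᵥ S.D B s x) := by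
  exact congrFun (Vale.Agent.P267I.D_gam h hs) x

end Vale.Agent.P267I.G
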