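import Vale.Agent.P267I.GG
import Vale.Agent.P267I.GE2
import Vale.Agent.P267I.GP

/-! Assembly through P267I.Hodge (I6A) on the submodule of smooth sections. -/

open scoped Manifold ContDiff Topology ComplexConjugate
open Filter Matrix MeasureTheory

noncomputable section

namespace Vale.Agent.P267I.G

open Vale.Agent.P267F

variable (E : Ext)
variable {X : Type} [TopologicalSpace X] [ChartedSpace C2 X] [MeasurableSpace X] [BorelSpace X]
  {S : Pre X 16} {B : X → C2 → Mat 16}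

theorem gh_quot {V W : Type} [AddCommGroup V] [Module ℂ V] [AddCommGroup W] [Module ℂ W]
    (φ : V →ₗ[ℂ] W) (hφ : Function.Injective φ) (Z Y : Submodule ℂ V) :
    Module.finrank ℂ (Z ⧸ Y.submoduleOf Z) =
      Module.finrank ℂ (Z.map φ ⧸ (Y.map φ).submoduleOf (Z.map φ)) := by
  refine (Submodule.Quotient.equiv _ _ (Submodule.equivMapOfInjective φ hφ Z) ?_).finrank_eq
  ext w
  constructor
  · rintro ⟨z, hz, rfl⟩
    exact ⟨z.1, hz, rfl⟩
  · rintro ⟨y, hy, e⟩
    obtain ⟨z, hz, e'⟩ := w.2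
    have h1 : y = z := hφ (e.trans e'.symm)
    subst h1
    exact ⟨⟨y, hz⟩, hy, Subtype.ext e'⟩

variable (S) in
/-- Smooth sections. -/
def ghV : Submodule ℂ (X → Vec 16) where
  carrier := {s | S.Sm s}
  add_mem' := fun a b => sm_add a b
  zero_mem' := fun p => contDiffOn_const.congr (f := fun _ => 0) fun z _ => by simp [Pre.loc]
  smul_mem' := fun c _ a => sm_smul c a

/-- A constant matrix acting on smooth sections. -/
def ghM (M : Mat 16) (h : ∀ s, S.Sm s → S.Sm fun x => M *ᵥ s x) : ghV S →ₗ[ℂ] ghV S where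
  toFun s := ⟨fun x => M *ᵥ s.1 x, h _ s.2⟩
  map_add' a b := Subtype.ext (funext fun x => mulVec_add M (a.1 x) (b.1 x))
  map_smul' c a := Subtype.ext (funext fun x => mulVec_smul M c (a.1 x))

/-- The operator on smooth sections. -/
def ghD (h : S.IsOp B) : ghV S →ₗ[ℂ] ghV S where
  toFun s := ⟨S.D B s.1, sm_D h s.2⟩
  map_add' a b := Subtype.ext (D_add a.2 b.2)
  map_smul' c a := Subtype.ext (D_smul c a.2)

variable (S) in
/-- The form of a smooth section. -/
def ghU : ghV S →ₗ[ℂ] (X → Vec 16) where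
  toFun s := un E S s.1
  map_add' a b := funext fun x => mulVec_add _ (a.1 x) (b.1 x)
  map_smul' c a := funext fun x => mulVec_smul _ c (a.1 x)

theorem gh_un (hX : IsSurface X) (h : Sig E S B) {s : X → Vec 16} (hs : S.Sm s) :
    SmF E (un E S s) := (sm_fr E hX h).1 (by rwa [fr_un])

theorem gh_pr (k : Fin 5) (s : X → Vec 16) :
    (fun x => E.pr k *ᵥ s x) = fr E S fun y => E.pr k *ᵥ un E S s y := by
  funext x
  rw [← pr_fr, fr_un]

theorem gh_smp (hX : IsSurface X) (h : Sig E S B) (k : Fin 5) (s : X → Vec 16) (hs : S.Sm s) :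
    S.Sm fun x => E.pr k *ᵥ s x := by
  rw [gh_pr E (S := S)]
  exact (sm_fr E hX h).2 (smF_pr E k (gh_un E hX h hs))

theorem gh_ker (h : S.IsOp B) (τ : ghV S →ₗ[ℂ] ghV S) (hτ : ∀ s x, (τ s).1 x = -(S.gam *ᵥ s.1 x))
    (ε : ℂ) : S.Ker B ε = (hEig (ghD h) τ (-ε)).map (ghV S).subtype := by
  refine le_antisymm (Submodule.span_le.2 fun s hs => ⟨⟨s, hs.1⟩, mem_hEig.2 ⟨Subtype.ext hs.2.1,
    Subtype.ext (funext fun x => ?_)⟩, rfl⟩) ?_
  · rw [hτ]
    change -(S.gam *ᵥ s x) = -ε • s x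
    rw [hs.2.2, neg_smul]
  · rintro _ ⟨s, hs, rfl⟩
    obtain ⟨h1, h2⟩ := mem_hEig.1 hs
    refine Submodule.subset_span ⟨s.2, congrArg Subtype.val h1, fun x => ?_⟩
    have h3 : (τ s).1 x = -ε • s.1 x := congrFun (congrArg Subtype.val h2) x
    rw [hτ, neg_smul] at h3
    exact neg_injective h3

/-- The projections. -/
def ghP (hX : IsSurface X) (h : Sig E S B) (k : Fin 5) : ghV S →ₗ[ℂ] ghV S :=
  ghM (E.pr k) (gh_smp E hX h k)

variable (S) in
/-- The involution. -/
def ghT : ghV S →ₗ[ℂ] ghV S := -ghM S.gam fun _ hs => sm_gam hs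

/-- The raising part. -/
def ghd (hX : IsSurface X) (h : Sig E S B) : ghV S →ₗ[ℂ] ghV S :=
  ∑ k : Fin 4, ghP E hX h k.succ ∘ₗ ghD h.op ∘ₗ ghP E hX h k.castSucc

/-- The lowering part. -/
def ghe (hX : IsSurface X) (h : Sig E S B) : ghV S →ₗ[ℂ] ghV S :=
  ∑ k : Fin 4, ghP E hX h k.castSucc ∘ₗ ghD h.op ∘ₗ ghP E hX h k.succ

theorem gh_main (hX : IsSurface X) (h : Good E S B) (hH : Hdg S) :
    ghd E hX h.sig + ghe E hX h.sig = ghD h.sig.op ∧
    (∀ a, (ghd E hX h.sig a).1 = fr E S (dN E (un E S a.1))) ∧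
    Hodge (fun a b : ghV S => S.ip a.1 b.1) (ghP E hX h.sig) (ghd E hX h.sig) (ghe E hX h.sig)
      (ghT S) := by
  have hg : S.gam = gm E := by simp only [Cl.gam, gm, h.sig.c]
  let P := ghP E hX h.sig
  let D := ghD h.sig.op
  let τ := ghT S
  let d := ghd E hX h.sig
  let de := ghe E hX h.sig
  let ip : ghV S → ghV S → ℂ := fun a b => S.ip a.1 b.1
  have hd : ∀ a, d a = ∑ k : Fin 4, P k.succ (D (P k.castSucc a)) := fun a => by
    simp only [d, ghd, P, D, LinearMap.sum_apply, LinearMap.comp_apply]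
  have he : ∀ a, de a = ∑ k : Fin 4, P k.castSucc (D (P k.succ a)) := fun a => by
    simp only [de, ghe, P, D, LinearMap.sum_apply, LinearMap.comp_apply]
  have hsum : ∀ a, ∑ p, P p a = a := fun a => Subtype.ext (funext fun x => by
    rw [Submodule.coe_sum, Finset.sum_apply]
    change ∑ p, E.pr p *ᵥ a.1 x = _
    rw [← sum_mulVec, E.pr_sum, one_mulVec])
  have hidem : ∀ p q a, P p (P q a) = if p = q then P q a else 0 := fun p q a =>
    Subtype.ext (funext fun x => by
      change E.pr p *ᵥ (E.pr q *ᵥ a.1 x) = _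
      rw [mulVec_mulVec, E.pr_mul]
      split_ifs
      · rfl
      · exact zero_mulVec _)
  have hz : ∀ (k l : Fin 5) a, (k : ℕ) ≠ l + 1 → (l : ℕ) ≠ k + 1 → P k (D (P l a)) = 0 :=
    fun k l a h1 h2 => Subtype.ext (funext fun x => D_deg E h.sig a.2 h1 h2 x)
  have hD : d + de = D := LinearMap.ext fun a => by
    have e : D a = ∑ k, ∑ l, P k (D (P l a)) := by simp only [← map_sum, hsum]
    rw [LinearMap.add_apply, hd, he, e]
    simp only [Fin.sum_univ_five, Fin.sum_univ_four]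
    rw [hz 0 0 a (by decide) (by decide), hz 0 2 a (by decide) (by decide),
      hz 0 3 a (by decide) (by decide), hz 0 4 a (by decide) (by decide),
      hz 1 1 a (by decide) (by decide), hz 1 3 a (by decide) (by decide),
      hz 1 4 a (by decide) (by decide), hz 2 0 a (by decide) (by decide),
      hz 2 2 a (by decide) (by decide), hz 2 4 a (by decide) (by decide),
      hz 3 0 a (by decide) (by decide), hz 3 1 a (by decide) (by decide),
      hz 3 3 a (by decide) (by decide), hz 4 0 a (by decide) (by decide),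
      hz 4 1 a (by decide) (by decide), hz 4 2 a (by decide) (by decide),
      hz 4 4 a (by decide) (by decide)]
    change P 1 (D (P 0 a)) + P 2 (D (P 1 a)) + P 3 (D (P 2 a)) + P 4 (D (P 3 a)) +
      (P 0 (D (P 1 a)) + P 1 (D (P 2 a)) + P 2 (D (P 3 a)) + P 3 (D (P 4 a))) = _
    abel
  have hdN : ∀ a, (d a).1 = fr E S (dN E (un E S a.1)) := fun a => funext fun x => by
    have hs := gh_un E hX h.sig a.2
    have e : ∀ k : Fin 4, (P k.succ (D (P k.castSucc a))).1 x =
        E.pr k.succ *ᵥ fr E S (dN E (un E S a.1)) x := fun k => by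
      change E.pr k.succ *ᵥ S.D B (fun y => E.pr k.castSucc *ᵥ a.1 y) x = _
      rw [gh_pr E (S := S), h.d _ hs, pr_fr]
      exact congrFun (congrArg _ (funext fun y => (pr_dN E k hs y).symm)) x
    have e0 : E.pr 0 *ᵥ fr E S (dN E (un E S a.1)) x = 0 := by
      rw [pr_fr]
      simp [fr, pr0_dN]
    rw [hd, Submodule.coe_sum, Finset.sum_apply]
    simp only [e]
    rw [← zero_add (∑ _, _), ← e0, ← Fin.sum_univ_succ fun k => E.pr k *ᵥ _, ← sum_mulVec,
      E.pr_sum, one_mulVec]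
  have hal : ∀ a b c, ip (a + b) c = ip a c + ip b c := fun a b c => by
    simp only [ip, Pre.ip, Submodule.coe_add, Pi.add_apply, star_add, add_dotProduct]
    exact integral_add (int_dot hX a.2 c.2) (int_dot hX b.2 c.2)
  have har : ∀ a b c, ip a (b + c) = ip a b + ip a c := fun a b c => by
    simp only [ip, Pre.ip, Submodule.coe_add, Pi.add_apply, dotProduct_add]
    exact integral_add (int_dot hX a.2 b.2) (int_dot hX a.2 c.2)
  have hP : ∀ k a b, ip (P k a) b = ip a (P k b) := fun k a b =>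
    integral_congr_ae (.of_forall fun x => by
      change star (E.pr k *ᵥ a.1 x) ⬝ᵥ b.1 x = star (a.1 x) ⬝ᵥ E.pr k *ᵥ b.1 x
      rw [star_mulVec, E.pr_star, dotProduct_mulVec])
  have hS : ∀ a b, ip (D a) b = ip a (D b) := fun a b => h.sig.op.symm _ _ a.2 b.2
  have H : Hodge ip P d de τ :=
    { addl := hal, addr := har
      nonneg := fun a => (ip_nonneg a.1).1
      defin := fun a ha => Subtype.ext (ip_def hX a.2 ha)
      sum := hsum, idem := hidem
      dd := fun a => Subtype.ext (by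
        rw [hdN, hdN, un_fr, dN_dN E hX (gh_un E hX h.sig a.2)]
        funext x
        simp [fr])
      adj := fun a b => by simp only [hd, he, Fin.sum_univ_four, hal, har, hP, hS]
      adj' := fun a b => by simp only [hd, he, Fin.sum_univ_four, hal, har, hP, hS]
      d0 := fun a => by simp [hd, hidem, (Fin.succ_ne_zero _).symm]
      dS := fun p a => by
        simp [hd, hidem, apply_ite, Fin.succ_inj, Fin.castSucc_inj]
      e4 := fun a => by
        have : ∀ k : Fin 4, (4 : Fin 5) ≠ k.castSucc := by decide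
        simp [he, hidem, this]
      eS := fun p a => by
        simp [he, hidem, apply_ite, Fin.succ_inj, Fin.castSucc_inj]
      tt := fun a => Subtype.ext (funext fun x => by
        change -(S.gam *ᵥ (-(S.gam *ᵥ a.1 x))) = a.1 x
        rw [mulVec_neg, neg_neg, mulVec_mulVec, hg, gm_sq, one_mulVec])
      tD := fun a => by
        rw [hD]
        simp only [τ, ghT, LinearMap.neg_apply, map_neg, neg_neg]
        exact Subtype.ext (funext fun x => (D_gam h.sig.op a.2 x).symm)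
      tp := fun p a => Subtype.ext (funext fun x => by
        change E.pr p *ᵥ (-(S.gam *ᵥ a.1 x)) = -(S.gam *ᵥ (E.pr p.rev *ᵥ a.1 x))
        rw [mulVec_neg, mulVec_mulVec, mulVec_mulVec, hg, pr_gm])
      green := fun s => by
        obtain ⟨k, t, h1, h2, h3, h4⟩ := (hH B h.sig.op).2 s.1 s.2
        rw [hD]
        exact ⟨⟨k, h1⟩, ⟨t, h2⟩, Subtype.ext h3, Subtype.ext h4⟩ }
  exact ⟨hD, hdN, H⟩

theorem hodge (hX : IsSurface X) (h : Good E S B) (hH : Hdg S) : ∃ bp bm : ℕ,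
    S.ind B = -((bp : ℤ) - bm) ∧
    bp + bm = Module.finrank ℂ (ZO E X ⧸ (BO E X).submoduleOf (ZO E X)) ∧
    (0 < bp → ∃ F, SD E S F) := by
  have hg : S.gam = gm E := by simp only [Cl.gam, gm, h.sig.c]
  obtain ⟨P, d, de, τ, hP, hτ, hD, hdN, H⟩ : ∃ (P : Fin 5 → ghV S →ₗ[ℂ] ghV S)
      (d de τ : ghV S →ₗ[ℂ] ghV S), (∀ k a, (P k a).1 = fun x => E.pr k *ᵥ a.1 x) ∧
      (∀ s x, (τ s).1 x = -(S.gam *ᵥ s.1 x)) ∧ d + de = ghD h.sig.op ∧
      (∀ a, (d a).1 = fr E S (dN E (un E S a.1))) ∧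
      Hodge (fun a b : ghV S => S.ip a.1 b.1) P d de τ :=
    ⟨_, _, _, _, fun _ _ => rfl, fun _ _ => rfl, gh_main E hX h hH⟩
  have hK : ∀ ε, S.Ker B ε = (hEig (d + de) τ (-ε)).map (ghV S).subtype := fun ε => by
    rw [hD]
    exact gh_ker h.sig.op τ hτ ε
  have hF : ∀ ε, FiniteDimensional ℂ (hEig (d + de) τ (-ε)) := fun ε => by
    have := (hH B h.sig.op).1 ε
    rw [hK] at this
    exact (Submodule.equivMapOfInjective _ (ghV S).injective_subtype _).symm.finiteDimensional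
  have hfin : FiniteDimensional ℂ (LinearMap.ker (d + de)) := by
    have f1 := hF 1
    have f2 := hF (-1)
    refine Submodule.finiteDimensional_of_le
      (S₂ := hEig (d + de) τ (-1) ⊔ hEig (d + de) τ (- -1)) fun a ha => ?_
    have h1 : (d + de) a = 0 := ha
    refine Submodule.mem_sup.2 ⟨(2 : ℂ)⁻¹ • (a - τ a), Submodule.smul_mem _ _ (mem_hEig.2 ⟨?_, ?_⟩),
      (2 : ℂ)⁻¹ • (a + τ a), Submodule.smul_mem _ _ (mem_hEig.2 ⟨?_, ?_⟩), ?_⟩
    · rw [map_sub, h1, H.harm_t h1, sub_zero]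
    · rw [map_sub, H.tt, neg_one_smul, neg_sub]
    · rw [map_add, h1, H.harm_t h1, add_zero]
    · rw [map_add, H.tt, neg_neg, one_smul, add_comm]
    · rw [← smul_add, sub_add_add_cancel, ← two_smul ℂ, inv_smul_smul₀ two_ne_zero]
  have hU : Function.Injective (ghU E S) := fun a b e => Subtype.ext (by
    rw [← fr_un E (S := S) a.1, ← fr_un E (S := S) b.1]
    exact congrArg _ e)
  have hup : ∀ k a, ghU E S (P k a) = fun y => E.pr k *ᵥ un E S a.1 y := fun k a => by
    change un E S (P k a).1 = _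
    rw [hP, gh_pr E (S := S), un_fr]
  have hud : ∀ a, ghU E S (d a) = dN E (un E S a.1) := fun a => by
    change un E S (d a).1 = _
    rw [hdN, un_fr]
  have hZ1 : ∀ a, d a = 0 → P 2 a = a → ghU E S a ∈ ZO E X := fun a h1 h2 =>
    (mem_ZO E).2 ⟨gh_un E hX h.sig a.2, by rw [← show _ = dN E (ghU E S a) from hud a, h1, map_zero],
      fun x => congrFun ((hup 2 a).symm.trans (congrArg _ h2)) x⟩
  have eZ : (hZ P d).map (ghU E S) = ZO E X := by
    refine le_antisymm ?_ fun F hF => ?_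
    · rintro _ ⟨a, ha, rfl⟩
      exact hZ1 a ha.1 (H.mem2.1 ha.2)
    · obtain ⟨h1, h2, h3⟩ := (mem_ZO E).1 hF
      obtain ⟨a, ha⟩ : ∃ a : ghV S, a.1 = fr E S F := ⟨⟨_, (sm_fr E hX h.sig).2 h1⟩, rfl⟩
      have hb : un E S a.1 = F := by rw [ha, un_fr]
      have h4 : d a = 0 := hU (by rw [hud, map_zero, hb, h2])
      have h5 : P 2 a = a := hU (by
        rw [hup, hb]
        exact (funext h3).trans hb.symm)
      exact ⟨a, ⟨h4, H.mem2.2 h5⟩, hb⟩
  have eB : (hB P d).map (ghU E S) = BO E X := by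
    have e : ∀ a, ghU E S (d (P 1 a)) = dN E fun x => E.pr 1 *ᵥ un E S a.1 x := fun a =>
      (hud _).trans (congrArg _ (hup 1 a))
    refine le_antisymm ?_ fun F hF => ?_
    · rintro _ ⟨_, ⟨a, rfl⟩, rfl⟩
      exact (mem_BO E).2 ⟨_, gh_un E hX h.sig a.2, e a⟩
    · obtain ⟨G, h1, rfl⟩ := (mem_BO E).1 hF
      obtain ⟨a, ha⟩ : ∃ a : ghV S, a.1 = fr E S G := ⟨⟨_, (sm_fr E hX h.sig).2 h1⟩, rfl⟩
      refine ⟨d (P 1 a), ⟨a, rfl⟩, ?_⟩
      rw [e, ha, un_fr]
  obtain ⟨bp, bm, h1, h2, h3⟩ := H.index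
  refine ⟨bp, bm, ?_, ?_, fun h0 => ?_⟩
  · rw [Pre.ind, hK, hK, Submodule.finrank_map_subtype_eq, Submodule.finrank_map_subtype_eq, neg_neg,
      ← h1]
    ring
  · rw [h2, gh_quot _ hU, eB, eZ]
  · obtain ⟨a, a0, a1, a2, a3⟩ := h3 h0
    obtain ⟨b1, b2, b3⟩ := (mem_ZO E).1 (hZ1 a a1 a2)
    refine ⟨ghU E S a, b1, fun e => a0 (hU (e.trans (map_zero _).symm)), b2, b3, fun x => ?_⟩
    change gm E *ᵥ fr E S (un E S a.1) x = -fr E S (un E S a.1) x
    rw [fr_un, ← hg]
    exact neg_eq_iff_eq_neg.1 ((hτ a x).symm.trans (congrFun (congrArg Subtype.val a3) x))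

end Vale.Agent.P267I.G
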