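import Vale.Agent.P267I.GE2
import Vale.Agent.P267I.GC2

/-! Comparison of the two descriptions of forms. of1 θ x = v1 (fun a => θ x (bs a)), of2 α x = v2 (fun a b => α x (bs a) (bs b)). inChart2 of to2 F on bs a, bs b is c2 (locF F p z) (c2_lam, sum_co); everything is bilinear in v, w, so expand by sum_co. co (bs a) j = if j = a then 1 else 0. -/

open scoped Manifold ContDiff Topology ComplexConjugate
open Filter Matrix MeasureTheory

noncomputable section

namespace Vale.Agent.P267I.G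

open Vale.Agent.P267F

variable (E : Ext)
variable {X : Type} [TopologicalSpace X] [ChartedSpace C2 X]

/-- The coordinates as linear maps. -/
def GI_co (j : Fin 4) : C2 →L[ℝ] ℝ :=
  ![Complex.reCLM.comp (ContinuousLinearMap.proj 0), Complex.imCLM.comp (ContinuousLinearMap.proj 0),
    Complex.reCLM.comp (ContinuousLinearMap.proj 1),
    Complex.imCLM.comp (ContinuousLinearMap.proj 1)] j

theorem GI_co_eq (j : Fin 4) (v : C2) : GI_co j v = co v j := by
  fin_cases j <;> rfl

theorem GI_exp {W : Type} [NormedAddCommGroup W] [NormedSpace ℝ W] (L : C2 →L[ℝ] W) (v : C2) :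
    L v = ∑ a, co v a • L (bs a) := by
  conv_lhs => rw [← sum_co v]
  simp only [map_sum, map_smul]

theorem GI_jm (L : C2 →L[ℝ] C2) (v : C2) (j : Fin 4) :
    ((co (L v) j : ℝ) : ℂ) = ∑ a, (co v a : ℂ) * jm L j a := by
  rw [← GI_co_eq, GI_exp L v, map_sum]
  simp only [map_smul, GI_co_eq, smul_eq_mul, Complex.ofReal_sum, Complex.ofReal_mul, jm,
    Matrix.of_apply]

/-- The coefficients as linear maps. -/
def GI_c2 (a b : Fin 4) : Vec 16 →L[ℝ] ℂ :=
  LinearMap.toContinuousLinearMap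
    { toFun := fun v => c2 E v a b
      map_add' := fun v w => by simp only [c2, mulVec_add, dotProduct_add]
      map_smul' := fun c v => by simp only [c2, mulVec_smul, dotProduct_smul, RingHom.id_apply] }

theorem GI_c2_eq (a b : Fin 4) (v : Vec 16) : GI_c2 E a b v = c2 E v a b := rfl

/-- The form on two vectors as a linear map. -/
def GI_T (v w : C2) : Vec 16 →L[ℝ] ℂ := ∑ a, ∑ b, ((co v a * co w b : ℝ) : ℂ) • GI_c2 E a b

theorem GI_T_eq (v w : C2) (y : Vec 16) :
    GI_T E v w y = ∑ a, ∑ b, ((co v a * co w b : ℝ) : ℂ) * c2 E y a b := by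
  simp only [GI_T, ContinuousLinearMap.sum_apply, ContinuousLinearMap.smul_apply, GI_c2_eq,
    smul_eq_mul]

theorem GI_s1 (v w : Fin 4 → ℂ) (J : M4) (c : Fin 4 → Fin 4 → ℂ) :
    ∑ j, ∑ k, (∑ a, v a * J j a) * (∑ b, w b * J k b) * c j k =
      ∑ a, ∑ b, v a * w b * ∑ j, ∑ k, J j a * J k b * c j k := by
  simp only [Fin.sum_univ_four]
  ring

theorem GI_s2 (u v w : Fin 4 → ℂ) (C : Fin 4 → Fin 4 → Fin 4 → ℂ) :
    ∑ k, u k * ∑ a, ∑ b, v a * w b * C k a b + ∑ k, v k * ∑ a, ∑ b, w a * u b * C k a b +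
      ∑ k, w k * ∑ a, ∑ b, u a * v b * C k a b =
      ∑ k, ∑ a, ∑ b, u k * v a * w b * (C k a b + C a b k + C b k a) := by
  simp only [Fin.sum_univ_four]
  ring

theorem co_bs (a j : Fin 4) : co (bs a) j = if j = a then 1 else 0 := by
  fin_cases a <;> fin_cases j <;> simp [co, bs]

theorem GI_T_bs (a b : Fin 4) (y : Vec 16) : GI_T E (bs a) (bs b) y = c2 E y a b := by
  rw [GI_T_eq, Finset.sum_eq_single a, Finset.sum_eq_single b]
  · simp [co_bs]
  · intro k _ hk
    simp [co_bs, hk]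
  · simp
  · intro j _ hj
    simp [co_bs, hj]
  · simp

theorem to2_bs (F : X → Vec 16) (x : X) (a b : Fin 4) : to2 E F x (bs a) (bs b) = c2 E (F x) a b := by
  rw [to2, ← GI_T_eq, GI_T_bs]

theorem chart_to2 (F : X → Vec 16) (p : X) {z : C2} (hz : z ∈ (chartAt C2 p).target) (v w : C2) :
    inChart2 (chartAt C2 p) (to2 E F) z v w =
      ∑ a, ∑ b, ((co v a * co w b : ℝ) : ℂ) * c2 E (locF E F p z) a b := by
  simp only [inChart2, to2, locF, jac, c2_lam, (chartAt C2 p).right_inv hz, Complex.ofReal_mul,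
    GI_jm]
  exact GI_s1 _ _ _ _

theorem GI_ev (F : X → Vec 16) (p : X) {z : C2} (hz : z ∈ (chartAt C2 p).target) (v w : C2) :
    (fun y => inChart2 (chartAt C2 p) (to2 E F) y v w) =ᶠ[𝓝 z] GI_T E v w ∘ locF E F p := by
  filter_upwards [(chartAt C2 p).open_target.mem_nhds hz] with y hy
  rw [chart_to2 E F p hy, Function.comp_apply, GI_T_eq]

theorem sm2_to2 {F : X → Vec 16} (h : SmF E F) : Sm2 (to2 E F) := by
  refine ⟨fun x => ⟨∑ a, ∑ b, (GI_co a).smulRight ((GI_co b).smulRight (c2 E (F x) a b)), ?_, ?_⟩,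
    fun p v w => ?_⟩
  · intro v
    simp only [ContinuousLinearMap.sum_apply, ContinuousLinearMap.smulRight_apply,
      ContinuousLinearMap.smul_apply, GI_co_eq]
    rw [← self_eq_neg, ← Finset.sum_neg_distrib, Finset.sum_comm]
    refine Finset.sum_congr rfl fun a _ => ?_
    rw [← Finset.sum_neg_distrib]
    refine Finset.sum_congr rfl fun b _ => ?_
    rw [c2_anti E (F x) b a, smul_neg, smul_neg, smul_comm]
  · intro v w
    simp only [to2, ContinuousLinearMap.sum_apply, ContinuousLinearMap.smulRight_apply,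
      ContinuousLinearMap.smul_apply, GI_co_eq, Complex.real_smul, Complex.ofReal_mul, mul_assoc]
  · filter_upwards [h p, (chartAt C2 p).open_target.mem_nhds (mem_chart_target C2 p)] with z hz ht
    exact ((GI_T E v w).contDiff.contDiffAt.comp z hz).congr_of_eventuallyEq (GI_ev E F p ht v w)

theorem GI_fd {F : X → Vec 16} (h : SmF E F) (p : X) (u v w : C2) :
    fderiv ℝ (fun y => inChart2 (chartAt C2 p) (to2 E F) y v w) (chartAt C2 p p) u =
      GI_T E v w (fderiv ℝ (locF E F p) (chartAt C2 p p) u) := by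
  rw [(GI_ev E F p (mem_chart_target C2 p) v w).fderiv_eq,
    ((GI_T E v w).hasFDerivAt.comp _
      ((h p).self_of_nhds.differentiableAt (by simp)).hasFDerivAt).fderiv]
  rfl

theorem closed_to2 {F : X → Vec 16} (h : SmF E F) (h2 : ∀ x, E.pr 2 *ᵥ F x = F x) :
    Closed2 (to2 E F) ↔ dN E F = 0 := by
  have h3 : ∀ p, dN E F p = 0 ↔ ∀ a b c,
      c2 E (fderiv ℝ (locF E F p) (chartAt C2 p p) (bs a)) b c +
        c2 E (fderiv ℝ (locF E F p) (chartAt C2 p p) (bs b)) c a +
        c2 E (fderiv ℝ (locF E F p) (chartAt C2 p p) (bs c)) a b = 0 := fun p => by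
    have h4 : E.pr 3 *ᵥ dN E F p = dN E (fun y => E.pr 2 *ᵥ F y) p := pr_dN E 2 h p
    rw [funext h2] at h4
    rw [← h4]
    exact pr3_x E fun k => fderiv ℝ (locF E F p) (chartAt C2 p p) (bs k)
  constructor
  · intro hc
    refine funext fun p => (h3 p).2 fun a b c => ?_
    have h5 := hc.2 p (bs a) (bs b) (bs c)
    simpa only [extD2, GI_fd E h, GI_T_bs] using h5
  · intro hd
    refine ⟨sm2_to2 E h, fun p u v w => ?_⟩
    have h5 := (h3 p).1 (congrFun hd p)
    have h6 : ∀ u v w : C2, GI_T E v w (fderiv ℝ (locF E F p) (chartAt C2 p p) u) =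
        ∑ k, (co u k : ℂ) * ∑ a, ∑ b, (co v a : ℂ) * (co w b : ℂ) *
          c2 E (fderiv ℝ (locF E F p) (chartAt C2 p p) (bs k)) a b := fun u v w => by
      rw [GI_exp (fderiv ℝ (locF E F p) (chartAt C2 p p)) u, map_sum]
      simp only [map_smul, GI_T_eq, Complex.real_smul, Complex.ofReal_mul]
    simp only [extD2, GI_fd E h, h6]
    rw [GI_s2 (fun k => (co u k : ℂ)) (fun k => (co v k : ℂ)) (fun k => (co w k : ℂ))
      fun k a b => c2 E (fderiv ℝ (locF E F p) (chartAt C2 p p) (bs k)) a b]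
    simp only [h5, mul_zero, Finset.sum_const_zero]

theorem ex_to2 {α : Form2 X} (h : Sm2 α) :
    ∃ F, SmF E F ∧ (∀ x, E.pr 2 *ᵥ F x = F x) ∧ to2 E F = α := by
  have ha : ∀ x a b, α x (bs a) (bs b) = -α x (bs b) (bs a) := fun x a b => by
    obtain ⟨B, h0, h1⟩ := h.1 x
    have h2 := h0 (bs a + bs b)
    simp only [map_add, ContinuousLinearMap.add_apply, h0] at h2
    rw [h1, h1]
    linear_combination h2
  have hc : ∀ x, c2 E (v2 E fun a b => α x (bs a) (bs b)) = fun a b => α x (bs a) (bs b) :=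
    fun x => c2_v2 E (ha x)
  have hp : ∀ x, E.pr 2 *ᵥ (v2 E fun a b => α x (bs a) (bs b)) =
      v2 E fun a b => α x (bs a) (bs b) := fun x => by rw [← v2_c2, hc]
  have ht : to2 E (fun x => v2 E fun a b => α x (bs a) (bs b)) = α := by
    funext x v w
    obtain ⟨B, -, h1⟩ := h.1 x
    rw [to2, hc]
    simp only [h1]
    rw [GI_exp B v, ContinuousLinearMap.sum_apply]
    refine Finset.sum_congr rfl fun a _ => ?_
    rw [ContinuousLinearMap.smul_apply, GI_exp (B (bs a)) w, Finset.smul_sum]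
    simp only [Complex.real_smul, Complex.ofReal_mul, mul_assoc]
  refine ⟨fun x => v2 E fun a b => α x (bs a) (bs b), fun p => ?_, hp, ht⟩
  filter_upwards [eventually_all.2 fun a => eventually_all.2 fun b => h.2 p (bs a) (bs b),
    (chartAt C2 p).open_target.mem_nhds (mem_chart_target C2 p)] with z hz hz'
  have h1 : ContDiffAt ℝ ∞
      (fun y => v2 E fun a b => inChart2 (chartAt C2 p) α y (bs a) (bs b)) z :=
    (ContDiffAt.sum fun a _ => ContDiffAt.sum fun b _ =>
      (hz a b).smul contDiffAt_const).const_smul (1 / 2 : ℂ)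
  refine h1.congr_of_eventuallyEq ?_
  filter_upwards [(chartAt C2 p).open_target.mem_nhds hz'] with y hy
  have h2 : (fun a b => inChart2 (chartAt C2 p) α y (bs a) (bs b)) =
      c2 E (locF E (fun x => v2 E fun a b => α x (bs a) (bs b)) p y) := by
    funext a b
    conv_lhs => rw [← ht]
    rw [chart_to2 E _ p hy, ← GI_T_eq, GI_T_bs]
  rw [h2, v2_c2, locF, mulVec_mulVec, pr_lam, ← mulVec_mulVec, hp]

end Vale.Agent.P267I.G
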