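import Vale.Agent.P267I.GI

/-! One-forms. to1 G x = the real linear map v to sum a, co v a * c1 (G x) a (LinearMap.toContinuousLinearMap); inChart of it on bs a is c1 (locF G p z) a (c1_lam); c2_x gives extD. -/

open scoped Manifold ContDiff Topology ComplexConjugate
open Filter Matrix MeasureTheory

noncomputable section

namespace Vale.Agent.P267I.G

open Vale.Agent.P267F

variable (E : Ext)
variable {X : Type} [TopologicalSpace X] [ChartedSpace C2 X]

/-- The coefficients in degree one as linear maps. -/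
def GI2_c1 (a : Fin 4) : Vec 16 →L[ℝ] ℂ :=
  LinearMap.toContinuousLinearMap
    { toFun := fun v => c1 E v a
      map_add' := fun v w => by simp only [c1, mulVec_add, dotProduct_add]
      map_smul' := fun c v => by simp only [c1, mulVec_smul, dotProduct_smul, RingHom.id_apply] }

theorem GI2_c1_eq (a : Fin 4) (v : Vec 16) : GI2_c1 E a v = c1 E v a := rfl

/-- The form on one vector as a linear map. -/
def GI2_T (w : C2) : Vec 16 →L[ℝ] ℂ := ∑ a, ((co w a : ℝ) : ℂ) • GI2_c1 E a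

theorem GI2_T_eq (w : C2) (y : Vec 16) :
    GI2_T E w y = ∑ a, ((co w a : ℝ) : ℂ) * c1 E y a := by
  simp only [GI2_T, ContinuousLinearMap.sum_apply, ContinuousLinearMap.smul_apply, GI2_c1_eq,
    smul_eq_mul]

theorem GI2_T_bs (a : Fin 4) (y : Vec 16) : GI2_T E (bs a) y = c1 E y a := by
  rw [GI2_T_eq, Finset.sum_eq_single a]
  · simp [co_bs]
  · intro j _ hj
    simp [co_bs, hj]
  · simp

/-- The one-form of a form. -/
def GI2_to1 (G : X → Vec 16) : Form1 X := fun x => ∑ a, (GI_co a).smulRight (c1 E (G x) a)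

theorem GI2_to1_eq (G : X → Vec 16) (x : X) (w : C2) :
    GI2_to1 E G x w = ∑ a, ((co w a : ℝ) : ℂ) * c1 E (G x) a := by
  simp only [GI2_to1, ContinuousLinearMap.sum_apply, ContinuousLinearMap.smulRight_apply,
    GI_co_eq, Complex.real_smul]

theorem GI2_s1 (w : Fin 4 → ℂ) (J : M4) (c : Fin 4 → ℂ) :
    ∑ j, (∑ a, w a * J j a) * c j = ∑ a, w a * ∑ j, J j a * c j := by
  simp only [Fin.sum_univ_four]
  ring

theorem GI2_s2 (v w : Fin 4 → ℂ) (C : Fin 4 → Fin 4 → ℂ) :
    ∑ a, ∑ b, v a * w b * (C a b - C b a) =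
      ∑ k, v k * ∑ a, w a * C k a - ∑ k, w k * ∑ a, v a * C k a := by
  simp only [Fin.sum_univ_four]
  ring

theorem GI2_chart (G : X → Vec 16) (p : X) {z : C2} (hz : z ∈ (chartAt C2 p).target) (w : C2) :
    inChart (chartAt C2 p) (GI2_to1 E G) z w = GI2_T E w (locF E G p z) := by
  simp only [inChart, ContinuousLinearMap.comp_apply, GI2_to1_eq, GI2_T_eq, locF, jac, c1_lam,
    (chartAt C2 p).right_inv hz, GI_jm]
  exact GI2_s1 _ _ _

theorem GI2_ev (G : X → Vec 16) (p : X) {z : C2} (hz : z ∈ (chartAt C2 p).target) (w : C2) :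
    (fun y => inChart (chartAt C2 p) (GI2_to1 E G) y w) =ᶠ[𝓝 z] GI2_T E w ∘ locF E G p := by
  filter_upwards [(chartAt C2 p).open_target.mem_nhds hz] with y hy
  rw [GI2_chart E G p hy, Function.comp_apply]

theorem GI2_sm {G : X → Vec 16} (h : SmF E G) : Sm1 (GI2_to1 E G) := by
  intro p w
  filter_upwards [h p, (chartAt C2 p).open_target.mem_nhds (mem_chart_target C2 p)] with z hz ht
  exact ((GI2_T E w).contDiff.contDiffAt.comp z hz).congr_of_eventuallyEq (GI2_ev E G p ht w)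

theorem GI2_fd {G : X → Vec 16} (h : SmF E G) (p : X) (u w : C2) :
    fderiv ℝ (fun y => inChart (chartAt C2 p) (GI2_to1 E G) y w) (chartAt C2 p p) u =
      ∑ k, (co u k : ℂ) * ∑ a, (co w a : ℂ) *
        c1 E (fderiv ℝ (locF E G p) (chartAt C2 p p) (bs k)) a := by
  rw [(GI2_ev E G p (mem_chart_target C2 p) w).fderiv_eq,
    ((GI2_T E w).hasFDerivAt.comp _
      ((h p).self_of_nhds.differentiableAt (by simp)).hasFDerivAt).fderiv,
    ContinuousLinearMap.comp_apply, GI_exp (fderiv ℝ (locF E G p) (chartAt C2 p p)) u, map_sum]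
  simp only [map_smul, GI2_T_eq, Complex.real_smul]

theorem GI2_key {G : X → Vec 16} (h : SmF E G) :
    IsD (GI2_to1 E G) (to2 E (dN E fun x => E.pr 1 *ᵥ G x)) := by
  intro p v w
  have h4 : E.pr 2 *ᵥ dN E G p = dN E (fun y => E.pr 1 *ᵥ G y) p := pr_dN E 1 h p
  have h5 : c2 E (dN E (fun y => E.pr 1 *ᵥ G y) p) = c2 E (dN E G p) := by
    rw [← h4, ← v2_c2, c2_v2 E (c2_anti E _)]
  rw [to2, h5, extD, GI2_fd E h, GI2_fd E h]
  simp only [dN, dF, c2_x, Complex.ofReal_mul]
  exact GI2_s2 (fun k => (co v k : ℂ)) (fun k => (co w k : ℂ))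
    fun k a => c1 E (fderiv ℝ (locF E G p) (chartAt C2 p p) (bs k)) a

theorem ex_to1 {G : X → Vec 16} (h : SmF E G) :
    ∃ θ : Form1 X, Sm1 θ ∧ IsD θ (to2 E (dN E fun x => E.pr 1 *ᵥ G x)) :=
  ⟨GI2_to1 E G, GI2_sm E h, GI2_key E h⟩

theorem ex_of1 {θ : Form1 X} {α : Form2 X} (h : Sm1 θ) (hd : IsD θ α) :
    ∃ G, SmF E G ∧ to2 E (dN E fun x => E.pr 1 *ᵥ G x) = α := by
  have hp : ∀ x, E.pr 1 *ᵥ (v1 E fun a => θ x (bs a)) = v1 E fun a => θ x (bs a) := fun x => by
    rw [← v1_c1, c1_v1]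
  have ht : GI2_to1 E (fun x => v1 E fun a => θ x (bs a)) = θ := by
    funext x
    ext1 w
    rw [GI2_to1_eq, c1_v1, GI_exp (θ x) w]
    simp only [Complex.real_smul]
  have hs : SmF E fun x => v1 E fun a => θ x (bs a) := by
    intro p
    filter_upwards [eventually_all.2 fun a => h p (bs a),
      (chartAt C2 p).open_target.mem_nhds (mem_chart_target C2 p)] with z hz hz'
    have h1 : ContDiffAt ℝ ∞ (fun y => v1 E fun a => inChart (chartAt C2 p) θ y (bs a)) z :=
      ContDiffAt.sum fun a _ => (hz a).smul contDiffAt_const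
    refine h1.congr_of_eventuallyEq ?_
    filter_upwards [(chartAt C2 p).open_target.mem_nhds hz'] with y hy
    have h2 : (fun a => inChart (chartAt C2 p) θ y (bs a)) =
        c1 E (locF E (fun x => v1 E fun a => θ x (bs a)) p y) := by
      funext a
      conv_lhs => rw [← ht]
      rw [GI2_chart E _ p hy, GI2_T_bs]
    rw [h2, v1_c1, locF, mulVec_mulVec, pr_lam, ← mulVec_mulVec, hp]
  refine ⟨_, hs, ?_⟩
  funext p v w
  rw [GI2_key E hs p v w, ht, hd p v w]

end Vale.Agent.P267I.G
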