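import Vale.Agent.P267I.GI2

/-! to2 is linear, injective on degree two (to2_bs, v2_c2), maps ZO onto Z2 and BO onto B2 (Submodule.map_span or span_le); BO ≤ ZO by smF_dN, dN_dN, pr_dN. LinearEquiv.ofBijective, Submodule.Quotient.equiv. -/

open scoped Manifold ContDiff Topology ComplexConjugate
open Filter Matrix MeasureTheory

noncomputable section

namespace Vale.Agent.P267I.G

open Vale.Agent.P267F

variable (E : Ext)
variable {X : Type} [TopologicalSpace X] [ChartedSpace C2 X]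

theorem gi3_quot {V W : Type} [AddCommGroup V] [Module ℂ V] [AddCommGroup W] [Module ℂ W]
    (T : V →ₗ[ℂ] W) {B Z : Submodule ℂ V} (hB : B ≤ Z) (hT : ∀ v ∈ Z, T v = 0 → v = 0) :
    Module.finrank ℂ (Z ⧸ B.submoduleOf Z) =
      Module.finrank ℂ (Z.map T ⧸ (B.map T).submoduleOf (Z.map T)) := by
  have hi : Function.Injective (T.submoduleMap Z) := by
    refine (injective_iff_map_eq_zero _).2 fun v hv => Subtype.ext (hT v v.2 ?_)
    exact congrArg Subtype.val hv
  refine (Submodule.Quotient.equiv _ _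
    (LinearEquiv.ofBijective (T.submoduleMap Z) ⟨hi, T.submoduleMap_surjective Z⟩) ?_).finrank_eq
  ext y
  constructor
  · rintro ⟨x, hx, rfl⟩
    exact ⟨x.1, hx, rfl⟩
  · rintro ⟨b, hb, e⟩
    exact ⟨⟨b, hB hb⟩, hb, Subtype.ext e⟩

/-- The two-form of a form as a linear map. -/
def gi3_T (X : Type) : (X → Vec 16) →ₗ[ℂ] Form2 X where
  toFun := to2 E
  map_add' F G := by
    funext x v w
    simp only [to2, c2, Pi.add_apply, mulVec_add, dotProduct_add, mul_add, Finset.sum_add_distrib]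
  map_smul' c F := by
    funext x v w
    simp only [to2, c2, Pi.smul_apply, mulVec_smul, dotProduct_smul, smul_eq_mul, RingHom.id_apply,
      Finset.mul_sum]
    refine Finset.sum_congr rfl fun a _ => Finset.sum_congr rfl fun b _ => ?_
    ring

theorem gi3_Z : (ZO E X).map (gi3_T E X) = Z2 X := by
  rw [ZO, Z2, Submodule.map_span]
  congr 1
  ext α
  constructor
  · rintro ⟨F, ⟨h1, h2, h3⟩, rfl⟩
    exact (closed_to2 E h1 h3).2 h2
  · intro hα
    obtain ⟨F, h1, h3, rfl⟩ := ex_to2 E hα.1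
    exact ⟨F, ⟨h1, (closed_to2 E h1 h3).1 hα, h3⟩, rfl⟩

theorem gi3_B : (BO E X).map (gi3_T E X) = B2 X := by
  rw [BO, B2, Submodule.map_span]
  congr 1
  ext α
  constructor
  · rintro ⟨F, ⟨G, h1, rfl⟩, rfl⟩
    exact ex_to1 E h1
  · rintro ⟨θ, h1, h2⟩
    obtain ⟨G, k1, rfl⟩ := ex_of1 E h1 h2
    exact ⟨_, ⟨G, k1, rfl⟩, rfl⟩

theorem gi3_le (hX : IsSurface X) : BO E X ≤ ZO E X := by
  refine Submodule.span_mono ?_
  rintro F ⟨G, hG, rfl⟩
  have h1 := smF_pr E 1 hG
  refine ⟨smF_dN E hX h1, dN_dN E hX h1, fun x => ?_⟩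
  refine (pr_dN E 1 h1 x).trans ?_
  have e : E.pr (Fin.castSucc 1) * E.pr 1 = E.pr 1 := (E.pr_mul 1 1).trans (if_pos rfl)
  simp only [mulVec_mulVec, e]

theorem gi3_inj (F : X → Vec 16) (hF : F ∈ ZO E X) (h : gi3_T E X F = 0) : F = 0 := by
  funext x
  have h1 : c2 E (F x) = 0 := by
    funext a b
    rw [← to2_bs]
    exact congrFun (congrFun (congrFun h x) _) _
  rw [← ((mem_ZO E).1 hF).2.2 x, ← v2_c2, h1]
  simp [v2]

theorem rank_b2 (hX : IsSurface X) :
    Module.finrank ℂ (ZO E X ⧸ (BO E X).submoduleOf (ZO E X)) = b2dR X := by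
  rw [gi3_quot (gi3_T E X) (gi3_le E hX) (gi3_inj E), gi3_Z, gi3_B]
  rfl

end Vale.Agent.P267I.G
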