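import Vale.Agent.P267I.GE2
import Vale.Agent.P267I.GF
import Vale.Agent.P267I.GB
import Vale.Agent.P267I.GC

/-! Real part: F + star F or I • (F - star F) is nonzero; smF_star, dN_star, fr_star, gm_real, pr_real. -/

open scoped Manifold ContDiff Topology ComplexConjugate
open Filter Matrix MeasureTheory

noncomputable section

namespace Vale.Agent.P267I.G

open Vale.Agent.P267F

variable (E : Ext)
variable {X : Type} [TopologicalSpace X] [ChartedSpace C2 X] [MeasurableSpace X] [BorelSpace X]
  {S : Pre X 16} {B : X → C2 → Mat 16}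

theorem GJ_real {M : Mat 16} (h : ∀ i j, conj (M i j) = M i j) (v : Vec 16) :
    M *ᵥ star v = star (M *ᵥ v) := by
  ext i
  simp only [mulVec, dotProduct, Pi.star_apply, star_sum, star_mul', Complex.star_def, h]

theorem GJ_comb {F : X → Vec 16} (h : SD E S F) (a b : ℂ) (hne : a • F + b • star F ≠ 0) :
    SD E S (a • F + b • star F) := by
  obtain ⟨h1, -, h3, h4, h5⟩ := h
  have h6 := smF_star E h1
  refine ⟨smF_add E (smF_smul E a h1) (smF_smul E b h6), hne, ?_, fun x => ?_, fun x => ?_⟩
  · rw [dN_add E (smF_smul E a h1) (smF_smul E b h6), dN_smul E a h1, dN_smul E b h6,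
      dN_star E h1, h3]
    simp
  · rw [Pi.add_apply, Pi.smul_apply, Pi.smul_apply, Pi.star_apply, mulVec_add, mulVec_smul,
      mulVec_smul, GJ_real (E.pr_real 2), h4]
  · have e : fr E S (a • F + b • star F) x = a • fr E S F x + b • star (fr E S F x) := by
      rw [← Pi.star_apply (fr E S F), ← fr_star]
      simp only [fr, Pi.add_apply, Pi.smul_apply, mulVec_add, mulVec_smul]
    rw [e, mulVec_add, mulVec_smul, mulVec_smul, GJ_real (gm_real E), h5, star_neg, smul_neg,
      smul_neg, neg_add]

theorem sd_real {F : X → Vec 16} (h : SD E S F) : ∃ G, SD E S G ∧ star G = G := by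
  by_cases h1 : (1 : ℂ) • F + (1 : ℂ) • star F = 0
  · refine ⟨_, GJ_comb E h Complex.I (-Complex.I) fun h2 => h.2.1 ?_, ?_⟩
    · ext x i
      have a1 := congrFun (congrFun h1 x) i
      have a2 := congrFun (congrFun h2 x) i
      simp only [Pi.add_apply, Pi.smul_apply, smul_eq_mul, Pi.zero_apply] at a1 a2 ⊢
      linear_combination (1 / 2) * a1 - (Complex.I / 2) * a2 +
        ((F x i - star F x i) / 2) * Complex.I_mul_I
    · rw [star_add, star_smul, star_smul, star_star, add_comm]
      simp
  · refine ⟨_, GJ_comb E h 1 1 h1, ?_⟩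
    rw [star_add, star_smul, star_smul, star_star, add_comm, star_one]

theorem real_to2 {F : X → Vec 16} (h : star F = F) : Real2 (to2 E F) := by
  intro x v w
  have e : ∀ a b, (c2 E (F x) a b).im = 0 := fun a b => by
    rw [← Complex.conj_eq_iff_im, ← c2_star, ← Pi.star_apply F, h]
  simp only [to2, Complex.im_sum, Complex.im_ofReal_mul, e, mul_zero, Finset.sum_const_zero]

end Vale.Agent.P267I.G
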