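import Vale.Agent.P267I.GF
import Vale.Agent.P267I.GB
import Vale.Agent.P267I.GI

/-! Pointwise: gm_two with v = w = Gm *v locF (degree two, real, gm v = - v by loc_fr and U_gam), wedge_lam, Em_det; U is unitary. -/

open scoped Manifold ContDiff Topology ComplexConjugate
open Filter Matrix MeasureTheory

noncomputable section

namespace Vale.Agent.P267I.G

open Vale.Agent.P267F

variable (E : Ext)
variable {X : Type} [TopologicalSpace X] [ChartedSpace C2 X] [MeasurableSpace X] [BorelSpace X]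
  {S : Pre X 16} {B : X → C2 → Mat 16}

theorem GK_star {M : Mat 16} (h : ∀ i j, conj (M i j) = M i j) (w : Vec 16) :
    star (M *ᵥ w) = M *ᵥ star w := by
  funext i
  simp only [Pi.star_apply, mulVec, dotProduct, star_sum, star_mul', RCLike.star_def, h]

theorem GK_unit {U : Mat 16} (h : Uᴴ * U = 1) (f : Vec 16) :
    star (U *ᵥ f) ⬝ᵥ U *ᵥ f = star f ⬝ᵥ f := by
  rw [star_mulVec, dotProduct_mulVec, vecMul_vecMul, h, vecMul_one]

theorem wedge_sd (h : Sig E S B) {F : X → Vec 16} (hF : SD E S F) (hr : star F = F) {p x : X}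
    (hx : x ∈ S.W p) :
    wedge (coef2 (chartAt C2 p) (to2 E F) (chartAt C2 p x))
      (coef2 (chartAt C2 p) (to2 E F) (chartAt C2 p x)) =
      star (fr E S F x) ⬝ᵥ fr E S F x * (S.rho p (chartAt C2 p x) : ℂ) := by
  have hz : chartAt C2 p x ∈ S.V p := ⟨x, hx, rfl⟩
  have hs : (chartAt C2 p).symm (chartAt C2 p x) = x := (chartAt C2 p).left_inv (S.W_sub p hx)
  have h1 : coef2 (chartAt C2 p) (to2 E F) (chartAt C2 p x) =
      c2 E (locF E F p (chartAt C2 p x)) := by
    funext a b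
    rw [coef2, chart_to2 E F p ((chartAt C2 p).map_source (S.W_sub p hx))]
    simp [co_bs, apply_ite]
  have h2 : lam E (Em S p (chartAt C2 p x)) *ᵥ locF E F p (chartAt C2 p x) =
      S.U p x *ᵥ fr E S F x := by
    have := loc_fr E h F hz
    rw [Pre.loc, hs] at this
    exact this.symm
  have h3 : E.pr 2 *ᵥ S.U p x *ᵥ fr E S F x = S.U p x *ᵥ fr E S F x := by
    rw [mulVec_mulVec, pr_U E h 2 hx, ← mulVec_mulVec, pr_fr]
    simp only [hF.2.2.2.1]
  have h4 : star (S.U p x *ᵥ fr E S F x) = S.U p x *ᵥ fr E S F x := by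
    have e : star (F x) = F x := congrFun hr x
    rw [← h2, locF, hs,
      GK_star (lam_real E (J := Em S p (chartAt C2 p x)) fun j a => Complex.conj_ofReal _),
      GK_star (lam_real E (J := jac p x) fun j a => Complex.conj_ofReal _), e]
  have h5 : gm E *ᵥ S.U p x *ᵥ fr E S F x = -(S.U p x *ᵥ fr E S F x) := by
    have e : S.toCl.gam = gm E := by
      rw [Cl.gam, gm, ← h.c]
    rw [mulVec_mulVec, ← e, ← S.U_gam, e, ← mulVec_mulVec, hF.2.2.2.2 x, mulVec_neg]
  have h6 := gm_two E h3 h3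
  rw [h5, dotProduct_neg, GK_unit (S.U_unit p x), h4, neg_inj, ← h2, wedge_lam, Em_det] at h6
  have h7 : ((fdet fun a => S.e p a (chartAt C2 p x) : ℝ) : ℂ) ≠ 0 :=
    Complex.ofReal_ne_zero.2 (S.e_pos p _ hz).ne'
  rw [h1, h6, Pre.rho, Complex.ofReal_inv]
  field_simp

end Vale.Agent.P267I.G
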