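import Vale.Agent.P267I.GP
import Vale.Agent.P267I.GE
import Vale.Agent.P267I.GI
import Vale.Agent.P267CW.BK1
import Vale.Agent.P267CW.BK2

/-! Change of variables. For a holomorphic chart P the measure mu on P.source has a density in P: cover by countably (finitely) many W p, use mu_eq and integral_image_eq_integral_abs_det_fderiv_smul for chartAt p composed with P.symm, which is holomorphic (HolChart applied to the coordinates), so its real determinant is positive; coef2 P α z is coef2 (chartAt p) pulled back (chain rule), wedge scales by the determinant. Look for the same argument for Inter in P267 (grep HolChart, pairing). -/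

open scoped Manifold ContDiff Topology ComplexConjugate
open Filter Matrix MeasureTheory

noncomputable section

namespace Vale.Agent.P267I.G

open Vale.Agent.P267F

variable (E : Ext)
variable {X : Type} [TopologicalSpace X] [ChartedSpace C2 X] [MeasurableSpace X] [BorelSpace X]
  {S : Pre X 16} {B : X → C2 → Mat 16}

theorem GL_wedge (B : C2 →L[ℝ] C2 →L[ℝ] ℂ) (h : ∀ v, B v v = 0) (M L : C2 →L[ℝ] C2) :
    wedge (fun a b => B (M (L (bs a))) (M (L (bs b)))) (fun a b => B (M (L (bs a))) (M (L (bs b)))) =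
      (L.det : ℂ) * wedge (fun a b => B (M (bs a)) (M (bs b))) fun a b => B (M (bs a)) (M (bs b)) := by
  set J := LinearMap.toMatrix P267CW.BK1_b P267CW.BK1_b (L : C2 →ₗ[ℝ] C2) with hJ
  have hd : L.det = J.det := (LinearMap.det_toMatrix P267CW.BK1_b _).symm
  have hL : ∀ a, L (bs a) = ∑ c, J c a • bs c := fun a => by
    simp only [hJ, LinearMap.toMatrix_apply, ← P267CW.BK1_b_eq]
    exact (P267CW.BK1_b.sum_repr _).symm
  have sw : ∀ v w, B v w = -B w v := fun v w => by
    have := h (v + w)
    simp only [map_add, _root_.add_apply, h] at this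
    linear_combination this
  rw [hd, P267CW.BK1_det]
  simp only [wedge, hL, Fin.sum_univ_four, map_add, map_smul, _root_.add_apply, _root_.smul_apply, h,
    Complex.real_smul, sw (M (bs 1)) (M (bs 0)), sw (M (bs 2)) (M (bs 0)), sw (M (bs 3)) (M (bs 0)),
    sw (M (bs 2)) (M (bs 1)), sw (M (bs 3)) (M (bs 1)), sw (M (bs 3)) (M (bs 2))]
  push_cast
  ring

theorem GL_meas (P : OpenPartialHomeomorph X C2) {A : Set X} (hA : MeasurableSet A)
    (hs : A ⊆ P.source) : MeasurableSet (P '' A) := by
  have h1 := MeasurableSet.subtype_image P.open_target.measurableSet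
    (P.continuousOn_symm.domRestrict.measurable hA)
  rw [P.image_eq_target_inter_inv_preimage hs, ← Subtype.image_preimage_coe]
  exact h1

theorem GL_rho (S : Pre X 16) (p : X) : ContinuousOn (S.rho p) (S.V p) := by
  have h2 : ∀ a i, ContinuousOn (fun z => S.e p a z i) (S.V p) := fun a i =>
    continuousOn_pi.1 (S.e_sm p a).continuousOn i
  refine ContinuousOn.inv₀ ?_ fun z hz => (S.e_pos p z hz).ne'
  refine (Continuous.matrix_det continuous_id).comp_continuousOn
    (f := fun z => Matrix.of fun a b => co (S.e p a z) b) ?_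
  refine continuousOn_pi.2 fun a => continuousOn_pi.2 fun b => ?_
  fin_cases b
  · exact Complex.continuous_re.comp_continuousOn (h2 a 0)
  · exact Complex.continuous_im.comp_continuousOn (h2 a 0)
  · exact Complex.continuous_re.comp_continuousOn (h2 a 1)
  · exact Complex.continuous_im.comp_continuousOn (h2 a 1)

theorem GL_chart {p : X} {A : Set X} (hA : MeasurableSet A) (hs : A ⊆ S.W p) {φ : X → ℂ}
    (hφ : Integrable φ S.μ) :
    IntegrableOn (fun z => S.rho p z • φ ((chartAt C2 p).symm z)) (chartAt C2 p '' A) ∧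
      ∫ z in chartAt C2 p '' A, S.rho p z • φ ((chartAt C2 p).symm z) = ∫ x in A, φ x ∂S.μ := by
  have hW := GL_meas (chartAt C2 p) (S.W_open p).measurableSet (S.W_sub p)
  have hA' := GL_meas (chartAt C2 p) hA (hs.trans (S.W_sub p))
  have hm : ∀ {D : Set X}, D ⊆ S.W p → MeasurableSet (chartAt C2 p '' D) → ∀ f, AEMeasurable
      (chartAt C2 p).symm ((volume.restrict (chartAt C2 p '' D)).withDensity f) := fun hD hD' f =>
    (((chartAt C2 p).continuousOn_symm.mono (Set.image_subset_iff.2 fun x hx =>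
      (chartAt C2 p).map_source (S.W_sub p (hD hx)))).aemeasurable hD').mono_ac
        (withDensity_absolutelyContinuous _ _)
  have e : S.μ.restrict A = Measure.map (chartAt C2 p).symm
      ((volume.restrict (chartAt C2 p '' A)).withDensity fun z => ENNReal.ofReal (S.rho p z)) := by
    have e1 : (chartAt C2 p).symm ⁻¹' A ∩ chartAt C2 p '' S.W p = chartAt C2 p '' A := by
      ext z
      constructor
      · rintro ⟨h1, x, hx, rfl⟩
        rw [Set.mem_preimage, (chartAt C2 p).left_inv (S.W_sub p hx)] at h1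
        exact ⟨x, h1, rfl⟩
      · rintro ⟨x, hx, rfl⟩
        rw [Set.mem_inter_iff, Set.mem_preimage, (chartAt C2 p).left_inv (S.W_sub p (hs hx))]
        exact ⟨hx, x, hs hx, rfl⟩
    rw [← Set.inter_eq_left.2 hs, ← Measure.restrict_restrict hA, S.μ_eq,
      Measure.restrict_map_of_aemeasurable (hm subset_rfl hW _) hA, restrict_withDensity',
      Measure.restrict_restrict' hW, e1, Set.inter_eq_left.2 hs]
    rfl
  have hr : AEMeasurable (fun z => ENNReal.ofReal (S.rho p z))
      (volume.restrict (chartAt C2 p '' A)) :=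
    (((GL_rho S p).mono (Set.image_mono hs)).aemeasurable hA').ennreal_ofReal
  have h1 := hφ.restrict (s := A)
  have hc : ∀ z ∈ chartAt C2 p '' A, (ENNReal.ofReal (S.rho p z)).toReal • φ ((chartAt C2 p).symm z) =
      S.rho p z • φ ((chartAt C2 p).symm z) := fun z hz => by
    rw [ENNReal.toReal_ofReal (r := S.rho p z) (inv_pos.2 (S.e_pos p z (Set.image_mono hs hz))).le]
  rw [e] at h1 ⊢
  rw [integral_map (hm hs hA' _) h1.1, integral_withDensity_eq_integral_toReal_smul₀ hr
    (ae_of_all _ fun _ => ENNReal.ofReal_lt_top)]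
  refine ⟨?_, (setIntegral_congr_fun hA' hc).symm⟩
  exact IntegrableOn.congr_fun ((integrable_withDensity_iff_integrable_smul₀' hr
    (ae_of_all _ fun _ => ENNReal.ofReal_lt_top)).1 (h1.comp_aemeasurable (hm hs hA' _))) hc hA'

theorem GL_one [IsManifold 𝓘(ℂ, C2) ω X] {P : OpenPartialHomeomorph X C2} (hP : HolChart P) {p : X}
    {A : Set X} (hA : MeasurableSet A) (hs : A ⊆ S.W p) (hs' : A ⊆ P.source) {φ : X → ℂ}
    (hφ : Integrable φ S.μ) {F : C2 → ℂ} (hF : ∀ x ∈ A, F (P x) =
      (fderiv ℝ (chartAt C2 p ∘ P.symm) (P x)).det * (S.rho p (chartAt C2 p x) * φ x)) :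
    IntegrableOn F (P '' A) ∧ ∫ z in P '' A, F z = ∫ x in A, φ x ∂S.μ := by
  have hA' := GL_meas P hA hs'
  have hT : ∀ x ∈ A, DifferentiableAt ℂ (chartAt C2 p ∘ P.symm) (P x) := fun x hx =>
    (P267CW.hol_tr hP (P267CW.holChart_ch p) (hs' hx) (S.W_sub p (hs hx))).differentiableAt
  have hd : ∀ z ∈ P '' A, HasFDerivWithinAt (chartAt C2 p ∘ P.symm)
      (fderiv ℝ (chartAt C2 p ∘ P.symm) z) (P '' A) z := by
    rintro _ ⟨x, hx, rfl⟩
    exact ((hT x hx).restrictScalars ℝ).hasFDerivAt.hasFDerivWithinAt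
  have hi : Set.InjOn (chartAt C2 p ∘ P.symm) (P '' A) := by
    rintro _ ⟨x, hx, rfl⟩ _ ⟨y, hy, rfl⟩ h
    simp only [Function.comp_apply, P.left_inv (hs' hx), P.left_inv (hs' hy)] at h
    rw [(chartAt C2 p).injOn (S.W_sub p (hs hx)) (S.W_sub p (hs hy)) h]
  have him : chartAt C2 p '' A = (chartAt C2 p ∘ P.symm) '' (P '' A) := by
    rw [Set.image_image]
    exact Set.image_congr fun x hx => by rw [Function.comp_apply, P.left_inv (hs' hx)]
  obtain ⟨h1, h2⟩ := GL_chart hA hs hφ
  rw [him] at h1 h2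
  rw [integrableOn_image_iff_integrableOn_abs_det_fderiv_smul volume hA' hd hi] at h1
  rw [integral_image_eq_integral_abs_det_fderiv_smul volume hA' hd hi] at h2
  have hc : Set.EqOn (fun z => |(fderiv ℝ (chartAt C2 p ∘ P.symm) z).det| •
      S.rho p ((chartAt C2 p ∘ P.symm) z) • φ ((chartAt C2 p).symm ((chartAt C2 p ∘ P.symm) z))) F
      (P '' A) := by
    rintro _ ⟨x, hx, rfl⟩
    have e4 : 0 ≤ (fderiv ℝ (chartAt C2 p ∘ P.symm) (P x)).det := by
      rw [(hT x hx).fderiv_restrictScalars ℝ]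
      exact P267CW.det_hol_nonneg _
    simp only [hF x hx, Function.comp_apply, P.left_inv (hs' hx), abs_of_nonneg e4,
      (chartAt C2 p).left_inv (S.W_sub p (hs hx)), Complex.real_smul]
  exact ⟨h1.congr_fun hc hA', (setIntegral_congr_fun hA' hc).symm.trans h2⟩

theorem GL_all [IsManifold 𝓘(ℂ, C2) ω X] {P : OpenPartialHomeomorph X C2} (hP : HolChart P)
    {φ : X → ℂ} (hφ : Integrable φ S.μ) {F : C2 → ℂ} (hF : ∀ p, ∀ x ∈ S.W p, x ∈ P.source →
      F (P x) = (fderiv ℝ (chartAt C2 p ∘ P.symm) (P x)).det * (S.rho p (chartAt C2 p x) * φ x))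
    (t : Finset X) : ∀ A, MeasurableSet A → A ⊆ P.source → A ⊆ ⋃ p ∈ t, S.W p →
      IntegrableOn F (P '' A) ∧ ∫ z in P '' A, F z = ∫ x in A, φ x ∂S.μ := by
  classical
  induction t using Finset.induction_on with
  | empty =>
    intro A _ _ h
    obtain rfl : A = ∅ := by simpa using h
    simp
  | insert p t _ ih =>
    intro A hA h1 h2
    have hW := (S.W_open p).measurableSet
    have a := GL_one hP (hA.inter hW) Set.inter_subset_right (Set.inter_subset_left.trans h1) hφ
      fun x hx => hF p x hx.2 (h1 hx.1)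
    have b := ih (A \ S.W p) (hA.diff hW) (Set.sdiff_subset.trans h1) fun x hx => by
      have := h2 hx.1
      rw [Finset.set_biUnion_insert] at this
      exact this.resolve_left hx.2
    have e : P '' A = P '' (A ∩ S.W p) ∪ P '' (A \ S.W p) := by
      rw [← Set.image_union, Set.inter_union_sdiff]
    have d : Disjoint (P '' (A ∩ S.W p)) (P '' (A \ S.W p)) := by
      refine Set.disjoint_left.2 ?_
      rintro _ ⟨x, hx, rfl⟩ ⟨y, hy, h⟩
      exact hy.2 (P.injOn (h1 hy.1) (h1 hx.1) h ▸ hx.2)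
    rw [e, setIntegral_union d (GL_meas P (hA.diff hW) (Set.sdiff_subset.trans h1)) a.1 b.1, a.2, b.2,
      integral_inter_add_sdiff hW hφ.integrableOn]
    exact ⟨a.1.union b.1, rfl⟩

theorem int2_of (hX : IsSurface X) {α : Form2 X} (hα : Sm2 α) {g : X → ℂ} (hg : Continuous g)
    (h : ∀ p, ∀ x ∈ S.W p, wedge (coef2 (chartAt C2 p) α (chartAt C2 p x))
      (coef2 (chartAt C2 p) α (chartAt C2 p x)) = g x * (S.rho p (chartAt C2 p x) : ℂ)) :
    Int2 α α (∫ x, g x ∂S.μ) := by
  intro l P ψ hP hc hs h1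
  obtain ⟨i1, i2, i3, -⟩ := id hX
  have := mu_fin (S := S) hX
  have hi : ∀ a, Integrable (fun x => (ψ a x : ℂ) * g x) S.μ := fun a =>
    ((Complex.continuous_ofReal.comp (hc a)).mul hg).integrable_of_hasCompactSupport
      (HasCompactSupport.of_compactSpace _)
  obtain ⟨t, ht⟩ := isCompact_univ.elim_finite_subcover S.W S.W_open
    fun x _ => Set.mem_iUnion.2 ⟨x, S.W_mem x⟩
  have e : ∫ x, g x ∂S.μ = ∑ a, ∫ x, (ψ a x : ℂ) * g x ∂S.μ := by
    rw [← integral_finsetSum _ fun a _ => hi a]
    simp only [← Finset.sum_mul, ← Complex.ofReal_sum, h1, Complex.ofReal_one, one_mul]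
  rw [e]
  refine Finset.sum_congr rfl fun a _ => ?_
  rw [← setIntegral_eq_integral_of_forall_compl_eq_zero (s := (P a).source) (μ := S.μ) fun x hx => by
    rw [image_eq_zero_of_notMem_tsupport fun h' => hx (hs a h'), Complex.ofReal_zero, zero_mul],
    ← (P a).image_source_eq_target]
  refine (GL_all (hP a) (hi a) (fun p x hx hx' => ?_) t _ (P a).open_source.measurableSet subset_rfl
    ((Set.subset_univ _).trans ht)).2
  have hp := S.W_sub p hx
  obtain ⟨D, hD, hD'⟩ := hα.1 x
  have d1 := (P267CW.hol_tr (hP a) (P267CW.holChart_ch p) hx' hp).differentiableAt.restrictScalars ℝ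
  have e1 : (chartAt C2 p ∘ (P a).symm) (P a x) = chartAt C2 p x := congrArg _ ((P a).left_inv hx')
  have d2 : DifferentiableAt ℝ (chartAt C2 x ∘ (chartAt C2 p).symm)
      ((chartAt C2 p ∘ (P a).symm) (P a x)) := by
    rw [e1]
    exact (tr_sm hX hp (mem_chart_source C2 x)).differentiableAt (by simp)
  have e3 := fderiv_comp _ d2 d1
  rw [(P267CW.BK2_ev (chartAt C2 x) hx' hp).fderiv_eq, e1] at e3
  have e4 := h p x hx
  have e5 := GL_wedge D hD (fderiv ℝ (chartAt C2 x ∘ (chartAt C2 p).symm) (chartAt C2 p x))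
    (fderiv ℝ (chartAt C2 p ∘ (P a).symm) (P a x))
  unfold coef2 inChart2 at e4 ⊢
  simp only [(chartAt C2 p).left_inv hp, hD'] at e4
  simp only [(P a).left_inv hx', hD', e3, ContinuousLinearMap.comp_apply]
  rw [e5, e4]
  ring

end Vale.Agent.P267I.G
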