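import Vale.Agent.P267I.GInt

open scoped Manifold ContDiff Topology InnerProductSpace
open Filter Matrix MeasureTheory Set

noncomputable section

namespace Vale.Agent.P267I

open Vale.Agent.P267F

variable {X : Type} [TopologicalSpace X] [ChartedSpace C2 X] [MeasurableSpace X] [BorelSpace X]
  {N : ℕ} {S : Pre X N} {B : X → C2 → Mat N}

theorem gl2_idx (hX : IsSurface X) (S : Pre X N) : ∃ σ : X → X,
    ∀ (Y : Type) [NormedAddCommGroup Y] [SecondCountableTopology Y] (f : X → X → Y) (O : Set X),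
      MeasurableSet O → (∀ p, ContinuousOn (f p) (S.W p ∩ O)) →
      AEStronglyMeasurable (fun x => f (σ x) x) (S.μ.restrict O) := by
  obtain ⟨l, p, χ, -, -, -, -, h⟩ := cut_cover hX S
  have h' : ∀ x, ∃ a, x ∈ S.W (p a) ∧ ∀ b, x ∈ S.W (p b) → a ≤ b := fun x =>
    Set.exists_min_image {a | x ∈ S.W (p a)} id (Set.toFinite _) ((h x).imp fun _ k => k.1)
  choose i h1 h2 using h'
  refine ⟨fun x => p (i x), fun Y _ _ f O hO hf => ?_⟩
  have m : ∀ a, Measurable fun x => x ∈ S.W (p a) := fun a =>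
    measurable_mem.2 (S.W_open _).measurableSet
  have e : O = ⋃ a, {x | x ∈ S.W (p a) ∧ ∀ b, x ∈ S.W (p b) → a ≤ b} ∩ O :=
    Subset.antisymm (fun x hx => mem_iUnion.2 ⟨i x, ⟨h1 x, h2 x⟩, hx⟩)
      (iUnion_subset fun _ => inter_subset_right)
  rw [e, aestronglyMeasurable_iUnion_iff]
  intro a
  refine ContinuousOn.aestronglyMeasurable (((hf (p a)).mono fun x hx => ⟨hx.1.1, hx.2⟩).congr
    fun x hx => ?_) (((m a).and (Measurable.forall fun b =>
      (m b).imp measurable_const)).setOf.inter hO)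
  exact congrArg (fun b => f (p b) x) (le_antisymm (h2 x a hx.1.1) (hx.1.2 _ (h1 x)))

theorem gl2_norm (v : Vec N) : ‖(WithLp.toLp 2 v : EuclideanSpace ℂ (Fin N))‖ = √(nsq v) :=
  EuclideanSpace.norm_eq _

theorem gl2_nn (v : Vec N) : 0 ≤ nsq v := Finset.sum_nonneg fun _ _ => sq_nonneg _

theorem gl2_UU (S : Pre X N) (p x : X) (v : Vec N) : S.U p x *ᵥ (S.U p x)ᴴ *ᵥ v = v := by
  rw [mulVec_mulVec, mul_eq_one_comm.1 (S.U_unit p x), one_mulVec]

theorem gl2_cont {s : X → Vec N} (hs : S.Sm s) (p : X) :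
    ContinuousOn (fun x => S.U p x *ᵥ s x) (S.W p) :=
  ((hs p).continuousOn.comp ((chartAt C2 p).continuousOn.mono (S.W_sub p))
    (mapsTo_image _ _)).congr fun _ hx => (loc_chart S hx s).symm

theorem gl2_tr (S : Pre X N) (q p : X) : ContinuousOn
    (fun x i j => (S.U q x * (S.U p x)ᴴ) i j : X → Fin N → Fin N → ℂ) (S.W p ∩ S.W q) := by
  refine continuousOn_pi.2 fun i => continuousOn_pi.2 fun j => ?_
  refine ((S.U_sm q p i j).continuousOn.comp ((chartAt C2 q).continuousOn.mono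
    fun x hx => S.W_sub q hx.2) fun x hx => mem_image_of_mem _ hx.symm).congr fun x hx => ?_
  simp only [Function.comp, (chartAt C2 q).left_inv (S.W_sub q hx.2)]

theorem gl2_LI {r : X → Vec N} (h : ∀ q, IntegrableOn (fun x => S.U q x *ᵥ r x) (S.W q) S.μ) :
    S.LI r := by
  intro q
  have hV := V_open S q
  have h1 := LocallyIntegrableOn.continuousOn_smul hV.isLocallyClosed
    ((chart_integrable S q _).1 (h q)).locallyIntegrableOn
    ((rho_sm S q).continuousOn.inv₀ fun z hz => (rho_pos S q z hz).ne')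
  rw [locallyIntegrableOn_iff hV.isLocallyClosed] at h1 ⊢
  refine fun k hk hc => (h1 k hk hc).congr_fun (fun z hz => ?_) hc.measurableSet
  exact inv_smul_smul₀ (rho_pos S q z (hk hz)).ne' _

theorem gl2_nsq (S : Pre X N) (p x : X) (v : Vec N) : nsq ((S.U p x)ᴴ *ᵥ v) = nsq v := by
  rw [← nsq_U S p x, gl2_UU]

theorem gl2_int (S : Pre X N) (q : X) (G : X → Mat N) (hG : ∀ x v, nsq ((G x)ᴴ *ᵥ v) = nsq v)
    (h1 : AEStronglyMeasurable (fun x i j => (S.U q x * (G x)ᴴ) i j : X → Fin N → Fin N → ℂ)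
      (S.μ.restrict (S.W q))) {u : X → EuclideanSpace ℂ (Fin N)} (hu : Integrable u S.μ) :
    IntegrableOn (fun x => S.U q x *ᵥ (G x)ᴴ *ᵥ (u x).ofLp) (S.W q) S.μ := by
  have h2 : Continuous fun m : (Fin N → Fin N → ℂ) × EuclideanSpace ℂ (Fin N) =>
      Matrix.of m.1 *ᵥ m.2.ofLp :=
    Continuous.matrix_mulVec continuous_fst ((PiLp.continuous_ofLp 2 _).comp continuous_snd)
  have h3 := h2.comp_aestronglyMeasurable (h1.prodMk hu.1.restrict)
  refine Integrable.mono' hu.norm.integrableOn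
    (h3.congr (ae_of_all _ fun x => ?_)) (ae_of_all _ fun x => ?_)
  · simp only [mulVec_mulVec]
    rfl
  · refine (pi_norm_le_iff_of_nonneg (norm_nonneg _)).2 fun i => ?_
    refine (PiLp.norm_apply_le (WithLp.toLp 2 (S.U q x *ᵥ (G x)ᴴ *ᵥ (u x).ofLp) :
      EuclideanSpace ℂ (Fin N)) i).trans_eq ?_
    rw [gl2_norm, nsq_U, hG, ← gl2_norm]

theorem l2_model (hX : IsSurface X) (S : Pre X N) : ∃ j : S.SmS →ₗ[ℂ] S.L2, S.Mod j := by
  obtain ⟨σ, hσ⟩ := gl2_idx hX S
  have := mu_finite hX S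
  have := mu_pos S
  have := hX.2.2.1
  let J : (X → Vec N) → X → EuclideanSpace ℂ (Fin N) := fun s x =>
    WithLp.toLp 2 (S.U (σ x) x *ᵥ s x)
  have nJ : ∀ s x, ‖J s x‖ = √(nsq (s x)) := fun s x => by rw [gl2_norm, nsq_U]
  have hJ : ∀ s : S.SmS, MemLp (J s) 2 S.μ := fun s => by
    obtain ⟨C, hC⟩ := (isCompact_range (nsq_cont s.2)).bddAbove
    refine MemLp.of_bound ?_ (√C) (ae_of_all _ fun x => ?_)
    · have := hσ _ (fun p x => (WithLp.toLp 2 (S.U p x *ᵥ s.1 x) : EuclideanSpace ℂ (Fin N))) univ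
        .univ fun p => (PiLp.continuous_toLp 2 _).comp_continuousOn
          ((gl2_cont s.2 p).mono inter_subset_left)
      rwa [Measure.restrict_univ] at this
    · rw [nJ]
      exact Real.sqrt_le_sqrt (hC (mem_range_self x))
  let j : S.SmS →ₗ[ℂ] S.L2 :=
    { toFun := fun s => (hJ s).toLp _
      map_add' := fun s t => (MemLp.toLp_congr _ ((hJ s).add (hJ t)) (ae_of_all _ fun x => by
        simp [J, mulVec_add])).trans (MemLp.toLp_add _ _)
      map_smul' := fun a s => (MemLp.toLp_congr _ ((hJ s).const_smul a) (ae_of_all _ fun x => by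
        simp [J, mulVec_smul])).trans (MemLp.toLp_const_smul _ _) }
  have hj : ∀ s, j s =ᵐ[S.μ] J s := fun s => (hJ s).coeFn_toLp
  have hi : ∀ (u : S.L2) (r : X → Vec N) (t : S.SmS), u =ᵐ[S.μ] J r →
      ⟪u, j t⟫_ℂ = S.ip r t := fun u r t h => by
    rw [L2.inner_def]
    refine integral_congr_ae ?_
    filter_upwards [h, hj t] with x h1 h2
    rw [h1, h2, EuclideanSpace.inner_toLp_toLp, dotProduct_comm, dot_U]
  refine ⟨j, (injective_iff_map_eq_zero j).2 fun s h => ?_, fun s t => hi _ _ t (hj s),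
    fun s => ?_, fun u => ?_⟩
  · have h1 : (fun x => nsq (s.1 x)) =ᵐ[S.μ] fun _ => 0 := by
      filter_upwards [hj s, Lp.coeFn_zero (EuclideanSpace ℂ (Fin N)) 2 S.μ] with x h1 h2
      have h3 := nJ s x
      rw [← h1, h, h2, Pi.zero_apply, norm_zero] at h3
      exact (Real.sqrt_eq_zero (gl2_nn _)).1 h3.symm
    refine Subtype.ext (funext fun x => ?_)
    have h2 := gl2_norm (s.1 x)
    rw [congrFun (((nsq_cont s.2).ae_eq_iff_eq S.μ continuous_const).1 h1) x, Real.sqrt_zero,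
      norm_eq_zero] at h2
    exact congrArg WithLp.ofLp h2
  · rw [← real_inner_self_eq_norm_sq, L2.inner_def]
    refine integral_congr_ae ?_
    filter_upwards [hj s] with x h1
    rw [h1, real_inner_self_eq_norm_sq, nJ, Real.sq_sqrt (gl2_nn _)]
  · let r : X → Vec N := fun x => (S.U (σ x) x)ᴴ *ᵥ (u x).ofLp
    have hu : ∀ x, u x = J r x := fun x => by simp only [J, r, gl2_UU]
    refine ⟨r, gl2_LI fun q => ?_, fun s => hi u r s (ae_of_all _ hu), fun s h => Lp.ext ?_⟩
    · exact gl2_int S q (fun x => S.U (σ x) x) (fun x => gl2_nsq S _ x)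
        (hσ _ (fun p x i j => (S.U q x * (S.U p x)ᴴ) i j) (S.W q)
          (S.W_open q).measurableSet (gl2_tr S q)) ((Lp.memLp u).integrable one_le_two)
    · filter_upwards [h, hj s] with x h1 h2
      rw [h2, hu]
      simp only [J, h1]

end Vale.Agent.P267I
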