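import Vale.Agent.P267I.GDefs
import Vale.Agent.P292E.EDefs

open scoped Manifold ContDiff Topology InnerProductSpace
open Filter Matrix MeasureTheory Set

noncomputable section

namespace Vale.Agent.P267I

open Vale.Agent.P267F


theorem co_bsG (v : C2) : ∑ k, co v k • bs k = v := by
  ext i
  fin_cases i <;> simp [co, bs, Fin.sum_univ_four]

theorem co_sm (k : Fin 4) : ContDiff ℝ ∞ fun v : C2 => co v k := by
  have a : ∀ i : Fin 2, ContDiff ℝ ∞ fun v : C2 => (v i).re := fun i =>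
    Complex.reCLM.contDiff.comp (contDiff_apply ℝ ℂ i)
  have b : ∀ i : Fin 2, ContDiff ℝ ∞ fun v : C2 => (v i).im := fun i =>
    Complex.imCLM.contDiff.comp (contDiff_apply ℝ ℂ i)
  fin_cases k
  exacts [a 0, b 0, a 1, b 1]

/-- Real coordinates on affine space. -/
theorem lin_co : ∃ L : P292E.V 4 ≃L[ℝ] C2, (∀ k, L (P292E.ee k) = bs k) ∧
    ∃ c : NNReal, c ≠ 0 ∧ Measure.map L volume = c • (volume : Measure C2) := by
  let L : P292E.V 4 ≃ₗ[ℝ] C2 :=
    { toFun := fun x => ∑ k, x k • bs k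
      map_add' := fun x y => by simp [add_smul, Finset.sum_add_distrib]
      map_smul' := fun a x => by simp [Finset.smul_sum, smul_smul]
      invFun := fun v => WithLp.toLp 2 (co v)
      left_inv := fun x => by
        ext k
        fin_cases k <;> simp [co, bs, Fin.sum_univ_four]
      right_inv := co_bsG }
  refine ⟨L.toContinuousLinearEquiv, fun k => ?_, _,
    (Measure.addHaarScalarFactor_pos_of_isAddHaarMeasure _ volume).ne',
    Measure.isAddLeftInvariant_eq_smul _ _⟩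
  change ∑ j, P292E.ee k j • bs j = bs k
  simp [P292E.ee]

/-- Positivity of the inverse metric, uniformly on compact sets. -/
theorem gm_pos {N : ℕ} {U : Set C2} {e : Fin 4 → C2 → C2} {B : C2 → Mat N} (h : LocOp U e B)
    {K : Set C2} (hK : IsCompact K) (hKU : K ⊆ U) : ∃ κ : ℝ, 0 < κ ∧ ∀ z ∈ K, ∀ ξ : Fin 4 → ℝ,
      κ * ∑ k, ξ k ^ 2 ≤ ∑ k, ∑ l, gm e k l z * ξ k * ξ l := by
  have c : ∀ a k, ContinuousOn (fun q : C2 × (Fin 4 → ℝ) => co (e a q.1) k)
      (K ×ˢ Metric.sphere 0 1) := fun a k => (co_sm k).continuous.comp_continuousOn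
    ((h.e_sm a).continuousOn.comp continuousOn_fst fun q hq => hKU hq.1)
  obtain ⟨κ, κ0, hκ⟩ := (hK.prod (isCompact_sphere (0 : Fin 4 → ℝ) 1)).exists_forall_le'
    (f := fun q => ∑ a, (∑ k, co (e a q.1) k * q.2 k) ^ 2) (a := 0)
    (continuousOn_finsetSum _ fun a _ => (continuousOn_finsetSum _ fun k _ =>
      (c a k).mul (by fun_prop)).pow 2) fun q hq => by
    refine (Finset.sum_nonneg fun _ _ => sq_nonneg _).lt_of_ne' fun h0 => ?_
    have := Matrix.eq_zero_of_mulVec_eq_zero (h.e_ne _ (hKU hq.1)) (v := q.2) (funext fun a =>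
      pow_eq_zero_iff two_ne_zero |>.1 ((Finset.sum_eq_zero_iff_of_nonneg
        fun _ _ => sq_nonneg _).1 h0 a (Finset.mem_univ a)))
    simpa [this] using hq.2
  refine ⟨κ / 4, by positivity, fun z hz ξ => ?_⟩
  have e1 : ∑ k, ∑ l, gm e k l z * ξ k * ξ l = ∑ a, (∑ k, co (e a z) k * ξ k) ^ 2 := by
    simp only [gm, Fin.sum_univ_four]
    ring
  rcases eq_or_ne ξ 0 with rfl | h0
  · simp
  have n0 := norm_pos_iff.2 h0
  have a := hκ (z, ‖ξ‖⁻¹ • ξ) ⟨hz, by simp [norm_smul, n0.ne']⟩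
  have e2 : ∑ a, (∑ k, co (e a z) k * (‖ξ‖⁻¹ • ξ) k) ^ 2 =
      (∑ a, (∑ k, co (e a z) k * ξ k) ^ 2) / ‖ξ‖ ^ 2 := by
    simp only [Fin.sum_univ_four, Pi.smul_apply, smul_eq_mul]
    field_simp
  have b : ∑ k, ξ k ^ 2 ≤ 4 * ‖ξ‖ ^ 2 := by
    refine (Finset.sum_le_card_nsmul _ _ (‖ξ‖ ^ 2) fun k _ => ?_).trans (by simp)
    exact sq_le_sq.2 ((norm_le_pi_norm ξ k).trans (le_abs_self _))
  rw [e1]
  dsimp only at a
  rw [e2, le_div_iff₀ (by positivity)] at a
  nlinarith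

theorem gm_sm {N : ℕ} {U : Set C2} {e : Fin 4 → C2 → C2} {B : C2 → Mat N} (h : LocOp U e B)
    (k l : Fin 4) : ContDiffOn ℝ ∞ (gm e k l) U := by
  exact ContDiffOn.sum fun a _ => ((co_sm k).comp_contDiffOn (h.e_sm a)).mul
    ((co_sm l).comp_contDiffOn (h.e_sm a))

end Vale.Agent.P267I
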