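import Vale.Agent.P267I.GG2
import Vale.Agent.P267I.GG3
import Vale.Agent.P267I.GH
import Vale.Agent.P267I.GI3
import Vale.Agent.P267I.GJ
import Vale.Agent.P267I.GK
import Vale.Agent.P267I.GL

/-! Block I6. -/

open scoped Manifold ContDiff Topology ComplexConjugate
open Filter Matrix MeasureTheory

noncomputable section

namespace Vale.Agent.P267I.G

open Vale.Agent.P267F

variable (E : Ext)
variable {X : Type} [TopologicalSpace X] [ChartedSpace C2 X] [MeasurableSpace X] [BorelSpace X]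
  {S : Pre X 16} {B : X → C2 → Mat 16}
  {A : X → Fin 4 → C2 → Mat 16} {om : X → Fin 4 → Fin 4 → Fin 4 → C2 → ℝ}


theorem sig_thm (hX : IsSurface X) (h : Sig E S (S.BofA A)) (hL : S.IsLC A om)
    (hp : ∀ p k l, ∀ z ∈ S.V p, E.pr l * A p k z = A p k z * E.pr l)
    (hv : ∀ p k, ∀ z ∈ S.V p, A p k z *ᵥ E.vac = 0) (hH : Hdg S) :
    ∃ bp bm : ℕ, IsSig X bp bm ∧ S.ind (S.BofA A) = -((bp : ℤ) - bm) := by
  obtain ⟨bp, bm, h1, h2, h3⟩ :=
    hodge E hX (good_of E hX h fun p z hz => up_eq_Rm E h.c hL hp hv hz) hH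
  refine ⟨bp, bm, ⟨h2.trans (rank_b2 E hX), fun h0 => ?_⟩, h1⟩
  obtain ⟨F0, hF0⟩ := h3 h0
  obtain ⟨F, hF, hr⟩ := sd_real E hF0
  have hs : S.Sm (fr E S F) := (sm_fr E hX h).2 hF.1
  refine ⟨to2 E F, (S.ip (fr E S F) (fr E S F)).re, (closed_to2 E hF.1 hF.2.2.2.1).2 hF.2.2.1,
    real_to2 E hr, lt_of_not_ge fun h4 => hF.2.1 ?_, ?_⟩
  · rw [← un_fr E (S := S) F, ip_def hX hs h4]
    funext x
    simp [un]
  · have e : (((S.ip (fr E S F) (fr E S F)).re : ℝ) : ℂ) = S.ip (fr E S F) (fr E S F) :=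
      Complex.ext rfl (by simpa using (ip_nonneg _).2.symm)
    rw [e]
    exact int2_of hX (sm2_to2 E hF.1) (cont_dot hs hs) fun p x hx => wedge_sd E h hF hr hx

end Vale.Agent.P267I.G
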