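import Vale.Agent.P267I.GRc

open scoped Manifold ContDiff Topology InnerProductSpace
open Filter Matrix MeasureTheory Set

noncomputable section

namespace Vale.Agent.P267I

open Vale.Agent.P267F

variable {X : Type} [TopologicalSpace X] [ChartedSpace C2 X] [MeasurableSpace X] [BorelSpace X]
  {N : ℕ} {S : Pre X N} {B : X → C2 → Mat N}

theorem grg_nonneg (v : Vec N) : 0 ≤ nsq v := Finset.sum_nonneg fun _ _ => sq_nonneg _

theorem grg_tst {p : X} {χ : C2 → ℝ} (h1 : ContDiff ℝ ∞ χ) (h2 : HasCompactSupport χ)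
    (h3 : tsupport χ ⊆ S.V p) {s : X → Vec N} (hs : S.Sm s) :
    TstV (S.V p) fun z => χ z • S.loc p s z := by
  refine ⟨contDiff_iff_contDiffAt.2 fun z => ?_, h2.of_isClosed_subset (isClosed_tsupport _)
    (tsupport_smul_subset_left _ _), (tsupport_smul_subset_left _ _).trans h3⟩
  by_cases hz : z ∈ tsupport χ
  · exact h1.contDiffAt.smul ((hs p).contDiffAt ((V_open S p).mem_nhds (h3 hz)))
  · refine (contDiffAt_const (c := (0 : Vec N))).congr_of_eventuallyEq ?_
    filter_upwards [notMem_tsupport_iff_eventuallyEq.1 hz] with y hy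
    rw [hy, Pi.zero_apply, zero_smul]

theorem grg_int (hX : IsSurface X) {s : X → Vec N} (hs : S.Sm s) :
    Integrable (fun x => nsq (s x)) S.μ := by
  have := hX.2.2.1
  have := mu_finite hX S
  exact (nsq_cont hs).integrable_of_hasCompactSupport (HasCompactSupport.of_compactSpace _)

theorem grg_mul (c : ℝ) (M : Mat N) (v : Vec N) :
    nsq (c • (M *ᵥ v)) ≤ (c ^ 2 * ∑ i, ∑ j, ‖M i j‖ ^ 2) * nsq v := by
  rw [mul_assoc, Finset.sum_mul, Finset.mul_sum]
  refine Finset.sum_le_sum fun i _ => ?_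
  rw [Pi.smul_apply, norm_smul, mul_pow, Real.norm_eq_abs, sq_abs]
  refine mul_le_mul_of_nonneg_left ?_ (sq_nonneg c)
  refine le_trans (pow_le_pow_left₀ (norm_nonneg _) ?_ 2)
    (Finset.sum_mul_sq_le_sq_mul_sq Finset.univ (fun j => ‖M i j‖) fun j => ‖v j‖)
  exact (norm_sum_le _ _).trans (Finset.sum_le_sum fun j _ => (norm_mul (M i j) (v j)).le)

theorem grg_chart (hX : IsSurface X) {B' : X → C2 → Mat N} (hB : S.IsOp B) (hB' : S.IsOp B')
    {p : X} {χ : C2 → ℝ} (h1 : ContDiff ℝ ∞ χ) (h2 : HasCompactSupport χ)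
    (h3 : tsupport χ ⊆ S.V p) : ∃ C : ℝ, ∀ s, S.Sm s →
      ∫ z, S.rho p z * nsq (χ z • S.loc p (S.D B' s - S.D B s) z) ≤ C * S.n2 s := by
  have hc : ContinuousOn (fun z => χ z ^ 2 * ∑ i, ∑ j, ‖(B' p z - B p z) i j‖ ^ 2)
      (tsupport χ) := by
    refine (h1.continuous.pow 2).continuousOn.mul (continuousOn_finsetSum _ fun i _ =>
      continuousOn_finsetSum _ fun j _ => ContinuousOn.pow (ContinuousOn.norm ?_) 2)
    exact (((hB'.sm p i j).continuousOn).sub (hB.sm p i j).continuousOn).mono h3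
  obtain ⟨C, hC⟩ := h2.isCompact.exists_bound_of_continuousOn hc
  refine ⟨max C 0, fun s hs => ?_⟩
  have hV := (V_open S p).measurableSet
  have i1 : IntegrableOn (fun z => S.rho p z • nsq (s ((chartAt C2 p).symm z))) (S.V p) :=
    (chart_integrable S p fun x => nsq (s x)).1 (grg_int hX hs).integrableOn
  have i2 : Integrable ((S.V p).indicator
      fun z => max C 0 * (S.rho p z • nsq (s ((chartAt C2 p).symm z)))) :=
    (integrable_indicator_iff hV).2 (i1.const_mul _)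
  have h0 : ∀ z, z ∉ tsupport χ →
      S.rho p z * nsq (χ z • S.loc p (S.D B' s - S.D B s) z) = 0 := fun z hz => by
    simp [image_eq_zero_of_notMem_tsupport hz, nsq]
  refine (integral_mono_of_nonneg (Eventually.of_forall fun z => ?_) i2
    (Eventually.of_forall fun z => ?_)).trans ?_
  · by_cases hz : z ∈ tsupport χ
    · exact mul_nonneg (rho_pos S p z (h3 hz)).le (grg_nonneg _)
    · exact (h0 z hz).ge
  · by_cases hz : z ∈ tsupport χ
    · have e : S.loc p (S.D B' s - S.D B s) z = (B' p z - B p z) *ᵥ S.loc p s z := by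
        have e1 : S.loc p (S.D B' s - S.D B s) z =
            S.loc p (S.D B' s) z - S.loc p (S.D B s) z := by
          simp only [Pre.loc, Pi.sub_apply, Matrix.mulVec_sub]
        rw [e1, loc_D hB' hs p z (h3 hz), loc_D hB hs p z (h3 hz), Pre.Dloc, Pre.Dloc,
          Matrix.sub_mulVec, add_sub_add_left_eq_sub]
      have e2 : nsq (S.loc p s z) = nsq (s ((chartAt C2 p).symm z)) := nsq_U S _ _ _
      have hr := (rho_pos S p z (h3 hz)).le
      show S.rho p z * nsq (χ z • S.loc p (S.D B' s - S.D B s) z) ≤ _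
      rw [Set.indicator_of_mem (h3 hz), e, smul_eq_mul, mul_left_comm, ← e2]
      refine mul_le_mul_of_nonneg_left ((grg_mul _ _ _).trans ?_) hr
      exact mul_le_mul_of_nonneg_right
        (((le_abs_self _).trans (hC z hz)).trans (le_max_left _ _)) (grg_nonneg _)
    · refine (h0 z hz).le.trans (Set.indicator_nonneg (fun y hy => ?_) z)
      exact mul_nonneg (le_max_right _ _) (mul_nonneg (rho_pos S p y hy).le (grg_nonneg _))
  · rw [integral_indicator hV, integral_const_mul, ← chart_int S p fun x => nsq (s x)]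
    exact mul_le_mul_of_nonneg_left (setIntegral_le_integral (grg_int hX hs)
      (Eventually.of_forall fun x => grg_nonneg _)) (le_max_right _ _)

theorem n2_le_sum (hX : IsSurface X) {l : ℕ} {p : Fin l → X} {χ : Fin l → C2 → ℝ}
    (h1 : ∀ a, ContDiff ℝ ∞ (χ a)) (h2 : ∀ a, HasCompactSupport (χ a))
    (h3 : ∀ a, tsupport (χ a) ⊆ S.V (p a))
    (h4 : ∀ x, ∃ a, x ∈ S.W (p a) ∧ χ a (chartAt C2 (p a) x) = 1) {s : X → Vec N} (hs : S.Sm s) :
    S.n2 s ≤ ∑ a, ∫ z, S.rho (p a) z * nsq (χ a z • S.loc (p a) s z) := by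
  have ht := fun a => grg_tst (h1 a) (h2 a) (h3 a) hs
  have hi := fun a => grg_int hX (ext_sm hX (ht a))
  rw [← Finset.sum_congr rfl fun a _ => n2_ext (ht a).2.2]
  unfold Pre.n2
  rw [← integral_finsetSum _ fun a _ => hi a]
  refine integral_mono (grg_int hX hs) (integrable_finsetSum _ fun a _ => hi a) fun x => ?_
  obtain ⟨a, ha, h5⟩ := h4 x
  have e : S.ext (p a) (fun z => χ a z • S.loc (p a) s z) x = s x := by
    rw [Pre.ext, if_pos ha, h5, one_smul, loc_chart S ha, Matrix.mulVec_mulVec, S.U_unit,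
      Matrix.one_mulVec]
  refine le_trans (le_of_eq ?_) (Finset.single_le_sum
    (f := fun a => nsq (S.ext (p a) (fun z => χ a z • S.loc (p a) s z) x))
    (fun a _ => grg_nonneg _) (Finset.mem_univ a))
  show nsq (s x) = nsq (S.ext (p a) (fun z => χ a z • S.loc (p a) s z) x)
  rw [e]

theorem rel_glob (hX : IsSurface X) (hB : S.IsOp B) (s : ℕ → X → Vec N)
    (hs : ∀ n, S.Sm (s n)) (A : ℝ) (k1 : ∀ n, S.n2 (s n) ≤ A) (k2 : ∀ n, S.n2 (S.D B (s n)) ≤ A) :
    ∃ κ : ℕ → ℕ, StrictMono κ ∧ ∀ ε : ℝ, 0 < ε → ∃ M, ∀ m ≥ M, ∀ n ≥ M,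
      S.n2 (s (κ m) - s (κ n)) ≤ ε := by
  obtain ⟨l, p, χ, h1, h2, h3, -, h4⟩ := cut_cover hX S
  have key : ∀ t : Finset (Fin l), ∃ κ : ℕ → ℕ, StrictMono κ ∧ ∀ a ∈ t, ∀ ε : ℝ, 0 < ε →
      ∃ M, ∀ m ≥ M, ∀ n ≥ M,
        ∫ z, S.rho (p a) z * nsq (χ a z • S.loc (p a) (s (κ m) - s (κ n)) z) ≤ ε := by
    intro t
    induction t using Finset.induction_on with
    | empty => exact ⟨id, strictMono_id, fun a ha => absurd ha (Finset.notMem_empty a)⟩
    | insert b t _ ih =>
      obtain ⟨κ, hκ, h5⟩ := ih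
      obtain ⟨κ', hκ', h6⟩ := rel_chart hX hB (p b) (h1 b) (h2 b) (h3 b) (fun n => s (κ n))
        (fun n => hs _) A (fun n => k1 _) fun n => k2 _
      refine ⟨fun n => κ (κ' n), hκ.comp hκ', fun a ha ε hε => ?_⟩
      rcases Finset.mem_insert.1 ha with rfl | ha
      · exact h6 ε hε
      · obtain ⟨M, hM⟩ := h5 a ha ε hε
        exact ⟨M, fun m hm n hn => hM _ (hm.trans hκ'.le_apply) _ (hn.trans hκ'.le_apply)⟩
  obtain ⟨κ, hκ, h5⟩ := key Finset.univ
  refine ⟨κ, hκ, fun ε hε => ?_⟩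
  have hl : (0 : ℝ) < l + 1 := by positivity
  choose M hM using fun a => h5 a (Finset.mem_univ a) (ε / (l + 1)) (div_pos hε hl)
  refine ⟨Finset.univ.sup M, fun m hm n hn => ?_⟩
  have hd : S.Sm (s (κ m) - s (κ n)) := S.SmS.sub_mem (hs _) (hs _)
  refine (n2_le_sum hX h1 h2 h3 h4 hd).trans ((Finset.sum_le_sum fun a _ =>
    hM a m ((Finset.le_sup (Finset.mem_univ a)).trans hm) n
      ((Finset.le_sup (Finset.mem_univ a)).trans hn)).trans ?_)
  rw [Finset.sum_const, Finset.card_univ, Fintype.card_fin, nsmul_eq_mul, ← mul_div_assoc,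
    div_le_iff₀ hl]
  nlinarith

/-- Two operators differ by a bounded operator. -/
theorem diff_bdd (hX : IsSurface X) {B' : X → C2 → Mat N} (hB : S.IsOp B) (hB' : S.IsOp B') :
    ∃ A : ℝ, ∀ s, S.Sm s → S.n2 (S.D B' s - S.D B s) ≤ A * S.n2 s := by
  obtain ⟨l, p, χ, h1, h2, h3, -, h4⟩ := cut_cover hX S
  choose C hC using fun a => grg_chart hX hB hB' (h1 a) (h2 a) (h3 a)
  refine ⟨∑ a, C a, fun s hs => ?_⟩
  have hd : S.Sm (S.D B' s - S.D B s) := S.SmS.sub_mem (sm_D hB' hs) (sm_D hB hs)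
  rw [Finset.sum_mul]
  exact (n2_le_sum hX h1 h2 h3 h4 hd).trans (Finset.sum_le_sum fun a _ => hC a s hs)

end Vale.Agent.P267I
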