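import Vale.Agent.P267I.GRgG
import Vale.Agent.P267I.GRg
import Vale.Agent.P267I.GL2
import Vale.Agent.P267I.AbsInv
import Vale.Agent.P267I.AbsSolve

open scoped Manifold ContDiff Topology InnerProductSpace
open Filter Matrix MeasureTheory Set

noncomputable section

namespace Vale.Agent.P267I

open Vale.Agent.P267F

variable {X : Type} [TopologicalSpace X] [ChartedSpace C2 X] [MeasurableSpace X] [BorelSpace X]
  {N : ℕ} {S : Pre X N} {B : X → C2 → Mat N}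

/-- The operator on smooth sections. -/
def DL (hB : S.IsOp B) : S.SmS →ₗ[ℂ] S.SmS where
  toFun s := ⟨S.D B s, sm_D hB s.2⟩
  map_add' s t := Subtype.ext (D_add s.2 t.2)
  map_smul' a s := Subtype.ext (D_smul a s.2)

/-- The grading on smooth sections. -/
def gL (S : Pre X N) : S.SmS →ₗ[ℂ] S.SmS where
  toFun s := ⟨fun x => S.gam *ᵥ s.1 x, sm_gam s.2⟩
  map_add' s t := Subtype.ext (funext fun x => by simp [Matrix.mulVec_add])
  map_smul' a s := Subtype.ext (funext fun x => by simp [Matrix.mulVec_smul])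

theorem DL_val (hB : S.IsOp B) (s : S.SmS) : (DL hB s).1 = S.D B s.1 := rfl

theorem gL_val (s : S.SmS) : (gL S s).1 = fun x => S.gam *ᵥ s.1 x := rfl

theorem absD_rel (hX : IsSurface X) (hB : S.IsOp B) {j : S.SmS →ₗ[ℂ] S.L2} (hj : S.Mod j)
    (u : ℕ → S.SmS) (A : ℝ) (h1 : ∀ n, ‖j (u n)‖ ≤ A) (h2 : ∀ n, ‖j (DL hB (u n))‖ ≤ A) :
    ∃ κ : ℕ → ℕ, StrictMono κ ∧ CauchySeq (fun n => j (u (κ n))) := by
  have k : ∀ s : S.SmS, ‖j s‖ ≤ A → S.n2 s.1 ≤ A ^ 2 := fun s hs => by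
    rw [← hj.n2]
    exact pow_le_pow_left₀ (norm_nonneg _) hs 2
  obtain ⟨κ, hκ, h⟩ := rel_glob hX hB (fun n => (u n).1) (fun n => (u n).2) (A ^ 2)
    (fun n => k _ (h1 n)) (fun n => k (DL hB (u n)) (h2 n))
  refine ⟨κ, hκ, Metric.cauchySeq_iff.2 fun ε hε => ?_⟩
  obtain ⟨M, hM⟩ := h (ε ^ 2 / 2) (by positivity)
  refine ⟨M, fun m hm n hn => ?_⟩
  have e := hj.n2 (u (κ m) - u (κ n))
  rw [map_sub] at e
  rw [dist_eq_norm]
  refine lt_of_pow_lt_pow_left₀ 2 hε.le ?_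
  rw [e]
  exact (hM m hm n hn).trans_lt (half_lt_self (by positivity))

theorem absD_reg (hX : IsSurface X) (hB : S.IsOp B) {j : S.SmS →ₗ[ℂ] S.L2} (hj : S.Mod j)
    (u : S.L2) (lam : ℝ) (f : S.SmS)
    (h : ∀ s, ⟪u, j (DL hB (DL hB s) - (lam : ℂ) • s)⟫_ℂ = ⟪j f, j s⟫_ℂ) :
    u ∈ LinearMap.range j := by
  obtain ⟨r, h1, h2, h3⟩ := hj.rep u
  have key : ∀ s : S.SmS, S.ip r (S.D B (S.D B s.1) - (lam : ℂ) • s.1) = S.ip f.1 s.1 := by
    intro s
    have e1 := h2 (DL hB (DL hB s) - (lam : ℂ) • s)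
    have e2 := hj.ip f s
    have e3 : (DL hB (DL hB s) - (lam : ℂ) • s).1 = S.D B (S.D B s.1) - (lam : ℂ) • s.1 := by
      rw [Submodule.coe_sub, Submodule.coe_smul, DL_val, DL_val]
    rw [h s, e2, e3] at e1
    exact e1.symm
  obtain ⟨w, hw, hr⟩ := reg_glob hX hB h1 f.2 (lam : ℂ) fun s hs => key ⟨s, hs⟩
  have e4 := h3 ⟨w, hw⟩ hr
  exact LinearMap.mem_range.2 ⟨⟨w, hw⟩, e4.symm⟩

theorem gL_gL (u : S.SmS) : gL S (gL S u) = u := by
  refine Subtype.ext (funext fun x => ?_)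
  simp only [gL_val, Matrix.mulVec_mulVec]
  rw [gam_sq S.toCl, Matrix.one_mulVec]

theorem DL_gL (hB : S.IsOp B) (u : S.SmS) : DL hB (gL S u) = -gL S (DL hB u) :=
  Subtype.ext (D_gam hB u.2)

theorem absD (hX : IsSurface X) (hB : S.IsOp B) {j : S.SmS →ₗ[ℂ] S.L2} (hj : S.Mod j) :
    AbsD j (DL hB) (gL S) :=
  ⟨hj.inj, fun u v => (hj.ip _ _).trans ((hB.symm _ _ u.2 v.2).trans (hj.ip u (DL hB v)).symm),
    fun u v => (hj.ip _ _).trans ((ip_gam S u.1 v.1).trans (hj.ip u (gL S v)).symm), gL_gL,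
    DL_gL hB, absD_rel hX hB hj, absD_reg hX hB hj⟩

theorem ker_map (hB : S.IsOp B) (ε : ℂ) : S.Ker B ε =
    (LinearMap.ker (DL hB) ⊓ LinearMap.ker (gL S - ε • LinearMap.id)).map S.SmS.subtype := by
  refine le_antisymm (Submodule.span_le.2 ?_) ?_
  · rintro s ⟨h1, h2, h3⟩
    refine ⟨⟨s, h1⟩, ⟨Subtype.ext h2, ?_⟩, rfl⟩
    refine Subtype.ext (funext fun x => ?_)
    exact sub_eq_zero.2 (h3 x)
  · rintro _ ⟨s, ⟨h1, h2⟩, rfl⟩
    refine Submodule.subset_span ⟨s.2, congrArg Subtype.val h1, fun x => ?_⟩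
    exact sub_eq_zero.1 (congrFun (congrArg Subtype.val h2) x)

theorem ind_eq (hB : S.IsOp B) : S.ind B = absInd (DL hB) (gL S) := by
  unfold Pre.ind absInd KerG
  rw [ker_map hB, ker_map hB, Submodule.finrank_map_subtype_eq, Submodule.finrank_map_subtype_eq,
    Complex.ofReal_neg, Complex.ofReal_one]

theorem ip_add_left (hX : IsSurface X) {s t u : X → Vec N} (hs : S.Sm s) (ht : S.Sm t)
    (hu : S.Sm u) : S.ip (s + t) u = S.ip s u + S.ip t u := by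
  obtain ⟨j, hj⟩ := l2_model hX S
  have := inner_add_left (𝕜 := ℂ) (j ⟨s, hs⟩) (j ⟨t, ht⟩) (j ⟨u, hu⟩)
  rwa [← map_add, hj.ip, hj.ip, hj.ip] at this

theorem ip_add_right (hX : IsSurface X) {s t u : X → Vec N} (hs : S.Sm s) (ht : S.Sm t)
    (hu : S.Sm u) : S.ip u (s + t) = S.ip u s + S.ip u t := by
  obtain ⟨j, hj⟩ := l2_model hX S
  have := inner_add_right (𝕜 := ℂ) (j ⟨u, hu⟩) (j ⟨s, hs⟩) (j ⟨t, ht⟩)
  rwa [← map_add, hj.ip, hj.ip, hj.ip] at this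

theorem ip_smul_right (a : ℂ) (s t : X → Vec N) : S.ip s (a • t) = a * S.ip s t := by
  simp only [Pre.ip, Pi.smul_apply, dotProduct_smul, smul_eq_mul, integral_const_mul]

theorem ip_smul_left (a : ℂ) (s t : X → Vec N) : S.ip (a • s) t = star a * S.ip s t := by
  simp only [Pre.ip, Pi.smul_apply, star_smul, smul_dotProduct, smul_eq_mul, integral_const_mul]

theorem ip_conj (s t : X → Vec N) : star (S.ip s t) = S.ip t s := by
  unfold Pre.ip
  rw [Complex.star_def, ← integral_conj]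
  refine integral_congr_ae (Eventually.of_forall fun x => ?_)
  simp [dotProduct, mul_comm]

theorem ip_self (hX : IsSurface X) {s : X → Vec N} (hs : S.Sm s) : S.ip s s = (S.n2 s : ℂ) := by
  obtain ⟨j, hj⟩ := l2_model hX S
  have h1 := hj.ip ⟨s, hs⟩ ⟨s, hs⟩
  have h2 := hj.n2 ⟨s, hs⟩
  rw [inner_self_eq_norm_sq_to_K] at h1
  rw [← h1, ← h2]
  simp

theorem ip_eq_zero (hX : IsSurface X) {s : X → Vec N} (hs : S.Sm s) (h : S.ip s s = 0) :
    s = 0 := by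
  obtain ⟨j, hj⟩ := l2_model hX S
  have h1 := hj.ip ⟨s, hs⟩ ⟨s, hs⟩
  rw [h, inner_self_eq_zero] at h1
  exact congrArg Subtype.val (hj.inj (h1.trans (map_zero j).symm))

end Vale.Agent.P267I
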