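import Vale.Agent.P267I.GLin
import Vale.Agent.P353.HRel

open scoped Manifold ContDiff Topology InnerProductSpace
open Filter Matrix MeasureTheory Set

noncomputable section

namespace Vale.Agent.P267I

open Vale.Agent.P267F

variable {N : ℕ}

theorem grl_gen {F : Type} [NormedAddCommGroup F] [InnerProductSpace ℂ F] [CompleteSpace F]
    [FiniteDimensional ℂ F] (T : Vec N →L[ℂ] F) (hT : ∀ v, ‖T v‖ ^ 2 = nsq v)
    {K : Set C2} (hK : IsCompact K) (φ : ℕ → C2 → Vec N) (h : ∀ n, TstV K (φ n))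
    (A : ℝ) (h1 : ∀ n, ∫ z, nsq (φ n z) ≤ A) (h2 : ∀ n, ∫ z, ∑ k, nsq (dk k (φ n) z) ≤ A) :
    ∃ κ : ℕ → ℕ, StrictMono κ ∧ ∀ ε : ℝ, 0 < ε → ∃ M, ∀ m ≥ M, ∀ n ≥ M,
      ∫ z, nsq (φ (κ m) z - φ (κ n) z) ≤ ε := by
  obtain ⟨L, hL, c, hc, hm⟩ := lin_co
  have hc0 : (0 : ℝ) < c := NNReal.coe_pos.2 (pos_iff_ne_zero.2 hc)
  have hI : ∀ f : C2 → ℝ, ∫ x, f (L x) = c * ∫ z, f z := fun f => by
    have e := integral_map_equiv (μ := volume) L.toHomeomorph.toMeasurableEquiv f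
    have e2 : Measure.map L.toHomeomorph.toMeasurableEquiv volume = c • (volume : Measure C2) := hm
    rw [e2, integral_smul_nnreal_measure] at e
    exact e.symm
  have hA : 0 ≤ A :=
    (integral_nonneg fun z => Finset.sum_nonneg fun i _ => sq_nonneg _).trans (h1 0)
  obtain ⟨R, hR⟩ := (hK.image L.symm.continuous).isBounded.exists_norm_le
  obtain ⟨ψ, hψ⟩ : ∃ ψ : ℕ → P292E.V 4 → F, ψ = fun n x => T (φ n (L x)) := ⟨_, rfl⟩
  have t : ∀ n, P353.Tst (ψ n) := fun n => by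
    rw [hψ]
    exact ⟨(T.restrictScalars ℝ).contDiff.comp ((h n).1.comp L.contDiff),
      ((h n).2.1.comp_homeomorph L.toHomeomorph).comp_left (map_zero T)⟩
  have a1 : ∀ n, P353.n2 (ψ n) ≤ c * A := fun n => by
    simp only [hψ, P353.n2, hT]
    rw [hI fun z => nsq (φ n z)]
    exact mul_le_mul_of_nonneg_left (h1 n) hc0.le
  have a2 : ∀ n, P353.kin (ψ n) ≤ 1 / 2 * (c * A) := fun n => by
    have e : ∀ x, P353.g2 (ψ n) x = ∑ k, nsq (dk k (φ n) (L x)) := fun x => by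
      rw [P353.g2_onb (EuclideanSpace.basisFun (Fin 4) ℝ)]
      refine Finset.sum_congr rfl fun k _ => ?_
      have d := (T.restrictScalars ℝ).hasFDerivAt.comp x
        ((((h n).1.differentiable (by simp)) (L x)).hasFDerivAt.comp x L.hasFDerivAt)
      have d2 : ψ n = T.restrictScalars ℝ ∘ φ n ∘ L := by
        rw [hψ]
        rfl
      rw [d2, d.fderiv, ← hT, dk, ← hL k, EuclideanSpace.basisFun_apply]
      rfl
    simp only [P353.kin, e]
    rw [hI fun z => ∑ k, nsq (dk k (φ n) z)]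
    exact mul_le_mul_of_nonneg_left (mul_le_mul_of_nonneg_left (h2 n) hc0.le) (by norm_num)
  have a3 : ∀ n, P353.wt (fun x => ‖x‖ ^ 2) (ψ n) ≤ R ^ 2 * (c * A) := fun n => by
    refine le_trans ?_ (mul_le_mul_of_nonneg_left (a1 n) (sq_nonneg R))
    rw [P353.n2, ← integral_const_mul]
    refine integral_mono_of_nonneg (Eventually.of_forall fun x => by positivity)
      ((P353.int_sq (t n).memLp).const_mul _) (Eventually.of_forall fun x => ?_)
    by_cases hx : φ n (L x) = 0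
    · simp [hψ, hx]
    · have k1 := hR _ ⟨L x, (h n).2.2 (subset_tsupport _ hx), rfl⟩
      rw [L.symm_apply_apply] at k1
      exact mul_le_mul_of_nonneg_right (pow_le_pow_left₀ (norm_nonneg _) k1 2) (sq_nonneg _)
  have p1 : 0 ≤ c * A := mul_nonneg hc0.le hA
  have p2 : 0 ≤ R ^ 2 * (c * A) := mul_nonneg (sq_nonneg R) p1
  obtain ⟨κ, hκ, u, hu⟩ := P353.rellich ψ t (c * A + R ^ 2 * (c * A))
    (fun n => by linarith [a1 n]) (fun n => by linarith [a2 n]) (fun n => by linarith [a3 n])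
  refine ⟨κ, hκ, fun ε hε => ?_⟩
  obtain ⟨M, hM⟩ := Metric.cauchySeq_iff.1 hu.cauchySeq (√(c * ε)) (by positivity)
  refine ⟨M, fun m hm' n hn => ?_⟩
  have k1 := hM m hm' n hn
  rw [dist_eq_norm, ← MemLp.toLp_sub] at k1
  have k2 := pow_le_pow_left₀ (norm_nonneg _) k1.le 2
  rw [P353.n2_toLp, Real.sq_sqrt (by positivity)] at k2
  simp only [hψ, P353.n2, Pi.sub_apply, ← map_sub, hT] at k2
  rw [hI fun z => nsq (φ (κ m) z - φ (κ n) z)] at k2
  exact le_of_mul_le_mul_left k2 hc0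

/-- Rellich compactness for functions supported in a fixed compact set. -/
theorem loc_rellich {K : Set C2} (hK : IsCompact K) (φ : ℕ → C2 → Vec N) (h : ∀ n, TstV K (φ n))
    (A : ℝ) (h1 : ∀ n, ∫ z, nsq (φ n z) ≤ A) (h2 : ∀ n, ∫ z, ∑ k, nsq (dk k (φ n) z) ≤ A) :
    ∃ κ : ℕ → ℕ, StrictMono κ ∧ ∀ ε : ℝ, 0 < ε → ∃ M, ∀ m ≥ M, ∀ n ≥ M,
      ∫ z, nsq (φ (κ m) z - φ (κ n) z) ≤ ε := by
  refine grl_gen ((EuclideanSpace.equiv (Fin N) ℂ).symm : Vec N →L[ℂ] EuclideanSpace ℂ (Fin N))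
    (fun v => ?_) hK φ h A h1 h2
  rw [EuclideanSpace.norm_sq_eq]
  rfl

end Vale.Agent.P267I
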