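import Vale.Agent.P267I.GGa
import Vale.Agent.P267I.GRl
import Vale.Agent.P267I.GExt

open scoped Manifold ContDiff Topology InnerProductSpace
open Filter Matrix MeasureTheory Set

noncomputable section

namespace Vale.Agent.P267I

open Vale.Agent.P267F

variable {X : Type} [TopologicalSpace X] [ChartedSpace C2 X] [MeasurableSpace X] [BorelSpace X]
  {N : ℕ} {S : Pre X N} {B : X → C2 → Mat N}

theorem grc_nn (v : Vec N) : 0 ≤ nsq v := Finset.sum_nonneg fun _ _ => sq_nonneg _

theorem grc_cont : Continuous (nsq : Vec N → ℝ) := by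
  unfold nsq
  fun_prop

theorem grc_zero : nsq (0 : Vec N) = 0 := by simp [nsq]

theorem grc_smul (r : ℝ) (v : Vec N) : nsq (r • v) = r ^ 2 * nsq v := by
  simp only [nsq, Pi.smul_apply, norm_smul, mul_pow, Real.norm_eq_abs, sq_abs, Finset.mul_sum]

theorem grc_add (u v : Vec N) : nsq (u + v) ≤ 2 * nsq u + 2 * nsq v := by
  simp only [nsq, Finset.mul_sum, ← Finset.sum_add_distrib]
  refine Finset.sum_le_sum fun i _ => ?_
  have := pow_le_pow_left₀ (norm_nonneg _) (norm_add_le (u i) (v i)) 2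
  rw [Pi.add_apply]
  nlinarith [sq_nonneg (‖u i‖ - ‖v i‖)]

theorem grc_mul (T : Mat N) (v : Vec N) : nsq (T *ᵥ v) ≤ (∑ i, ∑ j, ‖T i j‖ ^ 2) * nsq v := by
  rw [Finset.sum_mul]
  refine Finset.sum_le_sum fun i _ => le_trans ?_
    (Finset.sum_mul_sq_le_sq_mul_sq Finset.univ (fun j => ‖T i j‖) fun j => ‖v j‖)
  refine pow_le_pow_left₀ (norm_nonneg _) ((norm_sum_le Finset.univ fun j => T i j * v j).trans_eq ?_) 2
  simp only [norm_mul]

theorem grc_le {K : Set C2} (hK : MeasurableSet K) {f g : C2 → ℝ} (h0 : ∀ z, 0 ≤ f z)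
    (h1 : ∀ z, z ∉ K → f z = 0) (h2 : ∀ z ∈ K, f z ≤ g z) (h3 : IntegrableOn g K) :
    ∫ z, f z ≤ ∫ z in K, g z := by
  rw [← setIntegral_eq_integral_of_forall_compl_eq_zero h1]
  exact integral_mono_of_nonneg (Eventually.of_forall h0) h3 (ae_restrict_of_forall_mem hK h2)

theorem grc_bd {K : Set C2} (hK : IsCompact K) {f : C2 → ℝ} (h : ContinuousOn f K) :
    ∃ M, 0 < M ∧ ∀ z ∈ K, f z ≤ M := by
  obtain ⟨M, hM⟩ := hK.exists_bound_of_continuousOn h
  exact ⟨|M| + 1, by positivity, fun z hz => by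
    linarith [hM z hz, le_abs_self M, Real.le_norm_self (f z)]⟩

theorem grc_int (hX : IsSurface X) (S : Pre X N) (p : X) {K : Set C2} (hK : IsCompact K)
    (hV : K ⊆ S.V p) : ∃ M, 0 < M ∧ ∀ t, S.Sm t → IntegrableOn (fun z => nsq (S.loc p t z)) K ∧
      ∫ z in K, nsq (S.loc p t z) ≤ M * S.n2 t := by
  have := hX.2.2.1
  have := mu_finite hX S
  obtain ⟨M, hM, h⟩ := grc_bd hK (f := fun z => (S.rho p z)⁻¹)
    (((rho_sm S p).continuousOn.mono hV).inv₀ fun z hz => (rho_pos S p z (hV hz)).ne')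
  refine ⟨M, hM, fun t ht => ⟨(grc_cont.comp_continuousOn
    ((ht p).continuousOn.mono hV)).integrableOn_compact hK, ?_⟩⟩
  have i1 : Integrable (fun x => nsq (t x)) S.μ := (nsq_cont ht).integrable_of_hasCompactSupport
    (HasCompactSupport.of_compactSpace _)
  have i2 := (chart_integrable S p fun x => nsq (t x)).1 i1.integrableOn
  calc ∫ z in K, nsq (S.loc p t z)
      ≤ ∫ z in K, M * (S.rho p z • nsq (t ((chartAt C2 p).symm z))) := by
        refine integral_mono_of_nonneg (Eventually.of_forall fun z => grc_nn _)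
          ((i2.mono_set hV).const_mul M) (ae_restrict_of_forall_mem hK.measurableSet fun z hz => ?_)
        have h1 := rho_pos S p z (hV hz)
        have h2 := (inv_le_iff_one_le_mul₀ h1).1 (h z hz)
        simp only [Pre.loc, nsq_U, smul_eq_mul, ← mul_assoc]
        exact le_mul_of_one_le_left (grc_nn _) h2
    _ ≤ M * S.n2 t := by
        rw [integral_const_mul]
        refine mul_le_mul_of_nonneg_left (le_trans (setIntegral_mono_set i2
          (ae_restrict_of_forall_mem (V_open S p).measurableSet fun z hz =>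
            smul_nonneg (rho_pos S p z hz).le (grc_nn _)) hV.eventuallyLE) ?_) hM.le
        rw [← chart_int S p fun x => nsq (t x)]
        exact setIntegral_le_integral i1 (Eventually.of_forall fun x => grc_nn _)

theorem grc_tst {p : X} {χ : C2 → ℝ} (h1 : ContDiff ℝ ∞ χ) (h2 : HasCompactSupport χ)
    (h3 : tsupport χ ⊆ S.V p) {t : X → Vec N} (ht : S.Sm t) :
    TstV (tsupport χ) fun z => χ z • S.loc p t z := by
  refine ⟨contDiff_iff_contDiffAt.2 fun z => ?_, h2.smul_right, tsupport_smul_subset_left _ _⟩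
  by_cases hz : z ∈ tsupport χ
  · exact h1.contDiffAt.smul ((ht p).contDiffAt ((V_open S p).mem_nhds (h3 hz)))
  · refine (contDiffAt_const (c := 0)).congr_of_eventuallyEq ?_
    filter_upwards [notMem_tsupport_iff_eventuallyEq.1 hz] with y hy
    rw [hy, Pi.zero_apply, zero_smul]

theorem grc_pop (hB : S.IsOp B) {p : X} {χ : C2 → ℝ} (h1 : ContDiff ℝ ∞ χ) {t : X → Vec N}
    (ht : S.Sm t) {z : C2} (hz : z ∈ S.V p) :
    Pop S.c (S.e p) (B p) (fun z => χ z • S.loc p t z) z = χ z • S.loc p (S.D B t) z +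
      (∑ a, fderiv ℝ χ z (S.e p a z) • S.c a) *ᵥ S.loc p t z := by
  have d1 := h1.differentiable (by simp) z
  have d2 := ((ht p).contDiffAt ((V_open S p).mem_nhds hz)).differentiableAt (by simp)
  rw [loc_D hB ht p z hz, Pre.Dloc, Pop, fderiv_fun_smul d1 d2]
  simp only [_root_.add_apply, _root_.smul_apply,
    ContinuousLinearMap.smulRight_apply, Matrix.mulVec_add, Matrix.mulVec_smul, smul_add,
    Finset.smul_sum, Finset.sum_add_distrib, Matrix.sum_mulVec, Matrix.smul_mulVec]
  abel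

/-- Compactness for one cut-off. -/
theorem rel_chart (hX : IsSurface X) (hB : S.IsOp B) (p : X) {χ : C2 → ℝ} (h1 : ContDiff ℝ ∞ χ)
    (h2 : HasCompactSupport χ) (h3 : tsupport χ ⊆ S.V p) (s : ℕ → X → Vec N)
    (hs : ∀ n, S.Sm (s n)) (A : ℝ) (k1 : ∀ n, S.n2 (s n) ≤ A) (k2 : ∀ n, S.n2 (S.D B (s n)) ≤ A) :
    ∃ κ : ℕ → ℕ, StrictMono κ ∧ ∀ ε : ℝ, 0 < ε → ∃ M, ∀ m ≥ M, ∀ n ≥ M,
      ∫ z, S.rho p z * nsq (χ z • S.loc p (s (κ m) - s (κ n)) z) ≤ ε := by
  have hK : IsCompact (tsupport χ) := h2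
  obtain ⟨M, hM, iM⟩ := grc_int hX S p hK h3
  obtain ⟨a, ha, ia⟩ := grc_bd hK (f := fun z => χ z ^ 2) (h1.continuous.pow 2).continuousOn
  obtain ⟨b, hb, ib⟩ := grc_bd hK (f := fun z => ∑ i, ∑ j,
      ‖(∑ a, fderiv ℝ χ z (S.e p a z) • S.c a) i j‖ ^ 2) (by
    refine continuousOn_finsetSum _ fun i _ => continuousOn_finsetSum _ fun j _ =>
      (ContinuousOn.norm ?_).pow 2
    simp only [Matrix.sum_apply, Matrix.smul_apply]
    exact continuousOn_finsetSum _ fun c _ => ((h1.continuous_fderiv (by simp)).continuousOn.clm_apply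
      ((S.e_sm p c).continuousOn.mono h3)).smul continuousOn_const)
  obtain ⟨r, hr, ir⟩ := grc_bd hK ((rho_sm S p).continuousOn.mono h3)
  obtain ⟨G, hG, iG⟩ := garding S.toCl (locOp hB p) hK h3
  have ts := fun n => grc_tst h1 h2 h3 (hs n)
  have z0 : ∀ z, z ∉ tsupport χ → χ z = 0 := fun z => image_eq_zero_of_notMem_tsupport
  have e1 : ∀ n, ∫ z, nsq (χ z • S.loc p (s n) z) ≤ a * (M * A) := fun n => by
    refine (grc_le hK.measurableSet (fun z => grc_nn _) (fun z hz => by
      rw [z0 z hz, zero_smul, grc_zero]) (fun z hz => ?_) ((iM _ (hs n)).1.const_mul a)).trans ?_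
    · rw [grc_smul]
      exact mul_le_mul_of_nonneg_right (ia z hz) (grc_nn _)
    · rw [integral_const_mul]
      exact mul_le_mul_of_nonneg_left ((iM _ (hs n)).2.trans
        (mul_le_mul_of_nonneg_left (k1 n) hM.le)) ha.le
  have e2 : ∀ n, ∫ z, nsq (Pop S.c (S.e p) (B p) (fun z => χ z • S.loc p (s n) z) z) ≤
      2 * a * (M * A) + 2 * b * (M * A) := fun n => by
    have j1 := (iM _ (sm_D hB (hs n))).1.const_mul (2 * a)
    have j2 := (iM _ (hs n)).1.const_mul (2 * b)
    refine (grc_le hK.measurableSet (fun z => grc_nn _) (fun z hz => ?_) (fun z hz => ?_)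
      (j1.add j2)).trans ?_
    · rw [image_eq_zero_of_notMem_tsupport fun k => hz ((ts n).2.2 ((pop_tst (locOp hB p)
        ⟨(ts n).1, (ts n).2.1, (ts n).2.2.trans h3⟩).2 k)), grc_zero]
    · rw [grc_pop hB h1 (hs n) (h3 hz), Pi.add_apply, mul_assoc, mul_assoc]
      refine (grc_add _ _).trans (add_le_add (mul_le_mul_of_nonneg_left ?_ zero_le_two)
        (mul_le_mul_of_nonneg_left ((grc_mul _ _).trans ?_) zero_le_two))
      · rw [grc_smul]
        exact mul_le_mul_of_nonneg_right (ia z hz) (grc_nn _)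
      · exact mul_le_mul_of_nonneg_right (ib z hz) (grc_nn _)
    · simp only [Pi.add_apply]
      rw [integral_add j1 j2, integral_const_mul, integral_const_mul]
      exact add_le_add (mul_le_mul_of_nonneg_left ((iM _ (sm_D hB (hs n))).2.trans
        (mul_le_mul_of_nonneg_left (k2 n) hM.le)) (by positivity))
        (mul_le_mul_of_nonneg_left ((iM _ (hs n)).2.trans
          (mul_le_mul_of_nonneg_left (k1 n) hM.le)) (by positivity))
  obtain ⟨κ, hκ, h⟩ := loc_rellich hK _ ts (max (a * (M * A))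
    (G * (2 * a * (M * A) + 2 * b * (M * A) + a * (M * A)))) (fun n => (e1 n).trans (le_max_left _ _))
    fun n => ((iG _ (ts n)).trans (mul_le_mul_of_nonneg_left (add_le_add (e2 n) (e1 n)) hG)).trans
      (le_max_right _ _)
  refine ⟨κ, hκ, fun ε hε => (h (ε / r) (by positivity)).imp fun M0 h0 m hm n hn => ?_⟩
  have e3 : ∀ z, χ z • S.loc p (s (κ m) - s (κ n)) z =
      χ z • S.loc p (s (κ m)) z - χ z • S.loc p (s (κ n)) z := fun z => by
    simp only [Pre.loc, Pi.sub_apply, Matrix.mulVec_sub, smul_sub]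
  have c1 : Continuous fun z => nsq (χ z • S.loc p (s (κ m)) z - χ z • S.loc p (s (κ n)) z) :=
    grc_cont.comp ((ts _).1.continuous.sub (ts _).1.continuous)
  have c2 : Integrable fun z => nsq (χ z • S.loc p (s (κ m)) z - χ z • S.loc p (s (κ n)) z) :=
    c1.integrable_of_hasCompactSupport (HasCompactSupport.intro hK fun z hz => by
      rw [z0 z hz, zero_smul, zero_smul, sub_zero, grc_zero])
  simp only [e3]
  refine (integral_mono_of_nonneg (Eventually.of_forall fun z => ?_) (c2.const_mul r)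
    (Eventually.of_forall fun z => ?_)).trans ?_
  · by_cases hz : z ∈ tsupport χ
    · exact mul_nonneg (rho_pos S p z (h3 hz)).le (grc_nn _)
    · simp [z0 z hz, grc_zero]
  · by_cases hz : z ∈ tsupport χ
    · exact mul_le_mul_of_nonneg_right (ir z hz) (grc_nn _)
    · simp [z0 z hz, grc_zero]
  · rw [integral_const_mul, mul_comm]
    exact (le_div_iff₀ hr).1 (h0 m hm n hn)

end Vale.Agent.P267I
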