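import Vale.Agent.P267I.SStep

open scoped ContDiff Topology FourierTransform
open Set Filter MeasureTheory Metric

noncomputable section

namespace Vale.Agent.P267I

open Vale.Agent.P292E

variable {n m : ℕ}

theorem sell_bd (M : ℕ) {ψ : V n → ℂ} (hψ : Tst (ball 0 3) ψ) : ∃ B, Bd M ψ univ B := by
  obtain ⟨C, -, h⟩ := cut_Bd M isOpen_ball hψ
  have h1 := h (fun _ => 1) _ (norm_nonneg _) contDiffOn_const (Bd_const M (1 : ℂ) _)
  simp only [mul_one] at h1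
  exact ⟨_, h1⟩

theorem sell_tst (s : ℕ) {ψ : V n → ℂ} (hψ : Tst (ball 0 3) ψ) : Dec s ψ := by
  obtain ⟨M, C, -, h⟩ := four_dec n s
  obtain ⟨B, hB⟩ := sell_bd M hψ
  exact ⟨_, h ψ B hψ hB⟩

theorem sell_mul {s : ℕ} {ψ g : V n → ℂ} (hψ : Tst (ball 0 3) ψ) (hg : Integrable g)
    (h : Dec s g) : Dec s fun x => ψ x * g x := by
  obtain ⟨M, C, -, h1⟩ := four_mul n s
  obtain ⟨B, hB⟩ := sell_bd M hψ
  obtain ⟨D, hD⟩ := h
  exact ⟨_, h1 ψ g (fun ξ => (1 + ‖ξ‖) ^ s) B D hψ hB hg (fun _ => by positivity)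
    (fun ξ η => fstep_wt ξ η s) hD⟩

theorem sell_add {s : ℕ} {f g : V n → ℂ} (hf : Integrable f) (hg : Integrable g) (h : Dec s f)
    (h' : Dec s g) : Dec s fun x => f x + g x := by
  obtain ⟨D, hD⟩ := h
  obtain ⟨D', hD'⟩ := h'
  refine ⟨D + D', fun ξ => ?_⟩
  have e := fstep_lin hf hg 1 ξ
  simp only [one_mul] at e
  rw [e]
  refine (mul_le_mul_of_nonneg_right (norm_add_le _ _) (by positivity)).trans ?_
  rw [add_mul]
  exact add_le_add (hD ξ) (hD' ξ)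

theorem sell_sum {ι : Type} {s : ℕ} (t : Finset ι) {f : ι → V n → ℂ}
    (hf : ∀ i, Integrable (f i)) (h : ∀ i, Dec s (f i)) : Dec s fun x => ∑ i ∈ t, f i x := by
  classical
  induction t using Finset.induction_on with
  | empty => exact ⟨0, fun ξ => by simp [Real.fourier_eq]⟩
  | insert i t hi ih =>
    simp only [Finset.sum_insert hi]
    exact sell_add (hf i) (integrable_finsetSum _ fun j _ => hf j) (h i) ih

theorem sell_int {d u : Fin m → V n → ℂ} (hd : ∀ j, ContDiffOn ℝ ∞ (d j) (ball 0 3))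
    (hu : ∀ j, IntegrableOn (u j) (ball 0 3)) (ψ : V n → ℂ) (hψ : Tst (ball 0 3) ψ) :
    Integrable fun x => ψ x * ∑ j, d j x * u j x := by
  simp only [Finset.mul_sum, ← mul_assoc]
  exact integrable_finsetSum _ fun j _ =>
    (cut_contDiff isOpen_ball hψ (hd j)).integrable_mul (hu j)

theorem sell_row {s : ℕ} {T : Set (V n)} {d u : Fin m → V n → ℂ}
    (hd : ∀ j, ContDiffOn ℝ ∞ (d j) (ball 0 3)) (hu : ∀ j, IntegrableOn (u j) (ball 0 3))
    (h : ∀ j, LDec s T (u j)) : LDec s T fun x => ∑ j, d j x * u j x := by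
  intro ψ hψ hs
  simp only [Finset.mul_sum, ← mul_assoc]
  exact sell_sum _ (fun j => (cut_contDiff isOpen_ball hψ (hd j)).integrable_mul (hu j))
    fun j => h j _ (cut_contDiff isOpen_ball hψ (hd j)) (tsupport_mul_subset_left.trans hs)

theorem sell_ind (n m i : ℕ) : ∃ M : ℕ, ∀ κ : ℝ, 0 < κ → ∃ ε : ℝ, 0 < ε ∧
    ∀ (a₀ : Fin n → Fin n → ℂ) (a : Fin n → Fin n → V n → ℂ)
      (b : Fin n → Fin m → Fin m → V n → ℂ) (c : Fin m → Fin m → V n → ℂ)
      (u f : Fin m → V n → ℂ), (∀ ξ, κ * ‖ξ‖ ^ 2 ≤ symb a₀ ξ) →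
      (∀ p q, ContDiffOn ℝ ∞ (a p q) (ball 0 3)) →
      (∀ p i k, ContDiffOn ℝ ∞ (b p i k) (ball 0 3)) →
      (∀ i k, ContDiffOn ℝ ∞ (c i k) (ball 0 3)) → (∀ i, ContDiffOn ℝ ∞ (f i) (ball 0 3)) →
      (∀ p q, Bd M (fun x => a p q x - a₀ p q) (ball 0 3) ε) →
      (∀ i, IntegrableOn (u i) (ball 0 3)) → WeakSys (ball 0 3) a b c u f →
      ∀ k, Dec i fun x => ellC n i x * u k x := by
  induction i with
  | zero =>
    refine ⟨0, fun κ _ => ⟨1, one_pos, ?_⟩⟩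
    intro a₀ a b c u f _ _ _ _ _ _ _ _ k
    exact ⟨_, fun ξ => by rw [pow_zero, mul_one]; exact fstep_bdd _ ξ⟩
  | succ i ih =>
    obtain ⟨M₁, h₁⟩ := ih
    obtain ⟨M₂, h₂⟩ := sys_step n i (ell_tst n (i + 1)) (ell_tst n i) (ell_nest n i)
    refine ⟨max M₁ M₂, fun κ hκ => ?_⟩
    obtain ⟨ε₁, hε₁, h₁⟩ := h₁ κ hκ
    obtain ⟨ε₂, hε₂, h₂⟩ := h₂ κ hκ
    refine ⟨min ε₁ ε₂, lt_min hε₁ hε₂, ?_⟩
    intro a₀ a b c u f k1 k2 k3 k4 k5 k6 hu hW k
    have h3 := h₁ a₀ a b c u f k1 k2 k3 k4 k5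
      (fun p q => (k6 p q).mono (le_max_left _ _) subset_rfl (min_le_left _ _)) hu hW
    have hL : ∀ l, LDec i (tsupport (ellC n (i + 1))) (u l) := fun l ψ hψ hs => by
      have e : (fun x => ψ x * u l x) = fun x => ψ x * (ellC n i x * u l x) := funext fun x => by
        by_cases hx : x ∈ tsupport ψ
        · rw [ell_nest n i x (hs hx), one_mul]
        · rw [image_eq_zero_of_notMem_tsupport hx, zero_mul, zero_mul]
      rw [e]
      exact sell_mul hψ ((ell_tst n i).integrable_mul (hu l)) (h3 l)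
    refine h₂ a₀ a (u k) _ _ k1 k2
      (fun p q => (k6 p q).mono (le_max_right _ _) subset_rfl (min_le_right _ _)) (hu k)
      (fun ψ hψ => ?_) (fun p => sell_int (k3 p k) hu) (hW k) (hL k) (fun ψ hψ hs => ?_)
      fun p => sell_row (k3 p k) hu hL
    · simp only [mul_add]
      exact (FEq_int (cut_contDiff isOpen_ball hψ (k5 k))).add (sell_int (k4 k) hu ψ hψ)
    · simp only [mul_add]
      exact sell_add (FEq_int (cut_contDiff isOpen_ball hψ (k5 k))) (sell_int (k4 k) hu ψ hψ)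
        (sell_tst i (cut_contDiff isOpen_ball hψ (k5 k))) (sell_row (k4 k) hu hL ψ hψ hs)

theorem ellSys (n m : ℕ) : EllSys n m := by
  intro j
  obtain ⟨s, C₀, -, h₀⟩ := four_inv n j
  obtain ⟨M, h⟩ := sell_ind n m s
  refine ⟨M, fun κ hκ => ?_⟩
  obtain ⟨ε, hε, h⟩ := h κ hκ
  refine ⟨ε, hε, ?_⟩
  intro a₀ a b c u f k1 k2 k3 k4 k5 k6 hu hW i
  obtain ⟨D, hD⟩ := h a₀ a b c u f k1 k2 k3 k4 k5 k6 hu hW i
  obtain ⟨w, h1, h2, -⟩ := h₀ _ _ ((ell_tst n s).integrable_mul (hu i)) hD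
  refine ⟨w, h1, ?_⟩
  filter_upwards [h2] with x hx hx1
  rw [← hx, ell_one n s (ball_subset_closedBall.trans (closedBall_subset_closedBall ?_) hx1),
    one_mul]
  have : (0 : ℝ) ≤ 1 / (2 * s + 2) := by positivity
  linarith

end Vale.Agent.P267I
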