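import Vale.Agent.P267I.SDefs

open scoped ContDiff Topology FourierTransform
open Set Filter MeasureTheory Metric

noncomputable section

namespace Vale.Agent.P267I

open Vale.Agent.P292E

variable {n m : ℕ}

theorem sreg_weak {U : Set (V n)} {a : Fin n → Fin n → V n → ℂ} {u f : V n → ℂ}
    {g : Fin n → V n → ℂ} {x₀ : V n} {ρ : ℝ} (hρ : 0 < ρ) (hU : closedBall x₀ (3 * ρ) ⊆ U)
    (hw : Weak U a 0 0 u f g) :
    Weak (ball 0 3) (fun p q y => a p q (x₀ + ρ • y)) 0 0 (fun y => u (x₀ + ρ • y))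
      (fun y => (ρ : ℂ) ^ 2 * f (x₀ + ρ • y)) (fun p y => (ρ : ℂ) * g p (x₀ + ρ • y)) := by
  intro φ hφ
  have hS : ContDiff ℝ ∞ fun x : V n => ρ⁻¹ • (x - x₀) := by fun_prop
  have e1 : ∀ y : V n, ρ⁻¹ • (x₀ + ρ • y - x₀) = y := fun y => by
    rw [add_sub_cancel_left, inv_smul_smul₀ hρ.ne']
  have hsup : tsupport (fun x => φ (ρ⁻¹ • (x - x₀))) ⊆ closedBall x₀ (3 * ρ) := by
    refine closure_minimal (fun x hx => ?_) isClosed_closedBall
    have := Reg_mem (x₀ := x₀) hρ (ball_subset_closedBall (hφ.2.2 (subset_tsupport _ hx)))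
    rwa [smul_inv_smul₀ hρ.ne', add_sub_cancel] at this
  have h1 := hw (fun x => φ (ρ⁻¹ • (x - x₀))) ⟨hφ.1.comp hS,
    (isCompact_closedBall x₀ (3 * ρ)).of_isClosed_subset (isClosed_tsupport _) hsup,
    hsup.trans hU⟩
  have h2 := Reg_int (fun x => u x * Qop a 0 0 (fun x => φ (ρ⁻¹ • (x - x₀))) x) x₀ ρ
  rw [h1, ← Reg_int _ x₀] at h2
  have hρ' : (ρ : ℂ) ≠ 0 := by exact_mod_cast hρ.ne'
  have e2 : ∀ p q x, pd p (pd q fun x => φ (ρ⁻¹ • (x - x₀))) x =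
      (ρ⁻¹ : ℝ) * ((ρ⁻¹ : ℝ) * pd p (pd q φ) (ρ⁻¹ • (x - x₀))) := by
    intro p q x
    rw [Reg_pd hφ.1, Reg_pd_mul _ (φ := fun x => pd q φ (ρ⁻¹ • (x - x₀))) (((hφ.pd q).1.1).comp hS),
      Reg_pd (hφ.pd q).1.1]
  have h3 := congrArg (fun t => (ρ : ℂ) ^ 2 * t) h2
  simp only [← integral_const_mul] at h3
  refine Eq.trans ?_ (h3.trans ?_)
  · refine integral_congr_ae (Eventually.of_forall fun y => ?_)
    simp only [Qop, e2, Pi.zero_apply, zero_mul, Finset.sum_const_zero, add_zero]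
    simp only [e1, Finset.mul_sum, Complex.ofReal_inv]
    refine Finset.sum_congr rfl fun p _ => Finset.sum_congr rfl fun q _ => ?_
    field_simp
  · refine integral_congr_ae (Eventually.of_forall fun y => ?_)
    simp only [Reg_pd hφ.1 x₀ ρ⁻¹, e1, mul_add, Finset.mul_sum, Complex.ofReal_inv]
    congr 1
    · ring
    · refine Finset.sum_congr rfl fun p _ => ?_
      field_simp

theorem sreg_loc (h : EllSys n m) {U : Set (V n)} {a : Fin n → Fin n → V n → ℂ}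
    {b : Fin n → Fin m → Fin m → V n → ℂ} {c : Fin m → Fin m → V n → ℂ} {u f : Fin m → V n → ℂ}
    (hO : IsOpen U) (ha : ∀ p q, ContDiffOn ℝ ∞ (a p q) U)
    (hb : ∀ p i k, ContDiffOn ℝ ∞ (b p i k) U) (hc : ∀ i k, ContDiffOn ℝ ∞ (c i k) U)
    (hf : ∀ i, ContDiffOn ℝ ∞ (f i) U) {x₀ : V n} (hx : x₀ ∈ U) {κ : ℝ}
    (hκ : 0 < κ) (hs : ∀ ξ, κ * ‖ξ‖ ^ 2 ≤ symb (fun p q => a p q x₀) ξ)
    (hu : ∀ i, LocallyIntegrableOn (u i) U) (hw : WeakSys U a b c u f) (i : Fin m) (j : ℕ) :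
    ∃ ρ, 0 < ρ ∧ ball x₀ ρ ⊆ U ∧ ∃ w : V n → ℂ, ContDiff ℝ j w ∧
      ∀ᵐ x, x ∈ ball x₀ ρ → u i x = w x := by
  obtain ⟨M, hM⟩ := h j
  obtain ⟨ε, hε, hK⟩ := hM κ hκ
  have e1 : ∀ p q, ∀ᶠ ρ in 𝓝[>] (0 : ℝ),
      Bd M (fun y => a p q (x₀ + ρ • y) - a p q x₀) (ball 0 3) ε := by
    intro p q
    obtain ⟨C, ρ₀, hC, hρ₀, -, hB⟩ := Bd_scale M 1 (f := fun x => a p q x - a p q x₀) hO
      ((ha p q).sub contDiffOn_const) hx (fun n hn => by
        obtain rfl : n = 0 := by omega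
        ext m
        simp)
    filter_upwards [Ioc_mem_nhdsGT (lt_min hρ₀ (div_pos hε (by positivity : 0 < C + 1)))]
      with ρ hρ
    refine (hB ρ hρ.1 (hρ.2.trans (min_le_left _ _))).2.mono le_rfl le_rfl ?_
    have := (le_div_iff₀ (by positivity : 0 < C + 1)).1 (hρ.2.trans (min_le_right _ _))
    nlinarith [hρ.1]
  obtain ⟨δ, hδ, hδU⟩ := nhds_basis_closedBall.mem_iff.1 (hO.mem_nhds hx)
  obtain ⟨ρ, hρa, hρ⟩ := ((eventually_all.2 fun p => eventually_all.2 fun q => e1 p q).and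
    (Ioc_mem_nhdsGT (by positivity : 0 < δ / 3))).exists
  have hU : closedBall x₀ (3 * ρ) ⊆ U :=
    (closedBall_subset_closedBall (by linarith [hρ.2])).trans hδU
  have hρ0 := hρ.1
  have hi : ∀ i, IntegrableOn (fun y => u i (x₀ + ρ • y)) (ball 0 3) := fun i => by
    have i1 := (integrable_indicator_iff measurableSet_closedBall).2
      ((hu i).integrableOn_compact_subset hU (isCompact_closedBall _ _))
    have i2 := ((i1.comp_add_left x₀).comp_smul hρ0.ne').integrableOn (s := ball 0 3)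
    exact i2.congr_fun
      (fun y hy => indicator_of_mem (Reg_mem hρ0 (ball_subset_closedBall hy)) (u i))
      measurableSet_ball
  have hW : WeakSys (ball 0 3) (fun p q y => a p q (x₀ + ρ • y))
      (fun p i k y => (ρ : ℂ) * b p i k (x₀ + ρ • y))
      (fun i k y => (ρ : ℂ) ^ 2 * c i k (x₀ + ρ • y)) (fun i y => u i (x₀ + ρ • y))
      (fun i y => (ρ : ℂ) ^ 2 * f i (x₀ + ρ • y)) := fun i => by
    have h1 := sreg_weak hρ0 hU (hw i)
    simpa only [mul_add, Finset.mul_sum, mul_assoc] using h1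
  obtain ⟨w, hw1, hw2⟩ := hK (fun p q => a p q x₀) _ _ _ _ _ hs
    (fun p q => by simpa using (Reg_bd M hO (ha p q) hρ0 hU 1).1)
    (fun p i k => (Reg_bd M hO (hb p i k) hρ0 hU (ρ : ℂ)).1)
    (fun i k => (Reg_bd M hO (hc i k) hρ0 hU _).1)
    (fun i => (Reg_bd M hO (hf i) hρ0 hU _).1) hρa hi hW i
  refine ⟨ρ, hρ0, (ball_subset_closedBall.trans (closedBall_subset_closedBall (by linarith))).trans
    hU, fun x => w (ρ⁻¹ • (x - x₀)), hw1.comp (by fun_prop), ?_⟩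
  have q1 : Measure.QuasiMeasurePreserving (fun x : V n => ρ⁻¹ • x) volume volume :=
    ⟨by fun_prop, by
      rw [Measure.map_addHaar_smul volume (inv_ne_zero hρ0.ne')]
      exact Measure.smul_absolutelyContinuous⟩
  have q2 := q1.comp (measurePreserving_sub_right (volume : Measure (V n)) x₀).quasiMeasurePreserving
  filter_upwards [q2.ae hw2] with x hx' hxb
  have := hx' (by
    rw [mem_ball_zero_iff, Function.comp_apply, norm_smul, norm_inv, Real.norm_of_nonneg hρ0.le,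
      inv_mul_lt_iff₀ hρ0, mul_one]
    rwa [mem_ball, dist_eq_norm] at hxb)
  rwa [Function.comp_apply, smul_inv_smul₀ hρ0.ne', add_sub_cancel] at this

theorem regSys (h : EllSys n m) : RegSys n m := by
  intro U a b c u f hO ha hb hc hf hs hu hw i
  have loc : ∀ j : ℕ, ∀ x₀ ∈ U, ∃ ρ, 0 < ρ ∧ ball x₀ ρ ⊆ U ∧ ∃ w : V n → ℂ, ContDiff ℝ j w ∧
      ∀ᵐ x, x ∈ ball x₀ ρ → u i x = w x := fun j x₀ hx => by
    obtain ⟨κ, hκ, hs'⟩ := hs x₀ hx
    exact sreg_loc h hO ha hb hc hf hx hκ hs' hu hw i j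
  choose! ρ hρ hρU w hw1 hw2 using loc
  have key : ∀ j, ∀ x₀ ∈ U, ∀ x ∈ ball x₀ (ρ j x₀), w 0 x x = w j x₀ x := by
    intro j x₀ hx₀ x hx
    have hxU := hρU j x₀ hx₀ hx
    exact Reg_eq isOpen_ball isOpen_ball (hw1 0 x hxU).continuous (hw1 j x₀ hx₀).continuous
      (hw2 0 x hxU) (hw2 j x₀ hx₀) ⟨mem_ball_self (hρ 0 x hxU), hx⟩
  refine ⟨fun x => w 0 x x, fun x₀ hx₀ => ContDiffAt.contDiffWithinAt ?_, ?_⟩
  · refine contDiffAt_infty.2 fun j => (hw1 j x₀ hx₀).contDiffAt.congr_of_eventuallyEq ?_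
    exact mem_of_superset (ball_mem_nhds x₀ (hρ j x₀ hx₀)) (key j x₀ hx₀)
  · rw [ae_iff]
    refine measure_null_of_locally_null _ fun x₀ hx₀ => ?_
    have hxU : x₀ ∈ U := (Classical.not_imp.1 hx₀).1
    refine ⟨_, inter_mem_nhdsWithin _ (ball_mem_nhds x₀ (hρ 0 x₀ hxU)), ?_⟩
    refine measure_mono_null ?_ (ae_iff.1 (hw2 0 x₀ hxU))
    intro x hx hx'
    exact hx.1 fun _ => (hx' hx.2).trans (key 0 x₀ hxU x hx.2).symm

end Vale.Agent.P267I
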