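import Vale.Agent.P267I.GSq
import Vale.Agent.P267I.SEll
import Vale.Agent.P267I.SReg

open scoped Manifold ContDiff Topology InnerProductSpace
open Filter Matrix MeasureTheory Set

noncomputable section

namespace Vale.Agent.P267I

open Vale.Agent.P267F

variable {N : ℕ} {C : Cl N} {U : Set C2} {e : Fin 4 → C2 → C2} {B : C2 → Mat N}

theorem greg_pop0 (c : Fin 4 → Mat N) {φ : C2 → Vec N} {z : C2} (h : φ =ᶠ[𝓝 z] 0) :
    Pop c e B φ =ᶠ[𝓝 z] 0 := by
  filter_upwards [h.eventuallyEq_nhds] with y hy
  simp [Pop, hy.fderiv_eq, hy.eq_of_nhds]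

theorem greg_dk (L : P292E.V 4 ≃L[ℝ] C2) (hL : ∀ k, L (P292E.ee k) = bs k) (i : Fin N)
    {t : P292E.V 4 → ℂ} (ht : ContDiff ℝ ∞ t) (k : Fin 4) :
    dk k (fun z => (Pi.single i (t (L.symm z)) : Vec N)) =
      fun z => Pi.single i (P292E.pd k t (L.symm z)) := by
  funext z
  have h1 := ((ContinuousLinearMap.single ℝ (fun _ : Fin N => ℂ) i).hasFDerivAt.comp z
    ((ht.differentiable (by simp) (L.symm z)).hasFDerivAt.comp z L.symm.hasFDerivAt)).fderiv
  have h2 : L.symm (bs k) = P292E.ee k := by rw [← hL, L.symm_apply_apply]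
  change fderiv ℝ (ContinuousLinearMap.single ℝ (fun _ : Fin N => ℂ) i ∘ t ∘ L.symm) z (bs k) = _
  rw [h1]
  simp [h2, P292E.pd]

theorem greg_tst (L : P292E.V 4 ≃L[ℝ] C2) (i : Fin N) {t : P292E.V 4 → ℂ}
    (ht : P292E.Tst (L ⁻¹' U) t) : TstV U fun z => (Pi.single i (t (L.symm z)) : Vec N) := by
  have hs : tsupport (fun z => (Pi.single i (t (L.symm z)) : Vec N)) ⊆ L '' tsupport t := by
    refine closure_minimal (fun z hz => ⟨L.symm z, subset_tsupport _ fun h0 => hz ?_, by simp⟩)
      (ht.2.1.isCompact.image L.continuous).isClosed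
    simp [h0]
  refine ⟨(ContinuousLinearMap.single ℝ (fun _ : Fin N => ℂ) i).contDiff.comp
    (ht.1.comp L.symm.contDiff), (ht.2.1.isCompact.image L.continuous).of_isClosed_subset
      (isClosed_tsupport _) hs, hs.trans ?_⟩
  rintro _ ⟨x, hx, rfl⟩
  exact ht.2.2 hx

theorem greg_int {W : Set (P292E.V 4)} {a u t : P292E.V 4 → ℂ} (ha : ContinuousOn a W)
    (hu : LocallyIntegrableOn u W) (ht : P292E.Tst W t) :
    Integrable fun x => a x * u x * t x := by
  refine (integrableOn_iff_integrable_of_support_subset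
    ((Function.support_mul_subset_right _ t).trans (subset_tsupport t))).1 ?_
  exact (IntegrableOn.continuousOn_mul (ha.mono ht.2.2)
    (hu.integrableOn_compact_subset ht.2.2 ht.2.1) ht.2.1).mul_continuousOn
      ht.1.continuous.continuousOn ht.2.1

/-- Local regularity of weak solutions. -/
theorem loc_reg (C : Cl N) (h : LocOp U e B) (lam : ℂ) {v F : C2 → Vec N}
    (hv : LocallyIntegrableOn v U) (hF : ContDiffOn ℝ ∞ F U)
    (hw : ∀ φ, TstV U φ →
      ∫ z, v z ⬝ᵥ (Pop C.c e B (Pop C.c e B φ) z - lam • φ z) = ∫ z, F z ⬝ᵥ φ z) :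
    ∃ w : C2 → Vec N, ContDiffOn ℝ ∞ w U ∧ ∀ᵐ z, z ∈ U → v z = w z := by
  classical
  obtain ⟨b, c, hb, hc, hp⟩ := pop_sq C h
  obtain ⟨L, hL, κ, hκ, hm⟩ := lin_co
  have hE : MeasurableEmbedding L := L.toHomeomorph.measurableEmbedding
  have hO : IsOpen (L ⁻¹' U) := h.op.preimage L.continuous
  have cL : ∀ {g : C2 → ℂ}, ContDiffOn ℝ ∞ g U → ContDiffOn ℝ ∞ (fun x => g (L x)) (L ⁻¹' U) :=
    fun hg => hg.comp L.contDiff.contDiffOn fun _ hx => hx
  have hcv : ∀ g : C2 → ℂ, ∫ x, g (L x) = κ • ∫ z, g z := fun g => by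
    rw [← hE.integral_map, hm, integral_smul_nnreal_measure]
  have hu : ∀ i, LocallyIntegrableOn (fun x => v (L x) i) (L ⁻¹' U) := fun i => by
    refine (locallyIntegrableOn_iff hO.isLocallyClosed).2 fun K hK hKc => ?_
    have h1 : IntegrableOn v (L '' K) (Measure.map L volume) := by
      rw [hm, IntegrableOn, Measure.restrict_smul]
      exact Integrable.smul_measure_nnreal (hv.integrableOn_compact_subset
        (image_subset_iff.2 hK) (hKc.image L.continuous))
    rw [hE.integrableOn_map_iff, preimage_image_eq _ L.injective] at h1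
    exact (ContinuousLinearMap.proj (R := ℝ) (φ := fun _ : Fin N => ℂ) i).integrable_comp h1
  have ha : ∀ p q, ContDiffOn ℝ ∞ (fun x => (gm e p q (L x) : ℂ)) (L ⁻¹' U) := fun p q =>
    cL (Complex.ofRealCLM.contDiff.comp_contDiffOn (gm_sm h p q))
  have hb' : ∀ p i j, ContDiffOn ℝ ∞ (fun x => b p (L x) j i) (L ⁻¹' U) := fun p i j =>
    cL (hb p j i)
  have hc' : ∀ i j, ContDiffOn ℝ ∞ (fun x => c (L x) j i - if j = i then lam else 0) (L ⁻¹' U) :=
    fun i j => (cL (hc j i)).sub contDiffOn_const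
  have hf : ∀ i, ContDiffOn ℝ ∞ (fun x => -F (L x) i) (L ⁻¹' U) := fun i =>
    (cL (contDiffOn_pi.1 hF i)).neg
  have key := regSys (ellSys 4 N) (L ⁻¹' U) (fun p q x => (gm e p q (L x) : ℂ))
    (fun p i j x => b p (L x) j i) (fun i j x => c (L x) j i - if j = i then lam else 0)
    (fun i x => v (L x) i) (fun i x => -F (L x) i) hO ha hb' hc' hf (fun x hx => by
      obtain ⟨k, hk, h1⟩ := gm_pos h isCompact_singleton (singleton_subset_iff.2 hx)
      refine ⟨k, hk, fun ξ => ?_⟩
      have h2 := h1 _ rfl ξ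
      rw [EuclideanSpace.real_norm_sq_eq]
      refine h2.trans (le_of_eq ?_)
      simp [P292E.symb]) hu (fun i t ht => by
      have hφ := greg_tst L i ht
      have h1 := hcv fun z => v z ⬝ᵥ (Pop C.c e B (Pop C.c e B
        fun z => (Pi.single i (t (L.symm z)) : Vec N)) z - lam • (Pi.single i (t (L.symm z)) : Vec N))
      rw [hw _ hφ, ← hcv] at h1
      have e1 : ∀ x, v (L x) ⬝ᵥ (Pop C.c e B (Pop C.c e B
          fun z => (Pi.single i (t (L.symm z)) : Vec N)) (L x) -
            lam • (Pi.single i (t (L.symm (L x))) : Vec N)) =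
          (∑ j, (c (L x) j i - if j = i then lam else 0) * v (L x) j * t x +
            ∑ p, ∑ j, b p (L x) j i * v (L x) j * P292E.pd p t x) -
          ∑ p, ∑ q, (gm e p q (L x) : ℂ) * v (L x) i * P292E.pd p (P292E.pd q t) x := fun x => by
        by_cases hx : L x ∈ U
        · rw [hp _ hφ.1 _ hx]
          simp only [greg_dk L hL i ht.1, greg_dk L hL i (ht.pd _).1.1, L.symm_apply_apply,
            dotProduct_sub, dotProduct_add, dotProduct_neg, dotProduct_sum, dotProduct_smul,
            dotProduct_single, mulVec_single, smul_eq_mul, sub_mul, Finset.sum_sub_distrib,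
            ite_mul, zero_mul, Finset.sum_ite_eq', Finset.mem_univ, if_true]
          simp only [dotProduct, col_apply, MulOpposite.smul_eq_mul_unop,
            MulOpposite.unop_op, Finset.mul_sum, mul_assoc, mul_comm, mul_left_comm]
          ring
        · have h0 : (fun z => (Pi.single i (t (L.symm z)) : Vec N)) =ᶠ[𝓝 (L x)] 0 :=
            notMem_tsupport_iff_eventuallyEq.1 fun h' => hx (hφ.2.2 h')
          have z0 : ∀ {s : P292E.V 4 → ℂ}, P292E.Tst (L ⁻¹' U) s → s x = 0 := fun hs =>
            image_eq_zero_of_notMem_tsupport fun h' => hx (hs.2.2 h')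
          rw [(greg_pop0 C.c (greg_pop0 C.c h0)).eq_of_nhds]
          simp [z0 ht, z0 (ht.pd _).1, z0 ((ht.pd _).1.pd _).1]
      have i1 : Integrable fun x =>
          ∑ j, (c (L x) j i - if j = i then lam else 0) * v (L x) j * t x :=
        integrable_finsetSum _ fun j _ => greg_int (hc' i j).continuousOn (hu j) ht
      have i2 : Integrable fun x => ∑ p, ∑ j, b p (L x) j i * v (L x) j * P292E.pd p t x :=
        integrable_finsetSum _ fun p _ => integrable_finsetSum _ fun j _ =>
          greg_int (hb' p i j).continuousOn (hu j) (ht.pd p).1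
      have i3 : Integrable fun x =>
          ∑ p, ∑ q, (gm e p q (L x) : ℂ) * v (L x) i * P292E.pd p (P292E.pd q t) x :=
        integrable_finsetSum _ fun p _ => integrable_finsetSum _ fun q _ =>
          greg_int (ha p q).continuousOn (hu i) ((ht.pd q).1.pd p).1
      have i4 : Integrable fun x => F (L x) i * t x := by
        simpa using greg_int (cL (contDiffOn_pi.1 hF i)).continuousOn
          (locallyIntegrableOn_const (1 : ℂ)) ht
      simp only [e1] at h1
      simp only [dotProduct_single, L.symm_apply_apply] at h1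
      have i5 : Integrable fun x =>
          ∑ j, (c (L x) j i - if j = i then lam else 0) * v (L x) j * t x +
            ∑ p, ∑ j, b p (L x) j i * v (L x) j * P292E.pd p t x := i1.add i2
      rw [integral_sub i5 i3] at h1
      have e2 : ∀ x, v (L x) i * P292E.Qop (fun p q x => (gm e p q (L x) : ℂ)) 0 0 t x =
          ∑ p, ∑ q, (gm e p q (L x) : ℂ) * v (L x) i * P292E.pd p (P292E.pd q t) x := fun x => by
        simp [P292E.Qop, Finset.mul_sum, mul_assoc, mul_left_comm]
      have e3 : ∀ x, (-F (L x) i + ∑ j, (c (L x) j i - if j = i then lam else 0) * v (L x) j) * t x +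
          ∑ p, (∑ j, b p (L x) j i * v (L x) j) * P292E.pd p t x =
          (∑ j, (c (L x) j i - if j = i then lam else 0) * v (L x) j * t x +
            ∑ p, ∑ j, b p (L x) j i * v (L x) j * P292E.pd p t x) - F (L x) i * t x := fun x => by
        simp only [add_mul, Finset.sum_mul]
        ring
      simp only [e2, e3]
      rw [integral_sub i5 i4, ← h1]
      ring)
  choose w hw1 hw2 using key
  refine ⟨fun z i => w i (L.symm z), contDiffOn_pi.2 fun i => (hw1 i).comp
    L.symm.contDiff.contDiffOn fun z hz => by simpa using hz, ?_⟩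
  rw [← Measure.ae_smul_measure_iff hκ, ← hm, hE.ae_map_iff]
  filter_upwards [ae_all_iff.2 hw2] with x hx hx'
  funext i
  simpa using hx i hx'

end Vale.Agent.P267I
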