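import Vale.Agent.P267I.GReg
import Vale.Agent.P267I.GGlue

open scoped Manifold ContDiff Topology InnerProductSpace
open Filter Matrix MeasureTheory Set

noncomputable section

namespace Vale.Agent.P267I

open Vale.Agent.P267F

variable {X : Type} [TopologicalSpace X] [ChartedSpace C2 X] [MeasurableSpace X] [BorelSpace X]
  {N : ℕ} {S : Pre X N} {B : X → C2 → Mat N}

theorem grgg_star {U : Set C2} {g : C2 → Vec N} (hg : ContDiffOn ℝ ∞ g U) :
    ContDiffOn ℝ ∞ (fun z => star (g z)) U :=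
  (starL' ℝ (A := Vec N)).contDiff.comp_contDiffOn hg

theorem grgg_li {U : Set C2} {g : C2 → Vec N} (hg : LocallyIntegrableOn g U) :
    LocallyIntegrableOn (fun z => star (g z)) U := fun x hx => by
  obtain ⟨t, ht, h⟩ := hg x hx
  exact ⟨t, ht, (starL' ℝ (A := Vec N)).toContinuousLinearMap.integrable_comp h⟩

theorem grgg_ext (S : Pre X N) (p : X) (lam : ℂ) (φ ψ : C2 → Vec N) :
    S.ext p ψ - lam • S.ext p φ = S.ext p fun z => ψ z - lam • φ z := by
  funext x
  simp only [Pre.ext, Pi.sub_apply, Pi.smul_apply]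
  split_ifs
  · rw [Matrix.mulVec_sub, Matrix.mulVec_smul]
  · simp

theorem reg_glob (hX : IsSurface X) (hB : S.IsOp B) {r f : X → Vec N} (hr : S.LI r) (hf : S.Sm f)
    (lam : ℂ) (hw : ∀ s, S.Sm s → S.ip r (S.D B (S.D B s) - lam • s) = S.ip f s) :
    ∃ w, S.Sm w ∧ ∀ᵐ x ∂S.μ, r x = w x := by
  refine glue_ae hX fun p => ?_
  have hρ : ContDiffOn ℝ ∞ (fun z => (S.rho p z : ℂ)) (S.V p) :=
    Complex.ofRealCLM.contDiff.comp_contDiffOn (rho_sm S p)
  have hne : ∀ z ∈ S.V p, (S.rho p z : ℂ) ≠ 0 := fun z hz =>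
    Complex.ofReal_ne_zero.2 (rho_pos S p z hz).ne'
  obtain ⟨w, hws, hwe⟩ := loc_reg S.toCl (locOp hB p) lam
    (v := fun z => (S.rho p z : ℂ) • star (S.loc p r z))
    (F := fun z => (S.rho p z : ℂ) • star (S.loc p f z))
    ((grgg_li (hr p)).continuousOn_smul (V_open S p).isLocallyClosed hρ.continuousOn)
    (hρ.smul (grgg_star (hf p))) (fun φ hφ => by
      have h1 := pop_tst (c := S.c) (locOp hB p) hφ
      have h2 := pop_tst (c := S.c) (locOp hB p) h1.1
      have h3 := hw _ (ext_sm hX hφ)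
      rw [D_ext hX hB hφ, Pre.Dloc_eq, D_ext hX hB h1.1, Pre.Dloc_eq, grgg_ext,
        ip_ext f hφ.2.2, ip_ext r] at h3
      · exact h3
      · refine (closure_minimal (fun z hz => ?_) (isClosed_tsupport φ)).trans hφ.2.2
        by_contra hz'
        apply hz
        have e1 := image_eq_zero_of_notMem_tsupport hz'
        have e2 := image_eq_zero_of_notMem_tsupport fun h => hz' (h1.2 (h2.2 h))
        simp only [e1, e2, smul_zero, sub_zero])
  refine ⟨fun z => star ((S.rho p z : ℂ)⁻¹ • w z), grgg_star ((hρ.inv hne).smul hws), ?_⟩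
  filter_upwards [hwe] with z hz hzV
  rw [← hz hzV, inv_smul_smul₀ (hne z hzV), star_star]

end Vale.Agent.P267I
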