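import Vale.Agent.P267I.GLin

open scoped Manifold ContDiff Topology InnerProductSpace
open Filter Matrix MeasureTheory Set

noncomputable section

namespace Vale.Agent.P267I

open Vale.Agent.P267F

variable {N : ℕ} {C : Cl N} {U : Set C2} {e : Fin 4 → C2 → C2} {B : C2 → Mat N}

/-- The coefficients in coordinates. -/
def gsqA (C : Cl N) (e : Fin 4 → C2 → C2) (k : Fin 4) (z : C2) : Mat N :=
  ∑ a, (co (e a z) k : ℂ) • C.c a

/-- Smooth matrix functions. -/
def GsqS (U : Set C2) (F : C2 → Mat N) : Prop := ∀ i j, ContDiffOn ℝ ∞ (fun z => F z i j) U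

theorem GsqS.add {F G : C2 → Mat N} (h : GsqS U F) (h' : GsqS U G) :
    GsqS U fun z => F z + G z := fun i j => (h i j).add (h' i j)

theorem GsqS.mul {F G : C2 → Mat N} (h : GsqS U F) (h' : GsqS U G) :
    GsqS U fun z => F z * G z := fun i j =>
  ContDiffOn.sum (s := Finset.univ) (f := fun k z => F z i k * G z k j)
    fun k _ => (h i k).mul (h' k j)

theorem GsqS.sum {F : Fin 4 → C2 → Mat N} (h : ∀ k, GsqS U (F k)) :
    GsqS U fun z => ∑ k, F k z := fun i j => by
  simp only [Matrix.sum_apply]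
  exact ContDiffOn.sum fun k _ => h k i j

theorem GsqS.dM {F : C2 → Mat N} (h : GsqS U F) (hU : IsOpen U) (v : C2) :
    GsqS U fun z => Pre.dM F z v := fun i j =>
  ((h i j).fderiv_of_isOpen hU (m := ∞) (by simp)).clm_apply contDiffOn_const

theorem gsq_A (C : Cl N) (h : LocOp U e B) (k : Fin 4) : GsqS U (gsqA C e k) := fun i j => by
  simp only [gsqA, Matrix.sum_apply, Matrix.smul_apply, smul_eq_mul]
  exact ContDiffOn.sum fun a _ => (Complex.ofRealCLM.contDiff.comp_contDiffOn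
    ((co_sm k).comp_contDiffOn (h.e_sm a))).mul contDiffOn_const

theorem gsq_pop (C : Cl N) (f : C2 → Vec N) (z : C2) :
    Pop C.c e B f z = ∑ k, gsqA C e k z *ᵥ dk k f z + B z *ᵥ f z := by
  unfold Pop gsqA
  simp only [Matrix.sum_mulVec]
  rw [Finset.sum_comm]
  refine congrArg (· + B z *ᵥ f z) (Finset.sum_congr rfl fun a _ => ?_)
  conv_lhs => rw [← co_bsG (e a z), map_sum, Matrix.mulVec_sum]
  refine Finset.sum_congr rfl fun k _ => ?_
  rw [map_smul, Matrix.smul_mulVec, ← Complex.coe_smul, Matrix.mulVec_smul]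
  rfl

theorem gsq_d {F : C2 → Mat N} {f : C2 → Vec N} {z : C2}
    (hF : ∀ i j, DifferentiableAt ℝ (fun y => F y i j) z) (hf : DifferentiableAt ℝ f z) :
    DifferentiableAt ℝ (fun y => F y *ᵥ f y) z ∧ ∀ v, fderiv ℝ (fun y => F y *ᵥ f y) z v =
      Pre.dM F z v *ᵥ f z + F z *ᵥ fderiv ℝ f z v := by
  have hj := hasFDerivAt_pi'.1 hf.hasFDerivAt
  have H : HasFDerivAt (fun y => F y *ᵥ f y) (ContinuousLinearMap.pi fun i => ∑ j,
      (F z i j • (ContinuousLinearMap.proj j).comp (fderiv ℝ f z) +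
        f z j • fderiv ℝ (fun y => F y i j) z)) z :=
    hasFDerivAt_pi.2 fun i => (HasFDerivAt.fun_sum (u := Finset.univ)
      (A := fun j y => F y i j * f y j) fun j _ => (hF i j).hasFDerivAt.mul (hj j) :)
  refine ⟨H.differentiableAt, fun v => ?_⟩
  rw [H.fderiv]
  funext i
  simp only [ContinuousLinearMap.pi_apply, _root_.sum_apply,
    _root_.add_apply, _root_.smul_apply, ContinuousLinearMap.comp_apply,
    ContinuousLinearMap.proj_apply, smul_eq_mul, Pi.add_apply, Matrix.mulVec, dotProduct, Pre.dM,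
    Matrix.of_apply, ← Finset.sum_add_distrib]
  exact Finset.sum_congr rfl fun j _ => by ring

theorem gsq_rel (C : Cl N) (k l : Fin 4) (z : C2) :
    gsqA C e k z * gsqA C e l z + gsqA C e l z * gsqA C e k z =
      (-2 * gm e k l z : ℂ) • (1 : Mat N) := by
  calc _ = ∑ a, ∑ b, ((co (e a z) k : ℂ) * co (e b z) l) • (C.c a * C.c b + C.c b * C.c a) := by
        unfold gsqA
        rw [Finset.sum_mul_sum, Finset.sum_mul_sum, Finset.sum_comm (f := fun b a =>
          (co (e b z) l : ℂ) • C.c b * (co (e a z) k : ℂ) • C.c a), ← Finset.sum_add_distrib]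
        refine Finset.sum_congr rfl fun a _ => ?_
        rw [← Finset.sum_add_distrib]
        refine Finset.sum_congr rfl fun b _ => ?_
        rw [smul_mul_smul_comm, smul_mul_smul_comm, smul_add, mul_comm (co (e b z) l : ℂ)]
    _ = _ := by
        simp only [C.rel, smul_ite, smul_zero, Finset.sum_ite_eq, Finset.mem_univ, if_true,
          smul_smul, gm, Complex.ofReal_sum, Complex.ofReal_mul]
        rw [← Finset.sum_smul, ← Finset.sum_mul, mul_comm]

theorem gsq_symm {φ : C2 → Vec N} (hφ : ContDiff ℝ ∞ φ) (k l : Fin 4) (z : C2) :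
    dk k (dk l φ) z = dk l (dk k φ) z := by
  have hd : DifferentiableAt ℝ (fderiv ℝ φ) z :=
    ((hφ.fderiv_right (m := ∞) (by simp)).differentiable (by simp)) z
  have e1 : ∀ k l, dk k (dk l φ) z = fderiv ℝ (fderiv ℝ φ) z (bs k) (bs l) := fun k l => by
    have h1 := (hd.hasFDerivAt.clm_apply (hasFDerivAt_const (bs l) z)).fderiv
    show fderiv ℝ (fun y => fderiv ℝ φ y (bs l)) z (bs k) = _
    rw [h1]
    simp
  rw [e1, e1]
  exact (hφ.contDiffAt.isSymmSndFDerivAt (by
    rw [minSmoothness_of_isRCLikeNormedField]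
    exact WithTop.coe_le_coe.2 le_top)).eq _ _

theorem gsq_prin (C : Cl N) {S : Fin 4 → Fin 4 → Vec N} (hS : ∀ k l, S k l = S l k) (z : C2) :
    ∑ k, ∑ l, (gsqA C e k z * gsqA C e l z) *ᵥ S k l = -∑ k, ∑ l, (gm e k l z : ℂ) • S k l := by
  have h1 : ∑ k, ∑ l, (gsqA C e k z * gsqA C e l z) *ᵥ S k l =
      ∑ k, ∑ l, (gsqA C e l z * gsqA C e k z) *ᵥ S k l := by
    rw [Finset.sum_comm]
    exact Finset.sum_congr rfl fun k _ => Finset.sum_congr rfl fun l _ => by rw [hS]
  refine smul_right_injective _ (two_ne_zero (α := ℂ)) ?_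
  show (2 : ℂ) • _ = (2 : ℂ) • _
  rw [two_smul]
  nth_rw 2 [h1]
  simp only [← Finset.sum_add_distrib, ← Matrix.add_mulVec, gsq_rel, Matrix.smul_mulVec,
    Matrix.one_mulVec, Finset.smul_sum, smul_smul, ← Finset.sum_neg_distrib, ← neg_smul,
    neg_mul, mul_neg]

/-- The square of the local operator has a scalar principal part. -/
theorem pop_sq (C : Cl N) (h : LocOp U e B) : ∃ (b : Fin 4 → C2 → Mat N) (c : C2 → Mat N),
    (∀ l i j, ContDiffOn ℝ ∞ (fun z => b l z i j) U) ∧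
    (∀ i j, ContDiffOn ℝ ∞ (fun z => c z i j) U) ∧
    ∀ φ : C2 → Vec N, ContDiff ℝ ∞ φ → ∀ z ∈ U,
      Pop C.c e B (Pop C.c e B φ) z = -(∑ k, ∑ l, (gm e k l z : ℂ) • dk k (dk l φ) z) +
        ∑ l, b l z *ᵥ dk l φ z + c z *ᵥ φ z := by
  have hA := gsq_A C h
  have hB : GsqS U B := h.B_sm
  refine ⟨fun l z => ∑ k, gsqA C e k z * Pre.dM (gsqA C e l) z (bs k) + gsqA C e l z * B z +
    B z * gsqA C e l z, fun z => ∑ k, gsqA C e k z * Pre.dM B z (bs k) + B z * B z,
    fun l => ((GsqS.sum fun k => (hA k).mul ((hA l).dM h.op _)).add ((hA l).mul hB)).add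
      (hB.mul (hA l)),
    (GsqS.sum fun k => (hA k).mul (hB.dM h.op _)).add (hB.mul hB), fun φ hφ z hz => ?_⟩
  have d : ∀ {F : C2 → Mat N}, GsqS U F → ∀ i j, DifferentiableAt ℝ (fun y => F y i j) z :=
    fun hF i j => ((hF i j).contDiffAt (h.op.mem_nhds hz)).differentiableAt (by simp)
  have d1 : ∀ l, DifferentiableAt ℝ (dk l φ) z := fun l =>
    (((hφ.fderiv_right (m := ∞) (by simp)).clm_apply contDiff_const).differentiable (by simp)) z
  have p1 := fun l => gsq_d (d (hA l)) (d1 l)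
  have p2 := gsq_d (d hB) (hφ.differentiable (by simp) z)
  have e1 : ∀ k, dk k (Pop C.c e B φ) z = ∑ l, (Pre.dM (gsqA C e l) z (bs k) *ᵥ dk l φ z +
      gsqA C e l z *ᵥ dk k (dk l φ) z) + (Pre.dM B z (bs k) *ᵥ φ z + B z *ᵥ dk k φ z) := fun k => by
    rw [show Pop C.c e B φ = fun y => ∑ l, gsqA C e l y *ᵥ dk l φ y + B y *ᵥ φ y from
      funext (gsq_pop C φ)]
    show fderiv ℝ _ z (bs k) = _
    rw [fderiv_fun_add (DifferentiableAt.fun_sum fun l _ => (p1 l).1) p2.1,
      fderiv_fun_sum fun l _ => (p1 l).1, _root_.add_apply,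
      _root_.sum_apply, p2.2]
    exact congrArg₂ (· + ·) (Finset.sum_congr rfl fun l _ => (p1 l).2 _) rfl
  rw [gsq_pop C (Pop C.c e B φ), gsq_pop C φ, ← gsq_prin C fun k l => gsq_symm hφ k l z]
  simp only [e1, Matrix.mulVec_add, Matrix.mulVec_sum, Matrix.mulVec_mulVec, Matrix.add_mulVec,
    Matrix.sum_mulVec, Finset.sum_add_distrib]
  rw [Finset.sum_comm (f := fun l k => (gsqA C e k z * Pre.dM (gsqA C e l) z (bs k)) *ᵥ dk l φ z)]
  abel

end Vale.Agent.P267I
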