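import Vale.Agent.P267I.AlgS

/-! Curvature identities and the Lichnerowicz formula for a Clifford connection. -/

open Finset Matrix Filter Topology
open scoped ContDiff

noncomputable section

namespace Vale.Agent.P267I

open Vale.Agent.P267F

theorem lichS_indep {e : Fin 4 → C2} (h : 0 < fdet e) : LinearIndependent ℝ e := by
  let L : C2 →ₗ[ℝ] Fin 4 → ℝ :=
    { toFun := co
      map_add' := fun v w => by ext a; fin_cases a <;> simp [co]
      map_smul' := fun r v => by ext a; fin_cases a <;> simp [co] }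
  exact LinearIndependent.of_comp L
    (Matrix.linearIndependent_rows_of_det_ne_zero (A := Matrix.of fun a b => co (e a) b) h.ne')

section
variable {E : Type*} [NormedAddCommGroup E] [NormedSpace ℝ E] {n : Type} [Fintype n]
  {e : E → E} {A B : E → Matrix n n ℂ} {x : E}

omit [Fintype n] in
theorem dM_congr (h : ∀ᶠ y in 𝓝 x, A y = B y) : dM e A x = dM e B x := by
  ext i j
  simp only [dM, of_apply]
  rw [EventuallyEq.fderiv_eq (f := fun y => B y i j) (h.mono fun y hy => by rw [hy])]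

omit [Fintype n] in
theorem dM_sub (hA : DfM A x) (hB : DfM B x) :
    dM e (fun y => A y - B y) x = dM e A x - dM e B x := by
  ext i j
  simp only [dM, of_apply, Matrix.sub_apply]
  rw [fderiv_fun_sub (hA i j) (hB i j)]
  rfl

omit [Fintype n] in
theorem dM_skew (hA : DfM A x) (h : ∀ᶠ y in 𝓝 x, (A y)ᴴ = -A y) : (dM e A x)ᴴ = -dM e A x := by
  ext i j
  have h1 : (fun y => A y i j) =ᶠ[𝓝 x] fun y => -(Complex.conjCLE (A y j i)) :=
    h.mono fun y hy => by
      have := congrFun (congrFun hy i) j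
      simp only [conjTranspose_apply, Matrix.neg_apply] at this
      exact (neg_eq_iff_eq_neg.1 this.symm)
  have h2 : HasFDerivAt (fun y => -(Complex.conjCLE (A y j i))) _ x :=
    (Complex.conjCLE.toContinuousLinearMap.hasFDerivAt.comp x (hA j i).hasFDerivAt).fun_neg
  simp only [dM, conjTranspose_apply, of_apply, Matrix.neg_apply]
  rw [h1.fderiv_eq, h2.fderiv]
  simp

omit [Fintype n] in
theorem dM_comb {ι : Type} [Fintype ι] {u : ι → E → ℝ} (hu : ∀ b, DifferentiableAt ℝ (u b) x)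
    (c : ι → Matrix n n ℂ) : dM e (fun y => ∑ b, (u b y : ℂ) • c b) x =
      ∑ b, ((fderiv ℝ (u b) x (e x) : ℝ) : ℂ) • c b := by
  ext p q
  have e2 : HasFDerivAt (fun y => ∑ b, (u b y : ℂ) * c b p q) _ x :=
    HasFDerivAt.fun_sum fun b _ =>
      (Complex.ofRealCLM.hasFDerivAt.comp x (hu b).hasFDerivAt).mul_const _
  simp only [dM, of_apply, Matrix.sum_apply, Matrix.smul_apply, smul_eq_mul]
  rw [e2.fderiv]
  simp [mul_comm]

end

variable {X : Type} [TopologicalSpace X] [ChartedSpace C2 X] [MeasurableSpace X] {N : ℕ}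
  {S : Pre X N} {A : X → Fin 4 → C2 → Mat N} {om : X → Fin 4 → Fin 4 → Fin 4 → C2 → ℝ} {p : X}
  {z : C2}

namespace Pre

theorem lichS_open (S : Pre X N) (p : X) : IsOpen (S.V p) :=
  (chartAt C2 p).isOpen_image_of_subset_source (S.W_open p) (S.W_sub p)

theorem lichS_nhds (hz : z ∈ S.V p) : ∀ᶠ y in 𝓝 z, y ∈ S.V p := (S.lichS_open p).mem_nhds hz

theorem e_cd (hz : z ∈ S.V p) (a : Fin 4) : ContDiffAt ℝ ∞ (S.e p a) z :=
  (S.e_sm p a).contDiffAt (lichS_nhds hz)

theorem e_df (hz : z ∈ S.V p) (a : Fin 4) : DifferentiableAt ℝ (S.e p a) z :=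
  (e_cd hz a).differentiableAt (by simp)

theorem Om_eq_Om (j k : Fin 4) : S.Om A om p j k z = P267I.Om (S.e p) (A p) (om p) j k z := rfl

theorem E_eq_En : S.E A om p z = En S.c (S.e p) (A p) (om p) z := rfl

namespace IsLC

variable (hL : S.IsLC A om) (hz : z ∈ S.V p)
include hL hz

theorem A_df (k : Fin 4) : DfM (A p k) z := fun i j =>
  ((hL.A_sm p k i j).contDiffAt (lichS_nhds hz)).differentiableAt (by simp)

theorem om_df (k a b : Fin 4) : DifferentiableAt ℝ (om p k a b) z :=
  ((hL.om_sm p k a b).contDiffAt (lichS_nhds hz)).differentiableAt (by simp)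

/-- The curvature tensor is an algebraic curvature tensor. -/
theorem riem : Riem fun j k a b => Rm (S.e p) (om p) j k a b z where
  a1 := Rm_anti
  a2 := Rm_skew fun k a b => (lichS_nhds hz).mono fun y hy => hL.om_skew p k a b y hy
  bi := bianchi (fun a => (e_cd hz a).of_le (by norm_cast)) (hL.om_df hz)
    (fun a b => (lichS_nhds hz).mono fun y hy => hL.tf p a b y hy) (lichS_indep (S.e_pos p z hz))

theorem A_act (k : Fin 4) : S.toCl.Act (A p k z) fun a b => om p k a b z :=
  fun a => hL.comm p k a z hz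

theorem A_mem (k : Fin 4) : A p k z ∈ S.toCl.G2 :=
  ⟨hL.A_skew p k z hz, _, fun a b => hL.om_skew p k a b z hz, hL.A_act hz k⟩

theorem dA_act (j k : Fin 4) : S.toCl.Act (P267I.dM (S.e p j) (A p k) z)
    fun a b => fderiv ℝ (om p k a b) z (S.e p j z) := by
  intro a
  have h1 := dM_congr (e := S.e p j) ((lichS_nhds hz).mono fun y hy => hL.comm p k a y hy)
  rw [dM_comb (hL.om_df hz k a), dM_sub ((hL.A_df hz k).mul (DfM.const _))
    ((DfM.const _).mul (hL.A_df hz k)), dM_mul (hL.A_df hz k) (DfM.const _),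
    dM_mul (DfM.const _) (hL.A_df hz k), dM_const, mul_zero, zero_mul, add_zero, zero_add] at h1
  exact h1

/-- The curvature acts on the generators by the curvature tensor. -/
theorem Om_act (j k : Fin 4) :
    S.toCl.Act (S.Om A om p j k z) fun a b => Rm (S.e p) (om p) j k a b z := by
  intro a
  have h1 := hL.dA_act hz j k a
  have h2 := hL.dA_act hz k j a
  have h3 := (hL.A_act hz j).lie (hL.A_act hz k) a
  have h4 : (∑ l, ((om p j k l z - om p k j l z : ℝ) : ℂ) • A p l z) * S.c a -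
      S.c a * ∑ l, ((om p j k l z - om p k j l z : ℝ) : ℂ) • A p l z =
      ∑ b, ((∑ l, (om p j k l z - om p k j l z) * om p l a b z : ℝ) : ℂ) • S.c b := by
    simp only [Finset.mul_sum, Finset.sum_mul, mul_smul_comm, smul_mul_assoc, ← sum_sub_distrib,
      ← smul_sub, hL.comm p _ a z hz, smul_sum, smul_smul, Complex.ofReal_sum, sum_smul,
      Complex.ofReal_mul]
    exact sum_comm
  beta_reduce at h1 h2 h3 ⊢
  simp only [Rm, Complex.ofReal_sub (_ + _), Complex.ofReal_add, Complex.ofReal_sub (fderiv ℝ _ _ _),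
    sub_smul, add_smul]
  rw [sum_sub_distrib, sum_add_distrib, sum_sub_distrib]
  rw [← h1, ← h2, ← h3, ← h4, Om_eq_Om, P267I.Om]
  noncomm_ring

theorem Om_skew (j k : Fin 4) : (S.Om A om p j k z)ᴴ = -S.Om A om p j k z := by
  have h1 := fun j k => dM_skew (e := S.e p j) (hL.A_df hz k)
    ((lichS_nhds hz).mono fun y hy => hL.A_skew p k y hy)
  simp only [Om_eq_Om, P267I.Om, conjTranspose_sub, conjTranspose_add, conjTranspose_mul,
    conjTranspose_sum, conjTranspose_smul, h1, hL.A_skew p _ z hz, neg_mul_neg, smul_neg,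
    sum_neg_distrib, Complex.star_def, Complex.conj_ofReal]
  abel

omit hL hz in
theorem Om_anti (j k : Fin 4) : S.Om A om p j k z = -S.Om A om p k j z := by
  simp only [Pre.Om, Complex.ofReal_sub, sub_smul, sum_sub_distrib]
  abel

theorem Om_mem (j k : Fin 4) : S.Om A om p j k z ∈ S.toCl.G2 :=
  ⟨hL.Om_skew hz j k, _, (hL.riem hz).a2 j k, hL.Om_act hz j k⟩

theorem E_mem : S.E A om p z ∈ S.toCl.V2 := Cl.pot_mem (hL.riem hz) (hL.Om_act hz)

theorem E_star : (S.E A om p z)ᴴ = S.E A om p z :=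
  Cl.pot_star (hL.riem hz) (hL.Om_act hz) (hL.Om_skew hz) Om_anti

omit hL hz in
theorem Dloc_eq {f : C2 → Vec N} (hf : DifferentiableAt ℝ f z) :
    S.Dloc (S.BofA A) p f z = Dir S.c (S.e p) (A p) f z := by
  have h1 : ∀ a, fderiv ℝ f z (S.e p a z) = dV (S.e p a) f z := fun a => by
    funext i
    rw [dV, fderiv_apply hf i]
    rfl
  simp only [Dloc, BofA, Dir, nab, mulVec_add, sum_add_distrib, sum_mulVec, mulVec_mulVec, h1]

/-- The Lichnerowicz formula. -/
theorem lich {f : C2 → Vec N} (hf : ContDiffAt ℝ 2 f z) :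
    S.Dloc (S.BofA A) p (S.Dloc (S.BofA A) p f) z =
      -∑ a, (nab (S.e p a) (A p a) (nab (S.e p a) (A p a) f) z -
        ∑ k, (om p a a k z : ℂ) • nab (S.e p k) (A p k) f z) + S.E A om p z *ᵥ f z := by
  have h1 : ∀ i, ContDiffAt ℝ 2 (fun y => f y i) z := contDiffAt_pi.1 hf
  have h2 : S.Dloc (S.BofA A) p f =ᶠ[𝓝 z] Dir S.c (S.e p) (A p) f :=
    (hf.eventually (by simp)).mono fun y hy => Dloc_eq (hy.differentiableAt (by simp))
  have h3 : DifferentiableAt ℝ (Dir S.c (S.e p) (A p) f) z :=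
    differentiableAt_pi.2 (DfV.sum fun b =>
      (DfM.const (S.c b)).mulVec (DfV_nab h1 (e_df hz b) (hL.A_df hz b)))
  have h4 : S.Dloc (S.BofA A) p (S.Dloc (S.BofA A) p f) z =
      S.Dloc (S.BofA A) p (Dir S.c (S.e p) (A p) f) z := by
    rw [Dloc, h2.fderiv_eq, h2.self_of_nhds]
    rfl
  rw [h4, Dloc_eq h3, E_eq_En]
  refine P267I.lich (fun a b => ?_) h1 (e_df hz) (hL.A_df hz) (fun a b => hL.comm p a b z hz)
    (fun a b k => hL.om_skew p a b k z hz) fun a b => hL.tf p a b z hz
  rw [S.rel]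
  split_ifs
  · rw [neg_smul, two_smul, one_add_one_eq_two]
  · rfl

end IsLC

end Pre

end Vale.Agent.P267I
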