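import Vale.Agent.P267I.HD
import Vale.Agent.P267I.LichS

/-! The algebraic facts about a Clifford connection. -/

noncomputable section

namespace Vale.Agent.P267I.H

open Vale.Agent.P267F

variable {X : Type} [TopologicalSpace X] [ChartedSpace C2 X] [MeasurableSpace X] {N : ℕ}
  {S : Pre X N} {A : X → Fin 4 → C2 → Mat N} {om : X → Fin 4 → Fin 4 → Fin 4 → C2 → ℝ}

theorem algOf (hL : S.IsLC A om) : ∃ τ W g, AlgOf S A om τ W g :=
  ⟨S.toCl.tau, S.toCl.V2, S.toCl.G2, S.toCl.alg, S.toCl.tau_apply,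
    fun _ _ hz => ⟨hL.A_mem hz, hL.E_mem hz, hL.E_star hz⟩⟩

end Vale.Agent.P267I.H
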