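import Vale.Agent.P267I.GOp

open scoped Manifold ContDiff Topology InnerProductSpace
open Filter Matrix MeasureTheory Set

noncomputable section

namespace Vale.Agent.P267I

open Vale.Agent.P267F

variable {X : Type} [TopologicalSpace X] [ChartedSpace C2 X] [MeasurableSpace X] [BorelSpace X]
  {N : ℕ} {S : Pre X N} {B B' : X → C2 → Mat N}

/-- The segment between two operators. -/
def mix (B B' : X → C2 → Mat N) (t : ℝ) (p : X) (z : C2) : Mat N :=
  B p z + (t : ℂ) • (B' p z - B p z)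

theorem Dloc_mix (t : ℝ) (p : X) (f : C2 → Vec N) (z : C2) : S.Dloc (mix B B' t) p f z =
    S.Dloc B p f z + (t : ℂ) • (S.Dloc B' p f z - S.Dloc B p f z) := by
  simp only [Pre.Dloc, mix, Matrix.add_mulVec, Matrix.smul_mulVec, Matrix.sub_mulVec,
    add_sub_add_left_eq_sub, add_assoc]

theorem D_mix (t : ℝ) (s : X → Vec N) :
    S.D (mix B B' t) s = S.D B s + (t : ℂ) • (S.D B' s - S.D B s) := by
  funext x
  simp only [Pre.D, Dloc_mix, Matrix.mulVec_add, Matrix.mulVec_smul, Matrix.mulVec_sub,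
    Pi.add_apply, Pi.smul_apply, Pi.sub_apply]

theorem isOp_mix (hX : IsSurface X) (hB : S.IsOp B) (hB' : S.IsOp B') (t : ℝ) :
    S.IsOp (mix B B' t) where
  sm p i j := by
    simp only [mix, Matrix.add_apply, Matrix.smul_apply, Matrix.sub_apply]
    exact (hB.sm p i j).add (((hB'.sm p i j).sub (hB.sm p i j)).const_smul _)
  odd p z hz := by
    simp only [mix, add_mul, mul_add, smul_mul_assoc, mul_smul_comm, sub_mul, mul_sub,
      hB.odd p z hz, hB'.odd p z hz, smul_sub, smul_neg]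
    abel
  compat p x hx s hs := by
    rw [D_mix, Dloc_mix, ← hB.compat p x hx s hs, ← hB'.compat p x hx s hs]
    simp only [Pi.add_apply, Pi.smul_apply, Pi.sub_apply, Matrix.mulVec_add, Matrix.mulVec_smul,
      Matrix.mulVec_sub]
  symm s u hs hu := by
    obtain ⟨j, hj⟩ := l2_model hX S
    have h1 := (absD hX hB hj).symm ⟨s, hs⟩ ⟨u, hu⟩
    have h2 := (absD hX hB' hj).symm ⟨s, hs⟩ ⟨u, hu⟩
    have e1 := hj.ip (DL hB ⟨s, hs⟩ + (t : ℂ) • (DL hB' ⟨s, hs⟩ - DL hB ⟨s, hs⟩)) ⟨u, hu⟩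
    have e2 := hj.ip ⟨s, hs⟩ (DL hB ⟨u, hu⟩ + (t : ℂ) • (DL hB' ⟨u, hu⟩ - DL hB ⟨u, hu⟩))
    rw [D_mix, D_mix]
    refine e1.symm.trans (Eq.trans ?_ e2)
    simp only [map_add, map_smul, map_sub, inner_add_left, inner_add_right, inner_smul_left,
      inner_smul_right, inner_sub_left, inner_sub_right, h1, h2, Complex.conj_ofReal]

theorem indInv (hX : IsSurface X) (S : Pre X N) : S.IndInv := by
  intro B B' hB hB'
  obtain ⟨j, hj⟩ := l2_model hX S
  obtain ⟨A, hA⟩ := diff_bdd hX hB hB'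
  have h1 : ∀ t : ℝ, DL (isOp_mix hX hB hB' t) = DL hB + (t : ℂ) • (DL hB' - DL hB) :=
    fun t => LinearMap.ext fun s => Subtype.ext (D_mix t s.1)
  have h2 := ind_inv (j := j) (D := DL hB) (T := DL hB' - DL hB) (g := gL S)
    (fun t => h1 t ▸ absD hX (isOp_mix hX hB hB' t) hj) (C := √|A|) fun u => by
      refine (pow_le_pow_iff_left₀ (norm_nonneg _) (by positivity) two_ne_zero).1 ?_
      rw [mul_pow, Real.sq_sqrt (abs_nonneg A), hj.n2, hj.n2]
      refine (hA u.1 u.2).trans (mul_le_mul_of_nonneg_right (le_abs_self A) ?_)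
      rw [← hj.n2]
      positivity
  have h3 : DL hB + (DL hB' - DL hB) = DL hB' := LinearMap.ext fun s => add_sub_cancel _ _
  rw [h3] at h2
  rw [ind_eq hB, ind_eq hB', h2]

theorem hodge (hX : IsSurface X) (S : Pre X N) : ∀ B, S.IsOp B →
    (∀ ε, FiniteDimensional ℂ (S.Ker B ε)) ∧
      ∀ t, S.Sm t → ∃ h s, S.Sm h ∧ S.Sm s ∧ S.D B h = 0 ∧ t = h + S.D B s := by
  intro B hB
  obtain ⟨j, hj⟩ := l2_model hX S
  have hA := absD hX hB hj
  have hF := ker_fin hA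
  refine ⟨fun ε => ?_, fun t ht => ?_⟩
  · rw [ker_map hB]
    have : FiniteDimensional ℂ
        ↥(LinearMap.ker (DL hB) ⊓ LinearMap.ker (gL S - ε • LinearMap.id)) :=
      Submodule.finiteDimensional_of_le inf_le_left
    infer_instance
  · obtain ⟨y, ⟨h, hh, rfl⟩, z, hz, e⟩ := Submodule.exists_add_mem_mem_orthogonal
      (K := (LinearMap.ker (DL hB)).map j) (j ⟨t, ht⟩)
    obtain ⟨u, hu⟩ := abs_solve hA (⟨t, ht⟩ - h) fun k hk => by
      rw [map_sub, e, add_sub_cancel_left]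
      exact hz _ ⟨k, hk, rfl⟩
    refine ⟨h.1, (DL hB u).1, h.2, (DL hB u).2, congrArg Subtype.val hh, ?_⟩
    have := congrArg Subtype.val hu
    rw [← DL_val hB, this]
    simp

theorem eig_basis (hX : IsSurface X) (hB : S.IsOp B) :
    ∃ (ι : Type) (φ : ι → X → Vec N) (lam eps : ι → ℝ), (∀ j, S.Sm (φ j)) ∧
      (∀ j, S.D B (S.D B (φ j)) = (lam j : ℂ) • φ j) ∧ (∀ j, 0 ≤ lam j) ∧
      (∀ j x, S.gam *ᵥ φ j x = (eps j : ℂ) • φ j x) ∧ (∀ j, eps j = 1 ∨ eps j = -1) ∧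
      (∀ j, S.ip (φ j) (φ j) = 1) ∧ (∀ j k, j ≠ k → S.ip (φ j) (φ k) = 0) ∧
      (∀ s t, S.Sm s → S.Sm t → HasSum (fun j => S.ip s (φ j) * S.ip (φ j) t) (S.ip s t)) ∧
      (∀ L : ℝ, {j | lam j ≤ L}.Finite) ∧
      ∀ w : ℝ → ℝ, Summable (fun j => w (lam j)) →
        HasSum (fun j => eps j * w (lam j)) (w 0 * (S.ind B : ℝ)) := by
  obtain ⟨j, hj⟩ := l2_model hX S
  have hA := absD hX hB hj
  obtain ⟨ι, φ, lam, eps, b⟩ := abs_EB hA
  refine ⟨ι, fun i => (φ i).1, lam, eps, fun i => (φ i).2, fun i => congrArg Subtype.val (b.eig i),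
    eb_nonneg hA b, fun i x => congrFun (congrArg Subtype.val (b.geig i)) x, b.sgn, fun i => ?_,
    fun i k hik => ?_, fun s t hs ht => ?_, eb_finite hA b, fun w hw => ?_⟩
  · rw [← hj.ip, inner_self_eq_norm_sq_to_K, b.on.1 i]
    simp
  · rw [← hj.ip]
    exact b.on.2 hik
  · have := eb_parseval b (j ⟨s, hs⟩) (j ⟨t, ht⟩)
    simpa only [hj.ip] using this
  · rw [ind_eq hB]
    exact eb_ms hA b w hw

end Vale.Agent.P267I
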