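import Vale.Agent.P267I.HD
import Vale.Agent.P267I.Inv

/-! From eig_basis. Countable: J is the union over n of the finite sets lam j ≤ n. eig: hB.symm twice, sm_D, ip_smul_left. pars: ip_conj, Complex.conj_mul', Complex.hasSum_re (reCLM.hasSum). -/

open scoped Manifold ContDiff Topology Matrix.Norms.L2Operator ComplexConjugate
open Filter Matrix MeasureTheory Metric

noncomputable section

namespace Vale.Agent.P267I.H

open Vale.Agent.P267F Vale.Agent.P267J

variable {X : Type} [TopologicalSpace X] [ChartedSpace C2 X] [MeasurableSpace X] [BorelSpace X]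
  {N : ℕ} {S : Pre X N} {A : X → Fin 4 → C2 → Mat N} {om : X → Fin 4 → Fin 4 → Fin 4 → C2 → ℝ}
  {p : X} {y : C2} {r : ℝ} {e : Fin 4 → C2} {J : Type} {φ : J → X → Vec N} {lam eps : J → ℝ}

theorem bas_ex (hX : IsSurface X) (B : X → C2 → Mat N) (hB : S.IsOp B) :
    ∃ (J : Type) (φ : J → X → Vec N) (lam eps : J → ℝ), Bas S B φ lam eps := by
  obtain ⟨J, φ, lam, eps, h1, h2, h3, h4, h5, h6, -, h8, h9, h10⟩ := eig_basis hX hB
  refine ⟨J, φ, lam, eps, ?_, h1, h3, h6, fun j s hs => ?_, h4, h5, fun s hs => ?_, h10⟩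
  · rw [← Set.countable_univ_iff]
    refine (Set.countable_iUnion fun n : ℕ => (h9 n).countable).mono fun j _ => ?_
    exact Set.mem_iUnion.2 (exists_nat_ge (lam j))
  · rw [← hB.symm _ _ (h1 j) (sm_D hB hs), ← hB.symm _ _ (sm_D hB (h1 j)) hs, h2, ip_smul_left,
      Complex.star_def, Complex.conj_ofReal]
  · have h := Complex.hasSum_re (h8 s s hs hs)
    have e : ∀ j, (S.ip s (φ j) * S.ip (φ j) s).re = ‖S.ip (φ j) s‖ ^ 2 := fun j => by
      rw [← ip_conj (φ j) s, Complex.star_def, Complex.conj_mul', ← Complex.ofReal_pow,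
        Complex.ofReal_re]
    simpa only [e] using h

end Vale.Agent.P267I.H
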