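import Vale.Agent.P267I.HG1
import Vale.Agent.P267J.Heat

/-! The change of gauge: `Alg0` gives `AlgPw`. -/

open scoped ContDiff Topology Matrix.Norms.L2Operator ComplexConjugate
open Filter Matrix MeasureTheory Metric

noncomputable section

namespace Vale.Agent.P267I.H

open Vale.Agent.P267J

variable {N : ℕ} {L : Lap N} {W g : Submodule ℝ (Mat N)} {r : ℝ} {z : V}

/-- The covariant derivative of a matrix function. -/
def nabM (A : Fin 4 → V → Mat N) (k : Fin 4) (F : V → Mat N) (z : V) : Mat N :=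
  pdM k F z + A k z * F z

/-- The operator on matrix functions. -/
def HM (L : Lap N) (F : V → Mat N) (z : V) : Mat N :=
  -(∑ j, ∑ k, (L.a j k z : ℂ) • nabM L.A j (nabM L.A k F) z) +
    ∑ j, (L.β j z : ℂ) • nabM L.A j F z + L.E z * F z

/-- A vector as a matrix with equal columns. -/
def mat (v : Fin N → V → ℂ) (z : V) : Mat N := Matrix.of fun i _ => v i z

theorem mat_sx {v : Fin N → V → ℂ} (hv : ∀ i, ContDiff ℝ ∞ (v i)) : Sx (mat v) Set.univ :=
  fun i _ => (hv i).contDiffOn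

theorem app_eq {v : Fin N → V → ℂ} (hv : ∀ i, ContDiff ℝ ∞ (v i)) (hA : ∀ k, Df (L.A k) z) :
    mat (L.op.app v) z = HM L (mat v) z := by
  have h0 : Df (mat v) z := (mat_sx hv).df univ_mem
  have h1 : ∀ k, Df (pdM k (mat v)) z := fun k =>
    ((mat_sx hv).pdM isOpen_univ k).df univ_mem
  have h2 : ∀ j k, nabM L.A j (nabM L.A k (mat v)) z = pdM j (pdM k (mat v)) z +
      (pdM j (L.A k) z + L.A j z * L.A k z) * mat v z + L.A k z * pdM j (mat v) z +
      L.A j z * pdM k (mat v) z := fun j k => by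
    unfold nabM
    rw [pdM_add (h1 k) ((hA k).mul h0), pdM_mul (hA k) h0]
    noncomm_ring
  have h3 : mat (L.op.app v) z = -(∑ j, ∑ k, (L.a j k z : ℂ) • pdM j (pdM k (mat v)) z) +
      ∑ j, ((L.β j z : ℂ) • 1 - ∑ k, ((L.a j k z : ℂ) + L.a k j z) • L.A k z) *
        pdM j (mat v) z +
      (-(∑ j, ∑ k, (L.a j k z : ℂ) • (pdM j (L.A k) z + L.A j z * L.A k z)) +
        ∑ j, (L.β j z : ℂ) • L.A j z + L.E z) * mat v z := by
    ext i m
    simp only [mat, Op.app, Lap.op, pdM, Matrix.of_apply, Matrix.add_apply, Matrix.neg_apply,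
      Matrix.sum_apply, Matrix.smul_apply, Matrix.mul_apply, Matrix.sub_apply, smul_eq_mul,
      Matrix.one_apply, mul_ite, mul_one, mul_zero, Complex.ofReal_add]
  have h4 : ∑ j, ∑ k, (L.a k j z : ℂ) • (L.A k z * pdM j (mat v) z) =
      ∑ j, ∑ k, (L.a j k z : ℂ) • (L.A j z * pdM k (mat v) z) := Finset.sum_comm
  rw [h3, HM]
  simp only [h2]
  simp only [nabM, smul_add, add_smul, Finset.sum_add_distrib, sub_mul, add_mul, neg_mul,
    Finset.sum_mul, smul_mul_assoc, one_mul, Finset.sum_sub_distrib, h4]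
  abel

/-- The data in the new gauge. -/
def Lap.gau (L : Lap N) (X : Mat N) (a : Fin 4) : Lap N where
  a := L.a
  β := L.β
  A k z := ex X a z * L.A k z * ex (-X) a z + (if k = a then (1 : ℂ) else 0) • (-X)
  E z := ex X a z * L.E z * ex (-X) a z
  ρ := L.ρ

variable {X : Mat N} {a : Fin 4}

theorem ex_inv' (X : Mat N) (a : Fin 4) (z : V) : ex (-X) a z * ex X a z = 1 := by
  simpa using ex_inv (-X) a z

theorem nab_gau {F : V → Mat N} (hF : Df F z) (k : Fin 4) :
    nabM L.A k (fun w => ex (-X) a w * F w) z = ex (-X) a z * nabM (L.gau X a).A k F z := by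
  simp only [nabM, Lap.gau]
  rw [pdM_mul (ex_df _ a z) hF, ex_pd]
  simp only [mul_add, add_mul, ← mul_assoc, ex_inv', one_mul, mul_smul_comm, smul_mul_assoc]
  abel

theorem gau_df (hA : ∀ k, Df (L.A k) z) (k : Fin 4) : Df ((L.gau X a).A k) z :=
  (((ex_df X a z).mul (hA k)).mul (ex_df _ a z)).add fun _ _ => differentiableAt_const _

theorem HM_gau {F : V → Mat N} (hF : Sx F Set.univ) (hA : ∀ k, Df (L.A k) z) :
    HM L (fun w => ex (-X) a w * F w) z = ex (-X) a z * HM (L.gau X a) F z := by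
  have h1 : ∀ k, nabM L.A k (fun w => ex (-X) a w * F w) =
      fun w => ex (-X) a w * nabM (L.gau X a).A k F w := fun k =>
    funext fun w => nab_gau (hF.df univ_mem) k
  have h2 : ∀ k, Df (nabM (L.gau X a).A k F) z := fun k =>
    ((hF.pdM isOpen_univ k).df univ_mem).add ((gau_df hA k).mul (hF.df univ_mem))
  unfold HM
  simp only [h1, fun j k => nab_gau (L := L) (X := X) (a := a) (h2 k) j]
  simp only [Lap.gau, mul_add, mul_neg, Finset.mul_sum, mul_smul_comm, ← mul_assoc, ex_inv',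
    one_mul]

theorem Lap.Ok.df (h : L.Ok W g r) (hz : z ∈ ball (0 : V) r) (k : Fin 4) : Df (L.A k) z :=
  Sx.df (h.A k) (isOpen_ball.mem_nhds hz)

theorem Lap.Ok.gau {τ : Mat N →L[ℝ] ℝ} (h : L.Ok W g r) (H : K.Alg τ W g) (hX : X ∈ g) :
    (L.gau X a).Ok W g r where
  a := h.a
  β := h.β
  A j := Sx.add (((ex_sx X a _).mul (h.A j)).mul (ex_sx _ a _)) fun _ _ => contDiffOn_const
  E := ((ex_sx X a _).mul h.E).mul (ex_sx _ a _)
  ρ := h.ρ
  sym := h.sym
  a0 := h.a0
  ρ0 := h.ρ0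
  Ag j z hz := g.add_mem (ex_mem H.clg (H.adg X hX) a z (h.Ag j z hz)) (by
    split_ifs
    · simpa using hX
    · simp)
  EW z hz := ex_mem H.clW (H.adW X hX) a z (h.EW z hz)
  Est z hz := by
    have e := ex_star (H.skew X hX) a z
    simp only [Lap.gau]
    rw [conjTranspose_mul, conjTranspose_mul, h.Est z hz, e, ← e, conjTranspose_conjTranspose,
      mul_assoc]

theorem den_gau (hA : ∀ k, Df (L.A k) 0) (C : Cl N) : (L.gau X a).den C = L.den C := by
  have h1 : ∀ j k, pdM j ((L.gau X a).A k) 0 = pdM j (L.A k) 0 +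
      (if j = a then (1 : ℂ) else 0) • (X * L.A k 0 - L.A k 0 * X) := fun j k => by
    simp only [Lap.gau]
    rw [pdM_add (G := fun _ => (if k = a then (1 : ℂ) else 0) • (-X))
      (((ex_df X a 0).mul (hA k)).mul (ex_df _ a 0))
      fun _ _ => differentiableAt_const _, pdM_const,
      pdM_mul ((ex_df X a 0).mul (hA k)) (ex_df _ a 0), pdM_mul (ex_df X a 0) (hA k), ex_pd, ex_pd]
    simp only [ex_zero, one_mul, mul_one, mul_smul_comm, smul_mul_assoc, mul_neg, smul_sub,
      smul_neg]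
    abel
  have h2 : ∀ j k, (L.gau X a).F j k 0 = L.F j k 0 := fun j k => by
    simp only [Lap.F, h1]
    simp only [Lap.gau, ex_zero, one_mul, mul_one, mul_add, add_mul, mul_smul_comm,
      smul_mul_assoc, mul_neg, neg_mul, smul_sub, smul_neg]
    module
  simp only [Lap.den, h2]
  simp only [Lap.gau, ex_zero, one_mul, mul_one]

/-- A matrix function acting on a vector function. -/
def act (P : V → Mat N) (v : Fin N → V → ℂ) (i : Fin N) (z : V) : ℂ := ∑ m, P z i m * v m z

theorem mat_act (P : V → Mat N) (v : Fin N → V → ℂ) :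
    mat (act P v) = fun z => P z * mat v z := rfl

theorem pr_act (P : V → Mat N) (ψ v : Fin N → V → ℂ) :
    pr (act (fun z => (P z)ᴴ) ψ) v = pr ψ (act P v) := by
  unfold pr act
  congr 1
  funext z
  simp only [map_sum, map_mul, conjTranspose_apply, RCLike.star_def, Complex.conj_conj,
    Finset.sum_mul, Finset.mul_sum]
  rw [Finset.sum_comm]
  exact Finset.sum_congr rfl fun _ _ => Finset.sum_congr rfl fun _ _ => by ring

theorem tst_act {P : V → Mat N} (hP : Sx P (ball 0 r)) {v : Fin N → V → ℂ} (hv : Tst r v) :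
    Tst r (act P v) := fun i => ts_sum _ fun m => ts_mul (hP i m) (hv m)

theorem app_out {o : Op N} {v : Fin N → V → ℂ} (hv : Tst r v) (hz : z ∉ ball (0 : V) r)
    (i : Fin N) : o.app v i z = 0 := by
  have h : ∀ f, ts_S r f → f z = 0 := fun f hf =>
    image_eq_zero_of_notMem_tsupport fun h => hz (hf.2.2 h)
  simp only [Op.app, fun m => h _ (hv m), fun m j => h _ (ts_pd (hv m) j),
    fun m j k => h _ (ts_pd (ts_pd (hv m) k) j), mul_zero, Finset.sum_const_zero, neg_zero,
    add_zero]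

theorem nsq_act {P : Mat N} (hP : Pᴴ * P = 1) (x : Fin N → ℂ) :
    ∑ i, ‖∑ m, P i m * x m‖ ^ 2 = ∑ i, ‖x i‖ ^ 2 := by
  have h : ∀ y : Fin N → ℂ, ((∑ i, ‖y i‖ ^ 2 : ℝ) : ℂ) = star y ⬝ᵥ y := fun y => by
    simp only [dotProduct, Pi.star_apply, RCLike.star_def, Complex.conj_mul', Complex.ofReal_sum,
      Complex.ofReal_pow]
  have h1 := h (P *ᵥ x)
  rw [star_mulVec, ← dotProduct_mulVec, mulVec_mulVec, hP, one_mulVec, ← h] at h1
  exact_mod_cast h1

theorem spec_gau {J : Type} {lam : J → ℝ} {ψ : J → Fin N → V → ℂ} (h : L.Ok W g r)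
    (hX : star X = -X) (hS : Spec r L.op lam ψ) :
    Spec r (L.gau X a).op lam fun j => act (fun z => (ex (-X) a z)ᴴ) (ψ j) where
  nonneg := hS.nonneg
  cont j i := continuousOn_finsetSum _ fun m _ =>
    ((ex_sx (-X) a _ m i).continuousOn.star).mul (hS.cont j m)
  eig j v hv := by
    have e : act (ex (-X) a) ((L.gau X a).op.app v) = L.op.app (act (ex (-X) a) v) := by
      have hw := tst_act (ex_sx (-X) a _) hv
      funext i z
      by_cases hz : z ∈ ball (0 : V) r
      · have h1 := app_eq (L := L) (fun i => (hw i).1) (h.df hz)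
        rw [mat_act, HM_gau (mat_sx fun i => (hv i).1) (h.df hz),
          ← app_eq (fun i => (hv i).1) (gau_df (h.df hz))] at h1
        exact (congrFun (congrFun h1 i) i).symm
      · simp only [act, app_out hv hz, app_out hw hz, mul_zero, Finset.sum_const_zero]
    rw [pr_act, pr_act, e, hS.eig j _ (tst_act (ex_sx (-X) a _) hv)]
  pars v hv := by
    have h1 := hS.pars _ (tst_act (ex_sx (-X) a _) hv)
    have e : ∀ z, (ex (-X) a z)ᴴ * ex (-X) a z = 1 := fun z => by
      rw [ex_star (by rw [star_neg, hX]), neg_neg, ex_inv]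
    simp only [act, fun z => nsq_act (e z)] at h1
    simp only [pr_act]
    exact h1

theorem Lap.Ok.bnd (h : L.Ok W g r) (hr : 0 < r) : ∃ M, Bnd M (r / 2) L.op := by
  have c : ∀ {f : V → ℝ}, ContDiffOn ℝ ∞ f (ball 0 r) →
      ContDiffOn ℝ ∞ (fun z => (f z : ℂ)) (ball 0 r) := fun hf =>
    Complex.ofRealCLM.contDiff.comp_contDiffOn hf
  have ha : ∀ j k, ∀ᶠ M in atTop, Sb M (r / 2) (L.op.a j k) := fun j k => hg_sb hr (c (h.a j k))
  have hb : ∀ j i m, ∀ᶠ M in atTop, Sb M (r / 2) (L.op.b j i m) := fun j i m => hg_sb hr (by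
    refine ContDiffOn.sub ?_
      (ContDiffOn.sum fun k _ => (c ((h.a j k).add (h.a k j))).mul (h.A k i m))
    split_ifs
    · exact c (h.β j)
    · exact contDiffOn_const)
  have hc : ∀ i m, ∀ᶠ M in atTop, Sb M (r / 2) (L.op.c i m) := fun i m => hg_sb hr (by
    have h1 : ∀ j k, Sx (fun z => pdM j (L.A k) z + L.A j z * L.A k z) (ball 0 r) := fun j k =>
      (Sx.pdM (h.A k) isOpen_ball j).add (Sx.mul (h.A j) (h.A k))
    have : L.op.c i m = fun z => -(∑ j, ∑ k, (L.a j k z : ℂ) *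
        (pdM j (L.A k) z + L.A j z * L.A k z) i m) + ∑ j, (L.β j z : ℂ) * L.A j z i m +
        L.E z i m := by
      funext z
      simp only [Lap.op, Matrix.add_apply, Matrix.neg_apply, Matrix.sum_apply, Matrix.smul_apply,
        smul_eq_mul]
    rw [this]
    exact ((ContDiffOn.sum fun j _ => ContDiffOn.sum fun k _ =>
      (c (h.a j k)).mul (h1 j k i m)).neg.add
      (ContDiffOn.sum fun j _ => (c (h.β j)).mul (h.A j i m))).add (h.E i m))
  have hρ : ∀ᶠ M in atTop, Sb M (r / 2) L.op.ρ := hg_sb hr (c h.ρ)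
  obtain ⟨M, h1, h2, h3, h4⟩ := ((eventually_all.2 fun j => eventually_all.2 (ha j)).and
    ((eventually_all.2 fun j => eventually_all.2 fun i => eventually_all.2 (hb j i)).and
    ((eventually_all.2 fun i => eventually_all.2 (hc i)).and hρ))).exists
  refine ⟨M, h1, h2, h3, h4, fun j k => ?_⟩
  simp only [Lap.op, h.a0]
  split_ifs <;> simp

theorem spec_half {o : Op N} {J : Type} {lam : J → ℝ} {ψ : J → Fin N → V → ℂ} (hr : 0 < r)
    (hS : Spec r o lam ψ) : Spec (r / 2) o lam ψ := by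
  have hs : ball (0 : V) (r / 2) ⊆ ball 0 r := ball_subset_ball (by linarith)
  have ht : ∀ v : Fin N → V → ℂ, Tst (r / 2) v → Tst r v := fun v hv i =>
    ⟨(hv i).1, (hv i).2.1, (hv i).2.2.trans hs⟩
  exact ⟨hS.nonneg, fun j i => (hS.cont j i).mono hs, fun j v hv => hS.eig j v (ht v hv),
    fun v hv => hS.pars v (ht v hv)⟩

theorem alpha_eq {o o' : Op N} {M M' : ℝ} {J : Type} {lam : J → ℝ} {ψ ψ' : J → Fin N → V → ℂ}
    (hr : 0 < r) (h : Bnd M r o) (h' : Bnd M' r o') (hS : Spec r o lam ψ) (hS' : Spec r o' lam ψ')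
    (h0 : ∀ j i, ψ' j i 0 = ψ j i 0) {ξ : Fin N → ℂ} (hξ : ∀ i, ‖ξ i‖ ≤ 1) :
    ∀ k < 5, alpha o ξ k = alpha o' ξ k := by
  obtain ⟨C, hC⟩ := heat N M hr
  obtain ⟨C', hC'⟩ := heat N M' hr
  intro k hk
  refine sub_eq_zero.1 (hg_uniq 5 (fun k => alpha o ξ k - alpha o' ξ k) (C + C')
    (fun s hs => ?_) k hk)
  have h1 := (hC o h J lam ψ hS ξ hξ s hs).2
  have h2 := (hC' o' h' J lam ψ' hS' ξ hξ s hs).2
  simp only [h0] at h2
  have hs4 : 0 < s ^ 4 := pow_pos hs.1 4
  have e : ∑ k ∈ Finset.range 5, s ^ k * (alpha o ξ k - alpha o' ξ k) =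
      s ^ 4 * (∑ k ∈ Finset.range 5, s ^ k / s ^ 4 * alpha o ξ k -
        ∑ k ∈ Finset.range 5, s ^ k / s ^ 4 * alpha o' ξ k) := by
    rw [← Finset.sum_sub_distrib, Finset.mul_sum]
    refine Finset.sum_congr rfl fun k _ => ?_
    have := hs.1.ne'
    field_simp
  rw [e, abs_mul, abs_of_pos hs4, pow_succ s 4, mul_left_comm (C + C')]
  refine mul_le_mul_of_nonneg_left ?_ hs4.le
  rw [abs_le] at h1 h2 ⊢
  constructor <;> nlinarith [h1.1, h1.2, h2.1, h2.2]

theorem algPw (N : ℕ) (h : Alg0 N) : AlgPw N := by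
  intro C τ W g H hτ r L hr hL J lam ψ hS
  have key : ∀ s : Finset (Fin 4), ∀ (L : Lap N) (ψ : J → Fin N → V → ℂ), L.Ok W g r →
      Spec r L.op lam ψ → (∀ j ∉ s, L.A j 0 = 0) →
      ∀ k < 5, str C L.op k = if k = 4 then L.den C else 0 := by
    intro s
    induction s using Finset.induction_on with
    | empty => exact fun L _ hL _ h0 => h C τ W g H hτ r L hr hL fun j => h0 j (by simp)
    | insert a s _ ih =>
      intro L ψ hL hS h0 k hk
      have hX := hL.Ag a 0 (mem_ball_self hr)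
      have hL' := hL.gau (a := a) H hX
      have hS' := spec_gau (a := a) hL (H.skew _ hX) hS
      obtain ⟨M, hM⟩ := hL.bnd hr
      obtain ⟨M', hM'⟩ := hL'.bnd hr
      have e := fun (ε : ℂ) (hε : ‖ε‖ ≤ 1) m => alpha_eq (half_pos hr) hM hM' (spec_half hr hS)
        (spec_half hr hS') (fun j i => by simp [act, ex_zero, Matrix.one_apply])
        (hg_pc C hε m) k hk
      rw [← den_gau (X := L.A a 0) (a := a) (hL.df (mem_ball_self hr)), ← ih _ _ hL' hS'
        (fun j hj => ?_) k hk]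
      · simp only [str, e 1 (by simp), e (-1) (by simp)]
      · by_cases hja : j = a
        · simp [Lap.gau, ex_zero, hja]
        · simp [Lap.gau, ex_zero, hja, h0 j (by simp [hja, hj])]
  exact key Finset.univ L ψ hL hS fun j hj => absurd (Finset.mem_univ j) hj

theorem algPw_of (h : Alg0 N) : AlgPw N := algPw N h

end Vale.Agent.P267I.H
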