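import Vale.Agent.P267I.HLoc
import Vale.Agent.P267I.HBas
import Vale.Agent.P267I.HG

/-! The local index theorem, given the algebra at a point. -/

noncomputable section

namespace Vale.Agent.P267I

open Vale.Agent.P267F

theorem localIndex_of {X : Type} [TopologicalSpace X] [ChartedSpace C2 X] {N : ℕ}
    (h : H.Alg0 N) (hX : IsSurface X) [MeasurableSpace X] [BorelSpace X] (S : Pre X N) :
    S.LocalIndex :=
  H.loc_of (H.algPw N h) hX (H.bas_ex hX)

end Vale.Agent.P267I
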