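import Vale.Agent.P267I.HPc
import Vale.Agent.P267J.Heat

/-! The supertrace of the heat kernel. heat for the 2 N vectors Pc C (± 1) m, Pc_sum termwise, Summable.tsum_finsetSum, tsum_add, tsum_sub; alpha_bd (P267J/N3) for the crude bound (see hsum in Heat); the sum over k of s ^ k / s ^ 4 * str k is d. -/

open scoped Manifold ContDiff Topology Matrix.Norms.L2Operator ComplexConjugate
open Filter Matrix MeasureTheory Metric

noncomputable section

namespace Vale.Agent.P267I.H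

open Vale.Agent.P267F Vale.Agent.P267J

set_option linter.unusedSectionVars false

variable {X : Type} [TopologicalSpace X] [ChartedSpace C2 X] [MeasurableSpace X] [BorelSpace X]
  {N : ℕ} {S : Pre X N} {A : X → Fin 4 → C2 → Mat N} {om : X → Fin 4 → Fin 4 → Fin 4 → C2 → ℝ}
  {p : X} {y : C2} {r : ℝ} {e : Fin 4 → C2} {J : Type} {φ : J → X → Vec N} {lam eps : J → ℝ}

theorem heat_str (N : ℕ) (M : ℝ) (hr : 0 < r) : ∃ C : ℝ, ∀ (Cf : Cl N) (o : Op N) (d : ℝ),
    Bnd M r o → (∀ k < 5, str Cf o k = if k = 4 then d else 0) →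
    ∀ (J : Type) (lam eps : J → ℝ) (ψ : J → Fin N → V → ℂ), Spec r o lam ψ →
    (∀ j, eps j = 1 ∨ eps j = -1) →
    (∀ j, (Cf.gam *ᵥ fun i => ψ j i 0) = (eps j : ℂ) • fun i => ψ j i 0) →
    ∀ s ∈ Set.Ioc (0 : ℝ) 1,
      Summable (fun j => Real.exp (-(2 * s ^ 2 * lam j)) * H.nsq fun i => ψ j i 0) ∧
      ∑' j, Real.exp (-(2 * s ^ 2 * lam j)) * H.nsq (fun i => ψ j i 0) ≤ C / s ^ 4 ∧
      |∑' j, eps j * Real.exp (-(2 * s ^ 2 * lam j)) * H.nsq (fun i => ψ j i 0) - d| ≤ C * s := by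
  obtain ⟨C0, h0⟩ := heat N M hr
  obtain ⟨Ca, hCa, ha⟩ := alpha_bd (N := N) (M := M) hr
  refine ⟨N * (2 * (|C0| + 5 * Ca)), fun Cf o d ho hd J lam eps ψ hS he hg s hs => ?_⟩
  have hs4 : 0 < s ^ 4 := pow_pos hs.1 4
  have hP : ∀ (ε : ℂ), (ε = 1 ∨ ε = -1) → ∀ m, ∃ T : ℝ,
      HasSum (fun j => Real.exp (-(2 * s ^ 2 * lam j)) *
        ‖∑ i, conj (ψ j i 0) * Pc Cf ε m i‖ ^ 2) T ∧
      |T - ∑ k ∈ Finset.range 5, s ^ k / s ^ 4 * alpha o (Pc Cf ε m) k| ≤ |C0| * s ∧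
      T ≤ (|C0| + 5 * Ca) / s ^ 4 := by
    intro ε hε m
    obtain ⟨h1, h2⟩ := h0 o ho J lam ψ hS (Pc Cf ε m) (Pc_le Cf hε m) s hs
    have h3 := h2.trans (mul_le_mul_of_nonneg_right (le_abs_self C0) hs.1.le)
    refine ⟨_, h1.hasSum, h3, ?_⟩
    have hsum : ∑ k ∈ Finset.range 5, s ^ k / s ^ 4 * alpha o (Pc Cf ε m) k ≤ 5 * Ca / s ^ 4 := by
      calc ∑ k ∈ Finset.range 5, s ^ k / s ^ 4 * alpha o (Pc Cf ε m) k
          ≤ ∑ k ∈ Finset.range 5, Ca / s ^ 4 := by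
            refine Finset.sum_le_sum fun k hk => ?_
            have hk1 := (le_abs_self _).trans
              (ha ⟨(o, Pc Cf ε m), ho, Pc_le Cf hε m⟩ k (Finset.mem_range.1 hk))
            have hp : s ^ k ≤ 1 := pow_le_one₀ hs.1.le hs.2
            have hp0 : 0 ≤ s ^ k := pow_nonneg hs.1.le k
            rw [div_mul_eq_mul_div]
            refine div_le_div_of_nonneg_right ?_ hs4.le
            calc s ^ k * alpha o (Pc Cf ε m) k ≤ s ^ k * Ca := mul_le_mul_of_nonneg_left hk1 hp0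
              _ ≤ 1 * Ca := mul_le_mul_of_nonneg_right hp hCa
              _ = Ca := one_mul _
        _ = 5 * Ca / s ^ 4 := by simp; ring
    have h4 : |C0| * s ≤ |C0| / s ^ 4 := by
      rw [le_div_iff₀ hs4]
      have : s * s ^ 4 ≤ 1 := by
        rw [← pow_succ']
        exact pow_le_one₀ hs.1.le hs.2
      nlinarith [abs_nonneg C0]
    have h5 := (abs_le.1 h3).2
    rw [add_div]
    linarith
  choose Tp hp1 hp2 hp3 using hP 1 (Or.inl rfl)
  choose Tn hn1 hn2 hn3 using hP (-1) (Or.inr rfl)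
  have hA := hasSum_sum (s := Finset.univ) fun m _ => (hp1 m).add (hn1 m)
  have hB := hasSum_sum (s := Finset.univ) fun m _ => (hp1 m).sub (hn1 m)
  have eA : (fun j => ∑ m, (Real.exp (-(2 * s ^ 2 * lam j)) *
        ‖∑ i, conj (ψ j i 0) * Pc Cf 1 m i‖ ^ 2 + Real.exp (-(2 * s ^ 2 * lam j)) *
        ‖∑ i, conj (ψ j i 0) * Pc Cf (-1) m i‖ ^ 2)) =
      fun j => Real.exp (-(2 * s ^ 2 * lam j)) * H.nsq fun i => ψ j i 0 := by
    funext j
    obtain ⟨e1, e2⟩ := Pc_sum Cf (he j) (hg j)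
    rw [Finset.sum_add_distrib, ← Finset.mul_sum, ← Finset.mul_sum, e1, e2]
    ring
  have eB : (fun j => ∑ m, (Real.exp (-(2 * s ^ 2 * lam j)) *
        ‖∑ i, conj (ψ j i 0) * Pc Cf 1 m i‖ ^ 2 - Real.exp (-(2 * s ^ 2 * lam j)) *
        ‖∑ i, conj (ψ j i 0) * Pc Cf (-1) m i‖ ^ 2)) =
      fun j => eps j * Real.exp (-(2 * s ^ 2 * lam j)) * H.nsq fun i => ψ j i 0 := by
    funext j
    obtain ⟨e1, e2⟩ := Pc_sum Cf (he j) (hg j)
    rw [Finset.sum_sub_distrib, ← Finset.mul_sum, ← Finset.mul_sum, e1, e2]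
    ring
  rw [eA] at hA
  rw [eB] at hB
  refine ⟨hA.summable, ?_, ?_⟩
  · rw [hA.tsum_eq]
    calc ∑ m, (Tp m + Tn m) ≤ ∑ _m : Fin N, 2 * ((|C0| + 5 * Ca) / s ^ 4) :=
          Finset.sum_le_sum fun m _ => by linarith [hp3 m, hn3 m]
      _ = _ := by simp; ring
  · have hdd : d = ∑ m, (∑ k ∈ Finset.range 5, s ^ k / s ^ 4 * alpha o (Pc Cf 1 m) k -
        ∑ k ∈ Finset.range 5, s ^ k / s ^ 4 * alpha o (Pc Cf (-1) m) k) := by
      have : ∑ k ∈ Finset.range 5, s ^ k / s ^ 4 * str Cf o k = d := by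
        rw [Finset.sum_eq_single 4]
        · rw [hd 4 (by norm_num), if_pos rfl, div_self hs4.ne', one_mul]
        · intro k hk hk4
          rw [hd k (Finset.mem_range.1 hk), if_neg hk4, mul_zero]
        · intro h
          exact absurd (by norm_num) h
      rw [← this]
      simp only [str, Finset.mul_sum, ← Finset.sum_sub_distrib, mul_sub]
      exact Finset.sum_comm
    rw [hB.tsum_eq, hdd, ← Finset.sum_sub_distrib]
    refine (Finset.abs_sum_le_sum_abs _ _).trans ?_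
    calc _ ≤ ∑ _m : Fin N, 2 * (|C0| + 5 * Ca) * s := by
          refine Finset.sum_le_sum fun m _ => ?_
          have a1 := abs_le.1 (hp2 m)
          have a2 := abs_le.1 (hn2 m)
          have a3 : 0 ≤ Ca * s := mul_nonneg hCa hs.1.le
          rw [abs_le]
          constructor <;> nlinarith [a1.1, a1.2, a2.1, a2.2]
      _ = _ := by simp; ring

end Vale.Agent.P267I.H
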