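import Vale.Agent.P267I.HD

/-! Uniform bounds. On the open set O the iterated derivative of F is continuous (ContDiffOn.continuousOn_iteratedFDerivWithin, iteratedFDerivWithin_of_isOpen), so bounded on the compact set; the iterated derivative of z ↦ F (y, z) is that of F composed with inr (translate; ContinuousLinearMap.iteratedFDerivWithin_comp_right, iteratedFDeriv_comp_add_left), of norm ≤. -/

open scoped Manifold ContDiff Topology Matrix.Norms.L2Operator ComplexConjugate
open Filter Matrix MeasureTheory Metric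

noncomputable section

namespace Vale.Agent.P267I.H

open Vale.Agent.P267F Vale.Agent.P267J

set_option linter.unusedSectionVars false

variable {X : Type} [TopologicalSpace X] [ChartedSpace C2 X] [MeasurableSpace X] [BorelSpace X]
  {N : ℕ} {S : Pre X N} {A : X → Fin 4 → C2 → Mat N} {om : X → Fin 4 → Fin 4 → Fin 4 → C2 → ℝ}
  {p : X} {y : C2} {r : ℝ} {e : Fin 4 → C2} {J : Type} {φ : J → X → Vec N} {lam eps : J → ℝ}

theorem hsb_le {O : Set (C2 × V)} (hO : IsOpen O) {F : C2 × V → ℂ} (hF : ContDiffOn ℝ ∞ F O)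
    {y : C2} {z : V} (h : (y, z) ∈ O) (k : ℕ) :
    ‖iteratedFDeriv ℝ k (fun z => F (y, z)) z‖ ≤ ‖iteratedFDeriv ℝ k F (y, z)‖ := by
  have o1 : IsOpen ((fun q : C2 × V => (y, (0 : V)) + q) ⁻¹' O) := hO.preimage (by fun_prop)
  have o2 := o1.preimage (ContinuousLinearMap.inr ℝ C2 V).continuous
  have c1 : ContDiffOn ℝ ∞ (fun q : C2 × V => F ((y, (0 : V)) + q))
      ((fun q : C2 × V => (y, (0 : V)) + q) ⁻¹' O) :=
    hF.comp (by fun_prop) fun _ hq => hq
  have m : (ContinuousLinearMap.inr ℝ C2 V) z ∈ (fun q : C2 × V => (y, (0 : V)) + q) ⁻¹' O := by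
    simpa using h
  have e := (ContinuousLinearMap.inr ℝ C2 V).iteratedFDerivWithin_comp_right c1 o1.uniqueDiffOn
    o2.uniqueDiffOn m (i := k) (by exact_mod_cast le_top)
  rw [iteratedFDerivWithin_of_isOpen k o2 m, iteratedFDerivWithin_of_isOpen k o1 m,
    iteratedFDeriv_comp_add_left] at e
  have e0 : (fun z => F (y, z)) =
      (fun q : C2 × V => F ((y, (0 : V)) + q)) ∘ ContinuousLinearMap.inr ℝ C2 V := by
    funext w; simp
  have e1 : (y, (0 : V)) + (ContinuousLinearMap.inr ℝ C2 V) z = (y, z) := by simp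
  rw [e0, e, e1]
  refine (ContinuousMultilinearMap.norm_compContinuousLinearMap_le _ _).trans
    (mul_le_of_le_one_right (norm_nonneg _) ?_)
  exact Finset.prod_le_one (fun _ _ => norm_nonneg _)
    fun _ _ => ContinuousLinearMap.norm_inr_le_one ℝ C2 V

theorem sb_unif {K : Set C2} (hK : IsCompact K) {O : Set (C2 × V)} (hO : IsOpen O)
    (hr : K ×ˢ closedBall (0 : V) r ⊆ O) {F : C2 × V → ℂ} (hF : ContDiffOn ℝ ∞ F O) :
    ∃ M, ∀ y ∈ K, Sb M r fun z => F (y, z) := by
  have H : ∀ k : ℕ, ∃ M, ∀ q ∈ K ×ˢ closedBall (0 : V) r, ‖iteratedFDeriv ℝ k F q‖ ≤ M := fun k =>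
    (hK.prod (isCompact_closedBall 0 r)).exists_bound_of_continuousOn
      (((hF.continuousOn_iteratedFDerivWithin (by exact_mod_cast le_top) hO.uniqueDiffOn).congr
        (iteratedFDerivWithin_of_isOpen k hO).symm).mono hr)
  choose M hM using H
  refine ⟨∑ k ∈ Finset.range 6, |M k|, fun y hy => ⟨hF.comp (by fun_prop)
    fun z hz => hr ⟨hy, ball_subset_closedBall hz⟩, fun k hk z hz => ?_⟩⟩
  have m : (y, z) ∈ K ×ˢ closedBall (0 : V) r := ⟨hy, ball_subset_closedBall hz⟩
  exact ((hsb_le hO hF (hr m) k).trans ((hM k _ m).trans (le_abs_self _))).trans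
    (Finset.single_le_sum (f := fun k => |M k|) (fun _ _ => abs_nonneg _)
      (Finset.mem_range.2 (by omega)))

theorem pd_sm {O : Set (C2 × V)} (hO : IsOpen O) {F : C2 × V → ℂ} (hF : ContDiffOn ℝ ∞ F O)
    (j : Fin 4) : ContDiffOn ℝ ∞ (fun q : C2 × V => pd j (fun z => F (q.1, z)) q.2) O := by
  have h1 : ContDiffOn ℝ ∞ (fun q => fderiv ℝ F q (0, EuclideanSpace.single j 1)) O :=
    (hF.fderiv_of_isOpen hO (by simp)).clm_apply contDiffOn_const
  refine h1.congr fun q hq => ?_
  have d := ((hF.contDiffAt (hO.mem_nhds hq)).differentiableAt (by simp)).hasFDerivAt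
  have e := (HasFDerivAt.comp (f := fun z : V => (q.1, z)) q.2 d
    (hasFDerivAt_prodMk_right q.1 q.2)).fderiv
  exact (congrArg (fun L : V →L[ℝ] ℂ => L (EuclideanSpace.single j 1)) e).trans (by simp)

end Vale.Agent.P267I.H
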