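import Vale.Agent.P267I.HJ
import Vale.Agent.P267I.HSb

/-! Uniform bounds for the coefficients. r from dom_tube; each of the finitely many coefficients of Lap.op is jointly smooth on Dom (HJ, pd_sm, Complex.ofRealCLM.contDiff, Matrix.mul_apply, sum_apply), sb_unif, take the sum of the absolute values of the bounds. -/

open scoped Manifold ContDiff Topology Matrix.Norms.L2Operator ComplexConjugate
open Filter Matrix MeasureTheory Metric

noncomputable section

namespace Vale.Agent.P267I.H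

open Vale.Agent.P267F Vale.Agent.P267J

set_option linter.unusedSectionVars false

variable {X : Type} [TopologicalSpace X] [ChartedSpace C2 X] [MeasurableSpace X] [BorelSpace X]
  {N : ℕ} {S : Pre X N} {A : X → Fin 4 → C2 → Mat N} {om : X → Fin 4 → Fin 4 → Fin 4 → C2 → ℝ}
  {p : X} {y : C2} {r : ℝ} {e : Fin 4 → C2} {J : Type} {φ : J → X → Vec N} {lam eps : J → ℝ}

theorem hbd_mono {M M' : ℝ} {f : V → ℂ} (h : Sb M r f) (hM : M ≤ M') : Sb M' r f :=
  ⟨h.1, fun k hk z hz => (h.2 k hk z hz).trans hM⟩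

theorem hbd_fin {I : Type} [Fintype I] {K : Set C2} (F : I → C2 → V → ℂ)
    (h : ∀ i, ∃ M, ∀ y ∈ K, Sb M r (F i y)) : ∃ M, 0 ≤ M ∧ ∀ i, ∀ y ∈ K, Sb M r (F i y) := by
  choose M hM using h
  refine ⟨∑ i, |M i|, Finset.sum_nonneg fun i _ => abs_nonneg _, fun i y hy =>
    hbd_mono (hM i y hy) ((le_abs_self _).trans ?_)⟩
  exact Finset.single_le_sum (fun i _ => abs_nonneg (M i)) (Finset.mem_univ i)

theorem hbd_re {O : Set (C2 × V)} {f : C2 × V → ℝ} (h : ContDiffOn ℝ ∞ f O) :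
    ContDiffOn ℝ ∞ (fun q => (f q : ℂ)) O :=
  Complex.ofRealCLM.contDiff.comp_contDiffOn h

theorem hbd_b (hA : S.IsLC A om) (j : Fin 4) (i m : Fin N) :
    ContDiffOn ℝ ∞ (fun q : C2 × V => (lap S A om p q.1).op.b j i m q.2) (Dom S p) := by
  have h1 : ContDiffOn ℝ ∞
      (fun q : C2 × V => if i = m then (((lap S A om p q.1).β j q.2 : ℝ) : ℂ) else 0) (Dom S p) := by
    split_ifs
    · exact hbd_re (lap_b_sm hA j)
    · exact contDiffOn_const
  exact h1.sub (ContDiffOn.sum fun k _ =>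
    (hbd_re ((lap_a_sm j k).add (lap_a_sm k j))).mul (lap_A_sm hA k i m))

theorem hbd_ent (L : Lap N) (i m : Fin N) (z : V) : L.op.c i m z =
    -(∑ j, ∑ k, (L.a j k z : ℂ) * (pd j (fun w => L.A k w i m) z +
      ∑ l, L.A j z i l * L.A k z l m)) + ∑ j, (L.β j z : ℂ) * L.A j z i m + L.E z i m := by
  simp only [Lap.op, Matrix.add_apply, Matrix.neg_apply, Matrix.sum_apply, Matrix.smul_apply,
    smul_eq_mul, Matrix.mul_apply, pdM, Matrix.of_apply]

theorem hbd_c (hA : S.IsLC A om) (i m : Fin N) :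
    ContDiffOn ℝ ∞ (fun q : C2 × V => (lap S A om p q.1).op.c i m q.2) (Dom S p) := by
  simp only [hbd_ent]
  refine ((ContDiffOn.sum fun j _ => ContDiffOn.sum fun k _ => (hbd_re (lap_a_sm j k)).mul
    ((pd_sm (dom_open S p) (lap_A_sm hA k i m) j).add (ContDiffOn.sum fun l _ =>
      (lap_A_sm hA j i l).mul (lap_A_sm hA k l m)))).neg.add (ContDiffOn.sum fun j _ =>
    (hbd_re (lap_b_sm hA j)).mul (lap_A_sm hA j i m))).add (lap_E_sm hA i m)

theorem lap_bnd (hA : S.IsLC A om) {K : Set C2} (hK : IsCompact K) (hV : K ⊆ S.V p) :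
    ∃ r > 0, ∃ M, ∀ y ∈ K, In S p y r ∧ Bnd M r (lap S A om p y).op := by
  obtain ⟨r, hr, hD⟩ := dom_tube hK hV
  have hO := dom_open S p
  obtain ⟨Ma, ha0, ha⟩ := hbd_fin (r := r) (K := K)
    (fun (i : Fin 4 × Fin 4) y => (lap S A om p y).op.a i.1 i.2)
    fun i => sb_unif hK hO hD (hbd_re (lap_a_sm (A := A) (om := om) i.1 i.2))
  obtain ⟨Mb, hb0, hb⟩ := hbd_fin (r := r) (K := K)
    (fun (i : Fin 4 × Fin N × Fin N) y => (lap S A om p y).op.b i.1 i.2.1 i.2.2)
    fun i => sb_unif hK hO hD (hbd_b hA i.1 i.2.1 i.2.2)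
  obtain ⟨Mc, hc0, hc⟩ := hbd_fin (r := r) (K := K)
    (fun (i : Fin N × Fin N) y => (lap S A om p y).op.c i.1 i.2)
    fun i => sb_unif hK hO hD (hbd_c hA i.1 i.2)
  obtain ⟨Md, hd0, hd⟩ := hbd_fin (r := r) (K := K)
    (fun (_ : Unit) y => (lap S A om p y).op.ρ)
    fun _ => sb_unif hK hO hD (hbd_re (lap_r_sm (A := A) (om := om)))
  refine ⟨r, hr, Ma + Mb + Mc + Md, fun y hy => ⟨⟨hV hy, fun z hz => ?_⟩, fun j k => ?_,
    fun j i m => ?_, fun i m => ?_, ?_, fun j k => ?_⟩⟩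
  · exact (hD (Set.mk_mem_prod hy (ball_subset_closedBall hz))).2
  · exact hbd_mono (ha (j, k) y hy) (by linarith)
  · exact hbd_mono (hb (j, i, m) y hy) (by linarith)
  · exact hbd_mono (hc (i, m) y hy) (by linarith)
  · exact hbd_mono (hd () y hy) (by linarith)
  · change (((lap S A om p y).a j k 0 : ℝ) : ℂ) = _
    rw [lap_a0 (hV hy)]
    split_ifs <;> simp

end Vale.Agent.P267I.H
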