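import Vale.Agent.P267I.HDen
import Vale.Agent.P267I.GInt

/-! The density integral in the chart. The integrand is continuous (on the open sets W p and the complement of the support; dens_cont), X compact, mu_finite; setIntegral_eq_integral_of_forall_compl_eq_zero, chart_int, integral_ofReal, setIntegral_congr_fun, dens_re, right_inv. -/

open scoped Manifold ContDiff Topology Matrix.Norms.L2Operator ComplexConjugate
open Filter Matrix MeasureTheory Metric

noncomputable section

namespace Vale.Agent.P267I.H

open Vale.Agent.P267F Vale.Agent.P267J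

set_option linter.unusedSectionVars false

variable {X : Type} [TopologicalSpace X] [ChartedSpace C2 X] [MeasurableSpace X] [BorelSpace X]
  {N : ℕ} {S : Pre X N} {A : X → Fin 4 → C2 → Mat N} {om : X → Fin 4 → Fin 4 → Fin 4 → C2 → ℝ}
  {p : X} {y : C2} {r : ℝ} {e : Fin 4 → C2} {J : Type} {φ : J → X → Vec N} {lam eps : J → ℝ}

theorem dens_int (hX : IsSurface X) (hA : S.IsLC A om) {ψ : X → ℝ} (hψ : Continuous ψ)
    (hs : tsupport ψ ⊆ S.W p) :
    Integrable (fun x => ψ x * (S.dens A om p (chartAt C2 p x)).re) S.μ ∧
    ((∫ x, ψ x * (S.dens A om p (chartAt C2 p x)).re ∂S.μ : ℝ) : ℂ) =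
      ∫ z in S.V p, (ψ ((chartAt C2 p).symm z) : ℂ) * S.dens A om p z * S.rho p z := by
  have hcp : CompactSpace X := hX.2.2.1
  have hfin := mu_finite hX S
  have h1 : ContinuousOn (fun x => (S.dens A om p (chartAt C2 p x)).re) (S.W p) :=
    Complex.continuous_re.comp_continuousOn ((dens_cont hA p).comp
      ((chartAt C2 p).continuousOn.mono (S.W_sub p)) fun x hx => ⟨x, hx, rfl⟩)
  have h2 : tsupport (fun x => ψ x * (S.dens A om p (chartAt C2 p x)).re) ⊆ S.W p :=
    tsupport_mul_subset_left.trans hs
  have h3 : Continuous fun x => ψ x * (S.dens A om p (chartAt C2 p x)).re :=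
    (hψ.continuousOn.mul h1).continuous_of_tsupport_subset (S.W_open p) h2
  refine ⟨h3.integrable_of_hasCompactSupport (HasCompactSupport.of_compactSpace _), ?_⟩
  rw [← setIntegral_eq_integral_of_forall_compl_eq_zero (s := S.W p)
    fun x hx => image_eq_zero_of_notMem_tsupport fun h => hx (h2 h), chart_int,
    ← integral_complex_ofReal]
  refine setIntegral_congr_fun (V_open S p).measurableSet fun z hz => ?_
  simp only [smul_eq_mul, (chartAt C2 p).right_inv (gint_sub S p hz), Complex.ofReal_mul,
    dens_re hA hz]
  ring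

end Vale.Agent.P267I.H
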