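import Vale.Agent.P267I.HLin

/-! Change of variables. co : C2 → (Fin 4 → ℝ) preserves volume (Complex.volume_preserving_equiv_pi or equiv_real_prod), PiLp.volume_preserving_toLp, Real.map_matrix_volume_pi_eq_smul_volume_pi or integral_image_eq_integral_abs_det_fderiv_smul; translation invariance. F is arbitrary, so use measurable equivalences (MeasurableEmbedding.integral_map). -/

open scoped Manifold ContDiff Topology Matrix.Norms.L2Operator ComplexConjugate
open Filter Matrix MeasureTheory Metric

noncomputable section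

namespace Vale.Agent.P267I.H

open Vale.Agent.P267F Vale.Agent.P267J

set_option linter.unusedSectionVars false

variable {X : Type} [TopologicalSpace X] [ChartedSpace C2 X] [MeasurableSpace X] [BorelSpace X]
  {N : ℕ} {S : Pre X N} {A : X → Fin 4 → C2 → Mat N} {om : X → Fin 4 → Fin 4 → Fin 4 → C2 → ℝ}
  {p : X} {y : C2} {r : ℝ} {e : Fin 4 → C2} {J : Type} {φ : J → X → Vec N} {lam eps : J → ℝ}

theorem hchg_co : ∃ κ : (Fin 4 → ℝ) ≃ᵐ C2, MeasurePreserving κ volume volume ∧
    ∀ t, co (κ t) = t := by
  let κ : (Fin 4 → ℝ) ≃ᵐ C2 :=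
    ((MeasurableEquiv.arrowCongr' (finSumFinEquiv (m := 2) (n := 2)).symm
      (MeasurableEquiv.refl ℝ)).trans (MeasurableEquiv.sumPiEquivProdPi fun _ => ℝ)).trans
      ((Complex.measurableEquivPi.symm.prodCongr Complex.measurableEquivPi.symm).trans
        MeasurableEquiv.finTwoArrow.symm)
  refine ⟨κ, ?_, fun t => ?_⟩
  · exact (((volume_preserving_finTwoArrow ℂ).symm _).comp
      ((Complex.volume_preserving_equiv_pi.symm _).prod
        (Complex.volume_preserving_equiv_pi.symm _))).comp
      ((volume_measurePreserving_sumPiEquivProdPi fun _ => ℝ).comp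
        (volume_preserving_arrowCongr' _ (MeasurableEquiv.refl ℝ) (.id volume)))
  · have h0 : κ t 0 = t 0 + t 1 * Complex.I := Complex.measurableEquivPi_symm_apply _
    have h1 : κ t 1 = t 2 + t 3 * Complex.I := Complex.measurableEquivPi_symm_apply _
    ext i
    fin_cases i <;> simp [co, h0, h1]

theorem hchg_inj {v w : C2} (h : co v = co w) : v = w := by
  have h0 := congrFun h 0
  have h1 := congrFun h 1
  have h2 := congrFun h 2
  have h3 := congrFun h 3
  ext i
  fin_cases i
  exacts [Complex.ext h0 h1, Complex.ext h2 h3]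

theorem chg {E : Type} [NormedAddCommGroup E] [NormedSpace ℝ E] (he : 0 < fdet e) (y : C2)
    (F : C2 → E) : ∫ w, F w = ∫ z : V, fdet e • F (Tm y e z) := by
  obtain ⟨κ, hκ, hc⟩ := hchg_co
  set M : Matrix (Fin 4) (Fin 4) ℝ := Matrix.of fun a b => co (e a) b with hM
  let L : (Fin 4 → ℝ) →L[ℝ] (Fin 4 → ℝ) := LinearMap.toContinuousLinearMap (Matrix.toLin' Mᵀ)
  have hd : L.det = fdet e := by
    change LinearMap.det (Matrix.toLin' Mᵀ) = _
    rw [LinearMap.det_toLin', Matrix.det_transpose]
    rfl
  have hu : IsUnit Mᵀ := (Matrix.isUnit_iff_isUnit_det _).2 (by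
    rw [Matrix.det_transpose]
    exact he.ne'.isUnit)
  have hi : Function.Injective fun t => co y + L t := fun s t h =>
    Matrix.mulVec_injective_of_isUnit hu (add_left_cancel h)
  have hs : Function.Surjective fun t => co y + L t := fun s => by
    obtain ⟨t, ht⟩ := Matrix.mulVec_surjective_iff_isUnit.2 hu (s - co y)
    exact ⟨t, by
      change co y + Mᵀ *ᵥ t = s
      rw [ht, add_sub_cancel]⟩
  have h1 := integral_image_eq_integral_abs_det_fderiv_smul volume (s := Set.univ)
    (f := fun t => co y + L t) (f' := fun _ => L) MeasurableSet.univ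
    (fun t _ => (L.hasFDerivAt.const_add _).hasFDerivWithinAt) hi.injOn fun t => F (κ t)
  rw [Set.image_univ, hs.range_eq, Measure.restrict_univ, hd, abs_of_pos he] at h1
  rw [← hκ.integral_comp' F, h1, ← (PiLp.volume_preserving_toLp (Fin 4)).integral_comp
    (MeasurableEquiv.toLp 2 _).measurableEmbedding]
  refine integral_congr_ae (Eventually.of_forall fun t => ?_)
  refine congrArg (fun w => fdet e • F w) (hchg_inj ?_)
  rw [hc]
  change co y + Mᵀ *ᵥ t = _
  ext i
  fin_cases i <;> simp [co, Tm, hM, Matrix.mulVec, dotProduct, Fin.sum_univ_four, mul_comm]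

end Vale.Agent.P267I.H
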