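import Vale.Agent.P267I.HTh

/-! The curvature at the centre. (lap).A k 0 = A p k y (cf_self); product rule entrywise, th_fd, chain rule Tm_fd1, hA.tf and cf_comb (cf_lin for the difference). -/

open scoped Manifold ContDiff Topology Matrix.Norms.L2Operator ComplexConjugate
open Filter Matrix MeasureTheory Metric

noncomputable section

namespace Vale.Agent.P267I.H

open Vale.Agent.P267F Vale.Agent.P267J

set_option linter.unusedSectionVars false

variable {X : Type} [TopologicalSpace X] [ChartedSpace C2 X] [MeasurableSpace X] [BorelSpace X]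
  {N : ℕ} {S : Pre X N} {A : X → Fin 4 → C2 → Mat N} {om : X → Fin 4 → Fin 4 → Fin 4 → C2 → ℝ}
  {p : X} {y : C2} {r : ℝ} {e : Fin 4 → C2} {J : Type} {φ : J → X → Vec N} {lam eps : J → ℝ}

theorem hcurv_T0 (S : Pre X N) (p : X) (y : C2) : T S p y 0 = y := Tm_zero y _

theorem hcurv_det (hy : y ∈ S.V p) : fdet (fr S p y) ≠ 0 := (S.e_pos p y hy).ne'

theorem hcurv_th0 (hy : y ∈ S.V p) (k a : Fin 4) :
    cf (fr S p y) (S.e p k y) a = if k = a then 1 else 0 :=
  cf_self (e := fr S p y) (hcurv_det hy) k a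

theorem hcurv_A0 (hy : y ∈ S.V p) (k : Fin 4) : (lap S A om p y).A k 0 = A p k y := by
  change ∑ a, cf (fr S p (T S p y 0)) (S.e p k y) a • A p a (T S p y 0) = A p k y
  rw [hcurv_T0]
  simp only [hcurv_th0 hy, ite_smul, one_smul, zero_smul, Finset.sum_ite_eq, Finset.mem_univ,
    if_true]

theorem hcurv_d (hA : S.IsLC A om) (hy : y ∈ S.V p) (j k : Fin 4) :
    pdM j ((lap S A om p y).A k) 0 = Pre.dM (A p k) y (S.e p j y) -
      ∑ a, cf (fr S p y) (fderiv ℝ (S.e p k) y (S.e p j y)) a • A p a y := by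
  ext i m
  have hT : HasFDerivAt (T S p y) (fderiv ℝ (T S p y) 0) 0 :=
    (((Tm_sm y (fr S p y)).differentiable (by simp)) 0).hasFDerivAt
  have hT1 : fderiv ℝ (T S p y) 0 (EuclideanSpace.single j 1) = S.e p j y :=
    Tm_fd1 y (fr S p y) 0 j
  have hth : ∀ a, HasFDerivAt (fun z => cf (fr S p (T S p y z)) (S.e p k y) a)
      (fderiv ℝ (fun z => cf (fr S p (T S p y z)) (S.e p k y) a) 0) 0 :=
    fun a => (th_fd hy j k a).1.hasFDerivAt
  have hg : ∀ a, HasFDerivAt (fun z => A p a (T S p y z) i m)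
      ((fderiv ℝ (fun w => A p a w i m) y).comp (fderiv ℝ (T S p y) 0)) 0 := by
    intro a
    have h1 : DifferentiableAt ℝ (fun w => A p a w i m) y :=
      ((hA.A_sm p a i m).contDiffAt ((V_open S p).mem_nhds hy)).differentiableAt (by simp)
    have h2 : HasFDerivAt (fun w => A p a w i m) (fderiv ℝ (fun w => A p a w i m) y)
        (T S p y 0) := by
      rw [hcurv_T0]
      exact h1.hasFDerivAt
    exact h2.comp 0 hT
  have hs := HasFDerivAt.fun_sum (u := Finset.univ) fun a _ => (hth a).fun_smul (hg a)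
  have hfun : (fun w => (lap S A om p y).A k w i m) = fun z =>
      ∑ a, cf (fr S p (T S p y z)) (S.e p k y) a • A p a (T S p y z) i m := by
    funext z
    change (∑ a, cf (fr S p (T S p y z)) (S.e p k y) a • A p a (T S p y z)) i m = _
    rw [Matrix.sum_apply]
    rfl
  change fderiv ℝ (fun w => (lap S A om p y).A k w i m) 0 (EuclideanSpace.single j 1) = _
  rw [hfun, hs.fderiv, ContinuousLinearMap.sum_apply]
  simp only [ContinuousLinearMap.add_apply, ContinuousLinearMap.smul_apply,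
    ContinuousLinearMap.comp_apply, ContinuousLinearMap.smulRight_apply, hT1,
    (th_fd hy j k _).2]
  simp only [hcurv_T0, hcurv_th0 hy, ite_smul, one_smul, zero_smul,
    Finset.sum_add_distrib, Finset.sum_ite_eq, Finset.mem_univ, if_true, neg_smul,
    Finset.sum_neg_distrib, Matrix.sub_apply, Matrix.sum_apply, Matrix.smul_apply, Pre.dM,
    Matrix.of_apply, sub_eq_add_neg]

theorem hcurv_om (hA : S.IsLC A om) (hy : y ∈ S.V p) (j k a : Fin 4) :
    cf (fr S p y) (fderiv ℝ (S.e p k) y (S.e p j y)) a -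
      cf (fr S p y) (fderiv ℝ (S.e p j) y (S.e p k y)) a = om p j k a y - om p k j a y := by
  obtain ⟨L, hL⟩ := cf_lin (fr S p y)
  have h1 : cf (fr S p y) (fderiv ℝ (S.e p k) y (S.e p j y)) -
      cf (fr S p y) (fderiv ℝ (S.e p j) y (S.e p k y)) =
      fun b => om p j k b y - om p k j b y := by
    rw [← hL, ← hL, ← map_sub, hA.tf p j k y hy, hL]
    exact cf_comb (e := fr S p y) (hcurv_det hy) _
  exact congrFun h1 a

theorem lap_F (hA : S.IsLC A om) (hy : y ∈ S.V p) (j k : Fin 4) :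
    (lap S A om p y).F j k 0 = S.Om A om p j k y := by
  have h : ∑ b, ((om p j k b y - om p k j b y : ℝ) : ℂ) • A p b y =
      ∑ a, cf (fr S p y) (fderiv ℝ (S.e p k) y (S.e p j y)) a • A p a y -
        ∑ a, cf (fr S p y) (fderiv ℝ (S.e p j) y (S.e p k y)) a • A p a y := by
    rw [← Finset.sum_sub_distrib]
    refine Finset.sum_congr rfl fun a _ => ?_
    rw [← sub_smul, hcurv_om hA hy, Complex.coe_smul]
  rw [Lap.F, Pre.Om, hcurv_d hA hy, hcurv_d hA hy, hcurv_A0 hy, hcurv_A0 hy, h]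
  abel

end Vale.Agent.P267I.H
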