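import Vale.Agent.P267I.Defs
import Vale.Agent.P267I.K0
import Vale.Agent.P267J.D

/-! The local index theorem: definitions for the glue. FROZEN. -/

open scoped Manifold ContDiff Topology Matrix.Norms.L2Operator
open Filter Matrix MeasureTheory Metric

noncomputable section

namespace Vale.Agent.P267I.H

open Vale.Agent.P267F Vale.Agent.P267J

variable {N : ℕ}

/-- The operator `- a j k ∇_j ∇_k + β j ∇_j + E`, `∇_j = ∂_j + A j`, and a density. -/
structure Lap (N : ℕ) where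
  a : Fin 4 → Fin 4 → V → ℝ
  β : Fin 4 → V → ℝ
  A : Fin 4 → V → Mat N
  E : V → Mat N
  ρ : V → ℝ

/-- The derivative of a matrix function along a coordinate. -/
def pdM (j : Fin 4) (F : V → Mat N) (z : V) : Mat N :=
  Matrix.of fun i m => pd j (fun w => F w i m) z

/-- The coefficients. -/
def Lap.op (L : Lap N) : Op N where
  a j k z := L.a j k z
  b j i m z := (if i = m then (L.β j z : ℂ) else 0) -
    ∑ k, ((L.a j k z + L.a k j z : ℝ) : ℂ) * L.A k z i m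
  c i m z := (-(∑ j, ∑ k, (L.a j k z : ℂ) • (pdM j (L.A k) z + L.A j z * L.A k z)) +
    ∑ j, (L.β j z : ℂ) • L.A j z + L.E z) i m
  ρ z := L.ρ z

/-- The curvature. -/
def Lap.F (L : Lap N) (j k : Fin 4) (z : V) : Mat N :=
  pdM j (L.A k) z - pdM k (L.A j) z + (L.A j z * L.A k z - L.A k z * L.A j z)

/-- The index density at the origin. -/
def Lap.den (L : Lap N) (C : Cl N) : ℝ :=
  (16 * Real.pi ^ 2)⁻¹ * (C.gam * ((1 / 2 : ℂ) • (L.E 0 * L.E 0) +
    (1 / 12 : ℂ) • ∑ j, ∑ k, L.F j k 0 * L.F j k 0)).trace.re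

/-- Smooth data on the ball, with values in the right spaces. -/
structure Lap.Ok (L : Lap N) (W g : Submodule ℝ (Mat N)) (r : ℝ) : Prop where
  a : ∀ j k, ContDiffOn ℝ ∞ (L.a j k) (ball 0 r)
  β : ∀ j, ContDiffOn ℝ ∞ (L.β j) (ball 0 r)
  A : ∀ j i m, ContDiffOn ℝ ∞ (fun z => L.A j z i m) (ball 0 r)
  E : ∀ i m, ContDiffOn ℝ ∞ (fun z => L.E z i m) (ball 0 r)
  ρ : ContDiffOn ℝ ∞ L.ρ (ball 0 r)
  sym : ∀ j k z, L.a j k z = L.a k j z
  a0 : ∀ j k, L.a j k 0 = if j = k then 1 else 0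
  ρ0 : L.ρ 0 = 1
  Ag : ∀ j, ∀ z ∈ ball (0 : V) r, L.A j z ∈ g
  EW : ∀ z ∈ ball (0 : V) r, L.E z ∈ W
  Est : ∀ z ∈ ball (0 : V) r, (L.E z)ᴴ = L.E z

/-- The columns of the projections `(1 ± γ) / 2`. -/
def Pc (C : Cl N) (ε : ℂ) (m : Fin N) : Fin N → ℂ := fun i => ((1 / 2 : ℂ) • (1 + ε • C.gam)) i m

/-- The supertrace of the coefficients. -/
def str (C : Cl N) (o : Op N) (k : ℕ) : ℝ := ∑ m, (alpha o (Pc C 1 m) k - alpha o (Pc C (-1) m) k)

/-- The pure algebra, in a gauge with `A 0 = 0`. -/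
def Alg0 (N : ℕ) : Prop :=
  ∀ (C : Cl N) (τ : Mat N →L[ℝ] ℝ) (W g : Submodule ℝ (Mat N)), K.Alg τ W g →
    (∀ Y, τ Y = (C.gam * Y).trace.re) → ∀ (r : ℝ) (L : Lap N), 0 < r → L.Ok W g r →
    (∀ j, L.A j 0 = 0) → ∀ k < 5, str C L.op k = if k = 4 then L.den C else 0

/-- The same in any gauge, given a spectral resolution. -/
def AlgPw (N : ℕ) : Prop :=
  ∀ (C : Cl N) (τ : Mat N →L[ℝ] ℝ) (W g : Submodule ℝ (Mat N)), K.Alg τ W g →
    (∀ Y, τ Y = (C.gam * Y).trace.re) → ∀ (r : ℝ) (L : Lap N), 0 < r → L.Ok W g r →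
    ∀ (J : Type) (lam : J → ℝ) (ψ : J → Fin N → V → ℂ), Spec r L.op lam ψ →
    ∀ k < 5, str C L.op k = if k = 4 then L.den C else 0

/-- The affine map given by a point and a frame. -/
def Tm (y : C2) (e : Fin 4 → C2) (z : V) : C2 := y + ∑ a, z a • e a

/-- The coordinates of a vector in a frame. -/
def cf (e : Fin 4 → C2) (w : C2) : Fin 4 → ℝ := co w ᵥ* (Matrix.of fun a b => co (e a) b)⁻¹

/-- The inverse of `Tm`. -/
def Ti (y : C2) (e : Fin 4 → C2) (w : C2) : V := WithLp.toLp 2 (cf e (w - y))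

variable {X : Type} [TopologicalSpace X] [ChartedSpace C2 X] [MeasurableSpace X] (S : Pre X N)

/-- The frame at a point of the chart. -/
def fr (p : X) (y : C2) : Fin 4 → C2 := fun a => S.e p a y

/-- The affine coordinates centred at `y`. -/
def T (p : X) (y : C2) : V → C2 := Tm y (fr S p y)

/-- The square of the Dirac operator in the affine coordinates centred at `y`. -/
def lap (A : X → Fin 4 → C2 → Mat N) (om : X → Fin 4 → Fin 4 → Fin 4 → C2 → ℝ) (p : X)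
    (y : C2) : Lap N where
  a j k z := ∑ c, cf (fr S p y) (S.e p c (T S p y z)) j * cf (fr S p y) (S.e p c (T S p y z)) k
  β j z := cf (fr S p y) (∑ c, (∑ k, om p c c k (T S p y z) • S.e p k (T S p y z) -
    fderiv ℝ (S.e p c) (T S p y z) (S.e p c (T S p y z)))) j
  A j z := ∑ a, cf (fr S p (T S p y z)) (S.e p j y) a • A p a (T S p y z)
  E z := S.E A om p (T S p y z)
  ρ z := fdet (fr S p y) * S.rho p (T S p y z)

/-- A function of the affine coordinates, seen in the chart. -/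
def inC (p : X) (y : C2) (v : Fin N → V → ℂ) (w : C2) : Vec N := fun i => v i (Ti y (fr S p y) w)

open Classical in
/-- The section given by a test function. -/
def sec (p : X) (y : C2) (v : Fin N → V → ℂ) (x : X) : Vec N :=
  if x ∈ S.W p then (S.U p x)ᴴ *ᵥ inC S p y v (chartAt C2 p x) else 0

/-- A section in the affine coordinates, times the density. -/
def psi (p : X) (y : C2) (s : X → Vec N) (i : Fin N) (z : V) : ℂ :=
  (fdet (fr S p y) * S.rho p (T S p y z) : ℝ) * S.loc p s (T S p y z) i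

/-- The ball of radius `r` is mapped into the chart domain. -/
def In (p : X) (y : C2) (r : ℝ) : Prop := y ∈ S.V p ∧ ∀ z ∈ ball (0 : V) r, T S p y z ∈ S.V p

/-- The pointwise squared norm. -/
def nsq (v : Vec N) : ℝ := ∑ i, ‖v i‖ ^ 2

/-- An orthonormal basis of smooth eigensections. -/
structure Bas (B : X → C2 → Mat N) {J : Type} (φ : J → X → Vec N) (lam eps : J → ℝ) : Prop where
  cnt : Countable J
  sm : ∀ j, S.Sm (φ j)
  nonneg : ∀ j, 0 ≤ lam j
  one : ∀ j, S.ip (φ j) (φ j) = 1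
  eig : ∀ j s, S.Sm s → S.ip (φ j) (S.D B (S.D B s)) = lam j * S.ip (φ j) s
  geig : ∀ j x, S.gam *ᵥ φ j x = (eps j : ℂ) • φ j x
  sgn : ∀ j, eps j = 1 ∨ eps j = -1
  pars : ∀ s, S.Sm s → HasSum (fun j => ‖S.ip (φ j) s‖ ^ 2) (S.ip s s).re
  ms : ∀ w : ℝ → ℝ, Summable (fun j => w (lam j)) →
    HasSum (fun j => eps j * w (lam j)) (w 0 * (S.ind B : ℝ))

/-- The algebraic facts about a Clifford connection. -/
def AlgOf (A : X → Fin 4 → C2 → Mat N) (om : X → Fin 4 → Fin 4 → Fin 4 → C2 → ℝ)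
    (τ : Mat N →L[ℝ] ℝ) (W g : Submodule ℝ (Mat N)) : Prop :=
  K.Alg τ W g ∧ (∀ Y, τ Y = (S.gam * Y).trace.re) ∧ ∀ p, ∀ z ∈ S.V p,
    (∀ k, A p k z ∈ g) ∧ S.E A om p z ∈ W ∧ (S.E A om p z)ᴴ = S.E A om p z

end Vale.Agent.P267I.H
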