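import Vale.Agent.P267I.HCurv
import Vale.Agent.P267I.LichS

/-! The density. Real: γ and E are Hermitian (gam_herm, hA.E_star in LichS), Om is skew (hA.Om_skew), trace_conjTranspose, trace_mul_comm. Continuity: Om_sm, E_sm. -/

open scoped Manifold ContDiff Topology Matrix.Norms.L2Operator ComplexConjugate
open Filter Matrix MeasureTheory Metric

noncomputable section

namespace Vale.Agent.P267I.H

open Vale.Agent.P267F Vale.Agent.P267J

set_option linter.unusedSectionVars false

variable {X : Type} [TopologicalSpace X] [ChartedSpace C2 X] [MeasurableSpace X] [BorelSpace X]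
  {N : ℕ} {S : Pre X N} {A : X → Fin 4 → C2 → Mat N} {om : X → Fin 4 → Fin 4 → Fin 4 → C2 → ℝ}
  {p : X} {y : C2} {r : ℝ} {e : Fin 4 → C2} {J : Type} {φ : J → X → Vec N} {lam eps : J → ℝ}

theorem hden_tr {G M : Mat N} (hG : Gᴴ = G) (hM : Mᴴ = M) :
    (((G * M).trace.re : ℝ) : ℂ) = (G * M).trace := by
  refine Complex.conj_eq_iff_re.1 ?_
  rw [starRingEnd_apply, ← trace_conjTranspose, conjTranspose_mul, hG, hM, trace_mul_comm]

theorem hden_k (G : Mat N) : Continuous fun q : Mat N × (Fin 4 → Fin 4 → Mat N) =>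
    (16 * Real.pi ^ 2 : ℂ)⁻¹ * (G * ((1 / 2 : ℂ) • (q.1 * q.1) +
      (1 / 12 : ℂ) • ∑ j, ∑ k, q.2 j k * q.2 j k)).trace := by
  have h : ∀ j k, Continuous fun q : Mat N × (Fin 4 → Fin 4 → Mat N) => q.2 j k := fun j k =>
    (continuous_apply k).comp ((continuous_apply j).comp continuous_snd)
  have h1 : Continuous fun q : Mat N × (Fin 4 → Fin 4 → Mat N) => q.1 * q.1 :=
    continuous_fst.matrix_mul continuous_fst
  have h2 : Continuous fun q : Mat N × (Fin 4 → Fin 4 → Mat N) => ∑ j, ∑ k, q.2 j k * q.2 j k :=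
    continuous_finsetSum _ fun j _ => continuous_finsetSum _ fun k _ => (h j k).matrix_mul (h j k)
  have h3 : Continuous fun q : Mat N × Mat N => (1 / 2 : ℂ) • q.1 + (1 / 12 : ℂ) • q.2 :=
    (continuous_fst.const_smul (1 / 2 : ℂ)).add (continuous_snd.const_smul (1 / 12 : ℂ))
  have h4 : Continuous fun M : Mat N => (16 * Real.pi ^ 2 : ℂ)⁻¹ * (G * M).trace :=
    continuous_const.mul (continuous_const.matrix_mul continuous_id).matrix_trace
  exact (h4.comp (h3.comp (h1.prodMk h2))).congr fun q => by simp only [Function.comp_apply]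

theorem hden_herm (hA : S.IsLC A om) (hy : y ∈ S.V p) :
    ((1 / 2 : ℂ) • (S.E A om p y * S.E A om p y) +
      (1 / 12 : ℂ) • ∑ j, ∑ k, S.Om A om p j k y * S.Om A om p j k y)ᴴ =
    (1 / 2 : ℂ) • (S.E A om p y * S.E A om p y) +
      (1 / 12 : ℂ) • ∑ j, ∑ k, S.Om A om p j k y * S.Om A om p j k y := by
  simp only [conjTranspose_add, conjTranspose_smul, conjTranspose_sum, conjTranspose_mul,
    hA.E_star hy, hA.Om_skew hy, neg_mul_neg, star_div₀, star_one, star_ofNat]

theorem hden_eq (hA : S.IsLC A om) (hy : y ∈ S.V p) : S.dens A om p y =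
    (((16 * Real.pi ^ 2)⁻¹ * (S.gam * ((1 / 2 : ℂ) • (S.E A om p y * S.E A om p y) +
      (1 / 12 : ℂ) • ∑ j, ∑ k, S.Om A om p j k y * S.Om A om p j k y)).trace.re : ℝ) : ℂ) := by
  rw [Complex.ofReal_mul, hden_tr (gam_herm S.toCl) (hden_herm hA hy), Pre.dens]
  push_cast
  rfl

theorem dens_re (hA : S.IsLC A om) (hy : y ∈ S.V p) :
    ((S.dens A om p y).re : ℂ) = S.dens A om p y := by
  rw [hden_eq hA hy, Complex.ofReal_re]

theorem den_eq (hA : S.IsLC A om) (hy : y ∈ S.V p) :
    (lap S A om p y).den S.toCl = (S.dens A om p y).re := by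
  have e : (lap S A om p y).E 0 = S.E A om p y := congrArg (S.E A om p) (Tm_zero y _)
  rw [hden_eq hA hy, Complex.ofReal_re, Lap.den, e]
  simp only [lap_F hA hy]

theorem dens_cont (hA : S.IsLC A om) (p : X) : ContinuousOn (S.dens A om p) (S.V p) := by
  have c1 : ContinuousOn (S.E A om p) (S.V p) :=
    continuousOn_pi.2 fun i => continuousOn_pi.2 fun m => (E_sm hA p i m).continuousOn
  have c2 : ContinuousOn (fun z (j k : Fin 4) => S.Om A om p j k z) (S.V p) :=
    continuousOn_pi.2 fun j => continuousOn_pi.2 fun k => continuousOn_pi.2 fun i =>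
      continuousOn_pi.2 fun m => (Om_sm hA p j k i m).continuousOn
  exact ((hden_k S.gam).comp_continuousOn (c1.prodMk c2)).congr fun z _ => by
    simp only [Pre.dens, Function.comp_apply]

end Vale.Agent.P267I.H
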