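import Vale.Agent.P267I.HD

/-! The limit. I - ∑ ∫ ψ a d a = ∫ ∑ a, ψ a (G s - d a), of absolute value ≤ const * s (ψ a bounded; zero off the support); let s → 0. -/

open scoped Manifold ContDiff Topology Matrix.Norms.L2Operator ComplexConjugate
open Filter Matrix MeasureTheory Metric

noncomputable section

namespace Vale.Agent.P267I.H

open Vale.Agent.P267F Vale.Agent.P267J

set_option linter.unusedSectionVars false

variable {X : Type} [TopologicalSpace X] [ChartedSpace C2 X] [MeasurableSpace X] [BorelSpace X]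
  {N : ℕ} {S : Pre X N} {A : X → Fin 4 → C2 → Mat N} {om : X → Fin 4 → Fin 4 → Fin 4 → C2 → ℝ}
  {p : X} {y : C2} {r : ℝ} {e : Fin 4 → C2} {J : Type} {φ : J → X → Vec N} {lam eps : J → ℝ}

theorem lim_part [CompactSpace X] {μ : Measure X} [IsFiniteMeasure μ] {l : ℕ}
    {ψ d : Fin l → X → ℝ} (hψ : ∀ a, Continuous (ψ a)) (h1 : ∀ x, ∑ a, ψ a x = 1)
    (hd : ∀ a, Integrable (fun x => ψ a x * d a x) μ) {G : ℝ → X → ℝ} {I : ℝ}
    (hG : ∀ s ∈ Set.Ioc (0 : ℝ) 1, Integrable (G s) μ ∧ ∫ x, G s x ∂μ = I)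
    (hC : ∀ a, ∃ C : ℝ, ∀ x ∈ tsupport (ψ a), ∀ s ∈ Set.Ioc (0 : ℝ) 1, |G s x - d a x| ≤ C * s) :
    I = ∑ a, ∫ x, ψ a x * d a x ∂μ := by
  choose C hC using hC
  have hB : ∀ a, ∃ B : ℝ, ∀ x, ‖ψ a x‖ ≤ B := fun a => by
    obtain ⟨B, hB⟩ := isCompact_univ.exists_bound_of_continuousOn (hψ a).continuousOn
    exact ⟨B, fun x => hB x (Set.mem_univ x)⟩
  choose B hB using hB
  have key : ∀ s ∈ Set.Ioc (0 : ℝ) 1, ‖I - ∑ a, ∫ x, ψ a x * d a x ∂μ‖ ≤
      (∑ a, |B a| * |C a|) * s * μ.real Set.univ := fun s hs => by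
    rw [← (hG s hs).2, ← integral_finset_sum _ fun a _ => hd a,
      ← integral_sub (hG s hs).1 (integrable_finset_sum _ fun a _ => hd a)]
    refine norm_integral_le_of_norm_le_const (.of_forall fun x => ?_)
    have e : G s x - ∑ a, ψ a x * d a x = ∑ a, ψ a x * (G s x - d a x) := by
      simp only [mul_sub, Finset.sum_sub_distrib, ← Finset.sum_mul, h1, one_mul]
    rw [e, Finset.sum_mul]
    refine (norm_sum_le _ _).trans (Finset.sum_le_sum fun a _ => ?_)
    by_cases hx : x ∈ tsupport (ψ a)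
    · rw [norm_mul, mul_assoc]
      exact mul_le_mul ((hB a x).trans (le_abs_self _)) ((hC a x hx s hs).trans
        (mul_le_mul_of_nonneg_right (le_abs_self _) hs.1.le)) (norm_nonneg _) (abs_nonneg _)
    · rw [image_eq_zero_of_notMem_tsupport hx, zero_mul, norm_zero]
      exact mul_nonneg (by positivity) hs.1.le
  have lim : Tendsto (fun s : ℝ => (∑ a, |B a| * |C a|) * s * μ.real Set.univ) (𝓝[>] 0) (𝓝 0) := by
    have c : Continuous fun s : ℝ => (∑ a, |B a| * |C a|) * s * μ.real Set.univ := by fun_prop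
    simpa using (c.tendsto 0).mono_left nhdsWithin_le_nhds
  exact sub_eq_zero.1 (norm_le_zero_iff.1 (ge_of_tendsto lim
    (mem_of_superset (Ioc_mem_nhdsGT zero_lt_one) key)))

end Vale.Agent.P267I.H
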