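import Mathlib

/-! Conjugation by an exponential preserves invariant closed subspaces. -/

namespace Vale.Agent.P267I.K

open NormedSpace

variable {M : Type*} [NormedRing M] [NormedAlgebra ℝ M] [CompleteSpace M]

theorem kad_left (X Y : M) : exp (ContinuousLinearMap.mul ℝ M X) Y = exp X * Y := by
  have h1 := (ContinuousLinearMap.apply ℝ M Y).hasSum
    (exp_series_hasSum_exp' (𝕂 := ℝ) (ContinuousLinearMap.mul ℝ M X))
  have h2 := (exp_series_hasSum_exp' (𝕂 := ℝ) X).mul_right Y
  refine h1.unique (h2.congr_fun fun n => ?_)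
  have : ∀ n : ℕ, (ContinuousLinearMap.mul ℝ M X ^ n) Y = X ^ n * Y := fun n => by
    induction n with
    | zero => simp
    | succ n ih => rw [pow_succ', mul_apply_eq_comp, ih, pow_succ', mul_assoc]; rfl
  simp [this]

theorem kad_right (X Y : M) : exp ((ContinuousLinearMap.mul ℝ M).flip X) Y = Y * exp X := by
  have h1 := (ContinuousLinearMap.apply ℝ M Y).hasSum
    (exp_series_hasSum_exp' (𝕂 := ℝ) ((ContinuousLinearMap.mul ℝ M).flip X))
  have h2 := (exp_series_hasSum_exp' (𝕂 := ℝ) X).mul_left Y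
  refine h1.unique (h2.congr_fun fun n => ?_)
  have : ∀ n : ℕ, ((ContinuousLinearMap.mul ℝ M).flip X ^ n) Y = Y * X ^ n := fun n => by
    induction n with
    | zero => simp
    | succ n ih => rw [pow_succ', mul_apply_eq_comp, ih, pow_succ, ← mul_assoc]; rfl
  simp [this]

theorem kad_exp_mem {W : Submodule ℝ M} (hW : IsClosed (W : Set M)) {D : M →L[ℝ] M}
    (hD : ∀ w ∈ W, D w ∈ W) {Y : M} (hY : Y ∈ W) : exp D Y ∈ W := by
  have h1 := (ContinuousLinearMap.apply ℝ M Y).hasSum (exp_series_hasSum_exp' (𝕂 := ℝ) D)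
  have : ∀ n : ℕ, (D ^ n) Y ∈ W := fun n => by
    induction n with
    | zero => simpa using hY
    | succ n ih => rw [pow_succ', mul_apply_eq_comp]; exact hD _ ih
  exact hW.mem_of_tendsto h1 (Filter.Eventually.of_forall fun s =>
    W.sum_mem fun n _ => W.smul_mem _ (this n))

/-- Conjugation by `exp X` preserves a closed subspace that is stable under the bracket with `X`. -/
theorem kad_mem {W : Submodule ℝ M} (hW : IsClosed (W : Set M)) {X : M}
    (hX : ∀ w ∈ W, X * w - w * X ∈ W) {Y : M} (hY : Y ∈ W) : exp X * Y * exp (-X) ∈ W := by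
  let _ : NormedAlgebra ℚ (M →L[ℝ] M) := NormedAlgebra.restrictScalars ℚ ℝ _
  have hc : Commute (ContinuousLinearMap.mul ℝ M X) ((ContinuousLinearMap.mul ℝ M).flip (-X)) := by
    ext z
    simp [mul_assoc]
  have h := kad_exp_mem hW (D := ContinuousLinearMap.mul ℝ M X +
    (ContinuousLinearMap.mul ℝ M).flip (-X)) (fun w hw => by
      simpa [sub_eq_add_neg] using hX w hw) hY
  rwa [exp_add_of_commute hc, mul_apply_eq_comp, kad_left, kad_right,
    ← mul_assoc] at h

theorem kad_mem_smul {W : Submodule ℝ M} (hW : IsClosed (W : Set M)) {X : M}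
    (hX : ∀ w ∈ W, X * w - w * X ∈ W) (t : ℝ) {Y : M} (hY : Y ∈ W) :
    exp (t • X) * Y * exp (-(t • X)) ∈ W :=
  kad_mem hW (fun w hw => by
    rw [smul_mul_assoc, mul_smul_comm, ← smul_sub]
    exact W.smul_mem _ (hX w hw)) hY

end Vale.Agent.P267I.K
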