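import Vale.Agent.P267I.HD
import Vale.Agent.P267I.KAd

/-! Matrix calculus for the change of gauge. -/

open scoped ContDiff Topology Matrix.Norms.L2Operator ComplexConjugate
open Filter Matrix MeasureTheory Metric

noncomputable section

namespace Vale.Agent.P267I.H

open Vale.Agent.P267J

variable {N : ℕ}

theorem hg_uniq (n : ℕ) : ∀ (d : ℕ → ℝ) (C : ℝ),
    (∀ s ∈ Set.Ioc (0 : ℝ) 1, |∑ k ∈ Finset.range n, s ^ k * d k| ≤ C * s ^ n) →
    ∀ k < n, d k = 0 := by
  induction n with
  | zero => intro d C _ k hk; omega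
  | succ n ih =>
    intro d C h
    have hm : ∀ᶠ s in 𝓝[>] (0 : ℝ), s ∈ Set.Ioc (0 : ℝ) 1 := Ioc_mem_nhdsGT one_pos
    have h0 : d 0 = 0 := by
      have t1 : Tendsto (fun s : ℝ => |∑ k ∈ Finset.range (n + 1), s ^ k * d k|) (𝓝[>] 0)
          (𝓝 |∑ k ∈ Finset.range (n + 1), (0 : ℝ) ^ k * d k|) :=
        (Continuous.tendsto (by fun_prop) 0).mono_left nhdsWithin_le_nhds
      have t2 : Tendsto (fun s : ℝ => C * s ^ (n + 1)) (𝓝[>] 0) (𝓝 (C * 0 ^ (n + 1))) :=
        (Continuous.tendsto (by fun_prop) 0).mono_left nhdsWithin_le_nhds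
      have := le_of_tendsto_of_tendsto t1 t2 (hm.mono h)
      rw [Finset.sum_range_succ'] at this
      simpa using this
    have h1 := ih (fun k => d (k + 1)) C fun s hs => by
      have := h s hs
      rw [Finset.sum_range_succ', h0, mul_zero, add_zero] at this
      have e : ∑ k ∈ Finset.range n, s ^ (k + 1) * d (k + 1) =
          s * ∑ k ∈ Finset.range n, s ^ k * d (k + 1) := by
        rw [Finset.mul_sum]
        exact Finset.sum_congr rfl fun k _ => by ring
      rw [e, abs_mul, abs_of_pos hs.1, pow_succ, ← mul_assoc, mul_comm _ s] at this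
      exact le_of_mul_le_mul_left this hs.1
    intro k hk
    cases k with
    | zero => exact h0
    | succ k => exact h1 k (by omega)

theorem hg_sb {f : V → ℂ} {r : ℝ} (hr : 0 < r) (h : ContDiffOn ℝ ∞ f (ball 0 r)) :
    ∀ᶠ M in atTop, Sb M (r / 2) f := by
  have hs : closedBall (0 : V) (r / 2) ⊆ ball 0 r := closedBall_subset_ball (by linarith)
  have h1 : ∀ k : Fin 6, ∀ᶠ M in atTop, ∀ z ∈ ball (0 : V) (r / 2),
      ‖iteratedFDeriv ℝ k f z‖ ≤ M := fun k => by
    have hc : ContinuousOn (iteratedFDeriv ℝ k f) (ball 0 r) :=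
      (h.continuousOn_iteratedFDerivWithin (m := k) (by exact_mod_cast le_top)
        isOpen_ball.uniqueDiffOn).congr fun z hz =>
          (iteratedFDerivWithin_of_isOpen k isOpen_ball hz).symm
    obtain ⟨C, hC⟩ := (isCompact_closedBall (0 : V) (r / 2)).exists_bound_of_continuousOn
      (hc.mono hs)
    filter_upwards [eventually_ge_atTop C] with M hM z hz
    exact (hC z (ball_subset_closedBall hz)).trans hM
  filter_upwards [eventually_all.2 h1] with M hM
  exact ⟨h.mono (ball_subset_closedBall.trans hs), fun k hk => hM ⟨k, by omega⟩⟩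

theorem hg_pc (C : Cl N) {ε : ℂ} (hε : ‖ε‖ ≤ 1) (m i : Fin N) : ‖Pc C ε m i‖ ≤ 1 := by
  have hc : ∀ a, C.c a ∈ Matrix.unitaryGroup (Fin N) ℂ := fun a => by
    rw [Matrix.mem_unitaryGroup_iff', star_eq_conjTranspose, C.skew]
    have h := C.rel a a
    rw [if_pos rfl, ← two_smul ℂ, neg_smul, ← smul_neg] at h
    rw [neg_mul, smul_right_injective _ (two_ne_zero (α := ℂ)) h, neg_neg]
  have hγ : C.gam ∈ Matrix.unitaryGroup (Fin N) ℂ :=
    mul_mem (mul_mem (mul_mem (hc 0) (hc 1)) (hc 2)) (hc 3)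
  have h1 := entry_norm_bound_of_unitary hγ i m
  have h2 : ‖(1 : Mat N) i m‖ ≤ 1 := entry_norm_bound_of_unitary (one_mem _) i m
  have h3 : ‖ε * C.gam i m‖ ≤ 1 := by
    rw [norm_mul]
    exact mul_le_one₀ hε (norm_nonneg _) h1
  have h4 := norm_add_le ((1 : Mat N) i m) (ε * C.gam i m)
  simp only [Pc, Matrix.smul_apply, Matrix.add_apply, smul_eq_mul, norm_mul]
  norm_num
  linarith

/-- Entrywise differentiable. -/
def Df (F : V → Mat N) (z : V) : Prop := ∀ i m, DifferentiableAt ℝ (fun w => F w i m) z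

/-- Entrywise smooth. -/
def Sx (F : V → Mat N) (s : Set V) : Prop := ∀ i m, ContDiffOn ℝ ∞ (fun w => F w i m) s

variable {F G : V → Mat N} {z : V} {s : Set V}

theorem Df.add (hF : Df F z) (hG : Df G z) : Df (fun w => F w + G w) z :=
  fun i m => (hF i m).add (hG i m)

theorem Df.mul (hF : Df F z) (hG : Df G z) : Df (fun w => F w * G w) z := fun i m => by
  simp only [Matrix.mul_apply]
  exact DifferentiableAt.fun_sum fun l _ => (hF i l).mul (hG l m)

theorem Sx.add (hF : Sx F s) (hG : Sx G s) : Sx (fun w => F w + G w) s :=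
  fun i m => (hF i m).add (hG i m)

theorem Sx.mul (hF : Sx F s) (hG : Sx G s) : Sx (fun w => F w * G w) s := fun i m => by
  simp only [Matrix.mul_apply]
  exact ContDiffOn.sum fun l _ => (hF i l).mul (hG l m)

theorem Sx.df (hF : Sx F s) (hs : s ∈ 𝓝 z) : Df F z :=
  fun i m => ((hF i m).contDiffAt hs).differentiableAt (by simp)

theorem Sx.pdM (hF : Sx F s) (hs : IsOpen s) (j : Fin 4) : Sx (pdM j F) s := fun i m =>
  ((hF i m).fderiv_of_isOpen hs (m := ∞) (by simp)).clm_apply contDiffOn_const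

theorem pdM_add (hF : Df F z) (hG : Df G z) (j : Fin 4) :
    pdM j (fun w => F w + G w) z = pdM j F z + pdM j G z := by
  ext i m
  simp only [pdM, pd, Matrix.of_apply, Matrix.add_apply]
  rw [fderiv_fun_add (hF i m) (hG i m)]
  rfl

theorem pdM_mul (hF : Df F z) (hG : Df G z) (j : Fin 4) :
    pdM j (fun w => F w * G w) z = pdM j F z * G z + F z * pdM j G z := by
  ext i m
  simp only [pdM, pd, Matrix.of_apply, Matrix.add_apply, Matrix.mul_apply]
  rw [fderiv_fun_sum fun l _ => (hF i l).fun_mul (hG l m), ← Finset.sum_add_distrib,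
    _root_.sum_apply]
  refine Finset.sum_congr rfl fun l _ => ?_
  rw [fderiv_fun_mul (hF i l) (hG l m)]
  simp only [_root_.add_apply, _root_.smul_apply, smul_eq_mul]
  ring

theorem pdM_const (X : Mat N) (j : Fin 4) : pdM j (fun _ => X) z = 0 := by
  ext i m
  simp [pdM, pd]

theorem hg_exp {M : Type} [NormedRing M] [NormedAlgebra ℝ M] [CompleteSpace M] (X : M)
    (l : M →L[ℝ] ℂ) (a : Fin 4) :
    ContDiff ℝ ∞ (fun z : V => l (NormedSpace.exp (z a • X))) ∧ ∀ j z,
      pd j (fun z : V => l (NormedSpace.exp (z a • X))) z =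
        (if j = a then 1 else 0) * l (NormedSpace.exp (z a • X) * X) := by
  let _ : NormedAlgebra ℚ M := NormedAlgebra.restrictScalars ℚ ℝ _
  have he : ContDiff ℝ ∞ (NormedSpace.exp : M → M) :=
    contDiff_iff_contDiffAt.2 fun x => (NormedSpace.exp_analytic x).contDiffAt
  have hp : ContDiff ℝ ∞ fun z : V => z a := (EuclideanSpace.proj (𝕜 := ℝ) a).contDiff
  refine ⟨l.contDiff.comp (he.comp (hp.smul contDiff_const)), fun j z => ?_⟩
  have h0 : HasFDerivAt (fun z : V => z a) (EuclideanSpace.proj (𝕜 := ℝ) a) z :=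
    (EuclideanSpace.proj (𝕜 := ℝ) a : V →L[ℝ] ℝ).hasFDerivAt
  have h := HasFDerivAt.comp (f := fun z : V => z a) z (l.hasFDerivAt.comp_hasDerivAt _
    (hasDerivAt_exp_smul_const (𝕂 := ℝ) X (z a))).hasFDerivAt h0
  unfold pd
  rw [show (fun z : V => l (NormedSpace.exp (z a • X))) =
    (l ∘ fun u : ℝ => NormedSpace.exp (u • X)) ∘ fun z : V => z a from rfl, h.fderiv]
  by_cases hj : j = a
  · simp [hj]
  · simp [hj, Ne.symm hj]

/-- The exponential gauge. -/
def ex (X : Mat N) (a : Fin 4) (z : V) : Mat N := NormedSpace.exp (z a • X)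

theorem ex_sx (X : Mat N) (a : Fin 4) (s : Set V) : Sx (ex X a) s := fun i m =>
  (hg_exp X (Matrix.entryLinearMap ℝ ℂ i m).toContinuousLinearMap a).1.contDiffOn

theorem ex_df (X : Mat N) (a : Fin 4) (z : V) : Df (ex X a) z :=
  (ex_sx X a Set.univ).df univ_mem

theorem ex_pd (X : Mat N) (a j : Fin 4) (z : V) :
    pdM j (ex X a) z = (if j = a then (1 : ℂ) else 0) • (ex X a z * X) := by
  ext i m
  exact (hg_exp X (Matrix.entryLinearMap ℝ ℂ i m).toContinuousLinearMap a).2 j z

theorem ex_zero (X : Mat N) (a : Fin 4) : ex X a 0 = 1 := by simp [ex]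

theorem ex_inv (X : Mat N) (a : Fin 4) (z : V) : ex X a z * ex (-X) a z = 1 := by
  let _ : NormedAlgebra ℚ (Mat N) := NormedAlgebra.restrictScalars ℚ ℝ _
  unfold ex
  rw [← NormedSpace.exp_add_of_commute (((Commute.refl X).neg_right.smul_left _).smul_right _),
    ← smul_add]
  simp

theorem ex_star {X : Mat N} (hX : star X = -X) (a : Fin 4) (z : V) :
    (ex X a z)ᴴ = ex (-X) a z := by
  unfold ex
  rw [← star_eq_conjTranspose, NormedSpace.star_exp, star_smul, hX]
  simp

theorem ex_mem {W : Submodule ℝ (Mat N)} (hW : IsClosed (W : Set (Mat N))) {X : Mat N}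
    (hX : ∀ w ∈ W, X * w - w * X ∈ W) (a : Fin 4) (z : V) {Y : Mat N} (hY : Y ∈ W) :
    ex X a z * Y * ex (-X) a z ∈ W := by
  have := K.kad_mem_smul hW hX (z a) hY
  rwa [← smul_neg] at this

end Vale.Agent.P267I.H
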