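import Vale.Agent.P267I.HLin2

/-! The joint domain. S.e_sm, V_open, ContinuousOn.isOpen_inter_preimage; generalized_tube_lemma for K ×ˢ {0} (Tm_zero). -/

open scoped Manifold ContDiff Topology Matrix.Norms.L2Operator ComplexConjugate
open Filter Matrix MeasureTheory Metric

noncomputable section

namespace Vale.Agent.P267I.H

open Vale.Agent.P267F Vale.Agent.P267J

set_option linter.unusedSectionVars false

variable {X : Type} [TopologicalSpace X] [ChartedSpace C2 X] [MeasurableSpace X] [BorelSpace X]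
  {N : ℕ} {S : Pre X N} {A : X → Fin 4 → C2 → Mat N} {om : X → Fin 4 → Fin 4 → Fin 4 → C2 → ℝ}
  {p : X} {y : C2} {r : ℝ} {e : Fin 4 → C2} {J : Type} {φ : J → X → Vec N} {lam eps : J → ℝ}

/-- The joint domain. -/
def Dom (S : Pre X N) (p : X) : Set (C2 × V) := {q | q.1 ∈ S.V p ∧ T S p q.1 q.2 ∈ S.V p}

theorem hin_open (S : Pre X N) (p : X) : IsOpen (S.V p) :=
  (chartAt C2 p).isOpen_image_of_subset_source (S.W_open p) (S.W_sub p)

theorem hin_mul {U : Set C2} {F G : C2 → Mat N} (hF : ∀ i m, ContDiffOn ℝ ∞ (fun z => F z i m) U)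
    (hG : ∀ i m, ContDiffOn ℝ ∞ (fun z => G z i m) U) (i m : Fin N) :
    ContDiffOn ℝ ∞ (fun z => (F z * G z) i m) U := by
  simp only [Matrix.mul_apply]
  exact ContDiffOn.sum fun l _ => (hF i l).mul (hG l m)

theorem T_sm (S : Pre X N) (p : X) :
    ContDiffOn ℝ ∞ (fun q : C2 × V => T S p q.1 q.2) {q | q.1 ∈ S.V p} := by
  have h : ∀ a, ContDiffOn ℝ ∞ (fun q : C2 × V => q.2 a • S.e p a q.1) {q | q.1 ∈ S.V p} :=
    fun a => (((EuclideanSpace.proj a : V →L[ℝ] ℝ).contDiff.comp contDiff_snd).contDiffOn).smul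
      ((S.e_sm p a).comp contDiffOn_fst fun _ hq => hq)
  exact contDiffOn_fst.add (ContDiffOn.sum fun a _ => h a)

theorem dom_open (S : Pre X N) (p : X) : IsOpen (Dom S p) := by
  exact (T_sm S p).continuousOn.isOpen_inter_preimage ((hin_open S p).preimage continuous_fst)
    (hin_open S p)

theorem dom_tube {K : Set C2} (hK : IsCompact K) (hV : K ⊆ S.V p) :
    ∃ r > 0, K ×ˢ closedBall (0 : V) r ⊆ Dom S p := by
  obtain ⟨u, v, -, hv, h1, h2, h3⟩ := generalized_tube_lemma hK (isCompact_singleton (x := (0 : V)))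
    (dom_open S p) (by
      rintro ⟨y, z⟩ ⟨hy, rfl⟩
      refine ⟨hV hy, ?_⟩
      have : T S p y 0 = y := by simp [T, Tm]
      exact this.symm ▸ hV hy)
  obtain ⟨r, hr, h4⟩ := Metric.nhds_basis_closedBall.mem_iff.1 (hv.mem_nhds (h2 rfl))
  exact ⟨r, hr, (Set.prod_mono h1 h4).trans h3⟩

theorem dM_sm {U : Set C2} (hU : IsOpen U) {F : C2 → Mat N} {u : C2 → C2}
    (hF : ∀ i m, ContDiffOn ℝ ∞ (fun z => F z i m) U) (hu : ContDiffOn ℝ ∞ u U) (i m : Fin N) :
    ContDiffOn ℝ ∞ (fun z => Pre.dM F z (u z) i m) U := by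
  exact ((hF i m).fderiv_of_isOpen hU (by simp)).clm_apply hu

theorem Om_sm (hA : S.IsLC A om) (p : X) (j k : Fin 4) (i m : Fin N) :
    ContDiffOn ℝ ∞ (fun z => S.Om A om p j k z i m) (S.V p) := by
  have o := hin_open S p
  have h1 := dM_sm o (hA.A_sm p k) (S.e_sm p j) i m
  have h2 := dM_sm o (hA.A_sm p j) (S.e_sm p k) i m
  have h3 := hin_mul (hA.A_sm p j) (hA.A_sm p k) i m
  have h4 := hin_mul (hA.A_sm p k) (hA.A_sm p j) i m
  have h5 : ∀ b, ContDiffOn ℝ ∞
      (fun z => ((om p j k b z - om p k j b z : ℝ) : ℂ) * A p b z i m) (S.V p) := fun b =>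
    (Complex.ofRealCLM.contDiff.comp_contDiffOn ((hA.om_sm p j k b).sub (hA.om_sm p k j b))).mul
      (hA.A_sm p b i m)
  refine (((h1.sub h2).add (h3.sub h4)).sub (ContDiffOn.sum (s := Finset.univ)
    fun b _ => h5 b)).congr fun z _ => ?_
  simp only [Pre.Om, Matrix.sub_apply, Matrix.add_apply, Matrix.sum_apply, Matrix.smul_apply,
    smul_eq_mul]

theorem E_sm (hA : S.IsLC A om) (p : X) (i m : Fin N) :
    ContDiffOn ℝ ∞ (fun z => S.E A om p z i m) (S.V p) := by
  have h : ∀ j k, ContDiffOn ℝ ∞ (fun z => (S.c j * S.c k * S.Om A om p j k z) i m) (S.V p) :=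
    fun j k => hin_mul (F := fun _ => S.c j * S.c k) (fun _ _ => contDiffOn_const)
      (Om_sm hA p j k) i m
  refine ((ContDiffOn.sum (s := Finset.univ) fun j _ => ContDiffOn.sum (s := Finset.univ)
    fun k _ => h j k).const_smul (1 / 2 : ℂ)).congr fun z _ => ?_
  simp only [Pre.E, Matrix.sum_apply, Matrix.smul_apply]

end Vale.Agent.P267I.H
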