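import Vale.Agent.P267I.HD

/-! Sum and integral. f j is integrable (Integrable.of_integral_ne_zero); finite sums of w are ≤ C μ(X) (summable_of_sum_le, Summable.sum_le_tsum); hasSum_integral_of_summable_integral_norm; measurability of the sum: limit of measurable functions, or AEStronglyMeasurable from integrable_of_summable_norm type lemmas, bounded by C. -/

open scoped Manifold ContDiff Topology Matrix.Norms.L2Operator ComplexConjugate
open Filter Matrix MeasureTheory Metric

noncomputable section

namespace Vale.Agent.P267I.H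

open Vale.Agent.P267F Vale.Agent.P267J

set_option linter.unusedSectionVars false

variable {X : Type} [TopologicalSpace X] [ChartedSpace C2 X] [MeasurableSpace X] [BorelSpace X]
  {N : ℕ} {S : Pre X N} {A : X → Fin 4 → C2 → Mat N} {om : X → Fin 4 → Fin 4 → Fin 4 → C2 → ℝ}
  {p : X} {y : C2} {r : ℝ} {e : Fin 4 → C2} {J : Type} {φ : J → X → Vec N} {lam eps : J → ℝ}

theorem int_swap {μ : Measure X} [IsFiniteMeasure μ] [Countable J] {f : J → X → ℝ}
    (hf : ∀ j, Continuous (f j)) (h0 : ∀ j x, 0 ≤ f j x) (h1 : ∀ j, ∫ x, f j x ∂μ = 1)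
    {w : J → ℝ} (hw : ∀ j, 0 ≤ w j) (he : ∀ j, eps j = 1 ∨ eps j = -1) {C : ℝ}
    (hs : ∀ x, Summable fun j => w j * f j x) (hC : ∀ x, ∑' j, w j * f j x ≤ C) :
    Summable w ∧ Integrable (fun x => ∑' j, eps j * w j * f j x) μ ∧
      ∫ x, ∑' j, eps j * w j * f j x ∂μ = ∑' j, eps j * w j := by
  have hi : ∀ j, Integrable (f j) μ := fun j =>
    Integrable.of_integral_ne_zero (by rw [h1 j]; exact one_ne_zero)
  have hw' : Summable w := by
    refine summable_of_sum_le hw (c := C * μ.real Set.univ) fun s => ?_
    calc ∑ j ∈ s, w j = ∫ x, ∑ j ∈ s, w j * f j x ∂μ := by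
          rw [integral_finsetSum _ fun j _ => (hi j).const_mul _]
          refine Finset.sum_congr rfl fun j _ => ?_
          rw [integral_const_mul, h1, mul_one]
      _ ≤ ∫ _x, C ∂μ :=
          integral_mono (integrable_finsetSum _ fun j _ => (hi j).const_mul _)
            (integrable_const C) fun x =>
            ((hs x).sum_le_tsum s fun j _ => mul_nonneg (hw j) (h0 j x)).trans (hC x)
      _ = C * μ.real Set.univ := by rw [integral_const, smul_eq_mul, mul_comm]
  have hF : ∀ j, Integrable (fun x => eps j * w j * f j x) μ := fun j => (hi j).const_mul _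
  have hn : ∀ j x, ‖eps j * w j * f j x‖ = w j * f j x := by
    intro j x
    rw [norm_mul, norm_mul, Real.norm_of_nonneg (hw j), Real.norm_of_nonneg (h0 j x)]
    rcases he j with h | h <;> simp [h]
  have hN : ∀ j, ∫ x, ‖eps j * w j * f j x‖ ∂μ = w j := by
    intro j
    simp only [hn]
    rw [integral_const_mul, h1, mul_one]
  have hS := hasSum_integral_of_summable_integral_norm hF (by simpa only [hN] using hw')
  have hx : ∀ x, Summable fun j => ‖eps j * w j * f j x‖ := fun x => by
    simpa only [hn] using hs x
  refine ⟨hw', ?_, ?_⟩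
  · refine Integrable.of_bound ?_ C (Eventually.of_forall fun x => ?_)
    · classical
      refine aestronglyMeasurable_of_tendsto_ae (atTop : Filter (Finset J))
        (f := fun s x => ∑ j ∈ s, eps j * w j * f j x)
        (fun s => (integrable_finsetSum s fun j _ => hF j).aestronglyMeasurable)
        (Eventually.of_forall fun x => (hx x).of_norm.hasSum)
    · refine (norm_tsum_le_tsum_norm (hx x)).trans ?_
      simpa only [hn] using hC x
  · rw [← hS.tsum_eq]
    refine tsum_congr fun j => ?_
    rw [integral_const_mul, h1, mul_one]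

end Vale.Agent.P267I.H
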