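import Vale.Agent.P267I.HIn

/-! Joint smoothness of the coefficients on Dom. cf_sm, fdet_sm, T_sm, E_sm, rho_sm, S.e_sm, S.e_pos, ContDiffOn.comp, ContDiffOn.fderiv_of_isOpen. -/

open scoped Manifold ContDiff Topology Matrix.Norms.L2Operator ComplexConjugate
open Filter Matrix MeasureTheory Metric

noncomputable section

namespace Vale.Agent.P267I.H

open Vale.Agent.P267F Vale.Agent.P267J

set_option linter.unusedSectionVars false

variable {X : Type} [TopologicalSpace X] [ChartedSpace C2 X] [MeasurableSpace X] [BorelSpace X]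
  {N : ℕ} {S : Pre X N} {A : X → Fin 4 → C2 → Mat N} {om : X → Fin 4 → Fin 4 → Fin 4 → C2 → ℝ}
  {p : X} {y : C2} {r : ℝ} {e : Fin 4 → C2} {J : Type} {φ : J → X → Vec N} {lam eps : J → ℝ}

theorem hj_T {F : Type} [NormedAddCommGroup F] [NormedSpace ℝ F] {g : C2 → F}
    (hg : ContDiffOn ℝ ∞ g (S.V p)) :
    ContDiffOn ℝ ∞ (fun q : C2 × V => g (T S p q.1 q.2)) (Dom S p) :=
  hg.comp ((T_sm S p).mono fun _ h => h.1) fun _ h => h.2

theorem hj_F {F : Type} [NormedAddCommGroup F] [NormedSpace ℝ F] {g : C2 → F}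
    (hg : ContDiffOn ℝ ∞ g (S.V p)) : ContDiffOn ℝ ∞ (fun q : C2 × V => g q.1) (Dom S p) :=
  hg.comp contDiffOn_fst fun _ h => h.1

theorem hj_cf {w : C2 × V → C2} (hw : ContDiffOn ℝ ∞ w (Dom S p)) (j : Fin 4) :
    ContDiffOn ℝ ∞ (fun q : C2 × V => cf (fr S p q.1) (w q) j) (Dom S p) :=
  cf_sm (f := fun q : C2 × V => fr S p q.1) (fun a => hj_F (S.e_sm p a)) hw
    (fun q h => (S.e_pos p q.1 h.1).ne') j

theorem lap_a_sm (j k : Fin 4) :
    ContDiffOn ℝ ∞ (fun q : C2 × V => (lap S A om p q.1).a j k q.2) (Dom S p) :=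
  ContDiffOn.sum (s := Finset.univ) fun c _ =>
    (hj_cf (hj_T (S.e_sm p c)) j).mul (hj_cf (hj_T (S.e_sm p c)) k)

theorem lap_b_sm (hA : S.IsLC A om) (j : Fin 4) :
    ContDiffOn ℝ ∞ (fun q : C2 × V => (lap S A om p q.1).β j q.2) (Dom S p) := by
  refine hj_cf (hj_T (g := fun z => ∑ c, (∑ k, om p c c k z • S.e p k z -
    fderiv ℝ (S.e p c) z (S.e p c z))) (ContDiffOn.sum fun c _ => ContDiffOn.sub
      (ContDiffOn.sum fun k _ => (hA.om_sm p c c k).smul (S.e_sm p k)) ?_)) j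
  exact ((S.e_sm p c).fderiv_of_isOpen (V_open S p) (by simp)).clm_apply (S.e_sm p c)

theorem lap_A_sm (hA : S.IsLC A om) (j : Fin 4) (i m : Fin N) :
    ContDiffOn ℝ ∞ (fun q : C2 × V => (lap S A om p q.1).A j q.2 i m) (Dom S p) := by
  simp only [lap, Matrix.sum_apply, Matrix.smul_apply]
  exact ContDiffOn.sum fun a _ =>
    (cf_sm (f := fun q : C2 × V => fr S p (T S p q.1 q.2)) (fun b => hj_T (S.e_sm p b))
      (hj_F (S.e_sm p j)) (fun q h => (S.e_pos p _ h.2).ne') a).smul (hj_T (hA.A_sm p a i m))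

theorem lap_E_sm (hA : S.IsLC A om) (i m : Fin N) :
    ContDiffOn ℝ ∞ (fun q : C2 × V => (lap S A om p q.1).E q.2 i m) (Dom S p) :=
  hj_T (E_sm hA p i m)

theorem lap_r_sm : ContDiffOn ℝ ∞ (fun q : C2 × V => (lap S A om p q.1).ρ q.2) (Dom S p) :=
  (fdet_sm (f := fun q : C2 × V => fr S p q.1) fun a => hj_F (S.e_sm p a)).mul
    (hj_T (rho_sm S p))

theorem lap_a0 (hy : y ∈ S.V p) (j k : Fin 4) :
    (lap S A om p y).a j k 0 = if j = k then 1 else 0 := by
  have h : ∀ c a, cf (fr S p y) (S.e p c y) a = if c = a then 1 else 0 := fun c a =>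
    cf_self (e := fr S p y) (S.e_pos p y hy).ne' c a
  simp only [lap, T, Tm_zero, h, mul_ite, mul_one, mul_zero, Finset.sum_ite_eq', Finset.mem_univ,
    if_true, eq_comm (a := j)]

end Vale.Agent.P267I.H
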