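import Vale.Agent.P267I.HD
import Vale.Agent.P267I.GBas

/-! Linear algebra of frames. co is real linear and injective, co (∑ t a • e a) = t ᵥ* matrix of the frame; Matrix.nonsing_inv_mul, mul_nonsing_inv. -/

open scoped Manifold ContDiff Topology Matrix.Norms.L2Operator ComplexConjugate
open Filter Matrix MeasureTheory Metric

noncomputable section

namespace Vale.Agent.P267I.H

open Vale.Agent.P267F Vale.Agent.P267J

set_option linter.unusedSectionVars false

variable {X : Type} [TopologicalSpace X] [ChartedSpace C2 X] [MeasurableSpace X] [BorelSpace X]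
  {N : ℕ} {S : Pre X N} {A : X → Fin 4 → C2 → Mat N} {om : X → Fin 4 → Fin 4 → Fin 4 → C2 → ℝ}
  {p : X} {y : C2} {r : ℝ} {e : Fin 4 → C2} {J : Type} {φ : J → X → Vec N} {lam eps : J → ℝ}

/-- The real coordinates as a linear map. -/
def hlin_co : C2 →ₗ[ℝ] (Fin 4 → ℝ) where
  toFun := co
  map_add' v w := by
    funext k
    fin_cases k <;> simp [co]
  map_smul' c v := by
    funext k
    fin_cases k <;> simp [co]

theorem hlin_inj {v w : C2} (h : co v = co w) : v = w := by
  have h0 := congrFun h 0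
  have h1 := congrFun h 1
  have h2 := congrFun h 2
  have h3 := congrFun h 3
  simp only [co, Matrix.cons_val] at h0 h1 h2 h3
  funext k
  fin_cases k
  · exact Complex.ext h0 h1
  · exact Complex.ext h2 h3

theorem hlin_sum (e : Fin 4 → C2) (t : Fin 4 → ℝ) :
    co (∑ a, t a • e a) = t ᵥ* Matrix.of fun a b => co (e a) b := by
  change hlin_co _ = _
  rw [map_sum]
  funext b
  simp only [map_smul, Finset.sum_apply, Pi.smul_apply, smul_eq_mul, vecMul, dotProduct,
    Matrix.of_apply]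
  rfl

/-- The linear part of `Tm`. -/
def hlin_L (e : Fin 4 → C2) : V →L[ℝ] C2 :=
  ∑ a, (EuclideanSpace.proj a : V →L[ℝ] ℝ).smulRight (e a)

theorem hlin_L_apply (e : Fin 4 → C2) (u : V) : hlin_L e u = ∑ a, u a • e a := by
  simp [hlin_L]

theorem hlin_Tm (y : C2) (e : Fin 4 → C2) : Tm y e = fun z => y + hlin_L e z := by
  funext z
  rw [hlin_L_apply, Tm]

theorem cf_lin (e : Fin 4 → C2) : ∃ L : C2 →L[ℝ] (Fin 4 → ℝ), ∀ w, L w = cf e w := by
  exact ⟨LinearMap.toContinuousLinearMap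
    ((Matrix.of fun a b => co (e a) b)⁻¹.vecMulLinear ∘ₗ hlin_co), fun w => rfl⟩

theorem cf_sum (he : fdet e ≠ 0) (w : C2) : ∑ a, cf e w a • e a = w := by
  refine hlin_inj ?_
  rw [hlin_sum, cf, vecMul_vecMul, Matrix.nonsing_inv_mul _ (isUnit_iff_ne_zero.2 he), vecMul_one]

theorem cf_comb (he : fdet e ≠ 0) (t : Fin 4 → ℝ) : cf e (∑ a, t a • e a) = t := by
  rw [cf, hlin_sum, vecMul_vecMul, Matrix.mul_nonsing_inv _ (isUnit_iff_ne_zero.2 he), vecMul_one]

theorem cf_self (he : fdet e ≠ 0) (b a : Fin 4) : cf e (e b) a = if b = a then 1 else 0 := by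
  have h := cf_comb he (Pi.single b 1)
  rw [Finset.sum_eq_single b (fun c _ hc => by simp [hc]) (by simp), Pi.single_eq_same,
    one_smul] at h
  rw [h, Pi.single_apply]
  exact if_congr eq_comm rfl rfl

theorem cf_lc {I : Type} (e : Fin 4 → C2) (u : Finset I) (t : I → ℝ) (w : I → C2) (a : Fin 4) :
    cf e (∑ i ∈ u, t i • w i) a = ∑ i ∈ u, t i * cf e (w i) a := by
  obtain ⟨L, hL⟩ := cf_lin e
  simp only [← hL, map_sum, map_smul, Finset.sum_apply, Pi.smul_apply, smul_eq_mul]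

theorem Ti_Tm (he : fdet e ≠ 0) (y : C2) (z : V) : H.Ti y e (Tm y e z) = z := by
  rw [H.Ti, Tm, add_sub_cancel_left, cf_comb he]

theorem Tm_Ti (he : fdet e ≠ 0) (y w : C2) : Tm y e (H.Ti y e w) = w := by
  rw [H.Ti, Tm, cf_sum he, add_sub_cancel]

theorem Tm_zero (y : C2) (e : Fin 4 → C2) : Tm y e 0 = y := by
  simp [Tm]

theorem Tm_sm (y : C2) (e : Fin 4 → C2) : ContDiff ℝ ∞ (Tm y e) := by
  rw [hlin_Tm]
  exact contDiff_const.add (hlin_L e).contDiff

theorem Ti_sm (y : C2) (e : Fin 4 → C2) : ContDiff ℝ ∞ (H.Ti y e) := by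
  obtain ⟨L, hL⟩ := cf_lin e
  have : H.Ti y e = fun w => (EuclideanSpace.equiv (Fin 4) ℝ).symm (L (w - y)) := by
    funext w
    rw [hL]
    rfl
  rw [this]
  exact (EuclideanSpace.equiv (Fin 4) ℝ).symm.contDiff.comp
    (L.contDiff.comp (contDiff_id.sub contDiff_const))

theorem Tm_fd (y : C2) (e : Fin 4 → C2) (z u : V) : fderiv ℝ (Tm y e) z u = ∑ a, u a • e a := by
  rw [hlin_Tm, ((hlin_L e).hasFDerivAt.const_add y).fderiv, hlin_L_apply]

theorem Tm_fd1 (y : C2) (e : Fin 4 → C2) (z : V) (j : Fin 4) :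
    fderiv ℝ (Tm y e) z (EuclideanSpace.single j 1) = e j := by
  rw [Tm_fd, Finset.sum_eq_single j (fun c _ hc => by simp [hc]) (by simp)]
  simp

end Vale.Agent.P267I.H
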