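import Vale.Agent.P267I.HLin

/-! Smooth dependence on the frame. gbas_co, det_apply', Matrix.inv_def (inverse = det⁻¹ • adjugate, adjugate_apply is a determinant), Ring.inverse_eq_inv. -/

open scoped Manifold ContDiff Topology Matrix.Norms.L2Operator ComplexConjugate
open Filter Matrix MeasureTheory Metric

noncomputable section

namespace Vale.Agent.P267I.H

open Vale.Agent.P267F Vale.Agent.P267J

set_option linter.unusedSectionVars false

variable {X : Type} [TopologicalSpace X] [ChartedSpace C2 X] [MeasurableSpace X] [BorelSpace X]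
  {N : ℕ} {S : Pre X N} {A : X → Fin 4 → C2 → Mat N} {om : X → Fin 4 → Fin 4 → Fin 4 → C2 → ℝ}
  {p : X} {y : C2} {r : ℝ} {e : Fin 4 → C2} {J : Type} {φ : J → X → Vec N} {lam eps : J → ℝ}

theorem hlin2_co {E : Type} [NormedAddCommGroup E] [NormedSpace ℝ E] {U : Set E} {w : E → C2}
    (hw : ContDiffOn ℝ ∞ w U) (b : Fin 4) : ContDiffOn ℝ ∞ (fun t => co (w t) b) U := by
  fin_cases b
  · exact Complex.reCLM.contDiff.comp_contDiffOn (contDiffOn_pi.1 hw 0)
  · exact Complex.imCLM.contDiff.comp_contDiffOn (contDiffOn_pi.1 hw 0)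
  · exact Complex.reCLM.contDiff.comp_contDiffOn (contDiffOn_pi.1 hw 1)
  · exact Complex.imCLM.contDiff.comp_contDiffOn (contDiffOn_pi.1 hw 1)

theorem hlin2_det {E : Type} [NormedAddCommGroup E] [NormedSpace ℝ E] {U : Set E}
    {M : E → Matrix (Fin 4) (Fin 4) ℝ} (hM : ∀ i j, ContDiffOn ℝ ∞ (fun t => M t i j) U) :
    ContDiffOn ℝ ∞ (fun t => (M t).det) U := by
  simp only [det_apply']
  exact ContDiffOn.sum fun σ _ => contDiffOn_const.mul (contDiffOn_prod fun i _ => hM _ _)

theorem fdet_sm {E : Type} [NormedAddCommGroup E] [NormedSpace ℝ E] {U : Set E}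
    {f : E → Fin 4 → C2} (hf : ∀ a, ContDiffOn ℝ ∞ (fun t => f t a) U) :
    ContDiffOn ℝ ∞ (fun t => fdet (f t)) U := by
  exact hlin2_det fun i j => hlin2_co (hf i) j

theorem cf_sm {E : Type} [NormedAddCommGroup E] [NormedSpace ℝ E] {U : Set E}
    {f : E → Fin 4 → C2} {w : E → C2} (hf : ∀ a, ContDiffOn ℝ ∞ (fun t => f t a) U)
    (hw : ContDiffOn ℝ ∞ w U) (hd : ∀ t ∈ U, fdet (f t) ≠ 0) (j : Fin 4) :
    ContDiffOn ℝ ∞ (fun t => cf (f t) (w t) j) U := by
  have e : ∀ t, cf (f t) (w t) j = ∑ i, co (w t) i * ((fdet (f t))⁻¹ *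
      ((Matrix.of fun a b => co (f t a) b).updateRow j (Pi.single i 1)).det) := fun t => by
    simp only [cf, vecMul, dotProduct, Matrix.inv_def, Ring.inverse_eq_inv, Matrix.smul_apply,
      adjugate_apply, smul_eq_mul, fdet]
  simp only [e]
  refine ContDiffOn.sum fun i _ => (hlin2_co hw i).mul (((fdet_sm hf).inv hd).mul
    (hlin2_det fun a b => ?_))
  simp only [updateRow_apply]
  split_ifs
  · exact contDiffOn_const
  · exact hlin2_co (hf a) b

end Vale.Agent.P267I.H
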