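import Vale.Agent.P267I.HChg
import Vale.Agent.P267I.GExt

/-! Test sections. Tm and Ti are inverse homeomorphisms; ip_ext, n2_ext, chg, Ti_Tm; gbas_nsq, integral_ofReal. -/

open scoped Manifold ContDiff Topology Matrix.Norms.L2Operator ComplexConjugate
open Filter Matrix MeasureTheory Metric

noncomputable section

namespace Vale.Agent.P267I.H

open Vale.Agent.P267F Vale.Agent.P267J

set_option linter.unusedSectionVars false

variable {X : Type} [TopologicalSpace X] [ChartedSpace C2 X] [MeasurableSpace X] [BorelSpace X]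
  {N : ℕ} {S : Pre X N} {A : X → Fin 4 → C2 → Mat N} {om : X → Fin 4 → Fin 4 → Fin 4 → C2 → ℝ}
  {p : X} {y : C2} {r : ℝ} {e : Fin 4 → C2} {J : Type} {φ : J → X → Vec N} {lam eps : J → ℝ}

theorem hsec_pos (hy : y ∈ S.V p) : 0 < fdet (fr S p y) := S.e_pos p y hy

theorem hsec_fdet {f : Fin 4 → C2 → C2} {U : Set C2} (h : ∀ a, ContinuousOn (f a) U) :
    ContinuousOn (fun z => fdet fun a => f a z) U := by
  have hc : Continuous co := by
    refine continuous_pi fun b => ?_
    fin_cases b <;> simp only [co] <;> fun_prop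
  have h1 : ContinuousOn (fun z => (Matrix.of fun a b => co (f a z) b : Matrix (Fin 4) (Fin 4) ℝ))
      U := continuousOn_pi.2 fun a => hc.comp_continuousOn (h a)
  exact (continuous_id.matrix_det).comp_continuousOn h1

theorem inC_tst (hI : In S p y r) {v : Fin N → V → ℂ} (hv : Tst r v) :
    TstV (S.V p) (inC S p y v) := by
  have he := (hsec_pos hI.1).ne'
  have hK : IsCompact (T S p y '' ⋃ i, tsupport (v i)) :=
    (isCompact_iUnion fun i => (hv i).2.1).image (Tm_sm _ _).continuous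
  have hs : tsupport (inC S p y v) ⊆ T S p y '' ⋃ i, tsupport (v i) := by
    refine closure_minimal (fun w hw => ?_) hK.isClosed
    obtain ⟨i, hi⟩ := Function.ne_iff.1 hw
    exact ⟨_, Set.mem_iUnion.2 ⟨i, subset_tsupport _ hi⟩, Tm_Ti he y w⟩
  refine ⟨contDiff_pi.2 fun i => (hv i).1.comp (Ti_sm _ _),
    hK.of_isClosed_subset (isClosed_tsupport _) hs, hs.trans ?_⟩
  rintro _ ⟨z, hz, rfl⟩
  obtain ⟨i, hi⟩ := Set.mem_iUnion.1 hz
  exact hI.2 z ((hv i).2.2 hi)

theorem sec_ip (hy : y ∈ S.V p) {v : Fin N → V → ℂ} (hv : tsupport (inC S p y v) ⊆ S.V p)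
    (s : X → Vec N) : S.ip s (S.ext p (inC S p y v)) = pr (psi S p y s) v := by
  rw [ip_ext s hv, chg (hsec_pos hy) y, pr]
  refine integral_congr_ae (ae_of_all _ fun z => ?_)
  simp only [inC, psi, T, Ti_Tm (hsec_pos hy).ne', dotProduct, Finset.smul_sum, Pi.smul_apply,
    Pi.star_apply, smul_eq_mul, Complex.real_smul, map_mul, Complex.conj_ofReal, Complex.star_def,
    Complex.ofReal_mul]
  exact Finset.sum_congr rfl fun i _ => by ring

theorem sec_n2 (hy : y ∈ S.V p) {v : Fin N → V → ℂ} (hv : tsupport (inC S p y v) ⊆ S.V p) :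
    S.n2 (S.ext p (inC S p y v)) = ∫ z, ((lap S A om p y).op.ρ z).re * ∑ i, ‖v i z‖ ^ 2 := by
  rw [n2_ext hv, chg (hsec_pos hy) y]
  refine integral_congr_ae (ae_of_all _ fun z => ?_)
  simp only [inC, T, Ti_Tm (hsec_pos hy).ne', P267I.nsq, Lap.op, lap, Complex.ofReal_re,
    smul_eq_mul, mul_assoc]

theorem ip_re (s : X → Vec N) : (S.ip s s).re = S.n2 s := by
  simp only [Pre.ip, Pre.n2, ← gbas_nsq]
  rw [integral_complex_ofReal]
  rfl

theorem psi_cont (hI : In S p y r) {s : X → Vec N} (hs : S.Sm s) (i : Fin N) :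
    ContinuousOn (psi S p y s i) (ball 0 r) := by
  have hT : ContinuousOn (T S p y) (ball 0 r) := (Tm_sm _ _).continuous.continuousOn
  have h1 : ContinuousOn (S.rho p) (S.V p) :=
    (hsec_fdet fun a => (S.e_sm p a).continuousOn).inv₀ fun z hz => (S.e_pos p z hz).ne'
  have h2 : ContinuousOn (fun z => S.loc p s z i) (S.V p) :=
    continuousOn_pi.1 (hs p).continuousOn i
  exact (Complex.continuous_ofReal.comp_continuousOn
    (continuousOn_const.mul (h1.comp hT hI.2))).mul (h2.comp hT hI.2)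

theorem psi_zero (hy : y ∈ S.V p) (s : X → Vec N) : (fun i => psi S p y s i 0) = S.loc p s y := by
  funext i
  have h : fdet (fr S p y) * S.rho p y = 1 := mul_inv_cancel₀ (hsec_pos hy).ne'
  simp only [psi, T, Tm_zero, h, Complex.ofReal_one, one_mul]

end Vale.Agent.P267I.H
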