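import Vale.Agent.P267I.HPt
import Vale.Agent.P267I.HInt
import Vale.Agent.P267I.HFin
import Vale.Agent.P267I.HCh
import Vale.Agent.P267I.HSec

/-! The glue. -/

open scoped Manifold ContDiff Topology Matrix.Norms.L2Operator ComplexConjugate
open Filter Matrix MeasureTheory Metric

noncomputable section

namespace Vale.Agent.P267I.H

open Vale.Agent.P267F Vale.Agent.P267J

set_option linter.unusedSectionVars false

variable {X : Type} [TopologicalSpace X] [ChartedSpace C2 X] [MeasurableSpace X] [BorelSpace X]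
  {N : ℕ} {S : Pre X N} {A : X → Fin 4 → C2 → Mat N} {om : X → Fin 4 → Fin 4 → Fin 4 → C2 → ℝ}
  {p : X} {y : C2} {r : ℝ} {e : Fin 4 → C2} {J : Type} {φ : J → X → Vec N} {lam eps : J → ℝ}

theorem loc_of (hP : AlgPw N) (hX : IsSurface X)
    (hb : ∀ B, S.IsOp B → ∃ (J : Type) (φ : J → X → Vec N) (lam eps : J → ℝ), Bas S B φ lam eps) :
    S.LocalIndex := by
  intro A om hA hB l p ψ hψ hsub h1
  obtain ⟨J, φ, lam, eps, hb⟩ := hb _ hB
  have : CompactSpace X := hX.2.2.1
  have := mu_finite hX S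
  have := hb.cnt
  have hK : ∀ a, IsCompact (chartAt C2 (p a) '' tsupport (ψ a)) := fun a =>
    (isClosed_tsupport _).isCompact.image_of_continuousOn
      ((chartAt C2 (p a)).continuousOn.mono ((hsub a).trans (S.W_sub _)))
  choose C hC using fun a => ptw hP hX hA hB hb (p a) (hK a) (Set.image_mono (hsub a))
  have hcov : ∀ x, ∃ a, x ∈ tsupport (ψ a) := fun x => by
    by_contra h
    have h2 : ∑ a, ψ a x = 0 := Finset.sum_eq_zero fun a _ =>
      image_eq_zero_of_notMem_tsupport fun h3 => h ⟨a, h3⟩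
    rw [h1] at h2
    exact one_ne_zero h2
  have hn : ∀ j, ∫ x, H.nsq (φ j x) ∂S.μ = 1 := fun j => by
    have h2 := ip_re (S := S) (φ j)
    rw [hb.one] at h2
    exact h2.symm
  have hG : ∀ s ∈ Set.Ioc (0 : ℝ) 1, Integrable (fun x => ∑' j,
      eps j * Real.exp (-(2 * s ^ 2 * lam j)) * H.nsq (φ j x)) S.μ ∧
      ∫ x, ∑' j, eps j * Real.exp (-(2 * s ^ 2 * lam j)) * H.nsq (φ j x) ∂S.μ =
        (S.ind (S.BofA A) : ℝ) := fun s hs => by
    obtain ⟨h2, h3, h4⟩ := int_swap (μ := S.μ) (f := fun j x => H.nsq (φ j x))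
      (fun j => nsq_cont (hb.sm j)) (fun j x => Finset.sum_nonneg fun _ _ => by positivity) hn
      (w := fun j => Real.exp (-(2 * s ^ 2 * lam j))) (fun _ => (Real.exp_pos _).le) hb.sgn
      (C := ∑ a, |C a / s ^ 4|)
      (fun x => by
        obtain ⟨a, ha⟩ := hcov x
        exact (hC a x (hsub a ha) ⟨x, ha, rfl⟩ s hs).1)
      (fun x => by
        obtain ⟨a, ha⟩ := hcov x
        exact ((hC a x (hsub a ha) ⟨x, ha, rfl⟩ s hs).2.1.trans (le_abs_self _)).trans
          (Finset.single_le_sum (f := fun a => |C a / s ^ 4|) (fun _ _ => abs_nonneg _)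
            (Finset.mem_univ a)))
    refine ⟨h3, ?_⟩
    rw [h4, (hb.ms (fun t => Real.exp (-(2 * s ^ 2 * t))) h2).tsum_eq]
    simp
  have h5 := lim_part (d := fun a x => (S.dens A om (p a) (chartAt C2 (p a) x)).re) hψ h1
    (fun a => (dens_int hX hA (hψ a) (hsub a)).1) hG
    fun a => ⟨C a, fun x hx s hs => (hC a x (hsub a hx) ⟨x, hx, rfl⟩ s hs).2.2⟩
  rw [← Finset.sum_congr rfl fun a _ => (dens_int hX hA (hψ a) (hsub a)).2, ← Complex.ofReal_sum,
    ← h5]
  simp

end Vale.Agent.P267I.H
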