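import Vale.Agent.P267I.HJ

/-! Restrict HJ to z ↦ (y, z), which maps the ball into Dom. Submodule.sum_mem, smul_mem; Tm_zero. -/

open scoped Manifold ContDiff Topology Matrix.Norms.L2Operator ComplexConjugate
open Filter Matrix MeasureTheory Metric

noncomputable section

namespace Vale.Agent.P267I.H

open Vale.Agent.P267F Vale.Agent.P267J

set_option linter.unusedSectionVars false

variable {X : Type} [TopologicalSpace X] [ChartedSpace C2 X] [MeasurableSpace X] [BorelSpace X]
  {N : ℕ} {S : Pre X N} {A : X → Fin 4 → C2 → Mat N} {om : X → Fin 4 → Fin 4 → Fin 4 → C2 → ℝ}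
  {p : X} {y : C2} {r : ℝ} {e : Fin 4 → C2} {J : Type} {φ : J → X → Vec N} {lam eps : J → ℝ}

theorem hok_res {F : Type} [NormedAddCommGroup F] [NormedSpace ℝ F] (hI : In S p y r)
    {f : C2 → V → F} (hf : ContDiffOn ℝ ∞ (fun q : C2 × V => f q.1 q.2) (Dom S p)) :
    ContDiffOn ℝ ∞ (f y) (ball 0 r) :=
  hf.comp (f := fun z : V => (y, z)) (contDiff_const.prodMk contDiff_id).contDiffOn
    fun z hz => ⟨hI.1, hI.2 z hz⟩

theorem lap_ok (hA : S.IsLC A om) {τ : Mat N →L[ℝ] ℝ} {W g : Submodule ℝ (Mat N)}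
    (hg : AlgOf S A om τ W g) (hI : In S p y r) : (lap S A om p y).Ok W g r := by
  refine ⟨fun j k => ?_, fun j => ?_, fun j i m => ?_, fun i m => ?_, ?_, fun j k z => ?_,
    lap_a0 hI.1, ?_, fun j z hz => ?_, fun z hz => ?_, fun z hz => ?_⟩
  · exact hok_res hI (f := fun y => (lap S A om p y).a j k) (lap_a_sm j k)
  · exact hok_res hI (f := fun y => (lap S A om p y).β j) (lap_b_sm hA j)
  · exact hok_res hI (f := fun y z => (lap S A om p y).A j z i m) (lap_A_sm hA j i m)
  · exact hok_res hI (f := fun y z => (lap S A om p y).E z i m) (lap_E_sm hA i m)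
  · exact hok_res hI (f := fun y => (lap S A om p y).ρ) lap_r_sm
  · simp only [lap]
    exact Finset.sum_congr rfl fun c _ => mul_comm _ _
  · show fdet (fr S p y) * S.rho p (Tm y (fr S p y) 0) = 1
    rw [Tm_zero]
    exact mul_inv_cancel₀ (S.e_pos p y hI.1).ne'
  · simp only [lap]
    exact Submodule.sum_mem _ fun a _ => Submodule.smul_mem _ _ ((hg.2.2 p _ (hI.2 z hz)).1 a)
  · exact (hg.2.2 p _ (hI.2 z hz)).2.1
  · exact (hg.2.2 p _ (hI.2 z hz)).2.2

end Vale.Agent.P267I.H
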