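import Vale.Agent.P267I.HOp3
import Vale.Agent.P267I.LichS

/-! funext w, put z = Ti w so w = T z (Tm_Ti). If z is in the ball: op_nab (DfM from lap_A_sm), nab2_T, hA.lich (LichS), Ti_Tm. Otherwise every v i vanishes near z, both sides are zero. -/

open scoped Manifold ContDiff Topology Matrix.Norms.L2Operator ComplexConjugate
open Filter Matrix MeasureTheory Metric

noncomputable section

namespace Vale.Agent.P267I.H

open Vale.Agent.P267F Vale.Agent.P267J

set_option linter.unusedSectionVars false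

variable {X : Type} [TopologicalSpace X] [ChartedSpace C2 X] [MeasurableSpace X] [BorelSpace X]
  {N : ℕ} {S : Pre X N} {A : X → Fin 4 → C2 → Mat N} {om : X → Fin 4 → Fin 4 → Fin 4 → C2 → ℝ}
  {p : X} {y : C2} {r : ℝ} {e : Fin 4 → C2} {J : Type} {φ : J → X → Vec N} {lam eps : J → ℝ}

theorem hop_zero (B : X → C2 → Mat N) {f : C2 → Vec N} {w : C2} (hf : ∀ᶠ u in 𝓝 w, f u = 0) :
    ∀ᶠ u in 𝓝 w, S.Dloc B p f u = 0 := by
  filter_upwards [hf.eventually_nhds] with u hu
  have h1 : fderiv ℝ f u = 0 := by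
    rw [EventuallyEq.fderiv_eq (f := fun _ => (0 : Vec N)) hu]
    simp
  simp [Pre.Dloc, h1, hu.self_of_nhds]

theorem hop_pd {g : V → ℂ} {z : V} (j : Fin 4) (hg : ∀ᶠ u in 𝓝 z, g u = 0) :
    ∀ᶠ u in 𝓝 z, pd j g u = 0 := by
  filter_upwards [hg.eventually_nhds] with u hu
  rw [pd, EventuallyEq.fderiv_eq (f := fun _ => (0 : ℂ)) hu]
  simp

theorem hop_df {F : C2 → V → ℂ} (h : ContDiffOn ℝ ∞ (fun q : C2 × V => F q.1 q.2) (Dom S p))
    (hI : In S p y r) {z : V} (hb : z ∈ ball (0 : V) r) : DifferentiableAt ℝ (F y) z := by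
  have k0 : ContDiff ℝ ∞ fun u : V => (y, u) := contDiff_const.prodMk contDiff_id
  have k1 := h.comp (s := ball 0 r) k0.contDiffOn fun u hu => ⟨hI.1, hI.2 u hu⟩
  exact (k1.contDiffAt (isOpen_ball.mem_nhds hb)).differentiableAt (by simp)

theorem op_app (hA : S.IsLC A om) (hI : In S p y r) {v : Fin N → V → ℂ} (hv : Tst r v) :
    inC S p y ((lap S A om p y).op.app v) =
      S.Dloc (S.BofA A) p (S.Dloc (S.BofA A) p (inC S p y v)) := by
  funext w
  have he : fdet (fr S p y) ≠ 0 := (S.e_pos p y hI.1).ne'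
  obtain ⟨z, hz⟩ : ∃ z, z = H.Ti y (fr S p y) w := ⟨_, rfl⟩
  have hw : T S p y z = w := by rw [hz]; exact Tm_Ti he y w
  have e0 : inC S p y ((lap S A om p y).op.app v) w = fun i => (lap S A om p y).op.app v i z := by
    rw [hz]; rfl
  have e1 : (fun u => inC S p y v (T S p y u)) = fun u i => v i u := by
    funext u i
    simp only [inC, T, Ti_Tm he]
  rw [e0]
  by_cases hb : z ∈ ball (0 : V) r
  · have hV := hI.2 z hb
    have hf : ∀ i, ContDiffAt ℝ 2 (fun u => inC S p y v u i) (T S p y z) := fun i =>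
      (((hv i).1.comp (Ti_sm y (fr S p y))).of_le (by norm_cast)).contDiffAt
    have hD : ∀ j, DfM ((lap S A om p y).A j) z := fun j i m =>
      hop_df (F := fun y u => (lap S A om p y).A j u i m) (lap_A_sm hA j i m) hI hb
    rw [op_nab _ (fun i => ((hv i).1.of_le (by norm_cast)).contDiffAt) hD, ← hw, hA.lich hV (contDiffAt_pi.2 hf),
      nab2_T hA hI.1 hV hf, e1, congrFun e1 z]
    rfl
  · have h0 : ∀ i, ∀ᶠ u in 𝓝 z, v i u = 0 := fun i =>
      notMem_tsupport_iff_eventuallyEq.1 fun h => hb ((hv i).2.2 h)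
    have h1 : ∀ᶠ u in 𝓝 w, inC S p y v u = 0 := by
      have k : Tendsto (H.Ti y (fr S p y)) (𝓝 w) (𝓝 z) := by
        rw [hz]; exact (Ti_sm y (fr S p y)).continuous.tendsto w
      filter_upwards [k.eventually (eventually_all.2 h0)] with u hu
      exact funext hu
    rw [(hop_zero _ (hop_zero _ h1)).self_of_nhds]
    funext i
    simp [Op.app, fun m => (h0 m).self_of_nhds, fun j m => (hop_pd j (h0 m)).self_of_nhds,
      fun j k m => (hop_pd j (hop_pd k (h0 m))).self_of_nhds]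

end Vale.Agent.P267I.H
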