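import Mathlib

/-! The Lichnerowicz formula in a chart. -/

open Matrix Finset Filter Topology

noncomputable section

namespace Vale.Agent.P267I

variable {E : Type*} [NormedAddCommGroup E] [NormedSpace ℝ E] {n : Type} [Fintype n]
  [DecidableEq n] {ι : Type} [Fintype ι] [DecidableEq ι]

/-- The derivative of a vector valued function along a vector field. -/
def dV (e : E → E) (s : E → n → ℂ) (x : E) : n → ℂ :=
  fun i => fderiv ℝ (fun y => s y i) x (e x)

/-- The derivative of a matrix valued function along a vector field. -/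
def dM (e : E → E) (A : E → Matrix n n ℂ) (x : E) : Matrix n n ℂ :=
  Matrix.of fun i j => fderiv ℝ (fun y => A y i j) x (e x)

/-- The covariant derivative. -/
def nab (e : E → E) (A : E → Matrix n n ℂ) (s : E → n → ℂ) (x : E) : n → ℂ :=
  dV e s x + A x *ᵥ s x

/-- The Dirac operator. -/
def Dir (c : ι → Matrix n n ℂ) (e : ι → E → E) (A : ι → E → Matrix n n ℂ) (s : E → n → ℂ)
    (x : E) : n → ℂ :=
  ∑ a, c a *ᵥ nab (e a) (A a) s x

/-- The curvature. -/
def Om (e : ι → E → E) (A : ι → E → Matrix n n ℂ) (om : ι → ι → ι → E → ℝ) (a b : ι) (x : E) :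
    Matrix n n ℂ :=
  dM (e a) (A b) x - dM (e b) (A a) x + (A a x * A b x - A b x * A a x) -
    ∑ k, ((om a b k x - om b a k x : ℝ) : ℂ) • A k x

/-- The potential. -/
def En (c : ι → Matrix n n ℂ) (e : ι → E → E) (A : ι → E → Matrix n n ℂ)
    (om : ι → ι → ι → E → ℝ) (x : E) : Matrix n n ℂ :=
  (1 / 2 : ℂ) • ∑ a, ∑ b, c a * c b * Om e A om a b x

/-- Entrywise differentiability of vectors. -/
def DfV (s : E → n → ℂ) (x : E) : Prop := ∀ i, DifferentiableAt ℝ (fun y => s y i) x

/-- Entrywise differentiability of matrices. -/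
def DfM (A : E → Matrix n n ℂ) (x : E) : Prop := ∀ i j, DifferentiableAt ℝ (fun y => A y i j) x

variable {e f : E → E} {s t : E → n → ℂ} {A B U : E → Matrix n n ℂ} {x : E}

omit [Fintype n] [DecidableEq n] in
theorem DfV.add (hs : DfV s x) (ht : DfV t x) : DfV (fun y => s y + t y) x :=
  fun i => (hs i).add (ht i)

omit [Fintype n] [DecidableEq n] in
theorem DfM.const (M : Matrix n n ℂ) : DfM (fun _ : E => M) x :=
  fun _ _ => differentiableAt_const _

omit [DecidableEq n] in
theorem DfM.mulVec (hA : DfM A x) (hs : DfV s x) : DfV (fun y => A y *ᵥ s y) x := by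
  intro i
  simp only [Matrix.mulVec, dotProduct]
  exact DifferentiableAt.fun_sum fun j _ => (hA i j).mul (hs j)

omit [DecidableEq n] in
theorem DfM.mul (hA : DfM A x) (hB : DfM B x) : DfM (fun y => A y * B y) x := by
  intro i j
  simp only [Matrix.mul_apply]
  exact DifferentiableAt.fun_sum fun k _ => (hA i k).mul (hB k j)

omit [Fintype n] [DecidableEq n] [DecidableEq ι] in
theorem DfV.sum {s : ι → E → n → ℂ} (hs : ∀ a, DfV (s a) x) : DfV (fun y => ∑ a, s a y) x := by
  intro i
  simp only [Finset.sum_apply]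
  exact DifferentiableAt.fun_sum fun a _ => hs a i

omit [Fintype n] [DecidableEq n] in
theorem dV_add (hs : DfV s x) (ht : DfV t x) :
    dV e (fun y => s y + t y) x = dV e s x + dV e t x := by
  funext i
  simp only [dV, Pi.add_apply]
  rw [fderiv_fun_add (hs i) (ht i)]
  rfl

omit [Fintype n] [DecidableEq n] [DecidableEq ι] in
theorem dV_sum {s : ι → E → n → ℂ} (hs : ∀ a, DfV (s a) x) :
    dV e (fun y => ∑ a, s a y) x = ∑ a, dV e (s a) x := by
  funext i
  simp only [dV, Finset.sum_apply]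
  rw [fderiv_fun_sum fun a _ => hs a i, ContinuousLinearMap.sum_apply]

omit [DecidableEq n] in
theorem dV_mulVec (hA : DfM A x) (hs : DfV s x) :
    dV e (fun y => A y *ᵥ s y) x = dM e A x *ᵥ s x + A x *ᵥ dV e s x := by
  funext i
  simp only [dV, dM, Matrix.mulVec, dotProduct, Pi.add_apply, of_apply]
  rw [fderiv_fun_sum fun j _ => (hA i j).fun_mul (hs j), ContinuousLinearMap.sum_apply,
    ← sum_add_distrib]
  refine sum_congr rfl fun j _ => ?_
  rw [fderiv_fun_mul (hA i j) (hs j)]
  simp only [ContinuousLinearMap.add_apply, ContinuousLinearMap.smul_apply, smul_eq_mul]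
  ring

omit [DecidableEq n] in
theorem dM_mul (hA : DfM A x) (hB : DfM B x) :
    dM e (fun y => A y * B y) x = dM e A x * B x + A x * dM e B x := by
  ext i k
  simp only [dM, Matrix.mul_apply, Matrix.add_apply, of_apply]
  rw [fderiv_fun_sum fun j _ => (hA i j).fun_mul (hB j k), ContinuousLinearMap.sum_apply,
    ← sum_add_distrib]
  refine sum_congr rfl fun j _ => ?_
  rw [fderiv_fun_mul (hA i j) (hB j k)]
  simp only [ContinuousLinearMap.add_apply, ContinuousLinearMap.smul_apply, smul_eq_mul]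
  ring

omit [Fintype n] [DecidableEq n] in
theorem dM_const (M : Matrix n n ℂ) : dM e (fun _ : E => M) x = 0 := by
  ext i j
  simp [dM]

omit [Fintype n] [DecidableEq n] in
theorem DfV_of_two (hs : ∀ i, ContDiffAt ℝ 2 (fun y => s y i) x) : DfV s x :=
  fun i => (hs i).differentiableAt (by norm_num)

omit [Fintype n] [DecidableEq n] in
theorem DfV_dV (hs : ∀ i, ContDiffAt ℝ 2 (fun y => s y i) x) (he : DifferentiableAt ℝ e x) :
    DfV (dV e s) x := fun i =>
  (((hs i).fderiv_right (m := 1) (by norm_num)).differentiableAt (by norm_num)).clm_apply he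

omit [DecidableEq n] in
theorem DfV_nab (hs : ∀ i, ContDiffAt ℝ 2 (fun y => s y i) x) (he : DifferentiableAt ℝ e x)
    (hA : DfM A x) : DfV (nab e A s) x :=
  (DfV_dV hs he).add (hA.mulVec (DfV_of_two hs))

omit [Fintype n] [DecidableEq n] in
theorem dV_comm (hs : ∀ i, ContDiffAt ℝ 2 (fun y => s y i) x) (he : DifferentiableAt ℝ e x)
    (hf : DifferentiableAt ℝ f x) :
    dV e (dV f s) x - dV f (dV e s) x = dV (VectorField.lieBracket ℝ e f) s x := by
  funext i
  exact (VectorField.fderiv_apply_lieBracket (hs i) (by simp) hf he).symm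

omit [DecidableEq n] in
theorem nab_nab (hs : ∀ i, ContDiffAt ℝ 2 (fun y => s y i) x) (hf : DifferentiableAt ℝ f x)
    (hB : DfM B x) :
    nab e A (nab f B s) x = dV e (dV f s) x + (dM e B x *ᵥ s x + B x *ᵥ dV e s x) +
      (A x *ᵥ dV f s x + (A x * B x) *ᵥ s x) := by
  have : nab f B s = fun y => dV f s y + B y *ᵥ s y := rfl
  rw [nab, this, dV_add (DfV_dV hs hf) (hB.mulVec (DfV_of_two hs)),
    dV_mulVec hB (DfV_of_two hs), mulVec_add, mulVec_mulVec]

section
variable {c : ι → Matrix n n ℂ} {e : ι → E → E} {A : ι → E → Matrix n n ℂ}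
  {om : ι → ι → ι → E → ℝ}

omit [DecidableEq n] [DecidableEq ι] in
/-- The curvature as a commutator. -/
theorem nab_comm (hs : ∀ i, ContDiffAt ℝ 2 (fun y => s y i) x)
    (he : ∀ a, DifferentiableAt ℝ (e a) x) (hA : ∀ a, DfM (A a) x) {a b : ι}
    (hT : VectorField.lieBracket ℝ (e a) (e b) x = ∑ k, (om a b k x - om b a k x) • e k x) :
    nab (e a) (A a) (nab (e b) (A b) s) x - nab (e b) (A b) (nab (e a) (A a) s) x -
      ∑ k, ((om a b k x - om b a k x : ℝ) : ℂ) • nab (e k) (A k) s x = Om e A om a b x *ᵥ s x := by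
  have h1 := dV_comm hs (he a) (he b)
  have h2 : dV (VectorField.lieBracket ℝ (e a) (e b)) s x =
      ∑ k, ((om a b k x - om b a k x : ℝ) : ℂ) • dV (e k) s x := by
    funext i
    simp only [dV, hT, map_sum, map_smul, Finset.sum_apply, Pi.smul_apply, smul_eq_mul,
      Complex.real_smul]
  rw [nab_nab hs (he b) (hA b), nab_nab hs (he a) (hA a), Om]
  simp only [nab, smul_add, sum_add_distrib, sub_mulVec, add_mulVec, sum_mulVec, smul_mulVec]
  rw [← h2, ← h1]
  abel

/-- The Lichnerowicz formula. -/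
theorem lich (hc : ∀ a b, c a * c b + c b * c a = if a = b then -2 else 0)
    (hs : ∀ i, ContDiffAt ℝ 2 (fun y => s y i) x)
    (he : ∀ a, DifferentiableAt ℝ (e a) x) (hA : ∀ a, DfM (A a) x)
    (hC : ∀ a b, A a x * c b - c b * A a x = ∑ k, (om a b k x : ℂ) • c k)
    (hS : ∀ a b k, om a b k x = -om a k b x)
    (hT : ∀ a b, VectorField.lieBracket ℝ (e a) (e b) x =
      ∑ k, (om a b k x - om b a k x) • e k x) :
    Dir c e A (Dir c e A s) x =
      -∑ a, (nab (e a) (A a) (nab (e a) (A a) s) x -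
        ∑ k, (om a a k x : ℂ) • nab (e k) (A k) s x) + En c e A om x *ᵥ s x := by
  obtain ⟨H, hH⟩ : ∃ H : ι → ι → n → ℂ, H = fun a b => nab (e a) (A a) (nab (e b) (A b) s) x -
    ∑ k, (om a b k x : ℂ) • nab (e k) (A k) s x := ⟨_, rfl⟩
  have hn : ∀ b, DfV (nab (e b) (A b) s) x := fun b => DfV_nab hs (he b) (hA b)
  have h1 : Dir c e A (Dir c e A s) x = ∑ a, ∑ b, (c a * c b) *ᵥ H a b := by
    rw [Dir]
    refine sum_congr rfl fun a _ => ?_
    have e1 : Dir c e A s = fun y => ∑ b, c b *ᵥ nab (e b) (A b) s y := rfl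
    have e2 : ∑ b, (∑ k, (om a b k x : ℂ) • c k) *ᵥ nab (e b) (A b) s x =
        -∑ b, c b *ᵥ ∑ k, (om a b k x : ℂ) • nab (e k) (A k) s x := by
      simp only [sum_mulVec, mulVec_sum, smul_mulVec, mulVec_smul]
      rw [sum_comm, ← sum_neg_distrib]
      refine sum_congr rfl fun b _ => ?_
      rw [← sum_neg_distrib]
      refine sum_congr rfl fun k _ => ?_
      rw [hS a k b]
      simp
    have e3 : nab (e a) (A a) (Dir c e A s) x = ∑ b, c b *ᵥ H a b := by
      rw [nab, e1, dV_sum fun b => (DfM.const (c b)).mulVec (hn b)]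
      simp only [hH, mulVec_sub, sum_sub_distrib]
      rw [sub_eq_add_neg, ← e2, mulVec_sum, ← sum_add_distrib, ← sum_add_distrib]
      refine sum_congr rfl fun b _ => ?_
      rw [dV_mulVec (DfM.const (c b)) (hn b), dM_const, zero_mulVec, zero_add, ← hC a b,
        sub_mulVec, show nab (e a) (A a) (nab (e b) (A b) s) x = dV (e a) (nab (e b) (A b) s) x +
          A a x *ᵥ nab (e b) (A b) s x from rfl, mulVec_add]
      simp only [mulVec_mulVec]
      abel
    rw [e3, mulVec_sum]
    simp only [mulVec_mulVec]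
  have h2 : ∀ a b, H a b - H b a = Om e A om a b x *ᵥ s x := by
    intro a b
    rw [← nab_comm hs he hA (hT a b), hH]
    simp only [Complex.ofReal_sub, sub_smul, sum_sub_distrib]
    abel
  have h3 : ∑ a, ∑ b, (c a * c b) *ᵥ H b a =
      -(2 : ℂ) • ∑ a, H a a - ∑ a, ∑ b, (c a * c b) *ᵥ H a b := by
    rw [sum_comm, eq_sub_iff_add_eq, ← sum_add_distrib, smul_sum]
    refine sum_congr rfl fun a _ => ?_
    rw [← sum_add_distrib, sum_eq_single a]
    · rw [← add_mulVec, hc, if_pos rfl]
      ext i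
      simp [neg_mulVec, ← one_add_one_eq_two, add_mulVec, add_mul]
    · intro b _ hb
      rw [← add_mulVec, hc, if_neg hb, zero_mulVec]
    · simp
  have h4 : En c e A om x *ᵥ s x = (1 / 2 : ℂ) •
      (∑ a, ∑ b, (c a * c b) *ᵥ H a b - ∑ a, ∑ b, (c a * c b) *ᵥ H b a) := by
    rw [En, smul_mulVec]
    congr 1
    simp only [sum_mulVec, ← sum_sub_distrib, ← mulVec_sub, h2, mulVec_mulVec]
  have h5 : ∑ a, (nab (e a) (A a) (nab (e a) (A a) s) x -
      ∑ k, (om a a k x : ℂ) • nab (e k) (A k) s x) = ∑ a, H a a := by rw [hH]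
  rw [h1, h4, h3, h5]
  module

end

end Vale.Agent.P267I
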