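import Vale.Agent.P267I.HD
import Vale.Agent.P267I.Lich

/-! Lap.op in covariant form. nab_nab of Lich with constant fields; dV (ee j) is pd j, dM (ee j) is pdM j by rfl; then sums (Finset.sum_comm). -/

open scoped Manifold ContDiff Topology Matrix.Norms.L2Operator ComplexConjugate
open Filter Matrix MeasureTheory Metric

noncomputable section

namespace Vale.Agent.P267I.H

open Vale.Agent.P267F Vale.Agent.P267J

set_option linter.unusedSectionVars false

variable {X : Type} [TopologicalSpace X] [ChartedSpace C2 X] [MeasurableSpace X] [BorelSpace X]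
  {N : ℕ} {S : Pre X N} {A : X → Fin 4 → C2 → Mat N} {om : X → Fin 4 → Fin 4 → Fin 4 → C2 → ℝ}
  {p : X} {y : C2} {r : ℝ} {e : Fin 4 → C2} {J : Type} {φ : J → X → Vec N} {lam eps : J → ℝ}

/-- The constant coordinate fields. -/
def ee (j : Fin 4) : V → V := fun _ => EuclideanSpace.single j 1

theorem hop1_alg (a : Fin 4 → Fin 4 → ℂ) (β : Fin 4 → ℂ) (A : Fin 4 → Mat N)
    (dA : Fin 4 → Fin 4 → Mat N) (E : Mat N) (s : Vec N) (P : Fin 4 → Vec N)
    (PP : Fin 4 → Fin 4 → Vec N) :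
    -(∑ j, ∑ k, a j k • PP j k) +
      ∑ j, (β j • (1 : Mat N) - ∑ k, (a j k + a k j) • A k) *ᵥ P j +
      (-(∑ j, ∑ k, a j k • (dA j k + A j * A k)) + ∑ j, β j • A j + E) *ᵥ s =
    -(∑ j, ∑ k, a j k • (PP j k + (dA j k *ᵥ s + A k *ᵥ P j) + (A j *ᵥ P k + (A j * A k) *ᵥ s))) +
      ∑ j, β j • (P j + A j *ᵥ s) + E *ᵥ s := by
  have e : ∑ j, ∑ k, a k j • (A k *ᵥ P j) = ∑ j, ∑ k, a j k • (A j *ᵥ P k) := Finset.sum_comm
  simp only [add_mulVec, sub_mulVec, neg_mulVec, sum_mulVec, smul_mulVec, one_mulVec, add_smul,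
    smul_add, Finset.sum_add_distrib, Finset.sum_sub_distrib, e]
  abel

theorem op_nab (L : Lap N) {v : Fin N → V → ℂ} {z : V} (hv : ∀ i, ContDiffAt ℝ 2 (v i) z)
    (hA : ∀ j, DfM (L.A j) z) : (fun i => L.op.app v i z) =
      -(∑ j, ∑ k, (L.a j k z : ℂ) • nab (ee j) (L.A j) (nab (ee k) (L.A k) fun w i => v i w) z) +
        ∑ j, (L.β j z : ℂ) • nab (ee j) (L.A j) (fun w i => v i w) z + L.E z *ᵥ fun i => v i z := by
  have h : ∀ j k, nab (ee j) (L.A j) (nab (ee k) (L.A k) fun w i => v i w) z = _ := fun j k =>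
    nab_nab (s := fun w i => v i w) hv (differentiableAt_const _) (hA k)
  simp only [h]
  refine Eq.trans ?_ (hop1_alg (fun j k => L.a j k z) (fun j => L.β j z) (fun j => L.A j z)
    (fun j k => pdM j (L.A k) z) (L.E z) (fun i => v i z) (fun j i => pd j (v i) z)
    fun j k i => pd j (pd k (v i)) z)
  funext i
  simp only [Op.app, Lap.op, Pi.add_apply, Pi.neg_apply, Finset.sum_apply, Pi.smul_apply,
    smul_eq_mul, mulVec, dotProduct, Matrix.sub_apply, Matrix.smul_apply, Matrix.sum_apply,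
    one_apply, mul_ite, mul_one, mul_zero, Complex.ofReal_add]

end Vale.Agent.P267I.H
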