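import Vale.Agent.P267I.HOp1
import Vale.Agent.P267I.HLin

/-! First order change of frame. -/

open scoped Manifold ContDiff Topology Matrix.Norms.L2Operator ComplexConjugate
open Filter Matrix MeasureTheory Metric

noncomputable section

namespace Vale.Agent.P267I.H

open Vale.Agent.P267F Vale.Agent.P267J

set_option linter.unusedSectionVars false

variable {X : Type} [TopologicalSpace X] [ChartedSpace C2 X] [MeasurableSpace X] [BorelSpace X]
  {N : ℕ} {S : Pre X N} {A : X → Fin 4 → C2 → Mat N} {om : X → Fin 4 → Fin 4 → Fin 4 → C2 → ℝ}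
  {p : X} {y : C2} {r : ℝ} {e : Fin 4 → C2} {J : Type} {φ : J → X → Vec N} {lam eps : J → ℝ}

theorem hop2_fd {F : Type} [NormedAddCommGroup F] [NormedSpace ℝ F] {g : C2 → F} {z : V}
    (hg : DifferentiableAt ℝ g (T S p y z)) :
    DifferentiableAt ℝ (fun w => g (T S p y w)) z ∧ ∀ j,
      fderiv ℝ (fun w => g (T S p y w)) z (EuclideanSpace.single j 1) =
        fderiv ℝ g (T S p y z) (fr S p y j) := by
  have hT : DifferentiableAt ℝ (T S p y) z :=
    ((Tm_sm y (fr S p y)).differentiable (by simp)).differentiableAt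
  refine ⟨hg.comp z hT, fun j => ?_⟩
  have h := fderiv_comp z hg hT
  have h2 : fderiv ℝ (T S p y) z (EuclideanSpace.single j 1) = fr S p y j := Tm_fd1 _ _ _ _
  rw [← h2]
  exact congrArg (fun L : V →L[ℝ] F => L (EuclideanSpace.single j 1)) h

theorem hop2_sum {F : Type} [NormedAddCommGroup F] [NormedSpace ℝ F] (hy : y ∈ S.V p)
    (D : C2 →L[ℝ] F) (u : C2) : ∑ j, cf (fr S p y) u j • D (fr S p y j) = D u := by
  have h0 : fdet (fr S p y) ≠ 0 := (S.e_pos p y hy).ne'
  conv_rhs => rw [← cf_sum h0 u]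
  simp only [map_sum, map_smul]

theorem nab_T (hy : y ∈ S.V p) {z : V} (hz : T S p y z ∈ S.V p) {f : C2 → Vec N}
    (hf : DfV f (T S p y z)) (c : Fin 4) : nab (S.e p c) (A p c) f (T S p y z) =
      ∑ j, (cf (fr S p y) (S.e p c (T S p y z)) j : ℂ) •
        nab (ee j) ((lap S A om p y).A j) (fun w => f (T S p y w)) z := by
  have h0 : fdet (fr S p y) ≠ 0 := (S.e_pos p y hy).ne'
  have h1 : fdet (fr S p (T S p y z)) ≠ 0 := (S.e_pos p _ hz).ne'
  have e1 : dV (S.e p c) f (T S p y z) = ∑ j, (cf (fr S p y) (S.e p c (T S p y z)) j : ℂ) •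
      dV (ee j) (fun w => f (T S p y w)) z := by
    funext i
    simp only [dV, ee, Finset.sum_apply, Pi.smul_apply, smul_eq_mul, (hop2_fd (hf i)).2]
    rw [← hop2_sum hy]
    simp only [Complex.real_smul]
  have e2 : A p c (T S p y z) = ∑ j, (cf (fr S p y) (S.e p c (T S p y z)) j : ℂ) •
      (lap S A om p y).A j z := by
    have e3 : ∀ a, ∑ j, cf (fr S p y) (S.e p c (T S p y z)) j *
        cf (fr S p (T S p y z)) (S.e p j y) a = if c = a then 1 else 0 := fun a => by
      rw [← cf_self h1 c a, ← cf_lc]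
      exact congrArg (fun w => cf (fr S p (T S p y z)) w a) (cf_sum h0 _)
    simp only [lap, Complex.coe_smul, Finset.smul_sum, smul_smul]
    rw [Finset.sum_comm]
    simp only [← Finset.sum_smul, e3, ite_smul, one_smul, zero_smul, Finset.sum_ite_eq,
      Finset.mem_univ, if_true]
  simp only [nab, smul_add, Finset.sum_add_distrib]
  rw [e1, e2, Matrix.sum_mulVec]
  simp only [Matrix.smul_mulVec]

theorem cf_e_fd (hy : y ∈ S.V p) {z : V} (hz : T S p y z ∈ S.V p) (c k : Fin 4) :
    DifferentiableAt ℝ (fun w => cf (fr S p y) (S.e p c (T S p y w)) k) z ∧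
    ∑ j, cf (fr S p y) (S.e p c (T S p y z)) j *
      fderiv ℝ (fun w => cf (fr S p y) (S.e p c (T S p y w)) k) z (EuclideanSpace.single j 1) =
      cf (fr S p y) (fderiv ℝ (S.e p c) (T S p y z) (S.e p c (T S p y z))) k := by
  obtain ⟨L, hL⟩ := cf_lin (fr S p y)
  have he : DifferentiableAt ℝ (S.e p c) (T S p y z) :=
    ((S.e_sm p c).contDiffAt ((V_open S p).mem_nhds hz)).differentiableAt (by simp)
  set M : C2 →L[ℝ] ℝ := (ContinuousLinearMap.proj k).comp L with hM
  have hM' : ∀ w, cf (fr S p y) w k = M w := fun w => by rw [← hL]; rfl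
  have hd : HasFDerivAt (fun w => M (S.e p c w)) (M.comp (fderiv ℝ (S.e p c) (T S p y z)))
      (T S p y z) := M.hasFDerivAt.comp _ he.hasFDerivAt
  have h := hop2_fd (S := S) (p := p) (y := y) hd.differentiableAt
  simp only [hM']
  refine ⟨h.1, ?_⟩
  simp only [h.2, hd.fderiv]
  exact hop2_sum hy (M.comp (fderiv ℝ (S.e p c) (T S p y z))) _

end Vale.Agent.P267I.H
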