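import Vale.Agent.P267I.LichS

/-! Second covariant derivatives and curvature after a change of frame. -/

open Finset Matrix Filter Topology

noncomputable section

namespace Vale.Agent.P267I

variable {E : Type*} [NormedAddCommGroup E] [NormedSpace ℝ E] {n : Type} [Fintype n]
  {ι : Type} [Fintype ι] {b : ι → E → E} {B : ι → E → Matrix n n ℂ} {θ η : ι → E → ℝ}
  {e f : E → E} {A A' : E → Matrix n n ℂ} {s : E → n → ℂ} {x : E}

omit [Fintype n] in
theorem dV_congr {t : E → n → ℂ} (h : ∀ᶠ y in 𝓝 x, s y = t y) : dV e s x = dV e t x := by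
  funext i
  simp only [dV]
  rw [EventuallyEq.fderiv_eq (f := fun y => t y i) (h.mono fun y hy => by rw [hy])]

omit [Fintype n] in
theorem dV_frame (he : e x = ∑ j, θ j x • b j x) :
    dV e s x = ∑ j, (θ j x : ℂ) • dV (b j) s x := by
  funext i
  simp only [dV, he, map_sum, map_smul, Finset.sum_apply, Pi.smul_apply, smul_eq_mul,
    Complex.real_smul]

omit [Fintype n] in
theorem dM_frame (he : e x = ∑ j, θ j x • b j x) :
    dM e A x = ∑ j, (θ j x : ℂ) • dM (b j) A x := by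
  ext p q
  simp only [dM, he, map_sum, map_smul, Matrix.sum_apply, Matrix.smul_apply, smul_eq_mul,
    Complex.real_smul, of_apply]

theorem nab_frame (he : e x = ∑ j, θ j x • b j x) (hA : A x = ∑ j, (θ j x : ℂ) • B j x) :
    nab e A s x = ∑ j, (θ j x : ℂ) • nab (b j) (B j) s x := by
  simp only [nab, dV_frame he, hA, smul_add, sum_add_distrib, sum_mulVec, smul_mulVec]

omit [Fintype n] in
theorem dV_comb {t : ι → E → n → ℂ} (hθ : ∀ k, DifferentiableAt ℝ (θ k) x)
    (ht : ∀ k, DfV (t k) x) : dV e (fun y => ∑ k, (θ k y : ℂ) • t k y) x =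
      ∑ k, (((fderiv ℝ (θ k) x (e x) : ℝ) : ℂ) • t k x + (θ k x : ℂ) • dV e (t k) x) := by
  funext i
  have e2 : HasFDerivAt (fun y => ∑ k, (θ k y : ℂ) * t k y i) _ x :=
    HasFDerivAt.fun_sum fun k _ =>
      (Complex.ofRealCLM.hasFDerivAt.comp x (hθ k).hasFDerivAt).fun_mul (ht k i).hasFDerivAt
  simp only [dV, Finset.sum_apply, Pi.add_apply, Pi.smul_apply, smul_eq_mul]
  rw [e2.fderiv]
  simp [mul_comm, add_comm]

omit [Fintype n] in
theorem dM_comb' (hθ : ∀ k, DifferentiableAt ℝ (θ k) x) (ht : ∀ k, DfM (B k) x) :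
    dM e (fun y => ∑ k, (θ k y : ℂ) • B k y) x =
      ∑ k, (((fderiv ℝ (θ k) x (e x) : ℝ) : ℂ) • B k x + (θ k x : ℂ) • dM e (B k) x) := by
  ext p q
  have e2 : HasFDerivAt (fun y => ∑ k, (θ k y : ℂ) * B k y p q) _ x :=
    HasFDerivAt.fun_sum fun k _ =>
      (Complex.ofRealCLM.hasFDerivAt.comp x (hθ k).hasFDerivAt).fun_mul (ht k p q).hasFDerivAt
  simp only [dM, Matrix.sum_apply, Matrix.add_apply, Matrix.smul_apply, smul_eq_mul, of_apply]
  rw [e2.fderiv]
  simp [mul_comm, add_comm]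

/-- The second covariant derivative in another frame. -/
theorem nab_nab_frame (he : e x = ∑ j, θ j x • b j x) (hA : A x = ∑ j, (θ j x : ℂ) • B j x)
    (hf : ∀ᶠ y in 𝓝 x, f y = ∑ j, η j y • b j y)
    (hA' : ∀ᶠ y in 𝓝 x, A' y = ∑ j, (η j y : ℂ) • B j y)
    (hη : ∀ k, DifferentiableAt ℝ (η k) x) (hb : ∀ k, DifferentiableAt ℝ (b k) x)
    (hB : ∀ k, DfM (B k) x) (hs : ∀ i, ContDiffAt ℝ 2 (fun y => s y i) x) :
    nab e A (nab f A' s) x =
      ∑ j, ∑ k, ((θ j x * η k x : ℝ) : ℂ) • nab (b j) (B j) (nab (b k) (B k) s) x +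
        ∑ k, ((fderiv ℝ (η k) x (e x) : ℝ) : ℂ) • nab (b k) (B k) s x := by
  have h1 : ∀ᶠ y in 𝓝 x, nab f A' s y = ∑ k, (η k y : ℂ) • nab (b k) (B k) s y := by
    filter_upwards [hf, hA'] with y h1 h2 using nab_frame h1 h2
  have h2 : ∀ k, nab e A (nab (b k) (B k) s) x =
      ∑ j, (θ j x : ℂ) • nab (b j) (B j) (nab (b k) (B k) s) x := fun k => nab_frame he hA
  have h3 : ∑ j, ∑ k, ((θ j x * η k x : ℝ) : ℂ) • nab (b j) (B j) (nab (b k) (B k) s) x =
      ∑ k, (η k x : ℂ) • nab e A (nab (b k) (B k) s) x := by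
    rw [sum_comm]
    refine sum_congr rfl fun k _ => ?_
    rw [h2, smul_sum]
    exact sum_congr rfl fun j _ => by rw [smul_smul, Complex.ofReal_mul, mul_comm]
  rw [h3, nab, dV_congr h1, h1.self_of_nhds, dV_comb hη fun k => DfV_nab hs (hb k) (hB k),
    mulVec_sum, ← sum_add_distrib, ← sum_add_distrib]
  refine sum_congr rfl fun k _ => ?_
  rw [mulVec_smul, show nab e A (nab (b k) (B k) s) x = dV e (nab (b k) (B k) s) x +
    A x *ᵥ nab (b k) (B k) s x from rfl, smul_add]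
  abel

end Vale.Agent.P267I
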