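import Vale.Agent.P267I.HD
import Vale.Agent.P267I.LichC

/-! The square of the Dirac operator in affine coordinates. -/

open scoped Manifold ContDiff Topology
open Filter Matrix Metric Finset

noncomputable section

namespace Vale.Agent.P267I.H

open Vale.Agent.P267F Vale.Agent.P267J

/-- The real coordinates as a linear map. -/
def hqCo : C2 →ₗ[ℝ] Fin 4 → ℝ where
  toFun := co
  map_add' := fun v w => by ext a; fin_cases a <;> simp [co]
  map_smul' := fun r v => by ext a; fin_cases a <;> simp [co]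

theorem hq_inj : Function.Injective co := by
  intro v w h
  have h0 := congrFun h 0
  have h1 := congrFun h 1
  have h2 := congrFun h 2
  have h3 := congrFun h 3
  simp only [co, Matrix.cons_val_zero, Matrix.cons_val_one, Matrix.cons_val] at h0 h1 h2 h3
  ext a
  fin_cases a
  · exact Complex.ext h0 h1
  · exact Complex.ext h2 h3

/-- The coordinates in a frame as a continuous linear map. -/
def hqCf (e : Fin 4 → C2) : C2 →L[ℝ] Fin 4 → ℝ :=
  LinearMap.toContinuousLinearMap
    ((Matrix.vecMulLinear (Matrix.of fun a b => co (e a) b)⁻¹) ∘ₗ hqCo)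

theorem hq_cf (e : Fin 4 → C2) (w : C2) : cf e w = hqCf e w := rfl

variable {e : Fin 4 → C2}

theorem hq_sum (h : 0 < fdet e) (w : C2) : ∑ a, cf e w a • e a = w := by
  apply hq_inj
  have h1 : co (∑ a, cf e w a • e a) = cf e w ᵥ* Matrix.of fun a b => co (e a) b := by
    change hqCo _ = _
    rw [map_sum]
    ext b
    simp [vecMul, dotProduct, Finset.sum_apply, hqCo]
  rw [h1, cf, vecMul_vecMul, nonsing_inv_mul _ (isUnit_iff_ne_zero.2 h.ne'), vecMul_one]

theorem hq_self (h : 0 < fdet e) (a b : Fin 4) : cf e (e a) b = if a = b then 1 else 0 := by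
  have := congrFun (congrFun (mul_nonsing_inv (Matrix.of fun a b => co (e a) b)
    (isUnit_iff_ne_zero.2 h.ne')) a) b
  rw [one_apply] at this
  exact this

theorem hq_comb (e : Fin 4 → C2) (t : Fin 4 → ℝ) (u : Fin 4 → C2) (a : Fin 4) :
    cf e (∑ j, t j • u j) a = ∑ j, t j * cf e (u j) a := by
  simp only [hq_cf, map_sum, map_smul, Finset.sum_apply, Pi.smul_apply, smul_eq_mul]

theorem hq_det {M : C2 → Matrix (Fin 4) (Fin 4) ℝ} {x : C2}
    (h : ∀ a b, ContDiffAt ℝ ∞ (fun y => M y a b) x) : ContDiffAt ℝ ∞ (fun y => (M y).det) x := by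
  simp only [det_apply']
  exact ContDiffAt.sum fun σ _ => contDiffAt_const.mul (contDiffAt_prod fun i _ => h _ _)

theorem hq_inv {e : Fin 4 → C2 → C2} {x : C2} (he : ∀ a, ContDiffAt ℝ ∞ (e a) x)
    (h : 0 < fdet fun a => e a x) (w : C2) (a : Fin 4) :
    ContDiffAt ℝ ∞ (fun y => cf (fun a => e a y) w a) x := by
  have h1 : ∀ a b, ContDiffAt ℝ ∞ (fun y => (Matrix.of fun a b => co (e a y) b) a b) x :=
    fun a b => contDiffAt_pi.1
      ((LinearMap.toContinuousLinearMap hqCo).contDiff.contDiffAt.comp x (he a)) b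
  simp only [cf, vecMul, dotProduct, Matrix.inv_def, Ring.inverse_eq_inv', Matrix.smul_apply,
    smul_eq_mul, adjugate_apply]
  refine ContDiffAt.sum fun b _ => contDiffAt_const.mul (((hq_det h1).inv h.ne').mul
    (hq_det fun c d => ?_))
  simp only [updateRow_apply]
  split_ifs
  · exact contDiffAt_const
  · exact h1 c d

/-- The linear part of `Tm`. -/
def hqL (e : Fin 4 → C2) : V →L[ℝ] C2 :=
  ∑ a, (EuclideanSpace.proj a : V →L[ℝ] ℝ).smulRight (e a)

theorem hq_T (y : C2) (e : Fin 4 → C2) (z : V) : HasFDerivAt (Tm y e) (hqL e) z := by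
  have : Tm y e = fun z => y + hqL e z := by
    funext z
    simp [Tm, hqL]
  rw [this]
  exact (hqL e).hasFDerivAt.const_add y

theorem hq_single (e : Fin 4 → C2) (j : Fin 4) : hqL e (EuclideanSpace.single j 1) = e j := by
  simp [hqL, Pi.single_apply]

theorem hq_T0 (y : C2) (e : Fin 4 → C2) : Tm y e 0 = y := by simp [Tm]

theorem hq_Ti (h : 0 < fdet e) (y : C2) (z : V) : Ti y e (Tm y e z) = z := by
  ext a
  simp [Ti, Tm, hq_comb, hq_self h]

theorem hq_pd {g : C2 → ℂ} {y : C2} {z : V} (hg : DifferentiableAt ℝ g (Tm y e z)) (j : Fin 4) :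
    pd j (fun w => g (Tm y e w)) z = fderiv ℝ g (Tm y e z) (e j) := by
  have := (hg.hasFDerivAt.comp z (hq_T y e z)).fderiv
  rw [pd, show (fun w => g (Tm y e w)) = g ∘ Tm y e from rfl, this,
    ContinuousLinearMap.comp_apply, hq_single]

variable {X : Type} [TopologicalSpace X] [ChartedSpace C2 X] [MeasurableSpace X] {N : ℕ}
  {S : Pre X N} {A : X → Fin 4 → C2 → Mat N} {om : X → Fin 4 → Fin 4 → Fin 4 → C2 → ℝ} {p : X}
  {y w : C2}

/-- The connection in the constant frame. -/
def hqA (S : Pre X N) (A : X → Fin 4 → C2 → Mat N) (p : X) (y : C2) (j : Fin 4) (w : C2) :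
    Mat N :=
  ∑ a, (cf (fr S p w) (S.e p j y) a : ℂ) • A p a w

theorem hq_lapA (j : Fin 4) (z : V) : (lap S A om p y).A j z = hqA S A p y j (T S p y z) := by
  simp only [lap, hqA, Complex.coe_smul]

theorem hq_e (hy : y ∈ S.V p) (c : Fin 4) (w : C2) :
    S.e p c w = ∑ j, cf (fr S p y) (S.e p c w) j • S.e p j y :=
  (hq_sum (S.e_pos p y hy) _).symm

theorem hq_A (hy : y ∈ S.V p) (hw : w ∈ S.V p) (c : Fin 4) :
    A p c w = ∑ j, (cf (fr S p y) (S.e p c w) j : ℂ) • hqA S A p y j w := by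
  simp only [hqA, smul_sum, smul_smul, ← Complex.ofReal_mul]
  rw [sum_comm]
  simp only [← sum_smul, ← Complex.ofReal_sum, ← hq_comb, ← hq_e hy]
  have : ∀ a, cf (fr S p w) (S.e p c w) a = if c = a then 1 else 0 :=
    hq_self (S.e_pos p w hw) c
  simp [this, apply_ite]

theorem hq_θ (hw : w ∈ S.V p) (c j : Fin 4) :
    HasFDerivAt (fun w => cf (fr S p y) (S.e p c w) j)
      ((ContinuousLinearMap.proj j).comp ((hqCf (fr S p y)).comp (fderiv ℝ (S.e p c) w))) w :=
  ((ContinuousLinearMap.proj j : (Fin 4 → ℝ) →L[ℝ] ℝ).hasFDerivAt.comp w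
    ((hqCf (fr S p y)).hasFDerivAt.comp w (Pre.e_df hw c).hasFDerivAt))

theorem hq_dfA (hL : S.IsLC A om) (hw : w ∈ S.V p) (j : Fin 4) : DfM (hqA S A p y j) w := by
  intro i m
  simp only [hqA, Matrix.sum_apply, Matrix.smul_apply, smul_eq_mul]
  exact DifferentiableAt.fun_sum fun a _ => (Complex.ofRealCLM.differentiableAt.comp w
    ((hq_inv (Pre.e_cd hw) (S.e_pos p w hw) _ a).differentiableAt (by simp))).fun_mul
    (hL.A_df hw a i m)

theorem hq_pdM (hL : S.IsLC A om) {z : V} (hz : T S p y z ∈ S.V p) (j k : Fin 4) :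
    pdM j ((lap S A om p y).A k) z = dM (fun _ => S.e p j y) (hqA S A p y k) (T S p y z) := by
  ext i m
  simp only [pdM, dM, of_apply, hq_lapA]
  exact hq_pd (hq_dfA hL hz k i m) j

/-- The curvature at the centre. -/
theorem hq_curv (hL : S.IsLC A om) (hy : y ∈ S.V p) (j k : Fin 4) :
    (lap S A om p y).F j k 0 = S.Om A om p j k y := by
  have h0 : T S p y 0 = y := hq_T0 _ _
  have hs := hq_self (S.e_pos p y hy)
  have h1 : ∀ j, hqA S A p y j y = A p j y := fun j => by
    have : ∀ a, cf (fr S p y) (S.e p j y) a = if j = a then 1 else 0 := hs j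
    simp [hqA, this, apply_ite]
  have h2 : ∀ j k, dM (S.e p j) (A p k) y = dM (fun _ => S.e p j y) (hqA S A p y k) y +
      ∑ l, (cf (fr S p y) (fderiv ℝ (S.e p k) y (S.e p j y)) l : ℂ) • A p l y := by
    intro j k
    have : ∀ a, cf (fr S p y) (S.e p k y) a = if k = a then 1 else 0 := hs k
    rw [dM_congr ((Pre.lichS_nhds hy).mono fun w hw => hq_A (A := A) hy hw k),
      dM_comb' (fun l => (hq_θ hy k l).differentiableAt) (hq_dfA hL hy), sum_add_distrib, add_comm]
    simp only [(hq_θ hy k _).fderiv, h1, this]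
    congr 1
    simp [apply_ite]
    rfl
  have h3 : ∀ l, om p j k l y - om p k j l y =
      cf (fr S p y) (fderiv ℝ (S.e p k) y (S.e p j y)) l -
        cf (fr S p y) (fderiv ℝ (S.e p j) y (S.e p k y)) l := by
    intro l
    have : ∀ a, cf (fr S p y) (S.e p a y) l = if a = l then 1 else 0 := fun a => hs a l
    rw [← Pi.sub_apply (cf _ _), hq_cf, hq_cf, ← map_sub, hL.tf p j k y hy, ← hq_cf, hq_comb]
    simp [this]
  rw [Lap.F, hq_pdM hL (h0.symm ▸ hy), hq_pdM hL (h0.symm ▸ hy), hq_lapA, hq_lapA, h0, h1, h1,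
    Pre.Om_eq_Om, Om, h2, h2]
  simp only [h3, Complex.ofReal_sub, sub_smul, sum_sub_distrib]
  abel

theorem hq_den (hL : S.IsLC A om) (hy : y ∈ S.V p) :
    (lap S A om p y).den S.toCl = (S.dens A om p y).re := by
  have h0 : (lap S A om p y).E 0 = S.E A om p y := congrArg (S.E A om p) (hq_T0 _ _)
  rw [Lap.den, Pre.dens, h0, show (16 * Real.pi ^ 2 : ℂ)⁻¹ = ((16 * Real.pi ^ 2 : ℝ)⁻¹ : ℝ) by
    push_cast; rfl, Complex.re_ofReal_mul]
  simp only [hq_curv hL hy]

/-- The connection Laplacian in the constant frame. -/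
theorem hq_lap (hL : S.IsLC A om) (hy : y ∈ S.V p) {z : V} (hz : T S p y z ∈ S.V p)
    {f : C2 → Vec N} (h1 : ∀ i, ContDiffAt ℝ 2 (fun y => f y i) (T S p y z)) :
    -∑ a, (nab (S.e p a) (A p a) (nab (S.e p a) (A p a) f) (T S p y z) -
      ∑ k, (om p a a k (T S p y z) : ℂ) • nab (S.e p k) (A p k) f (T S p y z)) =
      -∑ j, ∑ k, ((lap S A om p y).a j k z : ℂ) • nab (fun _ => S.e p j y) (hqA S A p y j)
        (nab (fun _ => S.e p k y) (hqA S A p y k) f) (T S p y z) +
      ∑ j, ((lap S A om p y).β j z : ℂ) •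
        nab (fun _ => S.e p j y) (hqA S A p y j) f (T S p y z) := by
  have hb : ∀ k, DifferentiableAt ℝ (fun _ : C2 => S.e p k y) (T S p y z) :=
    fun k => differentiableAt_const _
  have h2 := fun c => nab_nab_frame (b := fun j _ => S.e p j y) (B := hqA S A p y)
    (θ := fun j w => cf (fr S p y) (S.e p c w) j) (η := fun j w => cf (fr S p y) (S.e p c w) j)
    (hq_e hy c _) (hq_A hy hz c) (.of_forall fun w => hq_e hy c w)
    ((Pre.lichS_nhds hz).mono fun w hw => hq_A hy hw c)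
    (fun l => (hq_θ hz c l).differentiableAt) hb (hq_dfA hL hz) h1
  have h3 := fun c => nab_frame (b := fun j _ => S.e p j y) (B := hqA S A p y) (s := f)
    (θ := fun j w => cf (fr S p y) (S.e p c w) j) (hq_e hy c _) (hq_A (A := A) hy hz c)
  have b1 : ∀ j, (lap S A om p y).β j z =
      ∑ c, (∑ k, om p c c k (T S p y z) * cf (fr S p y) (S.e p k (T S p y z)) j -
        cf (fr S p y) (fderiv ℝ (S.e p c) (T S p y z) (S.e p c (T S p y z))) j) := by
    intro j
    simp only [lap, hq_cf, map_sum, map_sub, map_smul, Finset.sum_apply, Pi.sub_apply,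
      Pi.smul_apply, smul_eq_mul]
  have a1 : ∀ j k, (lap S A om p y).a j k z = ∑ c, cf (fr S p y) (S.e p c (T S p y z)) j *
      cf (fr S p y) (S.e p c (T S p y z)) k := fun _ _ => rfl
  simp only [h2, h3, (hq_θ hz _ _).fderiv, a1, b1, Complex.ofReal_sum, Complex.ofReal_sub,
    sum_smul, sub_smul, sum_sub_distrib, sum_add_distrib, smul_sum, smul_smul,
    Complex.ofReal_mul, ContinuousLinearMap.comp_apply, ContinuousLinearMap.proj_apply, ← hq_cf]
  have s3 : ∀ g : Fin 4 → Fin 4 → Fin 4 → Vec N,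
      ∑ c, ∑ j, ∑ k, g c j k = ∑ j, ∑ k, ∑ c, g c j k := fun g => by
    rw [sum_comm]
    exact sum_congr rfl fun j _ => sum_comm
  rw [s3, sum_comm (f := fun c k => (cf (fr S p y) (fderiv ℝ (S.e p c) _ _) k : ℂ) • _),
    s3 fun j c k => ((om p c c k (T S p y z) : ℂ) * _) • _]
  abel

end Vale.Agent.P267I.H
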