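import Vale.Agent.P267I.HOp1
import Vale.Agent.P267I.HLin
import Vale.Agent.P267I.HOq
import Vale.Agent.P267I.HJ

/-! Second order change of frame. nab_T for nab f at z (DfV_nab), and nab_T for f at all points near z (T w ∈ V p, ContDiffAt.eventually), EventuallyEq.fderiv_eq, Leibniz rule for nab of (real function) • (section), cf_e_fd, cf_lc (or cf_lin) for β. -/

open scoped Manifold ContDiff Topology Matrix.Norms.L2Operator ComplexConjugate
open Filter Matrix MeasureTheory Metric

noncomputable section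

namespace Vale.Agent.P267I.H

open Vale.Agent.P267F Vale.Agent.P267J

set_option linter.unusedSectionVars false

variable {X : Type} [TopologicalSpace X] [ChartedSpace C2 X] [MeasurableSpace X] [BorelSpace X]
  {N : ℕ} {S : Pre X N} {A : X → Fin 4 → C2 → Mat N} {om : X → Fin 4 → Fin 4 → Fin 4 → C2 → ℝ}
  {p : X} {y : C2} {r : ℝ} {e : Fin 4 → C2} {J : Type} {φ : J → X → Vec N} {lam eps : J → ℝ}

theorem hop3_nab {z : V} {g : C2 → Vec N} (hg : DfV g (T S p y z)) (j : Fin 4) :
    nab (ee j) ((lap S A om p y).A j) (fun w => g (T S p y w)) z =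
      nab (fun _ => S.e p j y) (hqA S A p y j) g (T S p y z) := by
  rw [nab, nab, hq_lapA]
  congr 1
  funext i
  exact hq_pd (g := fun w => g w i) (hg i) j

theorem nab2_T (hA : S.IsLC A om) (hy : y ∈ S.V p) {z : V} (hz : T S p y z ∈ S.V p)
    {f : C2 → Vec N} (hf : ∀ i, ContDiffAt ℝ 2 (fun w => f w i) (T S p y z)) :
    -∑ a, (nab (S.e p a) (A p a) (nab (S.e p a) (A p a) f) (T S p y z) -
        ∑ k, (om p a a k (T S p y z) : ℂ) • nab (S.e p k) (A p k) f (T S p y z)) =
      -(∑ j, ∑ k, ((lap S A om p y).a j k z : ℂ) • nab (ee j) ((lap S A om p y).A j)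
          (nab (ee k) ((lap S A om p y).A k) fun w => f (T S p y w)) z) +
        ∑ j, ((lap S A om p y).β j z : ℂ) •
          nab (ee j) ((lap S A om p y).A j) (fun w => f (T S p y w)) z := by
  have h1 : ∀ k, ∀ᶠ w in 𝓝 z, nab (ee k) ((lap S A om p y).A k) (fun w => f (T S p y w)) w =
      nab (fun _ => S.e p k y) (hqA S A p y k) f (T S p y w) := fun k =>
    ((hq_T y (fr S p y) z).continuousAt.eventually
      (eventually_all.2 fun i => (hf i).eventually (by simp))).mono
      fun w hw => hop3_nab (DfV_of_two hw) k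
  have h2 : ∀ j k, nab (ee j) ((lap S A om p y).A j)
      (nab (ee k) ((lap S A om p y).A k) fun w => f (T S p y w)) z =
      nab (fun _ => S.e p j y) (hqA S A p y j)
        (nab (fun _ => S.e p k y) (hqA S A p y k) f) (T S p y z) := by
    intro j k
    rw [← hop3_nab (om := om) (DfV_nab hf (differentiableAt_const _) (hq_dfA hA hz k)) j, nab,
      dV_congr (h1 k), (h1 k).self_of_nhds]
    rfl
  rw [hq_lap hA hy hz hf]
  simp only [h2, (h1 _).self_of_nhds]

end Vale.Agent.P267I.H
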