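import Vale.Agent.P267I.HD
import Vale.Agent.P267I.GBas

/-! The projections. -/

open scoped Manifold ContDiff Topology Matrix.Norms.L2Operator ComplexConjugate
open Filter Matrix MeasureTheory Metric

noncomputable section

namespace Vale.Agent.P267I.H

open Vale.Agent.P267F Vale.Agent.P267J

set_option linter.unusedSectionVars false

variable {X : Type} [TopologicalSpace X] [ChartedSpace C2 X] [MeasurableSpace X] [BorelSpace X]
  {N : ℕ} {S : Pre X N} {A : X → Fin 4 → C2 → Mat N} {om : X → Fin 4 → Fin 4 → Fin 4 → C2 → ℝ}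
  {p : X} {y : C2} {r : ℝ} {e : Fin 4 → C2} {J : Type} {φ : J → X → Vec N} {lam eps : J → ℝ}

theorem hpc_col (C : Cl N) (i m : Fin N) : ‖C.gam i m‖ ≤ 1 := by
  have h1 : C.gamᴴ * C.gam = 1 := by rw [gam_herm C, gam_sq C]
  have h2 := congrFun (congrFun h1 m) m
  rw [Matrix.mul_apply, Matrix.one_apply_eq] at h2
  have h3 : ∑ k, ‖C.gam k m‖ ^ 2 = 1 := by
    apply Complex.ofReal_injective
    push_cast
    rw [← h2]
    refine Finset.sum_congr rfl fun k _ => ?_
    rw [conjTranspose_apply, Complex.star_def, Complex.conj_mul']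
  have h4 : ‖C.gam i m‖ ^ 2 ≤ 1 := h3 ▸
    Finset.single_le_sum (f := fun k => ‖C.gam k m‖ ^ 2) (fun _ _ => sq_nonneg _) (Finset.mem_univ i)
  exact (sq_le_one_iff₀ (norm_nonneg _)).1 h4

theorem Pc_le (C : Cl N) {ε : ℂ} (hε : ε = 1 ∨ ε = -1) (m i : Fin N) : ‖Pc C ε m i‖ ≤ 1 := by
  have h1 : ‖ε‖ = 1 := by rcases hε with rfl | rfl <;> simp
  have h2 : ‖(1 : Mat N) i m‖ ≤ 1 := by
    rw [Matrix.one_apply]
    split_ifs <;> simp
  have h3 := hpc_col C i m
  have h4 := norm_add_le ((1 : Mat N) i m) (ε * C.gam i m)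
  rw [norm_mul, h1] at h4
  simp only [Pc, Matrix.smul_apply, Matrix.add_apply, smul_eq_mul, norm_mul]
  have h5 : ‖(1 / 2 : ℂ)‖ = 1 / 2 := by simp
  rw [h5]
  linarith

theorem hpc_sum (C : Cl N) {u : Vec N} {a : ℝ} (hu : C.gam *ᵥ u = (a : ℂ) • u) (ε : ℝ) (m : Fin N) :
    ∑ i, conj (u i) * Pc C ε m i = ((1 + ε * a) / 2 : ℝ) * conj (u m) := by
  have h1 : ∑ i, conj (u i) * C.gam i m = a * conj (u m) := by
    have h2 := congrArg conj (congrFun hu m)
    simp only [mulVec, dotProduct, map_sum, map_mul, Pi.smul_apply, smul_eq_mul,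
      Complex.conj_ofReal] at h2
    rw [← h2]
    refine Finset.sum_congr rfl fun i _ => ?_
    have h3 := congrFun (congrFun (gam_herm C) i) m
    rw [conjTranspose_apply, Complex.star_def] at h3
    rw [h3, mul_comm]
  have h4 : ∀ i, conj (u i) * Pc C ε m i = 1 / 2 * (if i = m then conj (u i) else 0) +
      ε / 2 * (conj (u i) * C.gam i m) := fun i => by
    simp only [Pc, Matrix.smul_apply, Matrix.add_apply, smul_eq_mul, Matrix.one_apply]
    split_ifs <;> ring
  simp only [h4, Finset.sum_add_distrib, ← Finset.mul_sum, h1, Finset.sum_ite_eq',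
    Finset.mem_univ, if_true]
  push_cast
  ring

theorem Pc_sum (C : Cl N) {u : Vec N} {a : ℝ} (ha : a = 1 ∨ a = -1)
    (hu : C.gam *ᵥ u = (a : ℂ) • u) :
    ∑ m, ‖∑ i, conj (u i) * Pc C 1 m i‖ ^ 2 = (1 + a) / 2 * H.nsq u ∧
    ∑ m, ‖∑ i, conj (u i) * Pc C (-1) m i‖ ^ 2 = (1 - a) / 2 * H.nsq u := by
  have h1 := hpc_sum C hu 1
  have h2 := hpc_sum C hu (-1)
  rw [Complex.ofReal_one] at h1
  rw [Complex.ofReal_neg, Complex.ofReal_one] at h2
  simp only [h1, h2, norm_mul, mul_pow, Complex.norm_real, Real.norm_eq_abs, sq_abs,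
    Complex.norm_conj, H.nsq, ← Finset.mul_sum]
  rcases ha with rfl | rfl <;> constructor <;> norm_num

end Vale.Agent.P267I.H
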