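import Vale.Agent.P267I.HSec
import Vale.Agent.P267I.HOp

/-! The spectral resolution in the ball. -/

open scoped Manifold ContDiff Topology Matrix.Norms.L2Operator ComplexConjugate
open Filter Matrix MeasureTheory Metric

noncomputable section

namespace Vale.Agent.P267I.H

open Vale.Agent.P267F Vale.Agent.P267J

set_option linter.unusedSectionVars false

variable {X : Type} [TopologicalSpace X] [ChartedSpace C2 X] [MeasurableSpace X] [BorelSpace X]
  {N : ℕ} {S : Pre X N} {A : X → Fin 4 → C2 → Mat N} {om : X → Fin 4 → Fin 4 → Fin 4 → C2 → ℝ}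
  {p : X} {y : C2} {r : ℝ} {e : Fin 4 → C2} {J : Type} {φ : J → X → Vec N} {lam eps : J → ℝ}

theorem spec_of (hX : IsSurface X) (hA : S.IsLC A om) (hB : S.IsOp (S.BofA A))
    (hb : Bas S (S.BofA A) φ lam eps) (hI : In S p y r) :
    Spec r (lap S A om p y).op lam fun j => psi S p y (φ j) := by
  refine ⟨hb.nonneg, fun j i => psi_cont hI (hb.sm j) i, fun j v hv => ?_, fun v hv => ?_⟩
  · have t0 := inC_tst hI hv
    have t1 : TstV (S.V p) (S.Dloc (S.BofA A) p (inC S p y v)) := (pop_tst (locOp hB p) t0).1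
    have t2 : TstV (S.V p) (S.Dloc (S.BofA A) p (S.Dloc (S.BofA A) p (inC S p y v))) :=
      (pop_tst (locOp hB p) t1).1
    have e := op_app hA hI hv
    rw [← sec_ip hI.1 t0.2.2, ← sec_ip hI.1 (e ▸ t2.2.2), e, ← D_ext hX hB t1, ← D_ext hX hB t0]
    exact hb.eig j _ (ext_sm hX t0)
  · have t0 := inC_tst hI hv
    have k := hb.pars _ (ext_sm hX t0)
    rw [ip_re, sec_n2 (A := A) (om := om) hI.1 t0.2.2] at k
    simp only [sec_ip hI.1 t0.2.2] at k
    exact k

end Vale.Agent.P267I.H
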