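import Vale.Agent.P267I.HAn
import Vale.Agent.P267I.HSpec
import Vale.Agent.P267I.HBd
import Vale.Agent.P267I.HOk
import Vale.Agent.P267I.HDen
import Vale.Agent.P267I.HAlg

/-! The pointwise expansion, uniform on compact sets. lap_bnd, heat_str, hP with algOf, lap_ok, spec_of; psi_zero, loc_chart, nsq_U, S.U_gam, den_eq. -/

open scoped Manifold ContDiff Topology Matrix.Norms.L2Operator ComplexConjugate
open Filter Matrix MeasureTheory Metric

noncomputable section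

namespace Vale.Agent.P267I.H

open Vale.Agent.P267F Vale.Agent.P267J

set_option linter.unusedSectionVars false

variable {X : Type} [TopologicalSpace X] [ChartedSpace C2 X] [MeasurableSpace X] [BorelSpace X]
  {N : ℕ} {S : Pre X N} {A : X → Fin 4 → C2 → Mat N} {om : X → Fin 4 → Fin 4 → Fin 4 → C2 → ℝ}
  {p : X} {y : C2} {r : ℝ} {e : Fin 4 → C2} {J : Type} {φ : J → X → Vec N} {lam eps : J → ℝ}

theorem ptw (hP : AlgPw N) (hX : IsSurface X) (hA : S.IsLC A om) (hB : S.IsOp (S.BofA A))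
    (hb : Bas S (S.BofA A) φ lam eps) (p : X) {K : Set C2} (hK : IsCompact K) (hV : K ⊆ S.V p) :
    ∃ C : ℝ, ∀ x ∈ S.W p, chartAt C2 p x ∈ K → ∀ s ∈ Set.Ioc (0 : ℝ) 1,
      Summable (fun j => Real.exp (-(2 * s ^ 2 * lam j)) * H.nsq (φ j x)) ∧
      ∑' j, Real.exp (-(2 * s ^ 2 * lam j)) * H.nsq (φ j x) ≤ C / s ^ 4 ∧
      |∑' j, eps j * Real.exp (-(2 * s ^ 2 * lam j)) * H.nsq (φ j x) -
        (S.dens A om p (chartAt C2 p x)).re| ≤ C * s := by
  obtain ⟨r, hr, M, hM⟩ := lap_bnd hA hK hV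
  obtain ⟨C, hC⟩ := heat_str N M hr
  obtain ⟨τ, W, g, hg⟩ := algOf hA
  refine ⟨C, fun x hx hxK s hs => ?_⟩
  obtain ⟨hI, hb'⟩ := hM _ hxK
  have hS := spec_of hX hA hB hb hI
  have h0 : ∀ j, (fun i => psi S p (chartAt C2 p x) (φ j) i 0) = S.U p x *ᵥ φ j x := fun j => by
    rw [psi_zero hI.1, loc_chart S hx]
  have h1 := hC S.toCl _ _ hb' (hP S.toCl τ W g hg.1 hg.2.1 r _ hr (lap_ok hA hg hI) J lam _ hS)
    J lam eps _ hS hb.sgn (fun j => by
      rw [h0, mulVec_mulVec, ← S.U_gam, ← mulVec_mulVec, hb.geig, mulVec_smul]) s hs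
  have h2 : ∀ j, H.nsq (fun i => psi S p (chartAt C2 p x) (φ j) i 0) = H.nsq (φ j x) := fun j => by
    rw [h0]
    exact nsq_U S p x _
  simp only [h2, den_eq hA hI.1] at h1
  exact h1

end Vale.Agent.P267I.H
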