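import Vale.Agent.P267I.HIn

/-! Differentiate ∑ b, θ b z • e b (T z) = e k y (cf_sum, valid near 0) at z = 0, θ b 0 = δ (cf_self, Tm_zero), Tm_fd1, then cf_comb. -/

open scoped Manifold ContDiff Topology Matrix.Norms.L2Operator ComplexConjugate
open Filter Matrix MeasureTheory Metric

noncomputable section

namespace Vale.Agent.P267I.H

open Vale.Agent.P267F Vale.Agent.P267J

set_option linter.unusedSectionVars false

variable {X : Type} [TopologicalSpace X] [ChartedSpace C2 X] [MeasurableSpace X] [BorelSpace X]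
  {N : ℕ} {S : Pre X N} {A : X → Fin 4 → C2 → Mat N} {om : X → Fin 4 → Fin 4 → Fin 4 → C2 → ℝ}
  {p : X} {y : C2} {r : ℝ} {e : Fin 4 → C2} {J : Type} {φ : J → X → Vec N} {lam eps : J → ℝ}

theorem th_fd (hy : y ∈ S.V p) (j k a : Fin 4) :
    DifferentiableAt ℝ (fun z => cf (fr S p (T S p y z)) (S.e p k y) a) 0 ∧
    fderiv ℝ (fun z => cf (fr S p (T S p y z)) (S.e p k y) a) 0 (EuclideanSpace.single j 1) =
      -cf (fr S p y) (fderiv ℝ (S.e p k) y (S.e p j y)) a := by
  have hT0 : T S p y 0 = y := Tm_zero _ _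
  have hTs : ContDiff ℝ ∞ (T S p y) := Tm_sm _ _
  have hU : IsOpen (T S p y ⁻¹' S.V p) := (V_open S p).preimage hTs.continuous
  have h0 : (0 : V) ∈ T S p y ⁻¹' S.V p := by
    rw [Set.mem_preimage, hT0]
    exact hy
  have hn := hU.mem_nhds h0
  have he : ∀ b, ContDiffOn ℝ ∞ (fun z => S.e p b (T S p y z)) (T S p y ⁻¹' S.V p) := fun b =>
    (S.e_sm p b).comp hTs.contDiffOn fun z hz => hz
  have hd : ∀ z ∈ T S p y ⁻¹' S.V p, fdet (fr S p (T S p y z)) ≠ 0 := fun z hz =>
    (S.e_pos p _ hz).ne'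
  have hd0 : fdet (fr S p y) ≠ 0 := (S.e_pos p _ hy).ne'
  have hθ : ∀ b, DifferentiableAt ℝ (fun z => cf (fr S p (T S p y z)) (S.e p k y) b) 0 := fun b =>
    ((cf_sm (f := fun z => fr S p (T S p y z)) he contDiffOn_const hd b).contDiffAt
      hn).differentiableAt (by simp)
  refine ⟨hθ a, ?_⟩
  have hE : ∀ b, HasFDerivAt (fun z => S.e p b (T S p y z))
      ((fderiv ℝ (S.e p b) y).comp (fderiv ℝ (T S p y) 0)) 0 := fun b => by
    have h1 : HasFDerivAt (S.e p b) (fderiv ℝ (S.e p b) y) (T S p y 0) := by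
      rw [hT0]
      exact (((S.e_sm p b).contDiffAt ((V_open S p).mem_nhds hy)).differentiableAt
        (by simp)).hasFDerivAt
    exact h1.comp 0 (hTs.differentiable (by simp) 0).hasFDerivAt
  have h2 := HasFDerivAt.fun_sum (u := Finset.univ) fun b _ => (hθ b).hasFDerivAt.fun_smul (hE b)
  have h3 : HasFDerivAt (fun z => ∑ b, cf (fr S p (T S p y z)) (S.e p k y) b • S.e p b (T S p y z))
      (0 : V →L[ℝ] C2) 0 := by
    refine (hasFDerivAt_const (S.e p k y) 0).congr_of_eventuallyEq ?_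
    filter_upwards [hn] with z hz
    exact cf_sum (hd z hz) _
  have h4 := congrArg (fun L : V →L[ℝ] C2 => L (EuclideanSpace.single j 1)) (h2.unique h3)
  have h5 : fderiv ℝ (T S p y) 0 (EuclideanSpace.single j 1) = S.e p j y := Tm_fd1 _ _ _ _
  have h6 : ∀ b, cf (fr S p y) (S.e p k y) b = if k = b then 1 else 0 := fun b => cf_self hd0 k b
  simp only [ContinuousLinearMap.sum_apply, ContinuousLinearMap.add_apply,
    ContinuousLinearMap.smul_apply, ContinuousLinearMap.comp_apply,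
    ContinuousLinearMap.smulRight_apply, ContinuousLinearMap.zero_apply, h5, hT0, h6,
    Finset.sum_add_distrib, ite_smul, one_smul, zero_smul, Finset.sum_ite_eq, Finset.mem_univ,
    if_true] at h4
  obtain ⟨L, hL⟩ := cf_lin (fr S p y)
  have h7 := congrFun (cf_comb hd0 fun b => fderiv ℝ
    (fun z => cf (fr S p (T S p y z)) (S.e p k y) b) 0 (EuclideanSpace.single j 1)) a
  rw [← h7, ← hL, ← hL, eq_neg_iff_add_eq_zero, ← Pi.add_apply, ← map_add, add_comm]
  have h8 := congrArg (fun w => L w a) h4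
  simpa only [map_zero, Pi.zero_apply, fr] using h8

end Vale.Agent.P267I.H
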