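import Vale.Agent.P267I.K0

/-! The local heat parametrix: more definitions. -/

open Finset MeasureTheory

noncomputable section

namespace Vale.Agent.P267I.K

variable {M : Type} [NormedRing M] [NormedAlgebra ℝ M] [StarRing M] {Y : Type}

/-- The parametrix centred at `0`, on the unit ball. -/
structure Par0 (τ : M →L[ℝ] ℝ) (H : (E4 → M) → E4 → M) (ρ : E4 → ℝ) (d δ C : ℝ)
    (Φ : ℝ → E4 → M) : Prop where
  pos : 0 < C
  sm : ContDiffOn ℝ (⊤ : ℕ∞) (fun p : ℝ × E4 => Φ p.1 p.2) (Set.Ioi 0 ×ˢ Set.univ)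
  rem : ∀ t ∈ Set.Ioc (0 : ℝ) 1, ∀ z, ‖z‖ ≤ 1 →
    ‖deriv (fun s => Φ s z) t + H (Φ t) z‖ ≤ (√t)⁻¹ * gb C t z
  bd : ∀ t ∈ Set.Ioc (0 : ℝ) 1, ∀ z, ‖z‖ ≤ 1 → ‖Φ t z‖ ≤ (t ^ 2)⁻¹ * gb C t z
  bd1 : ∀ t ∈ Set.Ioc (0 : ℝ) 1, ∀ z, ‖z‖ ≤ 1 → ∀ i,
    ‖pd i (Φ t) z‖ ≤ (t ^ 2 * √t)⁻¹ * gb C t z
  ini : ∀ t ∈ Set.Ioc (0 : ℝ) 1, ∀ z, ‖z‖ ≤ 1 →
    ‖Φ t z - gs t z • (1 : M)‖ ≤ (t * √t)⁻¹ * gb C t z
  lim : ∀ χ : E4 → ℝ, Measurable χ → (∀ z, |χ z| ≤ 1) → (∀ z, ‖z‖ ≤ δ → χ z = 1) →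
    (∀ z, 1 < ‖z‖ → χ z = 0) → ∀ t ∈ Set.Ioc (0 : ℝ) 1,
      |∫ z, χ z * τ (star (Φ t z) * Φ t z) * ρ z - d| ≤ C * √t

/-- The polynomial part of the parametrix. -/
def Sp (p : ℕ → Y → E4 → M) (y : Y) (ε : ℝ) (x : E4) : M := ∑ k ∈ range 5, ε ^ k • p k y x

/-- The explicit part of the term of weight four. -/
def P4 (E : M) (Ω : Fin 4 → Fin 4 → M) (x : E4) : M :=
  (1 / 2 : ℝ) • (E * E) + (1 / 12 : ℝ) • (∑ i, ∑ j, Ω j i * Ω j i) +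
    (1 / 12 : ℝ) • ∑ i, ∑ j, ∑ k, (x j * x k) • (Ω j i * Ω k i)

/-- The rescaled heat operator applied to a term of weight `k`. -/
def Br (a : Fin 4 → Fin 4 → E4 → M) (b : Fin 4 → E4 → M) (c : E4 → M) (k : ℕ) (ε : ℝ)
    (q : E4 → M) (x : E4) : M :=
  Lk k q x + ∑ i, Dg i (Dg i q) x +
    Tg (fun i j w => a i j (ε • w)) (fun i w => ε • b i (ε • w)) (fun w => ε ^ 2 • c (ε • w)) q x

/-- A gauge transformation `U` from `(A, En)` to `(A', En')`, with a parameter. -/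
structure Gau (W g : Submodule ℝ M) (U : E4 × E4 → M) (A : Fin 4 → E4 × E4 → M)
    (En : E4 × E4 → M) (A' : Fin 4 → E4 × E4 → M) (En' : E4 × E4 → M) : Prop where
  sU : ContDiff ℝ (⊤ : ℕ∞) U
  sA : ∀ i, ContDiff ℝ (⊤ : ℕ∞) (A' i)
  sE : ContDiff ℝ (⊤ : ℕ∞) En'
  Ag : ∀ i p, A' i p ∈ g
  EW : ∀ p, En' p ∈ W
  un : ∀ p, star (U p) * U p = 1
  U0 : ∀ y, U (y, 0) = 1
  eqA : ∀ i y z, pd i (fun w => U (y, w)) z + A i (y, z) * U (y, z) = U (y, z) * A' i (y, z)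
  eqE : ∀ p, En p * U p = U p * En' p

/-- First order coefficients of the expanded operator. -/
def cb (a : E4 → Fin 4 → Fin 4 → ℝ) (β : E4 → Fin 4 → ℝ) (A : Fin 4 → E4 → M) (i : Fin 4)
    (x : E4) : M :=
  β x i • (1 : M) - ∑ j, (a x i j + a x j i) • A j x

/-- The part of the order zero coefficient which is linear in the connection. -/
def cw (a : E4 → Fin 4 → Fin 4 → ℝ) (β : E4 → Fin 4 → ℝ) (A : Fin 4 → E4 → M) (En : E4 → M)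
    (x : E4) : M :=
  En x + ∑ j, β x j • A j x - ∑ i, ∑ j, a x i j • pd i (A j) x

/-- The order zero coefficient. -/
def cc (a : E4 → Fin 4 → Fin 4 → ℝ) (β : E4 → Fin 4 → ℝ) (A : Fin 4 → E4 → M) (En : E4 → M)
    (x : E4) : M :=
  cw a β A En x - ∑ i, ∑ j, a x i j • (A i x * A j x)

/-- A family of operators in normal gauge at `z = 0`. -/
structure Fam (W g : Submodule ℝ M) (a : E4 × E4 → Fin 4 → Fin 4 → ℝ) (β : E4 × E4 → Fin 4 → ℝ)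
    (A : Fin 4 → E4 × E4 → M) (En : E4 × E4 → M) (Ω : Fin 4 → Fin 4 → E4 → M) : Prop where
  sa : ∀ i j, ContDiff ℝ (⊤ : ℕ∞) fun p => a p i j
  sβ : ∀ i, ContDiff ℝ (⊤ : ℕ∞) fun p => β p i
  sA : ∀ i, ContDiff ℝ (⊤ : ℕ∞) (A i)
  sE : ContDiff ℝ (⊤ : ℕ∞) En
  Ag : ∀ i p, A i p ∈ g
  EW : ∀ p, En p ∈ W
  a0 : ∀ y i j, a (y, 0) i j = if i = j then 1 else 0
  A0 : ∀ i y, A i (y, 0) = 0
  A1 : ∀ i j y, pd j (fun w => A i (y, w)) 0 = (1 / 2 : ℝ) • Ω j i y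
  anti : ∀ i j y, Ω i j y = -Ω j i y

namespace Op

variable (O : Op M)

/-- The inverse of the orthonormal coordinates. -/
def ps (y z : E4) : E4 := fun i => y i + ∑ a, z a * O.e y a i

/-- The inverse metric in the new coordinates. -/
def a1 (p : E4 × E4) (a b : Fin 4) : ℝ :=
  ∑ i, ∑ j, O.th p.1 a i * O.th p.1 b j * O.a (O.ps p.1 p.2) i j

/-- The first order term in the new coordinates. -/
def β1 (p : E4 × E4) (a : Fin 4) : ℝ := ∑ i, O.th p.1 a i * O.β (O.ps p.1 p.2) i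

/-- The connection in the new coordinates. -/
def A1 (a : Fin 4) (p : E4 × E4) : M := ∑ i, O.e p.1 a i • O.A i (O.ps p.1 p.2)

/-- The potential in the new coordinates. -/
def E1 (p : E4 × E4) : M := O.En (O.ps p.1 p.2)

/-- The density in the new coordinates. -/
def ρ1 (p : E4 × E4) : ℝ := O.ρ (O.ps p.1 p.2) * |(Matrix.of (O.e p.1)).det|

/-- The operator in the new coordinates. -/
def H1 (y : E4) : (E4 → M) → E4 → M :=
  Hgen (fun z => O.a1 (y, z)) (fun z => O.β1 (y, z)) (fun i z => O.A1 i (y, z))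
    (fun z => O.E1 (y, z))

end Op

end Vale.Agent.P267I.K
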