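import Vale.Agent.P267I.KN2

/-! The normal form. qa: taylor in W0 (W0_closed) of a • 1, n = 5. qb: taylor in W of cb, n = 4; its q 0 is β (y,0) • 1 = q 0 of the expansion of β • 1 in W0, its q 1 plus sum x j • Ω j i is q 1 of that expansion (pd_smul, pd_sum, A0, a0, A1). qc k = qw k - (if k = 2 then quarter term else 0), qw from taylor in W of cw (smooth by pd2_smooth, in W by pd_mem), n = 3, remainder with Fam.quad; cw (y, 0) = En (y, 0) since Ω i i = 0 (anti). -/

open Finset MeasureTheory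

noncomputable section

namespace Vale.Agent.P267I.K

variable {M : Type} [NormedRing M] [NormedAlgebra ℝ M] [StarRing M] {Y : Type}
variable {τ : M →L[ℝ] ℝ} {W g : Submodule ℝ M} {a : E4 × E4 → Fin 4 → Fin 4 → ℝ}
  {β : E4 × E4 → Fin 4 → ℝ} {A : Fin 4 → E4 × E4 → M} {En : E4 × E4 → M}
  {Ω : Fin 4 → Fin 4 → E4 → M}

theorem kn3_sl {F : Type} [NormedAddCommGroup F] [NormedSpace ℝ F] {u : E4 × E4 → F}
    (hu : ContDiff ℝ (⊤ : ℕ∞) u) (y : E4) : ContDiff ℝ (⊤ : ℕ∞) fun w => u (y, w) :=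
  hu.comp (contDiff_const.prodMk contDiff_id)

theorem kn3_b (h : Fam W g a β A En Ω) (y : E4) (i k : Fin 4) :
    pd k (fun w => β (y, w) i • (1 : M) - ∑ j, (a (y, w) i j + a (y, w) j i) • A j (y, w)) 0 =
      pd k (fun w => β (y, w) i • (1 : M)) 0 - Ω k i y := by
  have s : ∀ j, ContDiff ℝ (⊤ : ℕ∞) fun w => a (y, w) i j + a (y, w) j i := fun j =>
    (kn3_sl (h.sa i j) y).add (kn3_sl (h.sa j i) y)
  have s1 : ∀ j, ContDiff ℝ (⊤ : ℕ∞) fun w => (a (y, w) i j + a (y, w) j i) • A j (y, w) :=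
    fun j => (s j).smul (kn3_sl (h.sA j) y)
  have s2 : ContDiff ℝ (⊤ : ℕ∞) fun w => β (y, w) i • (1 : M) :=
    (kn3_sl (h.sβ i) y).smul contDiff_const
  rw [pd_sub s2 (ContDiff.sum fun j _ => s1 j), pd_sum _ fun j _ => s1 j,
    sum_eq_single i (fun j _ e => ?_) (by simp)]
  · rw [pd_smul (s i) (kn3_sl (h.sA i) y), h.A0, h.A1, h.a0, if_pos rfl, smul_zero, zero_add,
      smul_smul]
    norm_num
  · rw [pd_smul (s j) (kn3_sl (h.sA j) y), h.A0, h.a0, h.a0, if_neg e, if_neg e.symm]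
    simp

theorem kn3_c (h : Fam W g a β A En Ω) (y : E4) :
    En (y, 0) + ∑ j, β (y, 0) j • A j (y, 0) -
      ∑ i, ∑ j, a (y, 0) i j • pd i (fun w => A j (y, w)) 0 = En (y, 0) := by
  have e : ∀ i, Ω i i y = 0 := fun i => by
    linear_combination (norm := module) (1 / 2 : ℝ) • h.anti i i y
  simp [h.A0, h.A1, h.a0, e]

theorem Fam.nf (hA : Alg τ W g) (h : Fam W g a β A En Ω) {K : Set E4} (hK : IsCompact K) :
    ∃ qa qb qc, NF W (fun i j (y : K) z => a (y, z) i j • (1 : M))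
      (fun i y => cb (fun z => a (y, z)) (fun z => β (y, z)) (fun i z => A i (y, z)) i)
      (fun y => cc (fun z => a (y, z)) (fun z => β (y, z)) (fun i z => A i (y, z))
        (fun z => En (y, z)))
      (fun y => En (y, 0)) (fun i j y => Ω i j y) qa qb qc := by
  have one : W0 M ≤ W := W0_le hA.one
  obtain ⟨hE, hΩ⟩ := h.hom hA hK
  obtain ⟨C2, hq⟩ := h.quad hK
  choose qa ta a0 _ using fun i j => taylor (W0_closed (M := M)) hK 5 (fun p => a p i j • (1 : M))
    ((h.sa i j).smul contDiff_const) fun _ => W0_smul _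
  choose q0 t0 b0 b1 using fun i => taylor (W0_closed (M := M)) hK 2 (fun p => β p i • (1 : M))
    ((h.sβ i).smul contDiff_const) fun _ => W0_smul _
  choose qb tb c0 c1 using fun i => taylor hA.clW hK 4
    (fun p => β p i • (1 : M) - ∑ j, (a p i j + a p j i) • A j p)
    (((h.sβ i).smul contDiff_const).sub
      (ContDiff.sum fun j _ => ((h.sa i j).add (h.sa j i)).smul (h.sA j)))
    fun p => sub_mem (one (W0_smul _)) (sum_mem fun j _ => W.smul_mem _ (hA.le (h.Ag j p)))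
  obtain ⟨qw, ⟨tw, C1, hw⟩, w0, -⟩ := taylor hA.clW hK 3
    (fun p => En p + ∑ j, β p j • A j p - ∑ i, ∑ j, a p i j • pd i (fun w => A j (p.1, w)) p.2)
    ((h.sE.add (ContDiff.sum fun j _ => (h.sβ j).smul (h.sA j))).sub
      (ContDiff.sum fun i _ => ContDiff.sum fun j _ => (h.sa i j).smul (pd2_smooth (h.sA j) i)))
    fun p => sub_mem (add_mem (h.EW p) (sum_mem fun j _ => W.smul_mem _ (hA.le (h.Ag j p))))
      (sum_mem fun i _ => sum_mem fun j _ => W.smul_mem _
        (pd_mem hA.clW (kn3_sl (h.sA j) _) (fun _ => hA.le (h.Ag j _)) i _))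
  let Q : K → E4 → M := fun y x =>
    (1 / 4 : ℝ) • ∑ i, ∑ j, ∑ k, (x j * x k) • (Ω j i y * Ω k i y)
  have hQ : Hom ⊤ 2 Q := Hom.smul (Hom.sum _ fun i _ => Hom.sum _ fun j _ => Hom.sum _ fun k _ =>
    (Hom.mulx j (Hom.mulx k ((hΩ j i).mul (hΩ k i) fun _ _ _ _ => Submodule.mem_top))).congr
      fun _ _ => mul_smul _ _ _) _
  refine ⟨qa, qb, fun k y x => qw k y x - if k = 2 then Q y x else 0, ta, tb,
    ⟨fun k => ?_, C1 + C2, fun y z hz => ?_⟩, fun i j y x => ?_, fun i => ?_, fun i => ?_,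
    fun y x => ?_, (tw 1).congr fun y x => ?_, (tw 2).congr fun y x => ?_, hE, hΩ,
    fun i j y => h.anti i j y⟩
  · refine ((tw k).mono le_top).sub ?_
    split_ifs with e
    · exact e ▸ hQ
    · exact Hom.zero _ _
  · refine le_trans (le_of_eq ?_) ((norm_sub_le _ _).trans
      ((add_le_add (hw y z hz) (hq y y.2 z hz)).trans_eq (add_mul _ _ _).symm))
    congr 1
    simp only [cc, cw, sum_range_succ, sum_range_zero, Q]
    norm_num
    abel
  · rw [a0, h.a0]
    split_ifs <;> simp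
  · refine ((t0 i).hom 0).congr fun y x => ?_
    rw [c0, b0]
    simp [h.A0]
  · refine ((t0 i).hom 1).congr fun y x => ?_
    rw [c1, b1, ← sum_add_distrib]
    refine sum_congr rfl fun k _ => ?_
    rw [kn3_b h, smul_sub, sub_add_cancel]
  · simp only [w0]
    rw [if_neg (by norm_num), sub_zero]
    exact kn3_c h y
  · simp
  · simp [Q]

end Vale.Agent.P267I.K
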