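import Vale.Agent.P267I.KE6
import Vale.Agent.P267I.KG4
import Vale.Agent.P267I.KN1
import Vale.Agent.P267I.KN3
import Vale.Agent.P267I.KC3

/-! The local parametrix. -/

open Finset MeasureTheory

noncomputable section

namespace Vale.Agent.P267I.K

variable {M : Type} [NormedRing M] [NormedAlgebra ℝ M] [StarRing M] {Y : Type}
variable {τ : M →L[ℝ] ℝ} {W g : Submodule ℝ M} {O : Op M}

theorem kfin_mono {H : (E4 → M) → E4 → M} {ρ : E4 → ℝ} {d δ C C1 : ℝ} {Φ : ℝ → E4 → M}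
    (h : Par0 τ H ρ d δ C Φ) (hC : C ≤ C1) : Par0 τ H ρ d δ C1 Φ where
  pos := h.pos.trans_le hC
  sm := h.sm
  rem t ht z hz := (h.rem t ht z hz).trans
    (mul_le_mul_of_nonneg_left (gb_mono h.pos hC ht.1 z) (by positivity))
  bd t ht z hz := (h.bd t ht z hz).trans
    (mul_le_mul_of_nonneg_left (gb_mono h.pos hC ht.1 z) (by positivity))
  bd1 t ht z hz i := (h.bd1 t ht z hz i).trans
    (mul_le_mul_of_nonneg_left (gb_mono h.pos hC ht.1 z) (by positivity))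
  ini t ht z hz := (h.ini t ht z hz).trans
    (mul_le_mul_of_nonneg_left (gb_mono h.pos hC ht.1 z) (by have := ht.1; positivity))
  lim χ h1 h2 h3 h4 t ht := (h.lim χ h1 h2 h3 h4 t ht).trans
    (mul_le_mul_of_nonneg_right hC (Real.sqrt_nonneg t))

theorem param [CompleteSpace M] [NormedStarGroup M] [StarModule ℝ M] (hA : Alg τ W g)
    (h : O.Good W g) {K : Set E4} (hK : IsCompact K) :
    ∃ (r C : ℝ) (Φ : E4 → ℝ → E4 → M), 0 < r ∧ 0 < C ∧
      ∀ y ∈ K, Par τ O.H (O.co y) O.ρ (O.dens τ y) r C y (Φ y) := by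
  obtain ⟨L, hL, hlin⟩ := h.lin_bound hK
  obtain ⟨hρc, Lρ, hρ⟩ := h.rho hK
  obtain ⟨U, A2, E2, hG, hA0, hA1⟩ := gauge (A := O.A1) (En := O.E1) hA h.A1_smooth h.E1_smooth
    h.A1_mem (fun p => h.EW _)
  have hE0 : ∀ y, E2 (y, 0) = O.En y := fun y => by
    rw [hG.E0, Op.E1, Op.ps_zero]
  have hF : Fam W g O.a1 O.β1 A2 E2 (fun i j y => O.Om y i j) :=
    { sa := h.a1_smooth, sβ := h.β1_smooth, sA := hG.sA, sE := hG.sE, Ag := hG.Ag, EW := hG.EW
      a0 := h.a1_zero, A0 := hA0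
      A1 := fun i j y => by rw [hA1, h.curv1]
      anti := fun i j y => by
        rw [← h.curv1, ← h.curv1]
        simp only [curv]
        abel }
  obtain ⟨qa, qb, qc, hN⟩ := Fam.nf hA hF hK
  have hδ : 0 < (2 * L ^ 2)⁻¹ := by positivity
  obtain ⟨C, Φ, hΦ⟩ := NF.par hA hN (fun y => by rw [hE0]; exact h.Est _)
    (fun (y : K) z => O.ρ1 (y, z)) (fun y => hρc y) Lρ (fun y => hρ y y.2) hδ
  obtain ⟨LU, hLU, hU⟩ := lip_zero hK U hG.sU
  obtain ⟨C1, hC1⟩ := par_gauge (τ := τ) (max C 1) LU (by positivity) hLU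
  obtain ⟨C2, hC2, hP⟩ := par_lin (τ := τ) h (max C1 1) L (by positivity) hL
  classical
  refine ⟨L⁻¹, C2, fun y t x => if hy : y ∈ K then U (y, O.co y x) * Φ ⟨y, hy⟩ t (O.co y x) else 0,
    by positivity, hC2, fun y hy => ?_⟩
  simp only [hy, dif_pos]
  have sUy : ContDiff ℝ (⊤ : ℕ∞) fun w => U (y, w) :=
    hG.sU.comp (contDiff_const.prodMk contDiff_id)
  have h1 := (hΦ ⟨y, hy⟩).congr (H1 := Hgen (fun z => O.a1 (y, z)) (fun z => O.β1 (y, z))
    (fun i z => A2 i (y, z)) (fun z => E2 (y, z))) (fun v hv z =>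
      Hgen_eq _ _ (fun i => (hG.sA i).comp (contDiff_const.prodMk contDiff_id)) _ hv z)
  have h2 := hC1 _ (O.H1 y) _ _ _ _ (fun w => U (y, w)) (kfin_mono h1 (le_max_left C 1)) sUy
    (fun z => hG.un _) (fun z hz => by
      have := hU y hy z hz
      rw [hG.U0] at this
      exact this) (fun v hv z => hG.Hgen _ _ y hv z)
  have h3 := hP y _ _ (kfin_mono h2 (le_max_left C1 1)) (hlin y hy).1 (hlin y hy).2.1
    (hlin y hy).2.2
  simp only [hE0] at h3
  exact h3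

end Vale.Agent.P267I.K
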