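import Vale.Agent.P267I.K0
import Vale.Agent.P267I.KAd

/-! Gauge normalisation of a family of connections at the origin. -/

open Finset NormedSpace

noncomputable section

namespace Vale.Agent.P267I.K

variable {M : Type} [NormedRing M] [NormedAlgebra ℝ M] [StarRing M]

/-- Jointly smooth. -/
def Sm2 (f : E4 → E4 → M) : Prop := ContDiff ℝ (⊤ : ℕ∞) fun p : E4 × E4 => f p.1 p.2

/-- A smooth family of connections with values in `g`. -/
structure Conn (g : Submodule ℝ M) (A : Fin 4 → E4 → E4 → M) : Prop where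
  sm : ∀ i, Sm2 (A i)
  mem : ∀ i y z, A i y z ∈ g

/-- The gauge `γ` with inverse `δ` takes `A` to `A'`. -/
structure Gau (W : Submodule ℝ M) (A A' : Fin 4 → E4 → E4 → M) (γ δ : E4 → E4 → M) : Prop where
  sγ : Sm2 γ
  sδ : Sm2 δ
  l : ∀ y z, γ y z * δ y z = 1
  r : ∀ y z, δ y z * γ y z = 1
  st : ∀ y z, star (γ y z) = δ y z
  one : ∀ y, γ y 0 = 1
  ad : ∀ y z, ∀ w ∈ W, δ y z * w * γ y z ∈ W
  eq : ∀ i y z, pd i (γ y) z + A i y z * γ y z = γ y z * A' i y z

omit [StarRing M] in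
theorem Sm2.snd {f : E4 → E4 → M} (h : Sm2 f) (y : E4) : ContDiff ℝ (⊤ : ℕ∞) (f y) :=
  ContDiff.comp (g := fun p : E4 × E4 => f p.1 p.2) (f := fun z => (y, z)) h (by fun_prop)

omit [StarRing M] in
theorem Sm2.dif {f : E4 → E4 → M} (h : Sm2 f) (y z : E4) : DifferentiableAt ℝ (f y) z :=
  (h.snd y).differentiable (by simp) z

omit [StarRing M] in
theorem Sm2.at0 {f : E4 → E4 → M} (h : Sm2 f) : ContDiff ℝ (⊤ : ℕ∞) fun y => f y 0 :=
  ContDiff.comp (g := fun p : E4 × E4 => f p.1 p.2) (f := fun y => (y, 0)) h (by fun_prop)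

omit [StarRing M] in
theorem Sm2.pd {f : E4 → E4 → M} (h : Sm2 f) (i : Fin 4) : Sm2 fun y => pd i (f y) := by
  have h1 : ContDiff ℝ (⊤ : ℕ∞) fun p : E4 × E4 => fderiv ℝ (f p.1) p.2 :=
    ContDiff.fderiv (f := fun (p : E4 × E4) z => f p.1 z) (g := fun p => p.2) (m := (⊤ : ℕ∞))
      (ContDiff.comp (g := fun p : E4 × E4 => f p.1 p.2)
        (f := fun q : (E4 × E4) × E4 => (q.1.1, q.2)) h (by fun_prop)) contDiff_snd (by simp)
  exact h1.clm_apply contDiff_const

omit [StarRing M] in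
theorem pd_mem {W : Submodule ℝ M} (hW : IsClosed (W : Set M)) {f : E4 → M} (hf : ∀ z, f z ∈ W)
    (i : Fin 4) (z : E4) : pd i f z ∈ W := by
  by_cases h : DifferentiableAt ℝ f z
  · have h1 := h.hasFDerivAt.hasLineDerivAt (Pi.single i 1)
    exact hW.mem_of_tendsto (hasDerivAt_iff_tendsto_slope.1 h1)
      (Filter.Eventually.of_forall fun t => W.smul_mem _ (W.sub_mem (hf _) (hf _)))
  · rw [pd, fderiv_zero_of_not_differentiableAt h]
    exact W.zero_mem

omit [StarRing M] in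
theorem pd_mul' {f g : E4 → M} {z : E4} (hf : DifferentiableAt ℝ f z)
    (hg : DifferentiableAt ℝ g z) (i : Fin 4) :
    pd i (fun x => f x * g x) z = pd i f z * g z + f z * pd i g z := by
  unfold pd
  rw [fderiv_fun_mul' hf hg]
  simp [add_comm]

omit [StarRing M] in
theorem pd_add' {f g : E4 → M} {z : E4} (hf : DifferentiableAt ℝ f z)
    (hg : DifferentiableAt ℝ g z) (i : Fin 4) :
    pd i (fun x => f x + g x) z = pd i f z + pd i g z := by
  unfold pd
  rw [fderiv_fun_add hf hg]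
  rfl

theorem Gau.refl (W : Submodule ℝ M) (A : Fin 4 → E4 → E4 → M) :
    Gau W A A (fun _ _ => 1) fun _ _ => 1 :=
  ⟨contDiff_const, contDiff_const, by simp, by simp, by simp, by simp, by simp, by simp [pd]⟩

theorem Gau.trans {W : Submodule ℝ M} {A A' A'' : Fin 4 → E4 → E4 → M} {γ δ γ' δ' : E4 → E4 → M}
    (h : Gau W A A' γ δ) (h' : Gau W A' A'' γ' δ') :
    Gau W A A'' (fun y z => γ y z * γ' y z) fun y z => δ' y z * δ y z where
  sγ := ContDiff.mul h.sγ h'.sγ
  sδ := ContDiff.mul h'.sδ h.sδ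
  l y z := by rw [mul_assoc, ← mul_assoc (γ' y z), h'.l, one_mul, h.l]
  r y z := by rw [mul_assoc, ← mul_assoc (δ y z), h.r, one_mul, h'.r]
  st y z := by rw [star_mul, h.st, h'.st]
  one y := by rw [h.one, h'.one, one_mul]
  ad y z w hw := by simpa only [mul_assoc] using h'.ad y z _ (h.ad y z w hw)
  eq i y z := by
    rw [pd_mul' (h.sγ.dif y z) (h'.sγ.dif y z), mul_assoc, ← h'.eq, mul_add, ← mul_assoc,
      ← mul_assoc, ← h.eq]
    noncomm_ring

theorem Gau.nab {W : Submodule ℝ M} {A A' : Fin 4 → E4 → E4 → M} {γ δ : E4 → E4 → M}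
    (h : Gau W A A' γ δ) (y : E4) (i : Fin 4) {v : E4 → M} {z : E4}
    (hv : DifferentiableAt ℝ v z) :
    nab (fun i => A i y) i (fun x => γ y x * v x) z = γ y z * nab (fun i => A' i y) i v z := by
  unfold K.nab
  rw [pd_mul' (h.sγ.dif y z) hv, mul_add, ← mul_assoc, ← mul_assoc, ← h.eq]
  noncomm_ring

theorem Gau.Hgen {W g : Submodule ℝ M} {A A' : Fin 4 → E4 → E4 → M} {γ δ : E4 → E4 → M}
    (h : Gau W A A' γ δ) (hA : Conn g A') (y : E4) (a : E4 → Fin 4 → Fin 4 → ℝ)
    (β : E4 → Fin 4 → ℝ) (En : E4 → M) {v : E4 → M} (hv : ContDiff ℝ (⊤ : ℕ∞) v) (z : E4) :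
    Hgen a β (fun i => A i y) En (fun x => γ y x * v x) z =
      γ y z * Hgen a β (fun i => A' i y) (fun x => δ y x * En x * γ y x) v z := by
  have h1 : ∀ j, K.nab (fun i => A i y) j (fun x => γ y x * v x) =
      fun x => γ y x * K.nab (fun i => A' i y) j v x := fun j =>
    funext fun x => h.nab y j (hv.differentiable (by simp) x)
  have h2 : ∀ j, DifferentiableAt ℝ (K.nab (fun i => A' i y) j v) z := fun j =>
    ((Sm2.pd (f := fun _ => v) (hv.comp contDiff_snd) j).dif y z).add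
      (((hA.sm j).dif y z).mul (hv.differentiable (by simp) z))
  unfold K.Hgen
  simp only [h1, fun i j => h.nab y i (h2 j), mul_add, mul_neg, mul_sum, mul_smul_comm,
    ← mul_assoc, h.l, one_mul]

variable [CompleteSpace M] [StarModule ℝ M] [ContinuousStar M] {τ : M →L[ℝ] ℝ}
  {W g : Submodule ℝ M}

omit [StarRing M] [StarModule ℝ M] [ContinuousStar M] in
theorem pd_exp {f : E4 → ℝ} (hf : ContDiff ℝ (⊤ : ℕ∞) f) (X : M) (i : Fin 4) (z : E4) :
    pd i (fun x => exp (f x • X)) z = pd i f z • (exp (f z • X) * X) := by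
  have h := (hasDerivAt_exp_smul_const (𝕂 := ℝ) X (f z)).hasFDerivAt.comp z
    (hf.differentiable (by simp) z).hasFDerivAt
  unfold pd
  rw [show (fun x => exp (f x • X)) = (fun u : ℝ => exp (u • X)) ∘ f from rfl, h.fderiv]
  simp

theorem gau_step (H : Alg τ W g) {A : Fin 4 → E4 → E4 → M} (hA : Conn g A) {X : E4 → M}
    (hX : ContDiff ℝ (⊤ : ℕ∞) X) (hg : ∀ y, X y ∈ g) {f : E4 → ℝ} (hf : ContDiff ℝ (⊤ : ℕ∞) f)
    (h0 : f 0 = 0) : ∃ A' γ δ, Conn g A' ∧ Gau W A A' γ δ ∧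
      (∀ i y, A' i y 0 = A i y 0 + pd i f 0 • X y) ∧
      ∀ i j y, pd j (A' i y) 0 = pd j (A i y) 0 + pd j f 0 • (A i y 0 * X y - X y * A i y 0) +
        pd j (pd i f) 0 • X y := by
  let _ : NormedAlgebra ℚ M := NormedAlgebra.restrictScalars ℚ ℝ _
  have he : ContDiff ℝ (⊤ : ℕ∞) (exp : M → M) :=
    contDiff_iff_contDiffAt.2 fun x => (exp_analytic x).contDiffAt
  have hp : ∀ i, ContDiff ℝ (⊤ : ℕ∞) (pd i f) := fun i =>
    (Sm2.pd (f := fun _ => f) (hf.comp contDiff_snd) i).snd 0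
  have s1 : Sm2 fun y z => exp (f z • X y) :=
    he.comp ((hf.comp contDiff_snd).smul (hX.comp contDiff_fst))
  have s2 : Sm2 fun y z => exp (-f z • X y) :=
    he.comp ((hf.comp contDiff_snd).neg.smul (hX.comp contDiff_fst))
  have e1 : ∀ (t : ℝ) y, exp (t • X y) * exp (-t • X y) = 1 := fun t y => by
    rw [← exp_add_of_commute (((Commute.refl _).smul_left _).smul_right _), ← add_smul]
    simp
  have e2 : ∀ (t : ℝ) y, exp (-t • X y) * exp (t • X y) = 1 := fun t y => by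
    simpa using e1 (-t) y
  have ad : ∀ {V : Submodule ℝ M}, IsClosed (V : Set M) → (∀ y, ∀ w ∈ V, X y * w - w * X y ∈ V) →
      ∀ (t : ℝ) y, ∀ w ∈ V, exp (-t • X y) * w * exp (t • X y) ∈ V := fun hV h t y w hw => by
    simpa using kad_mem_smul hV (h y) (-t) hw
  refine ⟨fun i y z => exp (-f z • X y) * A i y z * exp (f z • X y) + pd i f z • X y,
    fun y z => exp (f z • X y), fun y z => exp (-f z • X y),
    ⟨fun i => ContDiff.add (ContDiff.mul (ContDiff.mul s2 (hA.sm i)) s1)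
      (((hp i).comp contDiff_snd).smul (hX.comp contDiff_fst)), fun i y z =>
      g.add_mem (ad H.clg (fun y => H.adg _ (hg y)) _ y _ (hA.mem i y z)) (g.smul_mem _ (hg y))⟩,
    ⟨s1, s2, fun y z => e1 _ y, fun y z => e2 _ y, fun y z => ?_, fun y => by simp [h0],
      fun y z => ad H.clW (fun y => H.adW _ (hg y)) _ y, fun i y z => ?_⟩,
    fun i y => by simp [h0], fun i j y => ?_⟩
  · rw [star_exp, star_smul, H.skew _ (hg y)]
    simp
  · rw [pd_exp hf, mul_add, ← mul_assoc, ← mul_assoc, e1, one_mul, mul_smul_comm, add_comm]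
  · have d1 := s1.dif y 0
    have d2 := s2.dif y 0
    have d3 := (hA.sm i).dif y 0
    have d4 : pd j (fun z => pd i f z • X y) 0 = pd j (pd i f) 0 • X y := by
      rw [pd, fderiv_smul_const ((hp i).differentiable (by simp) 0)]
      rfl
    have d5 : pd j (fun z => -f z) 0 = -pd j f 0 := by
      unfold pd
      rw [fderiv_fun_neg]
      rfl
    beta_reduce
    rw [pd_add' ((d2.fun_mul d3).fun_mul d1) (((hp i).differentiable (by simp) 0).smul_const _), d4,
      pd_mul' (d2.fun_mul d3) d1, pd_mul' d2 d3, pd_exp hf, pd_exp hf.neg, d5]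
    simp only [h0, neg_zero, zero_smul, exp_zero, one_mul, mul_one, smul_sub, neg_smul,
      neg_mul, smul_mul_assoc, mul_smul_comm]
    abel

theorem pd_coord (i j : Fin 4) (c : ℝ) (z : E4) :
    pd i (fun x : E4 => c * x j) z = if i = j then c else 0 := by
  have h : HasFDerivAt (fun x : E4 => c * x j) (c • ContinuousLinearMap.proj j) z :=
    (ContinuousLinearMap.proj (R := ℝ) (φ := fun _ : Fin 4 => ℝ) j).hasFDerivAt.const_mul c
  rw [pd, h.fderiv]
  simp [Pi.single_apply, eq_comm]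

theorem gau_one (H : Alg τ W g) {A : Fin 4 → E4 → E4 → M} (hA : Conn g A) (s : Finset (Fin 4)) :
    ∃ A' γ δ, Conn g A' ∧ Gau W A A' γ δ ∧ (∀ i y, A' i y 0 = if i ∈ s then 0 else A i y 0) ∧
      ∀ i j y, curv (fun i => A' i y) i j 0 = curv (fun i => A i y) i j 0 := by
  induction s using Finset.induction_on with
  | empty => exact ⟨A, _, _, hA, Gau.refl W A, by simp, fun _ _ _ => rfl⟩
  | insert a s ha ih =>
    obtain ⟨A1, γ, δ, c1, g1, v1, k1⟩ := ih
    obtain ⟨A2, γ', δ', c2, g2, v2, k2⟩ := gau_step H c1 (c1.sm a).at0 (fun y => c1.mem a y 0)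
      (f := fun x => -1 * x a) (by fun_prop) (by simp)
    have z2 : ∀ i j, pd j (pd i fun x : E4 => -1 * x a) 0 = 0 := fun i j => by
      rw [show (pd i fun x : E4 => -1 * x a) = fun _ => if i = a then -1 else 0 from
        funext (pd_coord i a (-1))]
      simp [pd]
    refine ⟨A2, _, _, c2, g1.trans g2, fun i y => ?_, fun i j y => ?_⟩
    · rw [v2, pd_coord]
      by_cases h : i = a
      · simp [h]
      · simp [h, v1]
    · rw [← k1]
      simp only [curv, k2, v2, z2, zero_smul, add_zero, mul_add, add_mul, smul_sub,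
        smul_mul_assoc, mul_smul_comm]
      module

theorem gau_two (H : Alg τ W g) {A : Fin 4 → E4 → E4 → M} (hA : Conn g A)
    {X : Fin 4 × Fin 4 → E4 → M} (hX : ∀ p, ContDiff ℝ (⊤ : ℕ∞) (X p)) (hg : ∀ p y, X p y ∈ g)
    (s : Finset (Fin 4 × Fin 4)) :
    ∃ A' γ δ, Conn g A' ∧ Gau W A A' γ δ ∧ (∀ i y, A' i y 0 = A i y 0) ∧
      ∀ i j y, pd j (A' i y) 0 = pd j (A i y) 0 + ∑ p ∈ s,
        ((if p = (i, j) then -(1 / 2 : ℝ) else 0) + if p = (j, i) then -(1 / 2 : ℝ) else 0) •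
          X p y := by
  induction s using Finset.induction_on with
  | empty => exact ⟨A, _, _, hA, Gau.refl W A, fun _ _ => rfl, by simp⟩
  | insert p s hp ih =>
    obtain ⟨A1, γ, δ, c1, g1, v1, k1⟩ := ih
    obtain ⟨A2, γ', δ', c2, g2, v2, k2⟩ := gau_step H c1 (hX p) (hg p)
      (f := fun x => -(1 / 2) * x p.1 * x p.2) (by fun_prop) (by simp)
    have z1 : ∀ i, (pd i fun x : E4 => -(1 / 2) * x p.1 * x p.2) = fun x =>
        (if i = p.1 then -(1 / 2) else 0) * x p.2 + (if i = p.2 then -(1 / 2) else 0) * x p.1 :=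
      fun i => funext fun x => by
        rw [pd_mul' (M := ℝ) (by fun_prop) (by fun_prop), pd_coord,
          show (fun x : E4 => x p.2) = fun x => 1 * x p.2 by simp, pd_coord]
        split_ifs <;> ring
    refine ⟨A2, _, _, c2, g1.trans g2, fun i y => by rw [v2, v1, z1]; simp, fun i j y => ?_⟩
    rw [k2, k1, sum_insert hp, z1, z1, pd_add' (M := ℝ) (by fun_prop) (by fun_prop), pd_coord,
      pd_coord]
    have : ((if j = p.2 then (if i = p.1 then -(1 / 2) else 0) else 0) +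
        if j = p.1 then (if i = p.2 then -(1 / 2) else 0) else 0 : ℝ) =
        (if p = (i, j) then -(1 / 2) else 0) + if p = (j, i) then -(1 / 2) else 0 := by
      obtain ⟨a, b⟩ := p
      simp only [Prod.mk.injEq, @eq_comm _ a, @eq_comm _ b]
      split_ifs <;> simp_all
    rw [this]
    simp only [Pi.zero_apply, mul_zero, add_zero, zero_smul]
    abel

theorem gauge_ex (H : Alg τ W g) {A : Fin 4 → E4 → E4 → M} (hA : Conn g A) :
    ∃ A' γ δ, Conn g A' ∧ Gau W A A' γ δ ∧ (∀ i y, A' i y 0 = 0) ∧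
      ∀ i j y, pd j (A' i y) 0 = (1 / 2 : ℝ) • curv (fun i => A i y) j i 0 := by
  obtain ⟨A1, γ, δ, c1, g1, v1, k1⟩ := gau_one H hA univ
  obtain ⟨A2, γ', δ', c2, g2, v2, k2⟩ := gau_two H c1
    (X := fun p y => (1 / 2 : ℝ) • (pd p.1 (A1 p.2 y) 0 + pd p.2 (A1 p.1 y) 0))
    (fun p => (((c1.sm _).pd _).at0.add ((c1.sm _).pd _).at0).const_smul _)
    (fun p y => g.smul_mem _ (g.add_mem (pd_mem H.clg (c1.mem _ y) _ _)
      (pd_mem H.clg (c1.mem _ y) _ _))) univ
  refine ⟨A2, _, _, c2, g1.trans g2, fun i y => by simp [v2, v1], fun i j y => ?_⟩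
  rw [k2, ← k1]
  simp only [add_smul, sum_add_distrib, ite_smul, zero_smul, sum_ite_eq', mem_univ, if_true, curv,
    v1, mul_zero, add_zero, sub_zero]
  module

end Vale.Agent.P267I.K
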