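import Vale.Agent.P267I.K1

/-! Algebra of homogeneous polynomials. All proofs: induction on the inductive predicate Hom (cases const, mulx, add), then Hom.congr. -/

open Finset MeasureTheory

noncomputable section

namespace Vale.Agent.P267I.K

variable {M : Type} [NormedRing M] [NormedAlgebra ℝ M] [StarRing M] {Y : Type}
variable {W W1 W2 W3 : Submodule ℝ M} {k l : ℕ} {f f1 f2 : Y → E4 → M}

theorem Hom.congr (h : Hom W k f) (e : ∀ y x, f1 y x = f y x) : Hom W k f1 := by
  have : f1 = f := funext fun y => funext fun x => e y x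
  rw [this]
  exact h

theorem Hom.zero (W : Submodule ℝ M) (k : ℕ) : Hom W k fun (_ : Y) _ => (0 : M) := by
  induction k with
  | zero => exact Hom.const (fun _ => 0) 0 (fun _ => by simp) fun _ => W.zero_mem
  | succ n ih => exact (Hom.mulx 0 ih).congr fun _ _ => by simp

theorem Hom.smulY (h : Hom W k f) (r : Y → ℝ) (C : ℝ) (hr : ∀ y, |r y| ≤ C) :
    Hom W k fun y x => r y • f y x := by
  induction h with
  | const w C' hb hw =>
    refine Hom.const (fun y => r y • w y) (C * C') (fun y => ?_) fun y => W.smul_mem _ (hw y)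
    rw [norm_smul, Real.norm_eq_abs]
    exact mul_le_mul (hr y) (hb y) (norm_nonneg _) ((abs_nonneg _).trans (hr y))
  | mulx i _ ih => exact (Hom.mulx i ih).congr fun _ _ => smul_comm _ _ _
  | add _ _ ih ih' => exact (Hom.add ih ih').congr fun _ _ => smul_add _ _ _

theorem Hom.smul (h : Hom W k f) (r : ℝ) : Hom W k fun y x => r • f y x := by
  exact h.smulY (fun _ => r) |r| fun _ => le_rfl

theorem Hom.neg (h : Hom W k f) : Hom W k fun y x => -f y x := by
  exact (h.smul (-1)).congr fun _ _ => (neg_one_smul ℝ _).symm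

theorem Hom.sub (h1 : Hom W k f1) (h2 : Hom W k f2) : Hom W k fun y x => f1 y x - f2 y x := by
  exact (Hom.add h1 h2.neg).congr fun _ _ => sub_eq_add_neg _ _

theorem Hom.sum {ι : Type} (s : Finset ι) {F : ι → Y → E4 → M} (h : ∀ i ∈ s, Hom W k (F i)) :
    Hom W k fun y x => ∑ i ∈ s, F i y x := by
  classical
  induction s using Finset.induction_on with
  | empty => exact (Hom.zero W k).congr fun _ _ => by simp
  | insert a s ha ih =>
    exact (Hom.add (h a (mem_insert_self _ _))
      (ih fun i hi => h i (mem_insert_of_mem hi))).congr fun _ _ => sum_insert ha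

theorem Hom.mono (h : Hom W1 k f) (hW : W1 ≤ W2) : Hom W2 k f := by
  induction h with
  | const w C hb hw => exact Hom.const w C hb fun y => hW (hw y)
  | mulx i _ ih => exact Hom.mulx i ih
  | add _ _ ih ih' => exact Hom.add ih ih'

theorem Hom.mem (h : Hom W k f) (y : Y) (x : E4) : f y x ∈ W := by
  induction h with
  | const w C hb hw => exact hw y
  | mulx i _ ih => exact W.smul_mem _ ih
  | add _ _ ih ih' => exact W.add_mem ih ih'

theorem kh1_cmul (w : Y → M) (C : ℝ) (hb : ∀ y, ‖w y‖ ≤ C) (hw : ∀ y, w y ∈ W1)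
    (h2 : Hom W2 l f2) (hW : ∀ a ∈ W1, ∀ b ∈ W2, a * b ∈ W3) :
    Hom W3 l fun y x => w y * f2 y x := by
  induction h2 with
  | const w' C' hb' hw' =>
    refine Hom.const (fun y => w y * w' y) (C * C') (fun y => ?_) fun y => hW _ (hw y) _ (hw' y)
    exact (norm_mul_le _ _).trans
      (mul_le_mul (hb y) (hb' y) (norm_nonneg _) ((norm_nonneg _).trans (hb y)))
  | mulx i _ ih => exact (Hom.mulx i ih).congr fun _ _ => mul_smul_comm _ _ _
  | add _ _ ih ih' => exact (Hom.add ih ih').congr fun _ _ => mul_add _ _ _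

theorem Hom.mul (h1 : Hom W1 k f1) (h2 : Hom W2 l f2) (hW : ∀ a ∈ W1, ∀ b ∈ W2, a * b ∈ W3) :
    Hom W3 (k + l) fun y x => f1 y x * f2 y x := by
  induction h1 with
  | const w C hb hw =>
    rw [Nat.zero_add]
    exact kh1_cmul w C hb hw h2 hW
  | mulx i _ ih =>
    rw [Nat.add_right_comm]
    exact (Hom.mulx i ih).congr fun _ _ => smul_mul_assoc _ _ _
  | add _ _ ih ih' => exact (Hom.add ih ih').congr fun _ _ => add_mul _ _ _

theorem kh1_star [NormedStarGroup M] [StarModule ℝ M] (h : Hom W k f)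
    (hW : ∀ w ∈ W, star w ∈ W) : Hom W k fun y x => star (f y x) := by
  induction h with
  | const w C hb hw =>
    exact Hom.const (fun y => star (w y)) C (fun y => by rw [norm_star]; exact hb y)
      fun y => hW _ (hw y)
  | mulx i _ ih => exact (Hom.mulx i ih).congr fun _ _ => by rw [star_smul, star_trivial]
  | add _ _ ih ih' => exact (Hom.add ih ih').congr fun _ _ => star_add _ _

theorem Hom.star [NormedStarGroup M] [StarModule ℝ M] (h : Hom W k f) (hW : ∀ w ∈ W, star w ∈ W) :
    Hom W k fun y x => star (f y x) := by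
  exact kh1_star h hW

theorem Hom.one (hW : (1 : M) ∈ W) : Hom W 0 fun (_ : Y) _ => (1 : M) := by
  exact Hom.const (fun _ => 1) ‖(1 : M)‖ (fun _ => le_rfl) fun _ => hW

theorem W0_one : (1 : M) ∈ W0 M := by
  exact Submodule.mem_span_singleton_self _

theorem W0_smul (r : ℝ) : r • (1 : M) ∈ W0 M := by
  exact (W0 M).smul_mem r W0_one

theorem W0_le (hW : (1 : M) ∈ W) : W0 M ≤ W := by
  exact (Submodule.span_singleton_le_iff_mem _ _).2 hW

theorem W0_mul : ∀ a ∈ W0 M, ∀ b ∈ W, a * b ∈ W := by
  intro a ha b hb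
  obtain ⟨r, rfl⟩ := Submodule.mem_span_singleton.1 ha
  rw [smul_mul_assoc, one_mul]
  exact W.smul_mem r hb

theorem mul_W0 : ∀ a ∈ W, ∀ b ∈ W0 M, a * b ∈ W := by
  intro a ha b hb
  obtain ⟨r, rfl⟩ := Submodule.mem_span_singleton.1 hb
  rw [mul_smul_comm, mul_one]
  exact W.smul_mem r ha

theorem W0_comm {a : M} (ha : a ∈ W0 M) (b : M) : a * b = b * a := by
  obtain ⟨r, rfl⟩ := Submodule.mem_span_singleton.1 ha
  rw [smul_mul_assoc, mul_smul_comm, one_mul, mul_one]

theorem W0_star [StarModule ℝ M] {a : M} (ha : a ∈ W0 M) : star a = a := by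
  obtain ⟨r, rfl⟩ := Submodule.mem_span_singleton.1 ha
  rw [star_smul, star_trivial, star_one]

theorem W0_closed : IsClosed (W0 M : Set M) := by
  have : FiniteDimensional ℝ (W0 M) := FiniteDimensional.span_singleton ℝ (1 : M)
  exact Submodule.closed_of_finiteDimensional _

end Vale.Agent.P267I.K
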