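import Vale.Agent.P267I.KH2

/-! Polynomials: closure properties. -/

open Finset MeasureTheory

noncomputable section

namespace Vale.Agent.P267I.K

variable {M : Type} [NormedRing M] [NormedAlgebra ℝ M] [StarRing M] {Y : Type}
variable {W W1 W2 W3 : Submodule ℝ M} {k l : ℕ} {f f1 f2 : Y → E4 → M}

theorem Pol.congr (h : Pol W f) (e : ∀ y x, f1 y x = f y x) : Pol W f1 := by
  have : f1 = f := funext fun y => funext (e y)
  rwa [this]

theorem Pol.zero (W : Submodule ℝ M) : Pol W fun (_ : Y) _ => (0 : M) :=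
  Pol.hom (Hom.zero W 0)

theorem Pol.smul (h : Pol W f) (r : ℝ) : Pol W fun y x => r • f y x := by
  induction h with
  | hom h => exact Pol.hom (h.smul r)
  | add _ _ ih ih' => exact (ih.add ih').congr fun y x => smul_add _ _ _

theorem Pol.neg (h : Pol W f) : Pol W fun y x => -f y x :=
  (h.smul (-1)).congr fun _ _ => (neg_one_smul ℝ _).symm

theorem Pol.sub (h1 : Pol W f1) (h2 : Pol W f2) : Pol W fun y x => f1 y x - f2 y x :=
  (h1.add h2.neg).congr fun _ _ => sub_eq_add_neg _ _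

theorem Pol.sum {ι : Type} (s : Finset ι) {F : ι → Y → E4 → M} (h : ∀ i ∈ s, Pol W (F i)) :
    Pol W fun y x => ∑ i ∈ s, F i y x := by
  classical
  induction s using Finset.induction_on with
  | empty => exact (Pol.zero W).congr fun _ _ => Finset.sum_empty
  | insert a s ha ih =>
    exact ((h a (mem_insert_self a s)).add (ih fun i hi => h i (mem_insert_of_mem hi))).congr
      fun _ _ => Finset.sum_insert ha

theorem Pol.mono (h : Pol W1 f) (hW : W1 ≤ W2) : Pol W2 f := by
  induction h with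
  | hom h => exact Pol.hom (h.mono hW)
  | add _ _ ih ih' => exact ih.add ih'

theorem Pol.top (h : Pol W f) : Pol ⊤ f := h.mono le_top

theorem Pol.mem (h : Pol W f) (y : Y) (x : E4) : f y x ∈ W := by
  induction h with
  | hom h => exact h.mem y x
  | add _ _ ih ih' => exact W.add_mem ih ih'

theorem kh3_mul (h1 : Hom W1 k f1) (h2 : Pol W2 f2) (hW : ∀ a ∈ W1, ∀ b ∈ W2, a * b ∈ W3) :
    Pol W3 fun y x => f1 y x * f2 y x := by
  induction h2 with
  | hom h => exact Pol.hom (h1.mul h hW)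
  | add _ _ ih ih' => exact (ih.add ih').congr fun y x => mul_add _ _ _

theorem Pol.mul (h1 : Pol W1 f1) (h2 : Pol W2 f2) (hW : ∀ a ∈ W1, ∀ b ∈ W2, a * b ∈ W3) :
    Pol W3 fun y x => f1 y x * f2 y x := by
  induction h1 with
  | hom h => exact kh3_mul h h2 hW
  | add _ _ ih ih' => exact (ih.add ih').congr fun y x => add_mul _ _ _

theorem Pol.star [NormedStarGroup M] [StarModule ℝ M] (h : Pol W f) (hW : ∀ w ∈ W, star w ∈ W) :
    Pol W fun y x => star (f y x) := by
  induction h with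
  | hom h => exact Pol.hom (h.star hW)
  | add _ _ ih ih' => exact (ih.add ih').congr fun y x => star_add _ _

theorem Pol.one (hW : (1 : M) ∈ W) : Pol W fun (_ : Y) _ => (1 : M) :=
  Pol.hom (Hom.one hW)

theorem Pol.smooth (h : Pol W f) (y : Y) : ContDiff ℝ (⊤ : ℕ∞) (f y) := by
  induction h with
  | hom h => exact h.smooth y
  | add _ _ ih ih' => exact ih.add ih'

theorem kh3_pow (x : E4) {a b : ℕ} (h : a ≤ b) : (1 + ‖x‖) ^ a ≤ (1 + ‖x‖) ^ b :=
  pow_le_pow_right₀ (le_add_of_nonneg_right (norm_nonneg x)) h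

theorem Pol.bound (h : Pol W f) : ∃ (C : ℝ) (D : ℕ), 0 ≤ C ∧ ∀ y x, ‖f y x‖ ≤ C * (1 + ‖x‖) ^ D := by
  induction h with
  | @hom k f h =>
    obtain ⟨C, hC, hb⟩ := h.bound
    exact ⟨C, k, hC, fun y x => (hb y x).trans (mul_le_mul_of_nonneg_left
      (pow_le_pow_left₀ (norm_nonneg x) (le_add_of_nonneg_left zero_le_one) k) hC)⟩
  | add _ _ ih ih' =>
    obtain ⟨C, D, hC, hb⟩ := ih
    obtain ⟨C', D', hC', hb'⟩ := ih'
    refine ⟨C + C', D + D', add_nonneg hC hC', fun y x => (norm_add_le _ _).trans ?_⟩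
    rw [add_mul]
    exact add_le_add
      ((hb y x).trans (mul_le_mul_of_nonneg_left (kh3_pow x (Nat.le_add_right _ _)) hC))
      ((hb' y x).trans (mul_le_mul_of_nonneg_left (kh3_pow x (Nat.le_add_left _ _)) hC'))

theorem Pol.mulx (h : Pol W f) (i : Fin 4) : Pol W fun y x => x i • f y x := by
  induction h with
  | hom h => exact Pol.hom (h.mulx i)
  | add _ _ ih ih' => exact (ih.add ih').congr fun y x => smul_add _ _ _

theorem Pol.pd (h : Pol W f) (i : Fin 4) : Pol W fun y x => pd i (f y) x := by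
  induction h with
  | @hom k f h =>
    rcases k with _ | k
    · exact (Pol.zero W).congr fun y x => h.pd0 i y x
    · exact Pol.hom (h.pd i)
  | add h h' ih ih' =>
    exact (ih.add ih').congr fun y x => pd_add (h.smooth y) (h'.smooth y) i x

theorem Pol.Dg (h : Pol W f) (i : Fin 4) : Pol W fun y => Dg i (f y) :=
  ((h.pd i).sub ((h.mulx i).smul (1 / 2))).congr fun y x => by
    rw [K.Dg, smul_smul, one_div, inv_mul_eq_div]

theorem Pol.bound_fin {ι : Type} [Finite ι] {F : ι → Y → E4 → M} (h : ∀ i, Pol W (F i)) :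
    ∃ (C : ℝ) (D : ℕ), 0 ≤ C ∧ ∀ i y x, ‖F i y x‖ ≤ C * (1 + ‖x‖) ^ D := by
  have := Fintype.ofFinite ι
  choose C D hC hb using fun i => (h i).bound
  have h0 : 0 ≤ ∑ i, C i := sum_nonneg fun i _ => hC i
  refine ⟨∑ i, C i, ∑ i, D i, h0, fun i y x => (hb i y x).trans ?_⟩
  exact mul_le_mul (single_le_sum (fun j _ => hC j) (mem_univ i))
    (kh3_pow x (single_le_sum (fun j _ => Nat.zero_le (D j)) (mem_univ i))) (by positivity) h0

end Vale.Agent.P267I.K
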