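import Vale.Agent.P267I.K1

/-! Gaussian integrals. gs 1 x ^ 2 = (4π)⁻⁴ * product over i of exp (-(x i)^2 / 2); integral_fintype_prod_volume_eq_prod, integral_gaussian, second moment of exp (-s^2/2) is √(2π), first moment zero (integral_neg_eq_self or odd symmetry). Integrability: (1 + ‖x‖)^D ≤ product of (1 + |x i|)^D, Integrable.fintype_prod. -/

open Finset MeasureTheory

noncomputable section

namespace Vale.Agent.P267I.K

variable {M : Type} [NormedRing M] [NormedAlgebra ℝ M] [StarRing M] {Y : Type}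
variable {W W1 W2 W3 : Submodule ℝ M} {k l : ℕ} {f f1 f2 : Y → E4 → M}

theorem ki2_pow (m : ℕ) : Integrable fun s : ℝ => s ^ m * Real.exp (-(1 / 2) * s ^ 2) := by
  have h := integrable_rpow_mul_exp_neg_mul_sq (b := 1 / 2) (by norm_num) (s := (m : ℝ))
    (by have := Nat.cast_nonneg (α := ℝ) m; linarith)
  simpa only [Real.rpow_natCast] using h

theorem ki2_abs (D : ℕ) :
    Integrable fun s : ℝ => Real.exp (-(1 / 2) * s ^ 2) * (1 + |s|) ^ D := by
  have h : ∀ m : ℕ, Integrable fun s : ℝ => |s| ^ m * Real.exp (-(1 / 2) * s ^ 2) := fun m => by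
    have h1 := (ki2_pow m).norm
    simpa only [Real.norm_eq_abs, abs_mul, abs_pow, Real.abs_exp] using h1
  have e : (fun s : ℝ => Real.exp (-(1 / 2) * s ^ 2) * (1 + |s|) ^ D) = fun s : ℝ =>
      ∑ m ∈ range (D + 1), (D.choose m : ℝ) * (|s| ^ m * Real.exp (-(1 / 2) * s ^ 2)) := by
    funext s
    rw [add_comm 1, add_pow, mul_sum]
    exact sum_congr rfl fun m _ => by ring
  rw [e]
  exact integrable_finsetSum _ fun m _ => (h m).const_mul _

theorem ki2_der (s : ℝ) : HasDerivAt (fun s : ℝ => Real.exp (-(1 / 2) * s ^ 2))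
    (-(s ^ 1 * Real.exp (-(1 / 2) * s ^ 2))) s := by
  have h := (((hasDerivAt_id' s).pow 2).const_mul (-(1 / 2) : ℝ)).exp
  refine h.congr_deriv ?_
  simp only [Pi.pow_apply]
  push_cast
  ring

theorem ki2_m0 : ∫ s : ℝ, Real.exp (-(1 / 2) * s ^ 2) = √(2 * Real.pi) := by
  rw [integral_gaussian]
  congr 1
  ring

theorem ki2_m1 : ∫ s : ℝ, s ^ 1 * Real.exp (-(1 / 2) * s ^ 2) = 0 := by
  have h := integral_eq_zero_of_hasDerivAt_of_integrable ki2_der (ki2_pow 1).neg
    (integrable_exp_neg_mul_sq (by norm_num))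
  rwa [integral_neg, neg_eq_zero] at h

theorem ki2_m2 : ∫ s : ℝ, s ^ 2 * Real.exp (-(1 / 2) * s ^ 2) = √(2 * Real.pi) := by
  have h0 : Integrable fun s : ℝ => Real.exp (-(1 / 2) * s ^ 2) :=
    integrable_exp_neg_mul_sq (by norm_num)
  have hd : ∀ s : ℝ, HasDerivAt (fun s : ℝ => s ^ 1 * Real.exp (-(1 / 2) * s ^ 2))
      (Real.exp (-(1 / 2) * s ^ 2) - s ^ 2 * Real.exp (-(1 / 2) * s ^ 2)) s := fun s => by
    have h := (hasDerivAt_pow 1 s).fun_mul (ki2_der s)
    refine h.congr_deriv ?_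
    push_cast
    ring
  have h := integral_eq_zero_of_hasDerivAt_of_integrable hd (h0.sub (ki2_pow 2)) (ki2_pow 1)
  rw [integral_sub h0 (ki2_pow 2), ki2_m0] at h
  linarith

theorem ki2_gs (x : E4) : gs 1 x ^ 2 =
    ((4 * Real.pi) ^ 4)⁻¹ * ∏ i, Real.exp (-(1 / 2) * x i ^ 2) := by
  unfold gs r2
  rw [← Real.exp_sum, ← mul_sum, mul_pow, ← Real.exp_nat_mul]
  congr 1
  · rw [inv_pow]
    congr 1
    ring
  · congr 1
    push_cast
    ring

theorem ki2_c : ((4 * Real.pi) ^ 4)⁻¹ * ∏ _i : Fin 4, √(2 * Real.pi) =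
    ((8 * Real.pi) ^ 2)⁻¹ := by
  have h := Real.pi_pos
  have h1 : √(2 * Real.pi) ^ 4 = (2 * Real.pi) ^ 2 := by
    rw [show (4 : ℕ) = 2 * 2 from rfl, pow_mul, Real.sq_sqrt (by positivity)]
  rw [prod_const, card_univ, Fintype.card_fin, h1]
  field_simp
  ring

theorem ki2_nrm (x : E4) : 1 + ‖x‖ ≤ ∏ i, (1 + |x i|) := by
  have h : ∀ i, 1 + |x i| ≤ ∏ i, (1 + |x i|) := fun i => by
    rw [← mul_prod_erase univ _ (mem_univ i)]
    refine le_mul_of_one_le_right (by positivity) ?_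
    refine le_of_eq_of_le prod_const_one.symm (prod_le_prod (fun _ _ => zero_le_one) fun j _ => ?_)
    exact le_add_of_nonneg_right (abs_nonneg _)
  have h0 : 0 ≤ ∏ i, (1 + |x i|) - 1 := by linarith [h 0, abs_nonneg (x 0)]
  have h1 : ‖x‖ ≤ ∏ i, (1 + |x i|) - 1 := (pi_norm_le_iff_of_nonneg h0).2 fun i => by
    rw [Real.norm_eq_abs]
    linarith [h i]
  linarith

theorem gs_int (D : ℕ) : Integrable fun x : E4 => gs 1 x ^ 2 * (1 + ‖x‖) ^ D := by
  have h1 : Integrable fun x : E4 => ∏ i, Real.exp (-(1 / 2) * x i ^ 2) * (1 + |x i|) ^ D :=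
    Integrable.fintype_prod (f := fun (_ : Fin 4) (s : ℝ) =>
      Real.exp (-(1 / 2) * s ^ 2) * (1 + |s|) ^ D) fun _ => ki2_abs D
  refine (h1.const_mul ((4 * Real.pi) ^ 4)⁻¹).mono' ?_ (ae_of_all _ fun x => ?_)
  · refine Continuous.aestronglyMeasurable ?_
    simp only [ki2_gs]
    fun_prop
  · rw [Real.norm_eq_abs, abs_of_nonneg (by positivity), ki2_gs, prod_mul_distrib, prod_pow,
      mul_assoc]
    have h2 := ki2_nrm x
    have h3 := Real.pi_pos
    gcongr

theorem gs_mass : ∫ x : E4, gs 1 x ^ 2 = ((8 * Real.pi) ^ 2)⁻¹ := by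
  simp only [ki2_gs]
  rw [integral_const_mul, integral_fintype_prod_volume_eq_prod
    (f := fun (_ : Fin 4) (s : ℝ) => Real.exp (-(1 / 2) * s ^ 2)), ki2_m0, ki2_c]

theorem gs_mom (j k : Fin 4) :
    ∫ x : E4, gs 1 x ^ 2 * (x j * x k) = if j = k then ((8 * Real.pi) ^ 2)⁻¹ else 0 := by
  have e : ∀ x : E4, gs 1 x ^ 2 * (x j * x k) = ((4 * Real.pi) ^ 4)⁻¹ *
      ∏ i, x i ^ ((if i = j then 1 else 0) + if i = k then 1 else 0) *
        Real.exp (-(1 / 2) * x i ^ 2) := fun x => by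
    have h : ∀ j : Fin 4, ∏ i, x i ^ (if i = j then 1 else 0) = x j := fun j => by simp
    simp only [pow_add, prod_mul_distrib, h]
    rw [ki2_gs]
    ring
  simp only [e]
  rw [integral_const_mul, integral_fintype_prod_volume_eq_prod (f := fun (i : Fin 4) (s : ℝ) =>
    s ^ ((if i = j then 1 else 0) + if i = k then 1 else 0) * Real.exp (-(1 / 2) * s ^ 2))]
  split_ifs with h
  · rw [← ki2_c]
    refine congrArg _ (prod_congr rfl fun i _ => ?_)
    subst h
    by_cases hi : i = j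
    · rw [if_pos hi]
      exact ki2_m2
    · rw [if_neg hi, ← ki2_m0]
      simp
  · rw [prod_eq_zero (mem_univ j), mul_zero]
    rw [if_pos rfl, if_neg h]
    exact ki2_m1

end Vale.Agent.P267I.K
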