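import Vale.Agent.P267I.KI2

/-! The Gaussian average of the weight four term is the index density. Expand P4 with map_add, map_smul, map_sum; integrability of gs 1 x ^ 2 * (x j * x k) from gs_int 2; gs_mass, gs_mom; sum_comm for the order of the indices. -/

open Finset MeasureTheory

noncomputable section

namespace Vale.Agent.P267I.K

variable {M : Type} [NormedRing M] [NormedAlgebra ℝ M] [StarRing M] {Y : Type}
variable {W W1 W2 W3 : Submodule ℝ M} {k l : ℕ} {f f1 f2 : Y → E4 → M}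

theorem ki3_cont : Continuous fun x : E4 => gs 1 x ^ 2 := by
  unfold gs r2
  fun_prop

theorem ki3_i0 : Integrable fun x : E4 => gs 1 x ^ 2 := by
  simpa using gs_int 0

theorem ki3_i2 (j k : Fin 4) : Integrable fun x : E4 => gs 1 x ^ 2 * (x j * x k) := by
  refine (gs_int 2).mono' (ki3_cont.mul (by fun_prop)).aestronglyMeasurable
    (ae_of_all _ fun x => ?_)
  rw [norm_mul, Real.norm_of_nonneg (sq_nonneg _), norm_mul]
  refine mul_le_mul_of_nonneg_left ?_ (sq_nonneg _)
  have h1 := norm_le_pi_norm x j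
  have h2 := norm_le_pi_norm x k
  have h3 := mul_le_mul h1 h2 (norm_nonneg _) (norm_nonneg _)
  nlinarith [norm_nonneg x]

theorem gs_dens (τ : M →L[ℝ] ℝ) (E : M) (Ω : Fin 4 → Fin 4 → M) :
    ∫ x : E4, gs 1 x ^ 2 * (2 * τ (P4 E Ω x) + τ (E * E)) = dens0 τ E Ω := by
  have e : ∀ x : E4, gs 1 x ^ 2 * (2 * τ (P4 E Ω x) + τ (E * E)) =
      gs 1 x ^ 2 * (2 * τ (E * E) + 1 / 6 * ∑ i, ∑ j, τ (Ω j i * Ω j i)) +
        ∑ i, ∑ j, ∑ k, gs 1 x ^ 2 * (x j * x k) * (1 / 6 * τ (Ω j i * Ω k i)) := by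
    intro x
    have h : ∑ i, ∑ j, ∑ k, gs 1 x ^ 2 * (x j * x k) * (1 / 6 * τ (Ω j i * Ω k i)) =
        gs 1 x ^ 2 * (1 / 6) * ∑ i, ∑ j, ∑ k, x j * x k * τ (Ω j i * Ω k i) := by
      simp only [mul_sum]
      exact sum_congr rfl fun i _ => sum_congr rfl fun j _ => sum_congr rfl fun k _ => by ring
    rw [h]
    simp only [P4, map_add, map_smul, map_sum, smul_eq_mul]
    ring
  have i1 : ∀ i j k, Integrable fun x : E4 =>
      gs 1 x ^ 2 * (x j * x k) * (1 / 6 * τ (Ω j i * Ω k i)) := fun i j k =>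
    (ki3_i2 j k).mul_const _
  have i2 := fun i j => integrable_finsetSum univ fun k _ => i1 i j k
  have i3 := fun i => integrable_finsetSum univ fun j _ => i2 i j
  simp only [e]
  rw [integral_add (ki3_i0.mul_const _) (integrable_finsetSum univ fun i _ => i3 i),
    integral_finsetSum _ fun i _ => i3 i, integral_mul_const, gs_mass]
  simp only [integral_finsetSum _ fun j _ => i2 _ j, integral_finsetSum _ fun k _ => i1 _ _ k,
    integral_mul_const, gs_mom, ite_mul, zero_mul, sum_ite_eq, mem_univ, if_true, ← mul_sum]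
  simp only [dens0, map_add, map_smul, map_sum, smul_eq_mul]
  rw [sum_comm (f := fun a b => τ (Ω a b * Ω a b))]
  have := Real.pi_pos
  field_simp
  ring

theorem gs_scale {t : ℝ} (ht : 0 < t) (x : E4) : gs t (√t • x) = (t ^ 2)⁻¹ * gs 1 x := by
  have h : r2 (√t • x) = t * r2 x := by
    simp only [r2, Pi.smul_apply, smul_eq_mul, mul_pow, Real.sq_sqrt ht.le, mul_sum]
  have h2 : t * r2 x / (4 * t) = r2 x / (4 * 1) := by field_simp
  have := Real.pi_pos
  rw [gs, gs, h, h2]
  field_simp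

theorem int_scale {t : ℝ} (ht : 0 < t) (u : E4 → ℝ) : ∫ z, u z = t ^ 2 * ∫ x, u (√t • x) := by
  have h : √t ^ 4 = t ^ 2 := by
    rw [show √t ^ 4 = (√t ^ 2) ^ 2 by ring, Real.sq_sqrt ht.le]
  rw [Measure.integral_comp_smul, Module.finrank_fin_fun, h, abs_of_pos (by positivity),
    smul_eq_mul, mul_inv_cancel_left₀ (by positivity)]

end Vale.Agent.P267I.K
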