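import Vale.Agent.P267I.KH3

/-! The model operator is onto on polynomials. For f in Hom W d: Lk k f = ((k + d) / 2) f - Laplacian f (Hom.euler) and the Laplacian is Hom W (d - 2) or zero (Hom.pd, Hom.pd0). Strong induction on d: p = (2 / (k + d)) f + p1 with Lk k p1 = (2 / (k + d)) Laplacian f. Then induction on Pol with Lk_add. -/

open Finset MeasureTheory

noncomputable section

namespace Vale.Agent.P267I.K

variable {M : Type} [NormedRing M] [NormedAlgebra ℝ M] [StarRing M] {Y : Type}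
variable {W W1 W2 W3 : Submodule ℝ M} {k l : ℕ} {f f1 f2 : Y → E4 → M}

theorem Lk_add {u v : E4 → M} (hu : ContDiff ℝ (⊤ : ℕ∞) u) (hv : ContDiff ℝ (⊤ : ℕ∞) v) (k : ℕ)
    (x : E4) : Lk k (fun w => u w + v w) x = Lk k u x + Lk k v x := by
  have e : ∀ i, pd i (fun w => u w + v w) = fun w => pd i u w + pd i v w := fun i =>
    funext fun w => pd_add hu hv i w
  simp only [Lk, e, pd_add (pd_smooth hu _) (pd_smooth hv _), smul_add, sum_add_distrib]
  abel

theorem Lk_sub {u v : E4 → M} (hu : ContDiff ℝ (⊤ : ℕ∞) u) (hv : ContDiff ℝ (⊤ : ℕ∞) v) (k : ℕ)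
    (x : E4) : Lk k (fun w => u w - v w) x = Lk k u x - Lk k v x := by
  have e : ∀ i, pd i (fun w => u w - v w) = fun w => pd i u w - pd i v w := fun i =>
    funext fun w => pd_sub hu hv i w
  simp only [Lk, e, pd_sub (pd_smooth hu _) (pd_smooth hv _), smul_sub, sum_sub_distrib]
  abel

theorem Lk_const (m : M) (k : ℕ) (x : E4) : Lk k (fun _ => m) x = ((k : ℝ) / 2) • m := by
  have e : ∀ i, pd i (fun _ : E4 => m) = fun _ => 0 := fun i => funext fun w => pd_const m i w
  simp only [Lk, e, pd_const, smul_zero, sum_const_zero, add_zero, sub_zero]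

theorem ks_lap {d : ℕ} (h : Hom W d f) : (∀ y x, ∑ i, pd i (pd i (f y)) x = 0) ∨
    ∃ d' < d, Hom W d' fun y x => ∑ i, pd i (pd i (f y)) x := by
  rcases d with _ | _ | d
  · refine Or.inl fun y x => sum_eq_zero fun i _ => ?_
    rw [show pd i (f y) = fun _ => 0 from funext fun w => h.pd0 i y w, pd_const]
  · exact Or.inl fun y x => sum_eq_zero fun i _ => (h.pd i).pd0 i y x
  · exact Or.inr ⟨d, by omega, Hom.sum _ fun i _ => (h.pd i).pd i⟩

theorem ks_hom (hk : 1 ≤ k) (d : ℕ) : ∀ f : Y → E4 → M, Hom W d f →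
    ∃ p, Pol W p ∧ ∀ y x, Lk k (p y) x = f y x := by
  induction d using Nat.strong_induction_on with
  | _ d ih =>
    intro f h
    have hg := h.smul (2 / ((k : ℝ) + d))
    have hk' : (0 : ℝ) < (k : ℝ) + d := by
      have : (1 : ℝ) ≤ k := by exact_mod_cast hk
      positivity
    have e : ∀ y x, Lk k (fun w => (2 / ((k : ℝ) + d)) • f y w) x =
        f y x - ∑ i, pd i (pd i fun w => (2 / ((k : ℝ) + d)) • f y w) x := fun y x => by
      rw [Lk, hg.euler y x, smul_smul, smul_smul, smul_smul, ← add_smul,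
        show (k : ℝ) / 2 * (2 / ((k : ℝ) + d)) + 1 / 2 * d * (2 / ((k : ℝ) + d)) = 1 by
          field_simp, one_smul]
    rcases ks_lap hg with h0 | ⟨d', hd, h1⟩
    · exact ⟨_, Pol.hom hg, fun y x => by rw [e, h0 y x, sub_zero]⟩
    · obtain ⟨p, hp, hp'⟩ := ih d' hd _ h1
      refine ⟨_, (Pol.hom hg).add hp, fun y x => ?_⟩
      rw [Lk_add (hg.smooth y) (hp.smooth y), e, hp', sub_add_cancel]

theorem Pol.solve (h : Pol W f) (hk : 1 ≤ k) : ∃ p, Pol W p ∧ ∀ y x, Lk k (p y) x = f y x := by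
  induction h with
  | hom h => exact ks_hom hk _ _ h
  | add _ _ ih ih' =>
    obtain ⟨p, hp, e⟩ := ih
    obtain ⟨p', hp', e'⟩ := ih'
    exact ⟨_, hp.add hp', fun y x => by rw [Lk_add (hp.smooth y) (hp'.smooth y), e, e']⟩

end Vale.Agent.P267I.K
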