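import Vale.Agent.P267I.KH2

/-! Uniform Taylor expansion. Induction on n, for all f at once. Step: apply the statement to the four functions g i = pd in z of f (pd2_smooth, pd_mem), get q i; put Q 0 = f (y, 0) (Hom.const, bounded on K), Q (k + 1) = sum over i of z i • ((k + 1)⁻¹ • q i k). The function s ↦ f (y, s • z) - sum of Q k y (s • z) vanishes at 0 (Hom.scale: Q (k+1) (s z) = s ^ (k+1) Q (k+1) z) and has derivative sum of z i • (g i (y, s z) - sum of q i k y (s z)) (fderiv_eq_pd); mean value inequality on [0, 1]. Case n = 0: f is bounded on K × closedBall; Q 0, Q 1 as stated, Q k = 0 for k ≥ 2. -/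

open Finset MeasureTheory

noncomputable section

namespace Vale.Agent.P267I.K

variable {M : Type} [NormedRing M] [NormedAlgebra ℝ M] [StarRing M] {Y : Type}
variable {W W1 W2 W3 : Submodule ℝ M} {k l : ℕ} {f f1 f2 : Y → E4 → M}

theorem kt_bdd {F : Type} [NormedAddCommGroup F] {K : Set E4} (hK : IsCompact K)
    {u : E4 × E4 → F} (hu : Continuous u) :
    ∃ C, 0 ≤ C ∧ ∀ y ∈ K, ∀ z, ‖z‖ ≤ 1 → ‖u (y, z)‖ ≤ C := by
  obtain ⟨C, hC⟩ := (hK.prod (isCompact_closedBall (0 : E4) 1)).exists_bound_of_continuousOn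
    hu.continuousOn
  exact ⟨|C|, abs_nonneg C, fun y hy z hz =>
    (hC (y, z) ⟨hy, mem_closedBall_zero_iff.2 hz⟩).trans (le_abs_self C)⟩

theorem kt_der {F : Type} [NormedAddCommGroup F] [NormedSpace ℝ F] {u : E4 × E4 → F}
    (hu : ContDiff ℝ (⊤ : ℕ∞) u) (y z : E4) (s : ℝ) :
    HasDerivAt (fun s : ℝ => u (y, s • z)) (∑ i, z i • pd i (fun w => u (y, w)) (s • z)) s := by
  have h1 : Differentiable ℝ fun w => u (y, w) :=
    (hu.comp (contDiff_const.prodMk contDiff_id)).differentiable (by simp)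
  have h2 := (h1 (s • z)).hasFDerivAt.comp_hasDerivAt s ((hasDerivAt_id s).smul_const z)
  rw [one_smul, fderiv_eq_pd] at h2
  exact h2

theorem kt_sm {z : E4} {s : ℝ} (hs : s ∈ Set.Ico (0 : ℝ) 1) : ‖s • z‖ ≤ ‖z‖ := by
  rw [norm_smul, Real.norm_of_nonneg hs.1]
  exact mul_le_of_le_one_left (norm_nonneg z) hs.2.le

theorem kt_sum {F : Type} [NormedAddCommGroup F] [NormedSpace ℝ F] (z : E4) {v : Fin 4 → F}
    {C : Fin 4 → ℝ} (h : ∀ i, ‖v i‖ ≤ C i) : ‖∑ i, z i • v i‖ ≤ (∑ i, C i) * ‖z‖ := by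
  refine (norm_sum_le _ _).trans ?_
  rw [sum_mul]
  refine sum_le_sum fun i _ => ?_
  rw [norm_smul, mul_comm]
  exact mul_le_mul (h i) (norm_le_pi_norm z i) (norm_nonneg _) ((norm_nonneg _).trans (h i))

theorem kt_hom0 {K : Set E4} (hK : IsCompact K) {F : E4 × E4 → M}
    (hF : ContDiff ℝ (⊤ : ℕ∞) F) (hm : ∀ p, F p ∈ W) : Hom W 0 fun (y : K) _ => F (y, 0) := by
  obtain ⟨C, -, hC⟩ := kt_bdd hK hF.continuous
  exact Hom.const _ C (fun y => hC y y.2 0 (by simp)) fun _ => hm _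

theorem kt_step {K : Set E4} (hK : IsCompact K) {n : ℕ} {F : E4 × E4 → M}
    (hF : ContDiff ℝ (⊤ : ℕ∞) F) (hm : ∀ p, F p ∈ W) {q : Fin 4 → ℕ → K → E4 → M}
    (hq : ∀ i, Tay W n (fun (y : K) z => pd i (fun w => F (y, w)) z) (q i)) :
    ∃ Q : ℕ → K → E4 → M, Tay W (n + 1) (fun (y : K) z => F (y, z)) Q ∧
      (∀ y z, Q 0 y z = F (y, 0)) ∧ ∀ y z, Q 1 y z = ∑ i, z i • q i 0 y z := by
  choose C hC using fun i => (hq i).rem
  refine ⟨fun k => Nat.casesOn k (fun y _ => F (y, 0))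
    fun k y z => ∑ i, z i • ((k + 1 : ℝ)⁻¹ • q i k y z), ⟨fun k => ?_, ∑ i, |C i|, fun y z hz => ?_⟩,
    fun _ _ => rfl, fun y z => by simp⟩
  · cases k with
    | zero => exact kt_hom0 hK hF hm
    | succ k => exact Hom.sum _ fun i _ => (((hq i).hom k).smul _).mulx i
  · have hd : ∀ s : ℝ, HasDerivAt (fun s : ℝ => F (y, s • z) -
        ∑ k ∈ range n, s ^ (k + 1) • ∑ i, z i • ((k + 1 : ℝ)⁻¹ • q i k y z))
        (∑ i, z i • (pd i (fun w => F (y, w)) (s • z) - ∑ k ∈ range n, q i k y (s • z))) s := by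
      intro s
      refine ((kt_der hF y z s).fun_sub (HasDerivAt.fun_sum fun k _ =>
        (hasDerivAt_pow (k + 1) s).smul_const _)).congr_deriv ?_
      simp only [smul_sub, sum_sub_distrib, smul_sum]
      rw [sum_comm]
      congr 1
      refine sum_congr rfl fun i _ => sum_congr rfl fun k _ => ?_
      rw [((hq i).hom k).scale, smul_smul, smul_smul, smul_smul]
      congr 1
      have : (k + 1 : ℝ) ≠ 0 := by positivity
      push_cast
      field_simp
    have h1 := norm_image_sub_le_of_norm_deriv_le_segment_01'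
      (C := (∑ i, |C i| * ‖z‖ ^ n) * ‖z‖) (fun s _ => (hd s).hasDerivWithinAt) fun s hs =>
        kt_sum z fun i => (hC i y _ ((kt_sm hs).trans hz)).trans (mul_le_mul (le_abs_self _)
          (pow_le_pow_left₀ (norm_nonneg _) (kt_sm hs) n) (by positivity) (abs_nonneg _))
    simp only [one_smul, one_pow, zero_smul, ne_eq, Nat.add_eq_zero_iff, one_ne_zero, and_false,
      not_false_eq_true, zero_pow, sum_const_zero, sub_zero] at h1
    rw [sum_range_succ', ← sub_sub, pow_succ, ← mul_assoc, sum_mul]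
    exact h1

theorem kt_weak (hW : IsClosed (W : Set M)) {K : Set E4} (hK : IsCompact K) (n : ℕ) :
    ∀ F : E4 × E4 → M, ContDiff ℝ (⊤ : ℕ∞) F → (∀ p, F p ∈ W) →
    ∃ q : ℕ → K → E4 → M, Tay W n (fun (y : K) z => F (y, z)) q ∧ ∀ y z, q 0 y z = F (y, 0) := by
  induction n with
  | zero =>
    intro F hF hm
    obtain ⟨C, -, hC⟩ := kt_bdd hK hF.continuous
    refine ⟨fun k => Nat.casesOn k (fun y _ => F (y, 0)) fun _ _ _ => 0, ⟨fun k => ?_, C,
      fun y z hz => by simpa using hC y y.2 z hz⟩, fun _ _ => rfl⟩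
    cases k with
    | zero => exact kt_hom0 hK hF hm
    | succ k => exact Hom.zero W _
  | succ n ih =>
    intro F hF hm
    choose q hq _ using fun i => ih _ (pd2_smooth hF i) fun p =>
      pd_mem hW (hF.comp (contDiff_const.prodMk contDiff_id)) (fun _ => hm _) i p.2
    obtain ⟨Q, h1, h2, -⟩ := kt_step hK hF hm hq
    exact ⟨Q, h1, h2⟩

theorem taylor (hW : IsClosed (W : Set M)) {K : Set E4} (hK : IsCompact K) (n : ℕ) (F : E4 × E4 → M)
    (hF : ContDiff ℝ (⊤ : ℕ∞) F) (hm : ∀ p, F p ∈ W) :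
    ∃ q : ℕ → K → E4 → M, Tay W n (fun (y : K) z => F (y, z)) q ∧ (∀ y z, q 0 y z = F (y, 0)) ∧
      ∀ y z, q 1 y z = ∑ i, z i • pd i (fun w => F (y, w)) 0 := by
  choose q hq h0 using fun i => kt_weak hW hK (n - 1) _ (pd2_smooth hF i) fun p =>
    pd_mem hW (hF.comp (contDiff_const.prodMk contDiff_id)) (fun _ => hm _) i p.2
  obtain ⟨Q, h1, h2, h3⟩ := kt_step hK hF hm hq
  refine ⟨Q, ?_, h2, fun y z => by simp only [h3, h0]⟩
  cases n with
  | zero =>
    obtain ⟨C, -, hC⟩ := kt_bdd hK hF.continuous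
    exact ⟨h1.hom, C, fun y z hz => by simpa using hC y y.2 z hz⟩
  | succ n => exact h1

theorem lip_zero {F : Type} [NormedAddCommGroup F] [NormedSpace ℝ F] {K : Set E4} (hK : IsCompact K)
    (u : E4 × E4 → F) (hu : ContDiff ℝ (⊤ : ℕ∞) u) :
    ∃ C, 0 ≤ C ∧ ∀ y ∈ K, ∀ z, ‖z‖ ≤ 1 → ‖u (y, z)‖ ≤ C ∧ ‖u (y, z) - u (y, 0)‖ ≤ C * ‖z‖ ∧
      ∀ i, ‖pd i (fun w => u (y, w)) z‖ ≤ C := by
  obtain ⟨C, C0, hC⟩ := kt_bdd hK hu.continuous
  choose D D0 hD using fun i => kt_bdd hK (pd2_smooth hu i).continuous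
  have hs : 0 ≤ ∑ i, D i := sum_nonneg fun i _ => D0 i
  refine ⟨C + ∑ i, D i, by positivity, fun y hy z hz => ⟨(hC y hy z hz).trans (by linarith), ?_,
    fun i => (hD i y hy z hz).trans ?_⟩⟩
  · have h1 := norm_image_sub_le_of_norm_deriv_le_segment_01'
      (C := (∑ i, D i) * ‖z‖) (fun s _ => (kt_der hu y z s).hasDerivWithinAt) fun s hs =>
        kt_sum z fun i => hD i y hy _ ((kt_sm hs).trans hz)
    simp only [one_smul, zero_smul] at h1
    exact h1.trans (mul_le_mul_of_nonneg_right (by linarith) (norm_nonneg z))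
  · have := single_le_sum (fun j _ => D0 j) (mem_univ i)
    linarith

end Vale.Agent.P267I.K
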