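import Vale.Agent.P267I.HAll
import Vale.Agent.P267J.YMain

/-! The local index theorem. -/

noncomputable section

namespace Vale.Agent.P267I

open Vale.Agent.P267F

theorem localIndex {X : Type} [TopologicalSpace X] [ChartedSpace C2 X] {N : ℕ}
    (hX : IsSurface X) [MeasurableSpace X] [BorelSpace X] (S : Pre X N) : S.LocalIndex :=
  localIndex_of (P267J.Y.alg0 N) hX S

end Vale.Agent.P267I
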