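import Mathlib

/-! The heat trace by Parseval: the abstract lemma. -/

open Filter Topology Set

noncomputable section

namespace Vale.Agent.P267I

variable {ι : Type*}

theorem par_cs (F : Finset ι) (x y : ι → ℝ) {A B : ℝ} (hA : 0 ≤ A) (hB : 0 ≤ B)
    (hx : ∑ j ∈ F, x j ^ 2 ≤ A ^ 2) (hy : ∑ j ∈ F, y j ^ 2 ≤ B ^ 2) :
    ∑ j ∈ F, x j * y j ≤ A * B := by
  refine (le_abs_self _).trans (abs_le_of_sq_le_sq ?_ (mul_nonneg hA hB))
  rw [mul_pow]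
  exact (Finset.sum_mul_sq_le_sq_mul_sq F x y).trans
    (mul_le_mul hx hy (Finset.sum_nonneg fun _ _ => sq_nonneg _) (sq_nonneg _))

/-- The solution of the perturbed equations stays close to the free one. -/
theorem par_fin (lam : ι → ℝ) (hl : ∀ j, 0 ≤ lam j) (a r : ι → ℝ → ℂ) (b : ι → ℂ) {t K : ℝ}
    (ht : 0 < t) (hK : 0 ≤ K)
    (hd : ∀ j, ∀ s ∈ Ioc 0 t, HasDerivAt (a j) (r j s - lam j * a j s) s)
    (h0 : ∀ j, Tendsto (a j) (𝓝[>] 0) (𝓝 (b j)))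
    (hr : ∀ s ∈ Ioc 0 t, ∀ F : Finset ι, ∑ j ∈ F, ‖r j s‖ ^ 2 ≤ K ^ 2) (F : Finset ι) :
    ∑ j ∈ F, ‖a j t - Real.exp (-(t * lam j)) * b j‖ ^ 2 ≤ (K * t) ^ 2 := by
  set d : ι → ℂ := fun j => a j t - Real.exp (-(t * lam j)) * b j with hdd
  set D : ℝ := √(∑ j ∈ F, ‖d j‖ ^ 2) with hD
  have hD0 : 0 ≤ D := Real.sqrt_nonneg _
  have hD2 : D ^ 2 = ∑ j ∈ F, ‖d j‖ ^ 2 := Real.sq_sqrt (Finset.sum_nonneg fun _ _ => sq_nonneg _)
  set g : ℝ → ℂ := fun s => ∑ j ∈ F,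
    (starRingEnd ℂ) (d j) * (Real.exp ((s - t) * lam j) * a j s) with hg
  have hg' : ∀ s ∈ Ioc 0 t, HasDerivAt g
      (∑ j ∈ F, (starRingEnd ℂ) (d j) * (Real.exp ((s - t) * lam j) * r j s)) s := by
    intro s hs
    refine HasDerivAt.fun_sum fun j _ => HasDerivAt.const_mul _ ?_
    have h1 : HasDerivAt (fun s : ℝ => ((Real.exp ((s - t) * lam j) : ℝ) : ℂ))
        ((Real.exp ((s - t) * lam j) * (1 * lam j) : ℝ) : ℂ) s :=
      ((((hasDerivAt_id s).sub_const t).mul_const (lam j)).exp).ofReal_comp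
    refine (h1.mul (hd j s hs)).congr_deriv ?_
    push_cast
    ring
  have hb : ∀ s ∈ Ioc 0 t,
      ‖∑ j ∈ F, (starRingEnd ℂ) (d j) * (Real.exp ((s - t) * lam j) * r j s)‖ ≤ D * K := by
    intro s hs
    refine (norm_sum_le _ _).trans (le_trans (Finset.sum_le_sum fun j _ => ?_)
      (par_cs F (fun j => ‖d j‖) (fun j => ‖r j s‖) hD0 hK hD2.ge (hr s hs F)))
    rw [norm_mul, norm_mul, Complex.norm_conj, Complex.norm_real,
      Real.norm_of_nonneg (Real.exp_pos _).le]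
    refine mul_le_mul_of_nonneg_left (mul_le_of_le_one_left (norm_nonneg _) ?_) (norm_nonneg _)
    exact Real.exp_le_one_iff.2 (mul_nonpos_of_nonpos_of_nonneg (sub_nonpos.2 hs.2) (hl j))
  have h1 : ∀ s ∈ Ioc 0 t, ‖g t - g s‖ ≤ D * K * t := by
    intro s hs
    have h2 := (convex_Ioc (0 : ℝ) t).norm_image_sub_le_of_norm_hasDerivWithin_le
      (fun x hx => (hg' x hx).hasDerivWithinAt) hb hs ⟨ht, le_rfl⟩
    refine h2.trans (mul_le_mul_of_nonneg_left ?_ (mul_nonneg hD0 hK))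
    rw [Real.norm_of_nonneg (sub_nonneg.2 hs.2)]
    linarith [hs.1]
  have h2 : Tendsto g (𝓝[>] 0)
      (𝓝 (∑ j ∈ F, (starRingEnd ℂ) (d j) * (Real.exp ((0 - t) * lam j) * b j))) := by
    refine tendsto_finsetSum _ fun j _ => Tendsto.const_mul _ (Tendsto.mul ?_ (h0 j))
    have h3 : Continuous fun s : ℝ => ((Real.exp ((s - t) * lam j) : ℝ) : ℂ) := by fun_prop
    exact (h3.tendsto 0).mono_left nhdsWithin_le_nhds
  have h3 := le_of_tendsto ((tendsto_const_nhds (x := g t)).sub h2).norm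
    (Filter.eventually_of_mem (Ioc_mem_nhdsGT ht) h1)
  have e : g t - ∑ j ∈ F, (starRingEnd ℂ) (d j) * (Real.exp ((0 - t) * lam j) * b j) =
      ((D ^ 2 : ℝ) : ℂ) := by
    rw [hD2, hg, ← Finset.sum_sub_distrib]
    push_cast
    refine Finset.sum_congr rfl fun j _ => ?_
    rw [← mul_sub, ← Complex.conj_mul', hdd]
    simp
  rw [e, Complex.norm_real, Real.norm_of_nonneg (sq_nonneg _)] at h3
  rw [← hD2]
  refine pow_le_pow_left₀ hD0 ?_ 2
  rcases hD0.eq_or_lt with h4 | h4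
  · rw [← h4]
    positivity
  · exact le_of_mul_le_mul_left (by nlinarith) h4

/-- The heat sum is the squared norm of the approximate solution up to a small error. -/
theorem par_abs (lam : ι → ℝ) (hl : ∀ j, 0 ≤ lam j) (a r : ι → ℝ → ℂ) (b : ι → ℂ) {t K n : ℝ}
    (ht : 0 < t) (hK : 0 ≤ K) (hn0 : 0 ≤ n)
    (hd : ∀ j, ∀ s ∈ Ioc 0 t, HasDerivAt (a j) (r j s - lam j * a j s) s)
    (h0 : ∀ j, Tendsto (a j) (𝓝[>] 0) (𝓝 (b j)))
    (hr : ∀ s ∈ Ioc 0 t, ∀ F : Finset ι, ∑ j ∈ F, ‖r j s‖ ^ 2 ≤ K ^ 2)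
    (hn : HasSum (fun j => ‖a j t‖ ^ 2) (n ^ 2)) :
    ∃ m, HasSum (fun j => Real.exp (-(2 * t * lam j)) * ‖b j‖ ^ 2) m ∧
      |m - n ^ 2| ≤ 2 * n * (K * t) + (K * t) ^ 2 := by
  set d : ι → ℂ := fun j => a j t - Real.exp (-(t * lam j)) * b j with hdd
  have h1 : ∀ F : Finset ι, ∑ j ∈ F, ‖d j‖ ^ 2 ≤ (K * t) ^ 2 := par_fin lam hl a r b ht hK hd h0 hr
  have h2 : ∀ F : Finset ι, ∑ j ∈ F, (2 * (‖a j t‖ * ‖d j‖) + ‖d j‖ ^ 2) ≤
      2 * n * (K * t) + (K * t) ^ 2 := fun F => by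
    have h3 := par_cs F (fun j => ‖a j t‖) (fun j => ‖d j‖) hn0 (by positivity)
      (sum_le_hasSum F (fun _ _ => sq_nonneg _) hn) (h1 F)
    rw [Finset.sum_add_distrib, ← Finset.mul_sum]
    linarith [h1 F]
  have hp : ∀ j, 0 ≤ 2 * (‖a j t‖ * ‖d j‖) + ‖d j‖ ^ 2 := fun j => by positivity
  have hs := summable_of_sum_le hp h2
  have h3 : ∀ j, ‖Real.exp (-(2 * t * lam j)) * ‖b j‖ ^ 2 - ‖a j t‖ ^ 2‖ ≤
      2 * (‖a j t‖ * ‖d j‖) + ‖d j‖ ^ 2 := fun j => by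
    have e1 : Real.exp (-(2 * t * lam j)) * ‖b j‖ ^ 2 = ‖a j t - d j‖ ^ 2 := by
      rw [hdd]
      simp only [sub_sub_cancel, norm_mul, Complex.norm_real, Real.norm_eq_abs, mul_pow, sq_abs]
      rw [← Real.exp_nat_mul]
      congr 2
      push_cast
      ring
    have a1 := abs_le.1 (abs_norm_sub_norm_le (a j t - d j) (a j t))
    rw [sub_sub_cancel_left, norm_neg] at a1
    rw [e1, Real.norm_eq_abs, abs_le]
    have a2 := norm_nonneg (a j t - d j)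
    have a3 := norm_nonneg (a j t)
    have a4 := norm_nonneg (d j)
    constructor <;> nlinarith [a1.1, a1.2]
  have hs' := Summable.of_norm_bounded hs h3
  refine ⟨_, by simpa only [add_sub_cancel] using hn.add hs'.hasSum, ?_⟩
  rw [add_sub_cancel_left, ← Real.norm_eq_abs]
  exact (tsum_of_norm_bounded hs.hasSum h3).trans (hs.tsum_le_of_sum_le h2)

end Vale.Agent.P267I
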