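import Vale.Agent.P267I.TDefs

/-! The two Dirac systems. -/

open scoped Manifold ContDiff Topology Kronecker
open Filter Matrix MeasureTheory Complex

noncomputable section

namespace Vale.Agent.P267I

open Vale.Agent.P267F

variable {X : Type} [TopologicalSpace X] [ChartedSpace C2 X] [IsManifold 𝓘(ℂ, C2) ω X]
  [T2Space X] [CompactSpace X] [MeasurableSpace X] [BorelSpace X] {G : Met X}
  {u l w : X → X → ℂ} {θ : X → X → C2 →L[ℝ] ℂ} {p q x : X}

theorem r4_mul (g h : Mat 2) : r4 g * r4 h = r4 (g * h) := by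
  ext i j
  fin_cases i <;> fin_cases j <;> simp [r4, Matrix.mul_apply, Fin.sum_univ_four]

theorem r4_one : r4 1 = 1 := by
  ext i j
  fin_cases i <;> fin_cases j <;> simp [r4]

theorem r4_ct (g : Mat 2) : (r4 g)ᴴ = r4 gᴴ := by
  ext i j
  fin_cases i <;> fin_cases j <;> simp [r4]

theorem r4_det (g : Mat 2) : (r4 g).det = g.det ^ 2 := by
  simp [r4, det_succ_row_zero, Fin.sum_univ_succ, Fin.succAbove]
  ring

theorem r4_nv (g : Mat 2) (v : C2) : r4 g * nv v = nv (g *ᵥ v) * r4 g := by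
  ext i j
  fin_cases i <;> fin_cases j <;>
    simp [r4, nv, Matrix.mul_apply, Fin.sum_univ_four, det_fin_two, mulVec, dotProduct] <;> ring

theorem r4_cv {g : Mat 2} (hg : gᴴ * g = 1) (v : C2) : r4 g * cv v = cv (g *ᵥ v) * r4 g := by
  have h1 : (r4 g)ᴴ * r4 g = 1 := by rw [r4_ct, r4_mul, hg, r4_one]
  have h2 : r4 g * (r4 g)ᴴ = 1 := mul_eq_one_comm.1 h1
  have h3 := congrArg conjTranspose (r4_nv g v)
  rw [conjTranspose_mul, conjTranspose_mul] at h3
  have h4 : r4 g * (nv v)ᴴ = (nv (g *ᵥ v))ᴴ * r4 g := by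
    rw [← Matrix.mul_one (r4 g * _), ← h1, ← Matrix.mul_assoc, Matrix.mul_assoc (r4 g), h3,
      ← Matrix.mul_assoc, h2, Matrix.one_mul]
  rw [cv, cv, Matrix.mul_sub, Matrix.sub_mul, r4_nv, h4]

theorem gam4 : cl4.gam = diagonal ![-1, 1, 1, -1] := by
  simp only [Cl.gam, cl4, cv_eq]
  ext i j
  fin_cases i <;> fin_cases j <;> simp [bs, Matrix.mul_apply, Fin.sum_univ_four]

theorem r4_gam (g : Mat 2) : r4 g * cl4.gam = cl4.gam * r4 g := by
  rw [gam4]
  ext i j
  fin_cases i <;> fin_cases j <;> simp [r4]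

theorem co_sum (v : C2) : ∑ a, co v a • bs a = v := by
  ext i
  fin_cases i <;> apply Complex.ext <;> simp [co, bs, Fin.sum_univ_four]

theorem co_bs (a b : Fin 4) : co (bs a) b = if a = b then 1 else 0 := by
  fin_cases a <;> fin_cases b <;> simp [co, bs]

theorem cv_co (v : C2) : cv v = ∑ a, (co v a : ℂ) • cl4.c a := by
  simp only [cl4, cv_eq, Fin.sum_univ_four]
  ext i j
  fin_cases i <;> fin_cases j <;> apply Complex.ext <;> simp [co, bs]

theorem sa_dot (v w : C2) : ∑ k, co v k * co w k = (star v ⬝ᵥ w).re := by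
  simp [co, Fin.sum_univ_four, dotProduct]
  ring

theorem sa_det (g : Mat 2) : (Matrix.of (Rr g)).det = Complex.normSq g.det := by
  have h : Matrix.of (Rr g) = !![(g 0 0).re, (g 0 0).im, (g 1 0).re, (g 1 0).im;
      -(g 0 0).im, (g 0 0).re, -(g 1 0).im, (g 1 0).re;
      (g 0 1).re, (g 0 1).im, (g 1 1).re, (g 1 1).im;
      -(g 0 1).im, (g 0 1).re, -(g 1 1).im, (g 1 1).re] := by
    ext a b
    fin_cases a <;> fin_cases b <;> simp [Rr, co, bs, mulVec, dotProduct]
  rw [h, det_fin_two g]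
  simp [det_succ_row_zero, Fin.sum_univ_succ, Fin.succAbove, normSq_apply]
  ring

theorem Rr_orth {g : Mat 2} (hg : gᴴ * g = 1) (m n : Fin 4) :
    (∑ k, Rr g k m * Rr g k n = if m = n then 1 else 0) ∧
      ∑ k, Rr g m k * Rr g n k = if m = n then 1 else 0 := by
  have h1 : ∀ m n, ∑ k, Rr g m k * Rr g n k = if m = n then 1 else 0 := fun m n => by
    simp only [Rr]
    rw [sa_dot, star_mulVec, ← dotProduct_mulVec, mulVec_mulVec, hg, one_mulVec, ← sa_dot]
    simp [co_bs]
  refine ⟨?_, h1 m n⟩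
  have h2 : Matrix.of (Rr g) * (Matrix.of (Rr g))ᵀ = 1 := by
    ext a b
    simpa only [Matrix.mul_apply, transpose_apply, of_apply, one_apply] using h1 a b
  simpa only [Matrix.mul_apply, transpose_apply, of_apply, one_apply] using
    Matrix.ext_iff.2 (mul_eq_one_comm.1 h2) m n

theorem fdet_mul (g : Mat 2) (e : Fin 4 → C2) :
    fdet (fun a => g *ᵥ e a) = Complex.normSq g.det * fdet e := by
  have h1 : (Matrix.of fun a b => co (g *ᵥ e a) b) =
      (Matrix.of fun a b => co (e a) b) * Matrix.of (Rr g) := by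
    ext a b
    fin_cases b <;>
      simp [Matrix.mul_apply, Fin.sum_univ_four, Rr, co, bs, mulVec, dotProduct] <;> ring
  rw [fdet, h1, det_mul, sa_det, mul_comm, fdet]

theorem fdet_bs : fdet bs = 1 := by
  rw [fdet, show (Matrix.of fun a b => co (bs a) b) = 1 from
    Matrix.ext fun a b => by rw [of_apply, co_bs, one_apply], det_one]

theorem cj_mul {N : ℕ} (A B : Mat N) : cj (A * B) = cj A * cj B := by
  exact Matrix.map_mul

theorem cj_one {N : ℕ} : cj (1 : Mat N) = 1 := by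
  exact Matrix.map_one _ (map_zero _) (map_one _)

theorem cj_ct {N : ℕ} (A : Mat N) : (cj A)ᴴ = cj Aᴴ := by
  ext i j
  simp [cj]

theorem kr_trace (A B : Mat 4) : (kr A B).trace = A.trace * B.trace := by
  rw [← trace_kronecker, kr]
  exact (Equiv.sum_comp finProdFinEquiv.symm fun i => (A ⊗ₖ B) i i)

theorem gam16 : cl16.gam = kr cl4.gam 1 := by
  simp only [Cl.gam, cl16, kr_mul, mul_one]

end Vale.Agent.P267I
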