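import Vale.Agent.P267I.SA

/-! The two Dirac systems. -/

open scoped Manifold ContDiff Topology Kronecker
open Filter Matrix MeasureTheory Complex

noncomputable section

namespace Vale.Agent.P267I

open Vale.Agent.P267F

variable {X : Type} [TopologicalSpace X] [ChartedSpace C2 X] [IsManifold 𝓘(ℂ, C2) ω X]
  [T2Space X] [CompactSpace X] [MeasurableSpace X] [BorelSpace X] {G : Met X}
  {u l w : X → X → ℂ} {θ : X → X → C2 →L[ℝ] ℂ} {p q x : X}

theorem sa2_c0 : cl4.c 0 = !![0, -1, 0, 0; 1, 0, 0, 0; 0, 0, 0, -1; 0, 0, 1, 0] := by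
  change cv (bs 0) = _
  rw [cv_eq]
  simp [bs]

theorem sa2_c1 : cl4.c 1 = !![0, I, 0, 0; I, 0, 0, 0; 0, 0, 0, I; 0, 0, I, 0] := by
  change cv (bs 1) = _
  rw [cv_eq]
  simp [bs]

theorem sa2_c2 : cl4.c 2 = !![0, 0, -1, 0; 0, 0, 0, 1; 1, 0, 0, 0; 0, -1, 0, 0] := by
  change cv (bs 2) = _
  rw [cv_eq]
  simp [bs]

theorem sa2_c3 : cl4.c 3 = !![0, 0, I, 0; 0, 0, 0, -I; I, 0, 0, 0; 0, -I, 0, 0] := by
  change cv (bs 3) = _
  rw [cv_eq]
  simp [bs]

theorem sa2_d1 : cl4.c 0 * cl4.c 1 = diagonal ![-I, I, -I, I] := by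
  rw [sa2_c0, sa2_c1]
  ext i j
  fin_cases i <;> fin_cases j <;> simp [Matrix.mul_apply, Fin.sum_univ_four]

theorem sa2_d2 : cl4.c 2 * cl4.c 3 = diagonal ![-I, -I, I, I] := by
  rw [sa2_c2, sa2_c3]
  ext i j
  fin_cases i <;> fin_cases j <;> simp [Matrix.mul_apply, Fin.sum_univ_four]

theorem sa2_off {B : Mat 4} {d : Fin 4 → ℂ} (h : B * diagonal d = diagonal d * B) {i j : Fin 4}
    (hd : (d j).im ≠ (d i).im) : B i j = 0 := by
  have e := congrFun (congrFun h i) j
  rw [mul_diagonal, diagonal_mul, mul_comm (d i), ← sub_eq_zero, ← mul_sub] at e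
  exact (mul_eq_zero.1 e).resolve_right fun c => hd (by rw [sub_eq_zero.1 c])

theorem sa2_gam {N : ℕ} (C : Cl N) (a : Fin 4) : C.c a * C.gam = -(C.gam * C.c a) := by
  have h : ∀ a b, a ≠ b → C.c a * C.c b = -(C.c b * C.c a) := fun a b c => by
    have := C.rel a b
    rw [if_neg c] at this
    exact eq_neg_of_add_eq_zero_left this
  have h' : ∀ a b, a ≠ b → ∀ x, C.c a * (C.c b * x) = -(C.c b * (C.c a * x)) := fun a b c x => by
    rw [← mul_assoc, h a b c, neg_mul, mul_assoc]
  have e : ∀ a : Fin 4, a = 0 ∨ a = 1 ∨ a = 2 ∨ a = 3 := by decide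
  rcases e a with rfl | rfl | rfl | rfl <;>
    simp only [Cl.gam, mul_assoc, h 3 0 (by decide), h 3 1 (by decide),
      h 3 2 (by decide), h' 1 0 (by decide),
      h' 2 0 (by decide), h' 3 0 (by decide), h' 2 1 (by decide), h' 3 1 (by decide),
      h' 3 2 (by decide), mul_neg, neg_neg]

theorem schur4 {B : Mat 4} (h : ∀ a, B * cl4.c a = cl4.c a * B) : B = (B.trace / 4) • 1 := by

  have k : ∀ a b, B * (cl4.c a * cl4.c b) = cl4.c a * cl4.c b * B := fun a b => by
    rw [← mul_assoc, h, mul_assoc, h, mul_assoc]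
  have k1 := k 0 1
  have k2 := k 2 3
  rw [sa2_d1] at k1
  rw [sa2_d2] at k2
  have o : ∀ i j, i ≠ j → B i j = 0 := fun i j c => by
    fin_cases i <;> fin_cases j <;>
      first
      | exact absurd rfl c
      | (refine sa2_off k1 ?_; simp; norm_num; done)
      | (refine sa2_off k2 ?_; simp; norm_num)
  have a1 := congrFun (congrFun (h 0) 1) 0
  have a2 := congrFun (congrFun (h 0) 3) 2
  have a3 := congrFun (congrFun (h 2) 2) 0
  simp [sa2_c0, sa2_c2, Matrix.mul_apply, Fin.sum_univ_four] at a1 a2 a3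
  ext i j
  by_cases c : i = j
  · subst c
    fin_cases i <;> simp [trace, Fin.sum_univ_four, a1, a2, a3] <;> ring
  · simp [o i j c, c]

theorem spin_comm {w : Fin 4 → Fin 4 → ℝ} (h : ∀ a b, w a b = -w b a) (a : Fin 4) :
    spin w * cl4.c a - cl4.c a * spin w = ∑ b, (w a b : ℂ) • cl4.c b := by

  have k : ∀ b d, cl4.c b * cl4.c d * cl4.c a - cl4.c a * (cl4.c b * cl4.c d) =
      (if d = a then (-2 : ℂ) • cl4.c b else 0) - if b = a then (-2 : ℂ) • cl4.c d else 0 := by
    intro b d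
    rw [show cl4.c b * cl4.c d * cl4.c a - cl4.c a * (cl4.c b * cl4.c d) =
      cl4.c b * (cl4.c d * cl4.c a + cl4.c a * cl4.c d) -
        (cl4.c b * cl4.c a + cl4.c a * cl4.c b) * cl4.c d by noncomm_ring, cl4.rel, cl4.rel]
    split_ifs <;> simp
  simp only [spin, smul_mul_assoc, mul_smul_comm, Finset.sum_mul, Finset.mul_sum, ← smul_sub,
    ← Finset.sum_sub_distrib, k]
  simp only [smul_sub, Finset.sum_sub_distrib, smul_ite, smul_zero, Finset.sum_ite_irrel,
    Finset.sum_const_zero, Finset.sum_ite_eq', Finset.mem_univ, if_true, Finset.smul_sum]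
  rw [← Finset.sum_sub_distrib]
  refine Finset.sum_congr rfl fun b _ => ?_
  rw [h b a]
  push_cast
  module

theorem spin_skew {w : Fin 4 → Fin 4 → ℝ} (h : ∀ a b, w a b = -w b a) : (spin w)ᴴ = -spin w := by

  simp only [spin, conjTranspose_smul, conjTranspose_sum, conjTranspose_mul, cl4.skew, neg_mul_neg,
    ← smul_neg, ← Finset.sum_neg_distrib]
  rw [Finset.sum_comm]
  congr 1
  · simp
  · refine Finset.sum_congr rfl fun a _ => Finset.sum_congr rfl fun b _ => ?_
    rw [h b a]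
    simp

theorem spin_trace {w : Fin 4 → Fin 4 → ℝ} (h : ∀ a b, w a b = -w b a) : (spin w).trace = 0 := by

  have e : ∑ a, ∑ b, (w a b : ℂ) * (cl4.c a * cl4.c b).trace =
      -∑ a, ∑ b, (w a b : ℂ) * (cl4.c a * cl4.c b).trace := by
    refine Finset.sum_comm.trans ?_
    simp only [← Finset.sum_neg_distrib]
    refine Finset.sum_congr rfl fun a _ => Finset.sum_congr rfl fun b _ => ?_
    rw [h b a, trace_mul_comm]
    simp
  simp only [spin, trace_smul, trace_sum, smul_eq_mul]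
  linear_combination (1 / 8 : ℂ) * e

theorem spin_gam (w : Fin 4 → Fin 4 → ℝ) : spin w * cl4.gam = cl4.gam * spin w := by

  have e : ∀ a b, cl4.c a * cl4.c b * cl4.gam = cl4.gam * (cl4.c a * cl4.c b) := fun a b => by
    rw [mul_assoc, sa2_gam, mul_neg, ← mul_assoc, sa2_gam, neg_mul, neg_neg, mul_assoc]
  simp only [spin, smul_mul_assoc, mul_smul_comm, Finset.sum_mul, Finset.mul_sum, e]

theorem spin_br {w w' : Fin 4 → Fin 4 → ℝ} (h : ∀ a b, w a b = -w b a)
    (h' : ∀ a b, w' a b = -w' b a) : spin w * spin w' - spin w' * spin w =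
      spin fun a c => ∑ b, (w' a b * w b c - w a b * w' b c) := by

  have _ := h'
  have k : ∀ b d, spin w * (cl4.c b * cl4.c d) - cl4.c b * cl4.c d * spin w =
      ∑ a, (w b a : ℂ) • (cl4.c a * cl4.c d) + ∑ a, (w d a : ℂ) • (cl4.c b * cl4.c a) := by
    intro b d
    rw [show spin w * (cl4.c b * cl4.c d) - cl4.c b * cl4.c d * spin w =
      (spin w * cl4.c b - cl4.c b * spin w) * cl4.c d +
        cl4.c b * (spin w * cl4.c d - cl4.c d * spin w) by noncomm_ring, spin_comm h, spin_comm h]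
    simp only [smul_mul_assoc, mul_smul_comm, Finset.sum_mul, Finset.mul_sum]
  generalize spin w = S at k
  simp only [spin, smul_mul_assoc, mul_smul_comm, Finset.sum_mul, Finset.mul_sum, ← smul_sub,
    ← Finset.sum_sub_distrib, k]
  congr 1
  simp only [ofReal_sum, ofReal_sub, Finset.sum_smul]
  simp only [smul_add, Finset.sum_add_distrib, Finset.smul_sum, sub_eq_add_neg, add_smul]
  rw [add_comm]
  congr 1
  · refine Finset.sum_congr rfl fun a _ => Finset.sum_comm.trans ?_
    simp only [smul_smul, ofReal_mul]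
  · refine (Finset.sum_comm.trans (Finset.sum_congr rfl fun a _ => Finset.sum_comm)).trans
      (Finset.sum_comm.trans ?_)
    refine Finset.sum_congr rfl fun a _ => Finset.sum_congr rfl fun c _ =>
      Finset.sum_congr rfl fun b _ => ?_
    rw [h b a]
    push_cast
    module

theorem Cl.gam_c {N : ℕ} (C : Cl N) (a : Fin 4) : C.c a * C.gam = -(C.gam * C.c a) := by

  exact sa2_gam C a

end Vale.Agent.P267I
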