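import Vale.Agent.P267I.SA
import Vale.Agent.P267F.Bridge

/-! The two Dirac systems. -/

open scoped Manifold ContDiff Topology Kronecker
open Filter Matrix MeasureTheory Complex

noncomputable section

namespace Vale.Agent.P267I

open Vale.Agent.P267F

variable {X : Type} [TopologicalSpace X] [ChartedSpace C2 X] [IsManifold 𝓘(ℂ, C2) ω X]
  [T2Space X] [CompactSpace X] [MeasurableSpace X] [BorelSpace X] {G : Met X}
  {u l w : X → X → ℂ} {θ : X → X → C2 →L[ℝ] ℂ} {p q x : X}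

theorem SB_r4 {F : C2 → Mat 2} {S : Set C2} (h : ∀ i j, ContDiffOn ℝ ∞ (fun z => F z i j) S)
    (i j : Fin 4) : ContDiffOn ℝ ∞ (fun z => r4 (F z) i j) S := by
  have hd : ContDiffOn ℝ ∞ (fun z => (F z).det) S := by
    simp only [det_fin_two]
    exact ((h 0 0).mul (h 1 1)).sub ((h 0 1).mul (h 1 0))
  fin_cases i <;> fin_cases j <;>
    first | exact contDiffOn_const | exact h _ _ | exact hd

theorem SB_mul (g h : Mat 2) : r16 g * r16 h = r16 (g * h) := by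
  rw [r16, r16, kr_mul, ← cj_mul, r4_mul, r16]

theorem SB_ct (g : Mat 2) : (r16 g)ᴴ = r16 gᴴ := by
  rw [r16, kr_ct, cj_ct, r4_ct, r16]

theorem SB_g (G : Met X) (p q : X) (i j : Fin 4) : ContDiffOn ℝ ∞
    (fun z => r4 (G.g p q ((chartAt C2 p).symm z)) i j) (chartAt C2 p '' (G.W p ∩ G.W q)) := by
  refine SB_r4 (fun i j => ?_) i j
  have h := G.g_sm p p q i j
  rwa [Set.inter_self] at h

theorem SB_mem {z : C2} (hz : z ∈ chartAt C2 p '' (G.W p ∩ G.W q)) :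
    (chartAt C2 p).symm z ∈ G.W p ∩ G.W q := by
  obtain ⟨x, hx, rfl⟩ := hz
  rwa [(chartAt C2 p).left_inv (G.W_sub p hx.1)]

theorem Met.g0_unit (G : Met X) (p x : X) : (G.g0 p x)ᴴ * G.g0 p x = 1 := by
  unfold Met.g0
  split_ifs with hx
  · exact G.unit p x x ⟨hx, G.W_mem x⟩
  · simp

theorem Met.g0_mul (hx : x ∈ G.W p ∩ G.W q) : G.g0 p x * (G.g0 q x)ᴴ = G.g p q x := by
  have h1 : G.g q x x * (G.g q x x)ᴴ = 1 := mul_eq_one_comm.1 (G.unit q x x ⟨hx.2, G.W_mem x⟩)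
  have h2 : G.g p q x * G.g q x x = G.g p x x := G.g_mul p q x x ⟨hx, G.W_mem x⟩
  rw [Met.g0, Met.g0, if_pos hx.1, if_pos hx.2, ← h2, mul_assoc, h1, mul_one]

theorem Met.Ln.lam_norm (h : G.Ln u l) (p x : X) : ‖G.lam u l p x‖ = 1 := by
  unfold Met.lam
  split_ifs with hx
  · have h1 := h.ne x x (G.W_mem x)
    rw [norm_div, h.nrm p x x ⟨hx, G.W_mem x⟩, div_self (norm_ne_zero_iff.2 (mul_ne_zero h1.1 h1.2))]
  · exact norm_one

theorem Met.Ln.lam_mul (h : G.Ln u l) (hx : x ∈ G.W p ∩ G.W q) :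
    G.lam u l p x * star (G.lam u l q x) = l p x * u p x / (l q x * u q x) := by
  have h1 := h.ne x x (G.W_mem x)
  have h2 := h.ne q x hx.2
  rw [star_def, ← Complex.inv_eq_conj (h.lam_norm q x), Met.lam, Met.lam, if_pos hx.1,
    if_pos hx.2, inv_div, div_mul_div_cancel₀ (mul_ne_zero h1.1 h1.2)]

theorem Met.Ln.ratio_sm (h : G.Ln u l) (hx : x ∈ G.W p ∩ G.W q) :
    SmAt (fun y => l p y * u p y / (l q y * u q y)) x := by
  have h1 := h.ne x x (G.W_mem x)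
  have h2 := h.ne q x hx.2
  have h3 : P267.SmAt (l p * (u p / u x) / (l q * (u q / u x))) x :=
    (P267.SmAt.mul (h.sm p x hx.1) (P267.HolAt.smAt (h.hol p x hx.1))).div
      (P267.SmAt.mul (h.sm q x hx.2) (P267.HolAt.smAt (h.hol q x hx.2)))
      (mul_ne_zero h2.1 (div_ne_zero h2.2 h1.2))
  refine h3.congr ?_
  filter_upwards [(G.W_open x).mem_nhds (G.W_mem x)] with y hy
  simp only [Pi.mul_apply, Pi.div_apply]
  rw [← mul_div_assoc, ← mul_div_assoc, div_div_div_cancel_right₀ (h.ne x y hy).2]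

theorem Met.Ln.U_unit (h : G.Ln u l) (p x : X) : (G.U4 u l p x)ᴴ * G.U4 u l p x = 1 := by
  rw [Met.U4, conjTranspose_smul, smul_mul_smul_comm, r4_ct, r4_mul, G.g0_unit, r4_one, star_def,
    ← Complex.inv_eq_conj (h.lam_norm p x),
    inv_mul_cancel₀ (norm_ne_zero_iff.1 (by rw [h.lam_norm]; exact one_ne_zero)), one_smul]

theorem Met.U4_gam (G : Met X) (p x : X) : G.U4 u l p x * cl4.gam = cl4.gam * G.U4 u l p x := by
  rw [Met.U4, smul_mul_assoc, mul_smul_comm, r4_gam]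

theorem Met.Ln.U_sm (h : G.Ln u l) (p q : X) (i j : Fin 4) : ContDiffOn ℝ ∞
    (fun z => (G.U4 u l p ((chartAt C2 p).symm z) * (G.U4 u l q ((chartAt C2 p).symm z))ᴴ) i j)
    (chartAt C2 p '' (G.W p ∩ G.W q)) := by
  have h1 : ContDiffOn ℝ ∞ ((fun y => l p y * u p y / (l q y * u q y)) ∘ (chartAt C2 p).symm)
      (chartAt C2 p '' (G.W p ∩ G.W q)) := by
    rintro _ ⟨x, hx, rfl⟩
    exact (((P267.isCh_chartAt p).sm x (G.W_sub p hx.1) _).1
      (h.ratio_sm hx)).self_of_nhds.contDiffWithinAt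
  refine (h1.mul (SB_g G p q i j)).congr fun z hz => ?_
  rw [Met.U4, Met.U4, conjTranspose_smul, smul_mul_smul_comm, r4_ct, r4_mul,
    Met.g0_mul (SB_mem hz), h.lam_mul (SB_mem hz)]
  rfl

theorem Met.U16_unit (G : Met X) (p x : X) : (r16 (G.g0 p x))ᴴ * r16 (G.g0 p x) = 1 := by
  rw [SB_ct, SB_mul, G.g0_unit, r16, r4_one, cj_one, kr_one]

theorem Met.U16_gam (G : Met X) (p x : X) :
    r16 (G.g0 p x) * cl16.gam = cl16.gam * r16 (G.g0 p x) := by
  rw [gam16, r16, kr_mul, kr_mul, r4_gam, mul_one, one_mul]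

theorem Met.U16_sm (G : Met X) (p q : X) (i j : Fin (4 * 4)) : ContDiffOn ℝ ∞
    (fun z => (r16 (G.g0 p ((chartAt C2 p).symm z)) * (r16 (G.g0 q ((chartAt C2 p).symm z)))ᴴ) i j)
    (chartAt C2 p '' (G.W p ∩ G.W q)) := by
  refine ((SB_g G p q (finProdFinEquiv.symm i).1 (finProdFinEquiv.symm j).1).mul
    (Complex.conjCLE.contDiff.comp_contDiffOn
      (SB_g G p q (finProdFinEquiv.symm i).2 (finProdFinEquiv.symm j).2))).congr fun z hz => ?_
  rw [SB_ct, SB_mul, Met.g0_mul (SB_mem hz)]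
  rfl

end Vale.Agent.P267I
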