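import Vale.Agent.P267I.SO

/-! The two Dirac systems. -/

open scoped Manifold ContDiff Topology Kronecker
open Filter Matrix MeasureTheory Complex

noncomputable section

namespace Vale.Agent.P267I

open Vale.Agent.P267F

variable {X : Type} [TopologicalSpace X] [ChartedSpace C2 X] [IsManifold 𝓘(ℂ, C2) ω X]
  [T2Space X] [CompactSpace X] [MeasurableSpace X] [BorelSpace X] {G : Met X}
  {u l w : X → X → ℂ} {θ : X → X → C2 →L[ℝ] ℂ} {p q x : X} {N : ℕ} {S : Pre X N}
  {A : X → Fin 4 → C2 → Mat N} {om : X → Fin 4 → Fin 4 → Fin 4 → C2 → ℝ} {z : C2}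

theorem Rm4_skew (e : Fin 4 → C2 → C2) (om : Fin 4 → Fin 4 → Fin 4 → C2 → ℝ) (z : C2)
    (j k a b : Fin 4) : Rm4 e om z j k a b = -Rm4 e om z k j a b := by
  simp only [Rm4, sub_mul, Finset.sum_sub_distrib]
  ring

theorem sc1_skew {e : Fin 4 → C2 → C2} {om : Fin 4 → Fin 4 → Fin 4 → C2 → ℝ}
    (hS : ∀ k a b, ∀ᶠ y in 𝓝 z, om k a b y = -om k b a y) (j k a b : Fin 4) :
    Rm4 e om z j k a b = -Rm4 e om z j k b a := by
  have h1 : ∀ k a b, fderiv ℝ (om k a b) z = -fderiv ℝ (om k b a) z := by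
    intro k a b
    rw [EventuallyEq.fderiv_eq (f := fun y => -om k b a y) (hS k a b), fderiv_fun_neg]
  have h2 : ∀ k a b, om k a b z = -om k b a z := fun k a b => (hS k a b).self_of_nhds
  have h3 : ∑ l, (om k a l z * om j l b z - om j a l z * om k l b z) =
      -∑ l, (om k b l z * om j l a z - om j b l z * om k l a z) := by
    rw [← Finset.sum_neg_distrib]
    refine Finset.sum_congr rfl fun l _ => ?_
    rw [h2 k a l, h2 j l b, h2 j a l, h2 k l b]
    ring
  have h4 : ∑ l, (om j k l z - om k j l z) * om l a b z =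
      -∑ l, (om j k l z - om k j l z) * om l b a z := by
    rw [← Finset.sum_neg_distrib]
    refine Finset.sum_congr rfl fun l _ => ?_
    rw [h2 l a b]
    ring
  rw [Rm4, Rm4, h1 k a b, h1 j a b, h3, h4]
  simp only [_root_.neg_apply]
  ring

open VectorField in
theorem sc1_br {e : Fin 4 → C2 → C2} {U V : C2 → C2} {T : Fin 4 → C2 → ℝ}
    (hV : V =ᶠ[𝓝 z] fun y => ∑ b, T b y • e b y)
    (hT : ∀ b, DifferentiableAt ℝ (T b) z) (he : ∀ b, DifferentiableAt ℝ (e b) z) :
    lieBracket ℝ U V z =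
      ∑ b, (fderiv ℝ (T b) z (U z) • e b z + T b z • lieBracket ℝ U (e b) z) := by
  simp only [lieBracket]
  rw [hV.fderiv_eq, hV.self_of_nhds, fderiv_fun_sum fun b _ => (hT b).fun_smul (he b),
    _root_.sum_apply, map_sum, ← Finset.sum_sub_distrib]
  refine Finset.sum_congr rfl fun b _ => ?_
  rw [fderiv_fun_smul (hT b) (he b)]
  simp only [_root_.add_apply, _root_.smul_apply, ContinuousLinearMap.smulRight_apply, map_smul,
    smul_sub]
  abel

open VectorField Finset in
theorem sc1_bian {e : Fin 4 → C2 → C2} {om : Fin 4 → Fin 4 → Fin 4 → C2 → ℝ}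
    (he : ∀ a, ContDiffAt ℝ 2 (e a) z) (ho : ∀ k a b, DifferentiableAt ℝ (om k a b) z)
    (hT : ∀ a b, ∀ᶠ y in 𝓝 z,
      lieBracket ℝ (e a) (e b) y = ∑ k, (om a b k y - om b a k y) • e k y)
    (hi : LinearIndependent ℝ fun a => e a z) (j k l b : Fin 4) :
    Rm4 e om z j k l b + Rm4 e om z k l j b + Rm4 e om z l j k b = 0 := by
  have he1 : ∀ a, DifferentiableAt ℝ (e a) z := fun a => (he a).differentiableAt (by norm_num)
  have h1 : ∀ j k l, lieBracket ℝ (e j) (lieBracket ℝ (e k) (e l)) z =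
      ∑ b, (fderiv ℝ (om k l b) z (e j z) - fderiv ℝ (om l k b) z (e j z) +
        ∑ m, (om k l m z - om l k m z) * (om j m b z - om m j b z)) • e b z := by
    intro j k l
    rw [sc1_br (T := fun b y => om k l b y - om l k b y) (hT k l)
      (fun b => (ho k l b).fun_sub (ho l k b)) he1]
    simp only [add_smul, sum_add_distrib, sum_smul]
    congr 1
    · refine sum_congr rfl fun b _ => ?_
      rw [fderiv_fun_sub (ho k l b) (ho l k b)]
      rfl
    · rw [sum_comm]
      refine sum_congr rfl fun m _ => ?_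
      rw [(hT j m).self_of_nhds, smul_sum]
      exact sum_congr rfl fun b _ => by rw [smul_smul]
  have h2 : lieBracket ℝ (e j) (lieBracket ℝ (e k) (e l)) z +
      lieBracket ℝ (e k) (lieBracket ℝ (e l) (e j)) z +
      lieBracket ℝ (e l) (lieBracket ℝ (e j) (e k)) z = 0 := by
    have h3 : lieBracket ℝ (e l) (e j) = fun y => -lieBracket ℝ (e j) (e l) y :=
      funext fun y => lieBracket_swap
    have h4 : ∀ W : C2 → C2,
        lieBracket ℝ (e k) (fun y => -W y) z = -lieBracket ℝ (e k) W z := by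
      intro W
      simp only [lieBracket, fderiv_fun_neg, _root_.neg_apply, map_neg]
      abel
    rw [leibniz_identity_lieBracket (by simp) (he j) (he k) (he l), h3, h4,
      lieBracket_swap (V := e l)]
    abel
  rw [h1, h1, h1, ← sum_add_distrib, ← sum_add_distrib] at h2
  simp only [← add_smul] at h2
  have h5 := Fintype.linearIndependent_iff.1 hi _ h2 b
  simp only [Rm4, sub_mul, mul_sub, sum_sub_distrib] at h5 ⊢
  linarith

theorem sc1_li {e : Fin 4 → C2} (h : fdet e ≠ 0) : LinearIndependent ℝ e := by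
  refine Fintype.linearIndependent_iff.2 fun g hg => congrFun ?_
  refine Matrix.eq_zero_of_vecMul_eq_zero h (funext fun b => ?_)
  have h0 := congrFun hg 0
  have h1 := congrFun hg 1
  simp only [Fin.sum_univ_four, Pi.add_apply, Pi.smul_apply, Pi.zero_apply, Complex.ext_iff,
    Complex.add_re, Complex.add_im, Complex.smul_re, Complex.smul_im, smul_eq_mul, Complex.zero_re,
    Complex.zero_im] at h0 h1
  simp only [vecMul, dotProduct, Fin.sum_univ_four, of_apply, Pi.zero_apply]
  fin_cases b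
  exacts [h0.1, h0.2, h1.1, h1.2]

theorem Pre.IsLC.Rm4_skew (h : S.IsLC A om) (hz : z ∈ S.V p) (j k a b : Fin 4) :
    Rm4 (S.e p) (om p) z j k a b = -Rm4 (S.e p) (om p) z j k b a :=
  sc1_skew (fun k a b => mem_of_superset ((S.V_open p).mem_nhds hz) (h.om_skew p k a b)) j k a b

theorem Pre.IsLC.bianchi (h : S.IsLC A om) (hz : z ∈ S.V p) (j k a b : Fin 4) :
    Rm4 (S.e p) (om p) z j k a b + Rm4 (S.e p) (om p) z k a j b + Rm4 (S.e p) (om p) z a j k b =
      0 := by
  have hn := (S.V_open p).mem_nhds hz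
  exact sc1_bian (fun a => ((S.e_sm p a).contDiffAt hn).of_le (by norm_cast))
    (fun k a b => ((h.om_sm p k a b).contDiffAt hn).differentiableAt (by simp))
    (fun a b => mem_of_superset hn (h.tf p a b)) (sc1_li (S.e_pos p z hz).ne') j k a b

end Vale.Agent.P267I
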