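import Vale.Agent.P267I.SA2

/-! The two Dirac systems. -/

open scoped Manifold ContDiff Topology Kronecker
open Filter Matrix MeasureTheory Complex

noncomputable section

namespace Vale.Agent.P267I

open Vale.Agent.P267F

set_option linter.unusedSectionVars false
set_option linter.unusedSimpArgs false

variable {X : Type} [TopologicalSpace X] [ChartedSpace C2 X] [IsManifold 𝓘(ℂ, C2) ω X]
  [T2Space X] [CompactSpace X] [MeasurableSpace X] [BorelSpace X] {G : Met X}
  {u l w : X → X → ℂ} {θ : X → X → C2 →L[ℝ] ℂ} {p q x : X} {N : ℕ} {S : Pre X N}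
  {A : X → Fin 4 → C2 → Mat N} {om : X → Fin 4 → Fin 4 → Fin 4 → C2 → ℝ} {z : C2}

theorem SO_gam (C : Cl N) {M : Mat N} {w : Fin 4 → Fin 4 → ℝ} (hw : ∀ a b, w a b = -w b a)
    (h : ∀ a, M * C.c a - C.c a * M = ∑ b, (w a b : ℂ) • C.c b) : M * C.gam = C.gam * M := by
  have a0 : ∀ a b, a ≠ b → C.c a * C.c b = -(C.c b * C.c a) := fun a b c => by
    have := C.rel a b
    rw [if_neg c] at this
    exact eq_neg_of_add_eq_zero_left this
  have a1 : ∀ a b, a ≠ b → ∀ x, C.c a * (C.c b * x) = -(C.c b * (C.c a * x)) := fun a b c x => by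
    rw [← mul_assoc, a0 a b c, neg_mul, mul_assoc]
  have s0 : ∀ a, C.c a * C.c a = -1 := fun a => by
    have h1 := C.rel a a
    rw [if_pos rfl, ← two_smul ℂ] at h1
    have h2 : (2 : ℂ) • (C.c a * C.c a) = (2 : ℂ) • (-1 : Mat N) := by rw [h1]; module
    exact smul_right_injective _ two_ne_zero h2
  have s1 : ∀ a x, C.c a * (C.c a * x) = -x := fun a x => by rw [← mul_assoc, s0, neg_one_mul]
  have w0 : ∀ a, w a a = 0 := fun a => by linarith [hw a a]
  have e : M * C.gam - C.gam * M = (M * C.c 0 - C.c 0 * M) * C.c 1 * C.c 2 * C.c 3 +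
      C.c 0 * (M * C.c 1 - C.c 1 * M) * C.c 2 * C.c 3 +
      C.c 0 * C.c 1 * (M * C.c 2 - C.c 2 * M) * C.c 3 +
      C.c 0 * C.c 1 * C.c 2 * (M * C.c 3 - C.c 3 * M) := by
    unfold Cl.gam
    noncomm_ring
  rw [← sub_eq_zero, e, h, h, h, h]
  simp only [Fin.sum_univ_four, w0, hw 1 0, hw 2 0, hw 3 0, hw 2 1, hw 3 1, hw 3 2, add_mul,
    mul_add, smul_mul_assoc, mul_smul_comm, mul_assoc, a0 1 0 (by decide), a0 2 0 (by decide),
    a0 3 0 (by decide), a0 2 1 (by decide), a0 3 1 (by decide), a0 3 2 (by decide),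
    a1 1 0 (by decide), a1 2 0 (by decide), a1 3 0 (by decide), a1 2 1 (by decide),
    a1 3 1 (by decide), a1 3 2 (by decide), s0, s1, mul_neg, neg_mul, neg_neg, mul_one,
    one_mul]
  push_cast
  module

theorem Pre.IsLC.A_gam (h : S.IsLC A om) (hz : z ∈ S.V p) (k : Fin 4) :
    A p k z * S.gam = S.gam * A p k z :=
  SO_gam S.toCl (w := fun a b => om p k a b z) (fun a b => h.om_skew p k a b z hz)
    fun a => h.comm p k a z hz

theorem Pre.IsLC.odd (h : S.IsLC A om) (hz : z ∈ S.V p) :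
    S.BofA A p z * S.gam = -(S.gam * S.BofA A p z) := by
  simp only [Pre.BofA, Finset.sum_mul, Finset.mul_sum, ← Finset.sum_neg_distrib]
  refine Finset.sum_congr rfl fun a _ => ?_
  rw [mul_assoc, h.A_gam hz, ← mul_assoc, S.toCl.gam_c, neg_mul, mul_assoc]

theorem Pre.IsLC.B_sm (h : S.IsLC A om) (p : X) (i j : Fin N) :
    ContDiffOn ℝ ∞ (fun z => S.BofA A p z i j) (S.V p) := by
  simp only [Pre.BofA, Matrix.sum_apply, Matrix.mul_apply]
  exact ContDiffOn.sum fun a _ => ContDiffOn.sum fun k _ => contDiffOn_const.mul (h.A_sm p a k j)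

theorem Pre.IsLC.B_ct (h : S.IsLC A om) (hz : z ∈ S.V p) :
    (S.BofA A p z)ᴴ = S.BofA A p z + ∑ b, ((∑ a, om p a a b z : ℝ) : ℂ) • S.c b := by
  simp only [Pre.BofA, conjTranspose_sum, conjTranspose_mul, S.skew, h.A_skew p _ z hz,
    neg_mul_neg, ofReal_sum, Finset.sum_smul]
  rw [Finset.sum_comm, ← Finset.sum_add_distrib]
  refine Finset.sum_congr rfl fun a _ => ?_
  rw [← h.comm p a a z hz]
  abel

theorem Pre.V_open (S : Pre X N) (p : X) : IsOpen (S.V p) :=
  (chartAt C2 p).isOpen_image_of_subset_source (S.W_open p) (S.W_sub p)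

theorem SO_co (b : Fin 4) : ContDiff ℝ ∞ fun v : C2 => co v b := by
  have h : ∀ i : Fin 2, ContDiff ℝ ∞ fun v : C2 => v i := fun i => by fun_prop
  fin_cases b
  · exact Complex.reCLM.contDiff.comp (h 0)
  · exact Complex.imCLM.contDiff.comp (h 0)
  · exact Complex.reCLM.contDiff.comp (h 1)
  · exact Complex.imCLM.contDiff.comp (h 1)

theorem Pre.rho_sm (S : Pre X N) (p : X) : ContDiffOn ℝ ∞ (S.rho p) (S.V p) := by
  refine ContDiffOn.inv ?_ fun z hz => (S.e_pos p z hz).ne'
  simp only [fdet, det_apply', of_apply]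
  exact ContDiffOn.sum fun σ _ => contDiffOn_const.mul (contDiffOn_prod fun i _ =>
    (SO_co i).comp_contDiffOn (S.e_sm p _))

theorem SO_dM {U : Set C2} (hU : IsOpen U) {F : C2 → Mat N} {e : C2 → C2}
    (hF : ∀ i j, ContDiffOn ℝ ∞ (fun z => F z i j) U) (he : ContinuousOn e U) :
    ContinuousOn (fun z => Pre.dM F z (e z)) U :=
  continuousOn_pi.2 fun i => continuousOn_pi.2 fun j =>
    ((hF i j).continuousOn_fderiv_of_isOpen hU (by simp)).clm_apply he

theorem SO_Om (h : S.IsLC A om) (p : X) (j k : Fin 4) :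
    ContinuousOn (S.Om A om p j k) (S.V p) := by
  have hA : ∀ k, ContinuousOn (A p k) (S.V p) := fun k =>
    continuousOn_pi.2 fun i => continuousOn_pi.2 fun j => (h.A_sm p k i j).continuousOn
  refine (((SO_dM (S.V_open p) (h.A_sm p k) (S.e_sm p j).continuousOn).sub
    (SO_dM (S.V_open p) (h.A_sm p j) (S.e_sm p k).continuousOn)).add
    (((hA j).mul (hA k)).sub ((hA k).mul (hA j)))).sub (continuousOn_finsetSum _ fun b _ => ?_)
  exact (Complex.continuous_ofReal.comp_continuousOn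
    ((h.om_sm p j k b).continuousOn.sub (h.om_sm p k j b).continuousOn)).smul (hA b)

theorem Pre.IsLC.dens_cont (h : S.IsLC A om) (p : X) : ContinuousOn (S.dens A om p) (S.V p) := by
  have hE : ContinuousOn (S.E A om p) (S.V p) :=
    (continuousOn_finsetSum _ fun j _ => continuousOn_finsetSum _ fun k _ =>
      continuousOn_const.mul (SO_Om h p j k)).const_smul (1 / 2 : ℂ)
  have ht : Continuous fun M : Mat N => M.trace := continuous_id.matrix_trace
  exact continuousOn_const.mul (ht.comp_continuousOn (continuousOn_const.mul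
    (((hE.mul hE).const_smul (1 / 2 : ℂ)).add
      ((continuousOn_finsetSum _ fun j _ => continuousOn_finsetSum _ fun k _ =>
        (SO_Om h p j k).mul (SO_Om h p j k)).const_smul (1 / 12 : ℂ)))))

theorem Pre.int_on (S : Pre X N) {ψ : X → ℝ} (h1 : Continuous ψ) (h2 : tsupport ψ ⊆ S.W p)
    {F : C2 → ℂ} (hF : ContinuousOn F (S.V p)) :
    IntegrableOn (fun z => (ψ ((chartAt C2 p).symm z) : ℂ) * F z) (S.V p) := by
  have hK : IsCompact (chartAt C2 p '' tsupport ψ) :=
    (isClosed_tsupport ψ).isCompact.image_of_continuousOn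
      ((chartAt C2 p).continuousOn.mono (h2.trans (S.W_sub p)))
  have hKV : chartAt C2 p '' tsupport ψ ⊆ S.V p := Set.image_mono h2
  have hVt : S.V p ⊆ (chartAt C2 p).target := by
    rintro _ ⟨x, hx, rfl⟩
    exact (chartAt C2 p).map_source (S.W_sub p hx)
  have hc : ContinuousOn (fun z => (ψ ((chartAt C2 p).symm z) : ℂ) * F z) (S.V p) :=
    ((Complex.continuous_ofReal.comp h1).comp_continuousOn
      ((chartAt C2 p).continuousOn_symm.mono hVt)).mul hF
  refine ((hc.mono hKV).integrableOn_compact hK).of_forall_sdiff_eq_zero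
    (S.V_open p).measurableSet fun z hz => ?_
  have : ψ ((chartAt C2 p).symm z) = 0 := by
    by_contra hne
    exact hz.2 ⟨_, subset_tsupport _ hne, (chartAt C2 p).right_inv (hVt hz.1)⟩
  rw [this, ofReal_zero, zero_mul]

end Vale.Agent.P267I
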