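import Vale.Agent.P267I.SL0
import Vale.Agent.P267I.SO

/-! The two Dirac systems. -/

open scoped Manifold ContDiff Topology Kronecker
open Filter Matrix MeasureTheory Complex

noncomputable section

namespace Vale.Agent.P267I

open Vale.Agent.P267F

variable {X : Type} [TopologicalSpace X] [ChartedSpace C2 X] [IsManifold 𝓘(ℂ, C2) ω X]
  [T2Space X] [CompactSpace X] [MeasurableSpace X] [BorelSpace X] {G : Met X}
  {u l w : X → X → ℂ} {θ : X → X → C2 →L[ℝ] ℂ} {p q x : X} {N : ℕ} {S : Pre X N}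
  {A : X → Fin 4 → C2 → Mat N} {om : X → Fin 4 → Fin 4 → Fin 4 → C2 → ℝ} {z : C2}

theorem SC2_dM {W : Type} [NormedAddCommGroup W] [NormedSpace ℝ W] [FiniteDimensional ℝ W]
    (Φ : W →ₗ[ℝ] Mat N) {f : C2 → W} {f' : C2 →L[ℝ] W} (hf : HasFDerivAt f f' z) (v : C2) :
    Pre.dM (fun y => Φ (f y)) z v = Φ (f' v) := by
  ext i j
  have h := (LinearMap.toContinuousLinearMap
    (Matrix.entryLinearMap ℝ ℂ i j ∘ₗ Φ)).hasFDerivAt.comp z hf
  exact congrArg (fun L : C2 →L[ℝ] ℂ => L v) h.fderiv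

/-- The spin representation as a linear map. -/
def SC2_sp : (Fin 4 → Fin 4 → ℝ) →ₗ[ℝ] Mat 4 where
  toFun := spin
  map_add' w w' := by
    simp only [spin, Pi.add_apply, ofReal_add, add_smul, Finset.sum_add_distrib, smul_add]
  map_smul' c w := by
    simp only [spin, Pi.smul_apply, smul_eq_mul, ofReal_mul, mul_smul, RingHom.id_apply,
      ← Finset.smul_sum]
    rw [smul_comm]
    rfl

/-- The representation on all forms. -/
def SC2_kk : Mat 4 →ₗ[ℝ] Mat (4 * 4) where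
  toFun M := kr M 1 + kr 1 (cj M)
  map_add' M M' := by
    ext i j
    simp [kr, cj]
    ring
  map_smul' c M := by
    ext i j
    simp [kr, cj]
    ring

theorem SC2_kb (M M' : Mat 4) :
    SC2_kk M * SC2_kk M' - SC2_kk M' * SC2_kk M = SC2_kk (M * M' - M' * M) := by
  rw [map_sub]
  change (kr M 1 + kr 1 (cj M)) * (kr M' 1 + kr 1 (cj M')) -
    (kr M' 1 + kr 1 (cj M')) * (kr M 1 + kr 1 (cj M)) =
    kr (M * M') 1 + kr 1 (cj (M * M')) - (kr (M' * M) 1 + kr 1 (cj (M' * M)))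
  simp only [add_mul, mul_add, kr_mul, cj_mul, mul_one, one_mul]
  abel

theorem SC2_om (hz : z ∈ G.V p) (k : Fin 4) : HasFDerivAt (fun y a b => G.om p k a b y)
    (ContinuousLinearMap.pi fun a => ContinuousLinearMap.pi fun b => fderiv ℝ (G.om p k a b) z)
    z := hasFDerivAt_pi.2 fun a => hasFDerivAt_pi.2 fun b =>
  (((G.om_sm p k a b).contDiffAt ((G.S16.V_open p).mem_nhds hz)).differentiableAt
    (by simp)).hasFDerivAt

theorem SC2_gen (Φ : Mat 4 →ₗ[ℝ] Mat N) (hz : z ∈ G.V p) (j k : Fin 4) :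
    Pre.dM (fun y => Φ (G.A0 p k y)) z (G.e p j z) - Pre.dM (fun y => Φ (G.A0 p j y)) z (G.e p k z) +
      Φ (G.A0 p j z * G.A0 p k z - G.A0 p k z * G.A0 p j z) -
      ∑ b, ((G.om p j k b z - G.om p k j b z : ℝ) : ℂ) • Φ (G.A0 p b z) =
    Φ (spin (Rm4 (G.e p) (G.om p) z j k)) := by
  have h1 := SC2_dM (Φ ∘ₗ SC2_sp) (SC2_om hz k) (G.e p j z)
  have h2 := SC2_dM (Φ ∘ₗ SC2_sp) (SC2_om hz j) (G.e p k z)
  have h3 := spin_br (fun a b => G.om_skew p j a b z) fun a b => G.om_skew p k a b z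
  have h4 : ∀ b, ((G.om p j k b z - G.om p k j b z : ℝ) : ℂ) • Φ (G.A0 p b z) =
      (Φ ∘ₗ SC2_sp) ((G.om p j k b z - G.om p k j b z) • fun a c => G.om p b a c z) := fun b => by
    rw [map_smul]
    rfl
  refine (congrArg₂ (· - ·) (congrArg₂ (· + ·) (congrArg₂ (· - ·) h1 h2) (congrArg Φ h3))
    (Finset.sum_congr rfl fun b _ => h4 b)).trans ?_
  change _ - _ + (Φ ∘ₗ SC2_sp) _ - _ = (Φ ∘ₗ SC2_sp) _
  rw [← map_sum, ← map_sub, ← map_add, ← map_sub]
  refine congrArg _ ?_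
  ext a c
  simp [Rm4]

theorem Met.Om16 (hz : z ∈ G.V p) (j k : Fin 4) : G.S16.Om G.A16 G.om p j k z =
    kr (spin (Rm4 (G.e p) (G.om p) z j k)) 1 + kr 1 (cj (spin (Rm4 (G.e p) (G.om p) z j k))) := by
  have h := SC2_gen SC2_kk hz j k
  rw [← SC2_kb] at h
  exact h

theorem Met.Ln.Om4 (h : G.Ln u l) (hθ : G.Cn w θ) (hz : z ∈ G.V p) (j k : Fin 4) :
    h.S4.Om (G.A4 θ) G.om p j k z = spin (Rm4 (G.e p) (G.om p) z j k) +
      (-(1 / 4) * extD (inChart (chartAt C2 p) (θ p)) z (G.e p j z) (G.e p k z)) • (1 : Mat 4) := by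
  have hn := (h.S4.V_open p).mem_nhds hz
  have h0 := SC2_gen LinearMap.id hz j k
  have hT : HasFDerivAt (inChart (chartAt C2 p) (θ p)) _ z :=
    (((contDiffOn_clm_apply.2 (hθ.sm p)).contDiffAt hn).differentiableAt (by simp)).hasFDerivAt
  have he : ∀ a, HasFDerivAt (G.e p a) (fderiv ℝ (G.e p a) z) z := fun a =>
    (((h.S4.e_sm p a).contDiffAt hn).differentiableAt (by simp)).hasFDerivAt
  have tf : fderiv ℝ (G.e p k) z (G.e p j z) - fderiv ℝ (G.e p j) z (G.e p k z) =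
      ∑ b, (G.om p j k b z - G.om p k j b z) • G.e p b z := (h.isLC hθ).tf p j k z hz
  obtain ⟨T, hT'⟩ : ∃ T, T = inChart (chartAt C2 p) (θ p) := ⟨_, rfl⟩
  rw [← hT'] at hT ⊢
  have hd : ∀ a v, Pre.dM (G.A4 θ p a) z v = Pre.dM (G.A0 p a) z v +
      (-(1 / 4) * (T z (fderiv ℝ (G.e p a) z v) + fderiv ℝ T z v (G.e p a z))) • (1 : Mat 4) := by
    intro a v
    have h1 := SC2_dM (SC2_sp.coprod ((LinearMap.toSpanSingleton ℂ (Mat 4) 1).restrictScalars ℝ))
      ((SC2_om hz a).prodMk ((hT.clm_apply (he a)).const_mul (-(1 / 4) : ℂ))) v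
    have h2 := SC2_dM SC2_sp (SC2_om hz a) v
    subst hT'
    exact h1.trans (congrArg₂ (· + ·) h2.symm rfl)
  have hx : ∀ v w, fderiv ℝ (fun y => T y w) z v = fderiv ℝ T z v w := fun v w => by
    rw [(hT.clm_apply (hasFDerivAt_const w z)).fderiv]
    simp
  have h5 := congrArg (T z) tf
  rw [map_sub, map_sum] at h5
  simp only [map_smul, real_smul] at h5
  change Pre.dM (G.A4 θ p k) z (G.e p j z) - Pre.dM (G.A4 θ p j) z (G.e p k z) +
    (G.A4 θ p j z * G.A4 θ p k z - G.A4 θ p k z * G.A4 θ p j z) -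
    ∑ b, ((G.om p j k b z - G.om p k j b z : ℝ) : ℂ) • G.A4 θ p b z = _
  simp only [LinearMap.id_apply] at h0
  rw [hd, hd, ← h0, extD, hx, hx]
  simp only [Met.A4, ← hT', smul_add, Finset.sum_add_distrib, add_mul, mul_add, smul_mul_assoc,
    mul_smul_comm, mul_one, one_mul, smul_smul, ← Finset.sum_smul, mul_left_comm _ (-(1 / 4) : ℂ),
    ← Finset.mul_sum, ← h5]
  module

end Vale.Agent.P267I
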