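import Vale.Agent.P292E.Reg
import Vale.Agent.P292E.Ell

/-! Elliptic systems with a scalar principal part: definitions. -/

open scoped ContDiff Topology FourierTransform
open Set Filter MeasureTheory Metric

noncomputable section

namespace Vale.Agent.P267I

open Vale.Agent.P292E

variable {n m : ℕ}

/-- decay of the Fourier transform -/
def Dec (s : ℕ) (h : V n → ℂ) : Prop := ∃ D : ℝ, ∀ ξ, ‖𝓕 h ξ‖ * (1 + ‖ξ‖) ^ s ≤ D

/-- decay after every cut-off supported in `T` -/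
def LDec (s : ℕ) (T : Set (V n)) (h : V n → ℂ) : Prop :=
  ∀ ψ, Tst (ball 0 3) ψ → tsupport ψ ⊆ T → Dec s fun x => ψ x * h x

/-- the weak system -/
def WeakSys (U : Set (V n)) (a : Fin n → Fin n → V n → ℂ) (b : Fin n → Fin m → Fin m → V n → ℂ)
    (c : Fin m → Fin m → V n → ℂ) (u f : Fin m → V n → ℂ) : Prop :=
  ∀ i, Weak U a 0 0 (u i) (fun x => f i x + ∑ j, c i j x * u j x)
    (fun p x => ∑ j, b p i j x * u j x)

/-- finite regularity on the unit ball -/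
def EllSys (n m : ℕ) : Prop :=
  ∀ j : ℕ, ∃ M : ℕ, ∀ κ : ℝ, 0 < κ → ∃ ε : ℝ, 0 < ε ∧
    ∀ (a₀ : Fin n → Fin n → ℂ) (a : Fin n → Fin n → V n → ℂ)
      (b : Fin n → Fin m → Fin m → V n → ℂ) (c : Fin m → Fin m → V n → ℂ)
      (u f : Fin m → V n → ℂ), (∀ ξ, κ * ‖ξ‖ ^ 2 ≤ symb a₀ ξ) →
      (∀ p q, ContDiffOn ℝ ∞ (a p q) (ball 0 3)) →
      (∀ p i k, ContDiffOn ℝ ∞ (b p i k) (ball 0 3)) →
      (∀ i k, ContDiffOn ℝ ∞ (c i k) (ball 0 3)) → (∀ i, ContDiffOn ℝ ∞ (f i) (ball 0 3)) →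
      (∀ p q, Bd M (fun x => a p q x - a₀ p q) (ball 0 3) ε) →
      (∀ i, IntegrableOn (u i) (ball 0 3)) → WeakSys (ball 0 3) a b c u f →
      ∀ i, ∃ w : V n → ℂ, ContDiff ℝ j w ∧ ∀ᵐ x, x ∈ ball (0 : V n) 1 → u i x = w x

/-- interior regularity -/
def RegSys (n m : ℕ) : Prop :=
  ∀ (U : Set (V n)) (a : Fin n → Fin n → V n → ℂ) (b : Fin n → Fin m → Fin m → V n → ℂ)
    (c : Fin m → Fin m → V n → ℂ) (u f : Fin m → V n → ℂ), IsOpen U →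
    (∀ p q, ContDiffOn ℝ ∞ (a p q) U) → (∀ p i k, ContDiffOn ℝ ∞ (b p i k) U) →
    (∀ i k, ContDiffOn ℝ ∞ (c i k) U) → (∀ i, ContDiffOn ℝ ∞ (f i) U) →
    (∀ x ∈ U, ∃ κ : ℝ, 0 < κ ∧ ∀ ξ, κ * ‖ξ‖ ^ 2 ≤ symb (fun p q => a p q x) ξ) →
    (∀ i, LocallyIntegrableOn (u i) U) → WeakSys U a b c u f →
    ∀ i, ∃ w : V n → ℂ, ContDiffOn ℝ ∞ w U ∧ ∀ᵐ x, x ∈ U → u i x = w x

end Vale.Agent.P267I
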