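import Vale.Agent.P267I.SJ

/-! The two Dirac systems. -/

open scoped Manifold ContDiff Topology Kronecker
open Filter Matrix MeasureTheory Complex

noncomputable section

namespace Vale.Agent.P267I

open Vale.Agent.P267F

variable {X : Type} [TopologicalSpace X] [ChartedSpace C2 X] [IsManifold 𝓘(ℂ, C2) ω X]
  [T2Space X] [CompactSpace X] [MeasurableSpace X] [BorelSpace X] {G : Met X}
  {u l w : X → X → ℂ} {θ : X → X → C2 →L[ℝ] ℂ} {p q x : X} {N : ℕ} {S : Pre X N}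
  {A : X → Fin 4 → C2 → Mat N} {om : X → Fin 4 → Fin 4 → Fin 4 → C2 → ℝ} {z : C2}

theorem SG_alg {N : ℕ} (c : Fin 4 → Mat N) (w : Fin 4 → Vec N) {R : Fin 4 → Fin 4 → ℝ}
    (hR : ∀ m n, ∑ k, R k m * R k n = if m = n then 1 else 0) :
    ∑ k, (∑ n, (R k n : ℂ) • c n) *ᵥ (∑ m, (R k m : ℂ) • w m) = ∑ m, c m *ᵥ w m := by
  simp only [sum_mulVec, mulVec_sum, smul_mulVec, mulVec_smul, smul_smul, Finset.smul_sum]
  rw [Finset.sum_comm]
  refine Finset.sum_congr rfl fun m _ => ?_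
  rw [Finset.sum_comm]
  simp only [← Finset.sum_smul, ← Complex.ofReal_mul, ← Complex.ofReal_sum, hR]
  rw [Finset.sum_eq_single m (fun n _ hn => by simp [hn.symm]) (by simp)]
  simp

theorem SG_prod {N : ℕ} {T : C2 → Mat N} {f : C2 → Vec N} {z : C2}
    (hT : ∀ i j, DifferentiableAt ℝ (fun y => T y i j) z) (hf : DifferentiableAt ℝ f z) :
    DifferentiableAt ℝ (fun y => T y *ᵥ f y) z ∧ ∀ v, fderiv ℝ (fun y => T y *ᵥ f y) z v =
      T z *ᵥ fderiv ℝ f z v + Pre.dM T z v *ᵥ f z := by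
  have H := hasFDerivAt_pi.2 fun i => HasFDerivAt.fun_sum fun j (_ : j ∈ Finset.univ) =>
    (hT i j).hasFDerivAt.fun_mul (hasFDerivAt_pi'.1 hf.hasFDerivAt j)
  refine ⟨H.differentiableAt, fun v => ?_⟩
  rw [show fderiv ℝ (fun y => T y *ᵥ f y) z = _ from H.fderiv]
  funext i
  simp [mulVec, dotProduct, Pre.dM, Finset.sum_add_distrib, mul_comm]

theorem Pre.Gauge.compat (h : S.Gauge A) : ∀ p, ∀ x ∈ S.W p, ∀ s,
    DifferentiableAt ℝ (S.loc p s) (chartAt C2 p x) →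
    S.U p x *ᵥ S.D (S.BofA A) s x = S.Dloc (S.BofA A) p (S.loc p s) (chartAt C2 p x) := by
  intro p x hx s hs
  have hp := S.W_sub p hx
  have hq := mem_chart_source C2 x
  obtain ⟨R, hR, he, hc, hA⟩ := h p x x ⟨hx, S.W_mem x⟩
  have hτ : DifferentiableAt ℝ (chartAt C2 p ∘ (chartAt C2 x).symm) (chartAt C2 x x) :=
    (tr_sm hp hq).differentiableAt.restrictScalars ℝ
  have e0 : (chartAt C2 x).symm (chartAt C2 x x) = x := (chartAt C2 x).left_inv hq
  have hn : chartAt C2 x '' (S.W x ∩ S.W p) ∈ 𝓝 (chartAt C2 x x) :=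
    (chartAt C2 x).image_mem_nhds hq
      (((S.W_open x).inter (S.W_open p)).mem_nhds ⟨S.W_mem x, hx⟩)
  have h1 : ∀ i j, DifferentiableAt ℝ (fun y => (S.T p x y)ᴴ i j) (chartAt C2 x x) := fun i j => by
    simpa only [Pre.T, conjTranspose_mul, conjTranspose_conjTranspose] using
      ((S.U_sm x p i j).contDiffAt hn).differentiableAt (by simp)
  have h2 : ∀ i j, DifferentiableAt ℝ (fun y => S.T p x y i j) (chartAt C2 x x) := fun i j => by
    simpa only [conjTranspose_apply, star_star] using (h1 j i).star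
  have h3 : ∀ y ∈ chartAt C2 x '' (S.W x ∩ S.W p),
      S.loc p s ((chartAt C2 p ∘ (chartAt C2 x).symm) y) = S.T p x y *ᵥ S.loc x s y := by
    rintro _ ⟨y, hy, rfl⟩
    simp only [Pre.loc, Pre.T, Function.comp_apply, (chartAt C2 x).left_inv (S.W_sub x hy.1),
      (chartAt C2 p).left_inv (S.W_sub p hy.2), mulVec_mulVec, Matrix.mul_assoc, S.U_unit,
      Matrix.mul_one]
  have hs' : DifferentiableAt ℝ (S.loc p s)
      ((chartAt C2 p ∘ (chartAt C2 x).symm) (chartAt C2 x x)) := by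
    rwa [Function.comp_apply, e0]
  have h4 : DifferentiableAt ℝ (S.loc x s) (chartAt C2 x x) := by
    refine (SG_prod h1 (hs'.comp _ hτ)).1.congr_of_eventuallyEq ?_
    filter_upwards [hn] with y hy
    rw [Function.comp_apply, h3 y hy, mulVec_mulVec]
    simp only [Pre.T, conjTranspose_mul, conjTranspose_conjTranspose, Matrix.mul_assoc]
    rw [← Matrix.mul_assoc (S.U p _)ᴴ, S.U_unit, Matrix.one_mul, mul_eq_one_comm.1 (S.U_unit _ _),
      one_mulVec]
  have h5 : ∀ k, ∑ m, (R k m : ℂ) • fderiv ℝ (S.loc p s) (chartAt C2 p x)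
      (S.e p m (chartAt C2 p x)) = S.T p x (chartAt C2 x x) *ᵥ fderiv ℝ (S.loc x s) (chartAt C2 x x)
        (S.e x k (chartAt C2 x x)) + Pre.dM (S.T p x) (chartAt C2 x x)
          (S.e x k (chartAt C2 x x)) *ᵥ S.loc x s (chartAt C2 x x) := fun k => by
    have h6 : (fun y => S.T p x y *ᵥ S.loc x s y) =ᶠ[𝓝 (chartAt C2 x x)]
        S.loc p s ∘ (chartAt C2 p ∘ (chartAt C2 x).symm) := by
      filter_upwards [hn] with y hy using (h3 y hy).symm
    rw [← (SG_prod h2 h4).2, h6.fderiv_eq, fderiv_comp _ hs' hτ, ContinuousLinearMap.comp_apply, he,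
      map_sum, Function.comp_apply, e0]
    simp only [map_smul, Complex.coe_smul]
  have h7 := h3 _ ⟨x, ⟨S.W_mem x, hx⟩, rfl⟩
  rw [Function.comp_apply, e0] at h7
  have h8 : S.U p x * (S.U x x)ᴴ = S.T p x (chartAt C2 x x) := by rw [Pre.T, e0]
  rw [Pre.D, mulVec_mulVec, h8]
  simp only [Pre.Dloc, Pre.BofA, sum_mulVec, ← Finset.sum_add_distrib, ← mulVec_mulVec,
    ← mulVec_add]
  refine Eq.trans ?_ (SG_alg S.c _ hR)
  rw [mulVec_sum]
  refine Finset.sum_congr rfl fun k _ => ?_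
  rw [mulVec_mulVec, hc, ← mulVec_mulVec, mulVec_add, mulVec_mulVec _ _ (A x k _), hA, add_mulVec,
    ← mulVec_mulVec, ← h7]
  simp only [smul_add, Finset.sum_add_distrib, h5, sum_mulVec, smul_mulVec]
  rw [add_assoc, add_comm (Pre.dM _ _ _ *ᵥ _)]

end Vale.Agent.P267I
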