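import Vale.Agent.P267I.Sys
import Vale.Agent.P267I.SA2

/-! The two Dirac systems. -/

open scoped Manifold ContDiff Topology Kronecker
open Filter Matrix MeasureTheory Complex

noncomputable section

namespace Vale.Agent.P267I

open Vale.Agent.P267F

variable {X : Type} [TopologicalSpace X] [ChartedSpace C2 X] [IsManifold 𝓘(ℂ, C2) ω X]
  [T2Space X] [CompactSpace X] [MeasurableSpace X] [BorelSpace X] {G : Met X}
  {u l w : X → X → ℂ} {θ : X → X → C2 →L[ℝ] ℂ} {p q x : X} {N : ℕ} {S : Pre X N}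
  {A : X → Fin 4 → C2 → Mat N} {om : X → Fin 4 → Fin 4 → Fin 4 → C2 → ℝ} {z : C2}

theorem SL0_open (G : Met X) (p : X) : IsOpen (G.V p) :=
  (chartAt C2 p).isOpen_image_of_subset_source (G.W_open p) (G.W_sub p)

theorem SL0_e (G : Met X) (p : X) (a : Fin 4) : ContDiffOn ℝ ∞ (G.e p a) (G.V p) :=
  G.S16.e_sm p a

theorem SL0_inv (G : Met X) (p : X) (i j : Fin 2) :
    ContDiffOn ℝ ∞ (fun z => (G.E p z)⁻¹ i j) (G.V p) := by
  have hE := G.E_sm p
  have hd : ContDiffOn ℝ ∞ (fun z => (G.E p z).det) (G.V p) := by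
    simp only [det_fin_two]
    exact ((hE 0 0).mul (hE 1 1)).sub ((hE 0 1).mul (hE 1 0))
  simp only [Matrix.inv_def, Ring.inverse_eq_inv', Matrix.smul_apply, smul_eq_mul]
  refine (hd.inv (G.E_det p)).mul ?_
  simp only [adjugate_fin_two]
  fin_cases i <;> fin_cases j
  · exact hE 1 1
  · exact (hE 0 1).neg
  · exact (hE 1 0).neg
  · exact hE 0 0

theorem SL0_co {F : C2 → C2} {s : Set C2} (h : ContDiffOn ℝ ∞ F s) (b : Fin 4) :
    ContDiffOn ℝ ∞ (fun z => co (F z) b) s := by
  have h' := contDiffOn_pi.1 h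
  fin_cases b
  · exact reCLM.contDiff.comp_contDiffOn (h' 0)
  · exact imCLM.contDiff.comp_contDiffOn (h' 0)
  · exact reCLM.contDiff.comp_contDiffOn (h' 1)
  · exact imCLM.contDiff.comp_contDiffOn (h' 1)

theorem SL0_sc (G : Met X) (p : X) (j k b : Fin 4) : ContDiffOn ℝ ∞ (G.sc p j k b) (G.V p) := by
  have hd : ∀ j k, ContDiffOn ℝ ∞ (fun z => fderiv ℝ (G.e p k) z (G.e p j z)) (G.V p) :=
    fun j k => ((SL0_e G p k).fderiv_of_isOpen (SL0_open G p) (by simp)).clm_apply (SL0_e G p j)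
  refine SL0_co (contDiffOn_pi.2 fun i => ?_) b
  simp only [mulVec, dotProduct]
  exact ContDiffOn.sum fun m _ =>
    (SL0_inv G p i m).mul (contDiffOn_pi.1 ((hd j k).sub (hd k j)) m)

theorem SL0_skew (G : Met X) (p : X) (j k b : Fin 4) (z : C2) :
    G.sc p j k b z = -G.sc p k j b z := by
  unfold Met.sc
  rw [← neg_sub, mulVec_neg]
  fin_cases b <;> simp [co]

theorem Met.om_sm (G : Met X) (p : X) (k a b : Fin 4) : ContDiffOn ℝ ∞ (G.om p k a b) (G.V p) := by

  exact (((SL0_sc G p k a b).sub (SL0_sc G p a b k)).add (SL0_sc G p b k a)).div_const 2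

theorem Met.om_skew (G : Met X) (p : X) (k a b : Fin 4) (z : C2) :
    G.om p k a b z = -G.om p k b a z := by

  unfold Met.om
  rw [SL0_skew G p k a b, SL0_skew G p a b k, SL0_skew G p b k a]
  ring

theorem SL0_tf (G : Met X) (p : X) (j k : Fin 4) (hz : z ∈ G.V p) :
    fderiv ℝ (G.e p k) z (G.e p j z) - fderiv ℝ (G.e p j) z (G.e p k z) =
      ∑ b, (G.om p j k b z - G.om p k j b z) • G.e p b z := by
  have e : ∀ b, G.om p j k b z - G.om p k j b z = G.sc p j k b z := fun b => by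
    unfold Met.om
    rw [SL0_skew G p k j b, SL0_skew G p k b j, SL0_skew G p j b k]
    ring
  simp only [e]
  unfold Met.sc
  generalize fderiv ℝ (G.e p k) z (G.e p j z) - fderiv ℝ (G.e p j) z (G.e p k z) = v
  simp only [Met.e, ← mulVec_smul]
  rw [← mulVec_sum, co_sum, mulVec_mulVec, mul_nonsing_inv _ (G.E_det p z hz).isUnit, one_mulVec]

theorem SL0_A0 (G : Met X) (p : X) (k i j : Fin 4) :
    ContDiffOn ℝ ∞ (fun z => G.A0 p k z i j) (G.V p) := by
  simp only [Met.A0, spin, Matrix.smul_apply, Matrix.sum_apply, smul_eq_mul]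
  exact contDiffOn_const.mul (ContDiffOn.sum fun a _ => ContDiffOn.sum fun b _ =>
    (ofRealCLM.contDiff.comp_contDiffOn (G.om_sm p k a b)).mul contDiffOn_const)

theorem SL0_ct (G : Met X) (p : X) (k : Fin 4) (z : C2) : (G.A0 p k z)ᴴ = -G.A0 p k z :=
  spin_skew fun a b => G.om_skew p k a b z

theorem SL0_comm (G : Met X) (p : X) (k a : Fin 4) (z : C2) :
    G.A0 p k z * cl4.c a - cl4.c a * G.A0 p k z = ∑ b, (G.om p k a b z : ℂ) • cl4.c b :=
  spin_comm (fun a b => G.om_skew p k a b z) a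

theorem Met.isLC16 (G : Met X) : G.S16.IsLC G.A16 G.om := by

  refine ⟨fun p k i j => ?_, fun p k z _ => ?_, G.om_sm, fun p k a b z _ => G.om_skew p k a b z,
    fun p k a z _ => ?_, fun p j k z hz => SL0_tf G p j k hz⟩
  · simp only [Met.A16, kr, cj, Matrix.add_apply, reindex_apply, submatrix_apply,
      kroneckerMap_apply, map_apply]
    exact ((SL0_A0 G p k _ _).mul contDiffOn_const).add (contDiffOn_const.mul
      (conjCLE.contDiff.comp_contDiffOn (SL0_A0 G p k _ _)))
  · rw [Met.A16, conjTranspose_add, kr_ct, kr_ct, cj_ct, SL0_ct, conjTranspose_one, kr_neg_left,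
      neg_add]
    congr 1
    ext i j
    simp [kr, cj]
  · change G.A16 p k z * kr (cl4.c a) 1 - kr (cl4.c a) 1 * G.A16 p k z =
      ∑ b, (G.om p k a b z : ℂ) • kr (cl4.c b) 1
    have e := SL0_comm G p k a z
    rw [sub_eq_iff_eq_add] at e
    simp only [Met.A16, add_mul, mul_add, kr_mul, one_mul, mul_one]
    rw [e]
    simp only [Fin.sum_univ_four, kr_add_left, kr_smul_left]
    abel

theorem Met.Ln.isLC (h : G.Ln u l) (hθ : G.Cn w θ) : h.S4.IsLC (G.A4 θ) G.om := by

  refine ⟨fun p k i j => ?_, fun p k z hz => ?_, G.om_sm, fun p k a b z _ => G.om_skew p k a b z,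
    fun p k a z _ => ?_, fun p j k z hz => SL0_tf G p j k hz⟩
  · simp only [Met.A4, Matrix.add_apply, Matrix.smul_apply, smul_eq_mul]
    refine (SL0_A0 G p k i j).add ((contDiffOn_const.mul ?_).mul contDiffOn_const)
    have e : ∀ z, inChart (chartAt C2 p) (θ p) z (G.e p k z) =
        ∑ a, co (G.e p k z) a • inChart (chartAt C2 p) (θ p) z (bs a) := fun z => by
      conv_lhs => rw [← co_sum (G.e p k z)]
      simp only [map_sum, map_smul]
    simp only [e]
    exact ContDiffOn.sum fun a _ => (SL0_co (SL0_e G p k) a).smul (hθ.sm p (bs a))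
  · obtain ⟨x, hx, rfl⟩ := hz
    have h1 : (inChart (chartAt C2 p) (θ p) (chartAt C2 p x) (G.e p k (chartAt C2 p x))).re = 0 :=
      hθ.im p _ (by rw [(chartAt C2 p).left_inv (G.W_sub p hx)]; exact hx) _
    rw [Met.A4, conjTranspose_add, SL0_ct, conjTranspose_smul, conjTranspose_one, neg_add,
      ← neg_smul]
    congr 2
    apply Complex.ext <;> simp [h1]
  · change G.A4 θ p k z * cl4.c a - cl4.c a * G.A4 θ p k z = ∑ b, (G.om p k a b z : ℂ) • cl4.c b
    rw [← SL0_comm, Met.A4]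
    simp only [add_mul, mul_add, smul_mul_assoc, mul_smul_comm, one_mul, mul_one]
    abel

end Vale.Agent.P267I
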