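import Vale.Agent.P267I.SL2
import Vale.Agent.P267I.SL0

/-! The two Dirac systems. -/

open scoped Manifold ContDiff Topology Kronecker
open Filter Matrix MeasureTheory Complex

noncomputable section

namespace Vale.Agent.P267I

open Vale.Agent.P267F

variable {X : Type} [TopologicalSpace X] [ChartedSpace C2 X] [IsManifold 𝓘(ℂ, C2) ω X]
  [T2Space X] [CompactSpace X] [MeasurableSpace X] [BorelSpace X] {G : Met X}
  {u l w : X → X → ℂ} {θ : X → X → C2 →L[ℝ] ℂ} {p q x : X} {N : ℕ} {S : Pre X N}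
  {A : X → Fin 4 → C2 → Mat N} {om : X → Fin 4 → Fin 4 → Fin 4 → C2 → ℝ} {z : C2}

theorem sg0_alg {c : Fin 4 → Mat 4} {T dT Ap Aq : Mat 4} {R dR w o : Fin 4 → Fin 4 → ℝ}
    (hT : Tᴴ * T = 1) (h1 : ∀ a, T * c a = (∑ m, (R a m : ℂ) • c m) * T)
    (h2 : ∀ a, dT * c a = (∑ m, (dR a m : ℂ) • c m) * T + (∑ m, (R a m : ℂ) • c m) * dT)
    (h3 : ∀ a, Ap * c a - c a * Ap = ∑ b, (w a b : ℂ) • c b)
    (h4 : ∀ a, Aq * c a - c a * Aq = ∑ b, (o a b : ℂ) • c b)
    (h5 : ∀ a b, o a b = ∑ d, (dR a d + ∑ c, R a c * w c d) * R b d)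
    (h6 : ∀ m n, ∑ k, R k m * R k n = if m = n then 1 else 0) (a : Fin 4) :
    (Tᴴ * (Ap * T + dT) - Aq) * c a = c a * (Tᴴ * (Ap * T + dT) - Aq) := by
  have hT' : T * Tᴴ = 1 := mul_eq_one_comm.1 hT
  have k1 : ∑ b, (o a b : ℂ) • ∑ m, (R b m : ℂ) • c m =
      ∑ d, ((dR a d + ∑ c, R a c * w c d : ℝ) : ℂ) • c d := by
    simp only [Finset.smul_sum, smul_smul]
    rw [Finset.sum_comm]
    refine Finset.sum_congr rfl fun m _ => ?_
    rw [← Finset.sum_smul]
    congr 1
    norm_cast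
    simp only [h5, Finset.sum_mul _ _ (R _ m)]
    rw [Finset.sum_comm]
    simp only [mul_assoc _ (R _ _) (R _ m), ← Finset.mul_sum, h6]
    simp
  have k2 : Ap * (∑ m, (R a m : ℂ) • c m) - (∑ m, (R a m : ℂ) • c m) * Ap =
      ∑ m, (R a m : ℂ) • ∑ d, (w m d : ℂ) • c d := by
    simp only [Finset.mul_sum, Finset.sum_mul, ← Finset.sum_sub_distrib, mul_smul_comm,
      smul_mul_assoc, ← smul_sub, h3]
  have k3 : ∑ d, ((dR a d + ∑ c, R a c * w c d : ℝ) : ℂ) • c d = (∑ m, (dR a m : ℂ) • c m) +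
      ∑ m, (R a m : ℂ) • ∑ d, (w m d : ℂ) • c d := by
    push_cast
    simp only [add_smul, Finset.sum_add_distrib, Finset.sum_smul, Finset.smul_sum, smul_smul]
    congr 1
    exact Finset.sum_comm
  have k4 : T * ∑ b, (o a b : ℂ) • c b = (∑ b, (o a b : ℂ) • ∑ m, (R b m : ℂ) • c m) * T := by
    simp only [Finset.mul_sum, mul_smul_comm, h1]
    rw [Finset.sum_mul]
    simp only [smul_mul_assoc]
  rw [k1, k3, ← k2, ← h4] at k4
  have e1 := h1 a
  have e2 := h2 a
  generalize (∑ m, (R a m : ℂ) • c m) = P at k4 e1 e2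
  generalize (∑ m, (dR a m : ℂ) • c m) = D at k4 e2
  have e3 : Aq * c a = Tᴴ * ((D + (Ap * P - P * Ap)) * T) + c a * Aq := by
    rw [← k4, ← mul_assoc, hT, one_mul, sub_add_cancel]
  have e4 : c a * Tᴴ = Tᴴ * P := by
    rw [← one_mul (c a), ← hT, mul_assoc Tᴴ, e1, mul_assoc, mul_assoc, hT', mul_one]
  rw [sub_mul, mul_sub, e3, ← mul_assoc (c a), e4, mul_assoc Tᴴ, add_mul (Ap * T), mul_assoc Ap,
    e1, e2]
  noncomm_ring

theorem sg0_mul {F H : C2 → Mat N} {z : C2} (v : C2)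
    (hF : ∀ i j, DifferentiableAt ℝ (fun y => F y i j) z)
    (hH : ∀ i j, DifferentiableAt ℝ (fun y => H y i j) z) :
    Pre.dM (fun y => F y * H y) z v = Pre.dM F z v * H z + F z * Pre.dM H z v := by
  ext i j
  simp only [Pre.dM, Matrix.of_apply, Matrix.add_apply, Matrix.mul_apply]
  rw [fderiv_fun_sum fun l _ => (hF i l).fun_mul (hH l j), _root_.sum_apply,
    ← Finset.sum_add_distrib]
  refine Finset.sum_congr rfl fun l _ => ?_
  rw [fderiv_fun_mul (hF i l) (hH l j)]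
  simp only [_root_.add_apply, _root_.smul_apply, smul_eq_mul]
  ring

theorem sg0_congr {F H : C2 → Mat N} {z : C2} (v : C2) (h : F =ᶠ[𝓝 z] H) :
    Pre.dM F z v = Pre.dM H z v := by
  ext i j
  have : (fun y => F y i j) =ᶠ[𝓝 z] fun y => H y i j := h.mono fun y hy => by simp only [hy]
  simp only [Pre.dM, Matrix.of_apply, this.fderiv_eq]

theorem sg0_sum {r : Fin 4 → C2 → ℝ} (c : Fin 4 → Mat N) {z : C2} (v : C2)
    (h : ∀ m, DifferentiableAt ℝ (r m) z) :
    (∀ i j, DifferentiableAt ℝ (fun y => (∑ m, (r m y : ℂ) • c m) i j) z) ∧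
    Pre.dM (fun y => ∑ m, (r m y : ℂ) • c m) z v = ∑ m, (fderiv ℝ (r m) z v : ℂ) • c m := by
  have k : ∀ i j, HasFDerivAt (fun y => (∑ m, (r m y : ℂ) • c m) i j)
      (∑ m, (fderiv ℝ (r m) z).smulRight (c m i j)) z := fun i j => by
    have := HasFDerivAt.fun_sum (u := Finset.univ) fun m _ => (h m).hasFDerivAt.smul_const (c m i j)
    simpa only [Matrix.sum_apply, Matrix.smul_apply, smul_eq_mul, Complex.real_smul] using this
  refine ⟨fun i j => (k i j).differentiableAt, ?_⟩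
  ext i j
  simp only [Pre.dM, Matrix.of_apply, (k i j).fderiv]
  simp [Matrix.sum_apply]

theorem sg0_tr {γ : C2 → Mat 2} {z : C2} (v : C2)
    (h : ∀ i j, DifferentiableAt ℝ (fun y => γ y i j) z) (hu : (γ z)ᴴ * γ z = 1) :
    ((r4 (γ z))ᴴ * Pre.dM (fun y => r4 (γ y)) z v).trace =
      2 * ((γ z).det)⁻¹ * fderiv ℝ (fun y => (γ y).det) z v := by
  have h1 : (γ z).det • (γ z)ᴴ = adjugate (γ z) := by
    rw [← one_mul (adjugate _), ← hu, mul_assoc, mul_adjugate, mul_smul_comm, mul_one]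
  have h2 : star (γ z).det * (γ z).det = 1 := by rw [← det_conjTranspose, ← det_mul, hu, det_one]
  have h3 : ((γ z).det)⁻¹ = star (γ z).det := (eq_inv_of_mul_eq_one_left h2).symm
  have h4 : fderiv ℝ (fun y => (γ y).det) z v =
      fderiv ℝ (fun y => γ y 0 0) z v * γ z 1 1 + γ z 0 0 * fderiv ℝ (fun y => γ y 1 1) z v -
      (fderiv ℝ (fun y => γ y 0 1) z v * γ z 1 0 + γ z 0 1 * fderiv ℝ (fun y => γ y 1 0) z v) := by
    simp only [det_fin_two]
    rw [fderiv_fun_sub ((h 0 0).fun_mul (h 1 1)) ((h 0 1).fun_mul (h 1 0)),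
      fderiv_fun_mul (h 0 0) (h 1 1), fderiv_fun_mul (h 0 1) (h 1 0)]
    simp only [_root_.add_apply, _root_.sub_apply,
      _root_.smul_apply, smul_eq_mul]
    ring
  have a00 := congrFun (congrFun h1 0) 0
  have a01 := congrFun (congrFun h1 0) 1
  have a10 := congrFun (congrFun h1 1) 0
  have a11 := congrFun (congrFun h1 1) 1
  simp only [adjugate_fin_two, Matrix.smul_apply, conjTranspose_apply, smul_eq_mul, of_apply,
    cons_val', cons_val_zero, cons_val_one, cons_val_fin_one] at a00 a01 a10 a11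
  have h5 : ((r4 (γ z))ᴴ * Pre.dM (fun y => r4 (γ y)) z v).trace =
      star (γ z 0 0) * fderiv ℝ (fun y => γ y 0 0) z v +
      star (γ z 1 0) * fderiv ℝ (fun y => γ y 1 0) z v +
      (star (γ z 0 1) * fderiv ℝ (fun y => γ y 0 1) z v +
      star (γ z 1 1) * fderiv ℝ (fun y => γ y 1 1) z v) +
      star (γ z).det * fderiv ℝ (fun y => (γ y).det) z v := by
    simp [trace, Matrix.mul_apply, Fin.sum_univ_four, Pre.dM, r4]
  rw [h5, h3, h4]
  generalize fderiv ℝ (fun y => γ y 0 0) z v = d00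
  generalize fderiv ℝ (fun y => γ y 0 1) z v = d01
  generalize fderiv ℝ (fun y => γ y 1 0) z v = d10
  generalize fderiv ℝ (fun y => γ y 1 1) z v = d11
  linear_combination (-(star (γ z 0 0) * d00 + star (γ z 1 0) * d10 + star (γ z 0 1) * d01 +
    star (γ z 1 1) * d11)) * h2 + star (γ z).det * (d00 * a00 + d10 * a01 + d01 * a10 + d11 * a11)

omit [IsManifold 𝓘(ℂ, C2) ω X] [T2Space X] [CompactSpace X] [BorelSpace X] in
theorem sg0_unit (hx : x ∈ G.W p ∩ G.W q) : ∀ᶠ y in 𝓝 (chartAt C2 q x),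
    (G.g p q ((chartAt C2 q).symm y))ᴴ * G.g p q ((chartAt C2 q).symm y) = 1 :=
  (((chartAt C2 q).tendsto_symm (G.W_sub q hx.2)).eventually
    (((G.W_open p).inter (G.W_open q)).mem_nhds hx)).mono fun _ hy => G.unit p q _ hy

theorem sg0_det (hx : x ∈ G.W p ∩ G.W q) :
    DifferentiableAt ℝ (fun y => (G.g p q ((chartAt C2 q).symm y)).det) (chartAt C2 q x) := by
  have h := fun i j => (Met.g_cd hx i j).differentiableAt (by simp)
  simp only [det_fin_two]
  exact ((h 0 0).fun_mul (h 1 1)).fun_sub ((h 0 1).fun_mul (h 1 0))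

theorem Met.A0_law (hx : x ∈ G.W p ∩ G.W q) (k : Fin 4) :
    r4 (G.g p q x) * G.A0 q k (chartAt C2 q x) =
      (∑ m, (Rr (G.g p q x) k m : ℂ) • G.A0 p m (chartAt C2 p x)) * r4 (G.g p q x) +
        Pre.dM (fun y => r4 (G.g p q ((chartAt C2 q).symm y))) (chartAt C2 q x)
          (G.e q k (chartAt C2 q x)) -
        (1 / 2 * ((G.g p q x).det)⁻¹ * fderiv ℝ (fun y => (G.g p q ((chartAt C2 q).symm y)).det)
          (chartAt C2 q x) (G.e q k (chartAt C2 q x))) • r4 (G.g p q x) := by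
  have hl := (chartAt C2 q).left_inv (G.W_sub q hx.2)
  have hu : (G.g p q x)ᴴ * G.g p q x = 1 := G.unit p q x hx
  have hT : (r4 (G.g p q x))ᴴ * r4 (G.g p q x) = 1 := by rw [r4_ct, r4_mul, hu, r4_one]
  have hT' := mul_eq_one_comm.1 hT
  have hg := fun i j => (Met.g_cd hx i j).differentiableAt (by simp)
  have hd : ∀ i j, DifferentiableAt ℝ (fun y => r4 (G.g p q ((chartAt C2 q).symm y)) i j)
      (chartAt C2 q x) := fun i j => by
    have := sg0_det hx
    fin_cases i <;> fin_cases j <;> simp [r4, hg, this]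
  have h1 : ∀ g : Mat 2, gᴴ * g = 1 → ∀ a, r4 g * cl4.c a =
      (∑ m, (Rr g a m : ℂ) • cl4.c m) * r4 g := fun g hg a => by
    rw [show cl4.c a = cv (bs a) from rfl, r4_cv hg, cv_co]
    rfl
  have hB := schur4 (sg0_alg (c := cl4.c) (R := Rr (G.g p q x))
    (dT := Pre.dM (fun y => r4 (G.g p q ((chartAt C2 q).symm y))) (chartAt C2 q x)
      (G.e q k (chartAt C2 q x)))
    (Ap := ∑ m, (Rr (G.g p q x) k m : ℂ) • G.A0 p m (chartAt C2 p x))
    (Aq := G.A0 q k (chartAt C2 q x))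
    (w := fun c d => ∑ m, Rr (G.g p q x) k m * G.om p m c d (chartAt C2 p x))
    hT (h1 _ hu) (fun a => ?_) (fun a => ?_) (spin_comm fun a b => G.om_skew q k a b _)
    (fun a b => Met.om_law hx k a b) fun m n => (Rr_orth hu m n).1)
  · have t1 := sg0_tr (γ := fun y => G.g p q ((chartAt C2 q).symm y)) (G.e q k (chartAt C2 q x))
      hg (by simpa only [hl] using hu)
    simp only [hl] at t1
    have t2 : ∀ p k z, (G.A0 p k z).trace = 0 := fun p k z =>
      spin_trace fun a b => G.om_skew p k a b z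
    rw [trace_sub, mul_add, trace_add, t1, t2, ← mul_assoc, trace_mul_cycle, hT', one_mul,
      trace_sum] at hB
    simp only [trace_smul, t2, smul_zero, Finset.sum_const_zero, zero_add, sub_zero] at hB
    have h2 := congrArg (fun M => r4 (G.g p q x) * M) hB
    simp only [mul_sub, mul_add, ← mul_assoc, hT', one_mul, mul_smul_comm, mul_one] at h2
    rw [show ∀ a b : ℂ, 1 / 2 * a * b = 2 * a * b / 4 from fun a b => by ring, ← h2, sub_sub_cancel]
  · obtain ⟨s1, s2⟩ := sg0_sum (r := fun m y => Rr (G.g p q ((chartAt C2 q).symm y)) a m) cl4.c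
      (G.e q k (chartAt C2 q x)) fun m => (Met.Rr_cd hx a m).differentiableAt (by simp)
    have s3 := sg0_congr (G.e q k (chartAt C2 q x)) ((sg0_unit hx).mono fun y hy => h1 _ hy a)
    rw [sg0_mul _ hd (H := fun _ => cl4.c a) fun _ _ => differentiableAt_const _,
      sg0_mul _ s1 hd, s2] at s3
    have s4 : Pre.dM (fun _ => cl4.c a) (chartAt C2 q x) (G.e q k (chartAt C2 q x)) = 0 := by
      ext i j
      simp [Pre.dM]
    simpa only [s4, mul_zero, add_zero, hl] using s3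
  · simp only [Finset.mul_sum, Finset.sum_mul, ← Finset.sum_sub_distrib, mul_smul_comm,
      smul_mul_assoc, ← smul_sub, Met.A0, spin_comm fun a b => G.om_skew p _ a b _]
    push_cast
    simp only [Finset.sum_smul, Finset.smul_sum, smul_smul]
    exact Finset.sum_comm

theorem Met.kap_re (hx : x ∈ G.W p ∩ G.W q) (v : C2) :
    (((G.g p q x).det)⁻¹ * fderiv ℝ (fun y => (G.g p q ((chartAt C2 q).symm y)).det)
      (chartAt C2 q x) v).re = 0 := by
  have hl := (chartAt C2 q).left_inv (G.W_sub q hx.2)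
  have h1 := (sg0_det hx).hasFDerivAt
  have h2 : (fun y => star (G.g p q ((chartAt C2 q).symm y)).det *
      (G.g p q ((chartAt C2 q).symm y)).det) =ᶠ[𝓝 (chartAt C2 q x)] fun _ => 1 :=
    (sg0_unit hx).mono fun y hy => by
      simp only
      rw [← det_conjTranspose, ← det_mul, hy, det_one]
  have h3 := h2.eq_of_nhds
  have h4 := DFunLike.congr_fun
    ((h1.star.fun_mul h1).unique ((hasFDerivAt_const _ _).congr_of_eventuallyEq h2)) v
  simp only [hl] at h3 h4
  rw [← eq_inv_of_mul_eq_one_left h3]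
  have h5 := congrArg Complex.re h4
  simp at h5 ⊢
  linarith

end Vale.Agent.P267I
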