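import Vale.Agent.P267I.SG0

/-! The two Dirac systems. -/

open scoped Manifold ContDiff Topology Kronecker
open Filter Matrix MeasureTheory Complex

noncomputable section

namespace Vale.Agent.P267I

open Vale.Agent.P267F

variable {X : Type} [TopologicalSpace X] [ChartedSpace C2 X] [IsManifold 𝓘(ℂ, C2) ω X]
  [T2Space X] [CompactSpace X] [MeasurableSpace X] [BorelSpace X] {G : Met X}
  {u l w : X → X → ℂ} {θ : X → X → C2 →L[ℝ] ℂ} {p q x : X} {N : ℕ} {S : Pre X N}
  {A : X → Fin 4 → C2 → Mat N} {om : X → Fin 4 → Fin 4 → Fin 4 → C2 → ℝ} {z : C2}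

theorem SG16_r4 {F : C2 → Mat 2} (h : ∀ i j, DifferentiableAt ℝ (fun y => F y i j) z)
    (i j : Fin 4) : DifferentiableAt ℝ (fun y => r4 (F y) i j) z := by
  have h1 := ((h 0 0).fun_mul (h 1 1)).fun_sub ((h 0 1).fun_mul (h 1 0))
  fin_cases i <;> fin_cases j <;> simp [r4, det_fin_two, h, h1]

theorem SG16_dM {F : C2 → Mat 4} (h : ∀ i j, DifferentiableAt ℝ (fun y => F y i j) z) (v : C2) :
    Pre.dM (fun y => kr (F y) (cj (F y))) z v =
      kr (Pre.dM F z v) (cj (F z)) + kr (F z) (cj (Pre.dM F z v)) := by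
  ext i j
  have e := ((h (finProdFinEquiv.symm i).1 (finProdFinEquiv.symm j).1).hasFDerivAt.fun_mul
    (h (finProdFinEquiv.symm i).2 (finProdFinEquiv.symm j).2).hasFDerivAt.star).fderiv
  refine (congrArg (fun L : C2 →L[ℝ] ℂ => L v) e).trans ?_
  simp [Pre.dM, kr, cj]
  ring

theorem SG16_left (a : Fin 4 → ℝ) (C : Fin 4 → Mat 4) (B : Mat 4) :
    ∑ m, (a m : ℂ) • kr (C m) B = kr (∑ m, (a m : ℂ) • C m) B := by
  ext i j
  simp [kr, Matrix.sum_apply, Finset.sum_mul, mul_assoc]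

theorem SG16_right (a : Fin 4 → ℝ) (C : Fin 4 → Mat 4) (B : Mat 4) :
    ∑ m, (a m : ℂ) • kr B (cj (C m)) = kr B (cj (∑ m, (a m : ℂ) • C m)) := by
  ext i j
  simp [kr, cj, Matrix.sum_apply, Finset.mul_sum, mul_left_comm]

theorem SG16_alg (T Y D : Mat 4) {κ : ℂ} (hκ : κ.re = 0) :
    kr (Y + D - κ • T) (cj T) + kr T (cj (Y + D - κ • T)) =
      kr Y (cj T) + kr T (cj Y) + (kr D (cj T) + kr T (cj D)) := by
  have e : (starRingEnd ℂ) κ = -κ := Complex.ext (by simp [hκ]) (by simp)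
  ext i j
  simp [kr, cj, e]
  ring

theorem Met.gauge16 (G : Met X) : G.S16.Gauge G.A16 := by
  intro p q x hx
  have hx' : x ∈ G.W p ∩ G.W q := hx
  have hs := G.W_sub q hx'.2
  have hl := (chartAt C2 q).left_inv hs
  have hu : (G.g p q x)ᴴ * G.g p q x = 1 := G.unit p q x hx'
  have hT : ∀ᶠ y in 𝓝 (chartAt C2 q x), G.S16.T p q y =
      kr (r4 (G.g p q ((chartAt C2 q).symm y))) (cj (r4 (G.g p q ((chartAt C2 q).symm y)))) := by
    have hc := (chartAt C2 q).continuousAt_symm ((chartAt C2 q).map_source hs)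
    have hn : G.W p ∩ G.W q ∈ 𝓝 ((chartAt C2 q).symm (chartAt C2 q x)) := by
      rw [hl]
      exact ((G.W_open p).inter (G.W_open q)).mem_nhds hx'
    filter_upwards [hc.eventually hn] with y hy
    change r16 _ * (r16 _)ᴴ = _
    rw [SB_ct, SB_mul, Met.g0_mul hy]
    rfl
  have hT0 := hT.self_of_nhds
  rw [hl] at hT0
  refine ⟨Rr (G.g p q x), fun m n => (Rr_orth hu m n).1, fun k => Met.e_law hx' k, fun k => ?_,
    fun k => ?_⟩
  · rw [hT0]
    change _ * kr (cv (bs k)) 1 = (∑ m, (Rr (G.g p q x) k m : ℂ) • kr (cl4.c m) 1) * _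
    rw [SG16_left, kr_mul, kr_mul, r4_cv hu, cv_co, mul_one, one_mul]
    rfl
  · have hd : Pre.dM (G.S16.T p q) (chartAt C2 q x) (G.e q k (chartAt C2 q x)) =
        Pre.dM (fun y => kr (r4 (G.g p q ((chartAt C2 q).symm y)))
          (cj (r4 (G.g p q ((chartAt C2 q).symm y))))) (chartAt C2 q x)
          (G.e q k (chartAt C2 q x)) := by
      ext i j
      simp only [Pre.dM, of_apply]
      rw [Filter.EventuallyEq.fderiv_eq (hT.mono fun y hy => congrFun (congrFun hy i) j)]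
    rw [SG16_dM (SG16_r4 fun i j => (Met.g_cd hx' i j).differentiableAt (by simp)), hl] at hd
    have hκ := Met.kap_re hx' (G.e q k (chartAt C2 q x))
    change _ = _ + Pre.dM (G.S16.T p q) (chartAt C2 q x) (G.e q k (chartAt C2 q x))
    rw [hd, hT0]
    simp only [Met.A16, smul_add, Finset.sum_add_distrib, mul_add, add_mul, SG16_left, SG16_right,
      kr_mul, mul_one, one_mul, ← cj_mul]
    rw [Met.A0_law hx' k]
    refine SG16_alg _ _ _ ?_
    rw [mul_assoc, Complex.mul_re, hκ]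
    simp

end Vale.Agent.P267I
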