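import Vale.Agent.P267I.TDefs
import Vale.Agent.P267F.Bridge
import Vale.Agent.P267F.Canon

/-! The two Dirac systems. -/

open scoped Manifold ContDiff Topology Kronecker
open Filter Matrix MeasureTheory Complex

noncomputable section

namespace Vale.Agent.P267I

open Vale.Agent.P267F

variable {X : Type} [TopologicalSpace X] [ChartedSpace C2 X] [IsManifold 𝓘(ℂ, C2) ω X]
  [T2Space X] [CompactSpace X] [MeasurableSpace X] [BorelSpace X] {G : Met X}
  {u l w : X → X → ℂ} {θ : X → X → C2 →L[ℝ] ℂ} {p q x : X} {N : ℕ} {S : Pre X N}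
  {A : X → Fin 4 → C2 → Mat N} {om : X → Fin 4 → Fin 4 → Fin 4 → C2 → ℝ} {z : C2}

theorem tr_sm (hp : x ∈ (chartAt C2 p).source) (hq : x ∈ (chartAt C2 q).source) :
    AnalyticAt ℂ (chartAt C2 p ∘ (chartAt C2 q).symm) (chartAt C2 q x) :=
  Vale.Agent.P267.cn_an hq hp

theorem jac_real (hp : x ∈ (chartAt C2 p).source) (hq : x ∈ (chartAt C2 q).source) (v : C2) :
    fderiv ℝ (chartAt C2 p ∘ (chartAt C2 q).symm) (chartAt C2 q x) v = jac p q x *ᵥ v := by
  rw [((tr_sm hp hq).differentiableAt.hasFDerivAt.restrictScalars ℝ).fderiv, jac,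
    LinearMap.toMatrix'_mulVec]
  rfl

theorem jac_mul {r : X} (hp : x ∈ (chartAt C2 p).source) (hq : x ∈ (chartAt C2 q).source)
    (hr : x ∈ (chartAt C2 r).source) : jac p q x * jac q r x = jac p r x := by
  have e : (chartAt C2 q ∘ (chartAt C2 r).symm) (chartAt C2 r x) = chartAt C2 q x :=
    congrArg (chartAt C2 q) ((chartAt C2 r).left_inv hr)
  have h1 := (e ▸ (tr_sm hp hq).differentiableAt.hasFDerivAt).comp (chartAt C2 r x)
    (tr_sm hq hr).differentiableAt.hasFDerivAt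
  have h2 : (chartAt C2 p ∘ (chartAt C2 r).symm) =ᶠ[𝓝 (chartAt C2 r x)]
      (chartAt C2 p ∘ (chartAt C2 q).symm) ∘ chartAt C2 q ∘ (chartAt C2 r).symm := by
    filter_upwards [((chartAt C2 r).tendsto_symm hr).eventually
      ((chartAt C2 q).eventually_left_inverse hq)] with y hy
    simp only [Function.comp_apply] at hy ⊢
    rw [hy]
  unfold jac
  rw [h2.fderiv_eq, h1.fderiv, ← LinearMap.toMatrix'_comp, e]
  rfl

theorem jac_self (hp : x ∈ (chartAt C2 p).source) : jac p p x = 1 := by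
  have e : (chartAt C2 p ∘ (chartAt C2 p).symm) =ᶠ[𝓝 (chartAt C2 p x)] id :=
    (chartAt C2 p).eventually_right_inverse' hp
  unfold jac
  rw [e.fderiv_eq, fderiv_id]
  exact LinearMap.toMatrix'_id

theorem jac_sm {r : X} (hp : x ∈ (chartAt C2 p).source) (hq : x ∈ (chartAt C2 q).source)
    (hr : x ∈ (chartAt C2 r).source) (i j : Fin 2) :
    ContDiffAt ℝ ∞ (fun z => jac p q ((chartAt C2 r).symm z) i j) (chartAt C2 r x) := by
  have e : (chartAt C2 q ∘ (chartAt C2 r).symm) (chartAt C2 r x) = chartAt C2 q x :=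
    congrArg (chartAt C2 q) ((chartAt C2 r).left_inv hr)
  have h1 := ((ContinuousLinearMap.apply ℂ C2 (Pi.single j (1 : ℂ) : C2)).analyticAt _).comp
    ((tr_sm hp hq).fderiv.comp_of_eq (tr_sm hq hr) e)
  have h2 := ((analyticAt_pi_iff.1 h1 i).contDiffAt (n := ∞)).restrict_scalars ℝ
  refine h2.congr_of_eventuallyEq (.of_forall fun z => ?_)
  simp [jac, LinearMap.toMatrix'_apply]

theorem canon_jac (p x : X) : canon X p x = (jac x p x).det := by
  unfold jac
  rw [LinearMap.det_toMatrix']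
  rfl

theorem smAt_iff {f : X → ℂ} (hp : x ∈ (chartAt C2 p).source) : SmAt f x ↔
    ∀ᶠ z in 𝓝 (chartAt C2 p x), ContDiffAt ℝ ∞ (f ∘ (chartAt C2 p).symm) z :=
  ⟨Vale.Agent.P267.ah_sm hp (mem_chart_source C2 x) (tr_sm (mem_chart_source C2 x) hp),
    Vale.Agent.P267.ah_sm (mem_chart_source C2 x) hp (tr_sm hp (mem_chart_source C2 x))⟩

theorem SJ_real : IsManifold 𝓘(ℝ, C2) ∞ X := by
  refine isManifold_of_contDiffOn _ _ _ fun e e' he he' => ?_
  have h := (contDiffGroupoid ω 𝓘(ℂ, C2)).compatible he he'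
  rw [contDiffGroupoid, mem_groupoid_of_pregroupoid] at h
  exact (ContDiffOn.of_le h.1 le_top).restrict_scalars ℝ

theorem exists_pou {W : X → Set X} (h1 : ∀ p, IsOpen (W p)) (h2 : ∀ p, p ∈ W p) :
    ∃ (n : ℕ) (p : Fin n → X) (ρ : Fin n → X → ℝ), (∀ a x, SmAt (fun y => (ρ a y : ℂ)) x) ∧
      (∀ a, Continuous (ρ a)) ∧ (∀ a x, 0 ≤ ρ a x) ∧ (∀ a, tsupport (ρ a) ⊆ W (p a)) ∧
      ∀ x, ∑ a, ρ a x = 1 := by
  have := SJ_real (X := X)
  obtain ⟨T, hT⟩ := isCompact_univ.elim_finite_subcover W h1 fun x _ => Set.mem_iUnion.2 ⟨x, h2 x⟩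
  obtain ⟨χ, hχ⟩ := SmoothPartitionOfUnity.exists_isSubordinate (ι := Fin T.card) 𝓘(ℝ, C2)
    isClosed_univ (fun a => W (T.equivFin.symm a)) (fun _ => h1 _) fun x hx => by
      obtain ⟨y, k1, k2⟩ := Set.mem_iUnion₂.1 (hT hx)
      exact Set.mem_iUnion.2 ⟨T.equivFin ⟨y, k1⟩, by simpa using k2⟩
  refine ⟨T.card, fun a => T.equivFin.symm a, fun a => χ a, fun a x => ?_,
    fun a => (χ a).contMDiff.continuous, fun a x => χ.nonneg a x, hχ, fun x => ?_⟩
  · filter_upwards [(chartAt C2 x).open_target.mem_nhds (mem_chart_target C2 x)] with z hz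
    have k : ContMDiffAt 𝓘(ℝ, C2) 𝓘(ℝ, C2) ∞ (chartAt C2 x).symm z :=
      contMDiffOn_chart_symm.contMDiffAt ((chartAt C2 x).open_target.mem_nhds hz)
    exact Complex.ofRealCLM.contDiff.contDiffAt.comp z
      (contMDiffAt_iff_contDiffAt.1 (((χ a).contMDiff _).comp z k))
  · have k := χ.sum_eq_one (Set.mem_univ x)
    rwa [finsum_eq_sum_of_fintype] at k

end Vale.Agent.P267I
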