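import Vale.Agent.P267I.SJ
import Vale.Agent.P267I.SA

/-! The two Dirac systems. -/

open scoped Manifold ContDiff Topology Kronecker
open Filter Matrix MeasureTheory Complex

noncomputable section

namespace Vale.Agent.P267I

open Vale.Agent.P267F

variable {X : Type} [TopologicalSpace X] [ChartedSpace C2 X] [IsManifold 𝓘(ℂ, C2) ω X]
  [T2Space X] [CompactSpace X] [MeasurableSpace X] [BorelSpace X] {G : Met X}
  {u l w : X → X → ℂ} {θ : X → X → C2 →L[ℝ] ℂ} {p q x : X} {N : ℕ} {S : Pre X N}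
  {A : X → Fin 4 → C2 → Mat N} {om : X → Fin 4 → Fin 4 → Fin 4 → C2 → ℝ} {z : C2}

theorem SL1_co (b : Fin 4) : ∃ L : C2 →L[ℝ] ℝ, ∀ v, co v b = L v := by
  have h : ∀ i : Fin 2, ∃ P : C2 →L[ℝ] ℂ, ∀ v, v i = P v := fun i =>
    ⟨ContinuousLinearMap.proj i, fun _ => rfl⟩
  obtain ⟨P0, h0⟩ := h 0
  obtain ⟨P1, h1⟩ := h 1
  fin_cases b
  · exact ⟨reCLM.comp P0, fun v => by simp [co, ← h0]⟩
  · exact ⟨imCLM.comp P0, fun v => by simp [co, ← h0]⟩
  · exact ⟨reCLM.comp P1, fun v => by simp [co, ← h1]⟩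
  · exact ⟨imCLM.comp P1, fun v => by simp [co, ← h1]⟩

theorem SL1_cobs (a b : Fin 4) : co (bs a) b = if a = b then 1 else 0 := by
  fin_cases a <;> fin_cases b <;> simp [co, bs]

theorem SL1_L (M : Mat 2) (b : Fin 4) : ∃ L : C2 →ₗ[ℝ] ℝ, ∀ v, co (M *ᵥ v) b = L v := by
  obtain ⟨L, hL⟩ := SL1_co b
  refine ⟨⟨⟨fun v => L (M *ᵥ v), fun v w => ?_⟩, fun c v => ?_⟩, fun v => hL _⟩
  · rw [mulVec_add, map_add]
  · simp only [mulVec_smul, map_smul, RingHom.id_apply]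

theorem SL1_exp (M : Mat 2) (v : C2) : M *ᵥ v = ∑ m, co v m • M *ᵥ bs m := by
  conv_lhs => rw [← co_sum v]
  rw [mulVec_sum]
  exact Finset.sum_congr rfl fun m _ => mulVec_smul _ _ _

theorem SL1_abs {τ : C2 → C2} {f h : Fin 4 → C2 → C2} {R : Fin 4 → Fin 4 → C2 → ℝ} {z : C2}
    (hτ : ContDiffAt ℝ ∞ τ z) (hf : ∀ k, DifferentiableAt ℝ (f k) z)
    (hh : ∀ k, DifferentiableAt ℝ (h k) (τ z)) (hR : ∀ a b, DifferentiableAt ℝ (R a b) z)
    (hl : ∀ᶠ y in 𝓝 z, ∀ k, fderiv ℝ τ y (f k y) = ∑ m, R k m y • h m (τ y)) (j k : Fin 4) :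
    fderiv ℝ τ z (fderiv ℝ (f k) z (f j z) - fderiv ℝ (f j) z (f k z)) =
      ∑ m, (fderiv ℝ (R k m) z (f j z) - fderiv ℝ (R j m) z (f k z)) • h m (τ z) +
      ∑ m, ∑ n, (R j m z * R k n z) •
        (fderiv ℝ (h n) (τ z) (h m (τ z)) - fderiv ℝ (h m) (τ z) (h n (τ z))) := by
  have h1 : DifferentiableAt ℝ τ z := hτ.differentiableAt (by simp)
  have h0 : ContDiffAt ℝ 2 τ z := hτ.of_le (WithTop.coe_le_coe.2 (le_top : (2 : ℕ∞) ≤ ⊤))
  have h2 : DifferentiableAt ℝ (fderiv ℝ τ) z :=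
    (h0.fderiv_right (m := 1) (by norm_num)).differentiableAt (by simp)
  have hs : IsSymmSndFDerivAt ℝ τ z :=
    h0.isSymmSndFDerivAt (by simp only [minSmoothness_of_isRCLikeNormedField]; exact le_rfl)
  have key : ∀ j k, fderiv ℝ τ z (fderiv ℝ (f k) z (f j z)) +
      fderiv ℝ (fderiv ℝ τ) z (f j z) (f k z) =
      ∑ m, fderiv ℝ (R k m) z (f j z) • h m (τ z) +
        ∑ n, ∑ m, (R j m z * R k n z) • fderiv ℝ (h n) (τ z) (h m (τ z)) := by
    intro j k
    have a1 := h2.hasFDerivAt.clm_apply (hf k).hasFDerivAt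
    have a2 := HasFDerivAt.fun_sum (u := Finset.univ) fun m _ =>
      (hR k m).hasFDerivAt.fun_smul ((hh m).hasFDerivAt.comp z h1.hasFDerivAt)
    have a3 := a1.unique (a2.congr_of_eventuallyEq (hl.mono fun y hy => hy k))
    have a4 := congrArg (fun L : C2 →L[ℝ] C2 => L (f j z)) a3
    simp only [_root_.add_apply, ContinuousLinearMap.comp_apply,
      ContinuousLinearMap.flip_apply, _root_.sum_apply,
      _root_.smul_apply, ContinuousLinearMap.smulRight_apply,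
      Function.comp_apply] at a4
    rw [a4, Finset.sum_add_distrib, add_comm, hl.self_of_nhds j]
    congr 1
    refine Finset.sum_congr rfl fun n _ => ?_
    rw [map_sum, Finset.smul_sum]
    refine Finset.sum_congr rfl fun m _ => ?_
    rw [map_smul, smul_smul, mul_comm]
  have k1 := key j k
  have k2 := key k j
  rw [hs.eq (f k z) (f j z)] at k2
  rw [Finset.sum_comm] at k1
  rw [map_sub, eq_sub_of_add_eq k1, eq_sub_of_add_eq k2]
  simp only [sub_smul, smul_sub, Finset.sum_sub_distrib]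
  have e : ∑ n, ∑ m, (R k m z * R j n z) • fderiv ℝ (h n) (τ z) (h m (τ z)) =
      ∑ m, ∑ n, (R j m z * R k n z) • fderiv ℝ (h m) (τ z) (h n (τ z)) :=
    Finset.sum_congr rfl fun m _ => Finset.sum_congr rfl fun n _ => by rw [mul_comm]
  rw [e]
  abel

theorem SL1_nhds {p x : X} {s : Set X} (hs : IsOpen s) (h : s ⊆ (chartAt C2 p).source)
    (hx : x ∈ s) : chartAt C2 p '' s ∈ 𝓝 (chartAt C2 p x) :=
  ((chartAt C2 p).isOpen_image_of_subset_source hs h).mem_nhds ⟨x, hx, rfl⟩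

theorem SL1_e (hx : x ∈ G.W p) (k : Fin 4) :
    DifferentiableAt ℝ (G.e p k) (chartAt C2 p x) := by
  refine differentiableAt_pi.2 fun i => ?_
  simp only [Met.e, mulVec, dotProduct]
  refine DifferentiableAt.fun_sum fun j _ => DifferentiableAt.mul_const ?_ _
  exact ((G.E_sm p i j).contDiffAt (SL1_nhds (G.W_open p) (G.W_sub p) hx)).differentiableAt
    (by simp)

theorem Met.e_law (hx : x ∈ G.W p ∩ G.W q) (k : Fin 4) :
    fderiv ℝ (chartAt C2 p ∘ (chartAt C2 q).symm) (chartAt C2 q x) (G.e q k (chartAt C2 q x)) =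
      ∑ m, Rr (G.g p q x) k m • G.e p m (chartAt C2 p x) := by
  rw [jac_real (G.W_sub p hx.1) (G.W_sub q hx.2)]
  have hd : IsUnit (G.E p (chartAt C2 p x)).det :=
    (G.E_det p _ ⟨x, hx.1, rfl⟩).isUnit
  simp only [Rr, Met.e]
  rw [← SL1_exp, mulVec_mulVec, mulVec_mulVec, Met.g, gt0, ← Matrix.mul_assoc,
    ← Matrix.mul_assoc, mul_nonsing_inv _ hd, Matrix.one_mul]

theorem Met.g_cd (hx : x ∈ G.W p ∩ G.W q) (i j : Fin 2) :
    ContDiffAt ℝ ∞ (fun y => G.g p q ((chartAt C2 q).symm y) i j) (chartAt C2 q x) :=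
  (G.g_sm q p q i j).contDiffAt (SL1_nhds (((G.W_open q).inter (G.W_open p)).inter (G.W_open q))
    (fun _ h => G.W_sub q h.2) ⟨⟨hx.2, hx.1⟩, hx.2⟩)

theorem Met.Rr_cd (hx : x ∈ G.W p ∩ G.W q) (a b : Fin 4) :
    ContDiffAt ℝ ∞ (fun y => Rr (G.g p q ((chartAt C2 q).symm y)) a b) (chartAt C2 q x) := by
  obtain ⟨L, hL⟩ := SL1_co b
  simp only [Rr, hL]
  refine L.contDiff.contDiffAt.comp (chartAt C2 q x)
    (f := fun y => G.g p q ((chartAt C2 q).symm y) *ᵥ bs a) (contDiffAt_pi.2 fun i => ?_)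
  simp only [mulVec, dotProduct]
  exact ContDiffAt.sum fun j _ => (Met.g_cd hx i j).mul contDiffAt_const

theorem Met.sc_law (hx : x ∈ G.W p ∩ G.W q) (j k b : Fin 4) :
    G.sc q j k b (chartAt C2 q x) = ∑ d,
      (fderiv ℝ (fun y => Rr (G.g p q ((chartAt C2 q).symm y)) k d) (chartAt C2 q x)
          (G.e q j (chartAt C2 q x)) -
        fderiv ℝ (fun y => Rr (G.g p q ((chartAt C2 q).symm y)) j d) (chartAt C2 q x)
          (G.e q k (chartAt C2 q x)) +
        ∑ m, ∑ n, Rr (G.g p q x) j m * Rr (G.g p q x) k n * G.sc p m n d (chartAt C2 p x)) *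
      Rr (G.g p q x) b d := by
  have hp := G.W_sub p hx.1
  have hq := G.W_sub q hx.2
  have hinv : (chartAt C2 q).symm (chartAt C2 q x) = x := (chartAt C2 q).left_inv hq
  have hτz : (chartAt C2 p ∘ (chartAt C2 q).symm) (chartAt C2 q x) = chartAt C2 p x := by
    rw [Function.comp_apply, hinv]
  have hτ : ContDiffAt ℝ ∞ (chartAt C2 p ∘ (chartAt C2 q).symm) (chartAt C2 q x) :=
    ((tr_sm hp hq).contDiffAt (n := ∞)).restrict_scalars ℝ
  have hl : ∀ᶠ y in 𝓝 (chartAt C2 q x), ∀ k,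
      fderiv ℝ (chartAt C2 p ∘ (chartAt C2 q).symm) y (G.e q k y) =
        ∑ m, Rr (G.g p q ((chartAt C2 q).symm y)) k m •
          G.e p m ((chartAt C2 p ∘ (chartAt C2 q).symm) y) := by
    filter_upwards [SL1_nhds ((G.W_open p).inter (G.W_open q)) (fun _ h => G.W_sub q h.2) hx]
    rintro _ ⟨x', hx', rfl⟩ k
    rw [Function.comp_apply, (chartAt C2 q).left_inv (G.W_sub q hx'.2)]
    exact Met.e_law hx' k
  have ha := SL1_abs (R := fun a b y => Rr (G.g p q ((chartAt C2 q).symm y)) a b) hτ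
    (fun k => SL1_e hx.2 k) (fun k => by rw [hτz]; exact SL1_e hx.1 k)
    (fun a b => (Met.Rr_cd hx a b).differentiableAt (by simp)) hl j k
  rw [hτz, jac_real hp hq] at ha
  simp only [hinv] at ha
  have hdp : IsUnit (G.E p (chartAt C2 p x)).det := (G.E_det p _ ⟨x, hx.1, rfl⟩).isUnit
  have hdq : IsUnit (G.E q (chartAt C2 q x)).det := (G.E_det q _ ⟨x, hx.2, rfl⟩).isUnit
  set v := fderiv ℝ (G.e q k) (chartAt C2 q x) (G.e q j (chartAt C2 q x)) -
    fderiv ℝ (G.e q j) (chartAt C2 q x) (G.e q k (chartAt C2 q x)) with hv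
  have hw : G.g p q x *ᵥ ((G.E q (chartAt C2 q x))⁻¹ *ᵥ v) =
      (G.E p (chartAt C2 p x))⁻¹ *ᵥ (jac p q x *ᵥ v) := by
    rw [mulVec_mulVec, mulVec_mulVec, Met.g, gt0, Matrix.mul_assoc, mul_nonsing_inv _ hdq,
      Matrix.mul_one]
  have hd : ∀ d, fderiv ℝ (fun y => Rr (G.g p q ((chartAt C2 q).symm y)) k d) (chartAt C2 q x)
          (G.e q j (chartAt C2 q x)) -
        fderiv ℝ (fun y => Rr (G.g p q ((chartAt C2 q).symm y)) j d) (chartAt C2 q x)
          (G.e q k (chartAt C2 q x)) +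
        ∑ m, ∑ n, Rr (G.g p q x) j m * Rr (G.g p q x) k n * G.sc p m n d (chartAt C2 p x) =
      ∑ c, G.sc q j k c (chartAt C2 q x) * Rr (G.g p q x) c d := by
    intro d
    obtain ⟨L, hL⟩ := SL1_L (G.E p (chartAt C2 p x))⁻¹ d
    obtain ⟨L', hL'⟩ := SL1_co d
    have he : ∀ m, L (G.e p m (chartAt C2 p x)) = if m = d then 1 else 0 := by
      intro m
      rw [← hL, Met.e, mulVec_mulVec, nonsing_inv_mul _ hdp, one_mulVec, SL1_cobs]
    have h1 : co (G.g p q x *ᵥ ((G.E q (chartAt C2 q x))⁻¹ *ᵥ v)) d =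
      co ((G.E p (chartAt C2 p x))⁻¹ *ᵥ (jac p q x *ᵥ v)) d := by rw [hw]
    rw [hL, ha, SL1_exp, hL'] at h1
    simp only [map_add, map_sum, map_smul, smul_eq_mul, he, mul_ite, mul_one, mul_zero,
      Finset.sum_ite_eq', Finset.mem_univ, if_true] at h1
    simp only [← hL, ← hL'] at h1
    exact h1.symm
  simp only [hd, Finset.sum_mul]
  rw [Finset.sum_comm]
  have ho : ∀ c, ∑ d, Rr (G.g p q x) c d * Rr (G.g p q x) b d = if c = b then 1 else 0 :=
    fun c => (Rr_orth (G.unit p q x hx) c b).2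
  simp only [mul_assoc, ← Finset.mul_sum, ho]
  simp

end Vale.Agent.P267I
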