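import Vale.Agent.P267I.SL1

/-! The two Dirac systems. -/

open scoped Manifold ContDiff Topology Kronecker
open Filter Matrix MeasureTheory Complex

noncomputable section

namespace Vale.Agent.P267I

open Vale.Agent.P267F

variable {X : Type} [TopologicalSpace X] [ChartedSpace C2 X] [IsManifold 𝓘(ℂ, C2) ω X]
  [T2Space X] [CompactSpace X] [MeasurableSpace X] [BorelSpace X] {G : Met X}
  {u l w : X → X → ℂ} {θ : X → X → C2 →L[ℝ] ℂ} {p q x : X} {N : ℕ} {S : Pre X N}
  {A : X → Fin 4 → C2 → Mat N} {om : X → Fin 4 → Fin 4 → Fin 4 → C2 → ℝ} {z : C2}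

theorem SL2_alg (R : Fin 4 → Fin 4 → ℝ) (dR s : Fin 4 → Fin 4 → Fin 4 → ℝ)
    (hD : ∀ k a b, ∑ d, dR k a d * R b d = -∑ d, dR k b d * R a d) (k a b : Fin 4) :
    ((∑ d, (dR k a d - dR a k d + ∑ m, ∑ n, R k m * R a n * s m n d) * R b d) -
      (∑ d, (dR a b d - dR b a d + ∑ m, ∑ n, R a m * R b n * s m n d) * R k d) +
      ∑ d, (dR b k d - dR k b d + ∑ m, ∑ n, R b m * R k n * s m n d) * R a d) / 2 =
    ∑ d, (dR k a d + ∑ c, R a c * ∑ m, R k m * ((s m c d - s c d m + s d m c) / 2)) * R b d := by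
  have h1 := hD k a b
  have h2 := hD a k b
  have h3 := hD b a k
  simp only [Fin.sum_univ_four] at h1 h2 h3 ⊢
  linear_combination (-1 / 2) * h1 - (1 / 2) * h2 + (1 / 2) * h3

theorem SL2_skew {F : Fin 4 → Fin 4 → C2 → ℝ} {z : C2} (hF : ∀ a d, DifferentiableAt ℝ (F a d) z)
    {a b : Fin 4} {c : ℝ} (h : ∀ᶠ y in 𝓝 z, ∑ d, F a d y * F b d y = c) (v : C2) :
    ∑ d, fderiv ℝ (F a d) z v * F b d z = -∑ d, fderiv ℝ (F b d) z v * F a d z := by
  have h1 : HasFDerivAt (fun y => ∑ d, F a d y * F b d y)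
      (∑ d, (F a d z • fderiv ℝ (F b d) z + F b d z • fderiv ℝ (F a d) z)) z :=
    HasFDerivAt.fun_sum fun d _ => (hF a d).hasFDerivAt.fun_mul (hF b d).hasFDerivAt
  have h2 : HasFDerivAt (fun y => ∑ d, F a d y * F b d y) (0 : C2 →L[ℝ] ℝ) z :=
    (hasFDerivAt_const c z).congr_of_eventuallyEq h
  have h3 := congrArg (fun L : C2 →L[ℝ] ℝ => L v) (h1.unique h2)
  simp only [ContinuousLinearMap.sum_apply, ContinuousLinearMap.add_apply,
    ContinuousLinearMap.smul_apply, smul_eq_mul, ContinuousLinearMap.zero_apply,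
    Fin.sum_univ_four] at h3 ⊢
  linarith

theorem Met.om_law (hx : x ∈ G.W p ∩ G.W q) (k a b : Fin 4) :
    G.om q k a b (chartAt C2 q x) = ∑ d,
      (fderiv ℝ (fun y => Rr (G.g p q ((chartAt C2 q).symm y)) a d) (chartAt C2 q x)
          (G.e q k (chartAt C2 q x)) +
        ∑ c, Rr (G.g p q x) a c * ∑ m, Rr (G.g p q x) k m * G.om p m c d (chartAt C2 p x)) *
      Rr (G.g p q x) b d := by
  have hq : x ∈ (chartAt C2 q).source := G.W_sub q hx.2
  have e0 : (chartAt C2 q).symm (chartAt C2 q x) = x := (chartAt C2 q).left_inv hq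
  have ev : ∀ᶠ y in 𝓝 (chartAt C2 q x), (chartAt C2 q).symm y ∈ G.W p ∩ G.W q :=
    ((chartAt C2 q).continuousAt_symm ((chartAt C2 q).map_source hq)).eventually_mem
      (((G.W_open p).inter (G.W_open q)).mem_nhds (by rwa [e0]))
  have hD : ∀ k a b : Fin 4, ∑ d,
      fderiv ℝ (fun y => Rr (G.g p q ((chartAt C2 q).symm y)) a d) (chartAt C2 q x)
        (G.e q k (chartAt C2 q x)) * Rr (G.g p q x) b d = -∑ d,
      fderiv ℝ (fun y => Rr (G.g p q ((chartAt C2 q).symm y)) b d) (chartAt C2 q x)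
        (G.e q k (chartAt C2 q x)) * Rr (G.g p q x) a d := fun k a b => by
    have h := SL2_skew (F := fun a d y => Rr (G.g p q ((chartAt C2 q).symm y)) a d)
      (fun a d => (Met.Rr_cd hx a d).differentiableAt (by simp)) (a := a) (b := b)
      (c := if a = b then 1 else 0)
      (ev.mono fun y hy => (Rr_orth (G.unit p q _ hy) a b).2) (G.e q k (chartAt C2 q x))
    simpa only [e0] using h
  unfold Met.om
  rw [Met.sc_law hx k a b, Met.sc_law hx a b k, Met.sc_law hx b k a]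
  exact SL2_alg (Rr (G.g p q x))
    (fun k a d => fderiv ℝ (fun y => Rr (G.g p q ((chartAt C2 q).symm y)) a d) (chartAt C2 q x)
      (G.e q k (chartAt C2 q x))) (fun m n d => G.sc p m n d (chartAt C2 p x)) hD k a b

end Vale.Agent.P267I
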