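import Vale.Agent.P267I.SJ
import Vale.Agent.P267I.SA

/-! The two Dirac systems. -/

open scoped Manifold ContDiff Topology Kronecker
open Filter Matrix MeasureTheory Complex

noncomputable section

namespace Vale.Agent.P267I

open Vale.Agent.P267F

variable {X : Type} [TopologicalSpace X] [ChartedSpace C2 X] [IsManifold 𝓘(ℂ, C2) ω X]
  [T2Space X] [CompactSpace X] [MeasurableSpace X] [BorelSpace X] {G : Met X}
  {u l w : X → X → ℂ} {θ : X → X → C2 →L[ℝ] ℂ} {p q x : X} {N : ℕ} {S : Pre X N}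
  {A : X → Fin 4 → C2 → Mat N} {om : X → Fin 4 → Fin 4 → Fin 4 → C2 → ℝ} {z : C2}

/-- The Cholesky frame. -/
def sm1C (H : Mat 2) : Mat 2 :=
  !![((√(H 0 0).re : ℝ) : ℂ)⁻¹,
      -H 0 1 / (((H 0 0).re : ℂ) * (√((H 1 1).re - normSq (H 0 1) / (H 0 0).re) : ℝ));
    0, ((√((H 1 1).re - normSq (H 0 1) / (H 0 0).re) : ℝ) : ℂ)⁻¹]

open scoped ComplexOrder in
theorem sm1_pos {H : Mat 2} (h : H.PosDef) : 0 < (H 0 0).re ∧ 0 < (H 1 1).re - normSq (H 0 1) / (H 0 0).re ∧
    H 0 0 = (H 0 0).re ∧ H 1 1 = (H 1 1).re ∧ H 1 0 = (starRingEnd ℂ) (H 0 1) := by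
  have h0 := Complex.pos_iff.1 (h.diag_pos (i := 0))
  have h1 := Complex.pos_iff.1 (h.diag_pos (i := 1))
  have h2 := Complex.pos_iff.1 h.det_pos
  have e0 : H 0 0 = (H 0 0).re := Complex.ext rfl (by simp [← h0.2])
  have e1 : H 1 1 = (H 1 1).re := Complex.ext rfl (by simp [← h1.2])
  have e2 : H 1 0 = (starRingEnd ℂ) (H 0 1) := (h.1.apply 1 0).symm
  refine ⟨h0.1, ?_, e0, e1, e2⟩
  have h3 := h2.1
  rw [det_fin_two, e2, Complex.mul_conj, e0, e1, ← Complex.ofReal_mul, ← Complex.ofReal_sub,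
    Complex.ofReal_re] at h3
  rw [sub_pos, div_lt_iff₀ h0.1]
  linarith

open scoped ComplexOrder in
theorem sm1_chol {H : Mat 2} (h : H.PosDef) : (sm1C H)ᴴ * H * sm1C H = 1 ∧ (sm1C H).det ≠ 0 := by
  obtain ⟨h0, h1, e0, e1, e2⟩ := sm1_pos h
  have a0 := Real.sqrt_pos.2 h0
  have d0 := Real.sqrt_pos.2 h1
  have a1 := Real.mul_self_sqrt h0.le
  have d1 := Real.mul_self_sqrt h1.le
  have eH : H = !![(((H 0 0).re : ℝ) : ℂ), H 0 1; (starRingEnd ℂ) (H 0 1), (((H 1 1).re : ℝ) : ℂ)] := by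
    rw [← e0, ← e1, ← e2]; exact eta_fin_two H
  unfold sm1C
  generalize √((H 1 1).re - normSq (H 0 1) / (H 0 0).re) = d at *
  generalize √(H 0 0).re = r at *
  have a2 : ((H 0 0).re : ℂ) = r * r := by rw [← a1]; push_cast; rfl
  have d2 : ((H 1 1).re : ℂ) = d * d + H 0 1 * (starRingEnd ℂ) (H 0 1) / (r * r) := by
    rw [Complex.mul_conj, ← a2]
    exact_mod_cast (by linarith : (H 1 1).re = d * d + normSq (H 0 1) / (H 0 0).re)
  have r0 : (r : ℂ) ≠ 0 := by exact_mod_cast a0.ne'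
  have d3 : (d : ℂ) ≠ 0 := by exact_mod_cast d0.ne'
  constructor
  · conv_lhs => enter [1, 2]; rw [eH]
    rw [a2, d2]
    generalize H 0 1 = b
    ext i j
    fin_cases i <;> fin_cases j <;>
      simp [Matrix.mul_apply, Fin.sum_univ_two, conjTranspose_apply] <;> field_simp <;> ring_nf
    exact Or.inl trivial
  · simp [det_fin_two, r0, d3]

open scoped ComplexOrder in
theorem sm1_sm {H : C2 → Mat 2} {z : C2} (h : (H z).PosDef)
    (hs : ∀ i j, ContDiffAt ℝ ∞ (fun y => H y i j) z) (i j : Fin 2) :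
    ContDiffAt ℝ ∞ (fun y => sm1C (H y) i j) z := by
  obtain ⟨h0, h1, -⟩ := sm1_pos h
  have re : ∀ i j, ContDiffAt ℝ ∞ (fun y => (H y i j).re) z := fun i j =>
    Complex.reCLM.contDiff.contDiffAt.comp z (hs i j)
  have im : ∀ i j, ContDiffAt ℝ ∞ (fun y => (H y i j).im) z := fun i j =>
    Complex.imCLM.contDiff.contDiffAt.comp z (hs i j)
  have oc : ∀ {f : C2 → ℝ}, ContDiffAt ℝ ∞ f z → ContDiffAt ℝ ∞ (fun y => (f y : ℂ)) z := fun hf =>
    Complex.ofRealCLM.contDiff.contDiffAt.comp z hf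
  have nq : ContDiffAt ℝ ∞ (fun y => normSq (H y 0 1)) z := by
    simp only [normSq_apply]
    exact ((re 0 1).mul (re 0 1)).add ((im 0 1).mul (im 0 1))
  have s1 := oc ((re 0 0).sqrt h0.ne')
  have s2 := oc (((re 1 1).sub (nq.div (re 0 0) h0.ne')).sqrt h1.ne')
  have a0 : ((√(H z 0 0).re : ℝ) : ℂ) ≠ 0 := by exact_mod_cast (Real.sqrt_pos.2 h0).ne'
  have d0 : ((√((H z 1 1).re - normSq (H z 0 1) / (H z 0 0).re) : ℝ) : ℂ) ≠ 0 := by
    exact_mod_cast (Real.sqrt_pos.2 h1).ne'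
  have a1 : (((H z 0 0).re : ℝ) : ℂ) ≠ 0 := by exact_mod_cast h0.ne'
  fin_cases i <;> fin_cases j
  · exact s1.inv a0
  · have := (hs 0 1).neg.mul (((oc (re 0 0)).mul s2).inv (mul_ne_zero a1 d0))
    exact this
  · exact contDiffAt_const
  · exact s2.inv d0

open scoped ComplexOrder in
theorem exists_frames (M : X → Set X) (hM : ∀ p, M p ∈ 𝓝 p) :
    ∃ (W : X → Set X) (E : X → C2 → Mat 2), (∀ p, IsOpen (W p)) ∧ (∀ p, p ∈ W p) ∧
      (∀ p, W p ⊆ (chartAt C2 p).source ∩ M p) ∧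
      (∀ p i j, ContDiffOn ℝ ∞ (fun z => E p z i j) (chartAt C2 p '' W p)) ∧
      (∀ p, ∀ z ∈ chartAt C2 p '' W p, (E p z).det ≠ 0) ∧
      ∀ p q, ∀ x ∈ W p ∩ W q, (gt0 E p q x)ᴴ * gt0 E p q x = 1 := by
  obtain ⟨n, P, ρ, r1, -, r3, r4, r5⟩ := exists_pou (W := fun p : X => (chartAt C2 p).source)
    (fun p => (chartAt C2 p).open_source) fun p => mem_chart_source C2 p
  let H : X → X → Mat 2 := fun p x => ∑ a, (ρ a x : ℂ) • ((jac (P a) p x)ᴴ * jac (P a) p x)
  have hin : ∀ a x, ρ a x ≠ 0 → x ∈ (chartAt C2 (P a)).source := fun a x h =>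
    r4 a (subset_tsupport _ h)
  have h1 : ∀ p q x, x ∈ (chartAt C2 p).source → x ∈ (chartAt C2 q).source →
      (jac p q x)ᴴ * H p x * jac p q x = H q x := fun p q x hp hq => by
    simp only [H, Finset.mul_sum, Finset.sum_mul, Matrix.mul_smul, Matrix.smul_mul]
    refine Finset.sum_congr rfl fun a _ => ?_
    by_cases h : ρ a x = 0
    · simp [h]
    · rw [← jac_mul (hin a x h) hp hq, conjTranspose_mul]
      simp only [Matrix.mul_assoc]
  have h2 : ∀ p x, x ∈ (chartAt C2 p).source → (H p x).PosDef := fun p x hp => by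
    obtain ⟨a, -, ha⟩ : ∃ a ∈ Finset.univ, ρ a x ≠ 0 :=
      Finset.exists_ne_zero_of_sum_ne_zero (by rw [r5]; exact one_ne_zero)
    have hu : IsUnit (jac (P a) p x) := (Matrix.isUnit_iff_isUnit_det _).2
      (Matrix.isUnit_det_of_left_inverse (B := jac p (P a) x) (by rw [jac_mul hp (hin a x ha) hp, jac_self hp]))
    have k1 : ((ρ a x : ℂ) • ((jac (P a) p x)ᴴ * jac (P a) p x)).PosDef := by
      refine Matrix.PosDef.smul ?_ (by exact_mod_cast lt_of_le_of_ne (r3 a x) (Ne.symm ha))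
      exact Matrix.PosDef.conjTranspose_mul_self _ (Matrix.mulVec_injective_of_isUnit hu)
    simp only [H]
    rw [← Finset.add_sum_erase _ _ (Finset.mem_univ a)]
    exact k1.add_posSemidef (Matrix.posSemidef_sum _ fun b _ =>
      (posSemidef_conjTranspose_mul_self _).smul (by exact_mod_cast r3 b x))
  have h3 : ∀ p x, x ∈ (chartAt C2 p).source → ∀ i j,
      ContDiffAt ℝ ∞ (fun z => H p ((chartAt C2 p).symm z) i j) (chartAt C2 p x) := fun p x hp i j => by
    simp only [H, Matrix.sum_apply, Matrix.smul_apply, smul_eq_mul, Matrix.mul_apply, conjTranspose_apply]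
    refine ContDiffAt.sum fun a _ => ?_
    by_cases h : x ∈ tsupport (ρ a)
    · refine ((smAt_iff hp).1 (r1 a x)).self_of_nhds.mul (ContDiffAt.sum fun k _ => ContDiffAt.mul ?_ ?_)
      · exact Complex.conjCLE.contDiff.contDiffAt.comp _ (jac_sm (r4 a h) hp hp k i)
      · exact jac_sm (r4 a h) hp hp k j
    · have e1 := notMem_tsupport_iff_eventuallyEq.1 h
      have e2 : Tendsto (chartAt C2 p).symm (𝓝 (chartAt C2 p x)) (𝓝 x) :=
        (chartAt C2 p).tendsto_symm hp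
      refine (contDiffAt_const (c := (0 : ℂ))).congr_of_eventuallyEq ?_
      filter_upwards [e2.eventually e1] with z hz
      simp [hz]
  have hW : ∀ p, interior ((chartAt C2 p).source ∩ M p) ⊆ (chartAt C2 p).source ∩ M p :=
    fun p => interior_subset
  refine ⟨fun p => interior ((chartAt C2 p).source ∩ M p), fun p z => sm1C (H p ((chartAt C2 p).symm z)),
    fun p => isOpen_interior, fun p => mem_interior_iff_mem_nhds.2
      (inter_mem (chart_source_mem_nhds C2 p) (hM p)), hW, ?_, ?_, ?_⟩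
  · rintro p i j _ ⟨x, hx, rfl⟩
    have hp := (hW p hx).1
    refine (sm1_sm (H := fun z => H p ((chartAt C2 p).symm z)) ?_ (h3 p x hp) i j).contDiffWithinAt
    rw [(chartAt C2 p).left_inv hp]
    exact h2 p x hp
  · rintro p _ ⟨x, hx, rfl⟩
    have hp := (hW p hx).1
    simp only [(chartAt C2 p).left_inv hp]
    exact (sm1_chol (h2 p x hp)).2
  · rintro p q x ⟨hx, hx'⟩
    have hp := (hW p hx).1
    have hq := (hW q hx').1
    obtain ⟨c1, c2⟩ := sm1_chol (h2 p x hp)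
    have c3 := (sm1_chol (h2 q x hq)).1
    simp only [gt0, (chartAt C2 p).left_inv hp, (chartAt C2 q).left_inv hq]
    have c4 : ((sm1C (H p x))⁻¹)ᴴ * (sm1C (H p x))⁻¹ = H p x := by
      have c5 := Matrix.mul_nonsing_inv _ (Ne.isUnit c2)
      calc _ = ((sm1C (H p x))⁻¹)ᴴ * ((sm1C (H p x))ᴴ * H p x * sm1C (H p x)) * (sm1C (H p x))⁻¹ := by
            rw [c1, Matrix.mul_one]
        _ = (sm1C (H p x) * (sm1C (H p x))⁻¹)ᴴ * H p x * (sm1C (H p x) * (sm1C (H p x))⁻¹) := by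
            rw [conjTranspose_mul]; simp only [Matrix.mul_assoc]
        _ = H p x := by rw [c5]; simp
    have c6 := h1 p q x hp hq
    generalize sm1C (H q x) = Eq at *
    generalize sm1C (H p x) = Ep at *
    rw [← c3, ← c6, ← c4]
    simp only [conjTranspose_mul, Matrix.mul_assoc]

end Vale.Agent.P267I
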