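import Vale.Agent.P267I.SJ
import Vale.Agent.P267I.SA

/-! The two Dirac systems. -/

open scoped Manifold ContDiff Topology Kronecker
open Filter Matrix MeasureTheory Complex

noncomputable section

namespace Vale.Agent.P267I

open Vale.Agent.P267F

variable {X : Type} [TopologicalSpace X] [ChartedSpace C2 X] [IsManifold 𝓘(ℂ, C2) ω X]
  [T2Space X] [CompactSpace X] [MeasurableSpace X] [BorelSpace X] {G : Met X}
  {u l w : X → X → ℂ} {θ : X → X → C2 →L[ℝ] ℂ} {p q x : X} {N : ℕ} {S : Pre X N}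
  {A : X → Fin 4 → C2 → Mat N} {om : X → Fin 4 → Fin 4 → Fin 4 → C2 → ℝ} {z : C2}

theorem sm3_det (hp : x ∈ (chartAt C2 p).source) (hq : x ∈ (chartAt C2 q).source) :
    (fderiv ℝ (chartAt C2 p ∘ (chartAt C2 q).symm) (chartAt C2 q x)).det =
      Complex.normSq (jac p q x).det := by
  have h := (tr_sm hp hq).differentiableAt
  rw [h.fderiv_restrictScalars ℝ, jac, LinearMap.det_toMatrix', ← Algebra.norm_complex_apply,
    ← LinearMap.det_restrictScalars]
  rfl

omit [IsManifold 𝓘(ℂ, C2) ω X] [T2Space X] [CompactSpace X] [MeasurableSpace X] [BorelSpace X] in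
theorem sm3_pre {O B : Set X} (h : O ⊆ (chartAt C2 p).source) :
    (chartAt C2 p).symm ⁻¹' B ∩ chartAt C2 p '' O = chartAt C2 p '' (B ∩ O) := by
  ext z
  constructor
  · rintro ⟨h1, y, hy, rfl⟩
    rw [Set.mem_preimage, (chartAt C2 p).left_inv (h hy)] at h1
    exact ⟨y, ⟨h1, hy⟩, rfl⟩
  · rintro ⟨y, hy, rfl⟩
    refine ⟨?_, y, hy.2, rfl⟩
    rw [Set.mem_preimage, (chartAt C2 p).left_inv (h hy.2)]
    exact hy.1

omit [IsManifold 𝓘(ℂ, C2) ω X] [T2Space X] [CompactSpace X] in
theorem sm3_meas {B : Set X} (hB : MeasurableSet B) (h : B ⊆ (chartAt C2 p).source) :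
    MeasurableSet (chartAt C2 p '' B) := by
  classical
  have ht := (chartAt C2 p).open_target.measurableSet
  have h1 : Measurable ((chartAt C2 p).target.piecewise (chartAt C2 p).symm fun _ => p) :=
    (chartAt C2 p).continuousOn_symm.measurable_piecewise continuousOn_const ht
  have h2 : chartAt C2 p '' B =
      ((chartAt C2 p).target.piecewise (chartAt C2 p).symm fun _ => p) ⁻¹' B ∩
        (chartAt C2 p).target := by
    rw [(chartAt C2 p).image_eq_target_inter_inv_preimage h]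
    ext z
    by_cases hz : z ∈ (chartAt C2 p).target <;> simp [hz]
  rw [h2]
  exact (h1 hB).inter ht

omit [IsManifold 𝓘(ℂ, C2) ω X] [T2Space X] [CompactSpace X] in
theorem sm3_app {O B : Set X} (hO : IsOpen O) (h : O ⊆ (chartAt C2 p).source)
    (hB : MeasurableSet B) (f : C2 → ENNReal) :
    Measure.map (chartAt C2 p).symm ((volume.restrict (chartAt C2 p '' O)).withDensity f) B =
      ∫⁻ z in chartAt C2 p '' (B ∩ O), f z := by
  have hV := sm3_meas hO.measurableSet h
  have h1 : ContinuousOn (chartAt C2 p).symm (chartAt C2 p '' O) :=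
    (chartAt C2 p).continuousOn_symm.mono (by
      rintro _ ⟨y, hy, rfl⟩
      exact (chartAt C2 p).map_source (h hy))
  rw [Measure.map_apply_of_aemeasurable
    ((h1.aemeasurable hV).mono_ac (withDensity_absolutelyContinuous _ _)) hB, withDensity_apply',
    Measure.restrict_restrict' hV, sm3_pre h]

theorem sm3_chg {B : Set X} (hB : MeasurableSet B) (hp : B ⊆ (chartAt C2 p).source)
    (hq : B ⊆ (chartAt C2 q).source) {a b : C2 → ℝ}
    (h : ∀ x ∈ B, b (chartAt C2 q x) = a (chartAt C2 p x) * Complex.normSq (jac p q x).det) :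
    ∫⁻ z in chartAt C2 p '' B, ENNReal.ofReal (a z) =
      ∫⁻ z in chartAt C2 q '' B, ENNReal.ofReal (b z) := by
  have hV := sm3_meas hB hq
  have h1 : chartAt C2 p '' B = (chartAt C2 p ∘ (chartAt C2 q).symm) '' (chartAt C2 q '' B) := by
    rw [Set.image_image]
    exact Set.image_congr fun y hy => by
      rw [Function.comp_apply, (chartAt C2 q).left_inv (hq hy)]
  rw [h1, lintegral_image_eq_lintegral_abs_det_fderiv_mul volume hV
    (f' := fderiv ℝ (chartAt C2 p ∘ (chartAt C2 q).symm))]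
  · refine setLIntegral_congr_fun hV ?_
    rintro _ ⟨y, hy, rfl⟩
    simp only [Function.comp_apply]
    rw [(chartAt C2 q).left_inv (hq hy), h y hy, sm3_det (hp hy) (hq hy),
      abs_of_nonneg (Complex.normSq_nonneg _), mul_comm (a _),
      ENNReal.ofReal_mul (Complex.normSq_nonneg _)]
  · rintro _ ⟨y, hy, rfl⟩
    exact ((tr_sm (hp hy) (hq hy)).differentiableAt.restrictScalars ℝ).hasFDerivAt.hasFDerivWithinAt
  · rintro _ ⟨y, hy, rfl⟩ _ ⟨y', hy', rfl⟩ e
    simp only [Function.comp_apply] at e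
    rw [(chartAt C2 q).left_inv (hq hy), (chartAt C2 q).left_inv (hq hy')] at e
    rw [(chartAt C2 p).injOn (hp hy) (hp hy') e]

theorem exists_mu {W : X → Set X} (h1 : ∀ p, IsOpen (W p)) (h2 : ∀ p, p ∈ W p)
    (h3 : ∀ p, W p ⊆ (chartAt C2 p).source) {ρ : X → C2 → ℝ}
    (h4 : ∀ p, ContinuousOn (ρ p) (chartAt C2 p '' W p))
    (h5 : ∀ p q, ∀ x ∈ W p ∩ W q,
      ρ q (chartAt C2 q x) = ρ p (chartAt C2 p x) * Complex.normSq (jac p q x).det) :
    ∃ μ : Measure X, ∀ p, μ.restrict (W p) = Measure.map (chartAt C2 p).symm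
      ((volume.restrict (chartAt C2 p '' W p)).withDensity fun z => ENNReal.ofReal (ρ p z)) := by
  rcases isEmpty_or_nonempty X with hX | hX
  · exact ⟨0, fun p => hX.elim p⟩
  obtain ⟨t, ht⟩ := CompactSpace.elim_nhds_subcover W fun p => (h1 p).mem_nhds (h2 p)
  have hne : (t : Set X).Nonempty := by
    obtain ⟨y⟩ := hX
    have hy : y ∈ ⋃ x ∈ t, W x := ht ▸ Set.mem_univ y
    obtain ⟨a, ha, -⟩ := Set.mem_iUnion₂.1 hy
    exact ⟨a, ha⟩
  obtain ⟨f, hf⟩ := t.countable_toSet.exists_eq_range hne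
  have hU : ⋃ n, W (f n) = Set.univ := by
    refine Set.eq_univ_of_forall fun y => ?_
    have hy : y ∈ ⋃ x ∈ t, W x := ht ▸ Set.mem_univ y
    obtain ⟨a, ha, hy⟩ := Set.mem_iUnion₂.1 hy
    obtain ⟨n, rfl⟩ : a ∈ Set.range f := hf ▸ ha
    exact Set.mem_iUnion.2 ⟨n, hy⟩
  obtain ⟨m, hm⟩ : ∃ m : X → Measure X, ∀ p, m p = Measure.map (chartAt C2 p).symm
      ((volume.restrict (chartAt C2 p '' W p)).withDensity fun z => ENNReal.ofReal (ρ p z)) :=
    ⟨_, fun _ => rfl⟩
  have hD : ∀ n, MeasurableSet (disjointed (fun n => W (f n)) n) :=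
    MeasurableSet.disjointed fun n => (h1 _).measurableSet
  have k1 : ∀ p B, MeasurableSet B →
      m p B = ∫⁻ z in chartAt C2 p '' (B ∩ W p), ENNReal.ofReal (ρ p z) := fun p B hB => by
    rw [hm, sm3_app (h1 p) (h3 p) hB]
  have k2 : ∀ p q B, MeasurableSet B → B ⊆ W p → B ⊆ W q → m p B = m q B :=
    fun p q B hB b1 b2 => by
      rw [k1 p B hB, k1 q B hB, Set.inter_eq_left.2 b1, Set.inter_eq_left.2 b2]
      exact sm3_chg hB (b1.trans (h3 p)) (b2.trans (h3 q)) fun y hy => h5 p q y ⟨b1 hy, b2 hy⟩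
  refine ⟨Measure.sum fun n => (m (f n)).restrict (disjointed (fun n => W (f n)) n), fun p => ?_⟩
  rw [← hm]
  ext B hB
  have hB' := hB.inter (h1 p).measurableSet
  have k3 : m p B = m p (B ∩ W p) := by
    rw [k1 p B hB, k1 p _ hB', Set.inter_assoc, Set.inter_self]
  have k4 : B ∩ W p = ⋃ n, B ∩ W p ∩ disjointed (fun n => W (f n)) n := by
    rw [← Set.inter_iUnion, iUnion_disjointed, hU, Set.inter_univ]
  rw [Measure.restrict_apply hB, Measure.sum_apply _ hB', k3, k4, measure_iUnion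
    (fun i j hij => ((disjoint_disjointed _ hij).mono Set.inter_subset_right
      Set.inter_subset_right)) fun n => hB'.inter (hD n), ← k4]
  refine tsum_congr fun n => ?_
  rw [Measure.restrict_apply hB']
  exact k2 _ _ _ (hB'.inter (hD n))
    (Set.inter_subset_right.trans (disjointed_subset (fun n => W (f n)) n))
    (Set.inter_subset_left.trans Set.inter_subset_right)

end Vale.Agent.P267I
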