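import Vale.Agent.P267I.SM1
import Vale.Agent.P267I.SM3

/-! The two Dirac systems. -/

open scoped Manifold ContDiff Topology Kronecker
open Filter Matrix MeasureTheory Complex

noncomputable section

namespace Vale.Agent.P267I

open Vale.Agent.P267F

variable {X : Type} [TopologicalSpace X] [ChartedSpace C2 X] [IsManifold 𝓘(ℂ, C2) ω X]
  [T2Space X] [CompactSpace X] [MeasurableSpace X] [BorelSpace X] {G : Met X}
  {u l w : X → X → ℂ} {θ : X → X → C2 →L[ℝ] ℂ} {p q x : X} {N : ℕ} {S : Pre X N}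
  {A : X → Fin 4 → C2 → Mat N} {om : X → Fin 4 → Fin 4 → Fin 4 → C2 → ℝ} {z : C2}

theorem SM2_fd (g : Mat 2) : fdet (fun a => g *ᵥ bs a) = Complex.normSq g.det := by
  rw [fdet_mul, fdet_bs, mul_one]

theorem SM2_mul {F F' : C2 → Mat 2} (h : ∀ i j, ContDiffAt ℝ ∞ (fun y => F y i j) z)
    (h' : ∀ i j, ContDiffAt ℝ ∞ (fun y => F' y i j) z) (i j : Fin 2) :
    ContDiffAt ℝ ∞ (fun y => (F y * F' y) i j) z := by
  simp only [Matrix.mul_apply]
  exact ContDiffAt.sum fun k _ => (h i k).mul (h' k j)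

theorem SM2_inv {F : C2 → Mat 2} (h : ∀ i j, ContDiffAt ℝ ∞ (fun y => F y i j) z)
    (hd : (F z).det ≠ 0) (i j : Fin 2) : ContDiffAt ℝ ∞ (fun y => (F y)⁻¹ i j) z := by
  have h1 : ContDiffAt ℝ ∞ (fun y => (F y).det) z := by
    simp only [det_fin_two]
    exact ((h 0 0).mul (h 1 1)).sub ((h 0 1).mul (h 1 0))
  have e : ∀ A : Mat 2, A⁻¹ i j = A.det⁻¹ * !![A 1 1, -A 0 1; -A 1 0, A 0 0] i j := fun A => by
    rw [Matrix.inv_def, Ring.inverse_eq_inv', adjugate_fin_two, Matrix.smul_apply, smul_eq_mul]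
  rw [show (fun y => (F y)⁻¹ i j) = _ from funext fun y => e (F y)]
  refine (h1.inv hd).mul ?_
  fin_cases i <;> fin_cases j
  exacts [h 1 1, (h 0 1).neg, (h 1 0).neg, h 0 0]

theorem exists_met (M : X → Set X) (hM : ∀ p, M p ∈ 𝓝 p) : ∃ G : Met X, ∀ p, G.W p ⊆ M p := by
  obtain ⟨W, E, h1, h2, h3, h4, h5, h6⟩ := exists_frames M hM
  have hs : ∀ p, W p ⊆ (chartAt C2 p).source := fun p x hx => (h3 p hx).1
  have hd : ∀ p, ∀ x ∈ W p, (E p (chartAt C2 p x)).det ≠ 0 := fun p x hx => h5 p _ ⟨x, hx, rfl⟩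
  have hE : ∀ r p, ∀ x ∈ W r, x ∈ W p → ∀ i j, ContDiffAt ℝ ∞
      (fun z => E p (chartAt C2 p ((chartAt C2 r).symm z)) i j) (chartAt C2 r x) :=
    fun r p x hr hp i j => by
      have a1 : ContDiffAt ℝ ∞ (fun z => E p z i j)
          ((chartAt C2 p ∘ (chartAt C2 r).symm) (chartAt C2 r x)) := by
        rw [Function.comp_apply, (chartAt C2 r).left_inv (hs r hr)]
        exact (h4 p i j).contDiffAt
          (((chartAt C2 p).isOpen_image_of_subset_source (h1 p) (hs p)).mem_nhds ⟨x, hp, rfl⟩)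
      exact a1.comp _ ((tr_sm (hs p hp) (hs r hr)).contDiffAt.restrict_scalars ℝ)
  obtain ⟨μ, hμ⟩ := exists_mu h1 h2 hs (ρ := fun p z => (fdet fun a => E p z *ᵥ bs a)⁻¹)
    (fun p => by
      simp only [SM2_fd]
      refine (continuous_normSq.comp_continuousOn ?_).inv₀ fun z hz =>
        (normSq_pos.2 (h5 p z hz)).ne'
      simp only [det_fin_two]
      exact ((h4 p 0 0).continuousOn.mul (h4 p 1 1).continuousOn).sub
        ((h4 p 0 1).continuousOn.mul (h4 p 1 0).continuousOn))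
    fun p q x hx => by
      have a1 := congrArg (fun A => (det A).re) (h6 p q x hx)
      simp only [det_mul, det_conjTranspose, det_one, star_def, ← normSq_eq_conj_mul_self,
        ofReal_re, one_re] at a1
      simp only [gt0, det_mul, det_nonsing_inv, Ring.inverse_eq_inv', map_mul, map_inv₀] at a1
      simp only [SM2_fd]
      exact (eq_inv_of_mul_eq_one_left a1).symm
  refine ⟨⟨W, h1, h2, hs, E, h4, h5, h6, fun r p q i j => ?_, fun p q r x hx => ?_,
    fun p z hz => ?_, μ, hμ⟩, fun p x hx => (h3 p hx).2⟩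
  · rintro _ ⟨x, hx, rfl⟩
    refine (SM2_mul (SM2_mul (SM2_inv (hE r p x hx.1.1 hx.1.2) ?_)
      (jac_sm (hs p hx.1.2) (hs q hx.2) (hs r hx.1.1))) (hE r q x hx.1.1 hx.2) i j).contDiffWithinAt
    rw [(chartAt C2 r).left_inv (hs r hx.1.1)]
    exact hd p x hx.1.2
  · rw [gt0, gt0, gt0, ← jac_mul (hs p hx.1.1) (hs q hx.1.2) (hs r hx.2)]
    simp only [Matrix.mul_assoc]
    rw [mul_nonsing_inv_cancel_left _ _ (hd q x hx.1.2).isUnit]
  · rw [SM2_fd]
    exact normSq_pos.2 (h5 p z hz)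

theorem exists_ln (hu : IsBundle HolAt u) : ∃ (M : X → Set X) (l : X → X → ℂ),
    (∀ p, M p ∈ 𝓝 p) ∧ ∀ G : Met X, (∀ p, G.W p ⊆ M p) → G.Ln u l := by
  obtain ⟨n, P, ρ, h1, -, h3, h4, h5⟩ := exists_pou
    (W := fun p => interior {x | u p x ≠ 0 ∧ HolAt (u p / u x) x}) (fun _ => isOpen_interior)
    fun p => mem_interior_iff_mem_nhds.2 (hu p)
  have h6 : ∀ a x, x ∈ tsupport (ρ a) → u (P a) x ≠ 0 ∧ HolAt (u (P a) / u x) x :=
    fun a x hx => interior_subset (s := {x | u (P a) x ≠ 0 ∧ HolAt (u (P a) / u x) x}) (h4 a hx)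
  have h7 : ∀ x, 0 < ∑ a, ρ a x * ‖u (P a) x‖ := fun x => by
    obtain ⟨a, -, ha⟩ := Finset.exists_ne_zero_of_sum_ne_zero ((h5 x).trans_ne one_ne_zero)
    exact Finset.sum_pos' (fun b _ => mul_nonneg (h3 b x) (norm_nonneg _))
      ⟨a, Finset.mem_univ a, mul_pos ((h3 a x).lt_of_ne' ha)
        (norm_pos_iff.2 (h6 a x (subset_tsupport _ ha)).1)⟩
  refine ⟨fun p => {x | u p x ≠ 0 ∧ HolAt (u p / u x) x},
    fun p x => (((∑ a, ρ a x * ‖u (P a) x‖) / ‖u p x‖ : ℝ) : ℂ), hu, fun G hG => ⟨fun p x hx =>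
      ⟨ofReal_ne_zero.2 (div_pos (h7 x) (norm_pos_iff.2 (hG p hx).1)).ne', (hG p hx).1⟩,
    fun p x hx => (hG p hx).2, fun p x hx => ?_, fun p q x hx => ?_⟩⟩
  · have e : (fun x => (((∑ a, ρ a x * ‖u (P a) x‖) / ‖u p x‖ : ℝ) : ℂ)) =
        ∑ a, fun y => (ρ a y : ℂ) * (‖u (P a) y / u p y‖ : ℂ) := by
      funext y
      simp [Finset.sum_div, mul_div_assoc]
    rw [e]
    refine P267.SmAt.sum fun a _ => ?_
    have h0 := (hu x).self_of_nhds.1
    by_cases hx' : x ∈ tsupport (ρ a)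
    · have a1 : P267.SmAt ((u (P a) / u x) / (u p / u x)) x :=
        (P267.HolAt.smAt (h6 a x hx').2).div (P267.HolAt.smAt (hG p hx).2)
          (div_ne_zero (hG p hx).1 h0)
      have a2 : P267.SmAt (fun y => u (P a) y / u p y) x := a1.congr (by
        filter_upwards [hu x] with y hy
        exact div_div_div_cancel_right₀ hy.1 _ _)
      exact P267.SmAt.mul (h1 a x) (a2.norm (div_ne_zero (h6 a x hx').1 (hG p hx).1))
    · refine P267.smAt_zero.congr ?_
      filter_upwards [notMem_tsupport_iff_eventuallyEq.1 hx'] with y hy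
      simp [hy]
  · simp only [norm_mul, norm_real, norm_div, norm_norm]
    rw [div_mul_cancel₀ _ (norm_ne_zero_iff.2 (hG p hx.1).1),
      div_mul_cancel₀ _ (norm_ne_zero_iff.2 (hG q hx.2).1)]

end Vale.Agent.P267I
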