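import Vale.Agent.P267I.SDefs

open scoped ContDiff Topology FourierTransform
open Set Filter MeasureTheory Metric

noncomputable section

namespace Vale.Agent.P267I

open Vale.Agent.P292E

variable {n m : ℕ}

theorem sstep_eq {N : ℕ} {a : Fin N → Fin N → V N → ℂ} {b : Fin N → V N → ℂ} {c u f : V N → ℂ}
    {g : Fin N → V N → ℂ} {χ : V N → ℂ} (hχ : Tst (ball 0 3) χ)
    (ha : ∀ p q, ContDiffOn ℝ ∞ (a p q) (ball 0 3)) (hb : ∀ p, ContDiffOn ℝ ∞ (b p) (ball 0 3))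
    (hc : ContDiffOn ℝ ∞ c (ball 0 3))
    (hf : ∀ ψ, Tst (ball 0 3) ψ → Integrable fun x => ψ x * f x)
    (hg : ∀ p ψ, Tst (ball 0 3) ψ → Integrable fun x => ψ x * g p x)
    (hu : IntegrableOn u (ball 0 3))
    (hw : Weak (ball 0 3) a b c u f g) (ξ : V N) :
    4 * Real.pi ^ 2 * ∑ p, ∑ q, ξ p * ξ q * 𝓕 (fun x => χ x * a p q x * u x) ξ =
      -(2 * Real.pi * Complex.I) * ∑ p, ξ p * 𝓕 (fun x => cb a b χ p x * u x) ξ +
        𝓕 (fun x => Qop a b c χ x * u x) ξ - 𝓕 (fun x => χ x * f x) ξ -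
        ∑ p, 𝓕 (fun x => pd p χ x * g p x) ξ +
        2 * Real.pi * Complex.I * ∑ p, ξ p * 𝓕 (fun x => χ x * g p x) ξ := by
  have hs : IsOpen (ball (0 : V N) 3) := isOpen_ball
  have h := hw _ (cut_contDiff hs hχ (FEq_smooth ξ).contDiffOn)
  have t1 : ∀ p, Tst (ball 0 3) (cb a b χ p) := fun p =>
    FEq_add (FEq_sum _ fun q => cut_contDiff hs (hχ.pd q).1 ((ha p q).add (ha q p)))
      (cut_contDiff hs hχ (hb p))
  have t2 : Tst (ball 0 3) (Qop a b c χ) :=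
    FEq_add (FEq_add (FEq_sum _ fun p => FEq_sum _ fun q =>
      FEq_cut hs ((hχ.pd q).1.pd p).1 (ha p q)) (FEq_sum _ fun p => FEq_cut hs (hχ.pd p).1 (hb p)))
      (FEq_cut hs hχ hc)
  have i1 := fun p => (FEq_ie ξ ((t1 p).integrable_mul hu)).const_mul (ξ p : ℂ)
  have i2 := FEq_ie ξ (t2.integrable_mul hu)
  have i3 := fun p q => (FEq_ie ξ ((cut_contDiff hs hχ (ha p q)).integrable_mul hu)).const_mul
    ((ξ p : ℂ) * ξ q)
  have i4 := FEq_ie ξ (hf χ hχ)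
  have i5 := fun p => FEq_ie ξ (hg p _ (hχ.pd p).1)
  have i6 := fun p => (FEq_ie ξ (hg p χ hχ)).const_mul (ξ p : ℂ)
  have j1 := (integrable_finsetSum Finset.univ fun p _ => i1 p).const_mul
    (-(2 * Real.pi * Complex.I))
  have j3 := fun p => integrable_finsetSum Finset.univ fun q _ => i3 p q
  have j3' := (integrable_finsetSum Finset.univ fun p _ => j3 p).const_mul
    ((2 * Real.pi * Complex.I) ^ 2)
  have j5 := integrable_finsetSum Finset.univ fun p _ => i5 p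
  have j6 := (integrable_finsetSum Finset.univ fun p _ => i6 p).const_mul
    (-(2 * Real.pi * Complex.I))
  have e1 : ∀ x, u x * Qop a b c (fun x => χ x * FEq_e ξ x) x =
      FEq_e ξ x * (Qop a b c χ x * u x) +
      -(2 * Real.pi * Complex.I) * ∑ p, ξ p * (FEq_e ξ x * (cb a b χ p x * u x)) +
      (2 * Real.pi * Complex.I) ^ 2 *
        ∑ p, ∑ q, ξ p * ξ q * (FEq_e ξ x * (χ x * a p q x * u x)) := fun x => by
    have a1 : ∑ p, ξ p * (FEq_e ξ x * (cb a b χ p x * u x)) =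
        FEq_e ξ x * u x * ∑ p, ξ p * cb a b χ p x := by
      rw [Finset.mul_sum]
      exact Finset.sum_congr rfl fun p _ => by ring
    have a2 : ∑ p, ∑ q, ξ p * ξ q * (FEq_e ξ x * (χ x * a p q x * u x)) =
        FEq_e ξ x * u x * ∑ p, ∑ q, ξ p * ξ q * (χ x * a p q x) := by
      simp only [Finset.mul_sum]
      exact Finset.sum_congr rfl fun p _ => Finset.sum_congr rfl fun q _ => by ring
    rw [FEq_Q a b c ξ hχ.1, a1, a2]
    ring
  have e2 : ∀ x, f x * (χ x * FEq_e ξ x) + ∑ p, g p x * pd p (fun x => χ x * FEq_e ξ x) x =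
      FEq_e ξ x * (χ x * f x) + ∑ p, FEq_e ξ x * (pd p χ x * g p x) +
      -(2 * Real.pi * Complex.I) * ∑ p, ξ p * (FEq_e ξ x * (χ x * g p x)) := fun x => by
    simp only [FEq_pd ξ hχ.1]
    rw [add_assoc, Finset.mul_sum, ← Finset.sum_add_distrib]
    congr 1
    · ring
    · exact Finset.sum_congr rfl fun p _ => by ring
  simp only [e1, e2] at h
  rw [FEq_add3 i2 j1 j3', FEq_add3 i4 j5 j6, integral_const_mul, integral_const_mul,
    integral_const_mul,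
    integral_finsetSum _ fun p _ => i1 p, integral_finsetSum _ fun p _ => j3 p,
    integral_finsetSum _ fun p _ => i5 p, integral_finsetSum _ fun p _ => i6 p] at h
  simp only [integral_finsetSum _ fun q _ => i3 _ q, integral_const_mul] at h
  simp only [FEq_four]
  rw [show (2 * (Real.pi : ℂ) * Complex.I) ^ 2 = -(4 * Real.pi ^ 2) by
    rw [mul_pow, Complex.I_sq]; ring] at h
  linear_combination -h

theorem sstep_supp {χ ψ : V n → ℂ} (h : ∀ x ∉ tsupport χ, ψ x = 0) : tsupport ψ ⊆ tsupport χ :=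
  closure_minimal (fun x hx => by_contra fun hx' => hx (h x hx')) (isClosed_tsupport χ)

theorem sstep_ev {s : ℕ} {h : V n → ℂ} (hh : Dec s h) :
    ∀ᶠ E in atTop, ∀ ξ, ‖𝓕 h ξ‖ * (1 + ‖ξ‖) ^ s ≤ E := by
  obtain ⟨D, hD⟩ := hh
  filter_upwards [eventually_ge_atTop D] with E hE ξ
  exact (hD ξ).trans hE

/-- one step of the bootstrap with rough data -/
theorem sys_step (n s : ℕ) {χ χ' : V n → ℂ} (hχ : Tst (ball 0 3) χ) (hχ' : Tst (ball 0 3) χ')
    (h1 : ∀ x ∈ tsupport χ, χ' x = 1) :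
    ∃ M : ℕ, ∀ κ : ℝ, 0 < κ → ∃ ε : ℝ, 0 < ε ∧
    ∀ (a₀ : Fin n → Fin n → ℂ) (a : Fin n → Fin n → V n → ℂ) (u f : V n → ℂ)
      (g : Fin n → V n → ℂ), (∀ ξ, κ * ‖ξ‖ ^ 2 ≤ symb a₀ ξ) →
      (∀ p q, ContDiffOn ℝ ∞ (a p q) (ball 0 3)) →
      (∀ p q, Bd M (fun x => a p q x - a₀ p q) (ball 0 3) ε) →
      IntegrableOn u (ball 0 3) →
      (∀ ψ, Tst (ball 0 3) ψ → Integrable fun x => ψ x * f x) →
      (∀ p ψ, Tst (ball 0 3) ψ → Integrable fun x => ψ x * g p x) →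
      Weak (ball 0 3) a 0 0 u f g → LDec s (tsupport χ) u → LDec s (tsupport χ) f →
      (∀ p, LDec s (tsupport χ) (g p)) → Dec (s + 1) fun x => χ x * u x := by
  obtain ⟨M, C₁, hC₁, hmul⟩ := four_mul n (s + 1)
  refine ⟨M, fun κ hκ => ?_⟩
  obtain ⟨L, L0, l'⟩ := ((eventually_ge_atTop 0).and (fstep_cut M hχ' subset_rfl)).exists
  obtain ⟨ε, ε0, ε2⟩ : ∃ ε : ℝ, 0 < ε ∧ n * n * (C₁ * (L * ε)) ≤ κ / 2 := by
    refine ⟨κ / 2 / (n * n * (C₁ * L) + 1), by positivity, ?_⟩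
    have h2 := le_refl (κ / 2 / (n * n * (C₁ * L) + 1))
    rw [le_div_iff₀ (by positivity)] at h2
    have h3 : 0 < κ / 2 / (n * n * (C₁ * L) + 1) := by positivity
    nlinarith
  refine ⟨ε, ε0, fun a₀ a u f g hs ha ha' hu hf hg hw du df dg => ?_⟩
  have ho : IsOpen (ball (0 : V n) 3) := isOpen_ball
  have hb : ∀ p, ContDiffOn ℝ ∞ ((0 : Fin n → V n → ℂ) p) (ball 0 3) := fun _ => contDiffOn_const
  have hc : ContDiffOn ℝ ∞ (0 : V n → ℂ) (ball 0 3) := contDiffOn_const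
  have z0 : ∀ x ∉ tsupport χ, χ x = 0 := fun x hx => image_eq_zero_of_notMem_tsupport hx
  have z1 : ∀ q, ∀ x ∉ tsupport χ, pd q χ x = 0 := fun q x hx =>
    image_eq_zero_of_notMem_tsupport fun h => hx ((hχ.pd q).2 h)
  have z2 : ∀ p q, ∀ x ∉ tsupport χ, pd p (pd q χ) x = 0 := fun p q x hx =>
    image_eq_zero_of_notMem_tsupport fun h => hx ((hχ.pd q).2 (((hχ.pd q).1.pd p).2 h))
  have t1 : ∀ p, Tst (ball 0 3) (cb a 0 χ p) := fun p =>
    FEq_add (FEq_sum _ fun q => cut_contDiff ho (hχ.pd q).1 ((ha p q).add (ha q p)))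
      (cut_contDiff ho hχ (hb p))
  have t2 : Tst (ball 0 3) (Qop a 0 0 χ) :=
    FEq_add (FEq_add (FEq_sum _ fun p => FEq_sum _ fun q =>
      FEq_cut ho ((hχ.pd q).1.pd p).1 (ha p q)) (FEq_sum _ fun p => FEq_cut ho (hχ.pd p).1 (hb p)))
      (FEq_cut ho hχ hc)
  have s1 : ∀ p, tsupport (cb a 0 χ p) ⊆ tsupport χ := fun p => sstep_supp fun x hx => by
    simp only [cb, z0 x hx, z1 _ x hx, zero_mul, Finset.sum_const_zero, add_zero]
  have s2 : tsupport (Qop a 0 0 χ) ⊆ tsupport χ := sstep_supp fun x hx => by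
    simp only [Qop, z0 x hx, z1 _ x hx, z2 _ _ x hx, mul_zero, Finset.sum_const_zero, add_zero]
  obtain ⟨E, E0, e1, e2, e3, e4, e5, e6⟩ := ((eventually_ge_atTop 0).and
    ((eventually_all.2 fun p => sstep_ev (du _ (t1 p) (s1 p))).and ((sstep_ev (du _ t2 s2)).and
    ((sstep_ev (df _ hχ subset_rfl)).and
    ((eventually_all.2 fun p => sstep_ev (dg p _ (hχ.pd p).1 (hχ.pd p).2)).and
    ((eventually_all.2 fun p => sstep_ev (dg p _ hχ subset_rfl)).and
    (sstep_ev (du _ hχ subset_rfl)))))))).exists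
  refine ⟨2 * ((2 + (34 * n + 4) / κ) * E), fun ξ => ?_⟩
  refine fstep_sup (Y := fun ξ => ‖𝓕 (fun x => χ x * u x) ξ‖) (W := fun ξ => (1 + ‖ξ‖) ^ (s + 1))
    (fun _ => norm_nonneg _) (fstep_bdd _) (fun R hR S hS ξ => ?_) (fun _ => by positivity) ξ
  have w0 : ∀ ξ : V n, 0 ≤ min ((1 + ‖ξ‖) ^ (s + 1)) R := fun ξ => le_min (by positivity) hR
  have S0 : 0 ≤ S := (mul_nonneg (norm_nonneg _) (w0 0)).trans (hS 0)
  have w1 : min ((1 + ‖ξ‖) ^ (s + 1)) R ≤ (1 + ‖ξ‖) * (1 + ‖ξ‖) ^ s :=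
    (min_le_left _ _).trans (pow_succ' _ _).le
  have k0 : 0 ≤ (34 * n + 4) / κ * E := by positivity
  rcases le_total ‖ξ‖ 1 with hξ | hξ
  · have k1 : min ((1 + ‖ξ‖) ^ (s + 1)) R ≤ 2 * (1 + ‖ξ‖) ^ s :=
      w1.trans (mul_le_mul_of_nonneg_right (by linarith) (by positivity))
    have k2 := mul_le_mul_of_nonneg_left k1 (norm_nonneg (𝓕 (fun x => χ x * u x) ξ))
    have k3 := e6 ξ
    linarith
  have hP : ∀ p q, fstepP M (tsupport χ') (fun x => χ' x * (a p q x - a₀ p q)) (L * ε) :=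
    fun p q => l' _ _ ε0.le ((ha p q).sub contDiffOn_const) (ha' p q)
  have hi := hχ.integrable_mul hu
  have k1 := sstep_eq hχ ha hb hc hf hg hu hw ξ
  have k2 : ∀ p q, 𝓕 (fun x => χ x * a p q x * u x) ξ = a₀ p q * 𝓕 (fun x => χ x * u x) ξ +
      𝓕 (fun x => χ' x * (a p q x - a₀ p q) * (χ x * u x)) ξ := by
    intro p q
    rw [← fstep_lin hi (((hP p q).tst hχ').integrable_mul hi.integrableOn)]
    refine congrArg (fun f : V n → ℂ => 𝓕 f ξ) (funext fun x => ?_)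
    by_cases hx : x ∈ tsupport χ
    · rw [h1 x hx]
      ring
    · rw [image_eq_zero_of_notMem_tsupport hx]
      ring
  simp only [k2] at k1
  have k3 := fstep_alg (hs ξ) hξ (w0 ξ)
    (w1.trans (mul_le_mul_of_nonneg_right (by linarith) (by positivity)))
    (fun p q => hmul _ _ (fun ξ => min ((1 + ‖ξ‖) ^ (s + 1)) R) (L * ε) S ((hP p q).tst hχ')
      (hP p q).2.1 hi w0 (fun ξ η => by
        rw [mul_min_of_nonneg _ _ (by positivity)]
        exact min_le_min (fstep_wt ξ η _) (le_mul_of_one_le_left hR (fstep_one η _))) hS ξ)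
    E0 (fun p => e1 p ξ) (e2 ξ) (e3 ξ) (fun p => e4 p ξ) (fun p => e5 p ξ) k1
  have k4 := mul_le_mul_of_nonneg_right ε2 S0
  refine le_of_mul_le_mul_left ?_ hκ
  have k5 : κ * (S / 2 + (2 + (34 * n + 4) / κ) * E) =
      κ / 2 * S + 2 * (κ * E) + (34 * n + 4) * E := by
    field_simp
    ring
  have k6 : 0 ≤ κ * E := by positivity
  linarith

end Vale.Agent.P267I
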