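import Vale.Agent.P267I.TDefs
import Vale.Agent.P267I.Cl2

/-! The sum of the two index densities. -/

open scoped Manifold ContDiff Topology Kronecker
open Filter Matrix MeasureTheory Complex

noncomputable section

namespace Vale.Agent.P267I

open Vale.Agent.P267F

theorem st_cj_mul {N : ℕ} (A B : Mat N) : cj (A * B) = cj A * cj B := Matrix.map_mul

theorem st_cj_add {N : ℕ} (A B : Mat N) : cj (A + B) = cj A + cj B := by
  ext i j; simp [cj]

/-- The second Clifford family. -/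
def g16 (a : Fin 4) : Mat (4 * 4) := kr cl4.gam (cj (cl4.c a))

theorem isCl4 : IsCl cl4.c := cl4.rel

theorem isCl16 : IsCl cl16.c := cl16.rel

theorem g16_mul (a b : Fin 4) : g16 a * g16 b = kr 1 (cj (cl4.c a * cl4.c b)) := by
  rw [g16, g16, kr_mul, st_cj_mul]
  congr 1
  exact isCl4.gam_sq

theorem isCl_g16 : IsCl g16 := fun a b => by
  rw [g16_mul, g16_mul, ← kr_add_right, ← st_cj_add, cl4.rel]
  split_ifs
  · have : cj ((-2 : ℂ) • (1 : Mat 4)) = (-2 : ℂ) • (1 : Mat 4) := by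
      ext i j
      simp only [cj, map_apply, Matrix.smul_apply, one_apply, smul_eq_mul]
      split_ifs <;> simp [map_ofNat]
    rw [this, kr_smul_right, kr_one]
  · ext i j; simp [kr, cj]

theorem c16_g16 (a b : Fin 4) : cl16.c a * g16 b = -(g16 b * cl16.c a) := by
  change kr (cl4.c a) 1 * g16 b = -(g16 b * kr (cl4.c a) 1)
  rw [g16, kr_mul, kr_mul, one_mul, mul_one, ← kr_neg_left]
  congr 1
  exact isCl4.c_gam a

theorem spin_eq (w : Fin 4 → Fin 4 → ℝ) : spin w = sp cl4.c fun a b => (w a b : ℂ) := rfl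

theorem sp_c16 (w : Fin 4 → Fin 4 → ℝ) : (sp cl16.c fun a b => (w a b : ℂ)) = kr (spin w) 1 := by
  have e : ∀ a b, cl16.c a * cl16.c b = kr (cl4.c a * cl4.c b) 1 := fun a b => by
    change kr (cl4.c a) 1 * kr (cl4.c b) 1 = _
    rw [kr_mul, one_mul]
  simp only [sp, spin, e, Fin.sum_univ_four, kr_smul_left, kr_add_left]

theorem sp_g16 (w : Fin 4 → Fin 4 → ℝ) : (sp g16 fun a b => (w a b : ℂ)) = kr 1 (cj (spin w)) := by
  have e1 : ∀ (r : ℝ) (A : Mat 4), cj ((r : ℂ) • A) = (r : ℂ) • cj A := fun r A => by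
    ext i j; simp [cj]
  have e2 : ∀ A : Mat 4, cj ((1 / 4 : ℂ) • A) = (1 / 4 : ℂ) • cj A := fun A => by
    ext i j; simp [cj, map_ofNat]
  simp only [sp, spin, g16_mul, Fin.sum_univ_four, e1, e2, st_cj_add, kr_smul_right, kr_add_right]

theorem dn_eq {N : ℕ} (C : Cl N) (Om : Fin 4 → Fin 4 → Mat N) :
    dn C Om = (16 * Real.pi ^ 2 : ℂ)⁻¹ * densA C.c Om := rfl

theorem dens_alg {R : Fin 4 → Fin 4 → Fin 4 → Fin 4 → ℝ} (hR : Riem R) {F : Fin 4 → Fin 4 → ℂ}
    (hF : ∀ j k, F j k = -F k j) :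
    8 * dn cl4 (fun j k => spin (R j k) + F j k • 1) +
      dn cl16 (fun j k => kr (spin (R j k)) 1 + kr 1 (cj (spin (R j k)))) =
      ((Real.pi : ℂ) ^ 2)⁻¹ * wedge F F := by
  have h := dens_sum isCl4 (Fintype.card_fin 4) isCl16 isCl_g16 c16_g16 (Fintype.card_fin _) hR hF
    (Om₁ := fun j k => spin (R j k) + F j k • 1) (fun j k => rfl)
    (Om := fun j k => kr (spin (R j k)) 1 + kr 1 (cj (spin (R j k))))
    fun j k => by rw [sp_c16, sp_g16]
  have hp : (Real.pi : ℂ) ≠ 0 := ofReal_ne_zero.2 Real.pi_ne_zero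
  rw [dn_eq, dn_eq, mul_left_comm, ← mul_add, h, pf, wedge]
  field_simp
  ring

end Vale.Agent.P267I
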