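import Vale.Agent.P267I.Defs

/-! The divergence of an orthonormal frame. -/

open scoped Manifold ContDiff Topology
open Filter Matrix MeasureTheory

noncomputable section

namespace Vale.Agent.P267I

open Vale.Agent.P267F

/-- The coordinates as linear maps. -/
def Sy_co (i : Fin 4) : C2 →L[ℝ] ℝ :=
  ![Complex.reCLM.comp (ContinuousLinearMap.proj 0), Complex.imCLM.comp (ContinuousLinearMap.proj 0),
    Complex.reCLM.comp (ContinuousLinearMap.proj 1),
    Complex.imCLM.comp (ContinuousLinearMap.proj 1)] i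

theorem Sy_co_eq (v : C2) (i : Fin 4) : co v i = Sy_co i v := by
  fin_cases i <;> rfl

theorem Sy_sum (v : C2) : v = ∑ i, co v i • bs i := by
  funext j
  fin_cases j <;> apply Complex.ext <;> simp [Fin.sum_univ_four, co, bs]

theorem Sy_det {F : C2 → Matrix (Fin 4) (Fin 4) ℝ} {F' : Fin 4 → Fin 4 → C2 →L[ℝ] ℝ} {z : C2}
    (h : ∀ i j, HasFDerivAt (fun y => F y i j) (F' i j) z) :
    ∃ D : C2 →L[ℝ] ℝ, HasFDerivAt (fun y => (F y).det) D z ∧
      ∀ v, D v = ∑ j, ((F z).updateCol j fun i => F' i j v).det := by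
  simp only [det_apply']
  refine ⟨_, HasFDerivAt.fun_sum fun σ _ =>
    (HasFDerivAt.finset_prod (u := Finset.univ) fun j _ => h (σ j) j).const_mul _, fun v => ?_⟩
  simp only [ContinuousLinearMap.sum_apply, ContinuousLinearMap.smul_apply, smul_eq_mul]
  rw [Finset.sum_comm]
  refine Finset.sum_congr rfl fun σ _ => ?_
  rw [Finset.mul_sum]
  refine Finset.sum_congr rfl fun j _ => ?_
  rw [← Finset.mul_prod_erase _ _ (Finset.mem_univ j), updateCol_self, mul_comm (F' _ _ _)]
  congr 2
  exact Finset.prod_congr rfl fun k hk => (updateCol_ne (Finset.ne_of_mem_erase hk)).symm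

theorem Sy_div {e : Fin 4 → C2 → C2} {om : Fin 4 → Fin 4 → Fin 4 → ℝ} {z : C2}
    (he : ∀ a, DifferentiableAt ℝ (e a) z) (h0 : fdet (fun a => e a z) ≠ 0)
    (sk : ∀ k a, om k a a = 0)
    (tf : ∀ j k, fderiv ℝ (e k) z (e j z) - fderiv ℝ (e j) z (e k z) =
      ∑ b, (om j k b - om k j b) • e b z) (b : Fin 4) {h : C2 → ℂ} (hh : DifferentiableAt ℝ h z) :
    ∑ i, fderiv ℝ (fun y => ((fdet fun a => e a y)⁻¹ * co (e b y) i) • h y) z (bs i) =
      (fdet fun a => e a z)⁻¹ • (fderiv ℝ h z (e b z) + (∑ k, om k b k) • h z) := by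
  set E : C2 → Matrix (Fin 4) (Fin 4) ℝ := fun y => Matrix.of fun a i => co (e a y) i with hE
  have d1 : ∀ a i, HasFDerivAt (fun y => co (e a y) i) ((Sy_co i).comp (fderiv ℝ (e a) z)) z :=
    fun a i => by
      simp only [Sy_co_eq]
      exact (Sy_co i).hasFDerivAt.comp z (he a).hasFDerivAt
  obtain ⟨D, d2, d3⟩ := Sy_det (F := fun y => (E y)ᵀ) (z := z) fun i a => d1 a i
  simp only [det_transpose] at d2
  have u : IsUnit (E z).det := h0.isUnit
  set T := (E z)⁻¹
  have t1 : T * E z = 1 := nonsing_inv_mul _ u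
  have t2 : E z * T = 1 := mul_nonsing_inv _ u
  let m : Fin 4 → Fin 4 → Fin 4 → ℝ := fun j k =>
    (fun i => co (fderiv ℝ (e k) z (e j z)) i) ᵥ* T
  have m1 : ∀ j k i, co (fderiv ℝ (e k) z (e j z)) i = ∑ c, m j k c * E z c i := fun j k i => by
    have : m j k ᵥ* E z = fun i => co (fderiv ℝ (e k) z (e j z)) i := by
      simp only [m, vecMul_vecMul, t1, vecMul_one]
    exact (congrFun this i).symm
  have m2 : ∀ j k c, m j k c - m k j c = om j k c - om k j c := fun j k c => by
    have : (m j k - m k j) ᵥ* E z = (fun c => om j k c - om k j c) ᵥ* E z := by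
      funext i
      have := congrArg (Sy_co i) (tf j k)
      simp only [map_sub, map_sum, map_smul, ← Sy_co_eq, m1, smul_eq_mul] at this
      simp only [vecMul, dotProduct, Pi.sub_apply, sub_mul, Finset.sum_sub_distrib] at this ⊢
      exact this
    have := congrArg (· ᵥ* T) this
    simp only [vecMul_vecMul, t2, vecMul_one] at this
    exact congrFun this c
  have d4 : D (e b z) = (∑ a, m b a a) * (E z).det := by
    rw [d3, Finset.sum_mul]
    refine Finset.sum_congr rfl fun a _ => ?_
    have := det_updateCol_sum (E z)ᵀ a (m b a)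
    rw [det_transpose] at this
    simp only [ContinuousLinearMap.comp_apply, ← Sy_co_eq, m1]
    exact this
  have d5 : ∑ i, co (fderiv ℝ (e b) z (bs i)) i = ∑ a, m a b a := by
    have k : ∀ i, bs i = ∑ a, T i a • e a z := fun i => by
      have : ∀ a, e a z = ∑ j, E z a j • bs j := fun a => Sy_sum _
      simp only [this, Finset.smul_sum, smul_smul]
      rw [Finset.sum_comm]
      simp only [← Finset.sum_smul]
      have : ∀ j, ∑ a, T i a * E z a j = if i = j then 1 else 0 := fun j => by
        rw [← mul_apply, t1, one_apply]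
      simp [this]
    have : ∀ i, co (fderiv ℝ (e b) z (bs i)) i = ∑ a, ∑ c, m a b c * (E z c i * T i a) :=
      fun i => by
        rw [k i, Sy_co_eq]
        simp only [map_sum, map_smul, ← Sy_co_eq, m1, smul_eq_mul, Finset.mul_sum]
        exact Finset.sum_congr rfl fun a _ => Finset.sum_congr rfl fun c _ => by ring
    simp only [this]
    rw [Finset.sum_comm]
    refine Finset.sum_congr rfl fun a _ => ?_
    rw [Finset.sum_comm]
    simp only [← Finset.mul_sum]
    have : ∀ c, ∑ i, E z c i * T i a = if c = a then 1 else 0 := fun c => by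
      rw [← mul_apply, t2, one_apply]
    simp [this]
  have d6 : ∑ a, m a b a - ∑ a, m b a a = ∑ k, om k b k := by
    rw [← Finset.sum_sub_distrib]
    exact Finset.sum_congr rfl fun a _ => by rw [m2, sk, sub_zero]
  have h0' : (E z).det ≠ 0 := h0
  have d7 := fun i => ((((hasDerivAt_inv h0').comp_hasFDerivAt z d2).mul (d1 b i)).smul
    hh.hasFDerivAt).fderiv
  have d8 : ∀ i, fderiv ℝ (fun y => ((fdet fun a => e a y)⁻¹ * co (e b y) i) • h y) z (bs i) =
      (E z).det⁻¹ • fderiv ℝ h z (co (e b z) i • bs i) + ((E z).det⁻¹ *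
        co (fderiv ℝ (e b) z (bs i)) i - ((E z).det ^ 2)⁻¹ * D (co (e b z) i • bs i)) • h z :=
    fun i => by
      have := congrArg (fun L : C2 →L[ℝ] ℂ => L (bs i)) (d7 i)
      refine this.trans ?_
      simp only [ContinuousLinearMap.add_apply, ContinuousLinearMap.smul_apply,
        ContinuousLinearMap.smulRight_apply, ContinuousLinearMap.comp_apply, ← Sy_co_eq,
        Function.comp_apply, Pi.mul_apply, map_smul, smul_eq_mul, smul_smul]
      congr 2
      ring
  simp only [d8, Finset.sum_add_distrib, ← Finset.smul_sum, ← Finset.sum_smul, ← map_sum,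
    Finset.sum_sub_distrib, ← Finset.mul_sum, ← Sy_sum, d4, d5, ← d6]
  change _ = (E z).det⁻¹ • _
  rw [smul_add, smul_smul]
  congr 2
  field_simp

end Vale.Agent.P267I
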