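import Vale.Agent.P267I.SB

/-! The two Dirac systems. -/

open scoped Manifold ContDiff Topology Kronecker
open Filter Matrix MeasureTheory Complex

noncomputable section

namespace Vale.Agent.P267I

open Vale.Agent.P267F

variable {X : Type} [TopologicalSpace X] [ChartedSpace C2 X] [IsManifold 𝓘(ℂ, C2) ω X]
  [T2Space X] [CompactSpace X] [MeasurableSpace X] [BorelSpace X] {G : Met X}
  {u l w : X → X → ℂ} {θ : X → X → C2 →L[ℝ] ℂ} {p q x : X}

/-- The twisted Dolbeault system. -/
def Met.Ln.S4 (h : G.Ln u l) : Pre X 4 := G.pre cl4 (G.U4 u l) h.U_unit G.U4_gam h.U_sm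

/-- The signature system. -/
def Met.S16 (G : Met X) : Pre X (4 * 4) :=
  G.pre cl16 (fun p x => r16 (G.g0 p x)) G.U16_unit G.U16_gam G.U16_sm

end Vale.Agent.P267I
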