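import Vale.Agent.P267I.Defs

/-! The two Dirac systems: definitions. -/

open scoped Manifold ContDiff Topology Kronecker
open Filter Matrix MeasureTheory Complex

noncomputable section

namespace Vale.Agent.P267I

open Vale.Agent.P267F

/-- Exterior multiplication by `v` on the basis `1, e0, e1, e0 ∧ e1`. -/
def nv (v : C2) : Mat 4 := !![0, 0, 0, 0; v 0, 0, 0, 0; v 1, 0, 0, 0; 0, -v 1, v 0, 0]

/-- Clifford multiplication. -/
def cv (v : C2) : Mat 4 := nv v - (nv v)ᴴ

theorem cv_eq (v : C2) : cv v = !![0, -star (v 0), -star (v 1), 0; v 0, 0, 0, star (v 1);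
    v 1, 0, 0, -star (v 0); 0, -v 1, v 0, 0] := by
  ext i j
  fin_cases i <;> fin_cases j <;> simp [cv, nv]

theorem cv_rel (v w : C2) : cv v * cv w + cv w * cv v =
    (-(v 0 * star (w 0) + star (v 0) * w 0 + v 1 * star (w 1) + star (v 1) * w 1)) •
      (1 : Mat 4) := by
  rw [cv_eq, cv_eq]
  ext i j
  fin_cases i <;> fin_cases j <;> simp [Matrix.mul_apply, Fin.sum_univ_four] <;> ring

/-- The exterior algebra representation. -/
def r4 (g : Mat 2) : Mat 4 :=
  !![1, 0, 0, 0; 0, g 0 0, g 0 1, 0; 0, g 1 0, g 1 1, 0; 0, 0, 0, g.det]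

/-- Entrywise conjugation. -/
def cj {N : ℕ} (A : Mat N) : Mat N := A.map (starRingEnd ℂ)

/-- The Kronecker product: `kr A B` acts on a matrix `M` by `A * M * Bᵀ`. -/
def kr (A B : Mat 4) : Mat (4 * 4) := reindex finProdFinEquiv finProdFinEquiv (A ⊗ₖ B)

theorem kr_mul (A B A' B' : Mat 4) : kr A B * kr A' B' = kr (A * A') (B * B') := by
  simp [kr, mul_kronecker_mul]

theorem kr_one : kr 1 1 = 1 := by simp [kr]

theorem kr_add_left (A A' B : Mat 4) : kr (A + A') B = kr A B + kr A' B := by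
  ext i j; simp [kr, add_mul]

theorem kr_add_right (A B B' : Mat 4) : kr A (B + B') = kr A B + kr A B' := by
  ext i j; simp [kr, mul_add]

theorem kr_smul_left (c : ℂ) (A B : Mat 4) : kr (c • A) B = c • kr A B := by
  ext i j; simp [kr, mul_assoc]

theorem kr_smul_right (c : ℂ) (A B : Mat 4) : kr A (c • B) = c • kr A B := by
  ext i j; simp [kr, mul_left_comm]

theorem kr_neg_left (A B : Mat 4) : kr (-A) B = -kr A B := by
  ext i j; simp [kr]

theorem kr_ct (A B : Mat 4) : (kr A B)ᴴ = kr Aᴴ Bᴴ := by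
  ext i j; simp [kr]

/-- The Clifford module of forms of type `(0, *)`. -/
def cl4 : Cl 4 where
  c a := cv (bs a)
  skew a := by simp [cv]
  rel a b := by
    rw [cv_rel]
    fin_cases a <;> fin_cases b <;> simp [bs] <;> norm_num

/-- The Clifford module of all forms, as endomorphisms of the first one. -/
def cl16 : Cl (4 * 4) where
  c a := kr (cl4.c a) 1
  skew a := by rw [kr_ct, cl4.skew, kr_neg_left, conjTranspose_one]
  rel a b := by
    rw [kr_mul, kr_mul, one_mul, ← kr_add_left, cl4.rel]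
    split_ifs
    · rw [kr_smul_left, kr_one]
    · simp [kr]

/-- Exterior multiplication on all forms; the vacuum is the identity matrix. -/
def ext16 (v : C2) : Mat (4 * 4) :=
  (1 / 2 : ℂ) • (kr (cv v) 1 + kr cl4.gam (cl4.gam * cv v)ᵀ)

/-- The vacuum vector. -/
def vac16 : Vec (4 * 4) := fun i => (1 : Mat 4) (finProdFinEquiv.symm i).1 (finProdFinEquiv.symm i).2

/-- The action of a unitary matrix on all forms. -/
def r16 (g : Mat 2) : Mat (4 * 4) := kr (r4 g) (cj (r4 g))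

/-- The spin representation. -/
def spin (w : Fin 4 → Fin 4 → ℝ) : Mat 4 :=
  (1 / 4 : ℂ) • ∑ a, ∑ b, (w a b : ℂ) • (cl4.c a * cl4.c b)

variable {X : Type} [TopologicalSpace X] [ChartedSpace C2 X]

/-- The complex Jacobian matrix of the change from the chart at `q` to the chart at `p`. -/
def jac (p q x : X) : Mat 2 :=
  LinearMap.toMatrix' (fderiv ℂ (chartAt C2 p ∘ (chartAt C2 q).symm) (chartAt C2 q x)).toLinearMap

/-- Components in the frame `q` to components in the frame `p`. -/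
def gt0 (E : X → C2 → Mat 2) (p q x : X) : Mat 2 :=
  (E p (chartAt C2 p x))⁻¹ * jac p q x * E q (chartAt C2 q x)

variable [MeasurableSpace X]

variable (X) in
/-- Unitary frames of a Hermitian metric; the columns of `E p z` are the frame in the chart at
`p`. -/
structure Met where
  W : X → Set X
  W_open : ∀ p, IsOpen (W p)
  W_mem : ∀ p, p ∈ W p
  W_sub : ∀ p, W p ⊆ (chartAt C2 p).source
  E : X → C2 → Mat 2
  E_sm : ∀ p i j, ContDiffOn ℝ ∞ (fun z => E p z i j) (chartAt C2 p '' W p)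
  E_det : ∀ p, ∀ z ∈ chartAt C2 p '' W p, (E p z).det ≠ 0
  unit : ∀ p q, ∀ x ∈ W p ∩ W q, (gt0 E p q x)ᴴ * gt0 E p q x = 1
  g_sm : ∀ r p q i j, ContDiffOn ℝ ∞ (fun z => gt0 E p q ((chartAt C2 r).symm z) i j)
    (chartAt C2 r '' (W r ∩ W p ∩ W q))
  g_mul : ∀ p q r, ∀ x ∈ W p ∩ W q ∩ W r, gt0 E p q x * gt0 E q r x = gt0 E p r x
  e_pos : ∀ p, ∀ z ∈ chartAt C2 p '' W p, 0 < fdet fun a => E p z *ᵥ bs a
  μ : Measure X
  μ_eq : ∀ p, μ.restrict (W p) = Measure.map (chartAt C2 p).symm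
    ((volume.restrict (chartAt C2 p '' W p)).withDensity
      fun z => ENNReal.ofReal (fdet fun a => E p z *ᵥ bs a)⁻¹)

namespace Met

variable (G : Met X)

/-- The domain in the chart at `p`. -/
def V (p : X) : Set C2 := chartAt C2 p '' G.W p

/-- The transition matrices. -/
def g (p q x : X) : Mat 2 := gt0 G.E p q x

open Classical in
/-- The transition from the frame at `x` to the frame at `p`. -/
def g0 (p x : X) : Mat 2 := if x ∈ G.W p then G.g p x x else 1

/-- The real orthonormal frame. -/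
def e (p : X) (a : Fin 4) (z : C2) : C2 := G.E p z *ᵥ bs a

/-- Structure functions. -/
def sc (p : X) (j k b : Fin 4) (z : C2) : ℝ :=
  co ((G.E p z)⁻¹ *ᵥ (fderiv ℝ (G.e p k) z (G.e p j z) - fderiv ℝ (G.e p j) z (G.e p k z))) b

/-- The Levi-Civita connection. -/
def om (p : X) (k a b : Fin 4) (z : C2) : ℝ :=
  (G.sc p k a b z - G.sc p a b k z + G.sc p b k a z) / 2

/-- The spin connection. -/
def A0 (p : X) (k : Fin 4) (z : C2) : Mat 4 := spin fun a b => G.om p k a b z

/-- The connection on all forms. -/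
def A16 (p : X) (k : Fin 4) (z : C2) : Mat (4 * 4) := kr (G.A0 p k z) 1 + kr 1 (cj (G.A0 p k z))

/-- Unit frames `l p * u p` of the line bundle `u`. -/
structure Ln (u l : X → X → ℂ) : Prop where
  ne : ∀ p, ∀ x ∈ G.W p, l p x ≠ 0 ∧ u p x ≠ 0
  hol : ∀ p, ∀ x ∈ G.W p, HolAt (u p / u x) x
  sm : ∀ p, ∀ x ∈ G.W p, SmAt (l p) x
  nrm : ∀ p q, ∀ x ∈ G.W p ∩ G.W q, ‖l p x * u p x‖ = ‖l q x * u q x‖

open Classical in
/-- The unit scalar of the transition. -/
def lam (u l : X → X → ℂ) (p x : X) : ℂ :=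
  if x ∈ G.W p then l p x * u p x / (l x x * u x x) else 1

/-- The frames of the twisted Dolbeault system. -/
def U4 (u l : X → X → ℂ) (p x : X) : Mat 4 := G.lam u l p x • r4 (G.g0 p x)

/-- The determinant line bundle. -/
def dw (u l : X → X → ℂ) (p x : X) : ℂ := (G.U4 u l p x).det

/-- A unitary connection on the determinant line bundle `w`. -/
structure Cn (w : X → X → ℂ) (θ : X → X → C2 →L[ℝ] ℂ) : Prop where
  sm : ∀ p v, ContDiffOn ℝ ∞ (fun z => inChart (chartAt C2 p) (θ p) z v) (G.V p)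
  im : ∀ p, ∀ x ∈ G.W p, ∀ v, (θ p x v).re = 0
  law : ∀ p q, ∀ x ∈ G.W p ∩ G.W q, θ p x - θ q x = ((w p / w q) x)⁻¹ • dAt (w p / w q) x

/-- The connection of the twisted Dolbeault system. -/
def A4 (θ : X → X → C2 →L[ℝ] ℂ) (p : X) (k : Fin 4) (z : C2) : Mat 4 :=
  G.A0 p k z + (-(1 / 4) * inChart (chartAt C2 p) (θ p) z (G.e p k z)) • (1 : Mat 4)

/-- A system from frames. -/
def pre {N : ℕ} (C : Cl N) (U : X → X → Mat N) (h1 : ∀ p x, (U p x)ᴴ * U p x = 1)
    (h2 : ∀ p x, U p x * C.gam = C.gam * U p x)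
    (h3 : ∀ p q i j, ContDiffOn ℝ ∞
      (fun z => (U p ((chartAt C2 p).symm z) * (U q ((chartAt C2 p).symm z))ᴴ) i j)
      (chartAt C2 p '' (G.W p ∩ G.W q))) : Pre X N where
  toCl := C
  W := G.W
  W_open := G.W_open
  W_mem := G.W_mem
  W_sub := G.W_sub
  U := U
  U_unit := h1
  U_gam := h2
  U_sm := h3
  e := G.e
  e_sm p a := by
    refine contDiffOn_pi.2 fun i => ?_
    simp only [e, mulVec, dotProduct]
    exact ContDiffOn.sum fun j _ => (G.E_sm p i j).mul contDiffOn_const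
  e_pos := G.e_pos
  μ := G.μ
  μ_eq := G.μ_eq

end Met

/-- The real matrix of a complex matrix. -/
def Rr (g : Mat 2) (a b : Fin 4) : ℝ := co (g *ᵥ bs a) b

/-- The index density of a curvature. -/
def dn {N : ℕ} (C : Cl N) (Om : Fin 4 → Fin 4 → Mat N) : ℂ :=
  (16 * Real.pi ^ 2 : ℂ)⁻¹ * (C.gam * ((1 / 2 : ℂ) •
    (((1 / 2 : ℂ) • ∑ j, ∑ k, C.c j * C.c k * Om j k) *
      ((1 / 2 : ℂ) • ∑ j, ∑ k, C.c j * C.c k * Om j k)) +
    (1 / 12 : ℂ) • ∑ j, ∑ k, Om j k * Om j k)).trace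

/-- The Riemann tensor of a frame `e` with connection coefficients `om`. -/
def Rm4 (e : Fin 4 → C2 → C2) (om : Fin 4 → Fin 4 → Fin 4 → C2 → ℝ) (z : C2) (j k a c : Fin 4) :
    ℝ :=
  fderiv ℝ (om k a c) z (e j z) - fderiv ℝ (om j a c) z (e k z) +
    ∑ b, (om k a b z * om j b c z - om j a b z * om k b c z) -
    ∑ b, (om j k b z - om k j b z) * om b a c z

namespace Pre

variable {N : ℕ} (S : Pre X N)

/-- The transition from the frame `q` to the frame `p`, in the chart at `q`. -/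
def T (p q : X) (z : C2) : Mat N :=
  S.U p ((chartAt C2 q).symm z) * (S.U q ((chartAt C2 q).symm z))ᴴ

/-- Gauge covariance of the connection. -/
def Gauge (A : X → Fin 4 → C2 → Mat N) : Prop :=
  ∀ p q, ∀ x ∈ S.W p ∩ S.W q, ∃ R : Fin 4 → Fin 4 → ℝ,
    (∀ m n, ∑ k, R k m * R k n = if m = n then 1 else 0) ∧
    (∀ k, fderiv ℝ (chartAt C2 p ∘ (chartAt C2 q).symm) (chartAt C2 q x)
      (S.e q k (chartAt C2 q x)) = ∑ m, R k m • S.e p m (chartAt C2 p x)) ∧
    (∀ k, S.T p q (chartAt C2 q x) * S.c k =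
      (∑ m, (R k m : ℂ) • S.c m) * S.T p q (chartAt C2 q x)) ∧
    ∀ k, S.T p q (chartAt C2 q x) * A q k (chartAt C2 q x) =
      (∑ m, (R k m : ℂ) • A p m (chartAt C2 p x)) * S.T p q (chartAt C2 q x) +
        dM (S.T p q) (chartAt C2 q x) (S.e q k (chartAt C2 q x))

end Pre

end Vale.Agent.P267I
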