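import Vale.Agent.P267I.SA2

/-! The creation operators on the sixteen dimensional module.
Hints: c := cv v, g := kr γ (γ * c)ᵀ with γ = cl4.gam (gam4: diagonal ![-1,1,1,-1], γ γ = 1, γᴴ = γ,
c γ = -γ c by Cl.gam_c, cv_co). gᴴ = g, (kr c 1)ᴴ = -kr c 1; use kr_mul, kr_ct, kr_add_*,
transpose_mul, cl4.rel. kr A B *ᵥ vac16 = fun i => (A * Bᵀ) (fst i) (snd i). cj A = Aᴴᵀ.
r16 g = kr (r4 g) (cj (r4 g)): r4_cv, r4_gam, r4_ct, r4_mul; cj (r4 g) * Mᵀ = (M * (r4 g)ᴴ)ᵀ. -/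

open scoped Manifold ContDiff Topology Kronecker
open Filter Matrix MeasureTheory Complex

noncomputable section

namespace Vale.Agent.P267I

open Vale.Agent.P267F

theorem xa_gg : cl4.gam * cl4.gam = 1 := by
  rw [gam4]
  ext i j
  fin_cases i <;> fin_cases j <;> simp [Matrix.mul_apply, Fin.sum_univ_four]

theorem xa_gh : cl4.gamᴴ = cl4.gam := by
  rw [gam4]
  ext i j
  fin_cases i <;> fin_cases j <;> simp

/-- The second family of Clifford generators. -/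
def xa_g (a : Fin 4) : Mat (4 * 4) := kr cl4.gam (cl4.gam * cl4.c a)ᵀ

theorem xa_ext (a : Fin 4) : ext16 (bs a) = (1 / 2 : ℂ) • (cl16.c a + xa_g a) := rfl

theorem xa_g_ct (a : Fin 4) : (xa_g a)ᴴ = xa_g a := by
  have h : (cl4.gam * cl4.c a)ᴴ = cl4.gam * cl4.c a := by
    rw [conjTranspose_mul, cl4.skew, xa_gh, neg_mul, cl4.gam_c, neg_neg]
  have h2 : ∀ A : Mat 4, (Aᵀ)ᴴ = (Aᴴ)ᵀ := fun A => rfl
  rw [xa_g, kr_ct, xa_gh, h2, h]

theorem xa_ext_ct (a : Fin 4) : (ext16 (bs a))ᴴ = (1 / 2 : ℂ) • (xa_g a - cl16.c a) := by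
  rw [xa_ext, conjTranspose_smul, conjTranspose_add, xa_g_ct, cl16.skew, neg_add_eq_sub]
  congr 1
  simp

theorem xa_cg (a b : Fin 4) : cl16.c a * xa_g b + xa_g b * cl16.c a = 0 := by
  change kr (cl4.c a) 1 * xa_g b + xa_g b * kr (cl4.c a) 1 = 0
  rw [xa_g, kr_mul, kr_mul, one_mul, mul_one, cl4.gam_c, kr_neg_left, neg_add_cancel]

theorem xa_g2 (a b : Fin 4) :
    xa_g a * xa_g b + xa_g b * xa_g a = if a = b then (2 : ℂ) • (1 : Mat (4 * 4)) else 0 := by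
  have h : ∀ a b, cl4.gam * cl4.c a * (cl4.gam * cl4.c b) = -(cl4.c a * cl4.c b) := fun a b => by
    rw [mul_assoc, ← mul_assoc (cl4.c a), cl4.gam_c, neg_mul, mul_neg, ← mul_assoc, ← mul_assoc,
      xa_gg, one_mul]
  rw [xa_g, xa_g, kr_mul, kr_mul, xa_gg, ← kr_add_right, ← transpose_mul, ← transpose_mul,
    ← transpose_add, h, h, ← neg_add, add_comm, cl4.rel]
  split_ifs
  · rw [neg_smul, neg_neg, transpose_smul, transpose_one, kr_smul_right, kr_one]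
  · simp [kr]

theorem xa_xx (a b : Fin 4) : ext16 (bs a) * ext16 (bs b) + ext16 (bs b) * ext16 (bs a) = 0 := by
  have e : ext16 (bs a) * ext16 (bs b) + ext16 (bs b) * ext16 (bs a) = (1 / 4 : ℂ) •
      ((cl16.c a * cl16.c b + cl16.c b * cl16.c a) + (xa_g a * xa_g b + xa_g b * xa_g a) +
        (cl16.c a * xa_g b + xa_g b * cl16.c a) + (cl16.c b * xa_g a + xa_g a * cl16.c b)) := by
    simp only [xa_ext, smul_mul_assoc, mul_smul_comm, add_mul, mul_add]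
    module
  rw [e, xa_cg, xa_cg, xa_g2, cl16.rel]
  split_ifs
  · module
  · simp

theorem xa_car (a b : Fin 4) : ext16 (bs a) * (ext16 (bs b))ᴴ + (ext16 (bs b))ᴴ * ext16 (bs a) =
    if a = b then 1 else 0 := by
  have e : ext16 (bs a) * (ext16 (bs b))ᴴ + (ext16 (bs b))ᴴ * ext16 (bs a) = (1 / 4 : ℂ) •
      ((xa_g a * xa_g b + xa_g b * xa_g a) - (cl16.c a * cl16.c b + cl16.c b * cl16.c a) +
        (cl16.c a * xa_g b + xa_g b * cl16.c a) - (cl16.c b * xa_g a + xa_g a * cl16.c b)) := by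
    rw [xa_ext_ct]
    simp only [xa_ext, smul_mul_assoc, mul_smul_comm, add_mul, mul_add, sub_mul, mul_sub]
    module
  rw [e, xa_cg, xa_cg, xa_g2, cl16.rel]
  split_ifs
  · module
  · simp

theorem xa_vac (A B : Mat 4) : kr A B *ᵥ vac16 =
    fun i => (A * Bᵀ) (finProdFinEquiv.symm i).1 (finProdFinEquiv.symm i).2 := by
  funext i
  have h := Equiv.sum_comp (finProdFinEquiv (m := 4) (n := 4)).symm fun p : Fin 4 × Fin 4 =>
    A (finProdFinEquiv.symm i).1 p.1 * B (finProdFinEquiv.symm i).2 p.2 * (1 : Mat 4) p.1 p.2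
  refine Eq.trans h ?_
  rw [Fintype.sum_prod_type, Matrix.mul_apply]
  refine Finset.sum_congr rfl fun k _ => ?_
  simp [one_apply]

theorem xa_kill (a : Fin 4) : (ext16 (bs a))ᴴ *ᵥ vac16 = 0 := by
  have h : xa_g a *ᵥ vac16 = cl16.c a *ᵥ vac16 := by
    change _ = kr (cl4.c a) 1 *ᵥ vac16
    rw [xa_g, xa_vac, xa_vac, transpose_transpose, ← mul_assoc, xa_gg, one_mul, transpose_one,
      mul_one]
  rw [xa_ext_ct, smul_mulVec, sub_mulVec, h, sub_self, smul_zero]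

theorem xa_norm : star vac16 ⬝ᵥ vac16 = 4 := by
  have h := Equiv.sum_comp (finProdFinEquiv (m := 4) (n := 4)).symm fun p : Fin 4 × Fin 4 =>
    star ((1 : Mat 4) p.1 p.2) * (1 : Mat 4) p.1 p.2
  refine Eq.trans h ?_
  rw [Fintype.sum_prod_type]
  simp [one_apply]

theorem xa_c (a : Fin 4) : cl16.c a = ext16 (bs a) - (ext16 (bs a))ᴴ := by
  rw [xa_ext_ct, xa_ext]
  module

end Vale.Agent.P267I
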