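import Vale.Agent.P267I.SA2

/-! The creation operators and the structure group.
Hints: γ = cl4.gam; kr A B *ᵥ vac16 = fun i => (A * Bᵀ) (fst i) (snd i); cj A = Aᴴᵀ;
r16 g = kr (r4 g) (cj (r4 g)): r4_cv, r4_gam, r4_ct, r4_mul; cj (r4 g) * Mᵀ = (M * (r4 g)ᴴ)ᵀ and
γ c(v) (r4 g)ᴴ = (r4 g)ᴴ γ c(g v). cv_co gives ext16 v = ∑ co v b • ext16 (bs b). Rr g a b = co (g *ᵥ bs a) b.
spin_skew: cj (spin w) = -(spin w)ᵀ; spin_comm, spin_gam. -/

open scoped Manifold ContDiff Topology Kronecker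
open Filter Matrix MeasureTheory Complex

noncomputable section

namespace Vale.Agent.P267I

open Vale.Agent.P267F

theorem XB_neg (A B : Mat 4) : kr A (-B) = -kr A B := by
  ext i j; simp [kr]

theorem XB_cj (A : Mat 4) : cj A = Aᴴᵀ := by
  ext i j; simp [cj]

theorem XB_lin (c : Fin 4 → ℂ) : ∑ b, c b • ext16 (bs b) = (1 / 2 : ℂ) •
    (kr (∑ b, c b • cl4.c b) 1 + kr cl4.gam (cl4.gam * ∑ b, c b • cl4.c b)ᵀ) := by
  have e : ∀ b, cl4.c b = cv (bs b) := fun _ => rfl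
  simp only [Fin.sum_univ_four, ext16, mul_add, mul_smul_comm, transpose_add, transpose_smul,
    kr_add_left, kr_add_right, kr_smul_left, kr_smul_right, e]
  module

theorem XB_vac (A B : Mat 4) : kr A B *ᵥ vac16 =
    fun i => (A * Bᵀ) (finProdFinEquiv.symm i).1 (finProdFinEquiv.symm i).2 := by
  funext i
  refine (Equiv.sum_comp finProdFinEquiv.symm fun j : Fin 4 × Fin 4 =>
    (A ⊗ₖ B) (finProdFinEquiv.symm i) j * (1 : Mat 4) j.1 j.2).trans ?_
  simp only [Fintype.sum_prod_type, one_apply, mul_ite, mul_one, mul_zero, Finset.sum_ite_eq,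
    Finset.mem_univ, if_true, Matrix.mul_apply, transpose_apply, kroneckerMap_apply]

theorem xb_r {g : Mat 2} (hg : gᴴ * g = 1) (a : Fin 4) :
    r16 g * ext16 (bs a) = (∑ b, (Rr g a b : ℂ) • ext16 (bs b)) * r16 g := by
  have h1 : (r4 g)ᴴ * r4 g = 1 := by rw [r4_ct, r4_mul, hg, r4_one]
  have h2 : r4 g * (r4 g)ᴴ = 1 := mul_eq_one_comm.1 h1
  have h3 := r4_cv hg (bs a)
  have h4 : cv (bs a) * (r4 g)ᴴ = (r4 g)ᴴ * cv (g *ᵥ bs a) := by
    rw [← one_mul (cv (bs a)), ← h1, mul_assoc _ (r4 g), h3, mul_assoc, mul_assoc, h2, mul_one]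
  have h5 : cj (r4 g) * (cl4.gam * cv (bs a))ᵀ = (cl4.gam * cv (g *ᵥ bs a))ᵀ * cj (r4 g) := by
    rw [XB_cj, ← transpose_mul, ← transpose_mul, mul_assoc, h4, ← mul_assoc, ← mul_assoc, r4_ct,
      r4_gam]
  have h6 : ∑ b, (Rr g a b : ℂ) • cl4.c b = cv (g *ᵥ bs a) := (cv_co _).symm
  rw [XB_lin, h6, ext16, r16, mul_smul_comm, smul_mul_assoc, mul_add, add_mul, kr_mul, kr_mul,
    kr_mul, kr_mul, h3, h5, r4_gam, mul_one, one_mul]

theorem xb_r_vac {g : Mat 2} (hg : gᴴ * g = 1) : r16 g *ᵥ vac16 = vac16 := by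
  have h1 : (r4 g)ᴴ * r4 g = 1 := by rw [r4_ct, r4_mul, hg, r4_one]
  rw [r16, XB_vac, XB_cj, transpose_transpose, mul_eq_one_comm.1 h1]
  rfl

theorem xb_A {w : Fin 4 → Fin 4 → ℝ} (h : ∀ a b, w a b = -w b a) (a : Fin 4) :
    (kr (spin w) 1 + kr 1 (cj (spin w))) * ext16 (bs a) -
      ext16 (bs a) * (kr (spin w) 1 + kr 1 (cj (spin w))) = ∑ b, (w a b : ℂ) • ext16 (bs b) := by
  have e : cv (bs a) = cl4.c a := rfl
  have k : spin w * (cl4.gam * cl4.c a) = cl4.gam * (spin w * cl4.c a) := by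
    rw [← mul_assoc, spin_gam, mul_assoc]
  rw [XB_lin, ← spin_comm h a, XB_cj, spin_skew h, ext16, e]
  simp only [transpose_neg, mul_smul_comm, smul_mul_assoc, mul_add, add_mul, kr_mul, mul_one,
    one_mul, mul_neg, neg_mul, XB_neg, ← transpose_mul, k, spin_gam, sub_eq_add_neg, kr_add_left,
    kr_neg_left, transpose_add, kr_add_right, mul_assoc]
  module

theorem xb_A_vac {w : Fin 4 → Fin 4 → ℝ} (h : ∀ a b, w a b = -w b a) :
    (kr (spin w) 1 + kr 1 (cj (spin w))) *ᵥ vac16 = 0 := by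
  rw [add_mulVec, XB_vac, XB_vac, XB_cj, transpose_transpose, spin_skew h, transpose_one, mul_one,
    one_mul]
  funext i
  exact add_neg_cancel _

end Vale.Agent.P267I
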