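import Vale.Agent.P267I.XD

/-! Conjugation keeps the operator and the index.
Hints: with T s := fun x => W *ᵥ s x (inverse fun x => Wᴴ *ᵥ s x, W * Wᴴ = 1 by mul_eq_one_comm):
(S.cjg W hW).loc p s = fun z => Wᴴ *ᵥ S.loc p (T s) z; fderiv of y ↦ M *ᵥ f y is M *ᵥ fderiv f for
M invertible without any differentiability hypothesis (ContinuousLinearEquiv.comp_fderiv, or
split on DifferentiableAt). Ker is a span: Submodule.map_span + LinearEquiv.finrank_map_eq. -/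

open scoped Manifold ContDiff Topology Kronecker
open Filter Matrix MeasureTheory Complex

noncomputable section

namespace Vale.Agent.P267I

open Vale.Agent.P267F

variable {N : ℕ} {X : Type} [TopologicalSpace X] [ChartedSpace C2 X] [MeasurableSpace X]
  {S : Pre X N} {W : Mat N} {B : X → C2 → Mat N}

/-- A matrix as a real continuous linear map. -/
def xc_L (M : Mat N) : Vec N →L[ℝ] Vec N :=
  (LinearMap.toContinuousLinearMap (Matrix.toLin' M)).restrictScalars ℝ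

theorem xc_inv {M M' : Mat N} (h : M' * M = 1) (v : Vec N) : M' *ᵥ (M *ᵥ v) = v := by
  rw [mulVec_mulVec, h, one_mulVec]

theorem xc_df (M : Mat N) {f : C2 → Vec N} {z : C2} (h : DifferentiableAt ℝ f z) :
    DifferentiableAt ℝ (fun y => M *ᵥ f y) z :=
  (xc_L M).differentiableAt.comp z h

theorem xc_fd {M M' : Mat N} (h : M' * M = 1) (f : C2 → Vec N) (z v : C2) :
    fderiv ℝ (fun y => M *ᵥ f y) z v = M *ᵥ fderiv ℝ f z v := by
  by_cases hd : DifferentiableAt ℝ f z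
  · have h1 : HasFDerivAt (fun y => M *ᵥ f y) _ z := (xc_L M).hasFDerivAt.comp z hd.hasFDerivAt
    rw [h1.fderiv]
    rfl
  · have h1 : ¬ DifferentiableAt ℝ (fun y => M *ᵥ f y) z := fun h1 => hd (by
      simpa only [xc_inv h] using xc_df M' h1)
    rw [fderiv_zero_of_not_differentiableAt hd, fderiv_zero_of_not_differentiableAt h1]
    simp

theorem xc_mv (hW : Wᴴ * W = 1) (A : Mat N) (v : Vec N) :
    (Wᴴ * A * W) *ᵥ (Wᴴ *ᵥ v) = Wᴴ *ᵥ (A *ᵥ v) := by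
  rw [← mulVec_mulVec, xc_inv (mul_eq_one_comm.1 hW), ← mulVec_mulVec]

theorem xc_loc (hW : Wᴴ * W = 1) (p : X) (s : X → Vec N) :
    (S.cjg W hW).loc p s = fun z => Wᴴ *ᵥ S.loc p (fun x => W *ᵥ s x) z := by
  funext z
  simp only [Pre.loc, Pre.cjg, mulVec_mulVec, mul_assoc]

theorem xc_Dloc (hW : Wᴴ * W = 1) (p : X) (f : C2 → Vec N) (z : C2) :
    (S.cjg W hW).Dloc (fun p z => Wᴴ * B p z * W) p (fun y => Wᴴ *ᵥ f y) z =
      Wᴴ *ᵥ S.Dloc B p f z := by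
  simp only [Pre.Dloc, xc_fd (mul_eq_one_comm.1 hW), mulVec_add, mulVec_sum, ← xc_mv hW]
  rfl

theorem xc_dot (hW : Wᴴ * W = 1) (u v : Vec N) :
    star (W *ᵥ u) ⬝ᵥ (W *ᵥ v) = star u ⬝ᵥ v := by
  rw [star_mulVec, ← dotProduct_mulVec, xc_inv hW]

theorem xc_ip (hW : Wᴴ * W = 1) (s t : X → Vec N) :
    (S.cjg W hW).ip s t = S.ip (fun x => W *ᵥ s x) fun x => W *ᵥ t x := by
  simp only [Pre.ip, xc_dot hW]
  rfl

theorem cjg_sm (hW : Wᴴ * W = 1) (s : X → Vec N) :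
    (S.cjg W hW).Sm s ↔ S.Sm fun x => W *ᵥ s x := by
  refine forall_congr' fun p => ?_
  rw [xc_loc]
  refine ⟨fun h => ?_, fun h => (xc_L Wᴴ).contDiff.comp_contDiffOn h⟩
  have h1 : ContDiffOn ℝ ∞ (fun z => W *ᵥ (Wᴴ *ᵥ S.loc p (fun x => W *ᵥ s x) z)) (S.V p) :=
    (xc_L W).contDiff.comp_contDiffOn h
  simpa only [xc_inv (mul_eq_one_comm.1 hW)] using h1

theorem cjg_D (hW : Wᴴ * W = 1) (s : X → Vec N) (x : X) :
    (S.cjg W hW).D (fun p z => Wᴴ * B p z * W) s x = Wᴴ *ᵥ S.D B (fun y => W *ᵥ s y) x := by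
  rw [Pre.D, Pre.D, xc_loc, xc_Dloc, ← xc_mv hW, ← xd_ct]
  rfl

theorem cjg_op (hW : Wᴴ * W = 1) (h : S.IsOp B) :
    (S.cjg W hW).IsOp fun p z => Wᴴ * B p z * W := by
  have hW' : W * Wᴴ = 1 := mul_eq_one_comm.1 hW
  refine ⟨fun p i j => ?_, fun p z hz => ?_, fun p x hx s hs => ?_, fun s t hs ht => ?_⟩
  · simp only [mul_assoc Wᴴ]
    simp only [Matrix.mul_apply (M := Wᴴ), Matrix.mul_apply (N := W)]
    exact ContDiffOn.sum fun k _ => contDiffOn_const.mul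
      (ContDiffOn.sum fun l _ => (h.sm p k l).mul contDiffOn_const)
  · change _ * (S.toCl.cjg W hW).gam = -((S.toCl.cjg W hW).gam * _)
    rw [Cl.cjg_gam, xd_mul hW, xd_mul hW, h.odd p z hz, mul_neg, neg_mul]
  · rw [xc_loc] at hs
    have h1 := xc_df W hs
    simp only [xc_inv hW'] at h1
    rw [cjg_D, xc_loc, xc_Dloc, ← h.compat p x hx _ h1, ← xc_mv hW]
    rfl
  · rw [xc_ip, xc_ip]
    simp only [cjg_D, xc_inv hW']
    exact h.symm _ _ ((cjg_sm hW s).1 hs) ((cjg_sm hW t).1 ht)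

/-- The change of sections. -/
def xc_T (X : Type) (hW : Wᴴ * W = 1) : (X → Vec N) ≃ₗ[ℂ] (X → Vec N) where
  toFun s x := W *ᵥ s x
  invFun s x := Wᴴ *ᵥ s x
  map_add' s t := funext fun x => mulVec_add _ _ _
  map_smul' c s := funext fun x => mulVec_smul W c (s x)
  left_inv s := funext fun x => xc_inv hW _
  right_inv s := funext fun x => xc_inv (mul_eq_one_comm.1 hW) _

theorem xc_ker (hW : Wᴴ * W = 1) (ε : ℂ) :
    Module.finrank ℂ ((S.cjg W hW).Ker (fun p z => Wᴴ * B p z * W) ε) =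
      Module.finrank ℂ (S.Ker B ε) := by
  have hW' : W * Wᴴ = 1 := mul_eq_one_comm.1 hW
  rw [← LinearEquiv.finrank_map_eq (xc_T X hW).symm (S.Ker B ε), Pre.Ker, Pre.Ker, Submodule.map_span]
  have e : {s | (S.cjg W hW).Sm s ∧ (S.cjg W hW).D (fun p z => Wᴴ * B p z * W) s = 0 ∧
      ∀ x, (S.cjg W hW).gam *ᵥ s x = ε • s x} = ((xc_T X hW).symm : (X → Vec N) →ₗ[ℂ] _) ''
        {s | S.Sm s ∧ S.D B s = 0 ∧ ∀ x, S.gam *ᵥ s x = ε • s x} := by
    have hg : (S.cjg W hW).gam = Wᴴ * S.gam * W := Cl.cjg_gam S.toCl W hW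
    ext s
    constructor
    · rintro ⟨h1, h2, h3⟩
      refine ⟨fun x => W *ᵥ s x, ⟨(cjg_sm hW s).1 h1, funext fun x => ?_, fun x => ?_⟩,
        funext fun x => xc_inv hW _⟩
      · have h4 := congrArg (W *ᵥ ·) (congrFun h2 x)
        simpa only [cjg_D, xc_inv hW', Pi.zero_apply, mulVec_zero] using h4
      · have h4 := congrArg (W *ᵥ ·) (h3 x)
        simpa only [hg, ← mulVec_mulVec, xc_inv hW', mulVec_smul] using h4
    · rintro ⟨t, ⟨h1, h2, h3⟩, rfl⟩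
      have e1 : ((xc_T X hW).symm : (X → Vec N) →ₗ[ℂ] _) t = fun x => Wᴴ *ᵥ t x := rfl
      rw [e1]
      refine ⟨(cjg_sm hW _).2 (by simpa only [xc_inv hW'] using h1), funext fun x => ?_,
        fun x => ?_⟩
      · simp only [cjg_D, xc_inv hW', h2, Pi.zero_apply, mulVec_zero]
      · rw [hg, xc_mv hW, h3, mulVec_smul]
  rw [e]

theorem cjg_ind (hW : Wᴴ * W = 1) :
    (S.cjg W hW).ind (fun p z => Wᴴ * B p z * W) = S.ind B := by
  rw [Pre.ind, Pre.ind, xc_ker, xc_ker]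

end Vale.Agent.P267I
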