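import Vale.Agent.P267I.G0

/-! Conjugation of a Dirac system by a constant unitary matrix. FROZEN. -/

open scoped Manifold ContDiff Topology Kronecker
open Filter Matrix MeasureTheory Complex

noncomputable section

namespace Vale.Agent.P267I

open Vale.Agent.P267F

variable {N : ℕ}

theorem xd_mul {W : Mat N} (hW : Wᴴ * W = 1) (A B : Mat N) :
    (Wᴴ * A * W) * (Wᴴ * B * W) = Wᴴ * (A * B) * W := by
  have h : W * Wᴴ = 1 := mul_eq_one_comm.1 hW
  calc (Wᴴ * A * W) * (Wᴴ * B * W) = Wᴴ * A * (W * Wᴴ) * B * W := by simp only [mul_assoc]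
    _ = _ := by rw [h, mul_one, mul_assoc Wᴴ A B]

theorem xd_ct (W A : Mat N) : (Wᴴ * A * W)ᴴ = Wᴴ * Aᴴ * W := by
  simp [mul_assoc]

/-- The conjugated Clifford matrices. -/
def Cl.cjg (C : Cl N) (W : Mat N) (hW : Wᴴ * W = 1) : Cl N where
  c a := Wᴴ * C.c a * W
  skew a := by rw [xd_ct, C.skew]; simp
  rel a b := by
    rw [xd_mul hW, xd_mul hW, ← add_mul, ← mul_add, C.rel]
    split_ifs
    · simp [hW]
    · simp

theorem Cl.cjg_gam (C : Cl N) (W : Mat N) (hW : Wᴴ * W = 1) :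
    (C.cjg W hW).gam = Wᴴ * C.gam * W := by
  simp only [Cl.gam, Cl.cjg, xd_mul hW]

variable {X : Type} [TopologicalSpace X] [ChartedSpace C2 X] [MeasurableSpace X]

/-- The conjugated system; the section `s` corresponds to `x ↦ Wᴴ *ᵥ s x`. -/
def Pre.cjg (S : Pre X N) (W : Mat N) (hW : Wᴴ * W = 1) : Pre X N where
  toCl := S.toCl.cjg W hW
  W := S.W
  W_open := S.W_open
  W_mem := S.W_mem
  W_sub := S.W_sub
  U p x := Wᴴ * S.U p x * W
  U_unit p x := by rw [xd_ct, xd_mul hW, S.U_unit, mul_one, hW]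
  U_gam p x := by rw [Cl.cjg_gam, xd_mul hW, xd_mul hW, S.U_gam]
  U_sm p q i j := by
    simp only [xd_ct, xd_mul hW]
    simp only [mul_assoc Wᴴ]
    simp only [Matrix.mul_apply (M := Wᴴ), Matrix.mul_apply (N := W)]
    exact ContDiffOn.sum fun k _ => contDiffOn_const.mul
      (ContDiffOn.sum fun l _ => (S.U_sm p q k l).mul contDiffOn_const)
  e := S.e
  e_sm := S.e_sm
  e_pos := S.e_pos
  μ := S.μ
  μ_eq := S.μ_eq

end Vale.Agent.P267I
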