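import Vale.Agent.P267I.Sys
import Vale.Agent.P267I.G0
import Vale.Agent.P267I.SJ

/-! The frames and the change of charts. -/

open scoped Manifold ContDiff Topology Kronecker
open Filter Matrix MeasureTheory Complex

noncomputable section

namespace Vale.Agent.P267I

open Vale.Agent.P267F

variable {X : Type} [TopologicalSpace X] [ChartedSpace C2 X] [IsManifold 𝓘(ℂ, C2) ω X]
  [T2Space X] [CompactSpace X] [MeasurableSpace X] [BorelSpace X]

theorem xg_lin (A : Mat 2) (v : C2) (j : Fin 4) :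
    co (A *ᵥ v) j = ∑ a, co (A *ᵥ bs a) j * co v a := by
  fin_cases j <;>
    simp [co, bs, Matrix.mulVec, dotProduct, Fin.sum_univ_two, Fin.sum_univ_four] <;> ring

theorem xg_adj (g : Mat 2) (a b : Fin 4) : co (gᴴ *ᵥ bs b) a = Rr g a b := by
  fin_cases a <;> fin_cases b <;> simp [Rr, co, bs]

theorem xg_gself (M : Met X) (x : X) : M.g x x x = 1 := by
  have hx := M.W_mem x
  have h1 : (M.g x x x)ᴴ * M.g x x x = 1 := M.unit x x x ⟨hx, hx⟩
  have h2 : M.g x x x * M.g x x x = M.g x x x := M.g_mul x x x x ⟨⟨hx, hx⟩, hx⟩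
  calc M.g x x x = (M.g x x x)ᴴ * M.g x x x * M.g x x x := by rw [h1, one_mul]
    _ = 1 := by rw [mul_assoc, h2, h1]

theorem xg_self (M : Met X) (x : X) : M.g0 x x = 1 := by
  rw [Met.g0, if_pos (M.W_mem x), xg_gself]

theorem xg_frame (M : Met X) {p x : X} (hx : x ∈ M.W p) :
    (Matrix.of fun j a => ((co (M.e x a (chartAt C2 x x)) j : ℝ) : ℂ)) *
        (Matrix.of fun a b => ((Rr (M.g0 p x) a b : ℝ) : ℂ)) =
      G.jac p x * Matrix.of fun j a => ((co (M.e p a (chartAt C2 p x)) j : ℝ) : ℂ) := by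
  have h0 := M.W_mem x
  have e1 : M.g x p x = (M.g0 p x)ᴴ := by
    have := Met.g0_mul (G := M) (p := x) (q := p) ⟨h0, hx⟩
    rw [xg_self, one_mul] at this
    exact this.symm
  have e2 : M.E x (chartAt C2 x x) * (M.g0 p x)ᴴ = jac x p x * M.E p (chartAt C2 p x) := by
    rw [← e1, Met.g, gt0, ← mul_assoc, ← mul_assoc,
      mul_nonsing_inv _ (M.E_det x _ ⟨x, h0, rfl⟩).isUnit, one_mul]
  ext j b
  simp only [Matrix.mul_apply, Matrix.of_apply, G.jac, G.jm, Met.e,
    jac_real (M.W_sub x h0) (M.W_sub p hx), ← xg_adj]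
  norm_cast
  rw [← xg_lin, ← xg_lin, mulVec_mulVec, mulVec_mulVec, e2]

end Vale.Agent.P267I
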