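import Vale.Agent.P267I.XU

/-! Uniqueness of the Fock representation.
Hints: T0 := vecMulVec v (star E.vac), L a T := T + n a * T * (x a)ᴴ, W := L 0 (L 1 (L 2 (L 3 T0))).
K a T : T * x a = 0 ∧ (n a)ᴴ * T = 0 (T0 has all K a). I a T : n a * T = T * x a ∧
(n a)ᴴ * T = T * (x a)ᴴ. L a turns K a into I a; L b keeps K a and I a for b ≠ a (anticommutation,
also adjoints of h1 and E.xx). L b T *ᵥ vac = T *ᵥ vac, (L b T)ᴴ *ᵥ v = Tᴴ *ᵥ v. So W *ᵥ vac = v,
Wᴴ *ᵥ v = vac, Wᴴ * W commutes with x a (adjoint of the second half of I a); xu_uniq for Wᴴ * W - 1. -/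

open scoped Manifold ContDiff Topology Kronecker
open Filter Matrix MeasureTheory Complex

noncomputable section

namespace Vale.Agent.P267I

open Vale.Agent.P267F

theorem xw_keep {R : Type} [Ring R] {m y n x T : R} (hm : m * n + n * m = 0)
    (hy : y * x + x * y = 0) (h : m * T = T * y) :
    m * (T + n * T * x) = (T + n * T * x) * y := by
  linear_combination (norm := noncomm_ring) h + hm * (T * x) - n * h * x - n * T * hy

theorem xw_turn {R : Type} [Ring R] {n n' x x' T : R} (hn : n * n = 0) (hn' : n * n' + n' * n = 1)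
    (hx : x' * x' = 0) (hx' : x * x' + x' * x = 1) (h : 0 * T = T * x ∧ n' * T = T * 0) :
    n * (T + n * T * x') = (T + n * T * x') * x ∧ n' * (T + n * T * x') = (T + n * T * x') * x' := by
  obtain ⟨h1, h2⟩ := h
  constructor
  · linear_combination (norm := noncomm_ring) hn * (T * x') + h1 - n * T * hx' - n * h1 * x'
  · linear_combination (norm := noncomm_ring) h2 + hn' * (T * x') - n * h2 * x' - n * T * hx

theorem xw_sq {A : Mat 16} (h : A * A + A * A = 0) : A * A = 0 := by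
  rw [← two_smul ℂ] at h
  exact (smul_eq_zero.1 h).resolve_left two_ne_zero

theorem xw_exists (E : G.Ext) (n : Fin 4 → Mat 16) (v : Vec 16)
    (h1 : ∀ a b, n a * n b + n b * n a = 0)
    (h2 : ∀ a b, n a * (n b)ᴴ + (n b)ᴴ * n a = if a = b then 1 else 0)
    (h3 : ∀ a, (n a)ᴴ *ᵥ v = 0) (h4 : star v ⬝ᵥ v = 1) :
    ∃ W : Mat 16, Wᴴ * W = 1 ∧ (∀ a, Wᴴ * n a * W = E.x a) ∧ W *ᵥ E.vac = v := by
  have x1 : ∀ a b, (E.x a)ᴴ * (E.x b)ᴴ + (E.x b)ᴴ * (E.x a)ᴴ = 0 := fun a b => by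
    simpa only [conjTranspose_add, conjTranspose_mul, conjTranspose_zero] using
      congrArg conjTranspose (E.xx b a)
  let L : Fin 4 → Mat 16 → Mat 16 := fun a T => T + n a * T * (E.x a)ᴴ
  let K : Fin 4 → Mat 16 → Prop := fun a T => 0 * T = T * E.x a ∧ (n a)ᴴ * T = T * 0
  let I : Fin 4 → Mat 16 → Prop := fun a T => n a * T = T * E.x a ∧ (n a)ᴴ * T = T * (E.x a)ᴴ
  have n2 : ∀ a b, b ≠ a → (n a)ᴴ * n b + n b * (n a)ᴴ = 0 := fun a b h => by
    rw [add_comm, h2, if_neg h]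
  have x2 : ∀ a b, b ≠ a → E.x a * (E.x b)ᴴ + (E.x b)ᴴ * E.x a = 0 := fun a b h => by
    rw [E.car, if_neg h.symm]
  have kK : ∀ a b T, b ≠ a → K a T → K a (L b T) := fun a b T h hT =>
    ⟨xw_keep (by simp) (x2 a b h) hT.1, xw_keep (n2 a b h) (by simp) hT.2⟩
  have kI : ∀ a b T, b ≠ a → I a T → I a (L b T) := fun a b T h hT =>
    ⟨xw_keep (h1 a b) (x2 a b h) hT.1, xw_keep (n2 a b h) (x1 a b) hT.2⟩
  have tI : ∀ a T, K a T → I a (L a T) := fun a T hT =>
    xw_turn (xw_sq (h1 a a)) (by rw [h2, if_pos rfl]) (xw_sq (x1 a a))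
      (by rw [E.car, if_pos rfl]) hT
  have v1 : ∀ a T, L a T *ᵥ E.vac = T *ᵥ E.vac := fun a T => by
    simp only [L, add_mulVec, ← mulVec_mulVec, E.vac_kill, mulVec_zero, add_zero]
  have v2 : ∀ a T, (L a T)ᴴ *ᵥ v = Tᴴ *ᵥ v := fun a T => by
    simp only [L, conjTranspose_add, conjTranspose_mul, add_mulVec, ← mulVec_mulVec, h3,
      mulVec_zero, add_zero]
  have k0 : ∀ a, K a (vecMulVec v (star E.vac)) := fun a => by
    constructor
    · have := congrArg star (E.vac_kill a)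
      rw [star_mulVec, conjTranspose_conjTranspose, star_zero] at this
      rw [vecMulVec_mul, this, vecMulVec_zero, zero_mul]
    · rw [mul_vecMulVec, h3, zero_vecMulVec, mul_zero]
  obtain ⟨W, hI, w1, w2⟩ : ∃ W : Mat 16, (∀ a, I a W) ∧ W *ᵥ E.vac = v ∧ Wᴴ *ᵥ v = E.vac := by
    refine ⟨L 0 (L 1 (L 2 (L 3 (vecMulVec v (star E.vac))))), fun a => ?_, ?_, ?_⟩
    · fin_cases a
      · exact tI 0 _ (kK 0 1 _ (by decide) (kK 0 2 _ (by decide) (kK 0 3 _ (by decide) (k0 0))))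
      · exact kI 1 0 _ (by decide) (tI 1 _ (kK 1 2 _ (by decide) (kK 1 3 _ (by decide) (k0 1))))
      · exact kI 2 0 _ (by decide) (kI 2 1 _ (by decide) (tI 2 _ (kK 2 3 _ (by decide) (k0 2))))
      · exact kI 3 0 _ (by decide) (kI 3 1 _ (by decide) (kI 3 2 _ (by decide) (tI 3 _ (k0 3))))
    · rw [v1, v1, v1, v1, vecMulVec_mulVec, E.vac_one]
      simp
    · rw [v2, v2, v2, v2, conjTranspose_vecMulVec, star_star, vecMulVec_mulVec, h4]
      simp
  have h5 : ∀ a, Wᴴ * n a = E.x a * Wᴴ := fun a => by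
    simpa only [conjTranspose_mul, conjTranspose_conjTranspose] using
      congrArg conjTranspose (hI a).2
  have h6 : Wᴴ * W = 1 := by
    refine sub_eq_zero.1 (xu_uniq E E.x (fun a => ?_) ?_)
    · rw [sub_mul, mul_sub, mul_assoc, ← (hI a).1, ← mul_assoc, h5, mul_assoc, one_mul, mul_one]
    · rw [sub_mulVec, ← mulVec_mulVec, w1, w2, one_mulVec, sub_self]
  exact ⟨W, h6, fun a => by rw [h5, mul_assoc, h6, mul_one], w1⟩

end Vale.Agent.P267I
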