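import Vale.Agent.P267I.XA
import Vale.Agent.P267I.XB
import Vale.Agent.P267I.XC
import Vale.Agent.P267I.XG
import Vale.Agent.P267I.XW

/-! The signature system is the bundle of forms. -/

open scoped Manifold ContDiff Topology Kronecker
open Filter Matrix MeasureTheory Complex

noncomputable section

namespace Vale.Agent.P267I

open Vale.Agent.P267F

variable {X : Type} [TopologicalSpace X] [ChartedSpace C2 X] [IsManifold 𝓘(ℂ, C2) ω X]
  [T2Space X] [CompactSpace X] [MeasurableSpace X] [BorelSpace X]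

theorem xm_n {W : Mat 16} {n x : Fin 4 → Mat 16} (h : ∀ a, Wᴴ * n a * W = x a)
    (w : Fin 4 → ℂ) : Wᴴ * (∑ b, w b • n b) * W = ∑ b, w b • x b := by
  simp only [Finset.mul_sum, Finset.sum_mul, mul_smul_comm, smul_mul_assoc, h]

theorem xm_vac {W : Mat 16} {v : Vec 16} (hv : W *ᵥ v = (1 / 2 : ℂ) • vac16) (A : Mat 16) :
    (Wᴴ * A * W) *ᵥ v = (1 / 2 : ℂ) • Wᴴ *ᵥ (A *ᵥ vac16) := by
  rw [← mulVec_mulVec, ← mulVec_mulVec, hv, mulVec_smul, mulVec_smul]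

omit [IsManifold 𝓘(ℂ, C2) ω X] [T2Space X] [CompactSpace X] [BorelSpace X] in
theorem cjg_lc {N : ℕ} {S : Pre X N} {W : Mat N} (hW : Wᴴ * W = 1) {A : X → Fin 4 → C2 → Mat N}
    {om : X → Fin 4 → Fin 4 → Fin 4 → C2 → ℝ} (h : S.IsLC A om) :
    (S.cjg W hW).IsLC (fun p k z => Wᴴ * A p k z * W) om := by
  refine ⟨fun p k i j => ?_, fun p k z hz => ?_, h.om_sm, h.om_skew, fun p k a z hz => ?_, h.tf⟩
  · simp only [mul_assoc Wᴴ]
    simp only [Matrix.mul_apply (M := Wᴴ), Matrix.mul_apply (N := W)]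
    exact ContDiffOn.sum fun a _ => contDiffOn_const.mul
      (ContDiffOn.sum fun l _ => (h.A_sm p k a l).mul contDiffOn_const)
  · rw [xd_ct, h.A_skew p k z hz]
    simp
  · change _ * (Wᴴ * S.c a * W) - (Wᴴ * S.c a * W) * _ = ∑ b, _ • (Wᴴ * S.c b * W)
    rw [xd_mul hW, xd_mul hW, ← sub_mul, ← mul_sub, h.comm p k a z hz]
    simp only [Finset.mul_sum, Finset.sum_mul, mul_smul_comm, smul_mul_assoc]

omit [IsManifold 𝓘(ℂ, C2) ω X] [T2Space X] [CompactSpace X] [BorelSpace X] in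
theorem cjg_BofA {N : ℕ} {S : Pre X N} {W : Mat N} (hW : Wᴴ * W = 1)
    (A : X → Fin 4 → C2 → Mat N) : (S.cjg W hW).BofA (fun p k z => Wᴴ * A p k z * W) =
      fun p z => Wᴴ * S.BofA A p z * W := by
  funext p z
  rw [Pre.BofA, Pre.BofA, Finset.mul_sum, Finset.sum_mul]
  exact Finset.sum_congr rfl fun a _ => xd_mul hW _ _

theorem sig_bridge (E : G.Ext) (M : Met X) (hlc : M.S16.IsLC M.A16 M.om)
    (hop : M.S16.IsOp (M.S16.BofA M.A16)) :
    ∃ (S : Pre X 16) (A : X → Fin 4 → C2 → Mat 16), G.Sig E S (S.BofA A) ∧ S.IsLC A M.om ∧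
      (∀ p k l, ∀ z ∈ S.V p, E.pr l * A p k z = A p k z * E.pr l) ∧
      (∀ p k, ∀ z ∈ S.V p, A p k z *ᵥ E.vac = 0) ∧
      S.ind (S.BofA A) = M.S16.ind (M.S16.BofA M.A16) := by
  obtain ⟨W, hW, hn, hv⟩ := xw_exists E (fun a => ext16 (bs a)) ((1 / 2 : ℂ) • vac16) xa_xx xa_car
    (fun a => by rw [mulVec_smul, xa_kill, smul_zero])
    (by rw [star_smul, smul_dotProduct, dotProduct_smul, xa_norm]; norm_num)
  have hc : ∀ a, Wᴴ * cl16.c a * W = G.cc E a := fun a => by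
    rw [xa_c, mul_sub, sub_mul, ← xd_ct, hn a, G.cc]
  have hvac : (1 / 2 : ℂ) • Wᴴ *ᵥ vac16 = E.vac := by
    rw [← mulVec_smul, ← hv, mulVec_mulVec, hW, one_mulVec]
  have h0 : ∀ p k, ∀ z ∈ M.S16.V p, (Wᴴ * M.A16 p k z * W) *ᵥ E.vac = 0 := fun p k z hz => by
    have := xb_A_vac fun a b => hlc.om_skew p k a b z hz
    rw [xm_vac hv, show M.A16 p k z *ᵥ vac16 = 0 from this, mulVec_zero, smul_zero]
  have h1 : ∀ p k l, ∀ z ∈ M.S16.V p,
      (Wᴴ * M.A16 p k z * W) * E.pr l = E.pr l * (Wᴴ * M.A16 p k z * W) := fun p k l z hz => by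
    refine xu_pr E (fun a b => (M.om p k a b z : ℂ)) (fun a => ?_) (h0 p k z hz) l
    rw [← hn a, xd_mul hW, xd_mul hW, ← sub_mul, ← mul_sub, ← xm_n hn]
    exact congrArg (fun T => Wᴴ * T * W) (xb_A (fun a b => hlc.om_skew p k a b z hz) a)
  have hB := cjg_BofA (N := 16) (S := M.S16) hW M.A16
  refine ⟨Pre.cjg (N := 16) M.S16 W hW, fun p k z => Wᴴ * M.A16 p k z * W,
    ⟨funext hc, fun x => ?_, fun p x hx => ?_, hB ▸ cjg_op hW hop, fun p z hz => ?_⟩,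
    cjg_lc hW hlc, fun p k l z hz => (h1 p k l z hz).symm, h0, hB ▸ cjg_ind hW⟩
  · change Wᴴ * r16 (M.g0 x x) * W = 1
    rw [xg_self, r16, r4_one, cj_one, kr_one, mul_one, hW]
  · have hU : Wᴴ * r16 (M.g0 p x) * W =
        G.lam E (Matrix.of fun a b => ((Rr (M.g0 p x) a b : ℝ) : ℂ)) := by
      refine xu_lam E _ (fun b => ?_) ?_
      · rw [← hn b, xd_mul hW, xb_r (M.g0_unit p x), ← xd_mul hW, xm_n hn]
        rfl
      · rw [xm_vac hv, xb_r_vac (M.g0_unit p x), hvac]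
    change Wᴴ * r16 (M.g0 p x) * W * _ = _
    rw [hU, G.Gm, G.Gm, G.lam, G.lam, G.lam, G.lam, ← E.Lam_mul, ← E.Lam_mul, ← transpose_mul,
      ← transpose_mul]
    exact congrArg (fun J : G.M4 => E.Lam Jᵀ) (xg_frame M hx)
  · have hB' : (Pre.cjg (N := 16) M.S16 W hW).BofA (fun p k z => Wᴴ * M.A16 p k z * W) p z =
        ∑ a, G.cc E a * (Wᴴ * M.A16 p a z * W) :=
      Finset.sum_congr rfl fun a _ => by rw [← hc]; rfl
    rw [hB']
    exact xu_deg E fun k l => h1 p k l z hz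

end Vale.Agent.P267I
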