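import Vale.Agent.P267I.G0

/-! Uniqueness in the exterior algebra.
Hints: xu_uniq: Z = Z * ∑ pr k (pr_sum), Z * pr 0 = 0 (pr0, mul_vecMulVec), push Z through the x
in pr1 .. pr4. xu_lam: xu_uniq for U - Lam O (Lam_x, Lam_vac). xu_pr: NN := ∑ k, (k : ℂ) • pr k has
NN * x a = x a * NN + x a (pr_x0, pr_x, and x a * pr 4 = 0 from pr4 and x a * x a = 0, or from
x a = (∑ pr k) * x a = x a * (1 - pr 4)), NN *ᵥ vac = 0 (vac = pr 0 *ᵥ vac); Z := NN * A - A * NN has
Z * x a = x a * Z, Z *ᵥ vac = 0; so Z = 0, then (l - k) • (pr l * A * pr k) = 0.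
xu_deg: up (x a * A) = x a * A, dn (x a * A) = 0, up ((x a)ᴴ * A) = 0, dn ((x a)ᴴ * A) = (x a)ᴴ * A
(adjoint of pr_x with pr_star), up and dn are additive. -/

open scoped Manifold ContDiff Topology Kronecker
open Filter Matrix MeasureTheory Complex

noncomputable section

namespace Vale.Agent.P267I

open Vale.Agent.P267F

variable (E : G.Ext)

theorem xu_uniq {Z : Mat 16} (y : Fin 4 → Mat 16) (h : ∀ a, Z * E.x a = y a * Z)
    (hv : Z *ᵥ E.vac = 0) : Z = 0 := by
  have h0 : Z * E.pr 0 = 0 := by rw [E.pr0, mul_vecMulVec, hv, zero_vecMulVec]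
  have p : ∀ a (M : Mat 16), Z * (E.x a * M) = y a * (Z * M) := fun a M => by
    rw [← mul_assoc, h, mul_assoc]
  have q : ∀ M : Mat 16, Z * (E.pr 0 * M) = 0 := fun M => by rw [← mul_assoc, h0, zero_mul]
  have h1 : Z * E.pr 1 = 0 := by
    rw [E.pr1]
    simp only [Finset.mul_sum, mul_assoc, p, q, mul_zero, Finset.sum_const_zero]
  have h2 : Z * E.pr 2 = 0 := by
    rw [E.pr2]
    simp only [mul_smul_comm, Finset.mul_sum, mul_assoc, p, q, mul_zero, Finset.sum_const_zero,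
      smul_zero]
  have h3 : Z * E.pr 3 = 0 := by
    rw [E.pr3]
    simp only [mul_smul_comm, Finset.mul_sum, mul_assoc, p, q, mul_zero, Finset.sum_const_zero,
      smul_zero]
  have h4 : Z * E.pr 4 = 0 := by
    rw [E.pr4]
    simp only [mul_assoc, p, q, mul_zero]
  rw [← mul_one Z, ← E.pr_sum, Fin.sum_univ_five, mul_add, mul_add, mul_add, mul_add, h0, h1, h2,
    h3, h4]
  simp only [add_zero]

theorem xu_lam {U : Mat 16} (O : G.M4) (h : ∀ b, U * E.x b = (∑ a, O a b • E.x a) * U)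
    (hv : U *ᵥ E.vac = E.vac) : U = E.Lam O :=
  sub_eq_zero.1 (xu_uniq E (fun b => ∑ a, O a b • E.x a)
    (fun b => by rw [sub_mul, mul_sub, h, E.Lam_x]) (by rw [sub_mulVec, hv, E.Lam_vac, sub_self]))

theorem xu_sum (a : Fin 4) : ∑ k : Fin 4, E.x a * E.pr k.castSucc = E.x a := by
  conv_rhs => rw [← one_mul (E.x a), ← E.pr_sum, Fin.sum_univ_succ, add_mul, E.pr_x0, zero_add,
    Finset.sum_mul]
  simp only [E.pr_x]

theorem xu_last (a : Fin 4) : E.x a * E.pr (Fin.last 4) = 0 := by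
  have h := mul_one (E.x a)
  rw [← E.pr_sum, Fin.sum_univ_castSucc, mul_add, Finset.mul_sum, xu_sum] at h
  exact add_eq_left.1 h

theorem xu_z (a : Fin 4) (j l : Fin 5) (h : (j : ℕ) ≠ l + 1) : E.pr j * E.x a * E.pr l = 0 := by
  induction l using Fin.lastCases with
  | last => rw [mul_assoc, xu_last, mul_zero]
  | cast m =>
    rw [mul_assoc, ← E.pr_x, ← mul_assoc, E.pr_mul, if_neg, zero_mul]
    rintro rfl
    exact h rfl

/-- The number operator. -/
def xu_N : Mat 16 := ∑ k : Fin 5, ((k : ℕ) : ℂ) • E.pr k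

theorem xu_N_pr (k : Fin 5) : xu_N E * E.pr k = ((k : ℕ) : ℂ) • E.pr k := by
  simp [xu_N, Finset.sum_mul, E.pr_mul]

theorem xu_pr_N (k : Fin 5) : E.pr k * xu_N E = ((k : ℕ) : ℂ) • E.pr k := by
  simp [xu_N, Finset.mul_sum, E.pr_mul]

theorem xu_N_x (a : Fin 4) : xu_N E * E.x a = E.x a * xu_N E + E.x a := by
  conv_lhs => rw [← xu_sum E a]
  conv_rhs => rw [← xu_sum E a]
  rw [Finset.mul_sum, Finset.sum_mul, ← Finset.sum_add_distrib]
  refine Finset.sum_congr rfl fun k _ => ?_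
  rw [mul_assoc, xu_pr_N, mul_smul_comm, ← E.pr_x, ← mul_assoc, xu_N_pr, smul_mul_assoc,
    Fin.val_succ, Fin.val_castSucc, Nat.cast_succ, add_smul, one_smul]

theorem xu_pr {A : Mat 16} (w : Fin 4 → Fin 4 → ℂ)
    (h : ∀ a, A * E.x a - E.x a * A = ∑ b, w a b • E.x b) (hv : A *ᵥ E.vac = 0) (k : Fin 5) :
    A * E.pr k = E.pr k * A := by
  have h0 : E.pr 0 *ᵥ E.vac = E.vac := by
    rw [E.pr0, vecMulVec_mulVec, E.vac_one]
    simp
  have h1 : xu_N E *ᵥ E.vac = 0 := by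
    rw [← h0, mulVec_mulVec, xu_N_pr]
    simp
  have h2 : xu_N E * A - A * xu_N E = 0 := by
    refine xu_uniq E E.x (fun a => ?_) ?_
    · have e1 : xu_N E * (∑ b, w a b • E.x b) =
          (∑ b, w a b • E.x b) * xu_N E + ∑ b, w a b • E.x b := by
        simp only [Finset.mul_sum, Finset.sum_mul, mul_smul_comm, smul_mul_assoc, xu_N_x, smul_add,
          Finset.sum_add_distrib]
      rw [← h a] at e1
      have e2 := xu_N_x E a
      linear_combination (norm := noncomm_ring) e1 + e2 * A - A * e2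
    · rw [sub_mulVec, ← mulVec_mulVec, ← mulVec_mulVec, hv, h1, mulVec_zero, mulVec_zero, sub_self]
  have h3 : ∀ l m : Fin 5, l ≠ m → E.pr l * A * E.pr m = 0 := fun l m hlm => by
    have e : E.pr l * (xu_N E * A - A * xu_N E) * E.pr m =
        (((l : ℕ) : ℂ) - ((m : ℕ) : ℂ)) • (E.pr l * A * E.pr m) := by
      rw [mul_sub, sub_mul, ← mul_assoc, ← mul_assoc, xu_pr_N, mul_assoc _ (xu_N E), xu_N_pr,
        sub_smul, smul_mul_assoc, smul_mul_assoc, mul_smul_comm]
    rw [h2, mul_zero, zero_mul] at e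
    refine (smul_eq_zero.1 e.symm).resolve_left (sub_ne_zero.2 fun c => hlm ?_)
    exact Fin.ext (Nat.cast_injective c)
  have h4 : A * E.pr k = E.pr k * A * E.pr k := by
    conv_lhs => rw [← one_mul A, ← E.pr_sum, Finset.sum_mul, Finset.sum_mul]
    exact Finset.sum_eq_single k (fun l _ hl => h3 l k hl) fun c => absurd (Finset.mem_univ k) c
  have h5 : E.pr k * A = E.pr k * A * E.pr k := by
    conv_lhs => rw [← mul_one (E.pr k * A), ← E.pr_sum, Finset.mul_sum]
    exact Finset.sum_eq_single k (fun l _ hl => h3 k l hl.symm) fun c => absurd (Finset.mem_univ k) c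
  rw [h4, ← h5]

theorem xu_one (a : Fin 4) {A : Mat 16} (h : ∀ k, A * E.pr k = E.pr k * A) :
    G.up E (G.cc E a * A) + G.dn E (G.cc E a * A) = G.cc E a * A := by
  have e : ∀ (Y : Mat 16) (j l : Fin 5), E.pr j * (Y * A) * E.pr l = E.pr j * Y * E.pr l * A :=
    fun Y j l => by rw [mul_assoc, mul_assoc, h, mul_assoc, mul_assoc]
  have z : ∀ j l : Fin 5, (j : ℕ) ≠ l + 1 → E.pr l * (E.x a)ᴴ * E.pr j = 0 := fun j l hj => by
    have := congrArg conjTranspose (xu_z E a j l hj)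
    rwa [conjTranspose_mul, conjTranspose_mul, E.pr_star, E.pr_star, conjTranspose_zero,
      ← mul_assoc] at this
  have u : ∀ k : Fin 4, E.pr k.succ * E.x a * E.pr k.castSucc = E.x a * E.pr k.castSucc :=
    fun k => by rw [E.pr_x, mul_assoc, E.pr_mul, if_pos rfl]
  have d : ∀ k : Fin 4, E.pr k.castSucc * (E.x a)ᴴ * E.pr k.succ = (E.x a * E.pr k.castSucc)ᴴ :=
    fun k => by
      rw [← u, conjTranspose_mul, conjTranspose_mul, E.pr_star, E.pr_star, mul_assoc]
  have u0 : ∀ k : Fin 4, E.pr k.succ * (E.x a)ᴴ * E.pr k.castSucc = 0 := fun k =>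
    z _ _ (by rw [Fin.val_succ, Fin.val_castSucc]; omega)
  have d0 : ∀ k : Fin 4, E.pr k.castSucc * E.x a * E.pr k.succ = 0 := fun k =>
    xu_z E a _ _ (by rw [Fin.val_succ, Fin.val_castSucc]; omega)
  simp only [G.up, G.dn, e]
  simp only [G.cc, mul_sub, sub_mul, u, d, u0, d0, sub_zero, zero_sub,
    Finset.sum_neg_distrib, ← Finset.sum_mul, ← conjTranspose_sum, xu_sum]
  rw [neg_mul, ← sub_eq_add_neg]

theorem xu_deg {A : Fin 4 → Mat 16} (h : ∀ a k, A a * E.pr k = E.pr k * A a) :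
    ∑ a, G.cc E a * A a = G.up E (∑ a, G.cc E a * A a) + G.dn E (∑ a, G.cc E a * A a) := by
  have e1 : G.up E (∑ a, G.cc E a * A a) = ∑ a, G.up E (G.cc E a * A a) := by
    simp only [G.up, Finset.mul_sum, Finset.sum_mul]
    exact Finset.sum_comm
  have e2 : G.dn E (∑ a, G.cc E a * A a) = ∑ a, G.dn E (G.cc E a * A a) := by
    simp only [G.dn, Finset.mul_sum, Finset.sum_mul]
    exact Finset.sum_comm
  rw [e1, e2, ← Finset.sum_add_distrib]
  exact Finset.sum_congr rfl fun a _ => (xu_one E a (h a)).symm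

end Vale.Agent.P267I
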