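import Vale.Agent.P267I.YD

/-! The recursion for matrices. Hint: `ext`, `Tk_pk`, unfold `Ml`, `MM`, `Matrix.mul_apply`, `Matrix.sum_apply`. -/

open Matrix Finset MvPolynomial Filter Topology Metric
open scoped ContDiff

noncomputable section

namespace Vale.Agent.P267I.KA

open Vale.Agent.P267J

variable {N : ℕ} {B : Fin 4 → Fin 4 → Mat N} {γ E : Mat N} {o : Op N}

theorem PP_zero (o : Op N) : PP o 0 = 1 := by
  refine Matrix.ext fun i m => ?_
  rw [PP, Matrix.of_apply, pk, Matrix.one_apply]
  beta_reduce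
  rw [Pi.single_apply]
  split_ifs
  · exact map_one _
  · exact map_zero _

theorem PP_succ (o : Op N) (k : ℕ) :
    (PP o (k + 1)).map (Tk (k + 1)) = -∑ l ∈ range (k + 1), MM o l (PP o (k - l)) := by
  refine Matrix.ext fun i m => ?_
  rw [Matrix.map_apply, PP, Matrix.of_apply, Tk_pk, Matrix.neg_apply, Matrix.sum_apply]
  refine congrArg Neg.neg (sum_congr rfl fun l _ => ?_)
  unfold Ml MM
  split_ifs <;>
    simp only [Matrix.add_apply, Matrix.neg_apply, Matrix.sum_apply, Matrix.smul_apply,
      Matrix.map_apply, Matrix.mul_apply, Matrix.zero_apply, smul_eq_mul, PP, TB, TC,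
      Matrix.of_apply]

end Vale.Agent.P267I.KA
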