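import Vale.Agent.P267I.Y3

/-! Derivatives of matrices of polynomials. Hints: `ext`, `a_app`, `Derivation.leibniz`, `MvPolynomial.pderiv_X`, `MvPolynomial.pderiv_C`. -/

open Matrix Finset MvPolynomial Filter Topology Metric
open scoped ContDiff

noncomputable section

namespace Vale.Agent.P267I.KA

open Vale.Agent.P267J

variable {N : ℕ} {B : Fin 4 → Fin 4 → Mat N} {γ E : Mat N} {o : Op N}

theorem mp_add (f : Py →ₗ[ℂ] Py) (P Q : PM N) : (P + Q).map f = P.map f + Q.map f := by
  exact Matrix.ext fun i m => map_add f _ _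

theorem mp_neg (f : Py →ₗ[ℂ] Py) (P : PM N) : (-P).map f = -P.map f := by
  exact Matrix.ext fun i m => map_neg f _

theorem mp_sub (f : Py →ₗ[ℂ] Py) (P Q : PM N) : (P - Q).map f = P.map f - Q.map f := by
  exact Matrix.ext fun i m => map_sub f _ _

theorem mp_C (f : Py →ₗ[ℂ] Py) (a : ℂ) (P : PM N) : ((C a : Py) • P).map f = (C a : Py) • P.map f := by
  refine Matrix.ext fun i m => ?_
  simp only [Matrix.map_apply, Matrix.smul_apply, smul_eq_mul, C_mul', map_smul]

theorem mp_sum (f : Py →ₗ[ℂ] Py) {ι : Type} (s : Finset ι) (g : ι → PM N) :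
    (∑ i ∈ s, g i).map f = ∑ i ∈ s, (g i).map f := by
  refine Matrix.ext fun i m => ?_
  simp only [Matrix.map_apply, Matrix.sum_apply, map_sum]

theorem D_mul (j : Fin 4) (P Q : PM N) :
    (P * Q).map (pderiv j).toLinearMap =
      P.map (pderiv j).toLinearMap * Q + P * Q.map (pderiv j).toLinearMap := by
  refine Matrix.ext fun i m => ?_
  simp only [Matrix.map_apply, Matrix.add_apply, Matrix.mul_apply, map_sum, Derivation.coeFn_coe,
    pderiv_mul, sum_add_distrib]

theorem D_cm (j : Fin 4) (w : Mat N) : (cm w).map (pderiv j).toLinearMap = 0 := by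
  refine Matrix.ext fun i m => ?_
  simp only [Matrix.map_apply, cm, Derivation.coeFn_coe, pderiv_C, Matrix.zero_apply]

theorem y6_X (j k : Fin 4) (P : PM N) : ((X j : Py) • P).map (pderiv k).toLinearMap =
    (if j = k then (1 : Py) else 0) • P + (X j : Py) • P.map (pderiv k).toLinearMap := by
  refine Matrix.ext fun i m => ?_
  simp only [Matrix.map_apply, Matrix.add_apply, Matrix.smul_apply, smul_eq_mul,
    Derivation.coeFn_coe, pderiv_mul, pderiv_X, Pi.single_apply]

theorem y6_0 (f : Py →ₗ[ℂ] Py) : (0 : PM N).map f = 0 := Matrix.ext fun _ _ => map_zero f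

theorem D_bb (j k : Fin 4) : (bb B j).map (pderiv k).toLinearMap = cm (B j k) := by
  rw [bb, mp_sum]
  simp only [y6_X, D_cm, smul_zero, add_zero, ite_smul, one_smul, zero_smul, sum_ite_eq', mem_univ,
    if_true]

theorem D_bt (j k : Fin 4) : (bt B j).map (pderiv k).toLinearMap = cm (B k j) := by
  rw [bt, mp_sum]
  simp only [y6_X, D_cm, smul_zero, add_zero, ite_smul, one_smul, zero_smul, sum_ite_eq', mem_univ,
    if_true]

theorem D_sx (j : Fin 4) : (sx B).map (pderiv j).toLinearMap = bb B j + bt B j := by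
  rw [sx, mp_sum]
  simp only [y6_X, D_bb, sum_add_distrib, ite_smul, one_smul, zero_smul, sum_ite_eq', mem_univ,
    if_true, bt]

theorem sum_X_bt : ∑ j, (X j : Py) • bt B j = sx B := by
  simp only [sx, bb, bt, smul_sum, smul_smul]
  rw [sum_comm]
  simp only [mul_comm]

theorem mp_dl (j : Fin 4) (Q : PM N) :
    Q.map (dl j) = Q.map (pderiv j).toLinearMap - (C 2⁻¹ * X j : Py) • Q := by
  exact Matrix.ext fun i m => rfl

theorem mp_Tk (k : ℕ) (Q : PM N) : Q.map (Tk k) = (C ((k : ℂ) / 2) : Py) • Q +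
    (C 2⁻¹ : Py) • ∑ i, (X i : Py) • Q.map (pderiv i).toLinearMap -
      ∑ i, (Q.map (pderiv i).toLinearMap).map (pderiv i).toLinearMap := by
  refine Matrix.ext fun i m => ?_
  simp only [Matrix.map_apply, Matrix.add_apply, Matrix.sub_apply, Matrix.smul_apply,
    Matrix.sum_apply, smul_eq_mul, Derivation.coeFn_coe]
  rw [a_app, a_lap, C_mul' (a := (k : ℂ) / 2)]

theorem dl_cm (j : Fin 4) (w : Mat N) : (cm w).map (dl j) = -((C 2⁻¹ * X j : Py) • cm w) := by
  rw [mp_dl, D_cm, zero_sub]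

theorem dl_sx (j : Fin 4) :
    (sx B).map (dl j) = bb B j + bt B j - (C 2⁻¹ * X j : Py) • sx B := by
  rw [mp_dl, D_sx]

theorem Tk_cm (k : ℕ) (w : Mat N) : (cm w).map (Tk k) = (C ((k : ℂ) / 2) : Py) • cm w := by
  rw [mp_Tk]
  simp only [D_cm, y6_0, smul_zero, sum_const_zero, add_zero, sub_zero]

theorem T2_p : (cm E + (C 2⁻¹ : Py) • sx B).map (Tk 2) = cm E + sx B - cm (∑ j, B j j) := by
  have h2 : (C 2⁻¹ : Py) + C 2⁻¹ = 1 := by
    rw [← map_add, ← two_mul, mul_inv_cancel₀ two_ne_zero, map_one]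
  have h1 : (C (((2 : ℕ) : ℂ) / 2) : Py) = 1 := by
    rw [Nat.cast_ofNat, div_self two_ne_zero, map_one]
  have h3 : ∑ j, (X j : Py) • bb B j = sx B := rfl
  rw [mp_add, mp_C, Tk_cm, mp_Tk, h1, cm_sum]
  simp only [D_sx, mp_add, D_bb, D_bt, smul_add, sum_add_distrib, sum_X_bt, h3, one_smul]
  rw [← add_smul, h2, one_smul, smul_sub, smul_add, smul_add, ← add_smul, ← add_smul, h2, one_smul,
    one_smul, add_sub_assoc]

end Vale.Agent.P267I.KA
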