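import Vale.Agent.P267I.Y5
import Vale.Agent.P267I.Y6

/-! Two perturbation terms of weight four. For `MM1_two`: `Q = S - (cm E + sx/2)`, `TB o j 1 = S_j - 2 bb j` with `S`, `S_j` real scalars, `dl_cm`, `dl_sx`, `∑ X j • bb j = sx`, `TC o 0 = cm (E - ∑ B j j)`; products with `cm E` vanish by `SK.mulE`, `SK.Emul`. -/

open Matrix Finset MvPolynomial Filter Topology Metric
open scoped ContDiff

noncomputable section

namespace Vale.Agent.P267I.KA

open Vale.Agent.P267J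

variable {N : ℕ} {B : Fin 4 → Fin 4 → Mat N} {γ E : Mat N} {o : Op N}

theorem y10_a (h : NF B γ E o) {Q : PM N} (hQ : rq γ Q = 0) (l : ℕ) :
    rq γ (∑ j, ∑ k, tay (o.a j k) l • (Q.map (dl k)).map (dl j)) = 0 := by
  rw [rq_sum]
  refine Finset.sum_eq_zero fun j _ => ?_
  rw [rq_sum]
  refine Finset.sum_eq_zero fun k _ => ?_
  rw [rq_smul (h.a j k l), rq_dl, rq_dl, hQ, map_zero, map_zero, mul_zero]

theorem y10_h : Rl (C 2⁻¹) := Rl_C (by simp)

theorem y10_E (h : AF B γ E) : rq γ (cm E) = 0 := by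
  rw [rq_cm, h.Et]
  simp

theorem y10_two (j : Fin 4) : (C 2 : Py) • (cm E + (C 2⁻¹ : Py) • sx B).map (dl j) =
    -((X j : Py) • cm E) + (bb B j + bt B j - (C 2⁻¹ * X j : Py) • sx B) := by
  have hC : (C 2 : Py) * C 2⁻¹ = 1 := by
    rw [← C_mul, mul_inv_cancel₀ two_ne_zero, C_1]
  rw [mp_add, mp_C, dl_cm, dl_sx, smul_add, smul_neg, smul_smul, smul_smul, ← mul_assoc, hC,
    one_mul, one_smul]

theorem y10_b (h : NF B γ E o) {Q : PM N} (hQ : Sc (Q + (cm E + (C 2⁻¹ : Py) • sx B)))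
    (h0 : rq γ Q = 0) (j : Fin 4) : rq γ (TB o j 1 * Q.map (dl j)) =
      rq γ (bb B j * (bb B j + bt B j) - (C 2⁻¹ : Py) • (((X j : Py) • bb B j) * sx B)) := by
  have e : TB o j 1 * Q.map (dl j) = (TB o j 1 + (C 2 : Py) • bb B j) * Q.map (dl j) -
      (C 2 : Py) • (bb B j * (Q + (cm E + (C 2⁻¹ : Py) • sx B)).map (dl j)) +
      bb B j * ((C 2 : Py) • (cm E + (C 2⁻¹ : Py) • sx B).map (dl j)) := by
    rw [mp_add (dl j) Q]
    simp only [add_mul, mul_add, smul_mul_assoc, mul_smul_comm, smul_add]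
    abel
  have e2 : bb B j * (-((X j : Py) • cm E) + (bb B j + bt B j - (C 2⁻¹ * X j : Py) • sx B)) =
      bb B j * (bb B j + bt B j) - (C 2⁻¹ : Py) • (((X j : Py) • bb B j) * sx B) -
        ((X j : Py) • bb B j) * cm E := by
    simp only [mul_add, mul_sub, mul_neg, smul_mul_assoc, mul_smul_comm, smul_smul]
    abel
  rw [e, y10_two, e2, rq_add, rq_sub, rq_smul (Rl_C (by simp)),
    (h.b1 j).rq_mul (by rw [rq_dl, h0, map_zero]), (hQ.dl1 j).mul_rq ((SK_bb j).rq0 h.af),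
    rq_sub _ (_ * cm E), ((SK_bb j).smul (Rl_X j)).mulE h.af]
  ring

theorem MM3_one (h : NF B γ E o) : rq γ (MM o 3 1) = -rq γ (∑ j, bb B j * bb B j) := by
  have h1 : rq γ ((1 : PM N)) = 0 := Sc_one.rq0 h.af.g1
  have h2 := h.c2
  rw [rq_add] at h2
  unfold MM
  rw [if_neg (by norm_num), rq_add, rq_add, rq_neg, y10_a h h1, rq_sum,
    Finset.sum_eq_zero fun j _ => (Sc_one.dl1 j).mul_rq (h.b j 3), mul_one]
  linear_combination h2

theorem MM1_two (h : NF B γ E o) {Q : PM N} (hQ : Sc (Q + (cm E + (C 2⁻¹ : Py) • sx B))) :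
    rq γ (MM o 1 Q) = rq γ (∑ j, bb B j * (bb B j + bt B j) - (C 2⁻¹ : Py) • (sx B * sx B) -
      cm (E * E) + (C 2⁻¹ : Py) • (cm (∑ j, B j j) * sx B)) := by
  have h0 : rq γ Q = 0 := by
    have h1 := hQ.rq0 h.af.g1
    rwa [rq_add, rq_add, rq_smul y10_h, y10_E h.af, SK_sx.rq0 h.af, mul_zero, add_zero,
      add_zero] at h1
  have h1 : rq γ (cm E - cm (∑ j, B j j)) = 0 := by
    rw [rq_sub, y10_E h.af, SK_tB.rq0 h.af, sub_zero]
  have e : (cm E - cm (∑ j, B j j)) * Q =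
      (cm E - cm (∑ j, B j j)) * (Q + (cm E + (C 2⁻¹ : Py) • sx B)) + cm (∑ j, B j j) * cm E -
        cm E * ((C 2⁻¹ : Py) • sx B) +
        ((C 2⁻¹ : Py) • (cm (∑ j, B j j) * sx B) - cm E * cm E) := by
    simp only [mul_add, sub_mul, mul_smul_comm, smul_sub]
    abel
  have h2 : rq γ (TC o 0 * Q) =
      rq γ ((C 2⁻¹ : Py) • (cm (∑ j, B j j) * sx B)) - rq γ (cm (E * E)) := by
    rw [h.c0, cm_sub, e, rq_add, rq_sub, rq_add, hQ.mul_rq h1, SK_tB.mulE h.af,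
      (SK_sx.smul y10_h).Emul h.af, rq_sub, cm_mul]
    ring
  have h3 : rq γ (∑ j, TB o j 1 * Q.map (dl j)) =
      rq γ (∑ j, bb B j * (bb B j + bt B j) - (C 2⁻¹ : Py) • (sx B * sx B)) := by
    rw [rq_sum, Finset.sum_congr rfl fun j _ => y10_b h hQ h0 j, ← rq_sum, Finset.sum_sub_distrib,
      ← Finset.smul_sum, ← Finset.sum_mul]
    rfl
  unfold MM
  rw [if_neg (by norm_num), rq_add, rq_add, rq_neg, y10_a h h0, h3, Nat.sub_self, h2,
    rq_add (_ - cm (E * E)), rq_sub _ (cm (E * E))]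
  ring

end Vale.Agent.P267I.KA
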