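import Vale.Agent.P267I.Y4

/-! Real combinations of the `B j k`. Hint for `SK.comm`: expand both sums, `rq_smul`, `cm_mul`, `rq_cm`, and `tr γ (a * b) = tr γ (b * a)` for skew `a`, `b` because `tr γ wᴴ = tr γ w` (`trace_conjTranspose`, `trace_mul_comm`). -/

open Matrix Finset MvPolynomial Filter Topology Metric
open scoped ContDiff

noncomputable section

namespace Vale.Agent.P267I.KA

open Vale.Agent.P267J

variable {N : ℕ} {B : Fin 4 → Fin 4 → Mat N} {γ E : Mat N} {o : Op N}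

theorem tr_star (h : γᴴ = γ) (w : Mat N) : tr γ wᴴ = tr γ w := by
  unfold tr
  have : γ * wᴴ = (w * γ)ᴴ := by rw [conjTranspose_mul, h]
  rw [this, trace_conjTranspose, trace_mul_comm]
  simp

theorem SK.add {U W : PM N} (hU : SK B U) (hW : SK B W) : SK B (U + W) := by
  obtain ⟨q, hq, rfl⟩ := hU
  obtain ⟨p, hp, rfl⟩ := hW
  exact ⟨fun j k => q j k + p j k, fun j k => (hq j k).add (hp j k), by
    simp only [add_smul, sum_add_distrib]⟩

theorem SK.neg {U : PM N} (hU : SK B U) : SK B (-U) := by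
  obtain ⟨q, hq, rfl⟩ := hU
  exact ⟨fun j k => -q j k, fun j k => (hq j k).neg, by simp only [neg_smul, sum_neg_distrib]⟩

theorem SK.sub {U W : PM N} (hU : SK B U) (hW : SK B W) : SK B (U - W) := by
  rw [sub_eq_add_neg]; exact hU.add hW.neg

theorem SK.smul {U : PM N} (hU : SK B U) {s : Py} (hs : Rl s) : SK B (s • U) := by
  obtain ⟨q, hq, rfl⟩ := hU
  exact ⟨fun j k => s * q j k, fun j k => hs.mul (hq j k), by simp only [smul_sum, smul_smul]⟩

theorem SK_bb (j : Fin 4) : SK B (bb B j) := by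
  refine ⟨fun a k => if a = j then X k else 0, fun a k => ?_, ?_⟩
  · dsimp only; split_ifs
    exacts [Rl_X k, Rl_zero]
  · rw [sum_eq_single j (fun a _ h => by simp [h]) (by simp)]
    simp [bb]

theorem SK_bt (j : Fin 4) : SK B (bt B j) := by
  refine ⟨fun a k => if k = j then X a else 0, fun a k => ?_, ?_⟩
  · dsimp only; split_ifs
    exacts [Rl_X a, Rl_zero]
  · simp [bt, ite_smul]

theorem SK_sx : SK B (sx B) := by
  exact ⟨fun j k => X j * X k, fun j k => (Rl_X j).mul (Rl_X k), by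
    simp only [sx, bb, smul_sum, smul_smul]⟩

theorem SK_tB : SK B (cm (∑ j, B j j)) := by
  refine ⟨fun a k => if k = a then 1 else 0, fun a k => ?_, ?_⟩
  · dsimp only; split_ifs
    exacts [Rl_one, Rl_zero]
  · simp [cm_sum, ite_smul]

theorem SK.rq0 (h : AF B γ E) {U : PM N} (hU : SK B U) : rq γ U = 0 := by
  obtain ⟨q, hq, rfl⟩ := hU
  rw [rq_sum]
  refine sum_eq_zero fun j _ => ?_
  rw [rq_sum]
  refine sum_eq_zero fun k _ => ?_
  rw [rq_smul (hq j k), rq_cm, h.Bt]; simp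

theorem SK.comm (h : AF B γ E) {U W : PM N} (hU : SK B U) (hW : SK B W) :
    rq γ (U * W) = rq γ (W * U) := by
  obtain ⟨q, hq, rfl⟩ := hU
  obtain ⟨p, hp, rfl⟩ := hW
  have key : ∀ j k a b, rq γ ((q j k • cm (B j k)) * (p a b • cm (B a b))) =
      rq γ ((p a b • cm (B a b)) * (q j k • cm (B j k))) := fun j k a b => by
    rw [Matrix.smul_mul, Matrix.mul_smul, Matrix.smul_mul, Matrix.mul_smul, rq_smul (hq j k),
      rq_smul (hp a b), rq_smul (hp a b), rq_smul (hq j k), ← cm_mul, ← cm_mul, rq_cm, rq_cm,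
      ← tr_star h.gH (B j k * B a b), conjTranspose_mul, h.BH, h.BH, neg_mul_neg]
    ring
  have e1 : rq γ ((∑ j, ∑ k, q j k • cm (B j k)) * ∑ a, ∑ b, p a b • cm (B a b)) =
      ∑ j, ∑ k, ∑ a, ∑ b, rq γ ((q j k • cm (B j k)) * (p a b • cm (B a b))) := by
    simp only [Finset.sum_mul, rq_sum]
    simp only [Finset.mul_sum, rq_sum]
  have e2 : rq γ ((∑ a, ∑ b, p a b • cm (B a b)) * ∑ j, ∑ k, q j k • cm (B j k)) =
      ∑ j, ∑ k, ∑ a, ∑ b, rq γ ((p a b • cm (B a b)) * (q j k • cm (B j k))) := by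
    simp only [Finset.mul_sum, rq_sum]
    simp only [Finset.sum_mul, rq_sum]
  rw [e1, e2]
  simp only [key]

theorem SK.mulE (h : AF B γ E) {U : PM N} (hU : SK B U) : rq γ (U * cm E) = 0 := by
  obtain ⟨q, hq, rfl⟩ := hU
  simp only [Finset.sum_mul, rq_sum]
  refine sum_eq_zero fun j _ => sum_eq_zero fun k _ => ?_
  rw [Matrix.smul_mul, rq_smul (hq j k), ← cm_mul, rq_cm, h.BE]; simp

theorem SK.Emul (h : AF B γ E) {U : PM N} (hU : SK B U) : rq γ (cm E * U) = 0 := by
  obtain ⟨q, hq, rfl⟩ := hU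
  simp only [Finset.mul_sum, rq_sum]
  refine sum_eq_zero fun j _ => sum_eq_zero fun k _ => ?_
  rw [Matrix.mul_smul, rq_smul (hq j k), ← cm_mul, rq_cm, h.EB]; simp

end Vale.Agent.P267I.KA
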