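import Vale.Agent.P267I.Y1
import Vale.Agent.P267I.Y5
import Vale.Agent.P267I.Y6

/-! The terms of weight one to three. Hints: `PP_succ`, `Sc.of_Tk`, `rq_of_Tk`, `T2_p`; `dl_cm` with `cm_one`; write `TB o j 1 = (TB o j 1 + C 2 • bb B j) - C 2 • bb B j`. -/

open Matrix Finset MvPolynomial Filter Topology Metric
open scoped ContDiff

noncomputable section

namespace Vale.Agent.P267I.KA

open Vale.Agent.P267J

variable {N : ℕ} {B : Fin 4 → Fin 4 → Mat N} {γ E : Mat N} {o : Op N}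

theorem y9_a (h : NF B γ E o) (l : ℕ) {Q : PM N} (hQ : Sc Q) :
    Sc (-(∑ j, ∑ k, tay (o.a j k) (l + 1) • (Q.map (dl k)).map (dl j))) :=
  (Sc_sum _ _ fun j _ => Sc_sum _ _ fun k _ => ((hQ.dl1 k).dl1 j).smul (h.a j k _)).neg

theorem y9_E (h : NF B γ E o) : rq γ (cm E) = 0 := by
  rw [rq_cm, h.af.Et]; simp

theorem y9_r (h : NF B γ E o) (l : ℕ) {Q : PM N} (hQ : Sc Q) (hc : rq γ (TC o l) = 0) :
    rq γ (MM o (l + 1) Q) = 0 := by
  rw [MM, if_neg (Nat.succ_ne_zero l), rq_add, rq_add, (y9_a h _ hQ).rq0 h.af.g1, rq_sum,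
    Finset.sum_eq_zero fun j _ => (hQ.dl1 j).mul_rq (h.b j _), Nat.add_sub_cancel, hQ.mul_rq hc]
  simp

theorem MM0_Sc (h : NF B γ E o) {Q : PM N} (hQ : Sc Q) : Sc (MM o 0 Q) := by
  rw [MM, if_pos rfl, add_zero]
  exact (y9_a h 0 hQ).add (Sc_sum _ _ fun j _ => (h.b0 j).mul (hQ.dl1 j))

theorem MM0_rq (h : NF B γ E o) {Q : PM N} (hQ : rq γ Q = 0) : rq γ (MM o 0 Q) = 0 := by
  have h1 : ∀ j, rq γ (Q.map (dl j)) = 0 := fun j => by rw [rq_dl, hQ, map_zero]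
  rw [MM, if_pos rfl, add_zero, rq_add, rq_neg, rq_sum, rq_sum,
    Finset.sum_eq_zero fun j _ => (h.b0 j).rq_mul (h1 j), Finset.sum_eq_zero fun j _ => ?_]
  · simp
  · rw [rq_sum]
    exact Finset.sum_eq_zero fun k _ => by rw [rq_smul (h.a j k _), rq_dl, h1, map_zero, mul_zero]

theorem MM1_rq (h : NF B γ E o) {Q : PM N} (hQ : Sc Q) : rq γ (MM o 1 Q) = 0 :=
  y9_r h 0 hQ (by rw [h.c0, cm_sub, rq_sub, y9_E h, SK.rq0 h.af SK_tB, sub_zero])

theorem MM2_rq (h : NF B γ E o) {Q : PM N} (hQ : Sc Q) : rq γ (MM o 2 Q) = 0 :=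
  y9_r h 1 hQ h.c1

theorem MM1_one (h : NF B γ E o) : Sc (MM o 1 1 - (cm E + sx B - cm (∑ j, B j j))) := by
  have h2 : (C 2 : Py) * C 2⁻¹ = 1 := by rw [← map_mul]; simp
  have e : ∀ j, TB o j 1 * (1 : PM N).map (dl j) =
      (TB o j 1 + (C 2 : Py) • bb B j) * (1 : PM N).map (dl j) + (X j : Py) • bb B j := fun j => by
    have e1 : (1 : PM N).map (dl j) = -((C 2⁻¹ * X j : Py) • 1) := by
      have := dl_cm j (1 : Mat N)
      rwa [cm_one] at this
    rw [Matrix.add_mul, e1, Matrix.smul_mul, Matrix.mul_neg (bb B j), Matrix.mul_smul, Matrix.mul_one,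
      smul_neg, smul_smul, ← mul_assoc, h2, one_mul]
    abel
  have e2 : MM o 1 1 - (cm E + sx B - cm (∑ j, B j j)) =
      -(∑ j, ∑ k, tay (o.a j k) (1 + 1) • ((1 : PM N).map (dl k)).map (dl j)) +
        ∑ j, (TB o j 1 + (C 2 : Py) • bb B j) * (1 : PM N).map (dl j) := by
    rw [MM, if_neg one_ne_zero, Nat.sub_self, h.c0, cm_sub, Matrix.mul_one, Finset.sum_congr rfl fun j _ => e j,
      Finset.sum_add_distrib, sx]
    abel
  rw [e2]
  exact (y9_a h 1 Sc_one).add (Sc_sum _ _ fun j _ => (h.b1 j).mul (Sc_one.dl1 j))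

theorem p1_of (h : NF B γ E o) : Sc (PP o 1) := by
  refine Sc.of_Tk one_pos ?_
  have := PP_succ o 0
  rw [zero_add, Finset.sum_range_one, PP_zero] at this
  rw [this]
  exact (MM0_Sc h Sc_one).neg

theorem p2_of (h : NF B γ E o) : Sc (PP o 2 + (cm E + (C 2⁻¹ : Py) • sx B)) := by
  refine Sc.of_Tk two_pos ?_
  have := PP_succ o 1
  rw [Finset.sum_range_succ, Finset.sum_range_one, Nat.sub_self, PP_zero] at this
  have e : (PP o 2 + (cm E + (C 2⁻¹ : Py) • sx B)).map (Tk 2) =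
      -MM o 0 (PP o 1) - (MM o 1 1 - (cm E + sx B - cm (∑ j, B j j))) := by
    rw [mp_add, T2_p]
    refine (congrArg (· + _) this).trans ?_
    simp only [Nat.sub_zero]
    abel
  rw [e]
  exact (MM0_Sc h (p1_of h)).neg.sub (MM1_one h)

theorem p3_of (h : NF B γ E o) : rq γ (PP o 3) = 0 := by
  refine rq_of_Tk (k := 3) (by norm_num) ?_
  have := PP_succ o 2
  rw [Finset.sum_range_succ, Finset.sum_range_succ, Finset.sum_range_one, Nat.sub_self, PP_zero] at this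
  have h2 : rq γ (PP o 2) = 0 := by
    have h3 := (p2_of h).rq0 h.af.g1
    rwa [rq_add, rq_add, y9_E h, SK.rq0 h.af (SK_sx.smul (Rl_C (by simp))), add_zero, add_zero] at h3
  refine (congrArg (rq γ) this).trans ?_
  rw [rq_neg, rq_add, rq_add, MM0_rq h h2, MM1_rq h (p1_of h), MM2_rq h Sc_one]
  simp

end Vale.Agent.P267I.KA
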