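import Vale.Agent.P267I.Y8
import Vale.Agent.P267I.Y9
import Vale.Agent.P267I.Y10

/-! The term of weight four. Hints: `rq_of_Tk` with `k = 4`, `mp_sub`, `PP_succ o 3`, `T4_p`, `MM0_rq`, `MM1_two`, `MM2_rq`, `MM3_one`, `SK.comm`. -/

open Matrix Finset MvPolynomial Filter Topology Metric
open scoped ContDiff

noncomputable section

namespace Vale.Agent.P267I.KA

open Vale.Agent.P267J

variable {N : ℕ} {B : Fin 4 → Fin 4 → Mat N} {γ E : Mat N} {o : Op N}

theorem p4_of (h : NF B γ E o) : rq γ (PP o 4 - P4 B E) = 0 := by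
  refine rq_of_Tk (k := 4) (by norm_num) ?_
  have r2 : Rl (C 2⁻¹ : Py) := Rl_C (by simp)
  have r4 : Rl (C 4⁻¹ : Py) := Rl_C (by simp)
  have e1 := PP_succ o 3
  simp only [sum_range_succ, sum_range_zero, zero_add] at e1
  have e2 : (PP o 4 - P4 B E).map (Tk 4) = (PP o 4).map (Tk 4) - (P4 B E).map (Tk 4) :=
    mp_sub (Tk 4) _ _
  have c1 := SK.comm h.af (SK_sx (B := B)) (SK_tB (B := B))
  have c2 : ∀ j, rq γ (bt B j * bb B j) = rq γ (bb B j * bt B j) := fun j =>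
    SK.comm h.af (SK_bt j) (SK_bb j)
  have k2 : (C 2⁻¹ : Py) * 2 = 1 := by
    rw [show (2 : Py) = C 2 from rfl, ← C_mul, ← C_1]
    norm_num
  have k4 : (C 4⁻¹ : Py) * 2 = C 2⁻¹ := by
    rw [show (2 : Py) = C 2 from rfl, ← C_mul]
    norm_num
  have m1 := MM1_two h (p2_of h)
  have m3 := MM3_one h
  rw [e2, show (PP o 4).map (Tk 4) = _ from e1, T4_p]
  simp only [Nat.sub_zero, Nat.reduceSub, PP_zero, rq_sub, rq_neg, rq_add, MM0_rq h (p3_of h),
    MM2_rq h (p1_of h), m1, m3, rq_smul r2, rq_smul r4, rq_sum, mul_add, sum_add_distrib, c1, c2]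
  linear_combination (∑ j, rq γ (bb B j * bt B j)) * k2 + rq γ (cm (∑ j, B j j) * sx B) * k4

theorem rs_of (h : NF B γ E o) : RS B γ E o :=
  ⟨PP_zero o, p1_of h, p2_of h, p3_of h, p4_of h⟩

end Vale.Agent.P267I.KA
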