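import Vale.Agent.P267I.Y3

/-! Taylor polynomials. Hints: `eq_of_ev`, `ev_tay`, `Filter.EventuallyEq.iteratedFDeriv`, `iteratedFDeriv_add_apply`, `ContinuousLinearEquiv.iteratedFDerivWithin_comp_left` or `LinearIsometryEquiv` for the conjugation (`Complex.conjLIE`, `Complex.conjCLE`). -/

open Matrix Finset MvPolynomial Filter Topology Metric
open scoped ContDiff

noncomputable section

namespace Vale.Agent.P267I.KA

open Vale.Agent.P267J

variable {N : ℕ} {B : Fin 4 → Fin 4 → Mat N} {γ E : Mat N} {o : Op N}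

theorem y12_conj (f : V → ℂ) (l : ℕ) : tay (fun z => starRingEnd ℂ (f z)) l = cj (tay f l) := by
  have e : iteratedFDeriv ℝ l (fun z => starRingEnd ℂ (f z)) 0 = _ :=
    Complex.conjCLE.iteratedFDeriv_comp_left (f := f) (x := 0) (i := l)
  simp only [tay, e, cj, map_sum, map_mul, map_prod, MvPolynomial.map_C, MvPolynomial.map_X,
    ContinuousLinearMap.compContinuousMultilinearMap_coe, Function.comp_apply,
    ContinuousLinearEquiv.coe_coe, Complex.conjCLE_apply, map_inv₀, map_natCast]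

theorem tay_congr {f g : V → ℂ} (h : f =ᶠ[𝓝 0] g) (l : ℕ) : tay f l = tay g l := by
  simp only [tay, (h.iteratedFDeriv ℝ l).self_of_nhds]

theorem tay_fzero (l : ℕ) : tay (fun _ => 0) l = 0 := by
  simp [tay, iteratedFDeriv_fun_zero]

theorem tay_add {f g : V → ℂ} (hf : ContDiffAt ℝ ∞ f 0) (hg : ContDiffAt ℝ ∞ g 0) (l : ℕ) :
    tay (fun z => f z + g z) l = tay f l + tay g l := by
  have e := fun_iteratedFDeriv_add_apply (i := l) (hf.of_le (mod_cast le_top))
    (hg.of_le (mod_cast le_top))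
  simp only [tay, e, _root_.add_apply, mul_add, map_add, add_mul, sum_add_distrib]

theorem tay_cmul {f : V → ℂ} (hf : ContDiffAt ℝ ∞ f 0) (a : ℂ) (l : ℕ) :
    tay (fun z => a * f z) l = C a * tay f l := by
  have e : iteratedFDeriv ℝ l (fun z => a * f z) 0 = _ :=
    (ContinuousLinearMap.mul ℝ ℂ a).iteratedFDeriv_comp_left hf (i := l) (mod_cast le_top)
  simp only [tay, e, ContinuousLinearMap.compContinuousMultilinearMap_coe, Function.comp_apply,
    ContinuousLinearMap.mul_apply', mul_sum, map_mul]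
  exact sum_congr rfl fun i _ => by ring

theorem tay_neg {f : V → ℂ} (hf : ContDiffAt ℝ ∞ f 0) (l : ℕ) :
    tay (fun z => -f z) l = -tay f l := by
  simpa using tay_cmul hf (-1) l

theorem tay_sub {f g : V → ℂ} (hf : ContDiffAt ℝ ∞ f 0) (hg : ContDiffAt ℝ ∞ g 0) (l : ℕ) :
    tay (fun z => f z - g z) l = tay f l - tay g l := by
  simp only [sub_eq_add_neg, tay_add hf hg.neg, tay_neg hg]

theorem tay_sum {ι : Type} (s : Finset ι) {f : ι → V → ℂ} (hf : ∀ i ∈ s, ContDiffAt ℝ ∞ (f i) 0)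
    (l : ℕ) : tay (fun z => ∑ i ∈ s, f i z) l = ∑ i ∈ s, tay (f i) l := by
  classical
  induction s using Finset.induction_on with
  | empty => simpa using tay_fzero l
  | insert a s ha ih =>
    have h2 : ∀ i ∈ s, ContDiffAt ℝ ∞ (f i) 0 := fun i hi => hf i (mem_insert_of_mem hi)
    simp only [sum_insert ha]
    rw [tay_add (hf a (mem_insert_self a s)) (ContDiffAt.sum h2), ih h2]

theorem tay_conj {f : V → ℂ} (hf : ContDiffAt ℝ ∞ f 0) (l : ℕ) :
    tay (fun z => starRingEnd ℂ (f z)) l = cj (tay f l) := by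
  exact y12_conj f l

theorem tay_real (f : V → ℝ) (l : ℕ) : Rl (tay (fun z => (f z : ℂ)) l) := by
  rw [Rl, ← y12_conj]
  simp only [Complex.conj_ofReal]

theorem rq_TM {F : V → Mat N} (hF : ∀ i m, ContDiffAt ℝ ∞ (fun z => F z i m) 0)
    (h : ∀ᶠ z in 𝓝 (0 : V), tr γ (F z) = 0) (l : ℕ) : rq γ (TM F l) = 0 := by
  have h1 : ∀ i m, ContDiffAt ℝ ∞ (fun z => γ i m * F z m i) 0 := fun i m =>
    contDiffAt_const.mul (hF m i)
  have h2 : ∀ i, ContDiffAt ℝ ∞ (fun z => ∑ m, γ i m * F z m i) 0 := fun i =>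
    ContDiffAt.sum fun m _ => h1 i m
  have h3 : ContDiffAt ℝ ∞ (fun z => ∑ i, ∑ m, γ i m * F z m i) 0 := ContDiffAt.sum fun i _ => h2 i
  have e : (cm γ * TM F l).trace = tay (fun z => ∑ i, ∑ m, γ i m * F z m i) l := by
    rw [tay_sum _ fun i _ => h2 i]
    refine sum_congr rfl fun i _ => ?_
    rw [tay_sum _ fun m _ => h1 i m, Matrix.diag_apply, Matrix.mul_apply]
    exact sum_congr rfl fun m _ => (tay_cmul (hF m i) _ l).symm
  have h4 : ContDiffAt ℝ ∞ (fun z => starRingEnd ℂ (∑ i, ∑ m, γ i m * F z m i)) 0 :=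
    Complex.conjCLE.contDiff.contDiffAt.comp 0 h3
  rw [rq, e, ← y12_conj, ← tay_add h3 h4, ← tay_fzero l]
  refine tay_congr ?_ l
  filter_upwards [h] with z hz
  have e2 : (∑ i, ∑ m, γ i m * F z m i).re = 0 := hz
  rw [Complex.add_conj, e2, mul_zero, Complex.ofReal_zero]

end Vale.Agent.P267I.KA
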