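import Vale.Agent.P267I.Y12

/-! Product rules. Hints: `eq_of_ev`, `ev_tay`, `iteratedFDeriv_one_apply`, `iteratedFDeriv_two_apply`, `fderiv_mul` near the origin (`ContDiffAt.eventually`). -/

open Matrix Finset MvPolynomial Filter Topology Metric
open scoped ContDiff

noncomputable section

namespace Vale.Agent.P267I.KA

open Vale.Agent.P267J

variable {N : ℕ} {B : Fin 4 → Fin 4 → Mat N} {γ E : Mat N} {o : Op N}

theorem y13_C (x : V) (c : ℂ) : ev x (C c) = c := eval_C _

theorem y13_one (f : V → ℂ) (x : V) : ev x (tay f 1) = fderiv ℝ f 0 x := by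
  rw [ev_tay, iteratedFDeriv_one_apply, Nat.factorial_one, Nat.cast_one, inv_one, one_mul]

theorem y13_two {f : V → ℂ} (hf : ContDiffAt ℝ ∞ f 0) (x : V) :
    ev x (tay f 2) = 2⁻¹ * fderiv ℝ (fun z => fderiv ℝ f z x) 0 x := by
  have h : DifferentiableAt ℝ (fderiv ℝ f) 0 :=
    (hf.fderiv_right (m := ∞) le_rfl).differentiableAt (by simp)
  rw [ev_tay, iteratedFDeriv_two_apply, fderiv_clm_apply h (differentiableAt_const x)]
  simp

theorem y13_d {f : V → ℂ} (hf : ContDiffAt ℝ ∞ f 0) (x : V) :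
    DifferentiableAt ℝ (fun z => fderiv ℝ f z x) 0 :=
  ((hf.fderiv_right (m := ∞) le_rfl).differentiableAt (by simp)).clm_apply
    (differentiableAt_const x)

theorem y13_ev {f : V → ℂ} (hf : ContDiffAt ℝ ∞ f 0) : ∀ᶠ z in 𝓝 0, DifferentiableAt ℝ f z :=
  ((hf.of_le (m := 1) (by exact_mod_cast le_top)).eventually (by simp)).mono fun _ h =>
    h.differentiableAt one_ne_zero

theorem y13_mul {f g : V → ℂ} {z : V} (hf : DifferentiableAt ℝ f z) (hg : DifferentiableAt ℝ g z)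
    (x : V) : fderiv ℝ (fun z => f z * g z) z x = f z * fderiv ℝ g z x + fderiv ℝ f z x * g z := by
  rw [fderiv_fun_mul hf hg]
  simp [mul_comm]

theorem tay_one (f : V → ℂ) : tay f 1 = ∑ k, X k * C (pd k f 0) := by
  unfold tay
  refine Fintype.sum_equiv (Equiv.funUnique (Fin 1) (Fin 4)) _ _ fun i => ?_
  rw [iteratedFDeriv_one_apply, Nat.factorial_one, Nat.cast_one, inv_one, one_mul,
    Fin.prod_univ_one, mul_comm]
  rfl

theorem tay_mul_one {f g : V → ℂ} (hf : ContDiffAt ℝ ∞ f 0) (hg : ContDiffAt ℝ ∞ g 0) :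
    tay (fun z => f z * g z) 1 = C (f 0) * tay g 1 + tay f 1 * C (g 0) := by
  refine eq_of_ev fun x => ?_
  rw [map_add, map_mul, map_mul, y13_C, y13_C, y13_one, y13_one, y13_one,
    y13_mul (y13_ev hf).self_of_nhds (y13_ev hg).self_of_nhds]

theorem tay_mul_two {f g : V → ℂ} (hf : ContDiffAt ℝ ∞ f 0) (hg : ContDiffAt ℝ ∞ g 0) :
    tay (fun z => f z * g z) 2 = C (f 0) * tay g 2 + tay f 1 * tay g 1 + tay f 2 * C (g 0) := by
  refine eq_of_ev fun x => ?_
  have f0 := (y13_ev hf).self_of_nhds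
  have g0 := (y13_ev hg).self_of_nhds
  have e : (fun z => fderiv ℝ (fun z => f z * g z) z x) =ᶠ[𝓝 0]
      fun z => f z * fderiv ℝ g z x + fderiv ℝ f z x * g z := by
    filter_upwards [y13_ev hf, y13_ev hg] with z h1 h2
    exact y13_mul h1 h2 x
  rw [map_add, map_add, map_mul, map_mul, map_mul, y13_C, y13_C, y13_one, y13_one,
    y13_two (hf.mul hg), y13_two hf, y13_two hg, e.fderiv_eq,
    fderiv_fun_add (f0.fun_mul (y13_d hg x)) ((y13_d hf x).fun_mul g0),
    _root_.add_apply, y13_mul f0 (y13_d hg x), y13_mul (y13_d hf x) g0]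
  ring

end Vale.Agent.P267I.KA
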