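import Vale.Agent.P267I.YD

/-! Derivatives of functions with values in a subspace. Hint for `pdM_mem`: `F : V → Fin N → Fin N → ℂ` is differentiable at `z` (`differentiableAt_pi`), test with real linear functionals vanishing on `g` (`Subspace.forall_mem_dualAnnihilator_apply_eq_zero_iff`, `LinearMap.toContinuousLinearMap`). -/

open Matrix Finset MvPolynomial Filter Topology Metric
open scoped ContDiff

noncomputable section

namespace Vale.Agent.P267I.KA

open Vale.Agent.P267J

variable {N : ℕ} {B : Fin 4 → Fin 4 → Mat N} {γ E : Mat N} {o : Op N}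

theorem pd_smooth {f : V → ℂ} {r : ℝ} (hf : ContDiffOn ℝ ∞ f (ball 0 r)) (j : Fin 4) :
    ContDiffOn ℝ ∞ (pd j f) (ball 0 r) := by
  exact (hf.fderiv_of_isOpen isOpen_ball (m := ∞) (by simp)).clm_apply contDiffOn_const

theorem pdM_mem {F : V → Mat N} {r : ℝ} (g : Submodule ℝ (Mat N))
    (hF : ∀ i m, ContDiffOn ℝ ∞ (fun z => F z i m) (ball 0 r)) (h : ∀ z ∈ ball (0 : V) r, F z ∈ g)
    (j : Fin 4) {z : V} (hz : z ∈ ball (0 : V) r) : H.pdM j F z ∈ g := by
  have hz' := isOpen_ball.mem_nhds hz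
  have d : ∀ i m, HasFDerivAt (fun y => F y i m) (fderiv ℝ (fun y => F y i m) z) z := fun i m =>
    (((hF i m).contDiffAt hz').differentiableAt (by simp)).hasFDerivAt
  let g' : Submodule ℝ (Fin N → Fin N → ℂ) := g
  have D : HasFDerivAt (fun y => (F y : Fin N → Fin N → ℂ))
      (ContinuousLinearMap.pi fun i => ContinuousLinearMap.pi fun m =>
        fderiv ℝ (fun y => F y i m) z) z :=
    hasFDerivAt_pi.2 fun i => hasFDerivAt_pi.2 fun m => d i m
  refine (Subspace.forall_mem_dualAnnihilator_apply_eq_zero_iff g' _).1 fun φ hφ => ?_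
  have k := (LinearMap.toContinuousLinearMap φ).hasFDerivAt.comp z D
  have e : (LinearMap.toContinuousLinearMap φ) ∘ (fun y => (F y : Fin N → Fin N → ℂ)) =ᶠ[𝓝 z]
      fun _ => 0 := by
    filter_upwards [hz'] with y hy
    exact (Submodule.mem_dualAnnihilator φ).1 hφ _ (h y hy)
  exact congrArg (fun L : V →L[ℝ] ℝ => L (EuclideanSpace.single j 1))
    ((k.congr_of_eventuallyEq e.symm).unique (hasFDerivAt_const 0 z))

end Vale.Agent.P267I.KA
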