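import Vale.Agent.P267I.Y14

/-! The algebraic facts. Hints: `pdM_mem`, the fields of `K.Alg` (`star = ᴴ`, `star_eq_conjTranspose`); `τ (B E - E B) = 0` by `adW`, and `τ (B E) = τ (star (B E)) = - τ (E B)`; `P267I/Cl.lean` for `γ`. -/

open Matrix Finset MvPolynomial Filter Topology Metric
open scoped ContDiff Matrix.Norms.L2Operator

noncomputable section

namespace Vale.Agent.P267I.KA

open Vale.Agent.P267J

variable {N : ℕ} {B : Fin 4 → Fin 4 → Mat N} {γ E : Mat N} {o : Op N}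

variable {τ : Mat N →L[ℝ] ℝ} {W g : Submodule ℝ (Mat N)} {r : ℝ} {L : H.Lap N}

theorem gam_H (C : Cl N) : C.gamᴴ = C.gam := by
  have h : IsCl C.c := C.rel
  obtain ⟨a1, a2, -, a4, -, -, -, -, b3, -, b5, b6⟩ := h.ord
  simp only [Cl.gam, conjTranspose_mul, C.skew, mul_neg, neg_mul, neg_neg, mul_assoc, a1, a2,
    a4, b3, b5, b6]

theorem gam_gam (C : Cl N) : C.gam * C.gam = 1 := by
  exact IsCl.gam_sq (c := C.c) C.rel

theorem af_of (C : Cl N) (hA : K.Alg τ W g) (hτ : ∀ Y, τ Y = (C.gam * Y).trace.re) (hr : 0 < r)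
    (hL : L.Ok W g r) : AF (fun j k => H.pdM k (L.A j) 0) C.gam (L.E 0) := by
  have h0 : (0 : V) ∈ ball (0 : V) r := mem_ball_self hr
  have hB : ∀ j k, H.pdM k (L.A j) 0 ∈ g := fun j k => pdM_mem g (hL.A j) (hL.Ag j) k h0
  have ht : ∀ Y, tr C.gam Y = τ Y := fun Y => (hτ Y).symm
  have hE : star (L.E 0) = L.E 0 := hL.Est 0 h0
  have key : ∀ X ∈ g, τ (X * L.E 0) = 0 ∧ τ (L.E 0 * X) = 0 := fun X hX => by
    have h1 := hA.ker _ (hA.adW X hX _ (hL.EW 0 h0))
    have h2 := hA.tst (X * L.E 0)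
    rw [star_mul, hE, hA.skew X hX, mul_neg, map_neg] at h2
    rw [map_sub] at h1
    constructor <;> linarith
  exact ⟨gam_H C, gam_gam C, (ht _).trans (hA.ker _ hA.one), hL.Est 0 h0,
    (ht _).trans (hA.ker _ (hL.EW 0 h0)), fun j k => hA.skew _ (hB j k),
    fun j k => (ht _).trans (hA.ker _ (hA.le (hB j k))),
    fun j k => (ht _).trans (key _ (hB j k)).1, fun j k => (ht _).trans (key _ (hB j k)).2⟩

end Vale.Agent.P267I.KA
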