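import Vale.Agent.P267I.Y3

/-! Real scalar matrices. Hint for `Sc.of_Tk`: the candidate is `Ti k s`; use `Tk_Ti`, `Tk_inj` entrywise and `Rl.of_Tk`. -/

open Matrix Finset MvPolynomial Filter Topology Metric
open scoped ContDiff

noncomputable section

namespace Vale.Agent.P267I.KA

open Vale.Agent.P267J

variable {N : ℕ} {B : Fin 4 → Fin 4 → Mat N} {γ E : Mat N} {o : Op N}

theorem map_smul_one (f : Py →ₗ[ℂ] Py) (s : Py) : (s • (1 : PM N)).map f = f s • (1 : PM N) := by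
  ext i m
  by_cases h : i = m
  · subst h; simp
  · simp [h]

theorem Sc_zero : Sc (0 : PM N) := by
  exact ⟨0, Rl_zero, by simp⟩

theorem Sc_one : Sc (1 : PM N) := by
  exact ⟨1, Rl_one, by simp⟩

theorem Sc.add {P Q : PM N} (hP : Sc P) (hQ : Sc Q) : Sc (P + Q) := by
  obtain ⟨s, hs, rfl⟩ := hP
  obtain ⟨t, ht, rfl⟩ := hQ
  exact ⟨s + t, hs.add ht, by rw [add_smul]⟩

theorem Sc.neg {P : PM N} (hP : Sc P) : Sc (-P) := by
  obtain ⟨s, hs, rfl⟩ := hP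
  exact ⟨-s, hs.neg, by rw [neg_smul]⟩

theorem Sc.sub {P Q : PM N} (hP : Sc P) (hQ : Sc Q) : Sc (P - Q) := by
  rw [sub_eq_add_neg]; exact hP.add hQ.neg

theorem Sc.mul {P Q : PM N} (hP : Sc P) (hQ : Sc Q) : Sc (P * Q) := by
  obtain ⟨s, hs, rfl⟩ := hP
  obtain ⟨t, ht, rfl⟩ := hQ
  exact ⟨s * t, hs.mul ht, by rw [Matrix.smul_mul, Matrix.one_mul, smul_smul]⟩

theorem Sc.smul {P : PM N} (hP : Sc P) {s : Py} (hs : Rl s) : Sc (s • P) := by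
  obtain ⟨t, ht, rfl⟩ := hP
  exact ⟨s * t, hs.mul ht, by rw [smul_smul]⟩

theorem Sc_sum {ι : Type} (s : Finset ι) (f : ι → PM N) (h : ∀ i ∈ s, Sc (f i)) :
    Sc (∑ i ∈ s, f i) := by
  exact Finset.sum_induction f Sc (fun _ _ => Sc.add) Sc_zero h

theorem Sc.dl1 {P : PM N} (hP : Sc P) (j : Fin 4) : Sc (P.map (dl j)) := by
  obtain ⟨s, hs, rfl⟩ := hP
  exact ⟨_, hs.dl1 j, map_smul_one _ s⟩

theorem Sc.of_Tk {P : PM N} {k : ℕ} (hk : 0 < k) (hP : Sc (P.map (Tk k))) : Sc P := by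
  obtain ⟨s, hs, h⟩ := hP
  refine ⟨Ti k s, Rl.of_Tk hk (by rwa [Tk_Ti hk]), ?_⟩
  have h2 := map_smul_one (N := N) (Tk k) (Ti k s)
  rw [Tk_Ti hk, ← h] at h2
  ext1 i m
  exact Tk_inj hk (congrFun (congrFun h2 i) m).symm

theorem Sc.rq0 {P : PM N} (hP : Sc P) (h : tr γ 1 = 0) : rq γ P = 0 := by
  obtain ⟨s, hs, rfl⟩ := hP
  rw [rq_smul hs, ← cm_one, rq_cm, h]
  simp

theorem Sc.rq_mul {P Q : PM N} (hP : Sc P) (h : rq γ Q = 0) : rq γ (P * Q) = 0 := by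
  obtain ⟨s, hs, rfl⟩ := hP
  rw [Matrix.smul_mul, Matrix.one_mul, rq_smul hs, h, mul_zero]

theorem Sc.mul_rq {P Q : PM N} (hP : Sc P) (h : rq γ Q = 0) : rq γ (Q * P) = 0 := by
  obtain ⟨s, hs, rfl⟩ := hP
  rw [Matrix.mul_smul, Matrix.mul_one, rq_smul hs, h, mul_zero]

end Vale.Agent.P267I.KA
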