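import Vale.Agent.P267I.Y13
import Vale.Agent.P267I.Y14
import Vale.Agent.P267I.Y4

/-! The first order coefficients. Hints: `tay_zero`, `tay_sub`, `tay_sum`, `tay_mul_one`, `tay_one`, `tay_real`, `L.Ok.a0`; for `nf_b`: `TB L.op j l = TM F l` with `F z = β • 1 - ∑ (a + a) • A k z ∈ W`, then `rq_TM`. -/

open Matrix Finset MvPolynomial Filter Topology Metric
open scoped ContDiff Matrix.Norms.L2Operator

noncomputable section

namespace Vale.Agent.P267I.KA

open Vale.Agent.P267J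

variable {N : ℕ} {B : Fin 4 → Fin 4 → Mat N} {γ E : Mat N} {o : Op N}

variable {τ : Mat N →L[ℝ] ℝ} {W g : Submodule ℝ (Mat N)} {r : ℝ} {L : H.Lap N}

theorem y16_c {f : V → ℝ} (h : ContDiffAt ℝ ∞ f 0) : ContDiffAt ℝ ∞ (fun z => (f z : ℂ)) 0 :=
  Complex.ofRealCLM.contDiff.contDiffAt.comp 0 h

theorem y16_b (hr : 0 < r) (hL : L.Ok W g r) (j : Fin 4) (i m : Fin N) :
    ContDiffAt ℝ ∞ (fun z => if i = m then (L.β j z : ℂ) else 0) 0 := by
  split_ifs
  exacts [y16_c ((hL.β j).contDiffAt (ball_mem_nhds 0 hr)), contDiffAt_const]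

theorem y16_a (hr : 0 < r) (hL : L.Ok W g r) (j k : Fin 4) :
    ContDiffAt ℝ ∞ (fun z => ((L.a j k z + L.a k j z : ℝ) : ℂ)) 0 :=
  y16_c (((hL.a j k).add (hL.a k j)).contDiffAt (ball_mem_nhds 0 hr))

theorem y16_A (hr : 0 < r) (hL : L.Ok W g r) (k : Fin 4) (i m : Fin N) :
    ContDiffAt ℝ ∞ (fun z => L.A k z i m) 0 := (hL.A k i m).contDiffAt (ball_mem_nhds 0 hr)

theorem y16_e (j : Fin 4) (i m : Fin N) : L.op.b j i m = fun z =>
    (if i = m then (L.β j z : ℂ) else 0) -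
      ∑ k, ((L.a j k z + L.a k j z : ℝ) : ℂ) * L.A k z i m := rfl

theorem nf_b0 (h0 : ∀ j, L.A j 0 = 0) (j : Fin 4) : Sc (TB L.op j 0) := by
  refine ⟨C (L.β j 0 : ℂ), Rl_C (Complex.ofReal_im _), Matrix.ext fun i m => ?_⟩
  simp only [TB, of_apply, tay_zero, y16_e, h0, Matrix.zero_apply, mul_zero, sum_const_zero,
    sub_zero, Matrix.smul_apply, Matrix.one_apply, smul_eq_mul]
  split_ifs
  · rw [mul_one]
  · rw [mul_zero, C_0]

theorem nf_b1 (hr : 0 < r) (hL : L.Ok W g r) (h0 : ∀ j, L.A j 0 = 0) (j : Fin 4) :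
    Sc (TB L.op j 1 + (C 2 : Py) • bb (fun j k => H.pdM k (L.A j) 0) j) := by
  refine ⟨tay (fun z => (L.β j z : ℂ)) 1, tay_real _ _, Matrix.ext fun i m => ?_⟩
  have e1 : ∀ k, tay (fun z => ((L.a j k z + L.a k j z : ℝ) : ℂ) * L.A k z i m) 1 =
      if j = k then C 2 * tay (fun z => L.A k z i m) 1 else 0 := fun k => by
    rw [tay_mul_one (y16_a hr hL j k) (y16_A hr hL k i m)]
    simp only [h0, Matrix.zero_apply, C_0, mul_zero, add_zero, hL.a0]
    by_cases h : j = k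
    · rw [if_pos h, if_pos h.symm, if_pos h]
      norm_num
    · rw [if_neg h, if_neg (Ne.symm h), if_neg h]
      simp
  have e2 : bb (fun j k => H.pdM k (L.A j) 0) j i m = tay (fun z => L.A j z i m) 1 := by
    rw [tay_one, bb, Matrix.sum_apply]
    rfl
  rw [Matrix.add_apply, Matrix.smul_apply, e2, TB, of_apply, y16_e, tay_sub (y16_b hr hL j i m)
    (ContDiffAt.sum fun k _ => (y16_a hr hL j k).mul (y16_A hr hL k i m)),
    tay_sum _ fun k _ => (y16_a hr hL j k).mul (y16_A hr hL k i m)]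
  simp only [e1, sum_ite_eq, mem_univ, if_true, smul_eq_mul, sub_add_cancel, Matrix.smul_apply,
    Matrix.one_apply]
  split_ifs
  · rw [mul_one]
  · rw [mul_zero, tay_fzero]

theorem nf_b (hA : K.Alg τ W g) (hτ : ∀ Y, τ Y = (γ * Y).trace.re) (hr : 0 < r)
    (hL : L.Ok W g r) (j : Fin 4) (l : ℕ) : rq γ (TB L.op j l) = 0 := by
  have e : ∀ i m, (fun z => (L.β j z • (1 : Mat N) -
      ∑ k, (L.a j k z + L.a k j z) • L.A k z) i m) = L.op.b j i m := fun i m => by
    funext z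
    simp only [y16_e, Matrix.sub_apply, Matrix.sum_apply, Matrix.smul_apply, Matrix.one_apply,
      Complex.real_smul, mul_ite, mul_one, mul_zero]
  have e2 : TB L.op j l = TM (fun z => L.β j z • (1 : Mat N) -
      ∑ k, (L.a j k z + L.a k j z) • L.A k z) l := Matrix.ext fun i m => by
    rw [TB, TM, of_apply, of_apply, e]
  rw [e2]
  refine rq_TM (fun i m => ?_) ?_ l
  · rw [e, y16_e]
    exact (y16_b hr hL j i m).sub
      (ContDiffAt.sum fun k _ => (y16_a hr hL j k).mul (y16_A hr hL k i m))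
  · filter_upwards [ball_mem_nhds (0 : V) hr] with z hz
    rw [tr, ← hτ]
    exact hA.ker _ (W.sub_mem (W.smul_mem _ hA.one)
      (W.sum_mem fun k _ => W.smul_mem _ (hA.le (hL.Ag k z hz))))

end Vale.Agent.P267I.KA
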