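import Vale.Agent.P267I.Y13
import Vale.Agent.P267I.Y14
import Vale.Agent.P267I.Y4

/-! The order zero coefficients, first part. `c = c1 - ∑ a j k A j A k` where `c1 L` has values in `W` (`pdM_mem`, `K.Alg.le`). -/

open Matrix Finset MvPolynomial Filter Topology Metric
open scoped ContDiff Matrix.Norms.L2Operator

noncomputable section

namespace Vale.Agent.P267I.KA

open Vale.Agent.P267J

variable {N : ℕ} {B : Fin 4 → Fin 4 → Mat N} {γ E : Mat N} {o : Op N}

variable {τ : Mat N →L[ℝ] ℝ} {W g : Submodule ℝ (Mat N)} {r : ℝ} {L : H.Lap N}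

/-- The part of the order zero coefficient with values in `W`. -/
def c1 (L : H.Lap N) (z : V) : Mat N :=
  -(∑ j, ∑ k, (L.a j k z : ℂ) • H.pdM j (L.A k) z) + ∑ j, (L.β j z : ℂ) • L.A j z + L.E z

/-- The quadratic part. -/
def c2 (L : H.Lap N) (z : V) : Mat N := ∑ j, ∑ k, (L.a j k z : ℂ) • (L.A j z * L.A k z)

theorem y17_c (L : H.Lap N) (i m : Fin N) :
    L.op.c i m = fun z => c1 L z i m - c2 L z i m := by
  funext z
  rw [← Matrix.sub_apply]
  have e : -(∑ j, ∑ k, (L.a j k z : ℂ) • (H.pdM j (L.A k) z + L.A j z * L.A k z)) +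
      ∑ j, (L.β j z : ℂ) • L.A j z + L.E z = c1 L z - c2 L z := by
    simp only [c1, c2, smul_add, Finset.sum_add_distrib]
    abel
  rw [← e]
  rfl

theorem y17_re {f : V → ℝ} (hr : 0 < r) (hf : ContDiffOn ℝ ∞ f (ball 0 r)) :
    ContDiffAt ℝ ∞ (fun z => (f z : ℂ)) 0 :=
  Complex.ofRealCLM.contDiff.comp_contDiffAt 0 (hf.contDiffAt (ball_mem_nhds 0 hr))

theorem y17_c2 (hr : 0 < r) (hL : L.Ok W g r) (i m : Fin N) :
    ContDiffAt ℝ ∞ (fun z => c2 L z i m) 0 := by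
  simp only [c2, Matrix.sum_apply, Matrix.smul_apply, smul_eq_mul, Matrix.mul_apply]
  exact ContDiffAt.sum fun j _ => ContDiffAt.sum fun k _ => (y17_re hr (hL.a j k)).mul
    (ContDiffAt.sum fun n _ => ((hL.A j i n).contDiffAt (ball_mem_nhds 0 hr)).mul
      ((hL.A k n m).contDiffAt (ball_mem_nhds 0 hr)))

theorem nf_c0 (hL : L.Ok W g r) (h0 : ∀ j, L.A j 0 = 0) :
    TC L.op 0 = cm (L.E 0 - ∑ j, H.pdM j (L.A j) 0) := by
  ext1 i m
  have e : c1 L 0 - c2 L 0 = L.E 0 - ∑ j, H.pdM j (L.A j) 0 := by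
    simp only [c1, c2, hL.a0, h0, mul_zero, smul_zero, Finset.sum_const_zero, add_zero, sub_zero,
      apply_ite ((↑) : ℝ → ℂ), Complex.ofReal_one, Complex.ofReal_zero, ite_smul, one_smul,
      zero_smul, Finset.sum_ite_eq, Finset.mem_univ, if_true]
    abel
  rw [TC, Matrix.of_apply, tay_zero, y17_c, cm, Matrix.map_apply, ← e, Matrix.sub_apply]

theorem c1_smooth (hr : 0 < r) (hL : L.Ok W g r) (i m : Fin N) :
    ContDiffAt ℝ ∞ (fun z => c1 L z i m) 0 := by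
  have b := ball_mem_nhds (0 : V) hr
  simp only [c1, Matrix.add_apply, Matrix.neg_apply, Matrix.sum_apply, Matrix.smul_apply,
    smul_eq_mul, H.pdM, Matrix.of_apply]
  exact ((ContDiffAt.sum fun j _ => ContDiffAt.sum fun k _ => (y17_re hr (hL.a j k)).mul
    ((pd_smooth (hL.A k i m) j).contDiffAt b)).neg.add (ContDiffAt.sum fun j _ =>
      (y17_re hr (hL.β j)).mul ((hL.A j i m).contDiffAt b))).add ((hL.E i m).contDiffAt b)

theorem c1_rq (hA : K.Alg τ W g) (hτ : ∀ Y, τ Y = (γ * Y).trace.re) (hr : 0 < r)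
    (hL : L.Ok W g r) (l : ℕ) : rq γ (TM (c1 L) l) = 0 := by
  refine rq_TM (c1_smooth hr hL) ?_ l
  filter_upwards [ball_mem_nhds (0 : V) hr] with z hz
  refine (hτ _).symm.trans (hA.ker _ ?_)
  simp only [c1, Complex.coe_smul]
  exact W.add_mem (W.add_mem (W.neg_mem (W.sum_mem fun j _ => W.sum_mem fun k _ =>
    W.smul_mem _ (hA.le (pdM_mem g (hL.A k) (hL.Ag k) j hz)))) (W.sum_mem fun j _ =>
      W.smul_mem _ (hA.le (hL.Ag j z hz)))) (hL.EW z hz)

theorem TC_eq (hr : 0 < r) (hL : L.Ok W g r) (l : ℕ) : TC L.op l = TM (c1 L) l - TM (c2 L) l := by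
  ext1 i m
  rw [TC, Matrix.of_apply, y17_c, tay_sub (c1_smooth hr hL i m) (y17_c2 hr hL i m)]
  rfl

end Vale.Agent.P267I.KA
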