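import Vale.Agent.P267I.Y17

/-! The quadratic part. Hints: entrywise `∑ j k n, a j k * (A j i n * A k n m)`, `tay_sum`, `tay_mul_one`, `tay_mul_two`, `tay_one`, `L.Ok.a0`. -/

open Matrix Finset MvPolynomial Filter Topology Metric
open scoped ContDiff Matrix.Norms.L2Operator

noncomputable section

namespace Vale.Agent.P267I.KA

open Vale.Agent.P267J

variable {N : ℕ} {B : Fin 4 → Fin 4 → Mat N} {γ E : Mat N} {o : Op N}

variable {τ : Mat N →L[ℝ] ℝ} {W g : Submodule ℝ (Mat N)} {r : ℝ} {L : H.Lap N}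

theorem y18_a (hr : 0 < r) (hL : L.Ok W g r) (j k : Fin 4) :
    ContDiffAt ℝ ∞ (fun z => (L.a j k z : ℂ)) 0 :=
  Complex.ofRealCLM.contDiff.contDiffAt.comp 0 ((hL.a j k).contDiffAt (ball_mem_nhds 0 hr))

theorem y18_A (hr : 0 < r) (hL : L.Ok W g r) (j : Fin 4) (i m : Fin N) :
    ContDiffAt ℝ ∞ (fun z => L.A j z i m) 0 := (hL.A j i m).contDiffAt (ball_mem_nhds 0 hr)

theorem y18_exp (hr : 0 < r) (hL : L.Ok W g r) (l : ℕ) (i m : Fin N) : TM (c2 L) l i m =
    ∑ j, ∑ k, ∑ n, tay (fun z => (L.a j k z : ℂ) * (L.A j z i n * L.A k z n m)) l := by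
  have s : ∀ j k n, ContDiffAt ℝ ∞ (fun z => (L.a j k z : ℂ) * (L.A j z i n * L.A k z n m)) 0 :=
    fun j k n => (y18_a hr hL j k).mul ((y18_A hr hL j i n).mul (y18_A hr hL k n m))
  have e : (fun z => c2 L z i m) =
      fun z => ∑ j, ∑ k, ∑ n, (L.a j k z : ℂ) * (L.A j z i n * L.A k z n m) := by
    funext z
    simp only [c2, Matrix.sum_apply, Matrix.smul_apply, Matrix.mul_apply, smul_eq_mul, mul_sum]
  rw [TM, Matrix.of_apply, e, tay_sum _ fun j _ => ContDiffAt.sum fun k _ =>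
    ContDiffAt.sum fun n _ => s j k n]
  refine sum_congr rfl fun j _ => ?_
  rw [tay_sum _ fun k _ => ContDiffAt.sum fun n _ => s j k n]
  exact sum_congr rfl fun k _ => tay_sum _ (fun n _ => s j k n) l

theorem y18_bb (L : H.Lap N) (j : Fin 4) (i m : Fin N) :
    bb (fun j k => H.pdM k (L.A j) 0) j i m = tay (fun z => L.A j z i m) 1 := by
  simp only [bb, tay_one, Matrix.sum_apply, Matrix.smul_apply, cm, Matrix.map_apply, H.pdM,
    Matrix.of_apply, smul_eq_mul]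

theorem c2_one (hr : 0 < r) (hL : L.Ok W g r) (h0 : ∀ j, L.A j 0 = 0) : TM (c2 L) 1 = 0 := by
  ext1 i m
  rw [y18_exp hr hL]
  refine sum_eq_zero fun j _ => sum_eq_zero fun k _ => sum_eq_zero fun n _ => ?_
  rw [tay_mul_one (y18_a hr hL j k) ((y18_A hr hL j i n).mul (y18_A hr hL k n m)),
    tay_mul_one (y18_A hr hL j i n) (y18_A hr hL k n m)]
  simp [h0]

theorem c2_two (hr : 0 < r) (hL : L.Ok W g r) (h0 : ∀ j, L.A j 0 = 0) : TM (c2 L) 2 =
    ∑ j, bb (fun j k => H.pdM k (L.A j) 0) j * bb (fun j k => H.pdM k (L.A j) 0) j := by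
  ext1 i m
  rw [y18_exp hr hL, Matrix.sum_apply]
  refine sum_congr rfl fun j _ => ?_
  have e : ∀ k n, tay (fun z => (L.a j k z : ℂ) * (L.A j z i n * L.A k z n m)) 2 =
      if j = k then tay (fun z => L.A j z i n) 1 * tay (fun z => L.A k z n m) 1 else 0 := by
    intro k n
    rw [tay_mul_two (y18_a hr hL j k) ((y18_A hr hL j i n).mul (y18_A hr hL k n m)),
      tay_mul_one (y18_A hr hL j i n) (y18_A hr hL k n m),
      tay_mul_two (y18_A hr hL j i n) (y18_A hr hL k n m), hL.a0]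
    split_ifs <;> simp [h0]
  simp only [e, Matrix.mul_apply, y18_bb]
  rw [sum_comm]
  simp only [sum_ite_eq, mem_univ, if_true]

end Vale.Agent.P267I.KA
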