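import Vale.Agent.P267I.HD

/-! The algebra of the parametrix: definitions. FROZEN. -/

open scoped ContDiff Matrix.Norms.L2Operator
open Matrix MeasureTheory Metric

noncomputable section

namespace Vale.Agent.P267I.Z

open Vale.Agent.P267J Vale.Agent.P267I.H

variable {N : ℕ}

/-- The value of the matrix of the coefficients of the parametrix. -/
def PK (o : P267J.Op N) (k : ℕ) (x : V) : Mat N :=
  Matrix.of fun i m => ev x (pk o (Pi.single m 1) k i)

/-- The first derivatives of the connection. -/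
def S (L : Lap N) (j i : Fin 4) : Mat N := pdM j (L.A i) 0

/-- The quadratic form of the symmetric part. -/
def sg (L : Lap N) (x : V) : Mat N := ∑ j, ∑ i, (x j * x i) • S L j i

/-- The invariant term of weight four. -/
def P4 (L : Lap N) (x : V) : Mat N :=
  (1 / 2 : ℝ) • (L.E 0 * L.E 0) + (1 / 12 : ℝ) • (∑ i, ∑ j, L.F j i 0 * L.F j i 0) +
    (1 / 12 : ℝ) • ∑ i, ∑ j, ∑ k, (x j * x k) • (L.F j i 0 * L.F k i 0)

/-- The structure of the coefficients of the parametrix. -/
structure Str (L : Lap N) (γ : Mat N) : Prop where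
  p0 : ∀ x, PK L.op 0 x = 1
  p1 : ∀ x, ∃ s : ℝ, PK L.op 1 x = s • (1 : Mat N)
  p2 : ∀ x, ∃ s : ℝ, PK L.op 2 x = s • (1 : Mat N) - L.E 0 - (1 / 2 : ℝ) • sg L x
  p3 : ∀ x, (γ * PK L.op 3 x).trace.re = 0
  p4 : ∀ x, (γ * (PK L.op 4 x -
    (P4 L x + (1 / 2 : ℝ) • (sg L x * L.E 0) + (1 / 8 : ℝ) • (sg L x * sg L x)))).trace.re = 0

end Vale.Agent.P267I.Z
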