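import Vale.Agent.P267I.Y3
import Vale.Agent.P267I.ZD

/-! Evaluation of the explicit terms. -/

open Matrix Finset MvPolynomial Filter Topology Metric
open scoped ContDiff Matrix.Norms.L2Operator

noncomputable section

namespace Vale.Agent.P267I.KA

open Vale.Agent.P267J

variable {N : ℕ} {B : Fin 4 → Fin 4 → Mat N} {γ E : Mat N} {o : Op N}

variable {τ : Mat N →L[ℝ] ℝ} {W g : Submodule ℝ (Mat N)} {r : ℝ} {L : H.Lap N}

theorem ev_PP (o : Op N) (k : ℕ) (x : V) : (PP o k).map (ev x) = Z.PK o k x := by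
  rfl

theorem ev_cm (w : Mat N) (x : V) : (cm w).map (ev x) = w := by
  ext i j
  simp [cm, ev]

theorem y19_smul (q : Py) (Q : PM N) (x : V) :
    (ev x).mapMatrix (q • Q) = ev x q • (ev x).mapMatrix Q := by
  ext i j
  simp

theorem y19_X (k : Fin 4) (w : Mat N) (x : V) :
    (ev x).mapMatrix ((X k : Py) • cm w) = x k • w := by
  rw [y19_smul, RingHom.mapMatrix_apply, ev_cm]
  ext i j
  simp [ev]

theorem y19_sx (B : Fin 4 → Fin 4 → Mat N) (x : V) :
    (ev x).mapMatrix (sx B) = ∑ j, ∑ i, (x j * x i) • B i j := by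
  rw [sx, map_sum, Finset.sum_comm]
  refine Finset.sum_congr rfl fun j _ => ?_
  rw [y19_smul, bb, map_sum, Finset.smul_sum]
  refine Finset.sum_congr rfl fun k _ => ?_
  rw [y19_X]
  ext a b
  simp [ev, mul_left_comm, mul_assoc]

theorem ev_sx (x : V) : (sx fun j k => H.pdM k (L.A j) 0).map (ev x) = Z.sg L x :=
  y19_sx _ x

theorem ev_P4 (h0 : ∀ j, L.A j 0 = 0) (x : V) :
    (P4 (fun j k => H.pdM k (L.A j) 0) (L.E 0)).map (ev x) =
      Z.P4 L x + (1 / 8 : ℝ) • (Z.sg L x * Z.sg L x) := by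
  have hF : ∀ j k, L.F j k 0 = H.pdM j (L.A k) 0 - H.pdM k (L.A j) 0 := fun j k => by
    simp [H.Lap.F, h0]
  have h1 : ∀ j, (ev x).mapMatrix (bb (fun j k => H.pdM k (L.A j) 0) j -
      bt (fun j k => H.pdM k (L.A j) 0) j) = ∑ k, x k • L.F k j 0 := fun j => by
    simp only [bb, bt, map_sub, map_sum, y19_X, hF, smul_sub, Finset.sum_sub_distrib]
  have h2 : (ev x).mapMatrix (sx fun j k => H.pdM k (L.A j) 0) = Z.sg L x := ev_sx x
  have h3 : ∀ (c : ℂ) (r : ℝ) (w : Mat N), c = r → c • w = r • w := fun c r w h => by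
    rw [h]
    rfl
  have h4 : ∀ c : ℂ, ev x (C c) = c := fun c => by simp [ev]
  rw [← RingHom.mapMatrix_apply, P4, map_add, map_add, y19_smul, y19_smul, map_mul, map_sum, h2,
    RingHom.mapMatrix_apply (ev x) (cm _), ev_cm, h4, h4, Z.P4]
  simp only [map_mul, h1, ← hF, Finset.sum_mul_sum, smul_mul_smul_comm]
  rw [h3 8⁻¹ (1 / 8) _ (by norm_num), h3 12⁻¹ (1 / 12) _ (by norm_num),
    h3 (1 / 2) (1 / 2) _ (by norm_num), h3 (1 / 12) (1 / 12) _ (by norm_num)]
  abel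

end Vale.Agent.P267I.KA
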