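import Vale.Agent.P267I.YD

/-! Conjugation of coefficients. Hints: `MvPolynomial.pderiv_map`, `a_app`, `Tk_inj`, `MvPolynomial.funext_set` or `MvPolynomial.induction_on`. -/

open Matrix Finset MvPolynomial Filter Topology Metric
open scoped ContDiff

noncomputable section

namespace Vale.Agent.P267I.KA

open Vale.Agent.P267J

variable {N : ℕ} {B : Fin 4 → Fin 4 → Mat N} {γ E : Mat N} {o : Op N}

theorem cj_C (a : ℂ) : cj (C a) = C (starRingEnd ℂ a) := by
  exact MvPolynomial.map_C _ a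

theorem cj_X (i : Fin 4) : cj (X i) = X i := by
  exact MvPolynomial.map_X _ i

theorem cj_cj (q : Py) : cj (cj q) = q := by
  induction q using MvPolynomial.induction_on with
  | C a => rw [cj_C, cj_C, Complex.conj_conj]
  | add p q hp hq => rw [map_add, map_add, hp, hq]
  | mul_X p i hp => rw [map_mul, map_mul, hp, cj_X, cj_X]

theorem cj_pderiv (i : Fin 4) (q : Py) : cj (pderiv i q) = pderiv i (cj q) := by
  exact (MvPolynomial.pderiv_map).symm

theorem cj_dl (i : Fin 4) (q : Py) : cj (dl i q) = dl i (cj q) := by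
  have h : ∀ p : Py, dl i p = pderiv i p - C 2⁻¹ * X i * p := fun _ => rfl
  have h2 : starRingEnd ℂ (2⁻¹ : ℂ) = 2⁻¹ := by rw [map_inv₀, map_ofNat]
  rw [h, h, map_sub, map_mul, map_mul, cj_pderiv, cj_C, cj_X, h2]

theorem cj_Tk (k : ℕ) (q : Py) : cj (Tk k q) = Tk k (cj q) := by
  have h2 : starRingEnd ℂ (2⁻¹ : ℂ) = 2⁻¹ := by rw [map_inv₀, map_ofNat]
  have h3 : starRingEnd ℂ ((k : ℂ) / 2) = (k : ℂ) / 2 := by rw [map_div₀, map_ofNat, map_natCast]
  rw [a_app, a_app, ← MvPolynomial.C_mul', ← MvPolynomial.C_mul', a_lap, a_lap]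
  simp only [map_sub, map_add, map_mul, map_sum, cj_C, cj_X, cj_pderiv, h2, h3]

theorem ev_cj (x : V) (q : Py) : ev x (cj q) = starRingEnd ℂ (ev x q) := by
  induction q using MvPolynomial.induction_on with
  | C a => rw [cj_C]; simp [ev]
  | add p q hp hq => rw [map_add, map_add, hp, hq, map_add, map_add]
  | mul_X p i hp => rw [map_mul, map_mul, hp, cj_X, map_mul, map_mul]; simp [ev]

theorem eq_of_ev {p q : Py} (h : ∀ x, ev x p = ev x q) : p = q := by
  refine MvPolynomial.funext_set (fun _ => Set.range ((↑) : ℝ → ℂ))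
    (fun _ => Set.infinite_range_of_injective Complex.ofReal_injective) ?_
  intro x hx
  have hx' : ∀ i, ∃ r : ℝ, (r : ℂ) = x i := fun i => hx i (Set.mem_univ i)
  choose r hr using hx'
  have h1 := h (WithLp.toLp 2 r)
  have h2 : (fun i => (((WithLp.toLp 2 r : V) i : ℝ) : ℂ)) = x := funext hr
  simp only [ev] at h1
  rw [h2] at h1
  exact h1

theorem Rl_of_ev {q : Py} (h : ∀ x, (ev x q).im = 0) : Rl q := by
  refine eq_of_ev fun x => ?_
  rw [ev_cj]
  exact Complex.conj_eq_iff_im.2 (h x)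

theorem Rl.ev_re {q : Py} (h : Rl q) (x : V) : ev x q = ((ev x q).re : ℂ) := by
  have h1 := ev_cj x q
  rw [show cj q = q from h] at h1
  exact (Complex.conj_eq_iff_re.1 h1.symm).symm

theorem Rl_zero : Rl 0 := by
  exact map_zero cj

theorem Rl_one : Rl 1 := by
  exact map_one cj

theorem Rl_X (i : Fin 4) : Rl (X i) := by
  exact cj_X i

theorem Rl_C {a : ℂ} (h : a.im = 0) : Rl (C a) := by
  show cj (C a) = C a
  rw [cj_C, Complex.conj_eq_iff_im.2 h]

theorem Rl.add {p q : Py} (hp : Rl p) (hq : Rl q) : Rl (p + q) := by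
  show cj (p + q) = p + q
  rw [map_add, show cj p = p from hp, show cj q = q from hq]

theorem Rl.neg {p : Py} (hp : Rl p) : Rl (-p) := by
  show cj (-p) = -p
  rw [map_neg, show cj p = p from hp]

theorem Rl.sub {p q : Py} (hp : Rl p) (hq : Rl q) : Rl (p - q) := by
  show cj (p - q) = p - q
  rw [map_sub, show cj p = p from hp, show cj q = q from hq]

theorem Rl.mul {p q : Py} (hp : Rl p) (hq : Rl q) : Rl (p * q) := by
  show cj (p * q) = p * q
  rw [map_mul, show cj p = p from hp, show cj q = q from hq]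

theorem Rl_sum {ι : Type} (s : Finset ι) (f : ι → Py) (h : ∀ i ∈ s, Rl (f i)) : Rl (∑ i ∈ s, f i) := by
  show cj (∑ i ∈ s, f i) = ∑ i ∈ s, f i
  rw [map_sum]
  exact Finset.sum_congr rfl h

theorem Rl.dl1 {p : Py} (hp : Rl p) (i : Fin 4) : Rl (dl i p) := by
  show cj (dl i p) = dl i p
  rw [cj_dl, show cj p = p from hp]

theorem Rl.of_Tk {p : Py} {k : ℕ} (hk : 0 < k) (hp : Rl (Tk k p)) : Rl p := by
  refine Tk_inj hk ?_
  rw [← cj_Tk]
  exact hp

end Vale.Agent.P267I.KA
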