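import Vale.Agent.P267I.Y2

/-! The real supertrace of matrices of polynomials. Hints: `Matrix.trace`, `Matrix.mul_apply`, `C a * q = a • q` (`MvPolynomial.C_mul'`), linearity of `dl`, `Tk`. -/

open Matrix Finset MvPolynomial Filter Topology Metric
open scoped ContDiff

noncomputable section

namespace Vale.Agent.P267I.KA

open Vale.Agent.P267J

variable {N : ℕ} {B : Fin 4 → Fin 4 → Mat N} {γ E : Mat N} {o : Op N}

theorem y3_cm (w : Mat N) : cm w = (C : ℂ →+* Py).mapMatrix w := rfl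

theorem y3_lin (f : Py →ₗ[ℂ] Py) (Q : PM N) :
    (cm γ * Q.map f).trace = f (cm γ * Q).trace := by
  simp only [Matrix.trace, Matrix.diag, Matrix.mul_apply, cm, Matrix.map_apply, map_sum,
    MvPolynomial.C_mul', map_smul]

theorem cm_add (a b : Mat N) : cm (a + b) = cm a + cm b := by
  simp only [y3_cm, map_add]

theorem cm_neg (a : Mat N) : cm (-a) = -cm a := by
  simp only [y3_cm, map_neg]

theorem cm_sub (a b : Mat N) : cm (a - b) = cm a - cm b := by
  simp only [y3_cm, map_sub]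

theorem cm_mul (a b : Mat N) : cm (a * b) = cm a * cm b := by
  simp only [y3_cm, map_mul]

theorem cm_one : cm (1 : Mat N) = 1 := by
  simp only [y3_cm, map_one]

theorem cm_zero : cm (0 : Mat N) = 0 := by
  simp only [y3_cm, map_zero]

theorem cm_sum {ι : Type} (s : Finset ι) (f : ι → Mat N) : cm (∑ i ∈ s, f i) = ∑ i ∈ s, cm (f i) := by
  simp only [y3_cm, map_sum]

theorem cm_smul (a : ℂ) (w : Mat N) : cm (a • w) = (C a : Py) • cm w := by
  ext1 i j
  simp [cm]

theorem rq_zero : rq γ (0 : PM N) = 0 := by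
  simp [rq]

theorem rq_add (P Q : PM N) : rq γ (P + Q) = rq γ P + rq γ Q := by
  simp only [rq, Matrix.mul_add, Matrix.trace_add, map_add]
  ring

theorem rq_neg (P : PM N) : rq γ (-P) = -rq γ P := by
  simp only [rq, Matrix.mul_neg, Matrix.trace_neg, map_neg]
  ring

theorem rq_sub (P Q : PM N) : rq γ (P - Q) = rq γ P - rq γ Q := by
  simp only [rq, Matrix.mul_sub, Matrix.trace_sub, map_sub]
  ring

theorem rq_sum {ι : Type} (s : Finset ι) (f : ι → PM N) :
    rq γ (∑ i ∈ s, f i) = ∑ i ∈ s, rq γ (f i) := by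
  simp only [rq, Matrix.mul_sum, Matrix.trace_sum, map_sum, Finset.sum_add_distrib]

theorem rq_smul {s : Py} (hs : Rl s) (Q : PM N) : rq γ (s • Q) = s * rq γ Q := by
  simp only [rq, Matrix.mul_smul, Matrix.trace_smul, smul_eq_mul, map_mul]
  rw [show cj s = s from hs]
  ring

theorem rq_dl (j : Fin 4) (Q : PM N) : rq γ (Q.map (dl j)) = dl j (rq γ Q) := by
  rw [rq, rq, y3_lin, cj_dl, map_add]

theorem rq_Tk (k : ℕ) (Q : PM N) : rq γ (Q.map (Tk k)) = Tk k (rq γ Q) := by
  rw [rq, rq, y3_lin, cj_Tk, map_add]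

theorem rq_cm (w : Mat N) : rq γ (cm w) = C ((2 * tr γ w : ℝ) : ℂ) := by
  have h : (cm γ * cm w).trace = C (γ * w).trace := by
    rw [← cm_mul]
    simp only [Matrix.trace, Matrix.diag, cm, Matrix.map_apply, map_sum]
  rw [rq, h, cj_C, ← map_add, Complex.add_conj, tr]

theorem rq_of_Tk {k : ℕ} (hk : 0 < k) {Q : PM N} (h : rq γ (Q.map (Tk k)) = 0) : rq γ Q = 0 := by
  rw [rq_Tk] at h
  exact Tk_inj hk (h.trans (map_zero _).symm)

theorem ev_rq (x : V) (Q : PM N) : ev x (rq γ Q) = ((2 * tr γ (Q.map (ev x)) : ℝ) : ℂ) := by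
  have h : ev x (cm γ * Q).trace = (γ * Q.map (ev x)).trace := by
    simp only [Matrix.trace, Matrix.diag, Matrix.mul_apply, cm, Matrix.map_apply, map_sum, map_mul]
    simp only [ev, MvPolynomial.eval_C]
  rw [rq, map_add, ev_cj, h, Complex.add_conj, tr]

end Vale.Agent.P267I.KA
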