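import Vale.Agent.P267I.Y6

/-! The model operator on the explicit terms. -/

open Matrix Finset MvPolynomial Filter Topology Metric
open scoped ContDiff

noncomputable section

namespace Vale.Agent.P267I.KA

open Vale.Agent.P267J

variable {N : ℕ} {B : Fin 4 → Fin 4 → Mat N} {γ E : Mat N} {o : Op N}

theorem y7_sum (g : Fin 4 → Mat N) : cm (∑ j, g j) = ∑ j, cm (g j) :=
  map_sum (MvPolynomial.C : ℂ →+* Py).mapMatrix g univ

theorem y7_mul (v w : Mat N) : cm (v * w) = cm v * cm w :=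
  map_mul (MvPolynomial.C : ℂ →+* Py).mapMatrix v w

theorem y7_sub (v w : Mat N) : cm (v - w) = cm v - cm w :=
  map_sub (MvPolynomial.C : ℂ →+* Py).mapMatrix v w

theorem y7_fin (a : ℂ) (P Q : PM N) (b : ℂ) (h : b = 2 + a) :
    (C (((4 : ℕ) : ℂ) / 2) : Py) • P + (C 2⁻¹ : Py) • ((C (2 * a) : Py) • P) - (Q + Q) =
      (C b : Py) • P - (C 2 : Py) • Q := by
  have e1 : (C 2 : Py) • Q = Q + Q := by rw [show (C 2 : Py) = 2 from map_ofNat _ 2, two_smul]
  rw [e1, smul_smul, ← add_smul, ← C_mul, ← C_add, h]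
  congr 3
  push_cast
  ring

theorem T4_ss : (sx B * sx B).map (Tk 4) = (C 4 : Py) • (sx B * sx B) -
    (C 2 : Py) • (cm (∑ j, B j j) * sx B + sx B * cm (∑ j, B j j) +
      ∑ j, (bb B j + bt B j) * (bb B j + bt B j)) := by
  have e0 : ∑ i, (X i : Py) • (bb B i + bt B i) = sx B + sx B := by
    simp only [smul_add, sum_add_distrib, sum_X_bt]
    rfl
  have e1 : ∑ i, (X i : Py) • (sx B * sx B).map (pderiv i).toLinearMap =
      (C (2 * 2) : Py) • (sx B * sx B) := by
    have e2 : ∀ i, (X i : Py) • (sx B * sx B).map (pderiv i).toLinearMap =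
        ((X i : Py) • (bb B i + bt B i)) * sx B + sx B * ((X i : Py) • (bb B i + bt B i)) :=
      fun i => by rw [D_mul, D_sx, smul_add, Matrix.smul_mul, Matrix.mul_smul]
    simp only [e2, sum_add_distrib, ← Finset.sum_mul, ← Finset.mul_sum, e0]
    rw [show (C (2 * 2) : Py) = 4 by rw [show (2 * 2 : ℂ) = 4 by norm_num]; exact map_ofNat _ 4,
      show (4 : Py) = 1 + 1 + 1 + 1 by norm_num]
    simp only [add_smul, one_smul, add_mul, mul_add]
    abel
  rw [mp_Tk, e1, ← y7_fin 2 _ _ 4 (by norm_num)]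
  congr 1
  simp only [D_mul, D_sx, mp_add, D_bb, D_bt, y7_sum, Finset.sum_mul, Finset.mul_sum,
    ← sum_add_distrib]
  exact sum_congr rfl fun i _ => by noncomm_ring

theorem T4_ff (j : Fin 4) : ((bb B j - bt B j) * (bb B j - bt B j)).map (Tk 4) =
    (C 3 : Py) • ((bb B j - bt B j) * (bb B j - bt B j)) -
      (C 2 : Py) • cm (∑ k, (B j k - B k j) * (B j k - B k j)) := by
  have e0 : ∑ i, (X i : Py) • cm (B j i - B i j) = bb B j - bt B j := by
    simp only [y7_sub, smul_sub, sum_sub_distrib]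
    rfl
  have d : ∀ i, (bb B j - bt B j).map (pderiv i).toLinearMap = cm (B j i - B i j) := fun i => by
    rw [mp_sub, D_bb, D_bt, y7_sub]
  generalize bb B j - bt B j = f at e0 d ⊢
  have e1 : ∑ i, (X i : Py) • (f * f).map (pderiv i).toLinearMap =
      (C (2 * 1) : Py) • (f * f) := by
    have e2 : ∀ i, (X i : Py) • (f * f).map (pderiv i).toLinearMap =
        ((X i : Py) • cm (B j i - B i j)) * f + f * ((X i : Py) • cm (B j i - B i j)) :=
      fun i => by rw [D_mul, d, smul_add, Matrix.smul_mul, Matrix.mul_smul]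
    simp only [e2, sum_add_distrib, ← Finset.sum_mul, ← Finset.mul_sum, e0]
    rw [mul_one, show (C 2 : Py) = 2 from map_ofNat _ 2, two_smul]
  rw [mp_Tk, e1, ← y7_fin 1 _ _ 3 (by norm_num)]
  congr 1
  simp only [D_mul, d, mp_add, D_cm, y7_sum, y7_mul, ← sum_add_distrib, zero_mul, mul_zero,
    zero_add, add_zero]

end Vale.Agent.P267I.KA
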