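import Vale.Agent.P267I.Y7

/-! The model operator on `P4`. Hints: `mp_add`, `mp_C`, `mp_sum`, `T4_ss`, `T4_ff`, `Tk_cm`, `cm_add`, `cm_smul`, `cm_sum`; `f f - s s = -2 (bb bt + bt bb)`. -/

open Matrix Finset MvPolynomial Filter Topology Metric
open scoped ContDiff

noncomputable section

namespace Vale.Agent.P267I.KA

open Vale.Agent.P267J

variable {N : ℕ} {B : Fin 4 → Fin 4 → Mat N} {γ E : Mat N} {o : Op N}

theorem T4_p : (P4 B E).map (Tk 4) = (C 2⁻¹ : Py) • (sx B * sx B) -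
    (C 4⁻¹ : Py) • (cm (∑ j, B j j) * sx B + sx B * cm (∑ j, B j j)) -
      (C 2⁻¹ : Py) • ∑ j, (bb B j * bt B j + bt B j * bb B j) + cm (E * E) := by
  have hC1 : ∀ a : ℂ, ∀ Q : PM N, (C a : Py) • Q = a • Q := fun a Q => by
    ext1 i m
    simp only [Matrix.smul_apply, smul_eq_mul, C_mul']
  have e : ∑ j, (bb B j - bt B j) * (bb B j - bt B j) = ∑ j, (bb B j + bt B j) * (bb B j + bt B j) -
      (2 : ℂ) • ∑ j, (bb B j * bt B j + bt B j * bb B j) := by
    rw [smul_sum, ← sum_sub_distrib]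
    refine sum_congr rfl fun j _ => ?_
    rw [two_smul]; noncomm_ring
  rw [P4, mp_add, mp_add, mp_C, mp_C, mp_sum, T4_ss, Tk_cm]
  simp only [T4_ff, sum_sub_distrib, cm_add, cm_smul, hC1, ← smul_sum, ← cm_sum]
  rw [e]
  push_cast
  module

end Vale.Agent.P267I.KA
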