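import Vale.Agent.P267I.HD
import Vale.Agent.P267J.A
import Vale.Agent.P267J.T
import Vale.Agent.P267I.Cl

/-! The algebra of the heat coefficients: definitions. FROZEN. -/

open Matrix Finset MvPolynomial

noncomputable section

namespace Vale.Agent.P267I.KA

open Vale.Agent.P267J

/-- Matrices of polynomials. -/
abbrev PM (N : ℕ) := Matrix (Fin N) (Fin N) Py

variable {N : ℕ}

/-- Conjugation of the coefficients. -/
def cj : Py →+* Py := MvPolynomial.map (starRingEnd ℂ)

/-- Real polynomials. -/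
def Rl (q : Py) : Prop := cj q = q

/-- Constant matrices. -/
def cm (w : Mat N) : PM N := w.map MvPolynomial.C

/-- The real part of the supertrace. -/
def tr (γ w : Mat N) : ℝ := (γ * w).trace.re

/-- Twice the real part of the supertrace of a matrix of polynomials. -/
def rq (γ : Mat N) (Q : PM N) : Py := (cm γ * Q).trace + cj (cm γ * Q).trace

/-- Real scalar matrices. -/
def Sc (Q : PM N) : Prop := ∃ s, Rl s ∧ Q = s • (1 : PM N)

/-- Taylor polynomials of a matrix function. -/
def TM (F : V → Mat N) (l : ℕ) : PM N := Matrix.of fun i m => tay (fun z => F z i m) l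

/-- Taylor polynomials of the first order coefficients. -/
def TB (o : Op N) (j : Fin 4) (l : ℕ) : PM N := Matrix.of fun i m => tay (o.b j i m) l

/-- Taylor polynomials of the order zero coefficients. -/
def TC (o : Op N) (l : ℕ) : PM N := Matrix.of fun i m => tay (o.c i m) l

/-- The perturbation acting on matrices. -/
def MM (o : Op N) (l : ℕ) (Q : PM N) : PM N :=
  -(∑ j, ∑ k, tay (o.a j k) (l + 1) • (Q.map (dl k)).map (dl j)) + ∑ j, TB o j l * Q.map (dl j) +
    if l = 0 then 0 else TC o (l - 1) * Q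

/-- The coefficients of the parametrix as matrices. -/
def PP (o : Op N) (k : ℕ) : PM N := Matrix.of fun i m => pk o (Pi.single m 1) k i

variable (B : Fin 4 → Fin 4 → Mat N)

/-- The linear part of the connection. -/
def bb (j : Fin 4) : PM N := ∑ k, (X k : Py) • cm (B j k)

/-- The transposed linear part. -/
def bt (j : Fin 4) : PM N := ∑ k, (X k : Py) • cm (B k j)

/-- The quadratic form. -/
def sx : PM N := ∑ j, (X j : Py) • bb B j

/-- Real polynomial combinations of the `B j k`. -/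
def SK (U : PM N) : Prop :=
  ∃ q : Fin 4 → Fin 4 → Py, (∀ j k, Rl (q j k)) ∧ U = ∑ j, ∑ k, q j k • cm (B j k)

/-- The explicit part of the term of weight four. -/
def P4 (E : Mat N) : PM N :=
  (C 8⁻¹ : Py) • (sx B * sx B) + (C 12⁻¹ : Py) • ∑ j, (bb B j - bt B j) * (bb B j - bt B j) +
    cm ((1 / 2 : ℂ) • (E * E) + (1 / 12 : ℂ) • ∑ j, ∑ k, (B j k - B k j) * (B j k - B k j))

/-- The algebraic facts. -/
structure AF (γ E : Mat N) : Prop where
  gH : γᴴ = γ
  gg : γ * γ = 1
  g1 : tr γ 1 = 0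
  EH : Eᴴ = E
  Et : tr γ E = 0
  BH : ∀ j k, (B j k)ᴴ = -B j k
  Bt : ∀ j k, tr γ (B j k) = 0
  BE : ∀ j k, tr γ (B j k * E) = 0
  EB : ∀ j k, tr γ (E * B j k) = 0

/-- The normal form of the Taylor coefficients. -/
structure NF (γ E : Mat N) (o : Op N) : Prop where
  af : AF B γ E
  a : ∀ j k l, Rl (tay (o.a j k) l)
  b0 : ∀ j, Sc (TB o j 0)
  b1 : ∀ j, Sc (TB o j 1 + (C 2 : Py) • bb B j)
  b : ∀ j l, rq γ (TB o j l) = 0
  c0 : TC o 0 = cm (E - ∑ j, B j j)
  c1 : rq γ (TC o 1) = 0
  c2 : rq γ (TC o 2 + ∑ j, bb B j * bb B j) = 0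
  ρ : o.ρ 0 = 1

/-- The solution of the recursion. -/
structure RS (γ E : Mat N) (o : Op N) : Prop where
  p0 : PP o 0 = 1
  p1 : Sc (PP o 1)
  p2 : Sc (PP o 2 + (cm E + (C 2⁻¹ : Py) • sx B))
  p3 : rq γ (PP o 3) = 0
  p4 : rq γ (PP o 4 - P4 B E) = 0

end Vale.Agent.P267I.KA
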