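import Vale.Agent.P267I.ZD
import Vale.Agent.P267J.N3

/-! Linearity of the parametrix in the initial vector, and the supertrace. -/

open scoped ContDiff Matrix.Norms.L2Operator ComplexConjugate
open Matrix MeasureTheory Metric Finset

noncomputable section

namespace Vale.Agent.P267I.Z

open Vale.Agent.P267J Vale.Agent.P267I.H

variable {N : ℕ}

/-- The perturbation as a linear map. -/
def MlL (o : P267J.Op N) (l : ℕ) : (Fin N → Py) →ₗ[ℂ] (Fin N → Py) where
  toFun q := Ml o l q
  map_add' p q := by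
    funext i
    simp only [Ml, Pi.add_apply, map_add, mul_add, sum_add_distrib]
    split_ifs <;> ring
  map_smul' a q := by
    funext i
    simp only [Ml, Pi.smul_apply, map_smul, mul_smul_comm, ← smul_sum, RingHom.id_apply, smul_add,
      smul_neg]
    split_ifs <;> simp

theorem pk_lin (o : P267J.Op N) (ξ : Fin N → ℂ) (k : ℕ) :
    pk o ξ k = ∑ m, ξ m • pk o (Pi.single m 1) k := by
  induction k using Nat.strong_induction_on with
  | _ k ih =>
    funext i
    cases k with
    | zero =>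
      simp only [pk, Finset.sum_apply, Pi.smul_apply]
      rw [sum_eq_single i]
      · simp [MvPolynomial.smul_eq_C_mul]
      · intro m _ hm
        simp [Pi.single_eq_of_ne hm.symm]
      · simp
    | succ k =>
      have e : ∀ l : Fin (k + 1), Ml o l (pk o ξ (k - l)) i =
          ∑ m, ξ m • Ml o l (pk o (Pi.single m 1) (k - l)) i := fun l => by
        rw [ih (k - l) (by omega)]
        have := congrFun (map_sum (MlL o l) (fun m => ξ m • pk o (Pi.single m 1) (k - l)) univ) i
        simp only [map_smul, Finset.sum_apply, Pi.smul_apply] at this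
        exact this
      simp only [Finset.sum_apply, Pi.smul_apply]
      rw [pk]
      simp only [e]
      rw [sum_comm]
      simp only [pk, ← map_smul, ← map_sum, smul_neg, sum_neg_distrib, smul_sum]

theorem ev_pk (o : P267J.Op N) (ξ : Fin N → ℂ) (k : ℕ) (x : V) (i : Fin N) :
    ev x (pk o ξ k i) = ∑ m, PK o k x i m * ξ m := by
  rw [pk_lin]
  simp only [Finset.sum_apply, Pi.smul_apply, map_sum, PK, of_apply, MvPolynomial.smul_eq_C_mul,
    map_mul, w_C]
  exact sum_congr rfl fun m _ => mul_comm _ _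

theorem gam_star (C : Cl N) : C.gamᴴ = C.gam := by
  have h : ∀ a b, a ≠ b → C.c a * C.c b = -(C.c b * C.c a) := fun a b hab => by
    have := C.rel a b
    rw [if_neg hab] at this
    exact eq_neg_of_add_eq_zero_left this
  have h2 : ∀ a b, a ≠ b → ∀ Y, C.c a * (C.c b * Y) = -(C.c b * (C.c a * Y)) := fun a b hab Y => by
    rw [← mul_assoc, h a b hab, neg_mul, mul_assoc]
  simp only [Cl.gam, conjTranspose_mul, C.skew, mul_neg, neg_mul, neg_neg, mul_assoc]
  rw [h 1 0 (by decide), mul_neg, mul_neg, h2 2 0 (by decide), mul_neg, neg_neg,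
    h2 3 0 (by decide), h 2 1 (by decide), mul_neg, mul_neg, neg_neg, h2 3 1 (by decide),
    h 3 2 (by decide)]
  simp

theorem gam_sq (C : Cl N) : C.gam * C.gam = 1 := by
  have h1 : ∀ a, (C.c a)ᴴ * C.c a = 1 := fun a => by
    have := C.rel a a
    rw [if_pos rfl, ← two_smul ℂ] at this
    have h2 : C.c a * C.c a = -1 := by
      have h3 : (2 : ℂ) • (C.c a * C.c a) = (2 : ℂ) • (-1 : Mat N) := by
        rw [this]; simp
      exact smul_right_injective _ (two_ne_zero) h3
    rw [C.skew, neg_mul, h2, neg_neg]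
  have h2 : ∀ a Y, (C.c a)ᴴ * (C.c a * Y) = Y := fun a Y => by rw [← mul_assoc, h1, one_mul]
  calc C.gam * C.gam = C.gamᴴ * C.gam := by rw [gam_star]
    _ = 1 := by simp only [Cl.gam, conjTranspose_mul, mul_assoc, h2, h1]

theorem col_sum (P Q B : Mat N) :
    ∑ m, ∑ i, conj (∑ n, P i n * B n m) * ∑ n, Q i n * B n m = (B * Bᴴ * (Pᴴ * Q)).trace := by
  have : (B * Bᴴ * (Pᴴ * Q)).trace = ((P * B)ᴴ * (Q * B)).trace := by
    rw [conjTranspose_mul, mul_assoc B, trace_mul_comm]
    simp only [mul_assoc]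
  rw [this]
  simp only [trace, diag_apply, mul_apply, conjTranspose_apply, RCLike.star_def]

theorem proj_diff (C : Cl N) :
    ((1 / 2 : ℂ) • (1 + (1 : ℂ) • C.gam)) * ((1 / 2 : ℂ) • (1 + (1 : ℂ) • C.gam))ᴴ -
      ((1 / 2 : ℂ) • (1 + (-1 : ℂ) • C.gam)) * ((1 / 2 : ℂ) • (1 + (-1 : ℂ) • C.gam))ᴴ = C.gam := by
  have h2 : star (1 / 2 : ℂ) = 1 / 2 := by simp
  simp only [conjTranspose_smul, conjTranspose_add, conjTranspose_one, gam_star, h2, star_one,
    star_neg, smul_mul_assoc, mul_smul_comm, add_mul, mul_add, one_mul, mul_one, gam_sq]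
  module

theorem Qk_str (C : Cl N) (o : P267J.Op N) (k : ℕ) (x : V) :
    ∑ m, (Qk o (Pc C 1 m) k x - Qk o (Pc C (-1) m) k x) =
      ∑ p ∈ antidiagonal k, (ev x (tay o.ρ p.1)).re *
        ∑ q ∈ antidiagonal p.2, (C.gam * ((PK o q.1 x)ᴴ * PK o q.2 x)).trace.re := by
  simp only [Qk, ← sum_sub_distrib, ← mul_sub]
  rw [sum_comm]
  refine sum_congr rfl fun p _ => ?_
  rw [← mul_sum, sum_comm]
  congr 1
  refine sum_congr rfl fun q _ => ?_
  simp only [ev_pk, Pc]
  rw [sum_sub_distrib, ← Complex.re_sum, ← Complex.re_sum, col_sum, col_sum, ← Complex.sub_re,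
    ← trace_sub, ← sub_mul, proj_diff]

theorem Qk_int (o : P267J.Op N) (ξ : Fin N → ℂ) (k : ℕ) :
    Integrable fun x => Gs 1 x ^ 2 * Qk o ξ k x := by
  have hb : ∀ q : Py, Integrable fun x : V => Gs 1 x ^ 2 * (ev x q).re := fun q => by
    obtain ⟨C, d, hC, h⟩ := b_ev q
    have := n3_int (s := 1) one_pos (f := fun x => (ev x q).re)
      (Complex.continuous_re.comp (ev_smooth q).continuous) hC
      fun x => (Complex.abs_re_le_norm _).trans (h x)
    simpa using this
  have hc : ∀ (x : V) (q : Py), conj (ev x q) = ev x (MvPolynomial.map (starRingEnd ℂ) q) := by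
    intro x q
    induction q using MvPolynomial.induction_on with
    | C a => simp [w_C]
    | add p q hp hq => simp [hp, hq]
    | mul_X p i hp => simp [hp, w_X]
  have hr : ∀ (x : V) (p q : Py), (ev x p).re * (ev x q).re =
      (ev x (MvPolynomial.C 2⁻¹ * ((p + MvPolynomial.map (starRingEnd ℂ) p) * q))).re := by
    intro x p q
    rw [map_mul, map_mul, map_add, ← hc, w_C, Complex.add_conj]
    simp
    ring
  simp only [Qk, mul_sum, hc, ← map_mul, ← map_sum, hr]
  exact integrable_finsetSum _ fun p _ => integrable_finsetSum _ fun q _ => hb _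

theorem str_eq (C : Cl N) (o : P267J.Op N) (k : ℕ) :
    str C o k = ∫ x, Gs 1 x ^ 2 * ∑ p ∈ antidiagonal k, (ev x (tay o.ρ p.1)).re *
      ∑ q ∈ antidiagonal p.2, (C.gam * ((PK o q.1 x)ᴴ * PK o q.2 x)).trace.re := by
  simp only [← Qk_str]
  simp only [mul_sum, mul_sub]
  rw [integral_finsetSum (f := fun m x => Gs 1 x ^ 2 * Qk o (Pc C 1 m) k x -
    Gs 1 x ^ 2 * Qk o (Pc C (-1) m) k x) _ fun m _ => (Qk_int o _ k).sub (Qk_int o _ k)]
  exact sum_congr rfl fun m _ => (integral_sub (Qk_int o _ k) (Qk_int o _ k)).symm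

end Vale.Agent.P267I.Z
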