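import Vale.Agent.P267I.ZA
import Vale.Agent.P267I.KI3
import Vale.Agent.P267J.T

/-! The supertrace of the coefficients. -/

open scoped ContDiff Matrix.Norms.L2Operator ComplexConjugate Topology
open Matrix MeasureTheory Metric Finset Filter

noncomputable section

namespace Vale.Agent.P267I.Z

open Vale.Agent.P267J Vale.Agent.P267I.H

variable {N : ℕ} {τ : Mat N →L[ℝ] ℝ} {W g : Submodule ℝ (Mat N)} {r : ℝ} {L : Lap N}

theorem pdM_mem (hg : IsClosed (g : Set (Mat N))) (hr : 0 < r) {F : V → Mat N}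
    (hF : ∀ i m, ContDiffOn ℝ ∞ (fun z => F z i m) (ball 0 r)) (hm : ∀ z ∈ ball (0 : V) r, F z ∈ g)
    (j : Fin 4) : pdM j F 0 ∈ g := by
  have hl : HasDerivAt (fun t : ℝ => t • (EuclideanSpace.single j (1 : ℝ) : V))
      (EuclideanSpace.single j (1 : ℝ)) 0 := by
    simpa using (hasDerivAt_id (0 : ℝ)).smul_const (EuclideanSpace.single j (1 : ℝ) : V)
  have hd : ∀ i m, HasDerivAt (fun t : ℝ => F (t • (EuclideanSpace.single j (1 : ℝ) : V)) i m)
      (pdM j F 0 i m) 0 := fun i m => by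
    have h1 := ((hF i m).contDiffAt (ball_mem_nhds 0 hr)).differentiableAt (by simp)
    have h2 : HasFDerivAt (fun z => F z i m) (fderiv ℝ (fun z => F z i m) 0)
        ((0 : ℝ) • (EuclideanSpace.single j (1 : ℝ) : V)) := by
      rw [zero_smul]
      exact h1.hasFDerivAt
    exact h2.comp_hasDerivAt (0 : ℝ) hl
  have ht : Tendsto (fun t : ℝ => t⁻¹ • (F (t • (EuclideanSpace.single j (1 : ℝ) : V)) - F 0))
      (𝓝[≠] 0) (𝓝 (pdM j F 0)) := by
    refine tendsto_pi_nhds.2 fun i => tendsto_pi_nhds.2 fun m => ?_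
    have := (hd i m).tendsto_slope_zero
    simpa using this
  refine hg.mem_of_tendsto ht ?_
  have hb : ∀ᶠ t : ℝ in 𝓝 0, t • (EuclideanSpace.single j (1 : ℝ) : V) ∈ ball (0 : V) r := by
    refine hl.continuousAt.eventually (p := fun y => y ∈ ball (0 : V) r) ?_
    simp only [zero_smul]
    exact ball_mem_nhds (0 : V) hr
  filter_upwards [nhdsWithin_le_nhds hb] with t h
  exact g.smul_mem _ (g.sub_mem (hm _ h) (hm _ (mem_ball_self hr)))

/-- The inner sum of weight `n`. -/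
def In (τ : Mat N →L[ℝ] ℝ) (L : Lap N) (n : ℕ) (x : V) : ℝ :=
  ∑ q ∈ antidiagonal n, τ (star (PK L.op q.1 x) * PK L.op q.2 x)

theorem In_val {γ : Mat N} (hA : K.Alg τ W g) (hτ : ∀ Y, τ Y = (γ * Y).trace.re) (hr : 0 < r)
    (hL : L.Ok W g r) (h : Str L γ) (x : V) :
    In τ L 0 x = 0 ∧ In τ L 1 x = 0 ∧ In τ L 2 x = 0 ∧ In τ L 3 x = 0 ∧
      In τ L 4 x = 2 * τ (P4 L x) + τ (L.E 0 * L.E 0) := by
  have hσ : sg L x ∈ g := g.sum_mem fun j _ => g.sum_mem fun i _ =>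
    g.smul_mem _ (pdM_mem hA.clg hr (hL.A i) (hL.Ag i) j)
  have hE : L.E 0 ∈ W := hL.EW 0 (mem_ball_self hr)
  have hEs : star (L.E 0) = L.E 0 := hL.Est 0 (mem_ball_self hr)
  have hσs := hA.skew _ hσ
  have t1 := hA.ker _ hA.one
  have tE := hA.ker _ hE
  have tσ := hA.ker _ (hA.le hσ)
  have tc := hA.ker _ (hA.adW _ hσ _ hE)
  have ts := hA.tst (sg L x * L.E 0)
  rw [star_mul, hEs, hσs, mul_neg, map_neg] at ts
  rw [map_sub] at tc
  obtain ⟨s1, h1⟩ := h.p1 x
  obtain ⟨s2, h2⟩ := h.p2 x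
  have h3 := h.p3 x
  have h4 := h.p4 x
  rw [← hτ] at h3 h4
  have h3' := hA.tst (PK L.op 3 x)
  have h4' := hA.tst (PK L.op 4 x)
  have t2 : τ (PK L.op 2 x) = 0 := by
    rw [h2]
    simp [t1, tE, tσ]
  have t2' := hA.tst (PK L.op 2 x)
  have t22 : τ (star (PK L.op 2 x) * PK L.op 2 x) =
      τ (L.E 0 * L.E 0) - 1 / 4 * τ (sg L x * sg L x) := by
    rw [h2]
    simp only [star_sub, star_smul, star_one, hEs, hσs, star_trivial, sub_mul, mul_sub,
      smul_mul_assoc, mul_smul_comm, one_mul, mul_one, neg_mul, smul_neg, map_sub, map_smul,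
      map_neg, smul_eq_mul, t1, tE, tσ]
    linarith
  simp only [map_sub, map_add, map_smul, smul_eq_mul] at h4
  simp only [In, Finset.Nat.antidiagonal_succ, Finset.Nat.antidiagonal_zero, sum_cons, sum_map,
    sum_singleton, Function.Embedding.coe_prodMap, Function.Embedding.coeFn_mk, Prod.map,
    Function.Embedding.refl_apply, Nat.succ_eq_add_one, Nat.reduceAdd, h.p0, h1, t22, star_one,
    one_mul, mul_one, star_smul, star_trivial, smul_mul_assoc, mul_smul_comm, map_smul,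
    smul_eq_mul, t1, t2, t2', h3, h3', h4']
  refine ⟨trivial, by simp, by simp, by simp, by linarith⟩

theorem gauss_den (C : Cl N) (hτ : ∀ Y, τ Y = (C.gam * Y).trace.re) (L : Lap N) :
    ∫ x, Gs 1 x ^ 2 * (2 * τ (P4 L x) + τ (L.E 0 * L.E 0)) = L.den C := by
  rw [← (PiLp.volume_preserving_toLp (Fin 4)).integral_comp
    (MeasurableEquiv.toLp 2 (Fin 4 → ℝ)).measurableEmbedding]
  have e : ∀ y : K.E4, Gs 1 (WithLp.toLp 2 y) = K.gs 1 y := fun y => by
    simp [Gs, K.gs, K.r2, EuclideanSpace.real_norm_sq_eq]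
  have e2 : ∀ y : K.E4, P4 L (WithLp.toLp 2 y) = K.P4 (L.E 0) (fun i j => L.F i j 0) y :=
    fun y => rfl
  simp only [e, e2]
  rw [K.gs_dens, K.dens0, Lap.den, hτ]
  have c1 : ∀ Y : Mat N, (1 / 2 : ℝ) • Y = (1 / 2 : ℂ) • Y := fun Y => by
    rw [← Complex.coe_smul]; norm_num
  have c2 : ∀ Y : Mat N, (1 / 12 : ℝ) • Y = (1 / 12 : ℂ) • Y := fun Y => by
    rw [← Complex.coe_smul]; norm_num
  rw [c1, c2]
  congr 2
  ring

theorem alg0_of (h : ∀ (C : Cl N) (τ : Mat N →L[ℝ] ℝ) (W g : Submodule ℝ (Mat N)) (r : ℝ)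
    (L : Lap N), K.Alg τ W g → (∀ Y, τ Y = (C.gam * Y).trace.re) → 0 < r → L.Ok W g r →
    (∀ j, L.A j 0 = 0) → Str L C.gam) : Alg0 N := by
  intro C τ W g hA hτ r L hr hL h0 k hk
  have hv := In_val hA hτ hr hL (h C τ W g r L hA hτ hr hL h0)
  have e : ∀ x, ∑ p ∈ antidiagonal k, (ev x (tay L.op.ρ p.1)).re *
      ∑ q ∈ antidiagonal p.2, (C.gam * ((PK L.op q.1 x)ᴴ * PK L.op q.2 x)).trace.re =
      ∑ p ∈ antidiagonal k, (ev x (tay L.op.ρ p.1)).re * In τ L p.2 x := fun x => by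
    simp only [In, hτ, star_eq_conjTranspose]
  have hρ : ∀ x, (ev x (tay L.op.ρ 0)).re = 1 := fun x => by
    rw [tay_zero, w_C]
    simp [Lap.op, hL.ρ0]
  rw [str_eq]
  simp only [e]
  interval_cases k <;>
    simp only [Finset.Nat.antidiagonal_succ, Finset.Nat.antidiagonal_zero, sum_cons, sum_map,
      sum_singleton, Function.Embedding.coe_prodMap, Function.Embedding.coeFn_mk, Prod.map,
      Function.Embedding.refl_apply, Nat.succ_eq_add_one, Nat.reduceAdd, fun x => (hv x).1,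
      fun x => (hv x).2.1, fun x => (hv x).2.2.1, fun x => (hv x).2.2.2.1,
      fun x => (hv x).2.2.2.2, hρ, mul_zero, add_zero, one_mul, integral_zero]
  · simp
  · simp
  · simp
  · simp
  · rw [if_pos trivial]
    exact gauss_den C hτ L

end Vale.Agent.P267I.Z
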