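import Vale.Agent.P267I.ZB
import Vale.Agent.P267J.YB
import Vale.Agent.P267J.YC
import Vale.Agent.P267J.YQ

/-! The algebra of the local index theorem. -/

open scoped ContDiff Matrix.Norms.L2Operator ComplexConjugate Topology
open Matrix MeasureTheory Metric Finset Filter

noncomputable section

namespace Vale.Agent.P267I.Z

open Vale.Agent.P267J Vale.Agent.P267I.H

variable {N : ℕ} {τ : Mat N →L[ℝ] ℝ} {W g : Submodule ℝ (Mat N)} {r : ℝ} {L : Lap N}

theorem evM_eq (x : V) (P : Y.MP N) : Y.evM x P = (ev x).mapMatrix P := rfl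

theorem ev_smul (x : V) (p : Py) (P : Y.MP N) :
    (ev x).mapMatrix (p • P) = ev x p • (ev x).mapMatrix P := by
  ext i m
  simp

theorem ev_cst (x : V) (w : Mat N) : (ev x).mapMatrix (Y.cst w) = w := by
  ext i m
  simp [Y.cst, w_C]

theorem ev_lin (x : V) (T : Fin 4 → Mat N) :
    (ev x).mapMatrix (∑ k, (MvPolynomial.X k : Py) • Y.cst (T k)) = ∑ k, x k • T k := by
  simp only [map_sum, ev_smul, ev_cst, w_X, Complex.coe_smul]

theorem ev_sg (x : V) (L : Lap N) : (ev x).mapMatrix (Y.sg (S L)) = sg L x := by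
  simp only [Y.sg, Y.aM, map_sum, ev_smul, ev_cst, smul_sum, smul_smul, sg]
  rw [sum_comm]
  exact sum_congr rfl fun j _ => sum_congr rfl fun i _ => by
    rw [map_mul, w_X, w_X, ← Complex.ofReal_mul, Complex.coe_smul, mul_comm]

theorem inv_smul (a : ℝ) (Y : Mat N) : ((a : ℂ)⁻¹) • Y = (1 / a : ℝ) • Y := by
  rw [← Complex.coe_smul]
  simp

theorem ev_u (x : V) (L : Lap N) :
    (ev x).mapMatrix (Y.uM (L.E 0) (S L)) = -L.E 0 - (1 / 2 : ℝ) • sg L x := by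
  rw [Y.uM, map_sub, map_neg, ev_cst, ev_smul, ev_sg, w_C, ← inv_smul]
  norm_num

theorem str_ex {γ : Mat N} (hA : K.Alg τ W g) (hτ : ∀ Y, τ Y = (γ * Y).trace.re) (hr : 0 < r)
    (hL : L.Ok W g r) (h0 : ∀ j, L.A j 0 = 0) : Str L γ := by
  have hE : L.E 0 ∈ W := hL.EW 0 (mem_ball_self hr)
  have hN : Y.NF (L.E 0) (S L) W g L.op :=
    { a := Y.nf_a hA hr hL h0
      ρ0 := by simp [Lap.op, hL.ρ0]
      b0 := Y.nf_b0 hA hr hL h0
      b1 := Y.nf_b1 hA hr hL h0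
      bW := Y.nf_bW hA hr hL h0
      c0 := Y.nf_c0 hA hr hL h0
      c1 := Y.nf_c1 hA hr hL h0
      c2 := Y.nf_c2 hA hr hL h0
      EW := hE
      Est := hL.Est 0 (mem_ball_self hr)
      Sg := Y.nf_S hA hr hL h0 }
  have h := Y.rc hA hN
  have e : ∀ k x, PK L.op k x = (ev x).mapMatrix (Y.PM L.op k) := fun k x => rfl
  have hσ : ∀ x, sg L x ∈ g := fun x => g.sum_mem fun j _ => g.sum_mem fun i _ =>
    g.smul_mem _ (hN.Sg j i)
  have hF : ∀ j i, L.F j i 0 = S L j i - S L i j := fun j i => by simp [Lap.F, S, h0]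
  refine ⟨fun x => ?_, fun x => ?_, fun x => ?_, fun x => ?_, fun x => ?_⟩
  · rw [e, h.p0, map_one]
  · obtain ⟨p, hp, h1⟩ := h.p1
    refine ⟨(ev x p).re, ?_⟩
    rw [e, h1, ev_smul, map_one, ← Complex.coe_smul, hp.ev]
  · obtain ⟨p, hp, h1⟩ := h.p2
    refine ⟨(ev x p).re, ?_⟩
    rw [e, h1, map_add, ev_smul, map_one, ev_u, ← Complex.coe_smul (ev x p).re, hp.ev]
    abel
  · rw [← hτ, e]
    exact hA.ker _ (h.p3.ev x)
  · rw [← hτ, e]
    have h4 := hA.ker _ (h.p4.ev x)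
    have tc := hA.ker _ (hA.adW _ (hσ x) _ hE)
    have ef : ∀ j, (ev x).mapMatrix (Y.fM (S L) j) = ∑ k, x k • L.F k j 0 := fun j => by
      simp only [hF]
      exact ev_lin x _
    have ev4 : (ev x).mapMatrix (Y.vM (S L)) = (1 / 12 : ℝ) • (∑ i, ∑ j, L.F j i 0 * L.F j i 0) +
        (1 / 12 : ℝ) • ∑ i, ∑ j, ∑ k, (x j * x k) • (L.F j i 0 * L.F k i 0) := by
      rw [Y.vM, ev_smul, map_add, ev_cst, map_sum, w_C, smul_add, add_comm, ← inv_smul,
        ← inv_smul]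
      simp only [map_mul, ef, ← hF, sum_mul_sum, smul_mul_smul_comm]
      norm_num
    rw [evM_eq, map_sub, Y.gM, map_add, ev_smul, map_mul, ev_u, ev4, w_C,
      show (2⁻¹ : ℂ) = ((2 : ℝ) : ℂ)⁻¹ by norm_num, inv_smul] at h4
    simp only [P4, sub_mul, mul_sub, neg_mul, mul_neg, smul_mul_assoc, mul_smul_comm,
      map_sub, map_add, map_neg, map_smul, smul_eq_mul] at h4 tc ⊢
    linarith

theorem alg0 (N : ℕ) : Alg0 N :=
  alg0_of fun _ _ _ _ _ _ hA hτ hr hL h0 => str_ex hA hτ hr hL h0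

end Vale.Agent.P267I.Z
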