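import Vale.Agent.P267I.ZN2

/-! The structure of the coefficients of the parametrix. -/

open scoped ContDiff Topology ComplexConjugate Matrix.Norms.L2Operator
open Filter Matrix Metric

noncomputable section

namespace Vale.Agent.P267I.Z9

open Vale.Agent.P267J Vale.Agent.P267I.H MvPolynomial

variable {N : ℕ} {U W g : Submodule ℝ (Mat N)} {L : Lap N} {r : ℝ} {Y : MP N}

/-- The matrix of the coefficients. -/
def PM (L : Lap N) (k : ℕ) : MP N := Matrix.of fun i m => pk L.op (Pi.single m 1) k i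

/-- First order coefficient. -/
def bM (L : Lap N) (j : Fin 4) (z : V) : Mat N :=
  (L.β j z : ℂ) • (1 : Mat N) + -∑ k, ((L.a j k z + L.a k j z : ℝ) : ℂ) • L.A k z

/-- The linear part of the coefficient of order zero. -/
def c1 (L : Lap N) (z : V) : Mat N :=
  -(∑ j, ∑ k, (L.a j k z : ℂ) • pdM j (L.A k) z) + ∑ j, (L.β j z : ℂ) • L.A j z + L.E z

/-- The coefficient of order zero. -/
def cM (L : Lap N) (z : V) : Mat N :=
  c1 L z + -∑ j, ∑ k, (L.a j k z : ℂ) • (L.A j z * L.A k z)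

/-- The scalar part. -/
def Sc (L : Lap N) (l : ℕ) (Y : MP N) : MP N :=
  -∑ j, ∑ k, tay (fun z => (L.a j k z : ℂ)) (l + 1) • mp (dl j) (mp (dl k) Y)

/-- The potential part. -/
def Cc (L : Lap N) (l : ℕ) : MP N := if l = 0 then 0 else tM (cM L) (l - 1)

/-- The perturbation. -/
def MM (L : Lap N) (l : ℕ) (Y : MP N) : MP N :=
  Sc L l Y + ∑ j, tM (bM L j) l * mp (dl j) Y + Cc L l * Y

theorem MM_apply (l : ℕ) (Y : MP N) (i m : Fin N) :
    MM L l Y i m = Ml L.op l (fun i => Y i m) i := by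
  have hb : ∀ j i m, L.op.b j i m = fun z => bM L j z i m := fun j i m => by
    funext z
    simp only [Lap.op, bM, Matrix.add_apply, Matrix.neg_apply, Matrix.sum_apply, Matrix.smul_apply,
      smul_eq_mul, Matrix.one_apply, mul_ite, mul_one, mul_zero, sub_eq_add_neg]
  have hc : ∀ i m, L.op.c i m = fun z => cM L z i m := fun i m => by
    funext z
    simp only [Lap.op, cM, c1, smul_add, Finset.sum_add_distrib]
    refine congrFun (congrFun ?_ i) m
    abel
  simp only [Ml, hb, hc, MM, Sc, Cc, Matrix.add_apply, Matrix.neg_apply, Matrix.sum_apply,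
    Matrix.smul_apply, smul_eq_mul, Matrix.mul_apply]
  split_ifs
  · simp only [Matrix.zero_apply, zero_mul, Finset.sum_const_zero]
    rfl
  · rfl

theorem PM_rec (k n : ℕ) (h : n = k + 1) : mp (Tk n) (PM L n) =
    -∑ l ∈ Finset.range (k + 1), MM L l (PM L (k - l)) := by
  subst h
  ext1 i m
  simp only [Matrix.neg_apply, Matrix.sum_apply, MM_apply]
  exact Tk_pk _ _ k i

theorem PM_zero : PM L 0 = 1 := by
  ext1 i m
  simp only [PM, Matrix.of_apply, pk, Pi.single_apply, Matrix.one_apply]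
  split_ifs <;> simp

theorem MM_sub (l : ℕ) (Y Z : MP N) : MM L l (Y - Z) = MM L l Y - MM L l Z := by
  simp only [MM, Sc, map_sub, smul_sub, mul_sub, Finset.sum_sub_distrib]
  abel

/-- The jets of the connection. -/
def A1 (L : Lap N) (j : Fin 4) : MP N := lf fun i => Z.S L i j

/-- The transposed jets. -/
def At (L : Lap N) (j : Fin 4) : MP N := lf fun i => Z.S L j i

/-- The quadratic form. -/
def sP (L : Lap N) : MP N := ∑ j, (X j : Py) • A1 L j

/-- The trace. -/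
def tP (L : Lap N) : MP N := ∑ j, cst (Z.S L j j)

theorem Dp_sP (i : Fin 4) : Dp i (sP L) = A1 L i + At L i := by
  simp only [sP, map_sum, Dp_X, Finset.sum_add_distrib, Finset.sum_ite_eq', Finset.mem_univ,
    if_true, A1, Dp_lf]
  rfl

theorem Eu_sP : Eu (sP L) = (2 : ℂ) • sP L := by
  have : ∑ i, (X i : Py) • At L i = sP L := by
    simp only [sP, A1, At, lf, Finset.smul_sum]
    rw [Finset.sum_comm]
    exact Finset.sum_congr rfl fun _ _ => Finset.sum_congr rfl fun _ _ => smul_comm _ _ _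
  simp only [Eu, Dp_sP, smul_add, Finset.sum_add_distrib, two_smul, this]
  rfl

theorem La_sP : La (sP L) = (2 : ℂ) • tP L := by
  simp only [La, Dp_sP, map_add, A1, At, Dp_lf, Finset.sum_add_distrib, two_smul, tP]

theorem Eu_add (Y Z : MP N) : Eu (Y + Z) = Eu Y + Eu Z := by
  simp only [Eu, map_add, smul_add, Finset.sum_add_distrib]

/-- The facts about the Taylor coefficients. -/
structure Ja (L : Lap N) (W g : Submodule ℝ (Mat N)) : Prop where
  a : ∀ j k l x, (ev x (tay (fun z => (L.a j k z : ℂ)) l)).im = 0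
  bW : ∀ j l, Iw W (tM (bM L j) l)
  b0 : ∀ j, Iw (R1 N) (tM (bM L j) 0)
  b1 : ∀ j, Iw (R1 N) (tM (bM L j) 1 + (2 : ℂ) • A1 L j)
  c0 : tM (cM L) 0 = cst (L.E 0) - tP L
  c1 : Iw W (tM (cM L) 1)
  c2 : Iw W (tM (cM L) 2 + ∑ j, A1 L j * A1 L j)
  S : ∀ i j, Z.S L i j ∈ g
  E : L.E 0 ∈ W

theorem ja_of (one : (1 : Mat N) ∈ W) (le : g ≤ W) (hr : 0 < r) (h : L.Ok W g r)
    (h0 : ∀ j, L.A j 0 = 0) : Ja L W g := by
  have hn : ∀ {z}, z ∈ ball (0 : V) r → ball (0 : V) r ∈ 𝓝 z := fun hz => isOpen_ball.mem_nhds hz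
  have n0 := hn (mem_ball_self hr)
  have c : ∀ {f : V → ℝ}, ContDiffOn ℝ ∞ f (ball 0 r) → ContDiffAt ℝ ∞ (fun z => (f z : ℂ)) 0 :=
    fun hf => Complex.ofRealCLM.contDiff.contDiffAt.comp 0 (hf.contDiffAt n0)
  have sA : ∀ k, S0 (L.A k) := fun k i m => (h.A k i m).contDiffAt n0
  have sD : ∀ j k, S0 (pdM j (L.A k)) := fun j k i m =>
    (Sx.pdM (h.A k) isOpen_ball j i m).contDiffAt n0
  have s1 : ∀ j, S0 fun z => (L.β j z : ℂ) • (1 : Mat N) := fun j =>
    S0.smul (c (h.β j)) fun _ _ => contDiffAt_const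
  have s2 := fun j k => S0.smul (c ((h.a j k).add (h.a k j))) (sA k)
  have s3 : S0 (c1 L) := ((S0.sum fun j => S0.sum fun k => S0.smul (c (h.a j k)) (sD j k)).neg.add
    (S0.sum fun j => S0.smul (c (h.β j)) (sA j))).add fun i m => (h.E i m).contDiffAt n0
  have s4 := fun j k => S0.smul (c (h.a j k)) ((sA j).mul (sA k))
  have hD : ∀ j k, ∀ z ∈ ball (0 : V) r, pdM j (L.A k) z ∈ g := fun j k z hz =>
    pdM_mem (fun i m => (h.A k i m).contDiffAt (hn hz)) (mem_of_superset (hn hz) (h.Ag k)) j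
  have w3 : ∀ l, Iw W (tM (c1 L) l) := tM_mem s3 (mem_of_superset n0 fun z hz =>
    W.add_mem (W.add_mem (W.neg_mem (W.sum_mem fun j _ => W.sum_mem fun k _ =>
      mem_csmul (Complex.ofReal_im _) (le (hD j k z hz)))) (W.sum_mem fun j _ =>
      mem_csmul (Complex.ofReal_im _) (le (h.Ag j z hz)))) (h.EW z hz))
  have e : ∀ l, tM (cM L) l = tM (c1 L) l +
      -∑ j, ∑ k, tM (fun z => (L.a j k z : ℂ) • (L.A j z * L.A k z)) l := fun l => by
    unfold cM
    rw [tM_add s3 (S0.sum fun j => S0.sum (s4 j)).neg, tM_neg, tM_sum fun j => S0.sum (s4 j)]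
    simp only [fun j => tM_sum (s4 j)]
  have m0 : ∀ j k, L.A j 0 * L.A k 0 = 0 := fun j k => by rw [h0, zero_mul]
  have m1 := fun j k => tM_mul1 (sA j) (sA k) (h0 j) (h0 k)
  have t1 : ∀ k, tM (L.A k) 1 = A1 L k := fun k => tM_one _
  refine ⟨fun j k => tay_real ((h.a j k).contDiffAt n0), fun j => tM_mem
    ((s1 j).add (S0.sum (s2 j)).neg) (mem_of_superset n0 fun z hz => W.add_mem
      (mem_csmul (Complex.ofReal_im _) one) (W.neg_mem (W.sum_mem fun k _ =>
      mem_csmul (Complex.ofReal_im _) (le (h.Ag k z hz))))), fun j => ?_, fun j => ?_, ?_, ?_, ?_,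
    fun i j => hD i j 0 (mem_ball_self hr), h.EW 0 (mem_ball_self hr)⟩
  · rw [tM_zero]
    refine Iw.cst ?_
    simp only [bM, h0, smul_zero, Finset.sum_const_zero, neg_zero, add_zero]
    exact mem_csmul (Complex.ofReal_im _) (Submodule.mem_span_singleton_self _)
  · unfold bM
    rw [tM_add (s1 j) (S0.sum (s2 j)).neg, tM_neg, tM_sum (s2 j)]
    simp only [fun k => tM_smul1 (c ((h.a j k).add (h.a k j))) (sA k) (h0 k), t1, h.a0]
    have : ∑ k, (((if j = k then 1 else 0) + if k = j then 1 else 0 : ℝ) : ℂ) • A1 L k =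
        (2 : ℂ) • A1 L j := by
      rw [Finset.sum_eq_single j (fun k _ hk => by simp [hk, Ne.symm hk]) (by simp)]
      norm_num
    rw [this, neg_add_cancel_right]
    exact tM_mem (s1 j) (Eventually.of_forall fun z =>
      mem_csmul (Complex.ofReal_im _) (Submodule.mem_span_singleton_self _)) 1
  · rw [tM_zero, tP, ← map_sum, ← map_sub]
    congr 1
    simp [cM, c1, h0, h.a0, Z.S, apply_ite ((↑) : ℝ → ℂ), sub_eq_neg_add]
  · rw [e]
    simp only [fun j k => tM_smul1 (c (h.a j k)) ((sA j).mul (sA k)) (m0 j k), m1, smul_zero,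
      Finset.sum_const_zero, neg_zero, add_zero]
    exact w3 1
  · rw [e]
    simp only [fun j k => tM_smul2 (c (h.a j k)) ((sA j).mul (sA k)) (m0 j k) (m1 j k),
      fun j k => tM_mul2 (sA j) (sA k) (h0 j) (h0 k), t1, h.a0, apply_ite ((↑) : ℝ → ℂ),
      Complex.ofReal_one, Complex.ofReal_zero, ite_smul, one_smul, zero_smul, Finset.sum_ite_eq,
      Finset.mem_univ, if_true, neg_add_cancel_right]
    exact w3 2

theorem Ja.sc (J : Ja L W g) (l : ℕ) (h : Iw U Y) : Iw U (Sc L l Y) :=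
  (Iw.sum fun j => Iw.sum fun k => ((h.mp (ro_dl k)).mp (ro_dl j)).smul (J.a j k _)).neg

theorem Ja.m0 (J : Ja L W g) (h : Iw U Y) : Iw U (MM L 0 Y) :=
  ((J.sc 0 h).add (Iw.sum fun j => (J.b0 j).mull (h.mp (ro_dl j)))).add (by
    simpa [Cc] using Iw.zero)

theorem Ja.mR (J : Ja L W g) (one : (1 : Mat N) ∈ W) {l : ℕ} (hc : Iw W (Cc L l))
    (h : Iw (R1 N) Y) : Iw W (MM L l Y) :=
  (((J.sc l h).mono (Submodule.span_le.2 (by simpa using one))).add
    (Iw.sum fun j => (J.bW j l).mulr (h.mp (ro_dl j)))).add (hc.mulr h)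

theorem iw_one : Iw (R1 N) 1 := fun x => by
  rw [map_one]
  exact Submodule.mem_span_singleton_self _

theorem Eu_one : Eu (1 : MP N) = 0 := by rw [← map_one cst, Eu_cst]

theorem Dp_one (j : Fin 4) : Dp j (1 : MP N) = 0 := by rw [← map_one cst, Dp_cst]

/-- The matrix part of the second coefficient. -/
def Q2 (L : Lap N) : MP N := cst (L.E 0) + (2⁻¹ : ℂ) • sP L

/-- The curvature form. -/
def Gf (L : Lap N) (i : Fin 4) : MP N := lf fun j => L.F j i 0

/-- The candidate for the fourth coefficient. -/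
def Q4 (L : Lap N) : MP N :=
  (2⁻¹ : ℂ) • (cst (L.E 0) * cst (L.E 0)) +
    (12⁻¹ : ℂ) • (∑ i, ∑ j, cst (L.F j i 0) * cst (L.F j i 0)) +
    (12⁻¹ : ℂ) • (∑ i, Gf L i * Gf L i) + (2⁻¹ : ℂ) • (sP L * cst (L.E 0)) +
    (8⁻¹ : ℂ) • (sP L * sP L)

theorem Tk_cc (k : ℕ) (a b : Mat N) :
    mp (Tk k) (cst a * cst b) = ((k : ℂ) / 2) • (cst a * cst b) := by
  rw [← map_mul, mp_Tk, Eu_cst, La_cst]
  simp

theorem Tk_Q2 : mp (Tk 2) (Q2 L) = cst (L.E 0) + sP L - tP L := by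
  simp only [Q2, map_add, map_smul, mp_Tk, Eu_cst, La_cst, Eu_sP, La_sP]
  push_cast
  module

theorem Tk_Q4 (h0 : ∀ j, L.A j 0 = 0) : mp (Tk 4) (Q4 L) = cst (L.E 0) * cst (L.E 0) +
    (3 / 2 : ℂ) • (sP L * cst (L.E 0)) - tP L * cst (L.E 0) + (2⁻¹ : ℂ) • (sP L * sP L) -
    (4⁻¹ : ℂ) • (tP L * sP L + sP L * tP L) -
    (2⁻¹ : ℂ) • (∑ i, A1 L i * At L i + ∑ i, At L i * A1 L i) := by
  have hG : ∀ i, Gf L i = A1 L i - At L i := fun i => by
    simp only [Gf, A1, At, lf, Lap.F, h0, Z.S, mul_zero, sub_self, add_zero, map_sub, smul_sub,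
      Finset.sum_sub_distrib]
  have h1 : ∀ i, mp (Tk 4) (Gf L i * Gf L i) = (3 : ℂ) • (Gf L i * Gf L i) -
      (2 : ℂ) • ∑ j, cst (L.F j i 0) * cst (L.F j i 0) := fun i => by
    simp only [mp_Tk, Eu_mul, La_mul, Gf, Eu_lf, La_lf, Dp_lf, zero_mul, mul_zero]
    push_cast
    module
  simp only [Q4, map_add, map_smul, map_sum, Tk_cc, h1]
  simp only [mp_Tk, Eu_mul, La_mul, Eu_cst, La_cst, Eu_sP, La_sP, Dp_cst, Dp_sP, hG, mul_zero,
    Finset.sum_const_zero, Finset.sum_sub_distrib, Finset.sum_add_distrib, ← Finset.smul_sum,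
    mul_add, add_mul, mul_sub, sub_mul, smul_mul_assoc, mul_smul_comm]
  push_cast
  module

theorem evM_lf (x : V) (w : Fin 4 → Mat N) : evM x (lf w) = ∑ i, x i • w i := by
  simp only [lf, map_sum, evM_smul, evM_cst, ev_X, Complex.coe_smul]

theorem evM_sP (x : V) : evM x (sP L) = Z.sg L x := by
  simp only [sP, A1, map_sum, evM_smul, evM_lf, ev_X, Complex.coe_smul, Finset.smul_sum, smul_smul,
    Z.sg]
  rw [Finset.sum_comm]
  simp only [mul_comm]

theorem str_ex (C : Cl N) {τ : Mat N →L[ℝ] ℝ} (hA : K.Alg τ W g)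
    (hτ : ∀ Y, τ Y = (C.gam * Y).trace.re) (hr : 0 < r) (h : L.Ok W g r)
    (h0 : ∀ j, L.A j 0 = 0) : Z.Str L C.gam := by
  have J := ja_of hA.one hA.le hr h h0
  have RW : R1 N ≤ W := Submodule.span_le.2 (by simpa using hA.one)
  have gA : ∀ j, Iw g (A1 L j) := fun j => Iw.lf fun i => J.S i j
  have gT : ∀ j, Iw g (At L j) := fun j => Iw.lf fun i => J.S j i
  have gs : Iw g (sP L) := Iw.sum fun j => (gA j).smul fun x => by simp [ev_X]
  have gt : Iw g (tP L) := Iw.sum fun j => Iw.cst (J.S j j)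
  have wE : Iw W (cst (L.E 0)) := Iw.cst J.E
  have w2 : Iw W (Q2 L) := wE.add ((gs.mono hA.le).csmul (by simp))
  have k1 : Cc L 1 = cst (L.E 0) - tP L := J.c0
  have c1 : Iw W (Cc L 1) := k1 ▸ wE.sub (gt.mono hA.le)
  have c2 : Iw W (Cc L 2) := J.c1
  have mm : ∀ Y, MM L 1 Y = Sc L 1 Y + ∑ j, (tM (bM L j) 1 + (2 : ℂ) • A1 L j) * mp (dl j) Y +
      (-(2 : ℂ) • ∑ j, A1 L j * Dp j Y + sP L * Y + (cst (L.E 0) - tP L) * Y) := fun Y => by
    have : ∑ j, A1 L j * mp (dl j) Y = ∑ j, A1 L j * Dp j Y - (2⁻¹ : ℂ) • (sP L * Y) := by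
      simp only [mp_dl, mul_sub, mul_smul_comm, Finset.sum_sub_distrib, sP, Finset.sum_mul,
        smul_mul_assoc, Finset.smul_sum]
    simp only [MM, k1, add_mul, Finset.sum_add_distrib, smul_mul_assoc, ← Finset.smul_sum, this]
    module
  have p1 : Iw (R1 N) (PM L 1) := Iw.of_Tk one_pos (by
    rw [PM_rec 0 1 rfl, zero_add, Finset.sum_range_one, Nat.sub_self, PM_zero]
    exact (J.m0 iw_one).neg)
  have p2 : Iw (R1 N) (PM L 2 + Q2 L) := Iw.of_Tk two_pos (by
    have := ((J.m0 p1).add ((J.sc 1 iw_one).add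
      (Iw.sum fun j => (J.b1 j).mull (iw_one.mp (ro_dl j))))).neg
    rw [map_add, PM_rec 1 2 rfl, Tk_Q2]
    simp only [Finset.sum_range_succ, Finset.sum_range_zero, Nat.sub_zero, Nat.sub_self, PM_zero,
      mm, Dp_one, mul_zero, Finset.sum_const_zero, smul_zero, mul_one]
    convert this using 1
    abel)
  have p2' : Iw W (PM L 2) := by simpa using (p2.mono RW).sub w2
  have p3 : Iw W (PM L 3) := Iw.of_Tk three_pos (by
    have := (((J.m0 p2').add (J.mR hA.one c1 p1)).add (J.mR hA.one c2 iw_one)).neg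
    rw [PM_rec 2 3 rfl]
    simpa only [Finset.sum_range_succ, Finset.sum_range_zero, Nat.sub_zero, Nat.sub_self, PM_zero,
      zero_add] using this)
  have p4 : Iw W (PM L 4 - Q4 L) := Iw.of_Tk four_pos (by
    have e1 : MM L 1 (PM L 2) = MM L 1 (PM L 2 + Q2 L) - MM L 1 (Q2 L) := by
      rw [← MM_sub, add_sub_cancel_right]
    have a1 := (J.m0 p3).add (J.mR hA.one c1 p2)
    have a2 := (J.sc 1 w2).add (Iw.sum fun j => (J.b1 j).mull (w2.mp (ro_dl j)))
    have a3 := J.mR hA.one c2 p1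
    have a4 := (((J.sc 3 iw_one).mono RW).add
      (Iw.sum fun j => (J.bW j 3).mulr (iw_one.mp (ro_dl j)))).add J.c2
    have b1 := (Iw.br hA.adW gs wE).csmul (c := 2⁻¹) (by simp)
    have b2 := (Iw.br hA.adW gt (gs.mono hA.le)).csmul (c := 4⁻¹) (by simp)
    have b3 := (Iw.sum fun j => Iw.br hA.adW (gA j) ((gT j).mono hA.le)).csmul (c := 2⁻¹)
      (by simp)
    have := (((((a2.sub a1).sub a3).sub a4).sub b1).sub b2).sub b3
    rw [map_sub, PM_rec 3 4 rfl, Tk_Q4 h0]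
    simp only [Finset.sum_range_succ, Finset.sum_range_zero, Nat.sub_zero, Nat.sub_self, PM_zero,
      zero_add, show 3 - 1 = 2 from rfl, show 3 - 2 = 1 from rfl, e1, mm (Q2 L)]
    convert this using 1
    have e3 : MM L 3 1 = Sc L 3 1 + ∑ j, tM (bM L j) 3 * mp (dl j) 1 + tM (cM L) 2 := by
      simp [MM, Cc]
    have e4 : ∀ j, Dp j (Q2 L) = (2⁻¹ : ℂ) • (A1 L j + At L j) := fun j => by
      simp only [Q2, map_add, map_smul, Dp_cst, Dp_sP, zero_add]
    have e5 : sP L * Q2 L + (cst (L.E 0) - tP L) * Q2 L = sP L * cst (L.E 0) +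
        (2⁻¹ : ℂ) • (sP L * sP L) + cst (L.E 0) * cst (L.E 0) + (2⁻¹ : ℂ) • (cst (L.E 0) * sP L) -
        tP L * cst (L.E 0) - (2⁻¹ : ℂ) • (tP L * sP L) := by
      simp only [Q2, mul_add, sub_mul, mul_smul_comm, smul_sub]
      abel
    have e6 : ∑ j, A1 L j * Dp j (Q2 L) =
        (2⁻¹ : ℂ) • (∑ j, A1 L j * A1 L j + ∑ j, A1 L j * At L j) := by
      simp only [e4, mul_smul_comm, mul_add, ← Finset.smul_sum, Finset.sum_add_distrib]
    rw [e3, add_assoc (-(2 : ℂ) • _), e5, e6, Finset.sum_sub_distrib]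
    module)
  have pk : ∀ k x, Z.PK L.op k x = evM x (PM L k) := fun k x => rfl
  have hc : ∀ (c : ℝ) (w : Mat N), c • w = (c : ℂ) • w := fun c w => (Complex.coe_smul c w).symm
  refine ⟨fun x => by rw [pk, PM_zero, map_one], fun x => ?_, fun x => ?_, fun x => ?_,
    fun x => ?_⟩
  · obtain ⟨s, hs⟩ := Submodule.mem_span_singleton.1 (p1 x)
    exact ⟨s, hs.symm⟩
  · obtain ⟨s, hs⟩ := Submodule.mem_span_singleton.1 (p2 x)
    refine ⟨s, ?_⟩
    rw [hs, pk, Q2, map_add, map_add, evM_cst, evM_csmul, evM_sP, hc (1 / 2)]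
    push_cast
    module
  · rw [← hτ]
    exact hA.ker _ (p3 x)
  · rw [← hτ]
    refine hA.ker _ ?_
    convert p4 x using 1
    rw [map_sub, pk]
    congr 1
    simp only [Q4, Z.P4, map_add, map_mul, map_sum, evM_csmul, evM_cst, evM_sP, Gf, evM_lf,
      Finset.sum_mul_sum, smul_mul_smul_comm, hc (1 / 2), hc (1 / 12), hc (1 / 8)]
    push_cast
    module

end Vale.Agent.P267I.Z9
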