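import Vale.Agent.P267I.ZD
import Vale.Agent.P267I.HG1
import Vale.Agent.P267J.A
import Vale.Agent.P267J.T

/-! Matrices of polynomials with values in a real subspace. -/

open scoped ContDiff Topology ComplexConjugate
open Filter Matrix Metric

noncomputable section

namespace Vale.Agent.P267I.Z9

open Vale.Agent.P267J Vale.Agent.P267I.H MvPolynomial

variable {N : ℕ}

theorem ev_ext {p q : Py} (h : ∀ x, ev x p = ev x q) : p = q := by
  refine MvPolynomial.funext_set (fun _ => Set.range ((↑) : ℝ → ℂ))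
    (fun _ => Set.infinite_range_of_injective Complex.ofReal_injective) fun x hx => ?_
  choose y hy using fun i => hx i (Set.mem_univ i)
  have := h (WithLp.toLp 2 y)
  rwa [show x = fun i => (y i : ℂ) from funext fun i => (hy i).symm]

theorem mem_iff (U : Submodule ℝ (Mat N)) (Y : Mat N)
    (h : ∀ α : Mat N, (∀ w ∈ U, (∑ i, ∑ m, α i m * w i m).re = 0) →
      (∑ i, ∑ m, α i m * Y i m).re = 0) : Y ∈ U := by
  refine (Subspace.forall_mem_dualAnnihilator_apply_eq_zero_iff U Y).1 fun φ hφ => ?_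
  have e : ∀ w : Mat N, φ w = (∑ i, ∑ m, ((φ (single i m 1) : ℂ) -
      Complex.I * φ (single i m Complex.I)) * w i m).re := fun w => by
    conv_lhs => rw [matrix_eq_sum_single w]
    simp only [map_sum, Complex.re_sum]
    refine Finset.sum_congr rfl fun i _ => Finset.sum_congr rfl fun m _ => ?_
    have : single i m (w i m) = (w i m).re • single i m (1 : ℂ) +
        (w i m).im • single i m Complex.I := by
      rw [smul_single, smul_single, ← single_add]
      simp
    rw [this, map_add, map_smul, map_smul]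
    simp
    ring
  rw [e]
  exact h (Matrix.of fun i m => (φ (single i m 1) : ℂ) - Complex.I * φ (single i m Complex.I))
    fun w hw => (e w).symm.trans ((Submodule.mem_dualAnnihilator φ).1 hφ w hw)

/-- Conjugation of the coefficients. -/
def cj : Py →+* Py := MvPolynomial.map (starRingEnd ℂ)

theorem ev_cj (x : V) (q : Py) : ev x (cj q) = conj (ev x q) := by
  induction q using MvPolynomial.induction_on with
  | C a => simp [cj, ev]
  | add p q hp hq => simp only [map_add, hp, hq]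
  | mul_X p i hp =>
    simp only [map_mul, hp]
    simp [cj, ev]

/-- Real operators. -/
def Ro (R : Py →ₗ[ℂ] Py) : Prop := ∀ q, cj (R q) = R (cj q)

theorem cj_pd (i : Fin 4) (q : Py) : cj (pderiv i q) = pderiv i (cj q) := pderiv_map.symm

theorem cj_X (i : Fin 4) : cj (X i) = X i := map_X _ _

theorem cj_C (a : ℂ) : cj (C a) = C (conj a) := map_C _ _

theorem ro_dl (j : Fin 4) : Ro (dl j) := fun q => by
  simp only [dl, LinearMap.sub_apply, LinearMap.mulLeft_apply, Derivation.coeFn_coe, map_sub,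
    map_mul, cj_pd, cj_X, cj_C, map_inv₀, map_ofNat]

theorem ro_Tk (k : ℕ) : Ro (Tk k) := fun q => by
  simp only [a_app, a_lap, smul_eq_C_mul, map_sub, map_add, map_mul, map_sum, cj_pd, cj_X, cj_C,
    map_inv₀, map_ofNat, map_div₀, map_natCast]

theorem ro_Ti {k : ℕ} (hk : 0 < k) : Ro (P267J.Ti k) := fun q =>
  Tk_inj hk (by rw [← ro_Tk, Tk_Ti hk, Tk_Ti hk])

theorem Ro.re {R : Py →ₗ[ℂ] Py} (h : Ro R) {q : Py} (hq : ∀ x, (ev x q).re = 0) (x : V) :
    (ev x (R q)).re = 0 := by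
  have h1 : cj q = -q := ev_ext fun x => by
    rw [ev_cj, map_neg]
    exact Complex.ext (by simp [hq x]) (by simp)
  have h2 := congrArg Complex.re (ev_cj x (R q))
  rw [h, h1, map_neg, map_neg, Complex.neg_re, Complex.conj_re] at h2
  linarith

/-- Matrices of polynomials. -/
abbrev MP (N : ℕ) := Matrix (Fin N) (Fin N) Py

/-- Evaluation. -/
def evM (x : V) : MP N →+* Mat N := (ev x).mapMatrix

/-- Constants. -/
def cst : Mat N →+* MP N := (C : ℂ →+* Py).mapMatrix

/-- Entrywise action. -/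
def mp (R : Py →ₗ[ℂ] Py) : MP N →ₗ[ℂ] MP N := R.mapMatrix

theorem evM_cst (x : V) (w : Mat N) : evM x (cst w) = w := by
  ext i m
  exact eval_C _

theorem evM_smul (x : V) (q : Py) (Y : MP N) : evM x (q • Y) = ev x q • evM x Y := by
  ext i m
  exact map_mul (ev x) q (Y i m)

theorem evM_csmul (x : V) (c : ℂ) (Y : MP N) : evM x (c • Y) = c • evM x Y := by
  ext i m
  change ev x (c • Y i m) = c * ev x (Y i m)
  rw [smul_eq_C_mul, map_mul, ev, eval_C]

theorem cst_smul (c : ℂ) (w : Mat N) : cst (c • w) = c • cst w := by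
  ext1 i m
  change C (c * w i m) = c • C (w i m)
  rw [smul_eq_C_mul, map_mul]

/-- Values in a real subspace. -/
def Iw (U : Submodule ℝ (Mat N)) (Y : MP N) : Prop := ∀ x, evM x Y ∈ U

variable {U U' : Submodule ℝ (Mat N)} {Y Z : MP N}

theorem Iw.zero : Iw U (0 : MP N) := fun x => by simp

theorem Iw.add (h : Iw U Y) (h' : Iw U Z) : Iw U (Y + Z) := fun x => by
  rw [map_add]
  exact U.add_mem (h x) (h' x)

theorem Iw.neg (h : Iw U Y) : Iw U (-Y) := fun x => by
  rw [map_neg]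
  exact U.neg_mem (h x)

theorem Iw.sub (h : Iw U Y) (h' : Iw U Z) : Iw U (Y - Z) := fun x => by
  rw [map_sub]
  exact U.sub_mem (h x) (h' x)

theorem Iw.sum {I : Type} [Fintype I] {f : I → MP N} (h : ∀ i, Iw U (f i)) : Iw U (∑ i, f i) :=
  fun x => by
    rw [map_sum]
    exact U.sum_mem fun i _ => h i x

theorem Iw.mono (h : Iw U Y) (hU : U ≤ U') : Iw U' Y := fun x => hU (h x)

theorem Iw.cst {w : Mat N} (h : w ∈ U) : Iw U (cst w) := fun x => by rwa [evM_cst]

theorem mem_csmul {c : ℂ} (hc : c.im = 0) {w : Mat N} (h : w ∈ U) : c • w ∈ U := by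
  rw [show c = (c.re : ℂ) from Complex.ext rfl (by simpa using hc), Complex.coe_smul]
  exact U.smul_mem _ h

theorem Iw.smul (h : Iw U Y) {q : Py} (hq : ∀ x, (ev x q).im = 0) : Iw U (q • Y) := fun x => by
  rw [evM_smul]
  exact mem_csmul (hq x) (h x)

theorem Iw.csmul (h : Iw U Y) {c : ℂ} (hc : c.im = 0) : Iw U (c • Y) := fun x => by
  rw [evM_csmul]
  exact mem_csmul hc (h x)

/-- Real scalars. -/
abbrev R1 (N : ℕ) : Submodule ℝ (Mat N) := Submodule.span ℝ {1}

theorem Iw.mulr (h : Iw U Y) (h' : Iw (R1 N) Z) : Iw U (Y * Z) := fun x => by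
  obtain ⟨s, hs⟩ := Submodule.mem_span_singleton.1 (h' x)
  rw [map_mul, ← hs, mul_smul_comm, mul_one]
  exact U.smul_mem _ (h x)

theorem Iw.mull (h : Iw (R1 N) Y) (h' : Iw U Z) : Iw U (Y * Z) := fun x => by
  obtain ⟨s, hs⟩ := Submodule.mem_span_singleton.1 (h x)
  rw [map_mul, ← hs, smul_mul_assoc, one_mul]
  exact U.smul_mem _ (h' x)

theorem Iw.br (hb : ∀ a ∈ U, ∀ w ∈ U', a * w - w * a ∈ U') (h : Iw U Y) (h' : Iw U' Z) :
    Iw U' (Y * Z - Z * Y) := fun x => by
  rw [map_sub, map_mul, map_mul]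
  exact hb _ (h x) _ (h' x)

theorem Iw.mp {R : Py →ₗ[ℂ] Py} (hR : Ro R) (h : Iw U Y) : Iw U (mp R Y) := fun x =>
  mem_iff U _ fun α hα => by
    have e : ∀ (Z : MP N) x, ev x (∑ i, ∑ m, α i m • Z i m) = ∑ i, ∑ m, α i m * evM x Z i m :=
      fun Z x => by
        simp only [map_sum, smul_eq_C_mul, map_mul]
        simp only [ev, eval_C]
        rfl
    have := hR.re (q := ∑ i, ∑ m, α i m • Y i m) (fun x => by rw [e]; exact hα _ (h x)) x
    simp only [map_sum R, map_smul R] at this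
    exact (congrArg Complex.re (e (Z9.mp R Y) x)).symm.trans this

theorem Iw.of_Tk {k : ℕ} (hk : 0 < k) (h : Iw U (Z9.mp (Tk k) Y)) : Iw U Y := by
  have : Y = Z9.mp (P267J.Ti k) (Z9.mp (Tk k) Y) := by
    ext1 i m
    exact Tk_inj hk (Tk_Ti hk _).symm
  rw [this]
  exact h.mp (ro_Ti hk)

/-- The derivative. -/
def Dp (i : Fin 4) : MP N →ₗ[ℂ] MP N := mp (pderiv i).toLinearMap

theorem Dp_apply (j : Fin 4) (Y : MP N) (i m : Fin N) : Dp j Y i m = pderiv j (Y i m) := rfl

theorem Dp_mul (j : Fin 4) (Y Z : MP N) : Dp j (Y * Z) = Dp j Y * Z + Y * Dp j Z := by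
  ext1 i m
  simp only [Dp_apply, Matrix.mul_apply, Matrix.add_apply, map_sum, pderiv_mul,
    Finset.sum_add_distrib]

theorem Dp_cst (j : Fin 4) (w : Mat N) : Dp j (cst w) = 0 := by
  ext1 i m
  exact pderiv_C

theorem Dp_X (j k : Fin 4) (Y : MP N) :
    Dp j ((X k : Py) • Y) = (if k = j then Y else 0) + (X k : Py) • Dp j Y := by
  ext1 i m
  simp only [Dp_apply, Matrix.smul_apply, Matrix.add_apply, smul_eq_mul, pderiv_mul, pderiv_X,
    Pi.single_apply]
  split_ifs <;> simp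

/-- The Euler operator. -/
def Eu (Y : MP N) : MP N := ∑ i, (X i : Py) • Dp i Y

/-- The Laplacian. -/
def La (Y : MP N) : MP N := ∑ i, Dp i (Dp i Y)

theorem mp_Tk (k : ℕ) (Y : MP N) :
    mp (Tk k) Y = ((k : ℂ) / 2) • Y + (2⁻¹ : ℂ) • Eu Y - La Y := by
  ext1 i m
  change Tk k (Y i m) = _
  simp only [a_app, a_lap, Eu, La, Matrix.sub_apply, Matrix.add_apply, Matrix.smul_apply,
    Matrix.sum_apply, Dp_apply, smul_eq_mul, smul_eq_C_mul]

theorem mp_dl (j : Fin 4) (Y : MP N) : mp (dl j) Y = Dp j Y - (2⁻¹ : ℂ) • (X j : Py) • Y := by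
  ext1 i m
  change dl j (Y i m) = _
  simp only [dl, LinearMap.sub_apply, LinearMap.mulLeft_apply, Derivation.coeFn_coe,
    Matrix.sub_apply, Matrix.smul_apply, Dp_apply, smul_eq_mul, smul_eq_C_mul, mul_assoc]

theorem Eu_mul (Y Z : MP N) : Eu (Y * Z) = Eu Y * Z + Y * Eu Z := by
  simp only [Eu, Dp_mul, smul_add, Finset.sum_add_distrib, Finset.sum_mul, Finset.mul_sum,
    smul_mul_assoc, mul_smul_comm]

theorem La_mul (Y Z : MP N) :
    La (Y * Z) = La Y * Z + (2 : ℂ) • ∑ i, Dp i Y * Dp i Z + Y * La Z := by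
  simp only [La, Dp_mul, map_add, Finset.sum_add_distrib, Finset.sum_mul, Finset.mul_sum, two_smul]
  abel

theorem Eu_cst (w : Mat N) : Eu (cst w) = 0 := by simp [Eu, Dp_cst]

theorem La_cst (w : Mat N) : La (cst w) = 0 := by simp [La, Dp_cst]

/-- Linear forms. -/
def lf (w : Fin 4 → Mat N) : MP N := ∑ i, (X i : Py) • cst (w i)

theorem Dp_lf (j : Fin 4) (w : Fin 4 → Mat N) : Dp j (lf w) = cst (w j) := by
  simp [lf, Dp_X, Dp_cst]

theorem Eu_lf (w : Fin 4 → Mat N) : Eu (lf w) = lf w := by simp only [Eu, Dp_lf]; rfl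

theorem La_lf (w : Fin 4 → Mat N) : La (lf w) = 0 := by simp [La, Dp_lf, Dp_cst]

theorem ev_X (x : V) (i : Fin 4) : ev x (X i) = x i := eval_X _

theorem Iw.lf {w : Fin 4 → Mat N} (h : ∀ i, w i ∈ U) : Iw U (lf w) :=
  Iw.sum fun i => (Iw.cst (h i)).smul fun x => by simp [ev_X]

end Vale.Agent.P267I.Z9
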