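import Vale.Agent.P267I.ZN1

/-! Taylor polynomials of matrix functions. -/

open scoped ContDiff Topology ComplexConjugate
open Filter Matrix Metric

noncomputable section

namespace Vale.Agent.P267I.Z9

open Vale.Agent.P267J Vale.Agent.P267I.H MvPolynomial

variable {N : ℕ} {U : Submodule ℝ (Mat N)} {F G : V → Mat N} {f g : V → ℂ}

theorem nle (l : ℕ) : (l : WithTop ℕ∞) ≤ ∞ := by exact_mod_cast le_top

theorem der_mem {z : V} (hF : ∀ i m, ContDiffAt ℝ ∞ (fun w => F w i m) z)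
    (hU : ∀ᶠ w in 𝓝 z, F w ∈ U) (l : ℕ) (v : Fin l → V) :
    (Matrix.of fun i m => iteratedFDeriv ℝ l (fun w => F w i m) z v) ∈ U :=
  mem_iff U _ fun α hα => by
    have h1 : ∀ i m, ContDiffAt ℝ l (fun w => α i m • F w i m) z := fun i m =>
      ((hF i m).of_le (nle l)).const_smul _
    have h2 : ∀ i, ContDiffAt ℝ l (fun w => ∑ m, α i m • F w i m) z := fun i =>
      ContDiffAt.sum fun m _ => h1 i m
    have h3 := Complex.reCLM.iteratedFDeriv_comp_left
      (ContDiffAt.sum (s := Finset.univ) fun i _ => h2 i) (le_refl (l : WithTop ℕ∞))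
    have h4 : (Complex.reCLM ∘ fun w => ∑ i, ∑ m, α i m • F w i m) =ᶠ[𝓝 z] fun _ => 0 :=
      hU.mono fun w hw => hα _ hw
    rw [(h4.iteratedFDeriv ℝ l).eq_of_nhds, iteratedFDeriv_fun_sum_apply fun i _ => h2 i] at h3
    simp only [fun i => iteratedFDeriv_fun_sum_apply fun m (_ : m ∈ Finset.univ) => h1 i m,
      fun i m => iteratedFDeriv_const_smul_apply' (a := α i m) ((hF i m).of_le (nle l))] at h3
    have h5 := congrArg (fun T => T v) h3
    simp only [iteratedFDeriv_fun_zero, Pi.zero_apply, _root_.zero_apply,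
      ContinuousLinearMap.compContinuousMultilinearMap_coe, Function.comp_apply,
      _root_.sum_apply, _root_.smul_apply, smul_eq_mul,
      Complex.reCLM_apply] at h5
    exact h5.symm

/-- Smooth entries at the origin. -/
def S0 (F : V → Mat N) : Prop := ∀ i m, ContDiffAt ℝ ∞ (fun w => F w i m) 0

/-- The Taylor polynomials. -/
def tM (F : V → Mat N) (l : ℕ) : MP N := Matrix.of fun i m => tay (fun w => F w i m) l

theorem tM_mem (hF : S0 F) (hU : ∀ᶠ w in 𝓝 0, F w ∈ U) (l : ℕ) : Iw U (tM F l) := fun x => by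
  have : evM x (tM F l) = ((l.factorial : ℂ))⁻¹ •
      Matrix.of fun i m => iteratedFDeriv ℝ l (fun w => F w i m) 0 fun _ => x := by
    ext i m
    exact ev_tay _ l x
  rw [this]
  refine mem_csmul ?_ (der_mem hF hU l _)
  rw [← Complex.ofReal_natCast, ← Complex.ofReal_inv, Complex.ofReal_im]

theorem pdM_mem {z : V} (hF : ∀ i m, ContDiffAt ℝ ∞ (fun w => F w i m) z)
    (hU : ∀ᶠ w in 𝓝 z, F w ∈ U) (j : Fin 4) : pdM j F z ∈ U := by
  simpa only [iteratedFDeriv_one_apply, pdM, pd] using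
    der_mem hF hU 1 fun _ => EuclideanSpace.single j 1

theorem tay_add (hf : ContDiffAt ℝ ∞ f 0) (hg : ContDiffAt ℝ ∞ g 0) (l : ℕ) :
    tay (fun z => f z + g z) l = tay f l + tay g l := ev_ext fun x => by
  rw [map_add, ev_tay, ev_tay, ev_tay, show (fun z => f z + g z) = f + g from rfl,
    iteratedFDeriv_add_apply (hf.of_le (nle l)) (hg.of_le (nle l)),
    _root_.add_apply, mul_add]

theorem tay_neg (f : V → ℂ) (l : ℕ) : tay (fun z => -f z) l = -tay f l := ev_ext fun x => by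
  rw [map_neg, ev_tay, ev_tay, show (fun z => -f z) = -f from rfl, iteratedFDeriv_neg_apply,
    _root_.neg_apply, mul_neg]

theorem tay_sum {I : Type} [Fintype I] {f : I → V → ℂ} (hf : ∀ i, ContDiffAt ℝ ∞ (f i) 0) (l : ℕ) :
    tay (fun z => ∑ i, f i z) l = ∑ i, tay (f i) l := ev_ext fun x => by
  simp only [map_sum, ev_tay]
  rw [iteratedFDeriv_fun_sum_apply fun i _ => (hf i).of_le (nle l),
    _root_.sum_apply, Finset.mul_sum]

theorem ev_C (x : V) (a : ℂ) : ev x (C a) = a := eval_C _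

theorem ev_tay1 (f : V → ℂ) (x : V) : ev x (tay f 1) = fderiv ℝ f 0 x := by
  rw [ev_tay, iteratedFDeriv_one_apply]
  simp

theorem ev_tay2 (hf : ContDiffAt ℝ ∞ f 0) (x : V) :
    ev x (tay f 2) = 2⁻¹ * fderiv ℝ (fun z => fderiv ℝ f z x) 0 x := by
  rw [ev_tay, iteratedFDeriv_two_apply, fderiv_clm_apply
    ((hf.fderiv_right (m := ∞) (by simp)).differentiableAt (by simp)) (differentiableAt_const _)]
  simp

theorem fd_mul {z : V} (hf : DifferentiableAt ℝ f z) (hg : DifferentiableAt ℝ g z) (x : V) :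
    fderiv ℝ (fun z => f z * g z) z x = f z * fderiv ℝ g z x + fderiv ℝ f z x * g z := by
  rw [fderiv_fun_mul hf hg]
  simp [mul_comm]

theorem tay_mul1 (hf : ContDiffAt ℝ ∞ f 0) (hg : ContDiffAt ℝ ∞ g 0) :
    tay (fun z => f z * g z) 1 = C (f 0) * tay g 1 + tay f 1 * C (g 0) := ev_ext fun x => by
  simp only [map_add, map_mul, ev_C, ev_tay1]
  exact fd_mul (hf.differentiableAt (by simp)) (hg.differentiableAt (by simp)) x

theorem tay_mul2 (hf : ContDiffAt ℝ ∞ f 0) (hg : ContDiffAt ℝ ∞ g 0) :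
    tay (fun z => f z * g z) 2 = C (f 0) * tay g 2 + tay f 1 * tay g 1 + tay f 2 * C (g 0) :=
  ev_ext fun x => by
    have d : ∀ {f : V → ℂ}, ContDiffAt ℝ ∞ f 0 →
        DifferentiableAt ℝ (fun z => fderiv ℝ f z x) 0 := fun hf =>
      ((hf.fderiv_right (m := ∞) (by simp)).clm_apply contDiffAt_const).differentiableAt (by simp)
    have e : ∀ {f : V → ℂ}, ContDiffAt ℝ ∞ f 0 → ∀ᶠ z in 𝓝 0, DifferentiableAt ℝ f z := fun hf =>
      ((hf.of_le (nle 1)).eventually (by simp)).mono fun z hz => hz.differentiableAt (by simp)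
    have h : (fun z => fderiv ℝ (fun z => f z * g z) z x) =ᶠ[𝓝 0]
        fun z => f z * fderiv ℝ g z x + fderiv ℝ f z x * g z := by
      filter_upwards [e hf, e hg] with z h1 h2 using fd_mul h1 h2 x
    have f1 := hf.differentiableAt (by simp)
    have g1 := hg.differentiableAt (by simp)
    simp only [map_add, map_mul, ev_C, ev_tay1, ev_tay2 hf, ev_tay2 hg, ev_tay2 (hf.mul hg)]
    rw [h.fderiv_eq, fderiv_fun_add (f1.fun_mul (d hg)) ((d hf).fun_mul g1), _root_.add_apply,
      fd_mul f1 (d hg), fd_mul (d hf) g1]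
    ring

theorem S0.add (hF : S0 F) (hG : S0 G) : S0 fun z => F z + G z := fun i m => (hF i m).add (hG i m)

theorem S0.neg (hF : S0 F) : S0 fun z => -F z := fun i m => (hF i m).neg

theorem S0.sum {I : Type} [Fintype I] {F : I → V → Mat N} (hF : ∀ j, S0 (F j)) :
    S0 fun z => ∑ j, F j z := fun i m => by
  simp only [Matrix.sum_apply]
  exact ContDiffAt.sum fun j _ => hF j i m

theorem S0.mul (hF : S0 F) (hG : S0 G) : S0 fun z => F z * G z := fun i m => by
  simp only [Matrix.mul_apply]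
  exact ContDiffAt.sum fun l _ => (hF i l).mul (hG l m)

theorem S0.smul (hf : ContDiffAt ℝ ∞ f 0) (hG : S0 G) : S0 fun z => f z • G z :=
  fun i m => hf.mul (hG i m)

theorem tM_zero (F : V → Mat N) : tM F 0 = cst (F 0) := by
  ext1 i m
  exact tay_zero _

theorem tM_add (hF : S0 F) (hG : S0 G) (l : ℕ) : tM (fun z => F z + G z) l = tM F l + tM G l := by
  ext1 i m
  exact tay_add (hF i m) (hG i m) l

theorem tM_neg (F : V → Mat N) (l : ℕ) : tM (fun z => -F z) l = -tM F l := by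
  ext1 i m
  exact tay_neg _ l

theorem tM_sum {I : Type} [Fintype I] {F : I → V → Mat N} (hF : ∀ j, S0 (F j)) (l : ℕ) :
    tM (fun z => ∑ j, F j z) l = ∑ j, tM (F j) l := by
  ext1 i m
  simp only [tM, Matrix.sum_apply, Matrix.of_apply]
  exact tay_sum (fun j => hF j i m) l

theorem tM_mul1 (hF : S0 F) (hG : S0 G) (h : F 0 = 0) (h' : G 0 = 0) :
    tM (fun z => F z * G z) 1 = 0 := by
  ext1 i m
  simp only [tM, Matrix.mul_apply, Matrix.of_apply]
  rw [tay_sum fun l => (hF i l).mul (hG l m)]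
  simp [fun l => tay_mul1 (hF i l) (hG l m), h, h']

theorem tM_mul2 (hF : S0 F) (hG : S0 G) (h : F 0 = 0) (h' : G 0 = 0) :
    tM (fun z => F z * G z) 2 = tM F 1 * tM G 1 := by
  ext1 i m
  simp only [tM, Matrix.mul_apply, Matrix.of_apply]
  rw [tay_sum fun l => (hF i l).mul (hG l m)]
  simp [fun l => tay_mul2 (hF i l) (hG l m), h, h']

theorem tM_smul1 (hf : ContDiffAt ℝ ∞ f 0) (hG : S0 G) (h : G 0 = 0) :
    tM (fun z => f z • G z) 1 = f 0 • tM G 1 := by
  ext1 i m
  simp only [tM, Matrix.smul_apply, Matrix.of_apply, smul_eq_mul]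
  rw [tay_mul1 hf (hG i m)]
  simp [h, smul_eq_C_mul]

theorem tM_smul2 (hf : ContDiffAt ℝ ∞ f 0) (hG : S0 G) (h : G 0 = 0) (h' : tM G 1 = 0) :
    tM (fun z => f z • G z) 2 = f 0 • tM G 2 := by
  ext1 i m
  have : tay (fun w => G w i m) 1 = 0 := congrFun (congrFun h' i) m
  simp only [tM, Matrix.smul_apply, Matrix.of_apply, smul_eq_mul]
  rw [tay_mul2 hf (hG i m)]
  simp [h, this, smul_eq_C_mul]

theorem tM_one (F : V → Mat N) : tM F 1 = lf fun i => pdM i F 0 := by
  ext1 i m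
  refine ev_ext fun x => ?_
  have hx : x = ∑ j : Fin 4, x j • EuclideanSpace.single j (1 : ℝ) := by
    ext j
    simp [Finset.sum_apply, Pi.single_apply]
  have : ev x (lf (fun i => pdM i F 0) i m) = evM x (lf fun i => pdM i F 0) i m := rfl
  rw [this]
  simp only [lf, map_sum, evM_smul, evM_cst, ev_X, Matrix.sum_apply, Matrix.smul_apply, tM,
    Matrix.of_apply, ev_tay1, pdM, pd, smul_eq_mul]
  conv_lhs => rw [hx]
  simp only [map_sum, map_smul, Complex.real_smul]

theorem tay_real {a : V → ℝ} (ha : ContDiffAt ℝ ∞ a 0) (l : ℕ) (x : V) :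
    (ev x (tay (fun z => (a z : ℂ)) l)).im = 0 := by
  have := Complex.ofRealCLM.iteratedFDeriv_comp_left ha (nle l)
  rw [ev_tay, show (fun z => (a z : ℂ)) = Complex.ofRealCLM ∘ a from rfl, this,
    ← Complex.ofReal_natCast, ← Complex.ofReal_inv]
  simp

end Vale.Agent.P267I.Z9
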