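import Vale.Agent.P267I.Y11
import Vale.Agent.P267I.Y15
import Vale.Agent.P267I.Y16
import Vale.Agent.P267I.Y18
import Vale.Agent.P267I.Y19

/-! The structure of the coefficients of the parametrix. -/

open Matrix Finset MvPolynomial Filter Topology Metric
open scoped ContDiff Matrix.Norms.L2Operator

noncomputable section

namespace Vale.Agent.P267I.KA

open Vale.Agent.P267J

variable {N : ℕ} {τ : Mat N →L[ℝ] ℝ} {W g : Submodule ℝ (Mat N)} {r : ℝ} {L : H.Lap N}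

theorem nf_of (C : Cl N) (hA : K.Alg τ W g) (hτ : ∀ Y, τ Y = (C.gam * Y).trace.re) (hr : 0 < r)
    (hL : L.Ok W g r) (h0 : ∀ j, L.A j 0 = 0) :
    NF (fun j k => H.pdM k (L.A j) 0) C.gam (L.E 0) L.op where
  af := af_of C hA hτ hr hL
  a j k l := tay_real (L.a j k) l
  b0 := nf_b0 h0
  b1 := nf_b1 hr hL h0
  b := nf_b hA hτ hr hL
  c0 := nf_c0 hL h0
  c1 := by rw [TC_eq hr hL, c2_one hr hL h0, sub_zero]; exact c1_rq hA hτ hr hL 1
  c2 := by rw [TC_eq hr hL, c2_two hr hL h0, sub_add_cancel]; exact c1_rq hA hτ hr hL 2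
  ρ := by show ((L.ρ 0 : ℝ) : ℂ) = 1; rw [hL.ρ0]; simp

theorem zs_map_add (x : V) (P Q : PM N) : (P + Q).map (ev x) = P.map (ev x) + Q.map (ev x) := by
  ext i m; simp

theorem zs_map_sub (x : V) (P Q : PM N) : (P - Q).map (ev x) = P.map (ev x) - Q.map (ev x) := by
  ext i m; simp

theorem zs_map_mul (x : V) (P Q : PM N) : (P * Q).map (ev x) = P.map (ev x) * Q.map (ev x) :=
  Matrix.map_mul

theorem zs_half (x : V) (P : PM N) :
    ((C 2⁻¹ : Py) • P).map (ev x) = (1 / 2 : ℝ) • P.map (ev x) := by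
  ext i m; simp [ev]

theorem zs_Sc {Q : PM N} (h : Sc Q) (x : V) : ∃ s : ℝ, Q.map (ev x) = s • (1 : Mat N) := by
  obtain ⟨s, hs, rfl⟩ := h
  refine ⟨(ev x s).re, ?_⟩
  ext i m
  by_cases him : i = m
  · subst him
    simpa using hs.ev_re x
  · simp [him]

theorem zs_tr {γ : Mat N} {Q : PM N} (h : rq γ Q = 0) (x : V) : tr γ (Q.map (ev x)) = 0 := by
  have h1 := ev_rq (γ := γ) x Q
  rw [h, map_zero] at h1
  have h2 : (2 * tr γ (Q.map (ev x)) : ℝ) = 0 := by exact_mod_cast h1.symm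
  linarith

end Vale.Agent.P267I.KA

namespace Vale.Agent.P267I.Z

open Vale.Agent.P267J Vale.Agent.P267I.KA

variable {N : ℕ} {τ : Mat N →L[ℝ] ℝ} {W g : Submodule ℝ (Mat N)} {r : ℝ} {L : H.Lap N}

theorem str_ex (C : Cl N) (hA : K.Alg τ W g) (hτ : ∀ Y, τ Y = (C.gam * Y).trace.re) (hr : 0 < r)
    (hL : L.Ok W g r) (h0 : ∀ j, L.A j 0 = 0) : Str L C.gam := by
  have hn := nf_of C hA hτ hr hL h0
  have hs := rs_of hn
  refine ⟨fun x => ?_, fun x => ?_, fun x => ?_, fun x => ?_, fun x => ?_⟩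
  · rw [← ev_PP, hs.p0]
    ext i m
    by_cases him : i = m
    · subst him; simp
    · simp [him]
  · rw [← ev_PP]; exact zs_Sc hs.p1 x
  · obtain ⟨s, h⟩ := zs_Sc hs.p2 x
    rw [zs_map_add, zs_map_add, zs_half, ev_PP, ev_cm, ev_sx] at h
    exact ⟨s, by rw [← h]; abel⟩
  · have h := zs_tr hs.p3 x
    rwa [ev_PP] at h
  · have h := zs_tr hs.p4 x
    rw [zs_map_sub, ev_PP, ev_P4 h0] at h
    have h2 := zs_tr (SK.mulE hn.af SK_sx) x
    rw [zs_map_mul, ev_sx, ev_cm] at h2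
    have e : PK L.op 4 x - (P4 L x + (1 / 2 : ℝ) • (sg L x * L.E 0) +
        (1 / 8 : ℝ) • (sg L x * sg L x)) = (PK L.op 4 x - (P4 L x +
        (1 / 8 : ℝ) • (sg L x * sg L x))) - (1 / 2 : ℝ) • (sg L x * L.E 0) := by abel
    unfold KA.tr at h h2
    rw [e, Matrix.mul_sub, trace_sub, Complex.sub_re, h, Matrix.mul_smul, trace_smul,
      Complex.smul_re, h2]
    simp

end Vale.Agent.P267I.Z
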