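import Vale.Agent.P267I.ZB
import Vale.Agent.P267I.ZStr

/-! The algebra of the heat coefficients in a gauge vanishing at the origin. -/

namespace Vale.Agent.P267I.KA

theorem alg0 (N : ℕ) : H.Alg0 N :=
  Z.alg0_of fun C _ _ _ _ _ hA hτ hr hL h0 => Z.str_ex C hA hτ hr hL h0

end Vale.Agent.P267I.KA
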